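import Vale.Agent.P134.A2Defs

/-! P134, block A2: radial exponential barriers. -/

open Filter Topology
open scoped ContDiff Laplacian

namespace Vale.Agent.P134

namespace A2Bar

variable {n : ℕ}

theorem sm (a : ℝ) (y : E n) : ContDiff ℝ ∞ fun z : E n => a ^ 2 + ‖z - y‖ ^ 2 :=
  contDiff_const.add ((contDiff_id.sub contDiff_const).norm_sq ℝ)

theorem d1 (a : ℝ) (y : E n) (i : Fin n) :
    dv (ev i) (fun z : E n => a ^ 2 + ‖z - y‖ ^ 2) = fun z => 2 * (z i - y i) := by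
  funext z
  have h := (((hasFDerivAt_id (𝕜 := ℝ) z).sub_const y).norm_sq).const_add (a ^ 2)
  have h2 : fderiv ℝ (fun z : E n => a ^ 2 + ‖z - y‖ ^ 2) z = _ := h.fderiv
  rw [dv, h2]
  simp [ev, EuclideanSpace.inner_single_right]

theorem d2 (y x : E n) (i : Fin n) : dv (ev i) (fun z : E n => 2 * (z i - y i)) x = 2 := by
  have h := (((EuclideanSpace.proj i : E n →L[ℝ] ℝ).hasFDerivAt (x := x)).sub_const
    (y i)).const_mul 2
  have h2 : fderiv ℝ (fun z : E n => 2 * (z i - y i)) x = _ := h.fderiv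
  rw [dv, h2]
  simp [ev]

theorem lap (a : ℝ) (y x : E n) : Δ (fun z : E n => a ^ 2 + ‖z - y‖ ^ 2) x = 2 * n := by
  rw [lap_eq ((sm a y).contDiffAt.of_le two_le_oo)]
  simp only [d1, d2, Finset.sum_const, Finset.card_univ, Fintype.card_fin, nsmul_eq_mul]
  ring

theorem gr (a : ℝ) (y x : E n) :
    ‖fderiv ℝ (fun z : E n => a ^ 2 + ‖z - y‖ ^ 2) x‖ ^ 2 = 4 * ‖x - y‖ ^ 2 := by
  rw [norm_sq_fderiv, EuclideanSpace.norm_sq_eq, Finset.mul_sum]
  refine Finset.sum_congr rfl fun i _ => ?_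
  rw [d1, Real.norm_eq_abs, sq_abs, PiLp.sub_apply]
  ring

theorem g1 (α : ℝ) {s : ℝ} (hs : 0 < s) : HasDerivAt (fun s => Real.exp (α * √s))
    (Real.exp (α * √s) * (α * (1 / (2 * √s)))) s :=
  ((Real.hasDerivAt_sqrt hs.ne').const_mul α).exp

theorem g2 (α : ℝ) {s : ℝ} (hs : 0 < s) :
    HasDerivAt (fun s => Real.exp (α * √s) * (α * (1 / (2 * √s))))
      (Real.exp (α * √s) * (α ^ 2 / (4 * √s ^ 2) - α / (4 * √s ^ 3))) s := by
  have h0 : √s ≠ 0 := (Real.sqrt_pos.2 hs).ne'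
  have h := (g1 α hs).mul (((hasDerivAt_const s (1 : ℝ)).div
    ((Real.hasDerivAt_sqrt hs.ne').const_mul 2) (mul_ne_zero two_ne_zero h0)).const_mul α)
  refine h.congr_deriv ?_
  simp only [Pi.div_apply]
  field_simp
  ring

end A2Bar

open A2Bar in
theorem a2_bar : A2_bar := by
  intro n a α y ha
  have hp : ∀ z : E n, 0 < a ^ 2 + ‖z - y‖ ^ 2 := fun z => by positivity
  refine ⟨(contDiff_const.mul ((sm a y).sqrt fun z => (hp z).ne')).exp, fun z ρ hρ => ?_⟩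
  have hρ0 : 0 < ρ := hρ ▸ Real.sqrt_pos.2 (hp z)
  have h2 : ‖z - y‖ ^ 2 = ρ ^ 2 - a ^ 2 := by rw [hρ, Real.sq_sqrt (hp z).le]; ring
  have h := lap_comp (f := fun z : E n => a ^ 2 + ‖z - y‖ ^ 2) (x := z)
    (G := fun s => Real.exp (α * √s))
    (contDiffAt_const.mul (Real.contDiffAt_sqrt (hp z).ne')).exp
    ((lt_mem_nhds (hp z)).mono fun s hs => g1 α hs) (g2 α (hp z))
    ((sm a y).contDiffAt.of_le two_le_oo)
  rw [h, lap, gr, ← hρ, h2]
  field_simp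
  ring

end Vale.Agent.P134
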