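import Vale.Agent.P134.A2Defs

/-! P134, block A2: elementary facts on `v`, `P`, `s`, `V`. -/

open Filter Topology
open scoped ContDiff Laplacian

namespace Vale.Agent.P134

namespace A2Bas

theorem s2 : √2 * √2 = 2 := Real.mul_self_sqrt (by norm_num)

theorem s0 : 0 < √2 := by positivity

theorem d1 {t : ℝ} (ht : |t| < 1) :
    HasDerivAt (fun t : ℝ => (Real.log (1 + t) - Real.log (1 - t)) / √2) (√2 / (1 - t ^ 2)) t := by
  obtain ⟨h1, h2⟩ := abs_lt.1 ht
  have a : (0 : ℝ) < 1 + t := by linarith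
  have b : (0 : ℝ) < 1 - t := by linarith
  have h := ((((hasDerivAt_id' t).const_add 1).log a.ne').sub
    (((hasDerivAt_id' t).const_sub 1).log b.ne')).div_const √2
  refine h.congr_deriv ?_
  have e : 1 - t ^ 2 = (1 + t) * (1 - t) := by ring
  rw [e, div_eq_iff s0.ne', div_mul_eq_mul_div, s2]
  field_simp
  ring

theorem d2 {t : ℝ} (ht : |t| < 1) :
    HasDerivAt (fun t : ℝ => √2 / (1 - t ^ 2)) (2 * √2 * t / (1 - t ^ 2) ^ 2) t := by
  have a : 1 - t ^ 2 ≠ 0 := (sub_pos.2 ((sq_lt_one_iff_abs_lt_one t).2 ht)).ne'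
  have h := (hasDerivAt_const t √2).div ((hasDerivAt_pow 2 t).const_sub 1) a
  refine h.congr_deriv ?_
  congr 1
  norm_num
  ring

theorem d3 (t : ℝ) : HasDerivAt (fun t : ℝ => (1 - t ^ 2) / √2) (-(√2 * t)) t := by
  refine (((hasDerivAt_pow 2 t).const_sub 1).div_const √2).congr_deriv ?_
  rw [div_eq_iff s0.ne']
  norm_num
  linear_combination (-t) * s2

theorem th {t : ℝ} (ht : |t| < 1) :
    t = Real.tanh ((Real.log (1 + t) - Real.log (1 - t)) / √2 / √2) := by
  obtain ⟨h1, h2⟩ := abs_lt.1 ht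
  have a : (0 : ℝ) < 1 + t := by linarith
  have b : (0 : ℝ) < 1 - t := by linarith
  rw [div_div, s2, ← Real.log_div a.ne' b.ne', ← Real.log_sqrt (div_pos a b).le]
  exact (Real.tanh_artanh ⟨h1, h2⟩).symm

end A2Bas

open A2Bas in
theorem a2_bas : A2_bas := by
  intro n u h
  have sm := h.sol.sm
  have df : ∀ x, DifferentiableAt ℝ u x := fun x => sm.differentiable (by simp) x
  have c2 : ∀ x, ContDiffAt ℝ 2 u x := fun x => (sm.of_le two_le_oo).contDiffAt
  have q : ∀ x, 0 < 1 - u x ^ 2 := fun x => sub_pos.2 ((sq_lt_one_iff_abs_lt_one _).2 (h.lt x))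
  have eP : ∀ x, √2 * PP u x = 1 - u x ^ 2 := fun x => mul_div_cancel₀ _ s0.ne'
  have Ppos : ∀ x, 0 < PP u x := fun x => div_pos (q x) s0
  have Ple : ∀ x, √2 * PP u x ≤ 1 := fun x => by
    rw [eP]
    exact sub_le_self _ (sq_nonneg _)
  have smv : ContDiff ℝ ∞ (vv u) :=
    (((contDiff_const.add sm).log fun x => by linarith [(abs_lt.1 (h.lt x)).1]).sub
      ((contDiff_const.sub sm).log fun x => by linarith [(abs_lt.1 (h.lt x)).2])).div_const _
  have smP : ContDiff ℝ ∞ (PP u) := (contDiff_const.sub (sm.pow 2)).div_const _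
  have sms : ContDiff ℝ ∞ (ss u) := by
    rw [show ss u = fun x => 1 - ∑ i, dv (ev i) (vv u) x ^ 2 from funext fun x => by
      rw [ss, norm_sq_fderiv]]
    exact contDiff_const.sub (ContDiff.sum fun i _ => (smooth_dv smv _).pow 2)
  have du : ∀ x, fderiv ℝ u x = PP u x • fderiv ℝ (vv u) x := fun x => by
    have e : fderiv ℝ (vv u) x = _ := fderiv_comp1 (d1 (h.lt x)) (df x)
    rw [e, smul_smul, mul_div_assoc', mul_comm, eP, div_self (q x).ne', one_smul]
  have nu : ∀ x, ‖fderiv ℝ u x‖ ^ 2 = (1 - u x ^ 2) ^ 2 / 2 * (1 - ss u x) := fun x => by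
    rw [du, norm_smul, mul_pow, Real.norm_eq_abs, sq_abs, ss, sub_sub_cancel, ← eP]
    congr 1
    linear_combination (-(PP u x ^ 2) / 2) * s2
  have p0 : ∀ x, 0 ≤ ss u x := fun x => by
    have a := h.md x
    rw [nu] at a
    have b : 0 < (1 - u x ^ 2) ^ 2 / 2 := half_pos (pow_pos (q x) 2)
    have := (mul_le_iff_le_one_right b).1 a
    linarith
  refine ⟨smv, smP, sms, (contDiff_const.mul smP).mul sms, fun x => th (h.lt x), Ppos, Ple, du,
    fun x => ?_, p0, fun x => sub_le_self _ (sq_nonneg _),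
    fun x => mul_nonneg (mul_pos s0 (Ppos x)).le (p0 x),
    fun x => mul_le_of_le_one_left (p0 x) (Ple x), fun x => ?_, fun x => ?_⟩
  · have e : fderiv ℝ (PP u) x = _ := fderiv_comp1 (d3 (u x)) (df x)
    rw [e, du, smul_smul, neg_mul]
  · obtain ⟨h1, h2⟩ := abs_lt.1 (h.lt x)
    have e : Δ (vv u) x = _ := lap_comp (G := fun t => (Real.log (1 + t) - Real.log (1 - t)) / √2)
      ((((contDiffAt_const.add contDiffAt_id).log (by simp only [id]; linarith)).sub
        ((contDiffAt_const.sub contDiffAt_id).log (by simp only [id]; linarith))).div_const _)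
      (Filter.mem_of_superset (Ioo_mem_nhds h1 h2) fun t ht => d1 (abs_lt.2 ht))
      (d2 (h.lt x)) (c2 x)
    have := (q x).ne'
    rw [e, nu, h.sol.eq]
    field_simp
    ring
  · have e : Δ (PP u) x = _ := lap_comp (G := fun t => (1 - t ^ 2) / √2) (G2 := -√2)
      (by fun_prop) (Eventually.of_forall d3)
      (((hasDerivAt_id' (u x)).const_mul √2).fun_neg.congr_deriv (by rw [mul_one])) (c2 x)
    rw [e, nu, h.sol.eq, PP, div_mul_eq_mul_div _ √2, eq_div_iff s0.ne']
    linear_combination (-(u x * (u x ^ 3 - u x)) - (1 - u x ^ 2) ^ 2 / 2 * (1 - ss u x)) * s2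

end Vale.Agent.P134
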