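import Vale.Agent.P134.A2Defs

/-! P134, block A2: decay of `P` away from the zero set. -/

open Filter Topology
open scoped ContDiff Laplacian

namespace Vale.Agent.P134

theorem A2Dec.num {n a ρ : ℝ} (hn : 0 ≤ n) (ha : a = 10 * n + 1) (h : a ≤ ρ) :
    (13 / 10 : ℝ) ^ 2 * (1 - a ^ 2 / ρ ^ 2) + 13 / 10 * ((n - 1) / ρ + a ^ 2 / ρ ^ 3) ≤ 37 / 20 := by
  have a0 : 0 < a := by linarith
  have r0 : 0 < ρ := by linarith
  have h1 : 0 ≤ a ^ 2 / ρ ^ 2 := by positivity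
  have h2 : a ^ 2 / ρ ^ 3 ≤ 1 / ρ := by
    rw [div_le_div_iff₀ (by positivity) r0]
    nlinarith [mul_le_mul_of_nonneg_right (pow_le_pow_left₀ a0.le h 2) r0.le]
  have h3 : (n - 1) / ρ + 1 / ρ ≤ 1 / 10 := by
    rw [← add_div, div_le_iff₀ r0]
    linarith
  linarith

theorem a2_dec (h0 : A2_bas) (hm : A2_mp) (hb : A2_bar) (hl : A2_lev) : A2_dec := by
  intro n
  obtain ⟨R0, -, hR⟩ := hl n
  obtain ⟨a, ha⟩ : ∃ a : ℝ, a = 10 * n + 1 := ⟨_, rfl⟩
  have a0 : 0 < a := by rw [ha]; positivity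
  refine ⟨Real.exp (13 / 10 * (a + R0)), Real.exp_pos _, fun u hu x R hz => ?_⟩
  have B := h0 n u hu
  obtain ⟨s1, s2⟩ := hb n a (13 / 10) x a0
  obtain ⟨c, hc⟩ : ∃ c : ℝ, c = Real.exp (-(13 / 10 * (R - R0))) := ⟨_, rfl⟩
  have c0 : 0 < c := hc ▸ Real.exp_pos _
  have P1 : ∀ z, PP u z ≤ 1 := fun z => by
    have := B.Ple z
    have := mul_le_mul_of_nonneg_right (Real.one_le_sqrt.2 (one_le_two (α := ℝ))) (B.Ppos z).le
    linarith
  have t1 : ContDiff ℝ 2 (PP u) := B.smP.of_le two_le_oo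
  have t2 := s1.of_le two_le_oo
  have k := hm n (fun z => PP u z - c * Real.exp (13 / 10 * √(a ^ 2 + ‖z - x‖ ^ 2)))
    (fun _ _ => 0) 0 1 (t1.sub (contDiff_const.mul t2))
    (fun z => by
      have := P1 z
      have := mul_pos c0 (Real.exp_pos (13 / 10 * √(a ^ 2 + ‖z - x‖ ^ 2)))
      linarith)
    (fun _ _ => by simp) (fun z hF => ?_) x
  · simp only [sub_self, norm_zero, ne_eq, OfNat.ofNat_ne_zero, not_false_eq_true, zero_pow,
      add_zero, Real.sqrt_sq a0.le, hc, ← Real.exp_add, sub_nonpos] at k ⊢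
    exact k.trans_eq (congrArg Real.exp (by ring))
  · rw [lap_sub t1.contDiffAt (contDiff_const.mul t2).contDiffAt, lap_const_mul t2.contDiffAt,
      s2 z _ rfl, B.lapP]
    have r1 : a ≤ √(a ^ 2 + ‖z - x‖ ^ 2) := Real.le_sqrt_of_sq_le (by nlinarith)
    have r2 : ‖z - x‖ ≤ √(a ^ 2 + ‖z - x‖ ^ 2) := Real.le_sqrt_of_sq_le (by nlinarith)
    obtain ⟨ρ, hρ⟩ : ∃ ρ, ρ = √(a ^ 2 + ‖z - x‖ ^ 2) := ⟨_, rfl⟩
    rw [← hρ] at hF r1 r2 ⊢
    have e1 : c * Real.exp (13 / 10 * ρ) < 1 := by linarith [P1 z]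
    have e2 := mul_pos c0 (Real.exp_pos (13 / 10 * ρ))
    have e3 : ρ < R - R0 := by
      rw [hc, ← Real.exp_add, Real.exp_lt_one_iff] at e1
      linarith
    have e4 := hR u hu.sol z fun w hw => hz w (by
      have := dist_triangle w z x
      rw [dist_eq_norm z x] at this
      linarith)
    have e5 := mul_le_mul_of_nonneg_left (A2Dec.num (Nat.cast_nonneg n) ha r1) e2.le
    have e6 : 37 / 20 ≤ (3 * u z ^ 2 - 1) * (1 - ss u z) + 2 * u z ^ 2 * ss u z := by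
      nlinarith [B.s0 z, B.s1 z]
    have e7 := mul_le_mul_of_nonneg_left e6 (B.Ppos z).le
    simp only [zero_mul, Finset.sum_const_zero, add_zero]
    linarith

end Vale.Agent.P134
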