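import Vale.Agent.P134.RCalc

/-! P134, block A2: the functions `v`, `P`, `s`, `V` and the statements of block A2. -/

open Filter Topology
open scoped ContDiff Laplacian

namespace Vale.Agent.P134

noncomputable section

variable {n : ℕ}

/-- `P = (1 - u ^ 2) / √2` -/
def PP (u : E n → ℝ) (x : E n) : ℝ := (1 - u x ^ 2) / √2

/-- `v = √2 artanh u` -/
def vv (u : E n → ℝ) (x : E n) : ℝ := (Real.log (1 + u x) - Real.log (1 - u x)) / √2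

/-- `s = 1 - |D v| ^ 2` -/
def ss (u : E n → ℝ) (x : E n) : ℝ := 1 - ‖fderiv ℝ (vv u) x‖ ^ 2

/-- `V = √2 P s` -/
def VV (u : E n → ℝ) (x : E n) : ℝ := √2 * PP u x * ss u x

/-- solutions with values in the open interval, satisfying Modica's estimate -/
structure Nd (u : E n → ℝ) : Prop where
  sol : Sol u
  lt : ∀ x, |u x| < 1
  md : ∀ x, ‖fderiv ℝ u x‖ ^ 2 ≤ (1 - u x ^ 2) ^ 2 / 2

/-- elementary facts -/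
structure Bas (u : E n → ℝ) : Prop where
  smv : ContDiff ℝ ∞ (vv u)
  smP : ContDiff ℝ ∞ (PP u)
  sms : ContDiff ℝ ∞ (ss u)
  smV : ContDiff ℝ ∞ (VV u)
  th : ∀ x, u x = Real.tanh (vv u x / √2)
  Ppos : ∀ x, 0 < PP u x
  Ple : ∀ x, √2 * PP u x ≤ 1
  du : ∀ x, fderiv ℝ u x = PP u x • fderiv ℝ (vv u) x
  dP : ∀ x, fderiv ℝ (PP u) x = (-(√2 * u x * PP u x)) • fderiv ℝ (vv u) x
  s0 : ∀ x, 0 ≤ ss u x
  s1 : ∀ x, ss u x ≤ 1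
  V0 : ∀ x, 0 ≤ VV u x
  Vs : ∀ x, VV u x ≤ ss u x
  lapv : ∀ x, Δ (vv u) x = -(√2 * u x * ss u x)
  lapP : ∀ x, Δ (PP u) x = PP u x * ((3 * u x ^ 2 - 1) * (1 - ss u x) + 2 * u x ^ 2 * ss u x)

def A2_bas : Prop := ∀ (n : ℕ) (u : E n → ℝ), Nd u → Bas u

/-- maximum principle on the whole space, with a bounded drift -/
def A2_mp : Prop := ∀ (n : ℕ) (F : E n → ℝ) (b : Fin n → E n → ℝ) (B M : ℝ), ContDiff ℝ 2 F →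
  (∀ x, F x ≤ M) → (∀ i x, |b i x| ≤ B) →
  (∀ x, 0 < F x → F x ≤ Δ F x + ∑ i, b i x * dv (ev i) F x) → ∀ x, F x ≤ 0

/-- the pointwise estimates -/
def A2_est : Prop := ∀ (n : ℕ) (u : E n → ℝ), Nd u → ∃ C : ℝ, 0 < C ∧ ∀ x,
  ‖iteratedFDeriv ℝ 2 (vv u) x‖ ^ 2 ≤ C * ss u x ∧ ‖iteratedFDeriv ℝ 3 (vv u) x‖ ^ 2 ≤ C * ss u x ∧
  ‖fderiv ℝ (ss u) x‖ ≤ C * ss u x ∧ ‖fderiv ℝ (VV u) x‖ ≤ C * VV u x ∧
  Δ (VV u) x ≤ 2 * VV u x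

/-- radial exponential barriers -/
def A2_bar : Prop := ∀ (n : ℕ) (a α : ℝ) (y : E n), 0 < a →
  ContDiff ℝ ∞ (fun z : E n => Real.exp (α * √(a ^ 2 + ‖z - y‖ ^ 2))) ∧ ∀ (z : E n) (ρ : ℝ),
    ρ = √(a ^ 2 + ‖z - y‖ ^ 2) → Δ (fun z : E n => Real.exp (α * √(a ^ 2 + ‖z - y‖ ^ 2))) z =
      Real.exp (α * ρ) * (α ^ 2 * (1 - a ^ 2 / ρ ^ 2) + α * ((n - 1) / ρ + a ^ 2 / ρ ^ 3))

/-- Harnack inequality with exponent `3 / 2` for supersolutions of `Δ - 2` -/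
def A2_hr : Prop := ∀ (W : E 3 → ℝ) (C : ℝ), ContDiff ℝ 2 W → (∀ x, 0 ≤ W x) →
  (∀ x, Δ W x ≤ 2 * W x) → (∀ x, ‖fderiv ℝ W x‖ ≤ C * W x) →
  (∀ x y, W y ≤ Real.exp (C * dist x y) * W x) ∧
    ∃ K : ℝ, 0 < K ∧ ∀ x y, W y ≤ K * Real.exp (3 / 2 * dist x y) * W x

/-- away from the zero set a solution is close to `± 1` -/
def A2_lev : Prop := ∀ n : ℕ, ∃ R : ℝ, 0 < R ∧ ∀ u : E n → ℝ, Sol u → ∀ x,
  (∀ z, dist z x ≤ R → u z ≠ 0) → 19 / 20 ≤ u x ^ 2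

/-- decay of `P` away from the zero set -/
def A2_dec : Prop := ∀ n : ℕ, ∃ K : ℝ, 0 < K ∧ ∀ u : E n → ℝ, Nd u → ∀ (x : E n) (R : ℝ),
  (∀ z, dist z x < R → u z ≠ 0) → PP u x ≤ K * Real.exp (-(13 / 10 * R))

/-- Harnack inequalities for `s` and `V` -/
def A2_har : Prop := ∀ u : E 3 → ℝ, Nd u → ∃ C K : ℝ, 0 < C ∧ 0 < K ∧ ∀ x y,
  ss u y ≤ Real.exp (C * dist x y) * ss u x ∧ VV u y ≤ Real.exp (C * dist x y) * VV u x ∧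
    VV u y ≤ K * Real.exp (3 / 2 * dist x y) * VV u x

end

end Vale.Agent.P134
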