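import Vale.Agent.P134.A2Log

/-! P134, block A2: the estimates for `v` in a differential ring. -/

namespace Vale.Agent.P134.A2

variable {n : ℕ} {R X : Type} [CommRing R] [Algebra ℝ R]

/-- the Allen-Cahn relations -/
structure AC (d : Fin n → Derivation ℝ R R) (φ : X → R →ₐ[ℝ] ℝ) (κ u P v s : R) : Prop where
  ctx : Ctx d φ
  hκ : κ = algebraMap ℝ R √2
  du : ∀ i, d i u = P * d i v
  dP : ∀ i, d i P = -(κ * u * P) * d i v
  hs : s = 1 - ∑ i, d i v * d i v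
  lv : ∑ i, d i (d i v) = -(κ * u * s)
  kP : κ * P = 1 - u * u
  Ppos : ∀ x, 0 < φ x P
  s0 : ∀ x, 0 ≤ φ x s
  u1 : ∀ x, φ x u ^ 2 ≤ 1
  b2 : ∀ i j, Sq φ 1 (d j (d i u))
  b3 : ∀ i j k, Sq φ 1 (d k (d j (d i u)))

variable {d : Fin n → Derivation ℝ R R} {φ : X → R →ₐ[ℝ] ℝ} {κ u P v s : R}

theorem Sq.self (W : R) : Sq φ (W * W) W := ⟨1, zero_le_one, fun x => by simp [pow_two]⟩

theorem Sq.div {g : R} (hP : ∀ x, 0 < φ x P) (h : Sq φ (P * P) (P * g)) : Sq φ 1 g := by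
  obtain ⟨C, c, h⟩ := h
  refine ⟨C, c, fun x => le_of_mul_le_mul_left ?_ (mul_pos (hP x) (hP x))⟩
  have := h x
  simp only [map_mul, map_one] at this ⊢
  linarith

namespace AC

variable (h : AC d φ κ u P v s)
include h

theorem kk : κ * κ = 2 := by
  rw [h.hκ, ← map_mul, Real.mul_self_sqrt zero_le_two, map_ofNat]

theorem dk (i : Fin n) : d i κ = 0 := by rw [h.hκ, Derivation.map_algebraMap]

theorem evk (x : X) : φ x κ = √2 := by rw [h.hκ, AlgHom.commutes]; rfl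

theorem pp : ∑ i, d i v * d i v = 1 - s := by rw [h.hs]; ring

theorem evp (x : X) : ∑ i, φ x (d i v) ^ 2 = 1 - φ x s := by
  have := congrArg (φ x) h.pp
  simpa only [map_sum, map_mul, map_sub, map_one, pow_two] using this

theorem s1 (x : X) : φ x s ≤ 1 := by
  have : 0 ≤ ∑ i, φ x (d i v) ^ 2 := by positivity
  linarith [h.evp x]

theorem evP (x : X) : φ x κ * φ x P = 1 - φ x u ^ 2 := by
  rw [← map_mul, h.kP, map_sub, map_one, map_mul, pow_two]

theorem bk : Sq φ 1 κ := h.hκ ▸ (md φ 1).ac _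

theorem bu : Sq φ 1 u := ⟨1, zero_le_one, fun x => by simpa using h.u1 x⟩

theorem bp (i : Fin n) : Sq φ 1 (d i v) := ⟨1, zero_le_one, fun x => by
  have := Finset.single_le_sum (f := fun i => φ x (d i v) ^ 2) (fun _ _ => sq_nonneg _)
    (Finset.mem_univ i)
  rw [h.evp] at this
  simp only [map_one, mul_one]
  linarith [h.s0 x]⟩

theorem bs : Sq φ 1 s := ⟨1, zero_le_one, fun x => by
  simp only [map_one, mul_one]; nlinarith [h.s0 x, h.s1 x]⟩

theorem ss : Sq φ s s := ⟨1, zero_le_one, fun x => by nlinarith [h.s0 x, h.s1 x]⟩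

theorem bP : Sq φ 1 P := by
  have m := md φ 1
  have e : P = algebraMap ℝ R (1 / 2) * (κ * (1 - u * u)) := by
    have e2 : algebraMap ℝ R (1 / 2) * 2 = 1 := by
      rw [← map_ofNat (algebraMap ℝ R) 2, ← map_mul]; norm_num
    rw [← h.kP, ← mul_assoc κ, h.kk, ← mul_assoc, e2, one_mul]
  rw [e]
  exact m.sm (m.ac _) (m.sm h.bk (m.sub m.one (m.sm h.bu h.bu)))

theorem ds (k : Fin n) : d k s = -(2 * ∑ i, d i v * d k (d i v)) := by
  rw [h.hs]
  simp only [map_sub, map_sum, Derivation.leibniz, smul_eq_mul, Derivation.map_one_eq_zero,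
    Finset.mul_sum, zero_sub, two_mul]

theorem lapP : Lop d 0 P = P * (2 * (u * u) - (1 - u * u) * (1 - s)) := by
  have e : ∀ i, d i (d i P) = -(κ * u * P) * d i (d i v) +
      P * (2 * (u * u) - (1 - u * u)) * (d i v * d i v) := fun i => by
    rw [h.dP]
    simp only [Derivation.leibniz, smul_eq_mul, map_neg, h.dk, h.du, h.dP]
    linear_combination (-(P * d i v * d i v)) * h.kP + (u * u * P * d i v * d i v) * h.kk
  simp only [L_apply, e, Finset.sum_add_distrib, ← Finset.mul_sum, h.lv, h.pp, Pi.zero_apply,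
    zero_mul, Finset.sum_const_zero]
  linear_combination (u * u * P * s) * h.kk

theorem lapu : Lop d 0 u = u * u * u - u := by
  have e : ∀ i, d i (d i u) = P * d i (d i v) - κ * u * P * (d i v * d i v) := fun i => by
    rw [h.du]
    simp only [Derivation.leibniz, smul_eq_mul, h.dP]
    ring
  simp only [L_apply, e, Finset.sum_sub_distrib, ← Finset.mul_sum, h.lv, h.pp, Pi.zero_apply,
    zero_mul, Finset.sum_const_zero]
  linear_combination (-u) * h.kP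

theorem lapui (i : Fin n) : Lop d 0 (d i u) = (3 * (u * u) - 1) * d i u := by
  rw [L_d h.ctx, h.lapu]
  simp only [Pi.zero_apply, map_zero, zero_mul, Finset.sum_const_zero, map_sub,
    Derivation.leibniz, smul_eq_mul]
  ring

theorem lapuij (i j : Fin n) : Lop d 0 (d j (d i u)) =
    (3 * (u * u) - 1) * d j (d i u) + 6 * u * d j u * d i u := by
  rw [L_d h.ctx, h.lapui]
  have e3 : d j (3 : R) = 0 := by simpa using (d j).map_natCast 3
  simp only [Pi.zero_apply, map_zero, zero_mul, Finset.sum_const_zero, map_sub,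
    Derivation.leibniz, smul_eq_mul, e3, Derivation.map_one_eq_zero]
  ring

theorem lapPP (x : X) : φ x (Lop d 0 (P * P)) ≤ 8 * φ x (P * P) := by
  have e : ∑ i, d i P * d i P = 2 * (u * u) * (P * P) * (1 - s) := by
    rw [← h.pp, Finset.mul_sum]
    refine Finset.sum_congr rfl fun i _ => ?_
    rw [h.dP]
    linear_combination (u * u * P * P * d i v * d i v) * h.kk
  rw [L_mul, e, h.lapP]
  simp only [map_add, map_mul, map_sub, map_one, map_ofNat]
  have e1 : 0 ≤ (1 - φ x u ^ 2) * (1 - φ x s) := mul_nonneg (by linarith [h.u1 x])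
    (by linarith [h.s1 x])
  have e2 : φ x u ^ 2 * (1 - φ x s) ≤ 1 := by nlinarith [h.u1 x, h.s0 x, h.s1 x, sq_nonneg (φ x u)]
  have e3 := mul_self_nonneg (φ x P)
  nlinarith [mul_le_mul_of_nonneg_left e2 e3, mul_nonneg e1 e3,
    mul_le_mul_of_nonneg_left (h.u1 x) e3]

theorem u123 : (∀ i j, Sq φ (P * P) (d j (d i u))) ∧
    ∀ i j k, Sq φ (P * P) (d k (d j (d i u))) := by
  have m := md φ 1
  have W0 : ∀ x, 0 ≤ φ x (P * P) := fun x => by rw [map_mul]; exact mul_self_nonneg _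
  have z0 : ∀ i : Fin n, Sq φ 1 ((0 : Fin n → R) i) := fun i => m.mz
  have z1 : ∀ k i : Fin n, Sq φ 1 (d k ((0 : Fin n → R) i)) := fun k i => by
    rw [Pi.zero_apply, map_zero]; exact m.mz
  have f1 : ∀ i, Sq φ (P * P) (d i u) := fun i => by
    rw [h.du, mul_comm P (d i v)]; exact (md φ _).sm (h.bp i) (Sq.self P)
  have bui : ∀ i, Sq φ 1 (d i u) := fun i => by rw [h.du]; exact m.sm h.bP (h.bp i)
  have f2 : ∀ i j, Sq φ (P * P) (d j (d i u)) := by
    refine step' h.ctx z0 z1 W0 (m.sm h.bP h.bP) h.lapPP (fun i => d i u) f1 (fun i => ?_) h.b2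
    have l := Md.lift d (md φ (P * P)) (md φ _) (Sq.up (d := d) fun i => d i u)
    rw [h.lapui]
    exact l.sm (l.self.sub (l.am (l.nat 3) (l.am ⟨h.bu, bui⟩ ⟨h.bu, bui⟩)) l.one)
      ⟨f1 i, Tq_sq (fun i => d i u) W0 i⟩
  refine ⟨f2, fun i j => ?_⟩
  refine step' h.ctx z0 z1 W0 (m.sm h.bP h.bP) h.lapPP
    (fun a : Fin n × Fin n => d a.2 (d a.1 u)) (fun a => f2 _ _) (fun a => ?_)
    (fun a => h.b3 _ _) (i, j)
  have l := Md.lift d (md φ (P * P)) (md φ _)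
    (Sq.up (d := d) fun a : Fin n × Fin n => d a.2 (d a.1 u))
  rw [h.lapuij]
  exact l.ma (l.sm (l.self.sub (l.am (l.nat 3) (l.am ⟨h.bu, bui⟩ ⟨h.bu, bui⟩)) l.one)
    ⟨f2 _ _, Tq_sq (fun a : Fin n × Fin n => d a.2 (d a.1 u)) W0 a⟩)
    (l.sm (l.am (l.am (l.nat 6) ⟨h.bu, bui⟩) ⟨bui _, h.b2 _⟩) ⟨f1 _, fun k => Sq.up _ _ (f2 _ _)⟩)

theorem bqr : (∀ i j, Sq φ 1 (d j (d i v))) ∧ ∀ i j k, Sq φ 1 (d k (d j (d i v))) := by
  have m := md φ 1
  have e2 : ∀ i j, d j (d i u) = P * (d j (d i v) - κ * u * d j v * d i v) := fun i j => by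
    rw [h.du]
    simp only [Derivation.leibniz, smul_eq_mul, h.dP]
    ring
  have g2 : ∀ i j, Sq φ 1 (d j (d i v) - κ * u * d j v * d i v) := fun i j =>
    Sq.div h.Ppos (e2 i j ▸ h.u123.1 i j)
  have q : ∀ i j, Sq φ 1 (d j (d i v)) := fun i j => by
    simpa using m.ma (g2 i j) (m.sm (m.sm (m.sm h.bk h.bu) (h.bp j)) (h.bp i))
  refine ⟨q, fun i j k => ?_⟩
  have e3 : d k (d j (d i u)) = P * (d k (d j (d i v) - κ * u * d j v * d i v) -
      κ * u * d k v * (d j (d i v) - κ * u * d j v * d i v)) := by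
    rw [e2, Derivation.leibniz, h.dP, smul_eq_mul, smul_eq_mul]
    ring
  have g3 := m.ma (Sq.div h.Ppos (e3 ▸ h.u123.2 i j k))
    (m.sm (m.sm (m.sm h.bk h.bu) (h.bp k)) (g2 i j))
  have l := Md.lift d m m fun _ h => h
  have g4 := (l.am (l.am (l.am (h.hκ ▸ l.ac √2) ⟨h.bu, fun i => by
    rw [h.du]; exact m.sm h.bP (h.bp i)⟩) ⟨h.bp j, q j⟩) ⟨h.bp i, q i⟩).2 k
  rw [sub_add_cancel, map_sub] at g3
  simpa using m.ma g3 g4

end AC

/-- bounded with bounded first derivatives -/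
def A1 (d : Fin n → Derivation ℝ R R) (φ : X → R →ₐ[ℝ] ℝ) (a : R) : Prop :=
  Sq φ 1 a ∧ ∀ k, Sq φ 1 (d k a)

theorem mA1 : Md (A1 d φ) (A1 d φ) := Md.lift d (md φ 1) (md φ 1) fun _ h => h

theorem mA2 : Md (fun a => A1 d φ a ∧ ∀ k, A1 d φ (d k a))
    (fun a => A1 d φ a ∧ ∀ k, A1 d φ (d k a)) := Md.lift d mA1 mA1 fun _ h => h

/-- the drift -/
def dr (d : Fin n → Derivation ℝ R R) (κ u v : R) (i : Fin n) : R := -(2 * κ * u * d i v)

namespace AC

variable (h : AC d φ κ u P v s)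
include h

theorem a1k : A1 d φ κ := h.hκ ▸ mA1.ac _

theorem a1p (i : Fin n) : A1 d φ (d i v) := ⟨h.bp i, h.bqr.1 i⟩

theorem a1u : A1 d φ u := ⟨h.bu, fun i => by rw [h.du]; exact (md φ 1).sm h.bP (h.bp i)⟩

theorem a1P : A1 d φ P := ⟨h.bP, fun i => by
  have m := md φ 1
  rw [h.dP]; exact m.sm (m.neg (m.sm (m.sm h.bk h.bu) h.bP)) (h.bp i)⟩

theorem a2p (i : Fin n) : A1 d φ (d i v) ∧ ∀ k, A1 d φ (d k (d i v)) :=
  ⟨h.a1p i, fun k => ⟨h.bqr.1 i k, h.bqr.2 i k⟩⟩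

theorem a2u : A1 d φ u ∧ ∀ k, A1 d φ (d k u) :=
  ⟨h.a1u, fun k => by rw [h.du]; exact mA1.sm h.a1P (h.a1p k)⟩

theorem a2P : A1 d φ P ∧ ∀ k, A1 d φ (d k P) := ⟨h.a1P, fun k => by
  rw [h.dP]; exact mA1.sm (mA1.neg (mA1.sm (mA1.sm h.a1k h.a1u) h.a1P)) (h.a1p k)⟩

theorem a2b (i : Fin n) : A1 d φ (dr d κ u v i) ∧ ∀ k, A1 d φ (d k (dr d κ u v i)) :=
  mA2.neg (mA2.sm (mA2.sm (mA2.sm (mA2.nat 2) (h.hκ ▸ mA2.ac √2)) h.a2u) (h.a2p i))

theorem a1s : A1 d φ s := by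
  rw [h.hs]; exact mA1.sub mA1.one (mA1.sum _ fun i => mA1.sm (h.a1p i) (h.a1p i))

theorem Lp (j : Fin n) : Lop d (dr d κ u v) (d j v) = -(κ * P * d j v) * s := by
  have e : ∑ i, d i (d i (d j v)) = d j (∑ i, d i (d i v)) := by
    simp only [map_sum, h.ctx.comm j]
  have e2 : ∑ i, dr d κ u v i * d i (d j v) = κ * u * d j s := by
    rw [h.ds, Finset.mul_sum, mul_neg, Finset.mul_sum, ← Finset.sum_neg_distrib]
    refine Finset.sum_congr rfl fun i _ => ?_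
    rw [h.ctx.comm j, dr]
    ring
  rw [L_apply, e, e2, h.lv]
  simp only [map_neg, Derivation.leibniz, smul_eq_mul, h.dk, h.du]
  ring

theorem Ls : Lop d (dr d κ u v) s = 2 * (κ * P * (1 - s)) * s - 2 * Tq d fun i => d i v := by
  have e1 : Lop d (dr d κ u v) 1 = 0 := by simpa using L_const (d := d) (dr d κ u v) 1
  have e : Lop d (dr d κ u v) s = -∑ j, Lop d (dr d κ u v) (d j v * d j v) := by
    conv_lhs => rw [h.hs]
    rw [map_sub, e1, map_sum, zero_sub]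
  rw [e, ← h.pp]
  simp only [L_mul, h.Lp, Tq, Fintype.sum_prod_type, Finset.mul_sum, Finset.sum_mul,
    ← Finset.sum_sub_distrib, ← Finset.sum_neg_distrib]
  refine Finset.sum_congr rfl fun j _ => ?_
  rw [← Finset.mul_sum]
  ring

theorem kP0 (x : X) : 0 ≤ φ x (2 * (κ * P * (1 - s)) * s) ∧
    φ x (2 * (κ * P * (1 - s)) * s) ≤ 2 * φ x s := by
  simp only [map_mul, map_sub, map_one, map_ofNat, h.evP]
  have e1 : 0 ≤ (1 - φ x u ^ 2) * (1 - φ x s) := mul_nonneg (by linarith [h.u1 x])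
    (by linarith [h.s1 x])
  have e2 : (1 - φ x u ^ 2) * (1 - φ x s) ≤ 1 := by
    nlinarith [h.u1 x, h.s0 x, h.s1 x, sq_nonneg (φ x u)]
  constructor <;> nlinarith [mul_nonneg e1 (h.s0 x), mul_le_mul_of_nonneg_right e2 (h.s0 x)]

theorem Ls_le (x : X) : φ x (Lop d (dr d κ u v) s) ≤ 2 * φ x s := by
  rw [h.Ls, map_sub, map_mul _ 2 (Tq d _), map_ofNat]
  linarith [(h.kP0 x).2, Tq_nonneg (d := d) (φ := φ) (fun i => d i v) x]

theorem sq2 (i j : Fin n) : Sq φ s (d j (d i v)) := by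
  refine step h.ctx (fun i => (h.a2b i).1.1) (fun k i => (h.a2b i).1.2 k) h.s0 h.bs h.Ls_le
    (fun i => d i v) (S := -s) (C3 := 2) ((md φ _).neg (Sq.self s)) (fun x => ?_) (fun a => ?_)
    h.bqr.1 i j
  · rw [map_neg, map_neg, h.Ls, map_sub, map_mul _ 2 (Tq d _), map_ofNat]
    linarith [(h.kP0 x).2, Tq_nonneg (d := d) (φ := φ) (fun i => d i v) x]
  · have m := md φ (s + Tq d fun i => d i v)
    have l := Md.lift d (md φ s) m (Sq.up (d := d) fun i => d i v)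
    rw [h.Lp]
    refine (l.sm (mA1.neg (mA1.sm (mA1.sm h.a1k h.a1P) (h.a1p a))) ⟨h.ss, fun k => ?_⟩).2
    rw [h.ds]
    exact m.neg (m.sm (m.nat 2) (m.sum _ fun i => m.sm (h.bp i) (Tq_sq (fun i => d i v) h.s0 i k)))

theorem sq3 (i j k : Fin n) : Sq φ s (d k (d j (d i v))) := by
  refine step' h.ctx (fun i => (h.a2b i).1.1) (fun k i => (h.a2b i).1.2 k) h.s0 h.bs h.Ls_le
    (fun a : Fin n × Fin n => d a.2 (d a.1 v)) (fun a => h.sq2 _ _) (fun a => ?_)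
    (fun a => h.bqr.2 _ _) (i, j) k
  have m := md φ s
  have l := Md.lift d m (md φ _) (Sq.up (d := d) fun a : Fin n × Fin n => d a.2 (d a.1 v))
  have q := fun a : Fin n × Fin n => And.intro (h.sq2 a.1 a.2)
    (Tq_sq (d := d) (fun a : Fin n × Fin n => d a.2 (d a.1 v)) h.s0 a)
  have sk : ∀ k, Sq φ s (d k s) := fun k => by
    rw [h.ds]; exact m.neg (m.sm (m.nat 2) (m.sum _ fun i => m.sm (h.bp i) (h.sq2 i k)))
  have c := mA2.neg (mA2.sm (mA2.sm (h.hκ ▸ mA2.ac √2) h.a2P) (h.a2p a.1))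
  rw [L_d h.ctx, h.Lp, Derivation.leibniz, smul_eq_mul, smul_eq_mul, mul_comm s, h.ds a.2]
  exact l.sub (l.ma (l.sm c.1 (l.neg (l.sm (l.nat 2) (l.sum _ fun i =>
    l.sm (h.a1p i) (q (i, a.2)))))) (l.sm (c.2 _) ⟨h.ss, fun k => Sq.up _ _ (sk k)⟩))
    (l.sum _ fun i => l.sm ((h.a2b i).2 _) (q (a.1, i)))

theorem sqs (k : Fin n) : Sq φ (s * s) (d k s) := by
  have m := md φ (s * s)
  have W0 : ∀ x, 0 ≤ φ x (s * s) := fun x => by rw [map_mul]; exact mul_self_nonneg _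
  have c := mA1.sm (mA1.nat 2) (mA1.sm (mA1.sm h.a1k h.a1P) (mA1.sub mA1.one h.a1s))
  refine logg h.ctx (fun i => (h.a2b i).1.1) h.s0 h.a1s.2 ?_ (fun k => ?_) k
  · rw [h.Ls]
    exact m.sub (m.sm c.1 (Sq.self s)) (m.sm (m.nat 2) (m.sum _ fun a =>
      (h.sq2 _ _).mul (h.sq2 _ _)))
  · have m' := md φ (s * s + Tq d fun _ : Unit => s)
    have l := Md.lift d m m' (Sq.up (d := d) fun _ : Unit => s)
    have sk := Tq_sq (d := d) (fun _ : Unit => s) W0 ()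
    rw [L_d h.ctx, h.Ls]
    refine m'.sub ((l.sub (l.sm c ⟨Sq.self s, sk⟩) (l.sm (l.nat 2) (l.sum _ fun a =>
      ⟨(h.sq2 _ _).mul (h.sq2 _ _), fun k => Sq.up _ _ ?_⟩))).2 k)
      (m'.sum _ fun i => m'.sm ((h.a2b i).1.2 k) (sk i))
    rw [Derivation.leibniz]
    exact m.ma ((h.sq2 _ _).mul (h.sq3 _ _ _)) ((h.sq2 _ _).mul (h.sq3 _ _ _))

theorem sqV (k : Fin n) : Sq φ ((κ * P * s) * (κ * P * s)) (d k (κ * P * s)) := by
  have m := md φ ((κ * P * s) * (κ * P * s))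
  have e : d k (κ * P * s) = κ * P * d k s + -(κ * u * d k v) * (κ * P * s) := by
    simp only [Derivation.leibniz, smul_eq_mul, h.dk, h.dP]
    ring
  rw [e]
  refine m.ma ?_ (m.sm ((md φ 1).neg (m.am (m.am h.bk h.bu) (h.bp k))) (Sq.self _))
  rw [mul_mul_mul_comm]
  exact (Sq.self _).mul (h.sqs k)

theorem lapV (x : X) : φ x (Lop d 0 (κ * P * s)) ≤ 2 * φ x (κ * P * s) := by
  have e : Lop d 0 (κ * P * s) = κ * P * (Lop d (dr d κ u v) s +
      s * (2 * (u * u) - (1 - u * u) * (1 - s))) := by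
    have e1 : Lop d 0 (κ * P) = κ * Lop d 0 P := by
      rw [h.hκ, ← Algebra.smul_def, ← Algebra.smul_def, map_smul]
    have e2 : 2 * ∑ i, d i (κ * P) * d i s = κ * P * ∑ i, dr d κ u v i * d i s := by
      simp only [Finset.mul_sum, Derivation.leibniz, smul_eq_mul, h.dk, h.dP, dr]
      exact Finset.sum_congr rfl fun i _ => by ring
    rw [L_mul, e1, h.lapP, e2, L_apply, L_apply]
    simp only [Pi.zero_apply, zero_mul, Finset.sum_const_zero]
    ring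
  rw [e, h.Ls]
  simp only [map_mul, map_sub, map_add, map_one, map_ofNat, h.evP]
  have e0 : 0 ≤ 1 - φ x u ^ 2 := by linarith [h.u1 x]
  have e1 := mul_nonneg e0 (Tq_nonneg (d := d) (φ := φ) (fun i => d i v) x)
  have e2 : (1 - φ x u ^ 2) * (1 - φ x s) + 2 * φ x u ^ 2 ≤ 2 := by
    nlinarith [mul_nonneg e0 (h.s0 x)]
  nlinarith [mul_le_mul_of_nonneg_left e2 (mul_nonneg e0 (h.s0 x))]

end AC

end Vale.Agent.P134.A2
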