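import Vale.Agent.P134.A2Defs
import Vale.Agent.P134.A2V

/-! P134, block A2: the pointwise estimates. -/

open Filter Topology
open scoped ContDiff Laplacian

namespace Vale.Agent.P134

namespace A2

noncomputable section

variable {n : ℕ}

/-- smooth functions -/
def SR (n : ℕ) : Subalgebra ℝ (E n → ℝ) where
  carrier := {f | ContDiff ℝ ∞ f}
  mul_mem' {f g} hf hg := ContDiff.mul (show ContDiff ℝ ∞ f from hf) (show ContDiff ℝ ∞ g from hg)
  add_mem' {f g} hf hg := ContDiff.add (show ContDiff ℝ ∞ f from hf) (show ContDiff ℝ ∞ g from hg)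
  algebraMap_mem' r := show ContDiff ℝ ∞ (fun _ => r) from contDiff_const

theorem SR.df (f : SR n) (x : E n) : DifferentiableAt ℝ f.1 x :=
  (show ContDiff ℝ ∞ f.1 from f.2).differentiable (by simp) x

/-- partial derivatives -/
def dd (i : Fin n) : Derivation ℝ (SR n) (SR n) := Derivation.mk'
  { toFun := fun f => ⟨dv (ev i) f.1, smooth_dv f.2 _⟩
    map_add' := fun f g => Subtype.ext (funext fun x => dv_add (SR.df f x) (SR.df g x) _)
    map_smul' := fun c f => Subtype.ext (funext fun x => dv_const_mul (SR.df f x) c _) }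
  fun f g => Subtype.ext (funext fun x => dv_mul (SR.df f x) (SR.df g x) _)

/-- evaluation -/
def ph (x : E n) : SR n →ₐ[ℝ] ℝ := (Pi.evalAlgHom ℝ (fun _ => ℝ) x).comp (SR n).val

theorem ph_apply (x : E n) (f : SR n) : ph x f = f.1 x := rfl

theorem dd_val (i : Fin n) (f : SR n) : (dd i f).1 = dv (ev i) f.1 := rfl

theorem ext' {f g : SR n} (h : ∀ x, ph x f = ph x g) : f = g := Subtype.ext (funext h)

theorem ph_L (x : E n) (b : Fin n → SR n) (f : SR n) :
    ph x (Lop dd b f) = Δ f.1 x + ∑ i, (b i).1 x * dv (ev i) f.1 x := by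
  rw [L_apply, map_add, map_sum, map_sum,
    lap_eq ((show ContDiff ℝ ∞ f.1 from f.2).of_le two_le_oo).contDiffAt]
  rfl

theorem bd_of {f : SR n} (h : Sq ph 1 f) : ∃ B, ∀ x, |f.1 x| ≤ B := by
  obtain ⟨C, -, h⟩ := (show Sq ph (1 * 1) f by rwa [mul_one]).abs fun x => by simp
  exact ⟨C, fun x => by simpa [ph_apply] using h x⟩

theorem sq_of {f : SR n} {B : ℝ} (h : ∀ x, |f.1 x| ≤ B) : Sq ph 1 f :=
  ⟨B ^ 2, sq_nonneg _, fun x => by
    rw [map_one, mul_one, ← sq_abs]; exact pow_le_pow_left₀ (abs_nonneg _) (h x) 2⟩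

theorem ctx (hm : A2_mp) : Ctx (dd (n := n)) ph where
  comm i j f := Subtype.ext (funext fun _ =>
    dv_comm ((show ContDiff ℝ ∞ f.1 from f.2).of_le two_le_oo).contDiffAt _ _)
  inv w hw := ⟨⟨fun x => (w.1 x)⁻¹, ContDiff.inv (show ContDiff ℝ ∞ w.1 from w.2)
    fun x => (hw x).ne'⟩,
    Subtype.ext (funext fun x => inv_mul_cancel₀ (hw x).ne')⟩
  mp F b hF hb h := by
    obtain ⟨M, hM⟩ := bd_of hF
    choose B hB using fun i => bd_of (hb i)
    refine hm n F.1 (fun i => (b i).1) (∑ i, |B i|) M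
      ((show ContDiff ℝ ∞ F.1 from F.2).of_le two_le_oo) (fun x => (le_abs_self _).trans (hM x))
      (fun i x => (hB i x).trans ((le_abs_self _).trans (Finset.single_le_sum
        (f := fun i => |B i|) (fun _ _ => abs_nonneg _) (Finset.mem_univ i)))) fun x hx => ?_
    rw [← ph_L]
    exact h x hx

theorem norm_dv_le {f : E n → ℝ} (hf : ContDiff ℝ ∞ f) (k : ℕ) (i : Fin n) (x : E n) :
    ‖iteratedFDeriv ℝ k (dv (ev i) f) x‖ ≤ ‖iteratedFDeriv ℝ (k + 1) f x‖ := by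
  have h := norm_iteratedFDeriv_clm_apply_const (𝕜 := ℝ) (f := fderiv ℝ f) (c := ev i) (x := x)
    (N := ∞) (n := k) (hf.fderiv_right (m := ∞) (by simp)).contDiffAt (by exact_mod_cast le_top)
  rwa [norm_ev, one_mul, norm_iteratedFDeriv_fderiv] at h

theorem norm_le_dv {f : E n → ℝ} (hf : ContDiff ℝ ∞ f) (k : ℕ) (x : E n) :
    ‖iteratedFDeriv ℝ (k + 1) f x‖ ≤ ∑ i, ‖iteratedFDeriv ℝ k (dv (ev i) f) x‖ := by
  refine ContinuousMultilinearMap.opNorm_le_bound (by positivity) fun m => ?_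
  have e : m (Fin.last k) = ∑ i, m (Fin.last k) i • ev i := by
    simp only [ev_eq]
    exact ((EuclideanSpace.basisFun (Fin n) ℝ).sum_repr _).symm
  rw [iteratedFDeriv_succ_apply_right, e, map_sum, Fin.prod_univ_castSucc, Finset.sum_mul]
  refine (norm_sum_le _ _).trans (Finset.sum_le_sum fun i _ => ?_)
  rw [map_smul, norm_smul, ← iteratedFDeriv_clm_apply_const_apply (c := fderiv ℝ f)
    (hf.fderiv_right (m := ∞) (by simp)) (by exact_mod_cast le_top), mul_comm, ← mul_assoc]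
  exact mul_le_mul ((iteratedFDeriv ℝ k (dv (ev i) f) x).le_opNorm _) (PiLp.norm_apply_le _ i)
    (norm_nonneg _) (by positivity)

theorem sq_le_dv {f : E n → ℝ} (hf : ContDiff ℝ ∞ f) (k : ℕ) (x : E n) :
    ‖iteratedFDeriv ℝ (k + 1) f x‖ ^ 2 ≤ n * ∑ i, ‖iteratedFDeriv ℝ k (dv (ev i) f) x‖ ^ 2 := by
  refine (pow_le_pow_left₀ (norm_nonneg _) (norm_le_dv hf k x) 2).trans ?_
  simpa using sq_sum_le_card_mul_sum_sq (s := Finset.univ)
    (f := fun i => ‖iteratedFDeriv ℝ k (dv (ev i) f) x‖)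

theorem lv0 {W f : SR n} (h : Sq ph W f) :
    ∃ C, 0 ≤ C ∧ ∀ x, ‖iteratedFDeriv ℝ 0 f.1 x‖ ^ 2 ≤ C * W.1 x := by
  obtain ⟨C, c, h⟩ := h
  exact ⟨C, c, fun x => by rw [norm_iteratedFDeriv_zero, Real.norm_eq_abs, sq_abs]; exact h x⟩

theorem lvs {W f : SR n} {k : ℕ}
    (h : ∀ i, ∃ C, 0 ≤ C ∧ ∀ x, ‖iteratedFDeriv ℝ k (dd i f).1 x‖ ^ 2 ≤ C * W.1 x) :
    ∃ C, 0 ≤ C ∧ ∀ x, ‖iteratedFDeriv ℝ (k + 1) f.1 x‖ ^ 2 ≤ C * W.1 x := by
  choose C c h using h
  refine ⟨n * ∑ i, C i, mul_nonneg n.cast_nonneg (Finset.sum_nonneg fun i _ => c i), fun x =>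
    (sq_le_dv f.2 k x).trans ?_⟩
  rw [mul_assoc, Finset.sum_mul]
  exact mul_le_mul_of_nonneg_left (Finset.sum_le_sum fun i _ => h i x) n.cast_nonneg

theorem lin {W : SR n} (h0 : ∀ x, 0 ≤ W.1 x) (h : ∀ i, Sq ph (W * W) (dd i W)) :
    ∃ C, 0 ≤ C ∧ ∀ x, ‖fderiv ℝ W.1 x‖ ≤ C * W.1 x := by
  obtain ⟨C, c, h⟩ := lvs fun i => lv0 (h i)
  refine ⟨C + 1, by positivity, fun x =>
    (pow_le_pow_iff_left₀ (norm_nonneg _) (by have := h0 x; positivity) two_ne_zero).1 ?_⟩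
  have e := h x
  rw [zero_add, norm_iteratedFDeriv_one] at e
  change _ ≤ C * (W.1 x * W.1 x) at e
  nlinarith [mul_nonneg (h0 x) (h0 x), mul_nonneg (mul_nonneg c c) (mul_nonneg (h0 x) (h0 x)),
    mul_nonneg c (mul_nonneg (h0 x) (h0 x))]

end

end A2

open A2 in
theorem a2_est (hb : R_bd) (hm : A2_mp) (h0 : A2_bas) : A2_est := by
  intro n u hu
  have B := h0 n u hu
  let U : SR n := ⟨u, hu.sol.sm⟩
  let P : SR n := ⟨PP u, B.smP⟩
  let v : SR n := ⟨vv u, B.smv⟩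
  let s : SR n := ⟨ss u, B.sms⟩
  have hk : ∀ x : E n, ph x (algebraMap ℝ (SR n) √2) = √2 := fun x => rfl
  obtain ⟨C2, -, h2⟩ := hb n 2
  obtain ⟨C3, -, h3⟩ := hb n 3
  have h : AC dd ph (algebraMap ℝ (SR n) √2) U P v s :=
    { ctx := ctx hm
      hκ := rfl
      du := fun i => ext' fun x => by
        change fderiv ℝ u x _ = PP u x * fderiv ℝ (vv u) x _
        rw [B.du]; rfl
      dP := fun i => ext' fun x => by
        change fderiv ℝ (PP u) x _ = -(√2 * u x * PP u x) * fderiv ℝ (vv u) x _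
        rw [B.dP]; rfl
      hs := ext' fun x => by
        rw [map_sub, map_one, map_sum]
        change 1 - _ = 1 - ∑ i, dv (ev i) (vv u) x * dv (ev i) (vv u) x
        rw [norm_sq_fderiv]
        simp only [pow_two]
      lv := ext' fun x => by
        rw [map_sum]
        exact (lap_eq (B.smv.of_le two_le_oo).contDiffAt).symm.trans (B.lapv x)
      kP := ext' fun x => by
        change √2 * ((1 - u x ^ 2) / √2) = 1 - u x * u x
        field_simp
      Ppos := B.Ppos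
      s0 := B.s0
      u1 := fun x => (sq_le_one_iff_abs_le_one _).2 (hu.sol.bd x)
      b2 := fun i j => sq_of (B := C2) fun x => by
        rw [← Real.norm_eq_abs, ← norm_iteratedFDeriv_zero (𝕜 := ℝ)]
        exact (norm_dv_le (dd i U).2 0 j x).trans ((norm_dv_le U.2 1 i x).trans (h2 u hu.sol x))
      b3 := fun i j k => sq_of (B := C3) fun x => by
        rw [← Real.norm_eq_abs, ← norm_iteratedFDeriv_zero (𝕜 := ℝ)]
        exact (norm_dv_le (dd j (dd i U)).2 0 k x).trans ((norm_dv_le (dd i U).2 1 j x).trans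
          ((norm_dv_le U.2 2 i x).trans (h3 u hu.sol x))) }
  obtain ⟨K2, k2, e2⟩ := lvs fun i => lvs fun j => lv0 (h.sq2 i j)
  obtain ⟨K3, k3, e3⟩ := lvs fun i => lvs fun j => lvs fun k => lv0 (h.sq3 i j k)
  obtain ⟨K4, k4, e4⟩ := lin (W := s) B.s0 h.sqs
  obtain ⟨K5, k5, e5⟩ := lin (W := algebraMap ℝ (SR n) √2 * P * s) B.V0 h.sqV
  refine ⟨K2 + K3 + K4 + K5 + 1, by positivity, fun x => ⟨(e2 x).trans ?_, (e3 x).trans ?_,
    (e4 x).trans ?_, (e5 x).trans ?_, ?_⟩⟩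
  · exact mul_le_mul_of_nonneg_right (by linarith) (B.s0 x)
  · exact mul_le_mul_of_nonneg_right (by linarith) (B.s0 x)
  · exact mul_le_mul_of_nonneg_right (by linarith) (B.s0 x)
  · exact mul_le_mul_of_nonneg_right (by linarith) (B.V0 x)
  · have e := h.lapV x
    rw [ph_L] at e
    simp only [Pi.zero_apply, ZeroMemClass.coe_zero, zero_mul, Finset.sum_const_zero,
      add_zero] at e
    exact e

end Vale.Agent.P134
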