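import Vale.Agent.P134.A2Defs

/-! P134, block A2: Harnack inequality with exponent `3 / 2`. -/

open Filter Topology
open scoped ContDiff Laplacian

namespace Vale.Agent.P134

theorem gron {n : ℕ} {W : E n → ℝ} {C : ℝ} (hW : Differentiable ℝ W)
    (h : ∀ x, ‖fderiv ℝ W x‖ ≤ C * W x) (x y : E n) :
    W y ≤ Real.exp (C * dist x y) * W x := by
  have d : ∀ t : ℝ, HasDerivAt (fun t : ℝ => Real.exp (C * dist x y * t) * W (y + t • (x - y)))
      (Real.exp (C * dist x y * t) * (C * dist x y * 1) * W (y + t • (x - y)) +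
        Real.exp (C * dist x y * t) * dv (x - y) W (y + t • (x - y))) t := fun t =>
    ((hasDerivAt_id t).const_mul _).exp.mul (hasDerivAt_line _ (hW _))
  have m := monotone_of_deriv_nonneg (fun t => (d t).differentiableAt) (fun t => by
    rw [(d t).deriv, mul_assoc (Real.exp _), ← mul_add]
    refine mul_nonneg (Real.exp_pos _).le ?_
    have h1 := (abs_le.1 ((abs_dv_le (x - y) W (y + t • (x - y))).trans
      (mul_le_mul_of_nonneg_right (h _) (norm_nonneg _)))).1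
    rw [dist_eq_norm]
    linarith) (zero_le_one (α := ℝ))
  simpa using m

namespace A2Hr

theorem num {ρ : ℝ} (h : 20 ≤ ρ) : 2 ≤ (-(3 / 2) : ℝ) ^ 2 * (1 - 1 ^ 2 / ρ ^ 2) +
    -(3 / 2) * ((((3 : ℕ) : ℝ) - 1) / ρ + 1 ^ 2 / ρ ^ 3) := by
  have h0 : 0 < ρ := by linarith
  have h1 : 1 ^ 2 / ρ ^ 2 ≤ 1 / 400 := by
    rw [div_le_div_iff₀ (by positivity) (by norm_num)]
    nlinarith
  have h2 : (((3 : ℕ) : ℝ) - 1) / ρ ≤ 1 / 10 := by
    rw [div_le_div_iff₀ h0 (by norm_num)]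
    push_cast
    linarith
  have h3 : 1 ^ 2 / ρ ^ 3 ≤ 1 / 400 := by
    rw [div_le_div_iff₀ (by positivity) (by norm_num)]
    nlinarith [mul_pos h0 h0]
  linarith

end A2Hr

theorem a2_hr (hm : A2_mp) (hb : A2_bar) : A2_hr := by
  intro W C hW h0 hL hD
  have g := gron (hW.differentiable (by simp)) hD
  refine ⟨g, Real.exp (20 * |C| + 3 / 2), Real.exp_pos _, fun x y => ?_⟩
  obtain ⟨b1, b2⟩ := hb 3 1 (-(3 / 2)) y one_pos
  have b3 := b1.of_le two_le_oo
  set m := Real.exp (-(20 * |C|)) * W y with hm'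
  have m0 : 0 ≤ m := mul_nonneg (Real.exp_pos _).le (h0 y)
  have le1 : ∀ z : E 3, m * Real.exp (-(3 / 2) * √(1 ^ 2 + ‖z - y‖ ^ 2)) ≤ m := fun z =>
    mul_le_of_le_one_right m0 (Real.exp_le_one_iff.2
      (mul_nonpos_of_nonpos_of_nonneg (by norm_num) (Real.sqrt_nonneg _)))
  have key := hm 3 (fun z => m * Real.exp (-(3 / 2) * √(1 ^ 2 + ‖z - y‖ ^ 2)) - W z)
    (fun _ _ => 0) 0 m ((contDiff_const.mul b3).sub hW) (fun z => by linarith [le1 z, h0 z])
    (fun _ _ => by simp) (fun z hz => by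
      have far : 20 ≤ ‖z - y‖ := by
        by_contra hn
        have e1 : Real.exp (C * dist z y) ≤ Real.exp (20 * |C|) := Real.exp_le_exp.2 (by
          rw [dist_eq_norm]
          nlinarith [le_abs_self C, abs_nonneg C, norm_nonneg (z - y)])
        have e2 := mul_le_mul_of_nonneg_left
          ((g z y).trans (mul_le_mul_of_nonneg_right e1 (h0 z))) (Real.exp_pos (-(20 * |C|))).le
        rw [← mul_assoc, ← Real.exp_add, neg_add_cancel, Real.exp_zero, one_mul] at e2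
        linarith [le1 z]
      have e3 := mul_le_mul_of_nonneg_left (A2Hr.num (ρ := √(1 ^ 2 + ‖z - y‖ ^ 2))
        (Real.le_sqrt_of_sq_le (by nlinarith))) (mul_nonneg m0
          (Real.exp_pos (-(3 / 2) * √(1 ^ 2 + ‖z - y‖ ^ 2))).le)
      rw [lap_sub (contDiff_const.mul b3).contDiffAt hW.contDiffAt, lap_const_mul b3.contDiffAt,
        b2 z _ rfl, ← mul_assoc]
      simp only [zero_mul, Finset.sum_const_zero, add_zero]
      linarith [hL z]) x
  have e4 : √(1 ^ 2 + ‖x - y‖ ^ 2) ≤ 1 + dist x y := by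
    rw [dist_eq_norm]
    exact Real.sqrt_le_iff.2 ⟨by positivity, by nlinarith [norm_nonneg (x - y)]⟩
  have e5 := mul_le_mul_of_nonneg_left (sub_nonpos.1 key)
    (Real.exp_pos (20 * |C| + 3 / 2 * √(1 ^ 2 + ‖x - y‖ ^ 2))).le
  rw [hm', mul_right_comm, ← mul_assoc, ← Real.exp_add, ← Real.exp_add] at e5
  rw [← Real.exp_add]
  refine le_trans (le_of_eq ?_) (e5.trans (mul_le_mul_of_nonneg_right
    (Real.exp_le_exp.2 ?_) (h0 x)))
  swap
  · generalize √(1 ^ 2 + ‖x - y‖ ^ 2) = ρ at e4 ⊢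
    linarith
  rw [show 20 * |C| + 3 / 2 * √(1 ^ 2 + ‖x - y‖ ^ 2) + (-(20 * |C|) +
    -(3 / 2) * √(1 ^ 2 + ‖x - y‖ ^ 2)) = 0 by ring, Real.exp_zero, one_mul]

end Vale.Agent.P134
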