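import Vale.Agent.P134.A2Defs

/-! P134, block A2: away from the zero set a solution is close to plus or minus one. -/

open Filter Topology
open scoped ContDiff Laplacian

namespace Vale.Agent.P134

namespace A2Lev

variable {n : ℕ}

theorem sm (x : E n) (R : ℝ) : ContDiff ℝ 2 fun z : E n => R ^ 2 - ‖z - x‖ ^ 2 :=
  contDiff_const.sub ((contDiff_id.sub contDiff_const).norm_sq ℝ)

theorem dva (x : E n) (R : ℝ) (i : Fin n) :
    dv (ev i) (fun z : E n => R ^ 2 - ‖z - x‖ ^ 2) = fun z => -2 * (z i - x i) := by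
  funext z
  have h := (((hasFDerivAt_id z).sub_const x).norm_sq).const_sub (R ^ 2)
  rw [dv, show fderiv ℝ (fun z : E n => R ^ 2 - ‖z - x‖ ^ 2) z = _ from h.fderiv]
  simp [ev, EuclideanSpace.inner_single_right]

theorem ddva (x z : E n) (i : Fin n) : dv (ev i) (fun z : E n => -2 * (z i - x i)) z = -2 := by
  have h := (((EuclideanSpace.proj i : E n →L[ℝ] ℝ).hasFDerivAt (x := z)).sub_const
    (x i)).const_mul (-2)
  rw [dv, show fderiv ℝ (fun z : E n => -2 * (z i - x i)) z = _ from h.fderiv]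
  simp [ev]

theorem lapa (x z : E n) (R : ℝ) : Δ (fun z : E n => R ^ 2 - ‖z - x‖ ^ 2) z = -2 * n := by
  rw [lap_eq (sm x R).contDiffAt]
  simp only [dva, ddva]
  simp [mul_comm]

theorem gra (x z : E n) (R : ℝ) :
    ‖fderiv ℝ (fun z : E n => R ^ 2 - ‖z - x‖ ^ 2) z‖ ^ 2 = 4 * ‖z - x‖ ^ 2 := by
  rw [norm_sq_fderiv, EuclideanSpace.real_norm_sq_eq, Finset.mul_sum]
  refine Finset.sum_congr rfl fun i _ => ?_
  rw [dva, PiLp.sub_apply]
  ring

theorem pos {u : E n → ℝ} (hu : Sol u) (x : E n)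
    (h : ∀ z ∈ Metric.closedBall x (4 * n + 8 : ℝ), 0 < u z) : 19 / 20 ≤ u x ^ 2 := by
  set R : ℝ := 4 * n + 8 with hR
  have hn : (0 : ℝ) ≤ n := Nat.cast_nonneg n
  have R0 : 0 < R := by positivity
  have hx : x ∈ Metric.closedBall x R := Metric.mem_closedBall_self R0.le
  have sφ : ContDiff ℝ 2 fun z : E n => (R ^ 2 - ‖z - x‖ ^ 2) ^ 2 := (sm x R).pow 2
  have su : ContDiff ℝ 2 u := hu.sm.of_le two_le_oo
  obtain ⟨y, hy, hm⟩ := (isCompact_closedBall x R).exists_isMaxOn ⟨x, hx⟩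
    (f := fun z : E n => (R ^ 2 - ‖z - x‖ ^ 2) ^ 2 / u z)
    (sφ.continuous.continuousOn.div su.continuous.continuousOn fun z hz => (h z hz).ne')
  have uy := h y hy
  have ux := h x hx
  set a : ℝ := R ^ 2 - ‖y - x‖ ^ 2 with ha
  set t : ℝ := a ^ 2 / u y with ht
  have hta : t * u y = a ^ 2 := div_mul_cancel₀ _ uy.ne'
  have hle : ∀ z ∈ Metric.closedBall x R, (R ^ 2 - ‖z - x‖ ^ 2) ^ 2 ≤ t * u z := fun z hz =>
    (div_le_iff₀ (h z hz)).1 (hm hz)
  have h0 : (R ^ 2) ^ 2 ≤ t * u x := by simpa using hle x hx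
  have hR4 : 0 < (R ^ 2) ^ 2 := by positivity
  have t0 : 0 < t := by
    by_contra hc
    nlinarith [not_lt.1 hc]
  have a2 : 0 < a ^ 2 := hta ▸ mul_pos t0 uy
  have hy1 : ‖y - x‖ ≤ R := by rwa [Metric.mem_closedBall, dist_eq_norm] at hy
  have hy2 : ‖y - x‖ < R := by
    refine lt_of_le_of_ne hy1 fun hc => ?_
    rw [ha, hc] at a2
    simp at a2
  have hloc : IsLocalMax (fun z : E n => (R ^ 2 - ‖z - x‖ ^ 2) ^ 2 - t * u z) y := by
    have hb : Metric.closedBall x R ∈ 𝓝 y :=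
      Metric.closedBall_mem_nhds_of_mem (by rwa [Metric.mem_ball, dist_eq_norm])
    filter_upwards [hb] with z hz
    have := hle z hz
    show _ ≤ a ^ 2 - t * u y
    linarith
  have hl := lap_nonpos (sφ.sub (contDiff_const.mul su)).contDiffAt hloc
  rw [lap_sub sφ.contDiffAt (contDiff_const.mul su).contDiffAt, lap_const_mul su.contDiffAt,
    lap_sq (sm x R).contDiffAt, lapa, gra, hu.eq, ← ha] at hl
  have e1 : ‖y - x‖ ^ 2 = R ^ 2 - a := by rw [ha]; ring
  have a0 : 0 ≤ a := by nlinarith [norm_nonneg (y - x)]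
  have aR : a ≤ R ^ 2 := by nlinarith [sq_nonneg ‖y - x‖]
  have e2 : t * (u y ^ 3 - u y) = a ^ 2 * (u y ^ 2 - 1) := by rw [← hta]; ring
  have e3 : 2 * a * (-2 * n) + 2 * (4 * (R ^ 2 - a)) = 8 * R ^ 2 - R * a := by rw [hR]; ring
  rw [e1, e2, e3] at hl
  have h1 : 19 / 20 ≤ u y ^ 2 := by
    by_contra hc
    nlinarith [not_le.1 hc, sq_nonneg (a - 10 * R)]
  have h2 : u y ≤ u x := by
    refine le_of_mul_le_mul_left ?_ t0
    nlinarith
  nlinarith

end A2Lev

theorem a2_lev : A2_lev := by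
  intro n
  refine ⟨4 * n + 8, by positivity, fun u hu x h => ?_⟩
  have hc : ContinuousOn u (Metric.closedBall x (4 * n + 8 : ℝ)) := hu.sm.continuous.continuousOn
  have hp := (convex_closedBall x (4 * n + 8 : ℝ)).isPreconnected
  have hx : x ∈ Metric.closedBall x (4 * n + 8 : ℝ) := Metric.mem_closedBall_self (by positivity)
  rcases lt_or_gt_of_ne (h x hx) with h1 | h1
  · have hs : Sol fun z => -1 * u z := by
      refine ⟨contDiff_const.mul hu.sm, fun z => ?_, fun z => by simpa using hu.bd z⟩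
      rw [lap_const_mul (hu.sm.of_le two_le_oo).contDiffAt, hu.eq]
      ring
    have := A2Lev.pos hs x fun z hz => by
      by_contra hn
      obtain ⟨w, hw, h0⟩ := hp.intermediate_value hx hz hc
        (⟨h1.le, by linarith [not_lt.1 hn]⟩ : (0 : ℝ) ∈ Set.Icc (u x) (u z))
      exact h w hw h0
    simpa using this
  · refine A2Lev.pos hu x fun z hz => ?_
    by_contra hn
    obtain ⟨w, hw, h0⟩ := hp.intermediate_value hz hx hc
      (⟨not_lt.1 hn, h1.le⟩ : (0 : ℝ) ∈ Set.Icc (u z) (u x))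
    exact h w hw h0

end Vale.Agent.P134
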