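import Vale.Agent.P134.A2Ring

/-! P134, block A2: the logarithmic gradient estimate in a differential ring. -/

namespace Vale.Agent.P134.A2

variable {n : ℕ} {R X : Type} [CommRing R] [Algebra ℝ R]
  {d : Fin n → Derivation ℝ R R} {φ : X → R →ₐ[ℝ] ℝ}

theorem num_log {N Q a D E LQ K1 K2 : ℝ} (hN : 1 ≤ N) (h1 : 0 ≤ K1) (h2 : 0 ≤ K2)
    (hD : (a - Q) ^ 2 ≤ N * D) (ha : a ^ 2 ≤ K1 * (1 + Q)) (hE : E ≤ K2 * (1 + Q))
    (hL : 2 * D - Q - E ≤ LQ) (hQ : 4 * K1 + 2 * N * K2 + 2 * N < Q) : Q ≤ LQ := by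
  have N0 : 0 < N := by linarith
  have hNK : 0 ≤ N * K2 := by positivity
  have Q1 : 1 ≤ Q := by linarith
  have e1 := mul_le_mul_of_nonneg_left hL N0.le
  have e2 := mul_le_mul_of_nonneg_left hE N0.le
  have e3 := mul_le_mul_of_nonneg_left hQ.le (zero_le_one.trans Q1)
  have e4 := mul_le_mul_of_nonneg_left Q1 h1
  have e5 := mul_le_mul_of_nonneg_left Q1 hNK
  refine le_of_mul_le_mul_left ?_ N0
  nlinarith [sq_nonneg (2 * a - Q)]

theorem logg (h : Ctx d φ) {b : Fin n → R} (hb : ∀ i, Sq φ 1 (b i)) {s : R}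
    (s0 : ∀ x, 0 ≤ φ x s) (hs1 : ∀ k, Sq φ 1 (d k s)) (hm : Sq φ (s * s) (Lop d b s))
    (hk : ∀ k, Sq φ (s * s + Tq d fun _ : Unit => s) (Lop d b (d k s))) (k : Fin n) :
    Sq φ (s * s) (d k s) := by
  have m1 := md φ 1
  obtain ⟨C1, c1, h1⟩ := hm
  obtain ⟨C2, c2, h2⟩ := Sq.fin hk fun x => by
    rw [map_add, map_mul]; exact add_nonneg (mul_self_nonneg _) (Tq_nonneg _ x)
  obtain ⟨C3, c3, h3⟩ := Sq.fin hb fun x => by simp
  obtain ⟨Λ, hΛ⟩ : ∃ Λ : ℝ, Λ = 4 * (2 * C1 + 2 * C3) + 2 * (n + 1) * (2 * C2 + 2 * C1) +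
    2 * (n + 1) := ⟨_, rfl⟩
  have Λ0 : 0 ≤ Λ := by rw [hΛ]; positivity
  have main : ∀ ε : ℝ, 0 < ε → ∀ x, φ x (d k s) ^ 2 ≤ Λ * (φ x s + ε) ^ 2 := by
    intro ε hε
    have hw : ∀ x, φ x (s + algebraMap ℝ R ε) = φ x s + ε := fun x => by simp
    obtain ⟨z, hz⟩ := h.inv (s + algebraMap ℝ R ε) fun x => by rw [hw]; linarith [s0 x]
    have dz : ∀ i, d i z = -(z * z * d i s) := fun i => by
      have e := congrArg (d i) hz
      rw [Derivation.leibniz, map_add, Derivation.map_algebraMap, Derivation.map_one_eq_zero,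
        smul_eq_mul, smul_eq_mul] at e
      linear_combination z * e - d i z * hz
    have hZ : ∀ x, φ x z * (φ x s + ε) = 1 := fun x => by
      rw [← hw, ← map_mul, hz, map_one]
    have Z0 : ∀ x, 0 < φ x z := fun x =>
      (mul_pos_iff_of_pos_right (add_pos_of_nonneg_of_pos (s0 x) hε)).1 (by rw [hZ]; exact one_pos)
    have ZS : ∀ x, (φ x z * φ x s) ^ 2 ≤ 1 := fun x => by
      have e1 := hZ x
      have e2 := mul_pos (Z0 x) hε
      have e3 := mul_nonneg (Z0 x).le (s0 x)
      nlinarith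
    have bz : Sq φ 1 z := ⟨(1 / ε) ^ 2, by positivity, fun x => by
      rw [map_one, mul_one]
      refine pow_le_pow_left₀ (Z0 x).le ?_ 2
      rw [le_div_iff₀ hε]
      nlinarith [hZ x, mul_nonneg (Z0 x).le (s0 x)]⟩
    let y : Fin n → R := fun i => z * d i s
    have hy : ∀ i, Sq φ 1 (y i) := fun i => m1.sm bz (hs1 i)
    have Ly : ∀ j, Lop d (fun i => b i + 2 * y i) (y j) =
        z * Lop d b (d j s) - z * Lop d b s * y j := fun j => by
      simp only [y, L_apply, Derivation.leibniz, smul_eq_mul, map_add, map_neg, dz, mul_add,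
        add_mul, Finset.mul_sum, Finset.sum_mul, ← Finset.sum_add_distrib,
        ← Finset.sum_sub_distrib]
      exact Finset.sum_congr rfl fun i _ => by ring
    have dvy : ∑ i, d i (y i) = z * Lop d b s - ∑ i, b i * y i - ∑ i, y i * y i := by
      simp only [y, L_apply, Derivation.leibniz, smul_eq_mul, dz, mul_add, Finset.mul_sum,
        ← Finset.sum_add_distrib, ← Finset.sum_sub_distrib]
      exact Finset.sum_congr rfl fun i _ => by ring
    have hQ : ∀ x, φ x (∑ i, y i * y i) = ∑ i, φ x (y i) ^ 2 := fun x => by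
      simp only [map_sum, map_mul, pow_two]
    have key := h.mp (∑ i, y i * y i - algebraMap ℝ R Λ) (fun i => b i + 2 * y i)
      (m1.sub (m1.sum _ fun i => m1.sm (hy i) (hy i)) (m1.ac _))
      (fun i => m1.ma (hb i) (m1.sm (m1.nat 2) (hy i))) (fun x hx => by
        rw [map_sub, AlgHom.commutes, hQ] at hx ⊢
        rw [map_sub, L_const, sub_zero]
        have e0 := L_sq_ge (d := d) (φ := φ) (fun i => b i + 2 * y i) y x
        obtain ⟨Q, hq⟩ : ∃ Q, Q = ∑ i, φ x (y i) ^ 2 := ⟨_, rfl⟩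
        have Q0 : 0 ≤ Q := by rw [hq]; positivity
        have zm : (φ x z * φ x (Lop d b s)) ^ 2 ≤ C1 := by
          have e1 := mul_le_mul_of_nonneg_left (h1 x) (sq_nonneg (φ x z))
          have e2 := mul_le_mul_of_nonneg_left (ZS x) c1
          rw [map_mul] at e1
          nlinarith
        have zT : φ x z ^ 2 * φ x (Tq d fun _ : Unit => s) = Q := by
          simp only [hq, Tq_ev, y, map_mul, mul_pow, Finset.mul_sum, Fintype.sum_unique]
        have eE : ∑ j, φ x (Lop d (fun i => b i + 2 * y i) (y j)) ^ 2 ≤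
            (2 * C2 + 2 * C1) * (1 + Q) := by
          have e1 : ∑ j, φ x (Lop d (fun i => b i + 2 * y i) (y j)) ^ 2 ≤
              ∑ j, (2 * φ x z ^ 2 * φ x (Lop d b (d j s)) ^ 2 + 2 * C1 * φ x (y j) ^ 2) :=
            Finset.sum_le_sum fun j _ => by
              rw [Ly, map_sub, map_mul, map_mul, map_mul]
              have := mul_le_mul_of_nonneg_right zm (sq_nonneg (φ x (y j)))
              nlinarith [sq_nonneg (φ x z * φ x (Lop d b (d j s)) +
                φ x z * φ x (Lop d b s) * φ x (y j))]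
          rw [Finset.sum_add_distrib, ← Finset.mul_sum, ← Finset.mul_sum, ← hq] at e1
          have e2 := mul_le_mul_of_nonneg_left (h2 x) (sq_nonneg (φ x z))
          have e3 := mul_le_mul_of_nonneg_left (ZS x) c2
          have e4 : C2 * (φ x z ^ 2 * φ x (Tq d fun _ : Unit => s)) = C2 * Q := by rw [zT]
          rw [map_add, map_mul] at e2
          nlinarith
        have ea : (φ x z * φ x (Lop d b s) - ∑ i, φ x (b i) * φ x (y i)) ^ 2 ≤
            (2 * C1 + 2 * C3) * (1 + Q) := by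
          have e1 := Finset.sum_mul_sq_le_sq_mul_sq Finset.univ (fun i => φ x (b i))
            fun i => φ x (y i)
          have e2 := mul_le_mul_of_nonneg_right (h3 x) Q0
          rw [← hq] at e1
          rw [map_one, mul_one] at e2
          nlinarith [sq_nonneg (φ x z * φ x (Lop d b s) + ∑ i, φ x (b i) * φ x (y i)),
            mul_nonneg c1 Q0]
        have eD : (φ x z * φ x (Lop d b s) - ∑ i, φ x (b i) * φ x (y i) - Q) ^ 2 ≤
            (n + 1) * ∑ a, ∑ i, φ x (d i (y a)) ^ 2 := by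
          have e1 := congrArg (φ x) dvy
          rw [map_sub, map_sub, hQ, ← hq, map_mul, map_sum, map_sum] at e1
          simp only [map_mul] at e1
          have e2 := sq_sum_le_card_mul_sum_sq (s := Finset.univ) (f := fun i => φ x (d i (y i)))
          have e3 : ∑ a, φ x (d a (y a)) ^ 2 ≤ ∑ a, ∑ i, φ x (d i (y a)) ^ 2 :=
            Finset.sum_le_sum fun a _ => Finset.single_le_sum
              (f := fun i => φ x (d i (y a)) ^ 2) (fun _ _ => sq_nonneg _) (Finset.mem_univ a)
          have e4 : 0 ≤ ∑ a, φ x (d a (y a)) ^ 2 := by positivity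
          rw [Finset.card_univ, Fintype.card_fin] at e2
          rw [← e1]
          have e5 := mul_le_mul_of_nonneg_left e3 (show (0 : ℝ) ≤ n + 1 by positivity)
          nlinarith
        rw [← hq] at e0 hx ⊢
        have e9 := num_log (N := n + 1) (by linarith [Nat.cast_nonneg (α := ℝ) n]) (by positivity)
          (by positivity) eD ea eE e0 (by
            have : algebraMap ℝ ℝ Λ = Λ := rfl
            linarith)
        have : algebraMap ℝ ℝ Λ = Λ := rfl
        linarith)
    intro x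
    have e1 := key x
    rw [map_sub, AlgHom.commutes, hQ] at e1
    have e2 : φ x (y k) ^ 2 ≤ ∑ i, φ x (y i) ^ 2 := Finset.single_le_sum
      (f := fun i => φ x (y i) ^ 2) (fun _ _ => sq_nonneg _) (Finset.mem_univ k)
    have e3 : φ x (y k) ^ 2 ≤ Λ := by
      have : algebraMap ℝ ℝ Λ = Λ := rfl
      linarith
    have e4 : φ x (d k s) = φ x (y k) * (φ x s + ε) := by
      simp only [y, map_mul]
      linear_combination (-φ x (d k s)) * hZ x
    rw [e4, mul_pow]
    exact mul_le_mul_of_nonneg_right e3 (sq_nonneg _)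
  refine ⟨Λ, Λ0, fun x => ?_⟩
  have t : Filter.Tendsto (fun ε : ℝ => Λ * (φ x s + ε) ^ 2) (nhdsWithin 0 (Set.Ioi 0))
      (nhds (Λ * (φ x s + 0) ^ 2)) :=
    (Continuous.tendsto (by fun_prop) 0).mono_left nhdsWithin_le_nhds
  rw [map_mul, ← pow_two, ← add_zero (φ x s)]
  exact ge_of_tendsto t (Filter.eventually_of_mem self_mem_nhdsWithin fun ε hε => main ε hε x)

end Vale.Agent.P134.A2
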