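import Vale.Agent.P134.A2Defs

/-! P134, block A2: maximum principle on the whole space. -/

open Filter Topology
open scoped ContDiff Laplacian

namespace Vale.Agent.P134

namespace A2Mp

variable {n : ℕ}

theorem cd : ContDiff ℝ 2 fun z : E n => ‖z‖ ^ 2 := contDiff_norm_sq ℝ

theorem dv_sq (i : Fin n) (z : E n) : dv (ev i) (fun z : E n => ‖z‖ ^ 2) z = 2 * z i := by
  rw [dv, (hasStrictFDerivAt_norm_sq z).hasFDerivAt.fderiv]
  simp [ev, EuclideanSpace.inner_single_right]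

theorem lap_sq' (z : E n) : Δ (fun z : E n => ‖z‖ ^ 2) z = 2 * n := by
  rw [lap_eq cd.contDiffAt]
  have h : ∀ i : Fin n, dv (ev i) (dv (ev i) fun z : E n => ‖z‖ ^ 2) z = 2 := fun i => by
    rw [show dv (ev i) (fun z : E n => ‖z‖ ^ 2) = fun z : E n => 2 * z i from funext (dv_sq i),
      dv_const_mul (f := fun z : E n => z i) (by fun_prop)]
    have e : fderiv ℝ (fun z : E n => z i) z = _ :=
      (EuclideanSpace.proj i : E n →L[ℝ] ℝ).hasFDerivAt.fderiv
    rw [dv, e]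
    simp [ev]
  simp [h, mul_comm]

end A2Mp

open A2Mp in
theorem a2_mp : A2_mp := by
  intro n F b B M hF hM hb h x0
  by_contra hp
  replace hp := not_le.1 hp
  obtain ⟨A, hA⟩ : ∃ A : ℝ, A = 2 * n + n ^ 2 * B ^ 2 + 1 := ⟨_, rfl⟩
  have A0 : 0 < A := by rw [hA]; positivity
  obtain ⟨η, hη⟩ : ∃ η : ℝ, η = F x0 / (2 * (A + ‖x0‖ ^ 2)) := ⟨_, rfl⟩
  have η0 : 0 < η := by rw [hη]; positivity
  have e0 : η * (A + ‖x0‖ ^ 2) = F x0 / 2 := by rw [hη]; field_simp
  have c2 : ContDiff ℝ 2 fun z : E n => η * ‖z‖ ^ 2 := contDiff_const.mul cd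
  have cG : ContDiff ℝ 2 fun z => F z - η * ‖z‖ ^ 2 := hF.sub c2
  have t : Tendsto (fun z : E n => F z - η * ‖z‖ ^ 2) (cocompact _) atBot := by
    refine tendsto_atBot_mono (f := fun z : E n => M + -(η * ‖z‖ ^ 2))
      (fun z => by linarith [hM z]) (tendsto_atBot_add_const_left _ _ ?_)
    exact tendsto_neg_atTop_atBot.comp (((tendsto_pow_atTop two_ne_zero).comp
      (tendsto_norm_cocompact_atTop (E := E n))).const_mul_atTop η0)
  obtain ⟨x1, h1⟩ := cG.continuous.exists_forall_ge t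
  have m : IsLocalMax (fun z => F z - η * ‖z‖ ^ 2) x1 := Eventually.of_forall h1
  have g0 : η * (A + ‖x1‖ ^ 2) < F x1 := by have := h1 x0; linarith
  have k := h x1 (lt_trans (by positivity) g0)
  have l1 := lap_nonpos cG.contDiffAt m
  rw [lap_sub hF.contDiffAt c2.contDiffAt, lap_const_mul cd.contDiffAt, lap_sq'] at l1
  have l2 : ∀ i, b i x1 * dv (ev i) F x1 ≤ η * (2 * (|B| * ‖x1‖)) := fun i => by
    have e : dv (ev i) (fun z => F z - η * ‖z‖ ^ 2) x1 = 0 := by rw [dv, m.fderiv_eq_zero]; rfl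
    rw [dv_sub (hF.differentiable (by simp) _) (c2.differentiable (by simp) _),
      dv_const_mul (cd.differentiable (by simp) _), dv_sq, sub_eq_zero] at e
    have a : b i x1 * x1 i ≤ |B| * ‖x1‖ := by
      refine (le_abs_self _).trans ?_
      rw [abs_mul]
      exact mul_le_mul ((hb i x1).trans (le_abs_self _)) (PiLp.norm_apply_le x1 i)
        (abs_nonneg _) (abs_nonneg _)
    rw [e]
    nlinarith
  have l3 := Finset.sum_le_sum fun i (_ : i ∈ Finset.univ) => l2 i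
  rw [Finset.sum_const, Finset.card_univ, Fintype.card_fin, nsmul_eq_mul] at l3
  have l4 : 2 * n + n * (2 * (|B| * ‖x1‖)) ≤ A + ‖x1‖ ^ 2 := by
    rw [hA, ← sq_abs B]
    nlinarith [sq_nonneg (n * |B| - ‖x1‖)]
  nlinarith [mul_le_mul_of_nonneg_left l4 η0.le]

end Vale.Agent.P134
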