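import Mathlib

/-! P134, block A2: Bernstein type estimates in a differential ring. -/

namespace Vale.Agent.P134.A2

noncomputable section

variable {n : ℕ} {R X : Type} [CommRing R] [Algebra ℝ R]

/-- the Laplacian with a drift -/
def Lop (d : Fin n → Derivation ℝ R R) (b : Fin n → R) : R →ₗ[ℝ] R :=
  ∑ i, (d i).toLinearMap ∘ₗ (d i).toLinearMap + ∑ i, LinearMap.mulLeft ℝ (b i) ∘ₗ (d i).toLinearMap

/-- `f ^ 2 ≤ C W` -/
def Sq (φ : X → R →ₐ[ℝ] ℝ) (W f : R) : Prop := ∃ C : ℝ, 0 ≤ C ∧ ∀ x, φ x f ^ 2 ≤ C * φ x W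

/-- a ring of functions with commuting derivations and a maximum principle -/
structure Ctx (d : Fin n → Derivation ℝ R R) (φ : X → R →ₐ[ℝ] ℝ) : Prop where
  comm : ∀ i j f, d i (d j f) = d j (d i f)
  inv : ∀ w : R, (∀ x, 0 < φ x w) → ∃ z, z * w = 1
  mp : ∀ (F : R) (b : Fin n → R), Sq φ 1 F → (∀ i, Sq φ 1 (b i)) →
    (∀ x, 0 < φ x F → φ x F ≤ φ x (Lop d b F)) → ∀ x, φ x F ≤ 0

/-- a subring and a submodule -/
structure Md (A M : R → Prop) : Prop where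
  aa : ∀ {a b}, A a → A b → A (a + b)
  am : ∀ {a b}, A a → A b → A (a * b)
  ac : ∀ r : ℝ, A (algebraMap ℝ R r)
  ma : ∀ {f g}, M f → M g → M (f + g)
  mz : M 0
  sm : ∀ {a f}, A a → M f → M (a * f)

variable {d : Fin n → Derivation ℝ R R} {φ : X → R →ₐ[ℝ] ℝ} {A M M' : R → Prop}

theorem Md.neg (h : Md A M) {f : R} (hf : M f) : M (-f) := by
  simpa using h.sm (h.ac (-1)) hf

theorem Md.sub (h : Md A M) {f g : R} (hf : M f) (hg : M g) : M (f - g) := by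
  rw [sub_eq_add_neg]; exact h.ma hf (h.neg hg)

theorem Md.sum (h : Md A M) {ι : Type} (s : Finset ι) {f : ι → R} (hf : ∀ i, M (f i)) :
    M (∑ i ∈ s, f i) := Finset.sum_induction f M (fun _ _ => h.ma) h.mz fun i _ => hf i

theorem Md.self (h : Md A M) : Md A A :=
  ⟨h.aa, h.am, h.ac, h.aa, by simpa using h.ac 0, h.am⟩

theorem Md.nat (h : Md A M) (k : ℕ) [k.AtLeastTwo] : A (OfNat.ofNat k : R) := by
  have := h.ac (OfNat.ofNat k)
  rwa [map_ofNat] at this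

theorem Md.one (h : Md A M) : A 1 := by simpa using h.ac 1

theorem Md.lift (d : Fin n → Derivation ℝ R R) (h : Md A M) (h' : Md A M') (hle : ∀ f, M f → M' f) :
    Md (fun a => A a ∧ ∀ k, A (d k a)) (fun f => M f ∧ ∀ k, M' (d k f)) where
  aa ha hb := ⟨h.aa ha.1 hb.1, fun k => by rw [map_add]; exact h.aa (ha.2 k) (hb.2 k)⟩
  am ha hb := ⟨h.am ha.1 hb.1, fun k => by
    rw [Derivation.leibniz]; exact h.aa (h.am ha.1 (hb.2 k)) (h.am hb.1 (ha.2 k))⟩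
  ac r := ⟨h.ac r, fun k => by rw [Derivation.map_algebraMap]; exact h.self.mz⟩
  ma ha hb := ⟨h.ma ha.1 hb.1, fun k => by rw [map_add]; exact h'.ma (ha.2 k) (hb.2 k)⟩
  mz := ⟨h.mz, fun k => by rw [map_zero]; exact h'.mz⟩
  sm ha hf := ⟨h.sm ha.1 hf.1, fun k => by
    rw [Derivation.leibniz, smul_eq_mul, smul_eq_mul]
    exact h'.ma (h'.sm ha.1 (hf.2 k)) (by rw [mul_comm]; exact h'.sm (ha.2 k) (hle _ hf.1))⟩

theorem Sq.mul {W W' f g : R} (hf : Sq φ W f) (hg : Sq φ W' g) : Sq φ (W * W') (f * g) := by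
  obtain ⟨C, h0, h⟩ := hf
  obtain ⟨C', h0', h'⟩ := hg
  refine ⟨C * C', mul_nonneg h0 h0', fun x => ?_⟩
  rw [map_mul, map_mul, mul_pow, mul_mul_mul_comm]
  exact mul_le_mul (h x) (h' x) (sq_nonneg _) ((sq_nonneg _).trans (h x))

theorem Sq.add {W f g : R} (hf : Sq φ W f) (hg : Sq φ W g) : Sq φ W (f + g) := by
  obtain ⟨C, h0, h⟩ := hf
  obtain ⟨C', h0', h'⟩ := hg
  refine ⟨2 * C + 2 * C', by positivity, fun x => ?_⟩
  rw [map_add]
  nlinarith [h x, h' x, sq_nonneg (φ x f - φ x g)]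

theorem Sq.mono {W W' f : R} (hf : Sq φ W f) (h : ∀ x, φ x W ≤ φ x W') : Sq φ W' f := by
  obtain ⟨C, h0, h1⟩ := hf
  exact ⟨C, h0, fun x => (h1 x).trans (mul_le_mul_of_nonneg_left (h x) h0)⟩

theorem md (φ : X → R →ₐ[ℝ] ℝ) (W : R) : Md (Sq φ 1) (Sq φ W) where
  aa := Sq.add
  am ha hb := by simpa using ha.mul hb
  ac r := ⟨r ^ 2, sq_nonneg _, fun x => by simp⟩
  ma := Sq.add
  mz := ⟨0, le_rfl, fun x => by simp⟩
  sm ha hb := by simpa using ha.mul hb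

theorem Sq.fin {ι : Type} [Fintype ι] {W : R} {f : ι → R} (hf : ∀ i, Sq φ W (f i))
    (hW : ∀ x, 0 ≤ φ x W) : ∃ C : ℝ, 0 ≤ C ∧ ∀ x, ∑ i, φ x (f i) ^ 2 ≤ C * φ x W := by
  choose C h0 h using hf
  refine ⟨∑ i, C i, Finset.sum_nonneg fun i _ => h0 i, fun x => ?_⟩
  rw [Finset.sum_mul]
  exact Finset.sum_le_sum fun i _ => h i x

theorem Sq.abs {W f : R} (hf : Sq φ (W * W) f) (hW : ∀ x, 0 ≤ φ x W) :
    ∃ C : ℝ, 0 ≤ C ∧ ∀ x, |φ x f| ≤ C * φ x W := by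
  obtain ⟨C, h0, h⟩ := hf
  refine ⟨C + 1, by positivity, fun x => abs_le_of_sq_le_sq ?_ (by have := hW x; positivity)⟩
  have := h x
  rw [map_mul] at this
  nlinarith [mul_nonneg (hW x) (hW x), mul_nonneg (mul_nonneg h0 h0) (mul_nonneg (hW x) (hW x)),
    mul_nonneg h0 (mul_nonneg (hW x) (hW x))]

theorem L_apply (b : Fin n → R) (f : R) :
    Lop d b f = ∑ i, d i (d i f) + ∑ i, b i * d i f := by
  simp [Lop, LinearMap.sum_apply]

theorem L_mul (b : Fin n → R) (f g : R) :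
    Lop d b (f * g) = f * Lop d b g + g * Lop d b f + 2 * ∑ i, d i f * d i g := by
  simp only [L_apply, Derivation.leibniz, smul_eq_mul, map_add, mul_add, Finset.mul_sum,
    ← Finset.sum_add_distrib]
  exact Finset.sum_congr rfl fun i _ => by ring

theorem L_const (b : Fin n → R) (r : ℝ) : Lop d b (algebraMap ℝ R r) = 0 := by
  simp [L_apply]

theorem L_d (h : Ctx d φ) (b : Fin n → R) (f : R) (k : Fin n) :
    Lop d b (d k f) = d k (Lop d b f) - ∑ i, d k (b i) * d i f := by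
  simp only [L_apply, Derivation.leibniz, smul_eq_mul, map_add, map_sum, h.comm k,
    ← Finset.sum_add_distrib, ← Finset.sum_sub_distrib]
  exact Finset.sum_congr rfl fun i _ => by ring

theorem L_sq {ι : Type} [Fintype ι] (b : Fin n → R) (f : ι → R) (x : X) :
    φ x (Lop d b (∑ a, f a * f a)) =
      2 * ∑ a, ∑ i, φ x (d i (f a)) ^ 2 + 2 * ∑ a, φ x (f a) * φ x (Lop d b (f a)) := by
  simp only [map_sum, L_mul, map_add, map_mul, map_ofNat, Finset.mul_sum, ← Finset.sum_add_distrib,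
    pow_two]
  exact Finset.sum_congr rfl fun i _ => by ring

theorem L_sq_ge {ι : Type} [Fintype ι] (b : Fin n → R) (f : ι → R) (x : X) :
    2 * ∑ a, ∑ i, φ x (d i (f a)) ^ 2 - ∑ a, φ x (f a) ^ 2 - ∑ a, φ x (Lop d b (f a)) ^ 2 ≤
      φ x (Lop d b (∑ a, f a * f a)) := by
  rw [L_sq, sub_sub, ← Finset.sum_add_distrib, sub_eq_add_neg, ← Finset.sum_neg_distrib,
    Finset.mul_sum _ fun a => φ x (f a) * φ x (Lop d b (f a))]
  refine add_le_add le_rfl (Finset.sum_le_sum fun a _ => ?_)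
  nlinarith [sq_nonneg (φ x (f a) + φ x (Lop d b (f a)))]

/-- the sum of the squares of the derivatives of a family -/
def Tq (d : Fin n → Derivation ℝ R R) {ι : Type} [Fintype ι] (f : ι → R) : R :=
  ∑ a : ι × Fin n, d a.2 (f a.1) * d a.2 (f a.1)

theorem Tq_ev {ι : Type} [Fintype ι] (f : ι → R) (x : X) :
    φ x (Tq d f) = ∑ a, ∑ i, φ x (d i (f a)) ^ 2 := by
  simp only [Tq, map_sum, map_mul, Fintype.sum_prod_type, pow_two]

theorem Tq_nonneg {ι : Type} [Fintype ι] (f : ι → R) (x : X) : 0 ≤ φ x (Tq d f) := by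
  rw [Tq_ev]; positivity

theorem Tq_sq {ι : Type} [Fintype ι] (f : ι → R) {W : R} (hW : ∀ x, 0 ≤ φ x W) (a : ι)
    (k : Fin n) : Sq φ (W + Tq d f) (d k (f a)) := by
  refine ⟨1, zero_le_one, fun x => ?_⟩
  rw [one_mul, map_add, Tq_ev]
  have h1 : φ x (d k (f a)) ^ 2 ≤ ∑ i, φ x (d i (f a)) ^ 2 :=
    Finset.single_le_sum (f := fun i => φ x (d i (f a)) ^ 2) (fun _ _ => sq_nonneg _)
      (Finset.mem_univ k)
  have h2 : ∑ i, φ x (d i (f a)) ^ 2 ≤ ∑ a, ∑ i, φ x (d i (f a)) ^ 2 :=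
    Finset.single_le_sum (f := fun a => ∑ i, φ x (d i (f a)) ^ 2) (fun _ _ => by positivity)
      (Finset.mem_univ a)
  linarith [hW x]

theorem Sq.up {ι : Type} [Fintype ι] (f : ι → R) {W : R} (g : R) (hg : Sq φ W g) :
    Sq φ (W + Tq d f) g := hg.mono fun x => by rw [map_add]; linarith [Tq_nonneg (d := d) (φ := φ) f x]

theorem step (h : Ctx d φ) {ι : Type} [Fintype ι] {b : Fin n → R} (hb : ∀ i, Sq φ 1 (b i))
    (hb' : ∀ k i, Sq φ 1 (d k (b i))) {W S : R} (hW0 : ∀ x, 0 ≤ φ x W) (hW1 : Sq φ 1 W)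
    {C0 C3 : ℝ} (hW : ∀ x, φ x (Lop d b W) ≤ C0 * φ x W) (f : ι → R) (hS : Sq φ (W * W) S)
    (hLS : ∀ x, φ x (Tq d f) - C3 * φ x W ≤ φ x (Lop d b S))
    (hL : ∀ a k, Sq φ (W + Tq d f) (d k (Lop d b (f a)))) (hg : ∀ a k, Sq φ 1 (d k (f a)))
    (a : ι) (k : Fin n) : Sq φ W (d k (f a)) := by
  have m := md φ (W + Tq d f)
  have m1 := md φ 1
  have hWT : ∀ x, 0 ≤ φ x (W + Tq d f) := fun x => by
    rw [map_add]; exact add_nonneg (hW0 x) (Tq_nonneg f x)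
  obtain ⟨C1, h1, hC1⟩ := Sq.fin (φ := φ) (W := W + Tq d f)
    (f := fun a : ι × Fin n => Lop d b (d a.2 (f a.1))) (fun a => by
      rw [L_d h]
      exact m.sub (hL _ _) (m.sum _ fun i => m.sm (hb' _ _) (Tq_sq f hW0 _ _))) hWT
  obtain ⟨C2, h2, hC2⟩ := hS.abs hW0
  have hT : ∀ x, -φ x (Tq d f) - C1 * (φ x W + φ x (Tq d f)) ≤ φ x (Lop d b (Tq d f)) := by
    intro x
    have e1 := L_sq_ge (d := d) (φ := φ) b (fun a : ι × Fin n => d a.2 (f a.1)) x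
    have e2 := hC1 x
    have e3 : ∑ a : ι × Fin n, φ x (d a.2 (f a.1)) ^ 2 = φ x (Tq d f) := by
      rw [Tq_ev, Fintype.sum_prod_type]
    have e4 : 0 ≤ ∑ a : ι × Fin n, ∑ i, φ x (d i (d a.2 (f a.1))) ^ 2 := by positivity
    rw [map_add] at e2
    rw [e3] at e1
    exact le_trans (by linarith) e1
  obtain ⟨μ, hμ⟩ : ∃ μ, μ = |C0| + 1 := ⟨_, rfl⟩
  obtain ⟨B, hB⟩ : ∃ B, B = μ + 1 + C1 := ⟨_, rfl⟩
  obtain ⟨Λ, hΛ⟩ : ∃ Λ, Λ = C1 + B * |C3| + μ * B * C2 := ⟨_, rfl⟩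
  have μ0 : 1 ≤ μ := by linarith [abs_nonneg C0]
  have B0 : 0 ≤ B := by linarith
  have Λ0 : 0 ≤ Λ := by rw [hΛ]; have : 0 ≤ μ := by linarith
                        positivity
  have hS1 : Sq φ 1 S := by
    obtain ⟨C, c0, hC⟩ := hW1
    refine ⟨C2 ^ 2 * C, by positivity, fun x => ?_⟩
    have e := hC x
    rw [map_one, mul_one] at e ⊢
    calc φ x S ^ 2 = |φ x S| ^ 2 := (sq_abs _).symm
      _ ≤ (C2 * φ x W) ^ 2 := pow_le_pow_left₀ (abs_nonneg _) (hC2 x) 2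
      _ ≤ C2 ^ 2 * C := by rw [mul_pow]; exact mul_le_mul_of_nonneg_left e (sq_nonneg _)
  have key := h.mp (Tq d f + B • S - Λ • W) b (by
      rw [Algebra.smul_def, Algebra.smul_def]
      exact m1.sub (m1.ma (m1.sum _ fun a => m1.sm (hg _ _) (hg _ _)) (m1.sm (m1.ac _) hS1))
        (m1.sm (m1.ac _) hW1)) hb (fun x hx => by
      simp only [map_sub, map_add, map_smul, smul_eq_mul] at hx ⊢
      have e1 := hT x
      have e2 := mul_le_mul_of_nonneg_left (hLS x) B0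
      have e3 := mul_le_mul_of_nonneg_left (hW x) Λ0
      have e4 := mul_le_mul_of_nonneg_left ((le_abs_self _).trans (hC2 x))
        (mul_nonneg (zero_le_one.trans μ0) B0)
      have e5 := mul_le_mul_of_nonneg_left (mul_le_mul_of_nonneg_right (le_abs_self C0) (hW0 x)) Λ0
      have e6 := mul_le_mul_of_nonneg_left (mul_le_mul_of_nonneg_right (le_abs_self C3) (hW0 x)) B0
      have e7 := mul_le_mul_of_nonneg_right μ0 hx.le
      have e8 : B * φ x (Tq d f) = (μ + 1 + C1) * φ x (Tq d f) := by rw [← hB]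
      have e9 : Λ * φ x W = (C1 + B * |C3| + μ * B * C2) * φ x W := by rw [← hΛ]
      have e10 : μ * (Λ * φ x W) = (|C0| + 1) * (Λ * φ x W) := by rw [← hμ]
      nlinarith)
  refine ⟨Λ + B * C2, by positivity, fun x => ?_⟩
  obtain ⟨-, -, e0⟩ : True ∧ True ∧ φ x (d k (f a)) ^ 2 ≤ φ x (Tq d f) := by
    refine ⟨trivial, trivial, ?_⟩
    rw [Tq_ev]
    exact (Finset.single_le_sum (f := fun i => φ x (d i (f a)) ^ 2) (fun _ _ => sq_nonneg _)
      (Finset.mem_univ k)).trans (Finset.single_le_sum (f := fun a => ∑ i, φ x (d i (f a)) ^ 2)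
        (fun _ _ => by positivity) (Finset.mem_univ a))
  have e1 := key x
  simp only [map_sub, map_add, map_smul, smul_eq_mul] at e1
  have e2 := mul_le_mul_of_nonneg_left ((neg_le_abs _).trans (hC2 x)) B0
  nlinarith

theorem step' (h : Ctx d φ) {ι : Type} [Fintype ι] {b : Fin n → R} (hb : ∀ i, Sq φ 1 (b i))
    (hb' : ∀ k i, Sq φ 1 (d k (b i))) {W : R} (hW0 : ∀ x, 0 ≤ φ x W) (hW1 : Sq φ 1 W)
    {C0 : ℝ} (hW : ∀ x, φ x (Lop d b W) ≤ C0 * φ x W) (f : ι → R) (hf : ∀ a, Sq φ W (f a))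
    (hL : ∀ a, Sq φ W (Lop d b (f a)) ∧ ∀ k, Sq φ (W + Tq d f) (d k (Lop d b (f a))))
    (hg : ∀ a k, Sq φ 1 (d k (f a))) (a : ι) (k : Fin n) : Sq φ W (d k (f a)) := by
  obtain ⟨C1, -, h1⟩ := Sq.fin hf hW0
  obtain ⟨C2, -, h2⟩ := Sq.fin (fun a => (hL a).1) hW0
  refine step h hb hb' hW0 hW1 hW f (S := ∑ a, f a * f a) (C3 := C1 + C2)
    ((md φ (W * W)).sum _ fun a => (hf a).mul (hf a)) (fun x => ?_) (fun a => (hL a).2) hg a k
  have e1 := L_sq_ge (d := d) (φ := φ) b f x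
  rw [← Tq_ev] at e1
  nlinarith [h1 x, h2 x, Tq_nonneg (d := d) (φ := φ) f x]

end

end Vale.Agent.P134.A2
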