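import Vale.Agent.P134.B3Stab

/-! P134, block B1: the Caccioppoli inequality. -/

open Filter Topology MeasureTheory Set Metric
open scoped ContDiff RealInnerProductSpace NNReal Laplacian

namespace Vale.Agent.P134.B3

variable {u : X → ℝ} {a : X}

namespace B1CacAux

theorem cube (s : ℝ) : s ^ (3 / 2 : ℝ) = √s ^ 3 := by
  rcases lt_or_ge s 0 with h | h
  · rw [Real.rpow_def_of_neg h, Real.sqrt_eq_zero_of_nonpos h.le,
      show 3 / 2 * Real.pi = Real.pi / 2 + Real.pi by ring, Real.cos_add_pi, Real.cos_pi_div_two]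
    simp
  · rw [Real.sqrt_eq_rpow, ← Real.rpow_natCast, ← Real.rpow_mul h]
    norm_num

theorem d1 (k s : ℝ) : HasDerivAt (fun s => (k - s) ^ (3 / 2 : ℝ)) (-(3 / 2 * √(k - s))) s := by
  refine ((Real.hasDerivAt_rpow_const (x := k - s) (p := 3 / 2) (Or.inr (by norm_num))).comp s
    ((hasDerivAt_id' s).const_sub k)).congr_deriv ?_
  rw [Real.sqrt_eq_rpow]
  norm_num

theorem pw_eq (n : ℕ) (k s : ℝ) : pw n (s + (1 - k)) = (√(k - s) ^ 2) ^ n := by
  rw [pw, Real.sq_sqrt', show 1 - (s + (1 - k)) = k - s by ring]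

theorem d2 (k s : ℝ) : HasDerivAt (fun s => pw 2 (s + (1 - k))) (-(2 * √(k - s) ^ 2)) s := by
  refine ((hasDerivAt_pw 0 _).comp_add_const s (1 - k)).congr_deriv ?_
  rw [pw_eq]
  simp

theorem pt {q η : X → ℝ} {x : X} (hq : DifferentiableAt ℝ q x) (hη : DifferentiableAt ℝ η x)
    (k : ℝ) : ‖fderiv ℝ (fun x => (k - q x) ^ (3 / 2 : ℝ) * η x) x‖ ^ 2 ≤
      max (k - q x) 0 ^ 3 * ‖fderiv ℝ η x‖ ^ 2 -
        3 / 2 * gd q (fun x => pw 2 (q x + (1 - k)) * η x * η x) x := by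
  have a1 : DifferentiableAt ℝ (fun x => (k - q x) ^ (3 / 2 : ℝ)) x :=
    (d1 k _).differentiableAt.comp x hq
  have a2 : DifferentiableAt ℝ (fun x => pw 2 (q x + (1 - k))) x :=
    (d2 k _).differentiableAt.comp x hq
  rw [← gd_self, ← gd_self, gd, gd, gd, Finset.mul_sum, Finset.mul_sum, ← Finset.sum_sub_distrib]
  refine Finset.sum_le_sum fun i _ => ?_
  rw [dv_mul a1 hη, dv_mul (a2.fun_mul hη) hη, dv_mul a2 hη, dv_comp (d1 k _) hq,
    dv_comp (d2 k _) hq, cube, pw_eq, ← Real.sq_sqrt']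
  nlinarith [sq_nonneg (√(k - q x) * η x * dv (ev i) q x)]

end B1CacAux

open B1CacAux

theorem rpow_sq (s : ℝ) : (s ^ (3 / 2 : ℝ)) ^ 2 = max s 0 ^ 3 := by
  rw [cube, ← Real.sq_sqrt']
  ring

theorem Cx.cac (h : Cx u a) {e : X} (he : ‖e‖ = 1) {k : ℝ} (hk : 3 / 4 ≤ k) {η : X → ℝ}
    (hη : Tst η) : Tst (fun x => (k - qq u e x) ^ (3 / 2 : ℝ) * η x) ∧
    ∫ x, rr u x * ‖fderiv ℝ (fun x => (k - qq u e x) ^ (3 / 2 : ℝ) * η x) x‖ ^ 2 ≤
      7 * ∫ x, rr u x * max (k - qq u e x) 0 ^ 3 * ‖fderiv ℝ η x‖ ^ 2 := by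
  have hq : ContDiff ℝ 1 (qq u e) := (h.sm_q e).of_le one_le_oo
  have cq := hq.continuous
  have cr := h.sm_r.continuous
  have cV := h.bas.smV.continuous
  have hψ : Tst fun x => (k - qq u e x) ^ (3 / 2 : ℝ) * η x :=
    hη.mul ((Real.contDiff_rpow_const_of_le (n := 1) (by norm_num)).comp (contDiff_const.sub hq))
  have hΦ : Tst fun x => pw 2 (qq u e x + (1 - k)) * η x * η x :=
    hη.mul (((contDiff_pw 0).comp (hq.add contDiff_const)).mul hη.c1)
  refine ⟨hψ, ?_⟩
  have i1 : Integrable fun x => rr u x * max (k - qq u e x) 0 ^ 3 * ‖fderiv ℝ η x‖ ^ 2 :=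
    b3stab_en hη (by fun_prop)
  have i2 := b3stab_gd hΦ cr hq
  have i3 : Integrable fun x => rr u x * VV u x * ((k - qq u e x) ^ (3 / 2 : ℝ) * η x) ^ 2 :=
    b3stab_sq hψ (cr.mul cV)
  have i4 : Integrable fun x =>
      rr u x * VV u x * qq u e x * (pw 2 (qq u e x + (1 - k)) * η x * η x) :=
    hΦ.int ((cr.mul cV).mul cq)
  have a1 := integral_mono (b3stab_en hψ cr) (i1.sub' (i2.const_mul (3 / 2))) fun x => by
    have := mul_le_mul_of_nonneg_left (pt (hq.differentiable one_ne_zero x)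
      (hη.c1.differentiable one_ne_zero x) k) (h.r_pos x).le
    simp only
    linarith
  rw [integral_sub i1 (i2.const_mul _), integral_const_mul, h.weak_q e hΦ] at a1
  have a2 := h.stab hψ
  have a3 := integral_nonneg (μ := volume) (f := fun x =>
    4 * (rr u x * VV u x * ((k - qq u e x) ^ (3 / 2 : ℝ) * η x) ^ 2) +
    7 * (rr u x * VV u x * qq u e x * (pw 2 (qq u e x + (1 - k)) * η x * η x))) fun x => by
      have b1 : -1 ≤ qq u e x := by
        have b := abs_real_inner_le_norm (pp u x) e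
        rw [he, mul_one] at b
        exact (abs_le.1 (b.trans (h.p_le x))).1
      have b2 : 0 ≤ max (k - qq u e x) 0 ^ 2 * (4 * max (k - qq u e x) 0 + 7 * qq u e x) := by
        rcases le_total (k - qq u e x) 0 with b | b
        · simp [b]
        · rw [max_eq_left b]
          exact mul_nonneg (sq_nonneg _) (by linarith)
      have b3 := mul_nonneg (mul_nonneg (mul_nonneg (h.r_pos x).le (h.bas.V0 x))
        (sq_nonneg (η x))) b2
      simp only [Pi.zero_apply]
      rw [mul_pow, rpow_sq, pw_eq, Real.sq_sqrt']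
      linarith
  rw [integral_add (i3.const_mul _) (i4.const_mul _), integral_const_mul, integral_const_mul] at a3
  linarith

end Vale.Agent.P134.B3
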