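import Vale.Agent.P134.B3Defs

/-! P134, block B1: cut-off functions. -/

open Filter Topology MeasureTheory Set Metric
open scoped ContDiff RealInnerProductSpace NNReal Laplacian

namespace Vale.Agent.P134.B3

variable {u : X → ℝ} {a : X}

namespace B1CutAux

theorem bd : ∃ B : ℝ, 0 < B ∧ ∀ t, 0 ≤ t → |deriv Real.smoothTransition t| ≤ B := by
  have hc : Continuous (deriv Real.smoothTransition) :=
    (Real.smoothTransition.contDiff (n := 1)).continuous_deriv le_rfl
  obtain ⟨B, hB⟩ := (isCompact_Icc (a := (0 : ℝ)) (b := 1)).exists_bound_of_continuousOn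
    hc.continuousOn
  refine ⟨|B| + 1, by positivity, fun t ht => ?_⟩
  rcases le_or_gt t 1 with h | h
  · linarith [le_abs_self B, show |deriv Real.smoothTransition t| ≤ B from hB t ⟨ht, h⟩]
  · have e : Real.smoothTransition =ᶠ[𝓝 t] fun _ => 1 :=
      (lt_mem_nhds h).mono fun s hs => Real.smoothTransition.one_of_one_le hs.le
    rw [e.deriv_eq, deriv_const, abs_zero]
    positivity

end B1CutAux

theorem exists_cut : ∃ C : ℝ, 0 < C ∧ ∀ r W : ℝ, 0 ≤ r → 0 < W → ∃ η : X → ℝ, Tst η ∧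
    (∀ x ∈ ball (0 : X) r, η x = 1) ∧ ∀ x, ‖fderiv ℝ η x‖ ≤ C / W ∧
      (x ∉ closedBall (0 : X) (r + W) → η x = 0 ∧ fderiv ℝ η x = 0) := by
  obtain ⟨B, hB, hb⟩ := B1CutAux.bd
  refine ⟨2 * B, by positivity, fun r W hr hW => ?_⟩
  have hD : 0 < W * (2 * r + W) := by positivity
  have h0 : ∀ x : X, x ∉ closedBall (0 : X) (r + W) →
      Real.smoothTransition ((W * (2 * r + W))⁻¹ * ((r + W) ^ 2 - ‖x‖ ^ 2)) = 0 := fun x hx => by
    rw [mem_closedBall_zero_iff, not_le] at hx
    refine Real.smoothTransition.zero_of_nonpos (mul_nonpos_of_nonneg_of_nonpos (by positivity) ?_)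
    linarith [pow_le_pow_left₀ (by positivity) hx.le 2]
  have h1 : ∀ x : X, x ∉ closedBall (0 : X) (r + W) → fderiv ℝ (fun x : X =>
      Real.smoothTransition ((W * (2 * r + W))⁻¹ * ((r + W) ^ 2 - ‖x‖ ^ 2))) x = 0 :=
    fun x hx => by
      have e : (fun x : X => Real.smoothTransition
          ((W * (2 * r + W))⁻¹ * ((r + W) ^ 2 - ‖x‖ ^ 2))) =ᶠ[𝓝 x] fun _ => 0 :=
        (isClosed_closedBall.isOpen_compl.eventually_mem hx).mono h0
      rw [e.fderiv_eq, fderiv_fun_const, Pi.zero_apply]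
  refine ⟨fun x => Real.smoothTransition ((W * (2 * r + W))⁻¹ * ((r + W) ^ 2 - ‖x‖ ^ 2)),
    ⟨(Real.smoothTransition.contDiff (n := 1)).comp
      (contDiff_const.mul (contDiff_const.sub (contDiff_norm_sq ℝ))),
      HasCompactSupport.intro (isCompact_closedBall 0 (r + W)) h0⟩, fun x hx => ?_,
    fun x => ⟨?_, fun hx => ⟨h0 x hx, h1 x hx⟩⟩⟩
  · refine Real.smoothTransition.one_of_one_le ?_
    rw [inv_mul_eq_div, one_le_div hD]
    nlinarith [pow_le_pow_left₀ (norm_nonneg x) (mem_ball_zero_iff.1 hx).le 2]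
  · by_cases hx : x ∈ closedBall (0 : X) (r + W)
    · rw [mem_closedBall_zero_iff] at hx
      have d := (((hasStrictFDerivAt_norm_sq x).hasFDerivAt.const_sub ((r + W) ^ 2)).const_mul
        (W * (2 * r + W))⁻¹)
      have k := ((Real.smoothTransition.contDiff (n := 1)).differentiable one_ne_zero
        _).hasDerivAt.comp_hasFDerivAt x d
      have a1 := hb ((W * (2 * r + W))⁻¹ * ((r + W) ^ 2 - ‖x‖ ^ 2)) (mul_nonneg (by positivity)
        (by linarith [pow_le_pow_left₀ (norm_nonneg x) hx 2]))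
      refine (congrArg norm k.fderiv).trans_le ?_
      rw [norm_smul, norm_smul, norm_neg, two_smul, Real.norm_eq_abs,
        Real.norm_of_nonneg (by positivity)]
      have a2 : ‖innerSL ℝ x + innerSL ℝ x‖ ≤ 2 * (2 * r + W) :=
        (norm_add_le _ _).trans (by rw [innerSL_apply_norm]; linarith)
      calc _ ≤ B * ((W * (2 * r + W))⁻¹ * (2 * (2 * r + W))) := by gcongr
        _ = _ := by field_simp
    · rw [h1 x hx, norm_zero]
      positivity

end Vale.Agent.P134.B3
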