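import Vale.Agent.P134.B3Defs

/-! P134, block B3: pointwise facts. -/

open Filter Topology MeasureTheory Set Metric
open scoped ContDiff RealInnerProductSpace NNReal Laplacian

namespace Vale.Agent.P134.B3

variable {u : X → ℝ} {a : X}

theorem b3bas_r : 7 / 5 ≤ √2 ∧ √2 ≤ 3 / 2 :=
  ⟨Real.le_sqrt_of_sq_le (by norm_num), Real.sqrt_le_iff.2 ⟨by norm_num, by norm_num⟩⟩

theorem b3bas_G (s : ℝ) : GG s = √2 / 2 * (s - s ^ 3 / 3) := by
  rw [GG, div_eq_mul_inv, ← Real.sqrt_div_self, mul_comm]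

theorem b3bas_up (s : ℝ) : s0 / 2 - GG s = √2 / 6 * (2 + s) * (1 - s) ^ 2 := by
  rw [b3bas_G, s0]
  ring

theorem s0_pos : 0 < s0 := by
  unfold s0
  positivity

theorem om_pos : 0 < om := ENNReal.toReal_pos (measure_ball_pos _ _ one_pos).ne' measure_ball_lt_top.ne

theorem vol_ball (y : X) {r : ℝ} (hr : 0 ≤ r) : volume.real (ball y r) = om * r ^ 4 := by
  rw [← Measure.addHaar_real_closedBall_eq_addHaar_real_ball,
    Measure.addHaar_real_closedBall volume y hr, finrank_euclideanSpace_fin, mul_comm]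
  rfl

theorem vol_closedBall (y : X) {r : ℝ} (hr : 0 ≤ r) : volume.real (closedBall y r) = om * r ^ 4 := by
  rw [Measure.addHaar_real_closedBall volume y hr, finrank_euclideanSpace_fin, mul_comm]
  rfl

theorem hasDerivAt_GG (s : ℝ) : HasDerivAt GG ((1 - s ^ 2) / √2) s := by
  have h := ((hasDerivAt_id' s).sub ((hasDerivAt_pow 3 s).div_const 3)).div_const √2
  refine h.congr_deriv ?_
  push_cast
  ring

theorem contDiff_GG : ContDiff ℝ ∞ GG := by
  unfold GG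
  fun_prop

theorem GG_one : GG 1 = s0 / 2 := by
  rw [b3bas_G, s0]
  ring

theorem GG_neg (s : ℝ) : GG (-s) = -GG s := by
  unfold GG
  ring

theorem abs_GG_le {s : ℝ} (h : |s| ≤ 1) : |GG s| ≤ s0 / 2 := by
  obtain ⟨h1, h2⟩ := abs_le.1 h
  have k1 := b3bas_up s
  have k2 := b3bas_up (-s)
  have k3 : 0 ≤ √2 / 6 * (2 + s) * (1 - s) ^ 2 := by
    have : 0 ≤ 2 + s := by linarith
    positivity
  have k4 : 0 ≤ √2 / 6 * (2 + -s) * (1 - -s) ^ 2 := by
    have : 0 ≤ 2 + -s := by linarith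
    positivity
  rw [GG_neg] at k2
  exact abs_le.2 ⟨by linarith, by linarith⟩

theorem GG_gap {s : ℝ} (h : |s| ≤ 1) : s0 / 2 - |GG s| ≤ (1 - s ^ 2) ^ 2 := by
  have k : ∀ t : ℝ, 0 ≤ t → t ≤ 1 → s0 / 2 - GG t ≤ (1 - t ^ 2) ^ 2 := fun t h0 h1 => by
    rw [b3bas_up, show (1 - t ^ 2) ^ 2 = (1 + t) ^ 2 * (1 - t) ^ 2 by ring]
    refine mul_le_mul_of_nonneg_right ?_ (sq_nonneg _)
    nlinarith [b3bas_r.1, b3bas_r.2]
  obtain ⟨h1, h2⟩ := abs_le.1 h
  rcases le_total 0 s with e | e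
  · linarith [k s e h2, le_abs_self (GG s)]
  · have := k (-s) (by linarith) (by linarith)
    rw [GG_neg, neg_sq] at this
    linarith [neg_le_abs (GG s)]

theorem GG_lip {s t : ℝ} (hs : |s| ≤ 1) (ht : |t| ≤ 1) : |GG s - GG t| ≤ |s - t| := by
  have e : GG s - GG t = √2 / 2 * (1 - (s ^ 2 + s * t + t ^ 2) / 3) * (s - t) := by
    rw [b3bas_G, b3bas_G]
    ring
  have h1 : s ^ 2 ≤ 1 := sq_le_one_iff_abs_le_one s |>.2 hs
  have h2 : t ^ 2 ≤ 1 := sq_le_one_iff_abs_le_one t |>.2 ht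
  have h3 : 0 ≤ 1 - (s ^ 2 + s * t + t ^ 2) / 3 := by nlinarith [sq_nonneg (s - t)]
  have h4 : 1 - (s ^ 2 + s * t + t ^ 2) / 3 ≤ 1 := by nlinarith [sq_nonneg (s + t)]
  rw [e, abs_mul, abs_of_nonneg (by positivity)]
  exact mul_le_of_le_one_left (abs_nonneg _)
    (mul_le_one₀ (by linarith [b3bas_r.2]) h3 h4)

theorem GG_low {s : ℝ} (h : |s| ≤ 1) :
    (1 - s) ^ 2 ≤ 5 * |GG s - s0 / 2| ∧ (1 + s) ^ 2 ≤ 5 * |GG s + s0 / 2| := by
  have k : ∀ t : ℝ, -1 ≤ t → (1 - t) ^ 2 ≤ 5 * (s0 / 2 - GG t) := fun t h0 => by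
    rw [b3bas_up, ← mul_assoc]
    refine le_mul_of_one_le_left (sq_nonneg _) ?_
    nlinarith [b3bas_r.1]
  obtain ⟨h1, h2⟩ := abs_le.1 h
  have k2 := k (-s) (by linarith)
  rw [GG_neg, sub_neg_eq_add] at k2
  exact ⟨by linarith [k s h1, neg_le_abs (GG s - s0 / 2)],
    by linarith [le_abs_self (GG s + s0 / 2)]⟩

theorem Cx.sm_p (h : Cx u a) : ContDiff ℝ ∞ (pp u) := contDiff_euclidean.2 fun i => by
  simp only [pp, gradient_apply]
  exact smooth_dv h.bas.smv _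

theorem Cx.sm_r (h : Cx u a) : ContDiff ℝ ∞ (rr u) := h.bas.smP.pow 2

theorem Cx.sm_q (h : Cx u a) (b : X) : ContDiff ℝ ∞ (qq u b) := h.sm_p.inner ℝ contDiff_const

theorem Cx.cont_M (h : Cx u a) : Continuous (HM u) := h.sm_p.continuous_fderiv (by simp)

theorem Cx.cont_hs (h : Cx u a) : Continuous (hs u) :=
  continuous_finsetSum _ fun _ _ => (h.cont_M.clm_apply continuous_const).norm.pow 2

theorem Cx.cont_en (h : Cx u a) : Continuous (en u) := by
  have h1 := h.nd.sol.sm.continuous_fderiv (by simp)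
  have h2 := h.nd.sol.sm.continuous
  unfold en
  fun_prop

theorem ss_eq (u : X → ℝ) (x : X) : ss u x = 1 - ‖pp u x‖ ^ 2 := by rw [ss, pp, norm_gradient]

theorem Cx.p_le (h : Cx u a) (x : X) : ‖pp u x‖ ≤ 1 := by
  have k := h.bas.s0 x
  rw [ss_eq] at k
  nlinarith [norm_nonneg (pp u x)]

theorem rr_eq (u : X → ℝ) (x : X) : rr u x = (1 - u x ^ 2) ^ 2 / 2 := by
  rw [rr, PP, div_pow, Real.sq_sqrt zero_le_two]

theorem Cx.r_pos (h : Cx u a) (x : X) : 0 < rr u x := pow_pos (h.bas.Ppos x) 2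

theorem Cx.r_le (h : Cx u a) (x : X) : rr u x ≤ 1 / 2 := by
  have k := (sq_lt_one_iff_abs_lt_one _).2 (h.nd.lt x)
  rw [rr_eq]
  nlinarith [sq_nonneg (u x)]

theorem Cx.q_pos (h : Cx u a) (x : X) : 0 < qq u a x := by
  have k := h.pos x
  rw [h.bas.du, smul_apply, smul_eq_mul] at k
  rw [qq, pp, inner_gradient]
  exact (mul_pos_iff_of_pos_left (h.bas.Ppos x)).1 k

theorem Cx.q_le (h : Cx u a) (x : X) : qq u a x ≤ 1 := by
  have k := real_inner_le_norm (pp u x) a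
  rw [h.unit, mul_one] at k
  exact k.trans (h.p_le x)

theorem Cx.du (h : Cx u a) (x c : X) : fderiv ℝ u x c = PP u x * ⟪pp u x, c⟫ := by
  rw [h.bas.du, pp, inner_gradient]
  rfl

theorem Cx.norm_du (h : Cx u a) (x : X) : ‖fderiv ℝ u x‖ = PP u x * ‖pp u x‖ := by
  rw [h.bas.du, norm_smul, pp, norm_gradient, Real.norm_of_nonneg (h.bas.Ppos x).le]

theorem Cx.lip (h : Cx u a) : LipschitzWith 1 u := by
  refine lipschitzWith_of_nnnorm_fderiv_le (h.nd.sol.sm.differentiable (by simp)) fun x => ?_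
  rw [← NNReal.coe_le_coe, coe_nnnorm, h.norm_du, NNReal.coe_one]
  refine mul_le_one₀ ?_ (norm_nonneg _) (h.p_le x)
  nlinarith [h.bas.Ple x, h.bas.Ppos x, b3bas_r.1]

theorem Cx.en_eq (h : Cx u a) (x : X) : en u x = rr u x * (2 - ss u x) / 2 := by
  have k := rr_eq u x
  rw [en, h.norm_du, mul_pow, ss_eq, show (1 - u x ^ 2) ^ 2 = 2 * rr u x by linarith, rr]
  ring

theorem Cx.dw (h : Cx u a) (x c : X) :
    fderiv ℝ (fun y => GG (u y)) x c = rr u x * ⟪pp u x, c⟫ := by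
  have k := dv_comp (hasDerivAt_GG (u x)) (h.nd.sol.sm.differentiable (by simp) x) c
  rw [dv, dv, h.du] at k
  rw [k, rr, PP]
  ring

theorem Cx.dr (h : Cx u a) (x c : X) :
    fderiv ℝ (rr u) x c = -(2 * √2 * u x * rr u x * ⟪pp u x, c⟫) := by
  have k := dv_comp (hasDerivAt_pow 2 (PP u x)) (h.bas.smP.differentiable (by simp) x) c
  rw [dv, dv, h.bas.dP, smul_apply, smul_eq_mul] at k
  rw [pp, inner_gradient, dv, rr]
  refine k.trans ?_
  push_cast
  ring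

theorem b3bas_dq (h : Cx u a) (b x c : X) : fderiv ℝ (qq u b) x c = ⟪HM u x c, b⟫ := by
  have k := fderiv_inner_apply ℝ (h.sm_p.differentiable (by simp) x) (differentiableAt_const b) c
  rw [fderiv_fun_const, Pi.zero_apply, zero_apply, inner_zero_right, zero_add] at k
  exact k

theorem Cx.symm (h : Cx u a) (x b c : X) : ⟪HM u x b, c⟫ = ⟪b, HM u x c⟫ := by
  have e : ∀ b, qq u b = dv b (vv u) := fun b => funext fun y => inner_gradient _ _ _
  rw [real_inner_comm _ b, ← b3bas_dq h, ← b3bas_dq h, e, e]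
  exact dv_comm (h.bas.smv.contDiffAt.of_le two_le_oo) b c

theorem Cx.dq (h : Cx u a) (b x c : X) : fderiv ℝ (qq u b) x c = ⟪HM u x c, b⟫ := b3bas_dq h b x c

theorem Cx.ds (h : Cx u a) (x c : X) : fderiv ℝ (ss u) x c = -(2 * ⟪HM u x c, pp u x⟫) := by
  have d := h.sm_p.differentiable (by simp) x
  rw [show ss u = fun y => 1 - ⟪pp u y, pp u y⟫ from funext fun y => by
    rw [ss_eq, real_inner_self_eq_norm_sq], fderiv_const_sub, neg_apply, fderiv_inner_apply ℝ d d,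
    real_inner_comm, two_mul]
  rfl

theorem hs_nonneg (u : X → ℝ) (x : X) : 0 ≤ hs u x := Finset.sum_nonneg fun _ _ => sq_nonneg _

theorem norm_M_sq (u : X → ℝ) (x : X) : ‖HM u x‖ ^ 2 ≤ hs u x := by
  refine (Real.le_sqrt (norm_nonneg _) (hs_nonneg u x)).1
    (ContinuousLinearMap.opNorm_le_bound _ (Real.sqrt_nonneg _) fun z => ?_)
  have e := (EuclideanSpace.basisFun (Fin 4) ℝ).sum_repr z
  simp only [EuclideanSpace.basisFun_repr, ← ev_eq] at e
  conv_lhs => rw [← e, map_sum]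
  refine (norm_sum_le _ _).trans ?_
  simp only [map_smul, norm_smul]
  rw [mul_comm, EuclideanSpace.norm_eq z]
  exact Real.sum_mul_le_sqrt_mul_sqrt _ _ _

end Vale.Agent.P134.B3
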