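import Vale.Agent.P134.B3Defs

/-! P134, block B3: integration by parts and truncated powers. -/

open Filter Topology MeasureTheory Set Metric
open scoped ContDiff RealInnerProductSpace NNReal Laplacian

namespace Vale.Agent.P134.B3

variable {u : X → ℝ} {a : X}

theorem Tst.mul {φ f : X → ℝ} (h : Tst φ) (hf : ContDiff ℝ 1 f) : Tst fun x => f x * φ x :=
  ⟨hf.mul h.c1, h.cs.mul_left⟩

theorem Tst.int {φ f : X → ℝ} (h : Tst φ) (hf : Continuous f) :
    Integrable fun x => f x * φ x :=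
  (hf.mul h.c1.continuous).integrable_of_hasCompactSupport h.cs.mul_left

theorem Tst.int_d {φ f : X → ℝ} {c : X → X} (h : Tst φ) (hf : Continuous f) (hc : Continuous c) :
    Integrable fun x => f x * fderiv ℝ φ x (c x) :=
  (hf.mul ((h.c1.continuous_fderiv one_ne_zero).clm_apply hc)).integrable_of_hasCompactSupport
    ((h.cs.fderiv ℝ).mono fun x hx e => hx (by simp [e]))

theorem b3ibp_cd {f : X → ℝ} (hf : ContDiff ℝ 1 f) (c : X) : Continuous fun x => fderiv ℝ f x c :=
  (hf.continuous_fderiv one_ne_zero).clm_apply continuous_const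

theorem b3ibp_i1 {φ f : X → ℝ} (h : Tst φ) (hf : Continuous f) (c : X) :
    Integrable fun x => fderiv ℝ φ x c * f x := by
  simpa only [mul_comm] using h.int_d hf (c := fun _ => c) continuous_const

theorem b3ibp_i2 {φ f : X → ℝ} (h : Tst φ) (hf : Continuous f) :
    Integrable fun x => φ x * f x := by
  simpa only [mul_comm] using h.int hf

theorem ibp {φ f : X → ℝ} (h : Tst φ) (hf : ContDiff ℝ 1 f) (c : X) :
    ∫ x, φ x * fderiv ℝ f x c = -∫ x, fderiv ℝ φ x c * f x :=
  integral_mul_fderiv_eq_neg_fderiv_mul_of_integrable (b3ibp_i1 h hf.continuous c)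
    (b3ibp_i2 h (b3ibp_cd hf c)) (b3ibp_i2 h hf.continuous)
    (fun x _ => h.c1.differentiable one_ne_zero x) fun x _ => hf.differentiable one_ne_zero x

theorem curl {φ w : X → ℝ} (h : Tst φ) (hw : ContDiff ℝ 2 w) (b c : X) :
    ∫ x, fderiv ℝ φ x b * fderiv ℝ w x c = ∫ x, fderiv ℝ φ x c * fderiv ℝ w x b := by
  have h1 := ibp h (contDiff_dv (m := 1) hw (by norm_num) c) b
  have h2 := ibp h (contDiff_dv (m := 1) hw (by norm_num) b) c
  have e : ∀ x, fderiv ℝ (dv c w) x b = fderiv ℝ (dv b w) x c := fun x =>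
    dv_comm hw.contDiffAt b c
  simp only [e] at h1
  exact neg_injective (h1.symm.trans h2)

theorem green {φ ρ f : X → ℝ} (h : Tst φ) (hρ : ContDiff ℝ 1 ρ) (hf : ContDiff ℝ 2 f) :
    ∫ x, ρ x * gd f φ x = -∫ x, (ρ x * Δ f x + gd ρ f x) * φ x := by
  have c0 : ∀ i, ContDiff ℝ 1 (dv (ev i) f) := fun i => contDiff_dv (m := 1) hf (by norm_num) _
  have c1 : ∀ i, ContDiff ℝ 1 fun x => ρ x * dv (ev i) f x := fun i => hρ.mul (c0 i)
  have e1 : ∀ x, ρ x * gd f φ x = ∑ i, fderiv ℝ φ x (ev i) * (ρ x * dv (ev i) f x) := fun x => by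
    rw [gd, Finset.mul_sum]
    exact Finset.sum_congr rfl fun i _ => by rw [dv, dv]; ring
  have e2 : ∀ x, (ρ x * Δ f x + gd ρ f x) * φ x =
      ∑ i, φ x * fderiv ℝ (fun x => ρ x * dv (ev i) f x) x (ev i) := fun x => by
    rw [lap_eq hf.contDiffAt, gd, Finset.mul_sum, ← Finset.sum_add_distrib, Finset.sum_mul]
    refine Finset.sum_congr rfl fun i _ => ?_
    have := dv_mul (hρ.differentiable one_ne_zero x) ((c0 i).differentiable one_ne_zero x) (ev i)
    rw [dv] at this
    rw [this]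
    ring
  simp only [e1, e2]
  rw [integral_finsetSum _ fun i _ => b3ibp_i1 h (c1 i).continuous _,
    integral_finsetSum _ fun i _ => b3ibp_i2 h (b3ibp_cd (c1 i) _), ← Finset.sum_neg_distrib]
  exact Finset.sum_congr rfl fun i _ => by rw [ibp h (c1 i), neg_neg]

/-- the curl identity for the two-form `φ (x ∧ c)` -/
theorem curl_x {φ w : X → ℝ} (h : Tst φ) (hw : ContDiff ℝ 2 w) (c : X) :
    ∫ x, ((3 * φ x + fderiv ℝ φ x x) * fderiv ℝ w x c - fderiv ℝ φ x c * fderiv ℝ w x x) = 0 := by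
  have w1 : ContDiff ℝ 1 w := hw.of_le (by norm_num)
  have c0 : ∀ i, ContDiff ℝ 1 fun x : X => x i := fun i =>
    (EuclideanSpace.proj i : X →L[ℝ] ℝ).contDiff
  have t : ∀ i, Tst fun x => x i * φ x := fun i => h.mul (c0 i)
  have d : ∀ i (x v : X), fderiv ℝ (fun x : X => x i * φ x) x v =
      x i * fderiv ℝ φ x v + φ x * v i := fun i x v => by
    have := dv_mul ((c0 i).differentiable one_ne_zero x) (h.c1.differentiable one_ne_zero x) v
    rw [dv, dv, dv] at this
    rw [this]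
    congr 2
    exact congrArg (fun L : X →L[ℝ] ℝ => L v) (EuclideanSpace.proj i : X →L[ℝ] ℝ).fderiv
  have e : ∀ x, (3 * φ x + fderiv ℝ φ x x) * fderiv ℝ w x c - fderiv ℝ φ x c * fderiv ℝ w x x =
      ∑ i, (fderiv ℝ (fun x : X => x i * φ x) x (ev i) * fderiv ℝ w x c -
        fderiv ℝ (fun x : X => x i * φ x) x c * fderiv ℝ w x (ev i)) := fun x => by
    have a1 := dv_eq_sum x φ x
    have a2 := dv_eq_sum x w x
    have a3 := dv_eq_sum c w x
    have a4 : ∀ i : Fin 4, (ev i : X) i = 1 := fun i => by simp [ev]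
    simp only [dv, Fin.sum_univ_four] at a1 a2 a3
    simp only [d, a4, Fin.sum_univ_four]
    rw [a1, a2]
    linear_combination (-φ x) * a3
  simp only [e]
  refine (integral_finsetSum _ fun i _ =>
    (b3ibp_i1 (t i) (b3ibp_cd w1 _) _).sub (b3ibp_i1 (t i) (b3ibp_cd w1 _) _)).trans
      (Finset.sum_eq_zero fun i _ => ?_)
  exact (integral_sub (b3ibp_i1 (t i) (b3ibp_cd w1 _) _) (b3ibp_i1 (t i) (b3ibp_cd w1 _) _)).trans
    (sub_eq_zero.2 (curl (t i) hw _ _))

theorem pw_nonneg (n : ℕ) (s : ℝ) : 0 ≤ pw n s := pow_nonneg (le_max_right _ _) _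

theorem pw_le_one (n : ℕ) {s : ℝ} (hs : 0 ≤ s) : pw n s ≤ 1 :=
  pow_le_one₀ (le_max_right _ _) (max_le (by linarith) zero_le_one)

theorem pw_zero (n : ℕ) {s : ℝ} (hs : 1 ≤ s) : pw (n + 1) s = 0 := by
  rw [pw, max_eq_right (by linarith), zero_pow n.succ_ne_zero]

theorem continuous_pw (n : ℕ) : Continuous (pw n) := by
  unfold pw
  fun_prop

theorem hasDerivAt_pw (n : ℕ) (s : ℝ) :
    HasDerivAt (pw (n + 2)) (-(((n : ℝ) + 2) * pw (n + 1) s)) s := by
  rcases lt_trichotomy s 1 with h | rfl | h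
  · have e : pw (n + 2) =ᶠ[𝓝 s] fun t => (1 - t) ^ (n + 2) :=
      (eventually_lt_nhds h).mono fun t ht => by rw [pw, max_eq_left (by linarith)]
    refine HasDerivAt.congr_of_eventuallyEq ?_ e
    rw [pw, max_eq_left (by linarith)]
    refine (((hasDerivAt_id' s).const_sub 1).fun_pow (n + 2)).congr_deriv ?_
    simp
  · rw [hasDerivAt_iff_tendsto_slope, pw_zero n le_rfl, mul_zero, ← pw_zero n le_rfl]
    refine (((continuous_pw (n + 1)).neg.tendsto 1).mono_left nhdsWithin_le_nhds).congr' ?_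
    filter_upwards [self_mem_nhdsWithin] with t ht
    rw [slope_def_field, pw_zero (n + 1) le_rfl, sub_zero, eq_div_iff (sub_ne_zero.2 ht),
      Pi.neg_apply]
    rcases le_total 1 t with h | h
    · rw [pw_zero n h, pw_zero (n + 1) h, neg_zero, zero_mul]
    · rw [pw, pw, max_eq_left (by linarith)]
      ring
  · have e : pw (n + 2) =ᶠ[𝓝 s] fun _ => 0 :=
      (eventually_gt_nhds h).mono fun t ht => pw_zero (n + 1) ht.le
    rw [pw_zero n h.le, mul_zero, neg_zero]
    exact (hasDerivAt_const s 0).congr_of_eventuallyEq e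

theorem contDiff_pw (n : ℕ) : ContDiff ℝ 1 (pw (n + 2)) := by
  refine contDiff_one_iff_deriv.2 ⟨fun s => (hasDerivAt_pw n s).differentiableAt, ?_⟩
  rw [show deriv (pw (n + 2)) = fun s => -(((n : ℝ) + 2) * pw (n + 1) s) from
    funext fun s => (hasDerivAt_pw n s).deriv]
  exact (continuous_const.mul (continuous_pw _)).neg

theorem tst_pw (n : ℕ) (y : X) {R : ℝ} (hR : 0 < R) :
    Tst fun x => pw (n + 2) (‖x - y‖ ^ 2 / R ^ 2) := by
  refine ⟨(contDiff_pw n).comp (((contDiff_id.sub contDiff_const).norm_sq ℝ).div_const _),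
    HasCompactSupport.intro (isCompact_closedBall y R) fun x hx => pw_zero (n + 1) ?_⟩
  rw [mem_closedBall_iff_norm, not_le] at hx
  rw [one_le_div (by positivity)]
  exact pow_le_pow_left₀ hR.le hx.le 2

theorem fderiv_pw (n : ℕ) (y : X) (R : ℝ) (x c : X) :
    fderiv ℝ (fun x => pw (n + 2) (‖x - y‖ ^ 2 / R ^ 2)) x c =
      -(2 * ((n : ℝ) + 2) * pw (n + 1) (‖x - y‖ ^ 2 / R ^ 2) * ⟪x - y, c⟫ / R ^ 2) := by
  have h := (((hasFDerivAt_id x).sub_const y).norm_sq.mul_const (R ^ 2)⁻¹)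
  simp only [← div_eq_mul_inv, id] at h
  rw [fderiv_comp1 (hasDerivAt_pw n _) h.differentiableAt, h.fderiv]
  simp [inner_sub_left]
  ring

/-- change of scale -/
theorem int_scale (F : X → ℝ) (y : X) {r : ℝ} (hr : 0 < r) (L : ℝ) :
    ∫ x in ball (0 : X) L, F (y + r • x) = (r ^ 4)⁻¹ * ∫ x in ball y (r * L), F x := by
  rw [Measure.setIntegral_comp_smul_of_pos volume (fun z => F (y + z)) _ hr,
    _root_.smul_ball hr.ne', smul_zero, Real.norm_of_nonneg hr.le, finrank_euclideanSpace_fin, smul_eq_mul,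
    ← (measurePreserving_add_left volume y).setIntegral_preimage_emb
      (measurableEmbedding_addLeft y) F]
  congr 3
  ext z
  simp

theorem intOn_ball {F : X → ℝ} (hF : Continuous F) (y : X) (r : ℝ) :
    IntegrableOn F (ball y r) :=
  (hF.continuousOn.integrableOn_compact (isCompact_closedBall y r)).mono_set ball_subset_closedBall

theorem int_ball_mono {F : X → ℝ} (hF : Continuous F) (h0 : ∀ x, 0 ≤ F x) {y z : X} {r s : ℝ}
    (h : ‖y - z‖ + r ≤ s) : ∫ x in ball y r, F x ≤ ∫ x in ball z s, F x :=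
  setIntegral_mono_set (intOn_ball hF z s) (Eventually.of_forall h0)
    (ball_subset_ball' (by rw [dist_eq_norm]; linarith)).eventuallyLE

end Vale.Agent.P134.B3
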