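import Vale.Agent.P134.B3En
import Vale.Agent.P134.B3Bas
import Vale.Agent.P134.B3Ibp

/-! P134, block B1: the kernel bound. -/

open Filter Topology MeasureTheory Set Metric
open scoped ContDiff RealInnerProductSpace NNReal Laplacian

namespace Vale.Agent.P134.B3

variable {u : X → ℝ} {a : X}

theorem Cx.ker (h : Cx u a) : ∃ C : ℝ, 0 < C ∧ ∀ (x : X) (ρ : ℝ), 1 ≤ ρ →
    ∫ y in ball x ρ, rr u y / (1 + ‖x - y‖ ^ 2) ≤ C * ρ := by
  obtain ⟨C, hC, hv⟩ := h.vol
  have cr := h.sm_r.continuous
  refine ⟨16 * C, by positivity, fun x ρ hρ => ?_⟩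
  have cf : Continuous fun y => rr u y / (1 + ‖x - y‖ ^ 2) :=
    cr.div (by fun_prop) fun y => by positivity
  have k : ∀ N : ℕ, ∫ y in ball x (2 ^ N), rr u y / (1 + ‖x - y‖ ^ 2) ≤ 8 * C * 2 ^ N := by
    intro N
    induction N with
    | zero =>
      refine (setIntegral_mono (intOn_ball cf _ _) (intOn_ball cr _ _) fun y =>
        div_le_self (h.r_pos y).le (by nlinarith [sq_nonneg ‖x - y‖])).trans
        ((hv x _ (by positivity)).1.trans ?_)
      simp only [pow_zero, one_pow]
      linarith
    | succ N ih =>
      have t : (0 : ℝ) < 2 ^ N := by positivity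
      have i1 := (intOn_ball cf x (2 ^ (N + 1))).indicator (t := ball x (2 ^ N)) measurableSet_ball
      have i2 := (intOn_ball cr x (2 ^ (N + 1))).div_const ((2 ^ N) ^ 2)
      refine (setIntegral_mono (intOn_ball cf _ _) (i1.add i2) fun y => ?_).trans ?_
      · have r := h.r_pos y
        by_cases hy : y ∈ ball x (2 ^ N)
        · simp only [Pi.add_apply, indicator_of_mem hy, le_add_iff_nonneg_right]
          positivity
        · simp only [Pi.add_apply, indicator_of_notMem hy, zero_add]
          rw [mem_ball', dist_eq_norm, not_lt] at hy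
          exact div_le_div_of_nonneg_left r.le (by positivity) (by nlinarith)
      · have e := (hv x (2 ^ (N + 1)) (by positivity)).1
        simp only [Pi.add_apply]
        rw [integral_add i1 i2, setIntegral_indicator measurableSet_ball, integral_div,
          inter_eq_right.2 (ball_subset_ball (by rw [pow_succ]; linarith))]
        have e2 : (∫ y in ball x (2 ^ (N + 1)), rr u y) / (2 ^ N) ^ 2 ≤ 8 * C * 2 ^ N := by
          rw [div_le_iff₀ (by positivity)]
          exact e.trans (le_of_eq (by ring))
        rw [pow_succ 2 N, ← mul_assoc]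
        rw [pow_succ 2 N] at e2
        linarith
  obtain ⟨N, h1, h2⟩ := exists_nat_pow_near hρ one_lt_two
  refine (int_ball_mono cf (fun y => by have := h.r_pos y; positivity)
    (by rw [sub_self, norm_zero, zero_add]; exact h2.le)).trans ((k (N + 1)).trans ?_)
  rw [pow_succ]
  nlinarith

end Vale.Agent.P134.B3
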