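import Vale.Agent.P134.B1Mono
import Vale.Agent.P134.B1Ker

/-! P134, block B1: integration over the centres. -/

open Filter Topology MeasureTheory Set Metric
open scoped ContDiff RealInnerProductSpace NNReal Laplacian

namespace Vale.Agent.P134.B3

variable {u : X → ℝ} {a : X}

namespace B1FubAux

theorem swap {f g : X → ℝ} {k : X × X → ℝ} {A : Set X} (hf : IntegrableOn f A)
    (hg : Integrable g) (hk : Continuous k) (k1 : ∀ z, ‖k z‖ ≤ 1) (r : ℝ) :
    IntegrableOn (fun y => f y * ∫ x in ball y r, g x * k (x, y)) A ∧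
    Integrable (fun x => g x * ∫ y in A ∩ ball x r, f y * k (x, y)) ∧
    ∫ y in A, f y * ∫ x in ball y r, g x * k (x, y) =
      ∫ x, g x * ∫ y in A ∩ ball x r, f y * k (x, y) := by
  have I := ((hg.mul_prod hf).mul_bdd hk.aestronglyMeasurable (Eventually.of_forall k1)).indicator
    (s := {z : X × X | dist z.1 z.2 < r}) (isOpen_lt (by fun_prop) continuous_const).measurableSet
  have e1 : ∀ x, ∫ y in A, {z : X × X | dist z.1 z.2 < r}.indicator
      (fun z => g z.1 * f z.2 * k z) (x, y) = g x * ∫ y in A ∩ ball x r, f y * k (x, y) :=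
    fun x => by
    rw [← integral_const_mul, ← setIntegral_indicator measurableSet_ball]
    refine integral_congr_ae (Eventually.of_forall fun y => ?_)
    simp only [indicator, mem_ofPred_eq, mem_ball', mul_assoc]
  have e2 : ∀ y, ∫ x, {z : X × X | dist z.1 z.2 < r}.indicator
      (fun z => g z.1 * f z.2 * k z) (x, y) = f y * ∫ x in ball y r, g x * k (x, y) :=
    fun y => by
    rw [← integral_const_mul, ← integral_indicator measurableSet_ball]
    refine integral_congr_ae (Eventually.of_forall fun x => ?_)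
    simp only [indicator, mem_ofPred_eq, mem_ball, mul_assoc, mul_left_comm]
  have i1 := I.integral_prod_left
  have i2 := I.integral_prod_right
  have i3 := (integral_prod_symm _ I).symm.trans (integral_prod _ I)
  simp only [e1, e2] at i1 i2 i3
  exact ⟨i2, i1, i3⟩

end B1FubAux

theorem Cx.fub (h : Cx u a) : ∃ C : ℝ, 0 < C ∧ ∀ (F : X → ℝ) (A : Set X) (ρ : ℝ), Tst F →
    (∀ x, 0 ≤ F x) → MeasurableSet A → Bornology.IsBounded A → 2 ≤ ρ →
    ∫ x, rr u x * F x * (∫ y in A ∩ ball x 1, rr u y) ≤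
      C / ρ ^ 3 * (∫ y in A, rr u y) * (∫ x, rr u x * F x) +
        C * ρ * ∫ x, rr u x * ‖fderiv ℝ F x‖ := by
  obtain ⟨K, k0, hK⟩ := h.ker
  refine ⟨40 + 10 * K, by positivity, fun F A ρ hF F0 hA hb hρ => ?_⟩
  have cr := h.sm_r.continuous
  have r0 := fun x => (h.r_pos x).le
  have iA : IntegrableOn (rr u) A := (cr.continuousOn.integrableOn_compact
    hb.isCompact_closure).mono_set subset_closure
  have i1 := hF.int cr
  have i2 : Integrable fun x => rr u x * ‖fderiv ℝ F x‖ :=
    (cr.mul (hF.c1.continuous_fderiv one_ne_zero).norm).integrable_of_hasCompactSupport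
      (hF.cs.fderiv ℝ).norm.mul_left
  have kp : ∀ z : X × X, 0 < 1 + ‖z.1 - z.2‖ ^ 2 := fun z => by positivity
  obtain ⟨a1, -, a3⟩ := B1FubAux.swap iA i1 (k := fun _ => 1) continuous_const (by simp) 1
  obtain ⟨b1, b2, b3⟩ := B1FubAux.swap iA i2 (k := fun z => (1 + ‖z.1 - z.2‖ ^ 2)⁻¹)
    (Continuous.inv₀ (by fun_prop) fun z => (kp z).ne') (fun z => by
      rw [Real.norm_of_nonneg (inv_pos.2 (kp z)).le]
      exact inv_le_one_of_one_le₀ (le_add_of_nonneg_right (sq_nonneg _))) ρ
  simp only [mul_one, ← div_eq_mul_inv] at a1 a3 b1 b2 b3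
  have n1 : 0 ≤ ∫ x, rr u x * F x := integral_nonneg fun x => mul_nonneg (r0 x) (F0 x)
  have n2 : 0 ≤ ∫ x, rr u x * ‖fderiv ℝ F x‖ :=
    integral_nonneg fun x => mul_nonneg (r0 x) (norm_nonneg _)
  have n3 : 0 ≤ ∫ y in A, rr u y := integral_nonneg r0
  have c1 : ∫ y in A, rr u y * ∫ x in ball y 1, rr u x * F x ≤
      ∫ y in A, (40 / ρ ^ 3 * (∫ x, rr u x * F x) * rr u y + 10 *
        (rr u y * ∫ x in ball y ρ, rr u x * ‖fderiv ℝ F x‖ / (1 + ‖x - y‖ ^ 2))) := by
    refine integral_mono a1 ((iA.const_mul _).add (b1.const_mul _)) fun y => ?_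
    have m := (h.mono_at hF.c1 F0 y hρ).trans (add_le_add (mul_le_mul_of_nonneg_left
      (setIntegral_le_integral i1 (Eventually.of_forall fun x => mul_nonneg (r0 x) (F0 x)))
      (by positivity)) le_rfl)
    exact (mul_le_mul_of_nonneg_left m (r0 y)).trans (le_of_eq (by ring))
  have c2 : ∫ x, rr u x * ‖fderiv ℝ F x‖ * ∫ y in A ∩ ball x ρ, rr u y / (1 + ‖x - y‖ ^ 2) ≤
      ∫ x, rr u x * ‖fderiv ℝ F x‖ * (K * ρ) := by
    refine integral_mono b2 (i2.mul_const _) fun x => mul_le_mul_of_nonneg_left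
      (le_trans (setIntegral_mono_set (intOn_ball (cr.div (by fun_prop) fun y => (kp (x, y)).ne')
        x ρ) (Eventually.of_forall fun y => div_nonneg (r0 y) (kp (x, y)).le)
        inter_subset_right.eventuallyLE) (hK x ρ (by linarith)))
      (mul_nonneg (r0 x) (norm_nonneg _))
  rw [integral_add (iA.const_mul _) (b1.const_mul _), integral_const_mul, integral_const_mul, a3,
    b3] at c1
  rw [integral_mul_const] at c2
  have d1 : 0 ≤ K / ρ ^ 3 * (∫ y in A, rr u y) * ∫ x, rr u x * F x := by positivity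
  have d2 : 0 ≤ ρ * ∫ x, rr u x * ‖fderiv ℝ F x‖ := by positivity
  refine c1.trans ?_
  rw [add_div, mul_div_assoc]
  linarith

end Vale.Agent.P134.B3
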