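import Vale.Agent.P134.RDefs

/-! P134, block R: Harnack inequality for `1 - u ^ 2` and the strong maximum principle. -/

open Filter Topology MeasureTheory
open scoped ContDiff Laplacian RealInnerProductSpace

namespace Vale.Agent.P134

theorem r_gron (n : ℕ) (w : E n → ℝ) (C : ℝ) (hw : Differentiable ℝ w) (h0 : ∀ x, 0 ≤ w x)
    (hC : ∀ x, ‖fderiv ℝ w x‖ ≤ C * w x) (x y : E n) :
    w x ≤ Real.exp (C * ‖x - y‖) * w y := by
  have hd : ∀ t : ℝ, HasDerivAt (fun t : ℝ => Real.exp (-(C * ‖x - y‖) * t) * w (y + t • (x - y)))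
      (Real.exp (-(C * ‖x - y‖) * t) * (-(C * ‖x - y‖) * 1) * w (y + t • (x - y)) +
        Real.exp (-(C * ‖x - y‖) * t) * fderiv ℝ w (y + t • (x - y)) ((1 : ℝ) • (x - y))) t :=
    fun t => (((hasDerivAt_id t).const_mul (-(C * ‖x - y‖))).exp).mul
      ((hw (y + t • (x - y))).hasFDerivAt.comp_hasDerivAt t
        (((hasDerivAt_id t).smul_const (x - y)).const_add y))
  have ha := antitone_of_deriv_nonpos (fun t => (hd t).differentiableAt) fun t => by
    rw [(hd t).deriv, one_smul, mul_one, mul_assoc, ← mul_add]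
    refine mul_nonpos_of_nonneg_of_nonpos (Real.exp_pos _).le ?_
    have a1 := (le_abs_self _).trans ((fderiv ℝ w (y + t • (x - y))).le_opNorm (x - y))
    have a2 := mul_le_mul_of_nonneg_right (hC (y + t • (x - y))) (norm_nonneg (x - y))
    linarith
  have h1 := ha (zero_le_one (α := ℝ))
  simp only [one_smul, mul_one, mul_zero, zero_smul, add_zero, Real.exp_zero, one_mul,
    add_sub_cancel] at h1
  have _ := h0
  calc w x = Real.exp (C * ‖x - y‖) * (Real.exp (-(C * ‖x - y‖)) * w x) := by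
        rw [← mul_assoc, ← Real.exp_add, add_neg_cancel, Real.exp_zero, one_mul]
    _ ≤ _ := mul_le_mul_of_nonneg_left h1 (Real.exp_pos _).le

theorem r_pharn (h : R_mod) (n : ℕ) (u : E n → ℝ) (hu : Sol u) (x y : E n) :
    1 - u x ^ 2 ≤ Real.exp (Real.sqrt 2 * ‖x - y‖) * (1 - u y ^ 2) := by
  have hd : Differentiable ℝ u := hu.sm.differentiable (by simp)
  have h0 : ∀ z, 0 ≤ 1 - u z ^ 2 := fun z => by
    have := abs_le.1 (hu.bd z)
    nlinarith
  have hf : ∀ z, HasFDerivAt (fun z => 1 - u z ^ 2) (-((2 * u z) • fderiv ℝ u z)) z := fun z => by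
    have := ((hd z).hasFDerivAt.pow 2).const_sub 1
    simpa using this
  refine r_gron n (fun z => 1 - u z ^ 2) (Real.sqrt 2) (fun z => (hf z).differentiableAt) h0
    (fun z => ?_) x y
  rw [(hf z).fderiv, norm_neg, norm_smul, Real.norm_eq_abs, abs_mul, abs_two]
  have s2 : Real.sqrt 2 ^ 2 = 2 := Real.sq_sqrt (by norm_num)
  have a1 : 2 * ‖fderiv ℝ u z‖ ≤ Real.sqrt 2 * (1 - u z ^ 2) := by
    refine (abs_le_of_sq_le_sq' ?_ (mul_nonneg (Real.sqrt_nonneg 2) (h0 z))).2
    have := h n u hu z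
    rw [mul_pow, mul_pow, s2]
    linarith
  have a2 := mul_le_mul_of_nonneg_right (hu.bd z) (norm_nonneg (fderiv ℝ u z))
  linarith

theorem r_lt (h : R_mod) : R_lt := by
  intro n u hu
  by_cases h1 : ∀ x, |u x| < 1
  · exact Or.inl h1
  right
  obtain ⟨y, hy⟩ := not_forall.1 h1
  have hy' : u y ^ 2 = 1 := by
    rw [← sq_abs, le_antisymm (hu.bd y) (not_lt.1 hy), one_pow]
  have h2 : ∀ x, u x = 1 ∨ u x = -1 := fun x => by
    have a := r_pharn h n u hu x y
    have b := abs_le.1 (hu.bd x)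
    rw [hy', sub_self, mul_zero] at a
    exact sq_eq_one_iff.1 (by nlinarith)
  by_contra k
  rw [not_or, not_forall, not_forall] at k
  obtain ⟨⟨a, ha⟩, b, hb⟩ := k
  have ha' := (h2 a).resolve_left ha
  have hb' := (h2 b).resolve_right hb
  obtain ⟨z, hz⟩ := intermediate_value_univ a b hu.sm.continuous
    (show (0 : ℝ) ∈ Set.Icc (u a) (u b) by rw [ha', hb']; norm_num)
  rcases h2 z with e | e <;> rw [e] at hz <;> norm_num at hz

end Vale.Agent.P134
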