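import Vale.Agent.P134.B3Bas
import Vale.Agent.P134.B3Ibp
import Vale.Agent.P134.RLt

/-! P134, block B1: Hardy and Harnack inequalities. -/

open Filter Topology MeasureTheory Set Metric
open scoped ContDiff RealInnerProductSpace NNReal Laplacian

namespace Vale.Agent.P134.B3

variable {u : X → ℝ} {a : X}

namespace B1HarAux

theorem pt_grad {P f : X → ℝ} {x : X} (hP : DifferentiableAt ℝ P x)
    (hf : DifferentiableAt ℝ f x) :
    -(P x ^ 2 * ‖fderiv ℝ f x‖ ^ 2) ≤ gd P (fun y => P y * f y * f y) x := by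
  rw [norm_sq_fderiv, gd, Finset.mul_sum, ← Finset.sum_neg_distrib]
  refine Finset.sum_le_sum fun i _ => ?_
  have e : dv (ev i) (fun y => P y * f y * f y) x =
      P x * f x * dv (ev i) f x + f x * (P x * dv (ev i) f x + f x * dv (ev i) P x) := by
    rw [dv_mul (f := fun y => P y * f y) (hP.mul hf) hf, dv_mul hP hf]
  rw [e]
  nlinarith [sq_nonneg (f x * dv (ev i) P x + P x * dv (ev i) f x)]

theorem pt_lap (h : Cx u a) (x : X) :
    PP u x ^ 2 - 9 / 2 * (PP u x ^ 2) ^ 2 ≤ Δ (PP u) x * PP u x := by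
  have hP := h.bas.Ppos x
  have hs := h.bas.s0 x
  have h2 : (√2 : ℝ) ^ 2 = 2 := Real.sq_sqrt (by norm_num)
  have h20 : (0 : ℝ) < √2 := Real.sqrt_pos.2 (by norm_num)
  have e : u x ^ 2 = 1 - √2 * PP u x := by
    rw [PP]
    field_simp
    ring
  rw [h.bas.lapP, e]
  have k1 : 1 - 9 / 2 * PP u x ^ 2 ≤
      (3 * (1 - √2 * PP u x) - 1) * (1 - ss u x) + 2 * (1 - √2 * PP u x) * ss u x := by
    have k2 : 0 ≤ √2 * PP u x * ss u x := by positivity
    have k3 : (√2 * PP u x) ^ 2 = 2 * PP u x ^ 2 := by rw [mul_pow, h2]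
    nlinarith [sq_nonneg (1 - 3 / 2 * (√2 * PP u x))]
  have k4 := mul_le_mul_of_nonneg_left k1 (sq_nonneg (PP u x))
  nlinarith

theorem dr_le (h : Cx u a) (x : X) : ‖fderiv ℝ (rr u) x‖ ≤ 3 * rr u x := by
  have hr := h.r_pos x
  refine ContinuousLinearMap.opNorm_le_bound _ (by positivity) fun c => ?_
  rw [h.dr, norm_neg, Real.norm_eq_abs, abs_mul, abs_mul, abs_mul, abs_of_pos hr,
    abs_of_nonneg (by positivity : (0 : ℝ) ≤ 2 * √2)]
  have k1 : |⟪pp u x, c⟫| ≤ ‖c‖ := by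
    refine (abs_real_inner_le_norm _ _).trans ?_
    nlinarith [h.p_le x, norm_nonneg c, norm_nonneg (pp u x)]
  have k2 : 2 * √2 * |u x| ≤ 3 := by
    nlinarith [(h.nd.lt x).le, abs_nonneg (u x), b3bas_r.1, b3bas_r.2]
  exact mul_le_mul (mul_le_mul_of_nonneg_right k2 hr.le) k1 (abs_nonneg _) (by positivity)

end B1HarAux

open B1HarAux in
theorem Cx.hardy (h : Cx u a) {f : X → ℝ} (hf : Tst f) :
    ∫ x, rr u x * f x ^ 2 ≤
      (∫ x, rr u x * ‖fderiv ℝ f x‖ ^ 2) + 9 / 2 * ∫ x, rr u x ^ 2 * f x ^ 2 := by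
  have hP2 : ContDiff ℝ 2 (PP u) := h.bas.smP.of_le two_le_oo
  have hP1 : ContDiff ℝ 1 (PP u) := h.bas.smP.of_le one_le_oo
  have hφ : Tst fun x => PP u x * f x * f x := hf.mul (hP1.mul hf.c1)
  have hr : Continuous (rr u) := h.sm_r.continuous
  have hfc : Continuous f := hf.c1.continuous
  have g := green hφ (ρ := fun _ => 1) contDiff_const hP2
  have e0 : ∀ x, gd (fun _ : X => (1 : ℝ)) (PP u) x = 0 := fun x => by
    simp only [gd, dv_const, zero_mul, Finset.sum_const_zero]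
  simp only [one_mul, e0, add_zero] at g
  have i1 : Integrable fun x => rr u x * f x ^ 2 := by
    simpa only [sq, mul_assoc] using hf.int (f := fun x => rr u x * f x) (hr.mul hfc)
  have i2 : Integrable fun x => rr u x ^ 2 * f x ^ 2 := by
    simpa only [sq (f _), ← mul_assoc] using
      hf.int (f := fun x => rr u x ^ 2 * f x) ((hr.pow 2).mul hfc)
  have i3 : Integrable fun x => rr u x * ‖fderiv ℝ f x‖ ^ 2 :=
    (hr.mul ((hf.c1.continuous_fderiv one_ne_zero).norm.pow 2)).integrable_of_hasCompactSupport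
      ((hf.cs.fderiv ℝ).mono fun x hx e => hx (by simp [e]))
  have i4 : Integrable fun x => Δ (PP u) x * (PP u x * f x * f x) :=
    hφ.int (contDiff_lap (m := 0) hP2 (by norm_num)).continuous
  have i5 : Integrable fun x => gd (PP u) (fun y => PP u y * f y * f y) x :=
    integrable_finsetSum _ fun i _ =>
      hφ.int_d (b3ibp_cd hP1 (ev i)) (c := fun _ => ev i) continuous_const
  have a1 : ∫ x, (rr u x * f x ^ 2 - 9 / 2 * (rr u x ^ 2 * f x ^ 2)) ≤
      ∫ x, Δ (PP u) x * (PP u x * f x * f x) := by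
    refine integral_mono (i1.sub (i2.const_mul _)) i4 fun x => ?_
    have k := mul_le_mul_of_nonneg_right (pt_lap h x) (sq_nonneg (f x))
    simp only [rr]
    nlinarith
  have a2 : ∫ x, -(rr u x * ‖fderiv ℝ f x‖ ^ 2) ≤
      ∫ x, gd (PP u) (fun y => PP u y * f y * f y) x :=
    integral_mono i3.neg i5 fun x =>
      pt_grad (hP1.differentiable one_ne_zero x) (hf.c1.differentiable one_ne_zero x)
  rw [integral_sub i1 (i2.const_mul _), integral_const_mul] at a1
  rw [integral_neg] at a2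
  linarith

open B1HarAux in
theorem Cx.r_low (h : Cx u a) : ∃ c : ℝ, 0 < c ∧ ∀ (x : X) (κ : ℝ), 0 < κ → κ ≤ 1 →
    c * κ ^ 4 * rr u x ≤ ∫ y in ball x κ, rr u y := by
  refine ⟨om * Real.exp (-3), mul_pos om_pos (Real.exp_pos _), fun x κ hκ hκ1 => ?_⟩
  have k : ∀ y ∈ ball x κ, Real.exp (-3) * rr u x ≤ rr u y := fun y hy => by
    have k1 := r_gron 4 (rr u) 3 (h.sm_r.differentiable (by simp)) (fun z => (h.r_pos z).le)
      (dr_le h) x y
    have k2 : ‖x - y‖ ≤ 1 := by
      rw [mem_ball, dist_comm, dist_eq_norm] at hy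
      linarith
    have k3 : Real.exp (3 * ‖x - y‖) ≤ Real.exp 3 := Real.exp_le_exp.2 (by linarith)
    have k4 : rr u x ≤ Real.exp 3 * rr u y :=
      k1.trans (mul_le_mul_of_nonneg_right k3 (h.r_pos y).le)
    rw [Real.exp_neg, inv_mul_le_iff₀ (Real.exp_pos 3)]
    exact k4
  have k5 := setIntegral_mono_on (μ := volume) (intOn_ball continuous_const x κ)
    (intOn_ball h.sm_r.continuous x κ) measurableSet_ball k
  rw [setIntegral_const, vol_ball x hκ.le, smul_eq_mul] at k5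
  refine le_trans (le_of_eq ?_) k5
  ring

end Vale.Agent.P134.B3
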