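import Vale.Agent.P134.Stm

/-! Smooth cut off functions adapted to a Lipschitz function. -/

open scoped RealInnerProductSpace ContDiff ENNReal Topology Laplacian Convolution
open MeasureTheory Set Metric Filter

namespace Vale.Agent.P134.DG

theorem cut_pf : S_Cut := by
  refine ⟨3, by norm_num, fun d hd a => ?_⟩
  let φ : ContDiffBump (0 : E 3) := ⟨1 / 8, 1 / 4, by norm_num, by norm_num⟩
  let f : E 3 → ℝ := fun x => min 1 (max 0 (2 - 3 * (d x - a)))
  have hdc := hd.continuous
  have hfc : Continuous f := by fun_prop
  have f0 : ∀ x, 0 ≤ f x := fun x => le_min zero_le_one (le_max_left _ _)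
  have f1 : ∀ x, f x ≤ 1 := fun x => min_le_left _ _
  have hl : ∀ x y, |d x - d y| ≤ dist x y := fun x y => by
    simpa [Real.dist_eq] using hd.dist_le_mul x y
  have fl : ∀ x y, f x ≤ f y + 3 * dist x y := fun x y => by
    have h := abs_le.1 (hl x y)
    have h0 : 0 ≤ dist x y := dist_nonneg
    simp only [f, min_def, max_def]
    split_ifs <;> linarith
  let χ : E 3 → ℝ := φ.normed volume ⋆[ContinuousLinearMap.lsmul ℝ ℝ, volume] f
  have e : ∀ x, χ x = ∫ t, φ.normed volume t * f (x - t) := fun x => rfl
  have k0 := φ.nonneg_normed (μ := volume)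
  have ki := φ.integrable_normed (μ := volume)
  have hi : ∀ x, Integrable fun t => φ.normed volume t * f (x - t) := fun x =>
    (φ.continuous_normed.mul (by fun_prop)).integrable_of_hasCompactSupport
      φ.hasCompactSupport_normed.mul_right
  have c1 : ∀ x, d x ≤ a → χ x = 1 := fun x hx => by
    have k : ∀ y ∈ ball x (1 / 4), f y = 1 := fun y hy =>
      min_eq_left (le_max_of_le_right (by linarith [(abs_le.1 (hl y x)).2, mem_ball.1 hy]))
    have kx := k x (mem_ball_self (by norm_num))
    exact (φ.normed_convolution_eq_right fun y hy => (k y hy).trans kx.symm).trans kx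
  have c0 : ∀ x, a + 1 ≤ d x → χ x = 0 := fun x hx => by
    have k : ∀ y ∈ ball x (1 / 4), f y = 0 := fun y hy => by
      simp only [f]
      rw [max_eq_left (by linarith [(abs_le.1 (hl y x)).1, mem_ball.1 hy]), min_eq_right zero_le_one]
    have kx := k x (mem_ball_self (by norm_num))
    exact (φ.normed_convolution_eq_right fun y hy => (k y hy).trans kx.symm).trans kx
  have cl : LipschitzWith 3 χ := LipschitzWith.of_le_add_mul 3 fun x y => by
    have k := integral_mono (hi x) ((hi y).add (ki.mul_const (3 * dist x y))) fun t => by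
      have k2 := fl (x - t) (y - t)
      rw [dist_sub_right] at k2
      exact (mul_le_mul_of_nonneg_left k2 (k0 t)).trans_eq (mul_add _ _ _)
    rw [Pi.add_def, integral_add (hi y) (ki.mul_const _), integral_mul_const, φ.integral_normed,
      one_mul] at k
    exact k
  refine ⟨χ, φ.hasCompactSupport_normed.contDiff_convolution_left _ φ.contDiff_normed
    hfc.locallyIntegrable, fun x => ⟨integral_nonneg fun t => mul_nonneg (k0 t) (f0 _), ?_⟩, c1, c0,
    fun x => ⟨?_, fun hx => ?_⟩⟩
  · exact (integral_mono (hi x) ki fun t => mul_le_of_le_one_right (k0 t) (f1 _)).trans_eq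
      φ.integral_normed
  · rw [norm_gradient]; exact norm_fderiv_le_of_lipschitz ℝ cl
  · rcases hx with hx | hx
    · have k : χ =ᶠ[𝓝 x] fun _ => 1 :=
        (hdc.continuousAt.eventually_lt continuousAt_const hx).mono fun y hy => c1 y hy.le
      rw [k.gradient_eq, gradient_fun_const]
    · have k : χ =ᶠ[𝓝 x] fun _ => 0 :=
        (continuousAt_const.eventually_lt hdc.continuousAt hx).mono fun y hy => c0 y hy.le
      rw [k.gradient_eq, gradient_fun_const]

end Vale.Agent.P134.DG
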