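import Vale.Agent.P134.Stm

/-! Cutoff functions for balls, by rescaling. -/

open scoped RealInnerProductSpace ContDiff ENNReal Topology Laplacian
open MeasureTheory Set Metric Filter

namespace Vale.Agent.P134.DG

namespace HOm

theorem grad_le {χ : E 3 → ℝ} (h : ContDiff ℝ ∞ χ) (x₀ : E 3) {W : ℝ} (hW : 0 < W) (x : E 3) :
    ‖gradient (fun x => χ (W⁻¹ • (x - x₀))) x‖ ≤ ‖gradient χ (W⁻¹ • (x - x₀))‖ / W := by
  have h1 : HasFDerivAt (fun x : E 3 => W⁻¹ • (x - x₀))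
      (W⁻¹ • ContinuousLinearMap.id ℝ (E 3)) x :=
    ((hasFDerivAt_id x).sub_const x₀).const_smul W⁻¹
  have h2 := ((h.differentiable (by simp)) (W⁻¹ • (x - x₀))).hasFDerivAt.comp x h1
  have h3 : fderiv ℝ (fun x => χ (W⁻¹ • (x - x₀))) x = _ := h2.fderiv
  rw [norm_gradient, norm_gradient, h3, ContinuousLinearMap.comp_smul,
    ContinuousLinearMap.comp_id, norm_smul, norm_inv, Real.norm_of_nonneg hW.le, div_eq_inv_mul]

end HOm

theorem om_pf (h : S_Cut) : S_Om := by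
  obtain ⟨C, hC, h⟩ := h
  refine ⟨C, hC, fun x₀ R W hW => ?_⟩
  have hW0 : 0 < W := zero_lt_one.trans_le hW
  obtain ⟨χ, h1, h2, h3, h4, h5⟩ := h (fun y => ‖y‖) lipschitzWith_one_norm (R / W)
  have hn : ∀ x : E 3, ‖W⁻¹ • (x - x₀)‖ = dist x x₀ / W := fun x => by
    rw [norm_smul, norm_inv, Real.norm_of_nonneg hW0.le, dist_eq_norm, div_eq_inv_mul]
  have he : R / W + 1 = (R + W) / W := by rw [add_div, div_self hW0.ne']
  have hz : ∀ x, x ∉ ball x₀ (R + W) → χ (W⁻¹ • (x - x₀)) = 0 := fun x hx => by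
    refine h4 _ ?_
    rw [hn, he]
    exact div_le_div_of_nonneg_right (not_lt.1 hx) hW0.le
  refine ⟨fun x => χ (W⁻¹ • (x - x₀)),
    h1.comp ((contDiff_id.sub contDiff_const).const_smul W⁻¹),
    HasCompactSupport.intro (isCompact_closedBall x₀ (R + W))
      fun x hx => hz x fun k => hx (ball_subset_closedBall k),
    fun x => h2 _, fun x hx => h3 _ ?_, hz, fun x => ⟨?_, fun hx => ?_⟩⟩
  · rw [hn]
    exact div_le_div_of_nonneg_right (le_of_lt hx) hW0.le
  · exact (HOm.grad_le h1 x₀ hW0 x).trans (div_le_div_of_nonneg_right (h5 _).1 hW0.le)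
  · have h6 := HOm.grad_le h1 x₀ hW0 x
    have h7 : R / W + 1 < ‖W⁻¹ • (x - x₀)‖ := by
      rw [hn, he]
      exact div_lt_div_of_pos_right (not_le.1 hx) hW0
    rw [(h5 _).2 (Or.inr h7), norm_zero, zero_div] at h6
    exact norm_le_zero_iff.1 h6

end Vale.Agent.P134.DG
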