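import Vale.Agent.P134.Stm

/-! The stability inequality tested with `P`. -/

open scoped RealInnerProductSpace ContDiff ENNReal Topology Laplacian
open MeasureTheory Set Metric Filter

namespace Vale.Agent.P134.DG

namespace HPId

theorem tanh_eq : Real.tanh = fun s => Real.sinh s / Real.cosh s :=
  funext Real.tanh_eq_sinh_div_cosh

theorem d_gg (s : ℝ) : HasDerivAt gg (g1 s) s := by
  have h (t : ℝ) : HasDerivAt Real.tanh (1 - Real.tanh t ^ 2) t := by
    have k := (Real.hasDerivAt_sinh t).div (Real.hasDerivAt_cosh t) (Real.cosh_pos t).ne'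
    rw [tanh_eq]
    refine k.congr_deriv ?_
    have := (Real.cosh_pos t).ne'
    field_simp
  have k := (h (s / √2)).comp s ((hasDerivAt_id s).div_const √2)
  exact k.congr_deriv (by rw [g1, gg]; ring)

theorem d_g1 (s : ℝ) : HasDerivAt (fun s => g1 s ^ 2) (-(2 * √2 * gg s * g1 s ^ 2)) s := by
  have k := (((d_gg s).pow 2).const_sub 1 |>.div_const √2).pow 2
  refine k.congr_deriv ?_
  have h : √2 * √2 = (2:ℝ) := Real.mul_self_sqrt zero_le_two
  have h0 : √2 ≠ (0:ℝ) := by positivity
  have e : (1 - (gg ^ 2) s) / √2 = g1 s := rfl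
  simp only [e]
  field_simp
  norm_num
  ring

theorem c_gg : ContDiff ℝ 1 gg := by
  have h : ContDiff ℝ 1 Real.tanh := by
    rw [tanh_eq]; exact Real.contDiff_sinh.div Real.contDiff_cosh fun s => (Real.cosh_pos s).ne'
  exact h.comp (contDiff_id.div_const _)

theorem c_g1 : ContDiff ℝ 1 g1 := (contDiff_const.sub (c_gg.pow 2)).div_const _

/-- The components of the field. -/
noncomputable def Yc (v : E 3 → ℝ) (X : E 3 → E 3) (i : Fin 3) (x : E 3) : ℝ :=
  g1 (v x) ^ 2 * (X x i + √2 * (gg (v x) * P134.dv (ev i) v x))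

variable {v : E 3 → ℝ} {X : E 3 → E 3} {CX : ℝ}

theorem c_X (hX : Cal v X CX) (i : Fin 3) : ContDiff ℝ 1 fun x => X x i :=
  (EuclideanSpace.proj i : E 3 →L[ℝ] ℝ).contDiff.comp hX.sm

theorem c_Y (hv : Sol v) (hX : Cal v X CX) (i : Fin 3) : ContDiff ℝ 1 (Yc v X i) :=
  have h : ContDiff ℝ 1 v := hv.smooth.of_le one_le_oo
  ((c_g1.comp h).pow 2).mul ((c_X hX i).add (contDiff_const.mul ((c_gg.comp h).mul
    ((smooth_dv hv.smooth _).of_le one_le_oo))))

theorem div_le (hv : Sol v) (hX : Cal v X CX) (x : E 3) :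
    ∑ i, P134.dv (ev i) (Yc v X i) x ≤ -mm v x := by
  have h1 : DifferentiableAt ℝ v x := hv.smooth.differentiable (by simp) x
  have h2 : ContDiffAt ℝ 2 v x := hv.smooth.contDiffAt.of_le two_le_oo
  have h3 : DifferentiableAt ℝ (fun y => gg (v y)) x := (d_gg _).differentiableAt.comp x h1
  have h4 : DifferentiableAt ℝ (fun y => g1 (v y) ^ 2) x :=
    (d_g1 _).differentiableAt.comp x h1
  have e : ∀ i, P134.dv (ev i) (Yc v X i) x = g1 (v x) ^ 2 * (⟪ev i, fderiv ℝ X x (ev i)⟫ +
      √2 * gg (v x) * P134.dv (ev i) (P134.dv (ev i) v) x + √2 * g1 (v x) * P134.dv (ev i) v x ^ 2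
      - (X x i + √2 * gg (v x) * P134.dv (ev i) v x) ^ 2 + X x i ^ 2
      - (√2 * gg (v x)) ^ 2 * P134.dv (ev i) v x ^ 2) := fun i => by
    have k1 : DifferentiableAt ℝ (fun y => X y i) x := (c_X hX i).differentiable one_ne_zero x
    have k2 := diffAt_dv h2 (ev i)
    have k3 : P134.dv (ev i) (fun y => X y i) x = ⟪ev i, fderiv ℝ X x (ev i)⟫ := by
      have k := ((EuclideanSpace.proj i : E 3 →L[ℝ] ℝ).hasFDerivAt.comp x
        (hX.sm.differentiable one_ne_zero x).hasFDerivAt).fderiv
      rw [P134.dv, show (fun y => X y i) = (EuclideanSpace.proj i : E 3 →L[ℝ] ℝ) ∘ X from rfl, k]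
      simp [ev, EuclideanSpace.inner_single_left]
    unfold Yc
    rw [dv_mul h4 (k1.fun_add ((h3.fun_mul k2).const_mul _)),
      dv_add k1 ((h3.fun_mul k2).const_mul _),
      dv_const_mul (h3.fun_mul k2), dv_mul h3 k2, dv_comp (d_gg _) h1,
      dv_comp (G := fun s => g1 s ^ 2) (d_g1 _) h1, k3]
    ring
  have s2 : √2 ^ 2 = (2:ℝ) := Real.sq_sqrt zero_le_two
  have s3 : √2 * g1 (v x) = 1 - gg (v x) ^ 2 := by rw [g1]; field_simp
  have a1 := hX.ineq x
  have a2 := hv.eq x
  have a3 : ∑ i, P134.dv (ev i) v x ^ 2 = 1 - th v x := by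
    rw [← norm_sq_fderiv, th, norm_gradient]; ring
  have a4 : 0 ≤ ∑ i, (X x i + √2 * gg (v x) * P134.dv (ev i) v x) ^ 2 := by positivity
  rw [EuclideanSpace.real_norm_sq_eq, w2] at a1
  rw [lap_eq h2] at a2
  simp only [e, ← Finset.mul_sum, Finset.sum_add_distrib, Finset.sum_sub_distrib]
  rw [a2, a3, mm, VV, PP, s3, mul_pow, s2, mul_comm (_ * th v x), ← mul_neg (g1 (v x) ^ 2)]
  refine mul_le_mul_of_nonneg_left ?_ (sq_nonneg _)
  have a5 : √2 * gg (v x) * -(√2 * gg (v x) * th v x) = -(2 * gg (v x) ^ 2 * th v x) := by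
    linear_combination -(gg (v x) ^ 2 * th v x) * s2
  rw [a5]
  linarith

end HPId

open HPId in
theorem pid_pf : S_PId := by
  intro v X CX hv hX χ hχ hK h0
  have hY := c_Y hv hX
  have i1 : ∀ i, Integrable fun x => fderiv ℝ χ x (ev i) * Yc v X i x := fun i =>
    (((hχ.continuous_fderiv one_ne_zero).clm_apply continuous_const).mul
      (hY i).continuous).integrable_of_hasCompactSupport (hK.fderiv_apply ℝ (ev i)).mul_right
  have i2 : ∀ i, Integrable fun x => χ x * fderiv ℝ (Yc v X i) x (ev i) :=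
    fun i => (hχ.continuous.mul (((hY i).continuous_fderiv one_ne_zero).clm_apply
      continuous_const)).integrable_of_hasCompactSupport hK.mul_right
  have i3 : ∀ i, Integrable fun x => χ x * Yc v X i x := fun i =>
    (hχ.continuous.mul (hY i).continuous).integrable_of_hasCompactSupport hK.mul_right
  have e : ∀ x, ⟪gradient χ x, Yin v X x⟫ = ∑ i, fderiv ℝ χ x (ev i) * Yc v X i x := fun x => by
    rw [inner_gradient, dv_eq_sum]
    refine Finset.sum_congr rfl fun i _ => ?_
    simp only [Yin, PP, Yc, P134.dv, PiLp.smul_apply, PiLp.add_apply, smul_eq_mul, gradient_apply]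
    ring
  have hm : Continuous (mm v) := by
    have c1 := c_g1.continuous.comp hv.smooth.continuous
    have c2 := hv.smooth.continuous_fderiv (by simp)
    have e2 : mm v = fun x => √2 * g1 (v x) * (1 - ‖fderiv ℝ v x‖ ^ 2) * g1 (v x) ^ 2 := by
      funext x; rw [mm, VV, PP, th, norm_gradient]
    rw [e2]
    exact ((continuous_const.mul c1).mul (continuous_const.sub (c2.norm.pow 2))).mul (c1.pow 2)
  simp only [e]
  rw [integral_finsetSum _ fun i _ => i1 i, Finset.sum_congr rfl fun i _ => (neg_eq_iff_eq_neg.2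
    (integral_mul_fderiv_eq_neg_fderiv_mul_of_integrable (i1 i) (i2 i) (i3 i)
      (fun x _ => hχ.differentiable one_ne_zero x)
      fun x _ => (hY i).differentiable one_ne_zero x)).symm, Finset.sum_neg_distrib,
    ← integral_finsetSum _ fun i _ => i2 i, ← integral_neg]
  refine integral_mono ((hχ.continuous.mul hm).integrable_of_hasCompactSupport hK.mul_right)
    (integrable_finsetSum _ fun i _ => i2 i).neg fun x => ?_
  have k := mul_le_mul_of_nonneg_left (div_le hv hX x) (h0 x)
  simp only [← Finset.mul_sum]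
  simp only [P134.dv] at k
  linarith

end Vale.Agent.P134.DG
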