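import Vale.Agent.P134.Stm
import Vale.Agent.P134.A2Hr

/-! The pointwise estimates in terms of `v`. -/

open scoped RealInnerProductSpace ContDiff ENNReal Topology Laplacian
open MeasureTheory Set Metric Filter

namespace Vale.Agent.P134.DG

namespace HPW

theorem gg_eq : gg = fun s => Real.sinh (s / √2) / Real.cosh (s / √2) :=
  funext fun _ => Real.tanh_eq_sinh_div_cosh _

theorem sm_gg : ContDiff ℝ ∞ gg := by
  rw [gg_eq]
  exact ContDiff.div (by fun_prop) (by fun_prop) fun s => (Real.cosh_pos _).ne'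

theorem d_gg (s : ℝ) : HasDerivAt gg (g1 s) s := by
  have d : HasDerivAt (fun s : ℝ => s / √2) (1 / √2) s := (hasDerivAt_id s).div_const _
  have c := (Real.cosh_pos (s / √2)).ne'
  rw [g1, gg_eq]
  refine (d.sinh.fun_div d.cosh c).congr_deriv ?_
  field_simp

theorem d_g1 (s : ℝ) : HasDerivAt g1 (-(√2 * gg s * g1 s)) s := by
  refine ((((d_gg s).fun_pow 2).const_sub 1).div_const √2).congr_deriv ?_
  have := Real.mul_self_sqrt (show (0 : ℝ) ≤ 2 by norm_num)
  rw [div_eq_iff (by positivity)]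
  norm_num
  linear_combination (-(gg s * g1 s)) * this

theorem nd {n : ℕ} {v : E n → ℝ} (h : Sol v) : Nd fun x => gg (v x) := by
  have l : ∀ x, |gg (v x)| < 1 := fun x => Real.abs_tanh_lt_one _
  have q := Real.mul_self_sqrt (show (0 : ℝ) ≤ 2 by norm_num)
  have e : ∀ s, √2 * g1 s = 1 - gg s ^ 2 := fun s => mul_div_cancel₀ _ (by positivity)
  refine ⟨⟨sm_gg.comp h.smooth, fun x => ?_, fun x => (l x).le⟩, l, fun x => ?_⟩
  · rw [lap_comp (sm_gg.of_le two_le_oo).contDiffAt (Eventually.of_forall d_gg) (d_g1 _)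
      (h.smooth.of_le two_le_oo).contDiffAt, h.eq, th, norm_gradient]
    linear_combination (-gg (v x)) * e (v x)
  · have m := h.mod x
    rw [norm_gradient] at m
    rw [fderiv_comp1 (d_gg _) (h.smooth.differentiable (by simp) x), norm_smul, mul_pow,
      Real.norm_eq_abs, sq_abs, ← e, mul_pow, Real.sq_sqrt (by norm_num)]
    nlinarith [mul_le_mul_of_nonneg_left (pow_le_one₀ (n := 2) (norm_nonneg _) m)
      (sq_nonneg (g1 (v x)))]

end HPW

theorem pw_pf (h0 : A2_bas) (he : A2_est) (hr : A2_hr) (hd : A2_dec) : S_PW := by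
  intro v h
  have N := HPW.nd h
  have B := h0 3 _ N
  have e1 : vv (fun x => gg (v x)) = v := funext fun x =>
    ((div_left_inj' (by positivity)).1 (Real.tanh_injective (B.th x))).symm
  have e2 : ss (fun x => gg (v x)) = th v := funext fun x => by rw [ss, th, e1, norm_gradient]
  have e3 : P134.VV (fun x => gg (v x)) = VV v := funext fun x => by rw [P134.VV, e2]; rfl
  obtain ⟨C1, c1, b1⟩ := he 3 _ N
  obtain ⟨K2, k2, b2⟩ := hd 3
  have s0 := B.s0
  have V0 := B.V0
  have sV := B.smV
  have sS := B.sms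
  rw [e2] at s0 sS
  rw [e3] at V0 sV
  rw [e1, e2, e3] at b1
  obtain ⟨-, K, k, b3⟩ := hr (VV v) C1 (sV.of_le two_le_oo) V0 (fun x => (b1 x).2.2.2.2)
    fun x => (b1 x).2.2.2.1
  have m : ∀ x, C1 * th v x ≤ (1 + C1 + K + K2) * th v x := fun x =>
    mul_le_mul_of_nonneg_right (by linarith) (s0 x)
  refine ⟨1 + C1 + K + K2, by linarith, fun x => (b1 x).1.trans (m x),
    fun x => (b1 x).2.1.trans (m x), fun x => (b1 x).2.2.1.trans (m x),
    gron (sS.differentiable (by simp)) fun x => (b1 x).2.2.1.trans (m x),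
    fun x y => (b3 x y).trans (mul_le_mul_of_nonneg_right (mul_le_mul_of_nonneg_right
      (by linarith) (Real.exp_pos _).le) (V0 x)),
    fun x R hz => (b2 _ N x R fun z hx e => hz z hx ?_).trans
      (mul_le_mul_of_nonneg_right (by linarith) (Real.exp_pos _).le)⟩
  have := Real.tanh_injective (e.trans Real.tanh_zero.symm)
  exact (div_eq_zero_iff.1 this).resolve_right (by positivity)

end Vale.Agent.P134.DG
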