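import Vale.Agent.P134.Stm

/-! Rigidity in the case of equality in the Modica bound. -/

open scoped RealInnerProductSpace ContDiff ENNReal Topology Laplacian
open MeasureTheory Set Metric Filter

namespace Vale.Agent.P134.DG

theorem rig_pf (h : S_PW) : S_Rig := by
  intro v hv h0
  obtain ⟨C, hC⟩ := h v hv
  have hd : Differentiable ℝ v := hv.smooth.differentiable (by simp)
  have hd2 : Differentiable ℝ (fderiv ℝ v) :=
    (hv.smooth.fderiv_right (m := 1) (by norm_cast)).differentiable one_ne_zero
  have h2 : ∀ x, fderiv ℝ (fderiv ℝ v) x = 0 := fun x => by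
    have k := hC.d2 x
    rw [h0, mul_zero] at k
    have k2 : iteratedFDeriv ℝ 2 v x = 0 := norm_eq_zero.1 (pow_eq_zero_iff two_ne_zero |>.1
      (le_antisymm k (sq_nonneg _)))
    ext a b
    have k3 := iteratedFDeriv_two_apply (𝕜 := ℝ) v x ![a, b]
    rw [k2] at k3
    simpa using k3.symm
  have h3 := is_const_of_fderiv_eq_zero hd2 h2
  have h4 : ∀ x, HasFDerivAt (fun x => v x - fderiv ℝ v 0 x) (0 : E 3 →L[ℝ] ℝ) x := fun x => by
    have k := (hd x).hasFDerivAt.sub (fderiv ℝ v 0).hasFDerivAt
    rw [h3 x 0, sub_self] at k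
    exact k
  refine ⟨gradient v 0, v 0, ?_, fun x => ?_⟩
  · have k := h0 0
    rw [th, sub_eq_zero] at k
    exact (pow_eq_one_iff_of_nonneg (norm_nonneg _) two_ne_zero).1 k.symm
  · have k := is_const_of_fderiv_eq_zero (fun x => (h4 x).differentiableAt)
      (fun x => (h4 x).fderiv) x 0
    simp only [map_zero, sub_zero] at k
    rw [inner_gradient, P134.dv, ← k]; ring

end Vale.Agent.P134.DG
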