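import Vale.Agent.P134.RIf

/-! P134, block R: averaging in the last variable. -/

open Filter Topology MeasureTheory
open scoped ContDiff Laplacian RealInnerProductSpace

namespace Vale.Agent.P134

variable {n : ℕ}

/-- the average over the sample points -/
noncomputable def RAvg_A (M : ℕ) (F : ℝ → ℝ) : ℝ :=
  ((M : ℝ) ^ 2)⁻¹ * ∑ j ∈ Finset.range (M ^ 2), F (M + j / M)

/-- a translate restricted to the hyperplane -/
noncomputable def RAvg_T (l : E (n + 1) → ℝ) (v : E (n + 1)) (y : E n) : ℝ :=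
  l (em n y + v) - l v

theorem RAvg_oo (k : ℕ) : (k : WithTop ℕ∞) ≤ ∞ := WithTop.coe_le_coe.2 (le_top (a := (k : ℕ∞)))

theorem RAvg_le {M : ℕ} (hM : 1 ≤ M) {F : ℝ → ℝ} {C : ℝ} (h : ∀ s : ℝ, M ≤ s → F s ≤ C) :
    RAvg_A M F ≤ C := by
  have h0 : (0 : ℝ) < (M : ℝ) ^ 2 := by positivity
  rw [RAvg_A, inv_mul_le_iff₀ h0]
  refine (Finset.sum_le_card_nsmul _ _ C fun j _ => h _ (le_add_of_nonneg_right
    (by positivity))).trans (le_of_eq ?_)
  simp

theorem RAvg_sq {M : ℕ} (hM : 1 ≤ M) (F : ℝ → ℝ) :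
    RAvg_A M F ^ 2 ≤ RAvg_A M fun s => F s ^ 2 := by
  have h0 : (0 : ℝ) < (M : ℝ) ^ 2 := by positivity
  have h := sq_sum_le_card_mul_sum_sq (s := Finset.range (M ^ 2)) (f := fun j => F (M + j / M))
  rw [Finset.card_range, Nat.cast_pow, ← inv_mul_le_iff₀ h0] at h
  rw [RAvg_A, RAvg_A, mul_pow, sq, mul_assoc]
  exact mul_le_mul_of_nonneg_left h (inv_pos.2 h0).le

theorem RAvg_sm (M : ℕ) {G : ℝ → E n → ℝ} (h : ∀ s, ContDiff ℝ ∞ (G s)) :
    ContDiff ℝ ∞ fun y => RAvg_A M fun s => G s y :=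
  contDiff_const.mul (ContDiff.sum fun _ _ => h _)

theorem RAvg_it (M k : ℕ) {G : ℝ → E n → ℝ} (h : ∀ s, ContDiff ℝ ∞ (G s)) (y : E n) :
    ‖iteratedFDeriv ℝ k (fun y => RAvg_A M fun s => G s y) y‖ ≤
      RAvg_A M fun s => ‖iteratedFDeriv ℝ k (G s) y‖ := by
  have h1 : ∀ s, ContDiffAt ℝ k (G s) y := fun s => (h s).contDiffAt.of_le (RAvg_oo k)
  unfold RAvg_A
  simp only [← smul_eq_mul]
  rw [iteratedFDeriv_const_smul_apply' (ContDiffAt.sum fun _ _ => h1 _),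
    iteratedFDeriv_fun_sum_apply fun _ _ => h1 _, norm_smul, Real.norm_of_nonneg (by positivity)]
  exact mul_le_mul_of_nonneg_left (norm_sum_le _ _) (by positivity)

theorem RAvg_lap (M : ℕ) {G : ℝ → E n → ℝ} (h : ∀ s, ContDiff ℝ ∞ (G s)) (y : E n) :
    Δ (fun y => RAvg_A M fun s => G s y) y = RAvg_A M fun s => Δ (G s) y := by
  have h1 : ∀ s, ContDiffAt ℝ 2 (G s) y := fun s => (h s).contDiffAt.of_le two_le_oo
  unfold RAvg_A
  rw [lap_const_mul (ContDiffAt.sum fun _ _ => h1 _), lap_sum fun _ _ => h1 _]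

variable {l : E (n + 1) → ℝ}

theorem RAvg_tr (hl : ContDiff ℝ ∞ l) (v : E (n + 1)) : ContDiff ℝ ∞ fun z => l (z + v) :=
  hl.comp (contDiff_id.add contDiff_const)

theorem RAvg_em (hl : ContDiff ℝ ∞ l) (v : E (n + 1)) : ContDiff ℝ ∞ fun y => l (em n y + v) :=
  (RAvg_tr hl v).comp (em n).contDiff

theorem RAvg_Tsm (hl : ContDiff ℝ ∞ l) (v : E (n + 1)) : ContDiff ℝ ∞ (RAvg_T l v) :=
  (RAvg_em hl v).sub contDiff_const

theorem RAvg_Tit (h1 : Q_emb) (hl : ContDiff ℝ ∞ l) (v : E (n + 1)) {k : ℕ} (hk : 1 ≤ k)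
    (y : E n) : ‖iteratedFDeriv ℝ k (RAvg_T l v) y‖ ≤ ‖iteratedFDeriv ℝ k l (em n y + v)‖ := by
  have h := ((h1 n).2.2.2.2.2.2.2 _ y (RAvg_tr hl v)).2 k
  rw [iteratedFDeriv_comp_add_right] at h
  have e := iteratedFDeriv_sub_apply (𝕜 := ℝ) (i := k) (x := y) (g := fun _ => l v)
    ((RAvg_em hl v).contDiffAt.of_le (RAvg_oo k)) contDiffAt_const
  rw [iteratedFDeriv_const_of_ne (by omega), Pi.zero_apply, sub_zero] at e
  exact (congrArg norm e).trans_le h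

theorem RAvg_Tlap (h1 : Q_emb) (hl : ContDiff ℝ ∞ l) (v : E (n + 1)) (y : E n) :
    Δ (RAvg_T l v) y = Δ l (em n y + v) - dv (el n) (dv (el n) l) (em n y + v) := by
  have h := ((h1 n).2.2.2.2.2.2.2 _ y (RAvg_tr hl v)).1
  rw [lap_comp_add, dv_comp_add, dv_comp_add] at h
  have e := lap_sub (x := y) (g := fun _ => l v) ((RAvg_em hl v).contDiffAt.of_le two_le_oo)
    contDiffAt_const
  rw [lap_const, sub_zero] at e
  exact e.trans h

theorem RAvg_three (hl : ContDiff ℝ ∞ l) {e : E (n + 1)} (he : ‖e‖ = 1) (x : E (n + 1)) :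
    |dv e (dv e (dv e l)) x| ≤ ‖iteratedFDeriv ℝ 3 l x‖ := by
  have h := abs_dv_dv_le (x := x) ((smooth_dv hl e).contDiffAt.of_le two_le_oo) e e
  have k := norm_iteratedFDeriv_clm_apply_const (c := e) (n := 2)
    ((hl.contDiffAt (x := x)).fderiv_right (m := 2) three_le_oo) le_rfl
  rw [he, one_mul, norm_iteratedFDeriv_fderiv] at k
  rw [he, mul_one, mul_one] at h
  exact h.trans k

theorem RAvg_tel (h3 : Q_tel) (hl : ContDiff ℝ ∞ l) {D : ℕ → ℝ}
    (hD : ∀ k, 1 ≤ k → ∀ x, ‖iteratedFDeriv ℝ k l x‖ ≤ D k) {e : E (n + 1)} (he : ‖e‖ = 1)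
    (x : E (n + 1)) {M : ℕ} (hM : 1 ≤ M) :
    |RAvg_A M fun s => dv e (dv e l) (x + s • e)| ≤ 3 * max (D 1) (D 3) / M := by
  refine h3 (fun s => dv e l (x + s • e)) _ (fun s => dv e (dv e (dv e l)) (x + s • e)) _ M hM
    (fun s => hasDerivAt_line e ((smooth_dv hl e).differentiable (by simp) _))
    (fun s => hasDerivAt_line e ((smooth_dv (smooth_dv hl e) e).differentiable (by simp) _))
    fun s => ⟨le_max_of_le_left ?_,
      le_max_of_le_right ((RAvg_three hl he _).trans (hD 3 (by omega) _))⟩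
  have h := abs_dv_le e l (x + s • e)
  rw [he, mul_one, ← norm_iteratedFDeriv_one] at h
  exact h.trans (hD 1 le_rfl _)

theorem RAvg_key (h1 : Q_emb) (hl : ContDiff ℝ ∞ l) {c : E (n + 1) → ℝ}
    (hc : ∀ x, Δ l x + ‖fderiv ℝ l x‖ ^ 2 ≤ c x) {σ : ℝ} (hσ : |σ| = 1) {M : ℕ} (hM : 1 ≤ M)
    (y : E n) : Δ (fun y => RAvg_A M fun s => RAvg_T l (s • σ • el n) y) y +
      ‖iteratedFDeriv ℝ 1 (fun y => RAvg_A M fun s => RAvg_T l (s • σ • el n) y) y‖ ^ 2 ≤
      (RAvg_A M fun s => c (em n y + s • σ • el n)) -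
        RAvg_A M fun s => dv (σ • el n) (dv (σ • el n) l) (em n y + s • σ • el n) := by
  have hs := fun s : ℝ => RAvg_Tsm hl (s • σ • el n)
  refine (add_le_add (RAvg_lap M hs y).le ((pow_le_pow_left₀ (norm_nonneg _)
    (RAvg_it M 1 hs y) 2).trans (RAvg_sq hM _))).trans ?_
  unfold RAvg_A
  rw [← mul_add, ← mul_sub, ← Finset.sum_add_distrib, ← Finset.sum_sub_distrib]
  refine mul_le_mul_of_nonneg_left (Finset.sum_le_sum fun j _ => ?_) (by positivity)
  beta_reduce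
  generalize ((M : ℝ) + j / M) • σ • el n = v
  have k := pow_le_pow_left₀ (norm_nonneg _) (RAvg_Tit h1 hl v le_rfl y) 2
  rw [norm_iteratedFDeriv_one l] at k
  have e : dv (σ • el n) (dv (σ • el n) l) (em n y + v) = dv (el n) (dv (el n) l) (em n y + v) := by
    have c2 : ContDiffAt ℝ 2 l (em n y + v) := hl.contDiffAt.of_le two_le_oo
    rw [dv_dv c2, dv_dv c2, map_smul, map_smul, smul_apply, smul_smul,
      ← abs_mul_abs_self, hσ, one_mul, one_smul]
  rw [RAvg_Tlap h1 hl, e]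
  linarith [hc (em n y + v)]

theorem q_avg (h1 : Q_emb) (h2 : Q_cpt) (h3 : Q_tel) : Q_avg := by
  intro n l c c' D σ hσ hl hD hc hc'
  have he : ‖σ • el n‖ = 1 := by rw [norm_smul, (h1 n).2.2.1, Real.norm_eq_abs, hσ, one_mul]
  set f : ℕ → E n → ℝ := fun N y => RAvg_A (N + 1) fun s => RAvg_T l (s • σ • el n) y with hf
  have hs := fun s : ℝ => RAvg_Tsm hl (s • σ • el n)
  have f1 : ∀ N, ContDiff ℝ ∞ (f N) := fun N => RAvg_sm _ hs
  have f2 : ∀ k, 1 ≤ k → ∀ N y, ‖iteratedFDeriv ℝ k (f N) y‖ ≤ D k := fun k hk N y =>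
    (RAvg_it _ k hs y).trans (RAvg_le N.succ_pos fun s _ =>
      (RAvg_Tit h1 hl _ hk y).trans (hD k hk _))
  have f3 : ∀ N y, f N y ∈ Set.Icc (-(D 1 * ‖y‖)) (D 1 * ‖y‖) := fun N y => by
    have k := convex_univ.norm_image_sub_le_of_norm_fderiv_le (𝕜 := ℝ) (f := f N) (C := D 1)
      (fun x _ => (f1 N).differentiable (by simp) x)
      (fun x _ => (norm_iteratedFDeriv_one (f N)).ge.trans (f2 1 le_rfl N x))
      (Set.mem_univ 0) (Set.mem_univ y)
    have e : f N 0 = 0 := by simp [hf, RAvg_A, RAvg_T]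
    rw [e, sub_zero, sub_zero] at k
    exact abs_le.1 k
  have f4 : ∀ y, ∃ a, Tendsto (fun N => f N y) (hyperfilter ℕ) (𝓝 a) := fun y =>
    (isCompact_Icc.ultrafilter_le_nhds ((hyperfilter ℕ).map fun N => f N y)
      (le_principal_iff.2 (mem_map.2 (Eventually.of_forall fun N => f3 N y)))).imp fun _ k => k.2
  choose m hm using f4
  obtain ⟨m1, m2⟩ := h2 n ℝ ℕ (hyperfilter ℕ) f m D inferInstance f1 f2 hm
  refine ⟨m, m1, fun y => ⟨?_, le_of_forall_pos_le_add fun ε hε => ?_⟩⟩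
  · rw [← norm_iteratedFDeriv_one]
    exact le_of_tendsto' (m2 1 y).norm fun N => f2 1 le_rfl N y
  · have t1 : Tendsto (fun N => Δ (f N) y) (hyperfilter ℕ) (𝓝 (Δ m y)) := by
      simp only [InnerProductSpace.laplacian_eq_iteratedFDeriv_stdOrthonormalBasis]
      exact tendsto_finsetSum _ fun i _ => ((continuous_eval_const _).tendsto _).comp (m2 2 y)
    have t2 : Tendsto (fun N : ℕ => c' y + ε + 3 * max (D 1) (D 3) / ((N + 1 : ℕ) : ℝ)) atTop
        (𝓝 (c' y + ε + 0)) := tendsto_const_nhds.add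
      ((tendsto_const_div_atTop_nhds_zero_nat _).comp (tendsto_add_atTop_nat 1))
    rw [add_zero] at t2
    obtain ⟨t0, ht⟩ := eventually_atTop.1
      ((hc' y).eventually (gt_mem_nhds (lt_add_of_pos_right _ hε)))
    rw [← norm_iteratedFDeriv_one]
    refine le_of_tendsto_of_tendsto (t1.add ((m2 1 y).norm.pow 2))
      (t2.mono_left Nat.hyperfilter_le_atTop) (Eventually.filter_mono Nat.hyperfilter_le_atTop ?_)
    filter_upwards [eventually_ge_atTop ⌈t0⌉₊] with N hN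
    have k1 := RAvg_key h1 hl hc hσ N.succ_pos y
    have k2 := abs_le.1 (RAvg_tel h3 hl hD he (em n y) N.succ_pos)
    have k3 : (RAvg_A (N + 1) fun s => c (em n y + s • σ • el n)) ≤ c' y + ε :=
      RAvg_le N.succ_pos fun s k => by
        have k4 : t0 ≤ s := (Nat.ceil_le.1 (hN.trans N.le_succ)).trans k
        rw [smul_smul, mul_comm]
        exact (ht s k4).le
    linarith [k2.1]

end Vale.Agent.P134
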