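import Vale.Agent.P134.RIf

/-! P134, block R: the bootstrap. -/

open Filter Topology MeasureTheory
open scoped ContDiff Laplacian RealInnerProductSpace

namespace Vale.Agent.P134

variable {n : ℕ}

theorem RBoot_grad {a C M : ℝ} {ρ w : E n → ℝ}
    (hC : ∀ (w : E n → ℝ) (M : ℝ), ContDiff ℝ 2 w →
      (∀ x, |w x| ≤ M * Real.exp (a * ‖x‖) ∧ |Δ w x| ≤ M * Real.exp (a * ‖x‖)) →
      ‖fderiv ℝ w 0‖ ≤ C * M)
    (hρ : Wt a ρ) (hM : 0 ≤ M) (hw : ContDiff ℝ 2 w) (h1 : ∀ x, |w x| ≤ M * ρ x)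
    (h2 : ∀ x, |Δ w x| ≤ M * ρ x) (x : E n) : ‖fderiv ℝ w x‖ ≤ C * (M * ρ x) := by
  have k := hC (fun y => w (y + x)) (M * ρ x) (hw.comp (contDiff_id.add contDiff_const))
    fun y => by
      have e : M * ρ (y + x) ≤ M * ρ x * Real.exp (a * ‖y‖) := by
        have e1 := hρ.2 x (y + x)
        rw [add_sub_cancel_right] at e1
        calc M * ρ (y + x) ≤ M * (Real.exp (a * ‖y‖) * ρ x) := mul_le_mul_of_nonneg_left e1 hM
          _ = _ := by ring
      rw [lap_comp_add]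
      exact ⟨(h1 _).trans e, (h2 _).trans e⟩
  rwa [fderiv_comp_add_right, zero_add] at k

theorem RBoot_mv {a C : ℝ} {ρ w : E n → ℝ} (ha : 0 ≤ a) (hC : 0 ≤ C) (hρ : Wt a ρ)
    (hw : Differentiable ℝ w) (h1 : ∀ x, ‖fderiv ℝ w x‖ ≤ C * ρ x) {h : E n} (hh : ‖h‖ ≤ 1)
    (x : E n) : |dl h w x| ≤ C * Real.exp a * ‖h‖ * ρ x := by
  have k := (convex_closedBall x 1).norm_image_sub_le_of_norm_fderiv_le (𝕜 := ℝ) (f := w)
    (C := C * (Real.exp a * ρ x)) (x := x) (y := x + h) (fun y _ => hw y)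
    (fun y hy => (h1 y).trans (mul_le_mul_of_nonneg_left ((hρ.2 x y).trans
      (mul_le_mul_of_nonneg_right (Real.exp_le_exp.2
        (mul_le_of_le_one_right ha (mem_closedBall_iff_norm.1 hy))) (hρ.1 x).le)) hC))
    (Metric.mem_closedBall_self zero_le_one) (by simpa using hh)
  rw [add_sub_cancel_left, Real.norm_eq_abs] at k
  calc |dl h w x| ≤ _ := k
    _ = _ := by ring

theorem q_boot (h1 : Q_alg) (h2 : Q_ge) : Q_boot := by
  intro n a ha
  obtain ⟨C, hC, hg⟩ := h2 n a ha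
  have hE : 1 ≤ C * Real.exp a := one_le_mul_of_one_le_of_one_le hC (Real.one_le_exp ha)
  refine ⟨C * Real.exp a, hE, fun ρ hρ k => ?_⟩
  have hb : ∀ (k : ℕ) (M : ℝ) (w : E n → ℝ), Lam ρ k M w →
      ∀ x, |w x| ≤ C * Real.exp a * M * ρ x := fun k M w hw x => by
    obtain ⟨a1, a2⟩ := (h1 n ρ hρ.1 k).2.2.1 M w hw
    exact (a2 x).trans (mul_le_mul_of_nonneg_right (le_mul_of_one_le_left a1 hE) (hρ.1 x).le)
  induction k with
  | zero =>
    intro M w hw l1 l2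
    have hM := ((h1 n ρ hρ.1 0).2.2.1 M w l1).1
    refine ⟨hb 0 M w l1, fun h hh x => ?_⟩
    have k := RBoot_mv (C := C * M) ha (mul_nonneg (by linarith) hM) hρ
      (hw.differentiable (by simp))
      (fun x => (RBoot_grad hg hρ hM hw l1 l2 x).trans_eq (mul_assoc _ _ _).symm) hh x
    exact k.trans_eq (by ring)
  | succ k ih =>
    intro M w hw l1 l2
    refine ⟨hb _ M w l1, fun h hh => ?_⟩
    have c : ContDiff ℝ 2 fun y => w (y + h) := hw.comp (contDiff_id.add contDiff_const)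
    have e : Δ (dl h w) = dl h (Δ w) := funext fun x => by
      rw [dl, ← lap_comp_add, ← lap_sub c.contDiffAt hw.contDiffAt]
      rfl
    rw [mul_assoc]
    exact ih _ _ (c.sub hw) (l1.2 h hh) (e ▸ l2.2 h hh)

theorem q_sol (h1 : Q_alg) (h2 : Q_boot) : Q_sol := by
  intro n k
  obtain ⟨C, -, hC⟩ := h2 n 0 le_rfl
  have hW : Wt (n := n) 0 fun _ => 1 := ⟨fun _ => one_pos, fun _ _ => by simp⟩
  induction k with
  | zero => exact ⟨1, fun u _ _ hb x => (hb x).trans_eq (mul_one _).symm⟩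
  | succ k ih =>
    obtain ⟨M, hM⟩ := ih
    obtain ⟨a1, -, a3, a4, a5, a6, -⟩ := h1 n (fun _ => 1) (fun _ => one_pos) k
    refine ⟨C * (2 ^ k * M * (2 ^ k * M * M) + |(-1 : ℝ)| * M), fun u hu he hb => ?_⟩
    have l := hM u hu he hb
    have h0 := (a3 M u l).1
    have l2 := a4 _ _ _ _ (a6 _ _ _ _ l (a6 _ _ _ _ l l)) (a5 M (-1) u l)
    have e : Δ u = fun x => u x * (u x * u x) + -1 * u x := funext fun x => by
      rw [he]
      ring
    refine hC _ hW k _ u hu (a1 _ _ _ ?_ l) (e ▸ l2)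
    rw [abs_neg, abs_one, one_mul]
    exact le_add_of_nonneg_left (by positivity)

theorem r_reg (h1 : Q_sol) (h2 : Q_sm) : R_reg := by
  intro n u hu he hb
  refine ⟨(h2 n (fun _ => 1) fun _ => one_pos).1 u (hu.differentiable (by simp)) fun k => ?_,
    he, hb⟩
  exact (h1 n k).imp fun M hM => hM u hu he hb

theorem r_bd (h1 : Q_sol) (h2 : Q_sm) : R_bd := by
  intro n k
  obtain ⟨M, hM⟩ := h1 n k
  refine ⟨|M|, abs_nonneg M, fun u hu x => ?_⟩
  have l := (h2 n (fun _ => 1) fun _ => one_pos).2 k M u hu.sm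
    (hM u (hu.sm.of_le two_le_oo) hu.eq hu.bd) x
  rw [mul_one] at l
  exact l.trans (le_abs_self M)

end Vale.Agent.P134
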