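import Vale.Agent.P134.RIf

/-! P134, block R: limits of smooth maps. -/

open Filter Topology MeasureTheory
open scoped ContDiff Laplacian RealInnerProductSpace

namespace Vale.Agent.P134

variable {n : ℕ}

theorem RCpt_lip {F : Type} [NormedAddCommGroup F] [NormedSpace ℝ F] {f : E n → F} {C : ℝ}
    (hf : Differentiable ℝ f) (hC : ∀ x, ‖fderiv ℝ f x‖ ≤ C) (x y : E n) :
    ‖f x - f y‖ ≤ C * ‖x - y‖ :=
  convex_univ.norm_image_sub_le_of_norm_fderiv_le (fun z _ => hf z) (fun z _ => hC z) trivial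
    trivial

theorem RCpt_tay {F : Type} [NormedAddCommGroup F] [NormedSpace ℝ F] {f : E n → F} {C : ℝ}
    (hf : ContDiff ℝ ∞ f) (hC : ∀ x, ‖iteratedFDeriv ℝ 2 f x‖ ≤ C) (x h : E n) :
    ‖f (x + h) - f x - fderiv ℝ f x h‖ ≤ C * ‖h‖ ^ 2 := by
  obtain ⟨h1, h2⟩ := contDiff_infty_iff_fderiv.1 hf
  have h0 : 0 ≤ C := (norm_nonneg _).trans (hC x)
  have h3 := RCpt_lip (C := C) (contDiff_infty_iff_fderiv.1 h2).1 fun z => by
    rw [← norm_iteratedFDeriv_one, norm_iteratedFDeriv_fderiv]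
    exact hC z
  have h4 := (convex_closedBall x ‖h‖).norm_image_sub_le_of_norm_fderiv_le' (C := C * ‖h‖)
    (φ := fderiv ℝ f x) (y := x + h) (fun z _ => h1 z) (fun z hz => (h3 z x).trans
      (mul_le_mul_of_nonneg_left (mem_closedBall_iff_norm.1 hz) h0))
    (Metric.mem_closedBall_self (norm_nonneg _)) (by simp)
  rwa [add_sub_cancel_left, mul_assoc, ← sq] at h4

theorem RCpt_ind (h : Q_lim) {ι : Type} {l : Filter ι} (hl : l.NeBot) (k : ℕ) :
    ∀ (F : Type) [NormedAddCommGroup F] [NormedSpace ℝ F] [CompleteSpace F] (f : ι → E n → F)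
      (g : E n → F) (C : ℕ → ℝ), (∀ j, ContDiff ℝ ∞ (f j)) →
      (∀ k, 1 ≤ k → ∀ j x, ‖iteratedFDeriv ℝ k (f j) x‖ ≤ C k) →
      (∀ x, Tendsto (fun j => f j x) l (𝓝 (g x))) → ContDiff ℝ k g ∧
        ∀ x, Tendsto (fun j => iteratedFDeriv ℝ k (f j) x) l (𝓝 (iteratedFDeriv ℝ k g x)) := by
  have key : ∀ (F : Type) [NormedAddCommGroup F] [NormedSpace ℝ F] [CompleteSpace F]
      (f : ι → E n → F) (g : E n → F) (C : ℕ → ℝ), (∀ j, ContDiff ℝ ∞ (f j)) →
      (∀ k, 1 ≤ k → ∀ j x, ‖iteratedFDeriv ℝ k (f j) x‖ ≤ C k) →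
      (∀ x, Tendsto (fun j => f j x) l (𝓝 (g x))) → ∀ x, DifferentiableAt ℝ g x ∧
        Tendsto (fun j => fderiv ℝ (f j) x) l (𝓝 (fderiv ℝ g x)) :=
    fun F _ _ _ f g C hf hC hg x => h n F ι l f _ g x (C 2) hl (Eventually.of_forall fun j v _ =>
      RCpt_tay (hf j) (hC 2 one_le_two j) x v) hg
  induction k with
  | zero =>
    intro F _ _ _ f g C hf hC hg
    refine ⟨contDiff_zero.2 (Differentiable.continuous fun x => (key F f g C hf hC hg x).1),
      fun x => ?_⟩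
    exact ((continuousMultilinearCurryFin0 ℝ (E n) F).symm.continuous.tendsto _).comp (hg x)
  | succ k ih =>
    intro F _ _ _ f g C hf hC hg
    have h1 := key F f g C hf hC hg
    obtain ⟨h2, h3⟩ := ih (E n →L[ℝ] F) (fun j => fderiv ℝ (f j)) (fderiv ℝ g)
      (fun m => C (m + 1)) (fun j => (contDiff_infty_iff_fderiv.1 (hf j)).2)
      (fun m _ j x => norm_iteratedFDeriv_fderiv.trans_le (hC _ (by omega) j x)) fun x => (h1 x).2
    refine ⟨?_, fun x => ?_⟩
    · rw [Nat.cast_succ]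
      exact contDiff_succ_iff_fderiv.2 ⟨fun x => (h1 x).1, by simp, h2⟩
    · simp only [iteratedFDeriv_succ_eq_comp_right]
      exact ((continuousMultilinearCurryRightEquiv' ℝ k (E n) F).symm.continuous.tendsto _).comp
        (h3 x)

theorem q_cpt (h : Q_lim) : Q_cpt := fun _ F _ _ _ _ _ f g C hl hf hC hg =>
  ⟨contDiff_infty.2 fun k => (RCpt_ind h hl k F f g C hf hC hg).1,
    fun k => (RCpt_ind h hl k F f g C hf hC hg).2⟩

theorem r_lim (h1 : Q_cpt) (h2 : Q_unif) (h3 : R_bd) : R_lim := by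
  intro n ι l u U hl hu hU
  choose C _ hC using h3 n
  obtain ⟨a1, a2⟩ := h1 n ℝ ι l u U C hl (fun j => (hu j).sm) (fun k _ j => hC k _ (hu j)) hU
  refine ⟨⟨a1, fun x => ?_, fun x => le_of_tendsto' (hU x).abs fun j => (hu j).bd x⟩,
    fun k => h2 n _ ι l _ _ (C (k + 1)) hl (fun j => RCpt_lip
      ((hu j).sm.differentiable_iteratedFDeriv (WithTop.coe_lt_coe.2 (ENat.natCast_lt_top k)))
      fun x => norm_fderiv_iteratedFDeriv.trans_le (hC _ _ (hu j) x)) (a2 k)⟩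
  refine tendsto_nhds_unique (l := l) (f := fun j => Δ (u j) x) ?_ ?_
  · simp only [InnerProductSpace.laplacian_eq_iteratedFDeriv_stdOrthonormalBasis]
    exact tendsto_finsetSum _ fun i _ =>
      ((continuous_eval_const _).tendsto _).comp (a2 2 x)
  · simp only [(hu _).eq]
    exact ((hU x).pow 3).sub (hU x)

end Vale.Agent.P134
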