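import Vale.Agent.P134.RIf

/-! P134, block R: coordinates and a telescoping bound. -/

open Filter Topology MeasureTheory
open scoped ContDiff Laplacian RealInnerProductSpace

namespace Vale.Agent.P134

variable {n : ℕ}

theorem REmb_pr (x : E (n + 1)) (i : Fin n) : pr n x i = x i.castSucc := by
  simp [pr, ev, Pi.single_apply]

theorem REmb_em (y : E n) (i : Fin n) : em n y i.castSucc = y i := by
  simp [em, ev, Pi.single_apply]

theorem REmb_last (y : E n) : em n y (Fin.last n) = 0 := by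
  simp [em, ev, Pi.single_apply, (Fin.castSucc_ne_last _).symm]

theorem REmb_norm (y : E n) : ‖em n y‖ = ‖y‖ := by
  simp [EuclideanSpace.norm_eq, Fin.sum_univ_castSucc, REmb_em, REmb_last]

theorem REmb_ev (i : Fin n) : em n (ev i) = ev i.castSucc := by
  ext j
  refine Fin.lastCases ?_ (fun j => ?_) j
  · simp [REmb_last, ev, (Fin.castSucc_ne_last _).symm]
  · simp [REmb_em, ev, Pi.single_apply]

theorem q_emb : Q_emb := by
  refine fun n => ⟨fun y => ?_, ?_, norm_ev _, fun x => ?_, REmb_norm, fun x => ?_, REmb_ev,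
    fun f y hf => ⟨?_, fun k => ?_⟩⟩
  · ext i; rw [REmb_pr, REmb_em]
  · ext i; simp [REmb_pr, el, ev, Fin.castSucc_ne_last]
  · ext j
    refine Fin.lastCases ?_ (fun j => ?_) j
    · simp [REmb_last, el, ev]
    · simp [REmb_em, REmb_pr, el, ev, Fin.castSucc_ne_last]
  · rw [EuclideanSpace.norm_eq, EuclideanSpace.norm_eq, Fin.sum_univ_castSucc]
    simp only [REmb_pr]
    exact Real.sqrt_le_sqrt (le_add_of_nonneg_right (sq_nonneg _))
  · have h2 : ContDiff ℝ 2 f := hf.of_le two_le_oo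
    rw [lap_eq (f := fun z => f (em n z)) (h2.comp (em n).contDiff).contDiffAt,
      lap_eq h2.contDiffAt, Fin.sum_univ_castSucc]
    simp only [dv_dv_comp_clm (em n) h2.contDiffAt, REmb_ev, el, add_sub_cancel_right]
  · have e := (em n).iteratedFDeriv_comp_right hf y (i := k) (by exact_mod_cast le_top)
    refine (congrArg norm e).trans_le
      ((ContinuousMultilinearMap.norm_compContinuousLinearMap_le _ _).trans
        (mul_le_of_le_one_right (norm_nonneg _) (Finset.prod_le_one (fun _ _ => norm_nonneg _)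
          fun _ _ => ContinuousLinearMap.opNorm_le_bound _ zero_le_one fun y => ?_)))
    rw [REmb_norm, one_mul]

theorem REmb_mv {p p1 : ℝ → ℝ} {C a b : ℝ} (hab : a ≤ b) (h : ∀ s, HasDerivAt p (p1 s) s)
    (hb : ∀ s ∈ Set.Icc a b, |p1 s| ≤ C) : |p b - p a| ≤ C * (b - a) := by
  have k := (convex_Icc a b).norm_image_sub_le_of_norm_hasDerivWithin_le (f := p) (f' := p1)
    (fun s _ => (h s).hasDerivWithinAt) hb (Set.left_mem_Icc.2 hab) (Set.right_mem_Icc.2 hab)
  rwa [Real.norm_of_nonneg (sub_nonneg.2 hab)] at k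

theorem q_tel : Q_tel := by
  intro p p1 p2 C N hN h1 h2 hC
  have hN' : (0:ℝ) < N := by exact_mod_cast hN
  have hC0 : 0 ≤ C := (abs_nonneg _).trans (hC 0).1
  have hh : (0:ℝ) < 1 / N := by positivity
  have k : ∀ s, |p (s + 1 / N) - p s - p1 s / N| ≤ C / N ^ 2 := by
    intro s
    have k1 := REmb_mv (p := fun t => p t - t * p1 s) (p1 := fun t => p1 t - p1 s)
      (C := C * (1 / N)) (a := s) (b := s + 1 / N) (by linarith)
      (fun t => (h1 t).sub (hasDerivAt_mul_const _)) fun t ht =>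
        (REmb_mv ht.1 h2 fun r _ => (hC r).2).trans
          (mul_le_mul_of_nonneg_left (by linarith [ht.2]) hC0)
    have e1 : p (s + 1 / N) - (s + 1 / N) * p1 s - (p s - s * p1 s) =
        p (s + 1 / N) - p s - p1 s / N := by ring
    have e2 : C * (1 / N) * (s + 1 / N - s) = C / N ^ 2 := by field_simp; ring
    rwa [e1, e2] at k1
  have t := Finset.sum_range_sub (fun j : ℕ => p (N + j / N)) (N ^ 2)
  have e : ∑ j ∈ Finset.range (N ^ 2), p1 (N + j / N) / N =
      p (N + (N ^ 2 : ℕ) / N) - p (N + (0 : ℕ) / N) - ∑ j ∈ Finset.range (N ^ 2),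
        (p (N + j / N + 1 / N) - p (N + j / N) - p1 (N + j / N) / N) := by
    rw [← t, ← Finset.sum_sub_distrib]
    refine Finset.sum_congr rfl fun j _ => ?_
    rw [Nat.cast_succ, add_div, ← add_assoc]; ring
  have b1 : |∑ j ∈ Finset.range (N ^ 2),
      (p (N + j / N + 1 / N) - p (N + j / N) - p1 (N + j / N) / N)| ≤ C := by
    refine (Finset.abs_sum_le_sum_abs _ _).trans
      ((Finset.sum_le_card_nsmul _ _ _ fun j _ => k _).trans_eq ?_)
    rw [Finset.card_range, nsmul_eq_mul]; push_cast; field_simp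
  have b2 : |∑ j ∈ Finset.range (N ^ 2), p1 (N + j / N) / N| ≤ 3 * C := by
    rw [e]
    have c1 := abs_le.1 (hC (N + (N ^ 2 : ℕ) / N)).1
    have c2 := abs_le.1 (hC (N + (0 : ℕ) / N)).1
    have c3 := abs_le.1 b1
    exact abs_le.2 ⟨by linarith, by linarith⟩
  have e3 : ((N : ℝ) ^ 2)⁻¹ * ∑ j ∈ Finset.range (N ^ 2), p1 (N + j / N) =
      (∑ j ∈ Finset.range (N ^ 2), p1 (N + j / N) / N) / N := by
    rw [← Finset.sum_div]; field_simp
  rw [e3, abs_div, abs_of_pos hN']
  gcongr

end Vale.Agent.P134
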