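import Vale.Agent.P134.RIf

/-! P134, block R: the gradient estimate. -/

open Filter Topology MeasureTheory
open scoped ContDiff Laplacian RealInnerProductSpace

namespace Vale.Agent.P134

variable {n : ℕ}

theorem lap_clm (L : E n →L[ℝ] ℝ) (x : E n) : Δ (fun y => L y) x = 0 := by
  rw [lap_eq (f := fun y => L y) L.contDiff.contDiffAt]
  refine Finset.sum_eq_zero fun i _ => ?_
  rw [show dv (ev i) (fun y => L y) = fun _ => L (ev i) from funext fun y => by
    rw [dv, show fderiv ℝ (fun y => L y) y = L from L.fderiv], dv_const]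

theorem fderiv_nsq (x : E n) : fderiv ℝ (fun y : E n => ‖y‖ ^ 2) x = 2 • innerSL ℝ x :=
  (hasStrictFDerivAt_norm_sq x).hasFDerivAt.fderiv

theorem norm_fderiv_nsq (x : E n) : ‖fderiv ℝ (fun y : E n => ‖y‖ ^ 2) x‖ = 2 * ‖x‖ := by
  rw [fderiv_nsq, two_nsmul, ← two_smul ℝ, norm_smul, innerSL_apply_norm]
  simp

theorem lap_nsq (x : E n) : Δ (fun y : E n => ‖y‖ ^ 2) x = 2 * n := by
  rw [lap_eq (contDiff_norm_sq ℝ).contDiffAt]
  have e : ∀ i : Fin n, dv (ev i) (dv (ev i) fun y : E n => ‖y‖ ^ 2) x = 2 := fun i => by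
    have e1 : (dv (ev i) fun y : E n => ‖y‖ ^ 2) = fun y => 2 * innerSL ℝ (ev i) y := by
      funext y
      rw [dv, fderiv_nsq]
      simp [real_inner_comm]
    rw [e1, dv_const_mul (innerSL ℝ (ev i)).differentiableAt, dv,
      (innerSL ℝ (ev i)).fderiv]
    simp [norm_ev]
  simp [e, mul_comm]

/-- smoothed norm -/
noncomputable def jb (x : E n) : ℝ := √(1 + ‖x‖ ^ 2)

theorem jb_smooth : ContDiff ℝ ∞ (jb : E n → ℝ) :=
  (contDiff_const.add (contDiff_norm_sq ℝ)).sqrt fun x => by positivity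

theorem one_le_jb (x : E n) : 1 ≤ jb x := Real.one_le_sqrt.2 (by nlinarith [sq_nonneg ‖x‖])

theorem norm_le_jb (x : E n) : ‖x‖ ≤ jb x := Real.le_sqrt_of_sq_le (by linarith)

theorem RGe_d {t : ℝ} (ht : 0 < 1 + t) :
    HasDerivAt (fun s : ℝ => √(1 + s)) (1 / (2 * √(1 + t))) t :=
  ((hasDerivAt_id t).const_add 1).sqrt ht.ne'

theorem jb_bd (x : E n) : ‖fderiv ℝ jb x‖ ≤ 1 ∧ Δ jb x ≤ n := by
  have hp : 0 < 1 + ‖x‖ ^ 2 := by positivity
  have h1 := one_le_jb x
  have h2 := norm_le_jb x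
  have hs : ContDiff ℝ 2 fun y : E n => ‖y‖ ^ 2 := contDiff_norm_sq ℝ
  constructor
  · have e : fderiv ℝ jb x = _ := fderiv_comp1 (G := fun s => √(1 + s))
      (f := fun y : E n => ‖y‖ ^ 2) (RGe_d hp) (hs.differentiable (by simp) x)
    rw [e, norm_smul, norm_fderiv_nsq, Real.norm_of_nonneg (by positivity)]
    change 1 / (2 * jb x) * _ ≤ _
    rw [div_mul_eq_mul_div, div_le_one (by positivity)]
    linarith
  · have d2 := (hasDerivAt_const (‖x‖ ^ 2) (1 : ℝ)).fun_div ((RGe_d hp).const_mul 2)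
      (by positivity)
    have e : Δ jb x = _ := lap_comp (G := fun s => √(1 + s))
      ((contDiffAt_const.add contDiffAt_id).sqrt hp.ne')
      (((continuous_const.add continuous_id).continuousAt.eventually
        (lt_mem_nhds hp)).mono fun t ht => RGe_d ht) d2 hs.contDiffAt
    rw [e, lap_nsq]
    change 1 / (2 * jb x) * _ + (0 * (2 * jb x) - 1 * (2 * (1 / (2 * jb x)))) / (2 * jb x) ^ 2 * _
      ≤ _
    have k1 : 1 / (2 * jb x) * (2 * n) ≤ n := by
      rw [div_mul_eq_mul_div, div_le_iff₀ (by positivity)]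
      nlinarith [Nat.cast_nonneg (α := ℝ) n]
    have k2 : (0 * (2 * jb x) - 1 * (2 * (1 / (2 * jb x)))) / (2 * jb x) ^ 2 ≤ 0 :=
      div_nonpos_of_nonpos_of_nonneg (by
        have : 0 ≤ 1 / (2 * jb x) := by positivity
        linarith) (by positivity)
    nlinarith [mul_nonneg (neg_nonneg.2 k2) (sq_nonneg ‖fderiv ℝ (fun y : E n => ‖y‖ ^ 2) x‖)]

theorem RGe_exp (b t : ℝ) : HasDerivAt (fun s => Real.exp (b * s)) (b * Real.exp (b * t)) t := by
  simpa [mul_comm] using ((hasDerivAt_id t).const_mul b).exp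

theorem lap_exp {f : E n → ℝ} {x : E n} (hf : ContDiffAt ℝ 2 f x) (b : ℝ) :
    fderiv ℝ (fun y => Real.exp (b * f y)) x = (b * Real.exp (b * f x)) • fderiv ℝ f x ∧
    Δ (fun y => Real.exp (b * f y)) x =
      b * Real.exp (b * f x) * Δ f x + b * (b * Real.exp (b * f x)) * ‖fderiv ℝ f x‖ ^ 2 :=
  ⟨fderiv_comp1 (RGe_exp b _) (hf.differentiableAt (by simp)),
    lap_comp (G := fun s => Real.exp (b * s)) (by fun_prop)
      (Eventually.of_forall fun t => RGe_exp b t) ((RGe_exp b _).const_mul b) hf⟩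

/-- exponential weights -/
theorem RGe_w {b : ℝ} (hb : 0 ≤ b) (x : E n) :
    ‖fderiv ℝ (fun y : E n => Real.exp (b * jb y)) x‖ ≤ b * Real.exp (b * jb x) ∧
    Δ (fun y : E n => Real.exp (b * jb y)) x ≤ (b ^ 2 + b * n) * Real.exp (b * jb x) := by
  obtain ⟨e1, e2⟩ := lap_exp ((jb_smooth.of_le two_le_oo).contDiffAt (x := x)) b
  obtain ⟨k1, k2⟩ := jb_bd x
  have hp : 0 ≤ b * Real.exp (b * jb x) := by positivity
  refine ⟨?_, ?_⟩
  · rw [e1, norm_smul, Real.norm_of_nonneg hp]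
    exact mul_le_of_le_one_right hp k1
  · rw [e2]
    have k3 : ‖fderiv ℝ jb x‖ ^ 2 ≤ 1 := pow_le_one₀ (norm_nonneg _) k1
    nlinarith [mul_le_mul_of_nonneg_left k2 hp, mul_le_mul_of_nonneg_left k3 (mul_nonneg hb hp)]

/-- maximum principle on a half space -/
theorem RGe_mp {z : E n → ℝ} {e : E n} {μ R : ℝ} (hz : ContDiff ℝ 2 z) (hμ : 0 < μ)
    (h1 : ∀ x, 0 < ⟪e, x⟫ → μ * z x ≤ Δ z x) (h2 : ∀ x, ⟪e, x⟫ = 0 → z x ≤ 0)
    (h3 : ∀ x, 0 ≤ ⟪e, x⟫ → R ≤ ‖x‖ → z x ≤ 0) (x : E n) (hx : 0 ≤ ⟪e, x⟫) : z x ≤ 0 := by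
  by_contra hp
  have c : Continuous fun y : E n => ⟪e, y⟫ := continuous_const.inner continuous_id
  have hK : IsCompact (Metric.closedBall (0 : E n) R ∩ {y | 0 ≤ ⟪e, y⟫}) :=
    (isCompact_closedBall _ _).inter_right (isClosed_le continuous_const c)
  have m : ∀ y, 0 ≤ ⟪e, y⟫ → 0 < z y → y ∈ Metric.closedBall (0 : E n) R ∩ {y | 0 ≤ ⟪e, y⟫} :=
    fun y hy hz => ⟨mem_closedBall_zero_iff.2 (le_of_not_ge fun h => hz.not_ge (h3 y hy h)), hy⟩
  have hx' := m x hx (not_le.1 hp)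
  obtain ⟨y, hy, hm⟩ := hK.exists_isMaxOn ⟨x, hx'⟩ hz.continuous.continuousOn
  have py : 0 < z y := (not_le.1 hp).trans_le (hm hx')
  have qy : 0 < ⟪e, y⟫ := lt_of_le_of_ne hy.2 fun h => py.not_ge (h2 y h.symm)
  have lm : IsLocalMax z y := (c.continuousAt.eventually (lt_mem_nhds qy)).mono fun w hw =>
    le_of_not_gt fun h => h.not_ge (hm (m w hw.le (py.trans h)))
  exact (mul_pos hμ py).not_ge ((h1 y qy).trans (lap_nonpos hz.contDiffAt lm))

theorem RGe_alg {a n M ε μ l N G Ex G' g LG LG' E0 v Lw Lw' : ℝ} (ha : 0 ≤ a) (hn : 0 ≤ n)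
    (hM : 0 ≤ M) (hε : 0 < ε) (hμ : μ = (a + 1) ^ 2 + (a + 1) * n + 1) (hl : l = 2 * a + 1)
    (hN : N = 2 * (μ + 1) * M) (G0 : 0 < G) (E0' : 0 < Ex) (G'0 : 0 < G') (p0 : 0 ≤ 1 - Ex)
    (g6 : g ≤ a * G * (l * Ex)) (g2 : LG ≤ (a ^ 2 + a * n) * G)
    (g3 : LG' ≤ ((a + 1) ^ 2 + (a + 1) * n) * G') (v1 : v ≤ 2 * M * E0)
    (v2 : Lw' - Lw ≤ 2 * M * E0) (g5 : E0 ≤ G) :
    μ * (v - N * (G * (1 - Ex)) - ε * G') ≤
      Lw - Lw' - N * (G * -(l ^ 2 * Ex) + 2 * g + (1 - Ex) * LG) - ε * LG' := by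
  have μ0 : 0 < μ := by rw [hμ]; positivity
  have N0 : 0 ≤ N := by rw [hN]; positivity
  have g7 := mul_le_mul_of_nonneg_left g2 p0
  have s1 : G * -(l ^ 2 * Ex) + 2 * (a * G * (l * Ex)) + (1 - Ex) * ((a ^ 2 + a * n) * G) ≤
      μ * (G * (1 - Ex)) - G := by
    have t1 : 0 ≤ G * (1 - Ex) * (2 * a + 1 + n) := by positivity
    have t2 : 0 ≤ G * Ex * (2 * a) := by positivity
    rw [hμ, hl]
    linarith
  have s2 := mul_le_mul_of_nonneg_left (show G * -(l ^ 2 * Ex) + 2 * g + (1 - Ex) * LG ≤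
    μ * (G * (1 - Ex)) - G by linarith) N0
  have s3 := mul_le_mul_of_nonneg_left (show LG' ≤ μ * G' by rw [hμ]; linarith) hε.le
  have s4 := mul_le_mul_of_nonneg_left v1 μ0.le
  have s5 := mul_le_mul_of_nonneg_left g5 N0
  have s6 : N * E0 = μ * (2 * M * E0) + 2 * M * E0 := by rw [hN]; ring
  linarith

theorem RGe_one {a M : ℝ} (ha : 0 ≤ a) {w : E n → ℝ} (hw : ContDiff ℝ 2 w)
    (h : ∀ x, |w x| ≤ M * Real.exp (a * ‖x‖) ∧ |Δ w x| ≤ M * Real.exp (a * ‖x‖)) {e : E n}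
    (he : ‖e‖ = 1) :
    dv e w 0 ≤ ((a + 1) ^ 2 + (a + 1) * n + 2) * (2 * a + 1) * Real.exp a * M := by
  have hM : 0 ≤ M := by simpa using (abs_nonneg _).trans (h 0).1
  have hn : (0 : ℝ) ≤ n := Nat.cast_nonneg n
  set μ := (a + 1) ^ 2 + (a + 1) * n + 1 with hμ
  set l := 2 * a + 1 with hl
  set N := 2 * (μ + 1) * M with hN
  have μ0 : 0 < μ := by positivity
  have N0 : 0 ≤ N := by positivity
  set σ := Submodule.reflection (ℝ ∙ e)ᗮ
  have σe : σ e = -e := Submodule.reflection_orthogonalComplement_singleton_eq_neg e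
  have cσ : ContDiff ℝ 2 fun y => w (σ y) := hw.comp σ.contDiff
  have cg : ∀ b : ℝ, ContDiff ℝ 2 fun y : E n => Real.exp (b * jb y) := fun b =>
    (contDiff_const.mul (jb_smooth.of_le two_le_oo)).exp
  have cL : ContDiff ℝ 2 fun y : E n => innerSL ℝ e y := (innerSL ℝ e).contDiff
  have cE : ContDiff ℝ 2 fun y : E n => Real.exp (-l * innerSL ℝ e y) := (contDiff_const.mul cL).exp
  have cψ : ContDiff ℝ 2 fun y : E n => 1 - Real.exp (-l * innerSL ℝ e y) := contDiff_const.sub cE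
  have fL : ∀ x, fderiv ℝ (fun y : E n => innerSL ℝ e y) x = innerSL ℝ e := fun x =>
    (innerSL ℝ e).fderiv
  have fψ : ∀ x, fderiv ℝ (fun y : E n => 1 - Real.exp (-l * innerSL ℝ e y)) x =
      (l * Real.exp (-l * innerSL ℝ e x)) • innerSL ℝ e := fun x => by
    rw [fderiv_const_sub, (lap_exp cL.contDiffAt (-l)).1, fL, neg_mul l (Real.exp _), neg_smul,
      neg_neg]
  have lψ : ∀ x, Δ (fun y : E n => 1 - Real.exp (-l * innerSL ℝ e y)) x =
      -(l ^ 2 * Real.exp (-l * innerSL ℝ e x)) := fun x => by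
    rw [lap_sub contDiffAt_const cE.contDiffAt, lap_const, (lap_exp cL.contDiffAt (-l)).2, lap_clm,
      fL, innerSL_apply_norm, he]
    ring
  have ψ0 : ∀ x, 0 ≤ ⟪e, x⟫ → 0 ≤ 1 - Real.exp (-l * innerSL ℝ e x) := fun x hx =>
    sub_nonneg.2 (Real.exp_le_one_iff.2 (by
      rw [innerSL_apply_apply]; nlinarith [mul_nonneg ha hx]))
  have hv : ∀ x, w x - w (σ x) ≤ 2 * M * Real.exp (a * ‖x‖) ∧
      Δ w (σ x) - Δ w x ≤ 2 * M * Real.exp (a * ‖x‖) := fun x => by
    have k1 := h x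
    have k2 := h (σ x)
    rw [σ.norm_map] at k2
    exact ⟨by linarith [le_abs_self (w x), neg_abs_le (w (σ x)), k1.1, k2.1],
      by linarith [le_abs_self (Δ w (σ x)), neg_abs_le (Δ w x), k1.2, k2.2]⟩
  have cB := (cg a).mul cψ
  have key : ∀ ε > 0, ∀ x, 0 ≤ ⟪e, x⟫ → w x - w (σ x) -
      N * (Real.exp (a * jb x) * (1 - Real.exp (-l * innerSL ℝ e x))) -
      ε * Real.exp ((a + 1) * jb x) ≤ 0 := fun ε hε => by
    refine RGe_mp (μ := μ) (R := 2 * M / ε) (((hw.sub cσ).sub (contDiff_const.mul cB)).sub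
      (contDiff_const.mul (cg _))) μ0 (fun x hx => ?_) (fun x hx => ?_) fun x hx hR => ?_
    · rw [lap_sub ((hw.sub cσ).sub (contDiff_const.mul cB)).contDiffAt
        (contDiff_const.mul (cg _)).contDiffAt, lap_sub (hw.sub cσ).contDiffAt
        (contDiff_const.mul cB).contDiffAt, lap_sub hw.contDiffAt cσ.contDiffAt,
        lap_const_mul cB.contDiffAt, lap_const_mul (cg _).contDiffAt, lap_comp_iso σ hw.contDiffAt,
        lap_mul (cg a).contDiffAt cψ.contDiffAt, lψ]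
      obtain ⟨g1, g2⟩ := RGe_w ha x
      have g3 := (RGe_w (b := a + 1) (by positivity) x).2
      have g4 := (le_abs_self _).trans (abs_gd_le (fun y : E n => Real.exp (a * jb y))
        (fun y : E n => 1 - Real.exp (-l * innerSL ℝ e y)) x)
      rw [fψ, norm_smul, innerSL_apply_norm, he, mul_one,
        Real.norm_of_nonneg (by positivity)] at g4
      have p0 := ψ0 x hx.le
      obtain ⟨v1, v2⟩ := hv x
      have g5 : Real.exp (a * ‖x‖) ≤ Real.exp (a * jb x) :=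
        Real.exp_le_exp.2 (mul_le_mul_of_nonneg_left (norm_le_jb x) ha)
      exact RGe_alg ha hn hM hε hμ hl hN (Real.exp_pos _) (Real.exp_pos _) (Real.exp_pos _) p0
        (g4.trans (mul_le_mul_of_nonneg_right g1 (by positivity))) g2 g3 v1 v2 g5
    · have e1 : σ x = x := Submodule.reflection_mem_subspace_eq_self
        (Submodule.mem_orthogonal_singleton_iff_inner_right.2 hx)
      rw [e1, innerSL_apply_apply, hx]
      have : 0 < ε * Real.exp ((a + 1) * jb x) := by positivity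
      simp only [mul_zero, Real.exp_zero, sub_self]
      linarith
    · have p0 := ψ0 x hx
      have k1 : 0 ≤ N * (Real.exp (a * jb x) * (1 - Real.exp (-l * innerSL ℝ e x))) := by
        positivity
      have k2 : Real.exp (a * ‖x‖) * ‖x‖ ≤ Real.exp ((a + 1) * jb x) := by
        rw [add_mul, Real.exp_add, one_mul]
        refine mul_le_mul (Real.exp_le_exp.2 (mul_le_mul_of_nonneg_left (norm_le_jb x) ha)) ?_
          (norm_nonneg _) (Real.exp_pos _).le
        linarith [norm_le_jb x, Real.add_one_le_exp (jb x)]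
      rw [div_le_iff₀ hε] at hR
      have k3 := mul_le_mul_of_nonneg_left hR (Real.exp_pos (a * ‖x‖)).le
      nlinarith [(hv x).1, mul_le_mul_of_nonneg_left k2 hε.le]
  have cφ := (contDiff_const (c := N).mul cB).sub (hw.sub cσ)
  have dd := (hasDerivAt_line (x := 0) (t := 0) e (cφ.differentiable (by simp) _)
    ).tendsto_slope_zero_right
  have d0 := ge_of_tendsto dd (b := 0) (by
    filter_upwards [self_mem_nhdsWithin] with t ht
    have ht : 0 < t := ht
    have k : 0 ≤ ⟪e, t • e⟫ := by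
      rw [real_inner_smul_right, real_inner_self_eq_norm_sq]; positivity
    have k1 : w (t • e) - w (σ (t • e)) - N * (Real.exp (a * jb (t • e)) *
        (1 - Real.exp (-l * innerSL ℝ e (t • e)))) ≤ 0 :=
      le_of_forall_pos_le_add fun δ hδ => by
        have := key (δ / Real.exp ((a + 1) * jb (t • e))) (by positivity) _ k
        rw [div_mul_cancel₀ _ (Real.exp_pos _).ne'] at this
        linarith
    simp only [zero_add, zero_smul, map_zero, mul_zero, Real.exp_zero, sub_self, sub_zero,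
      smul_eq_mul]
    exact mul_nonneg (inv_pos.2 ht).le (by linarith))
  have D := fun {f : E n → ℝ} (hf : ContDiff ℝ 2 f) => hf.differentiable (by simp) 0
  rw [zero_smul, add_zero, dv_sub (D (contDiff_const.mul cB)) (D (hw.sub cσ)), dv_sub (D hw) (D cσ),
    dv_const_mul (D cB), dv_mul (D (cg a)) (D cψ),
    show dv e (fun y => w (σ y)) 0 = dv (σ e) w (σ 0) from dv_comp_clm
      σ.toContinuousLinearEquiv.toContinuousLinearMap (hw.differentiable (by simp) _) e,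
    σe, map_zero, dv, dv, dv, dv, fψ] at d0
  simp only [map_zero, mul_zero, Real.exp_zero, sub_self, zero_mul, add_zero, mul_one, map_neg,
    smul_apply, innerSL_apply_apply, real_inner_self_eq_norm_sq, he,
    smul_eq_mul, one_pow, jb, norm_zero, ne_eq, OfNat.ofNat_ne_zero, not_false_eq_true, zero_pow,
    Real.sqrt_one] at d0
  rw [hN, hμ] at d0
  rw [dv]
  linarith

theorem q_ge : Q_ge := by
  intro n a ha
  have hn : (0 : ℝ) ≤ n := Nat.cast_nonneg n
  refine ⟨((a + 1) ^ 2 + (a + 1) * n + 2) * (2 * a + 1) * Real.exp a, ?_, fun w M hw h => ?_⟩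
  · exact one_le_mul_of_one_le_of_one_le (one_le_mul_of_one_le_of_one_le
      (by nlinarith [mul_nonneg ha hn]) (by linarith)) (Real.one_le_exp ha)
  · have hM : 0 ≤ M := by simpa using (abs_nonneg _).trans (h 0).1
    refine ContinuousLinearMap.opNorm_le_of_unit_norm (by positivity) fun e he => abs_le.2 ⟨?_, ?_⟩
    · have k := RGe_one ha hw h (e := -e) (by rwa [norm_neg])
      rw [dv, map_neg] at k
      linarith
    · exact RGe_one ha hw h he

end Vale.Agent.P134
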