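import Vale.Agent.P134.RHc

/-! P134, block R: the gradient Harnack inequality (Cheng-Yau). -/

open Filter Topology
open scoped ContDiff Laplacian RealInnerProductSpace

namespace Vale.Agent.P134

namespace RH

variable {n : ℕ}

theorem har_alg {N A r F a H γ τ β L : ℝ} (hN : 0 ≤ N) (hA : 0 ≤ A) (hr : 0 < r) (hr1 : r ≤ 1)
    (hF : 0 ≤ F) (ha : |a| ≤ A) (hH : (a - F) ^ 2 ≤ N * H) (hγ : γ ^ 2 ≤ F * A ^ 2)
    (hβ : β ^ 2 ≤ F * 4) (hτ : r * τ = -2 * F * β) (hL : L = 2 * H + 2 * (γ - τ))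
    (hmax : r ^ 2 * L ≤ (24 + 4 * N) * F) :
    r ^ 2 * F ≤ 4 * A + N * (25 + 20 * N + A ^ 2) + 1 := by
  set G := r ^ 2 * F with hG
  have hG0 : 0 ≤ G := by positivity
  by_contra! hc
  have hr2 : r ^ 2 ≤ 1 := pow_le_one₀ hr.le hr1
  have hr3 : r ^ 3 ≤ 1 := pow_le_one₀ hr.le hr1
  have hK : 0 ≤ N * (25 + 20 * N + A ^ 2) := by positivity
  have hG1 : 1 ≤ G := by linarith
  -- the inequality multiplied by r ^ 2
  have h1 : 2 * (r ^ 4 * H) + 2 * (r ^ 3 * (r * γ)) + 4 * G * (r * β) ≤ (24 + 4 * N) * G := by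
    have h := mul_le_mul_of_nonneg_left hmax (sq_nonneg r)
    have e : r ^ 2 * (r ^ 2 * L) =
        2 * (r ^ 4 * H) + 2 * (r ^ 3 * (r * γ)) - 2 * r ^ 3 * (r * τ) := by rw [hL]; ring
    rw [e, hτ] at h
    calc _ = 2 * (r ^ 4 * H) + 2 * (r ^ 3 * (r * γ)) - 2 * r ^ 3 * (-2 * F * β) := by
          rw [hG]; ring
      _ ≤ r ^ 2 * ((24 + 4 * N) * F) := h
      _ = _ := by rw [hG]; ring
  have h2 : G ^ 2 - 2 * A * G ≤ N * (r ^ 4 * H) := by
    have h := mul_le_mul_of_nonneg_left hH (show 0 ≤ r ^ 4 by positivity)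
    have e : r ^ 4 * (a - F) ^ 2 = G ^ 2 - 2 * (a * r ^ 2) * G + (a * r ^ 2) ^ 2 := by
      rw [hG]; ring
    have h3 : a * r ^ 2 ≤ A := by nlinarith [(abs_le.1 ha).2, sq_nonneg r]
    nlinarith [sq_nonneg (a * r ^ 2)]
  have h3 : (r * γ) ^ 2 ≤ G * A ^ 2 := by
    rw [mul_pow, hG, mul_assoc]; gcongr
  have h4 : (r * β) ^ 2 ≤ G * 4 := by
    rw [mul_pow, hG, mul_assoc]; gcongr
  have h5 : -(G * A ^ 2 + G) ≤ 2 * (r ^ 3 * (r * γ)) := by
    have h6 : (r ^ 3) ^ 2 ≤ 1 := pow_le_one₀ (by positivity) hr3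
    nlinarith [sq_nonneg (r ^ 3 + r * γ)]
  have h6 : -(G + 16 * N ^ 2) ≤ 4 * N * (r * β) := by
    nlinarith [sq_nonneg (r * β / 2 + 4 * N)]
  have h7 := mul_le_mul_of_nonneg_left h1 hN
  have h8 := mul_le_mul_of_nonneg_left h5 hN
  have h9 := mul_le_mul_of_nonneg_left h6 hG0
  have h10 : G * G ≤ G * (4 * A + N * (25 + 20 * N + A ^ 2)) := by nlinarith
  have h11 := le_of_mul_le_mul_left h10 (by linarith)
  linarith

theorem harnack {A : ℝ} {a f : E n → ℝ} (ha : Sm a) (hf : Sm f)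
    (hA : ∀ x, |a x| ≤ A ∧ gsq a x ≤ A ^ 2) (he : ∀ x, lp f x = a x - gsq f x) (y : E n) :
    gsq f y ≤ 4 * A + n * (25 + 20 * n + A ^ 2) + 1 := by
  have hA0 : 0 ≤ A := (abs_nonneg _).trans (hA y).1
  set ρ : E n → ℝ := fun x => 1 - ds y x with hρ
  have sρ : Sm ρ := contDiff_const.sub (sm_ds y)
  have sG : Sm fun x => ρ x ^ 2 * gsq f x := (sρ.pow 2).mul hf.gsq
  obtain ⟨x, hx, hmax⟩ := (isCompact_closedBall y 1).exists_isMaxOn
    ⟨y, Metric.mem_closedBall_self zero_le_one⟩ sG.continuous.continuousOn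
  have h0 : gsq f y ≤ ρ x ^ 2 * gsq f x := by
    have := hmax (Metric.mem_closedBall_self zero_le_one)
    simpa [hρ, ds] using this
  refine h0.trans ?_
  have hd : ‖x - y‖ ≤ 1 := by rwa [Metric.mem_closedBall, dist_eq_norm] at hx
  have hds : ds y x ≤ 1 := by rw [ds_eq]; exact pow_le_one₀ (norm_nonneg _) hd
  have hds0 := ds_nonneg y x
  rcases hd.eq_or_lt with hd1 | hd1
  · have : ρ x = 0 := by simp [hρ, ds_eq, hd1]
    rw [this]
    have : (0 : ℝ) ≤ n * (25 + 20 * n + A ^ 2) := by positivity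
    nlinarith
  have hr : 0 < ρ x := by
    have : ‖x - y‖ ^ 2 < 1 := pow_lt_one₀ (norm_nonneg _) hd1 two_ne_zero
    simp only [hρ, ds_eq]; linarith
  have hm : IsLocalMax (fun x => ρ x ^ 2 * gsq f x) x :=
    hmax.isLocalMax (Metric.closedBall_mem_nhds_of_mem (by rwa [Metric.mem_ball, dist_eq_norm]))
  have hgρ : gsq ρ x ≤ 4 := by
    have : gsq ρ x = gsq (ds y) x := by
      simp only [gsq, hρ, pd_sub contDiff_const (sm_ds y), pd_const, zero_sub, neg_sq]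
    rw [this, gsq_ds]; linarith
  have hlρ : lp ρ x = -(2 * n) := by
    rw [hρ, lp_sub contDiff_const (sm_ds y), lp_ds]; simp [lp, pd_const]
  have h1 : ∀ i, ρ x * pd i (gsq f) x = -2 * gsq f x * pd i ρ x := fun i => by
    have := max_pd hm i
    rw [pd_mul (sρ.pow 2) hf.gsq, pd_sq sρ] at this
    refine mul_left_cancel₀ hr.ne' ?_
    linarith
  have hτ : ρ x * gdot f (gsq f) x = -2 * gsq f x * gdot f ρ x := by
    simp only [gdot, Finset.mul_sum]
    exact Finset.sum_congr rfl fun i _ => by linear_combination pd i f x * h1 i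
  have hL : lp (gsq f) x = 2 * hsq f x + 2 * (gdot f a x - gdot f (gsq f) x) := by
    rw [bochner hf, show lp f = fun x => a x - gsq f x from funext he]
    simp only [gdot, pd_sub ha hf.gsq, mul_sub, Finset.sum_sub_distrib]
  have h2 : ρ x ^ 2 * lp (gsq f) x ≤ (24 + 4 * n) * gsq f x := by
    have h := max_lp sG hm
    have e1 : lp (fun x => ρ x ^ 2) x = 2 * ρ x * lp ρ x + 2 * gsq ρ x := by
      have : (fun x => ρ x ^ 2) = fun x => ρ x * ρ x := by funext x; ring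
      rw [this, lp_mul sρ sρ]
      have : gdot ρ ρ x = gsq ρ x := Finset.sum_congr rfl fun i _ => by ring
      rw [this]; ring
    have e2 : gdot (fun x => ρ x ^ 2) (gsq f) x = -4 * gsq f x * gsq ρ x := by
      simp only [gdot, pd_sq sρ]
      rw [show gsq ρ x = ∑ i, pd i ρ x ^ 2 from rfl, Finset.mul_sum]
      exact Finset.sum_congr rfl fun i _ => by linear_combination 2 * pd i ρ x * h1 i
    rw [lp_mul (sρ.pow 2) hf.gsq, e1, e2, hlρ] at h
    have hF := gsq_nonneg f x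
    have hr1 : ρ x ≤ 1 := by simp only [hρ]; linarith
    have h3 : gsq f x * gsq ρ x ≤ gsq f x * 4 := by gcongr
    have h4 : n * gsq f x * ρ x ≤ n * gsq f x * 1 := by gcongr
    nlinarith
  refine har_alg (H := hsq f x) (Nat.cast_nonneg n) hA0 hr (by simp only [hρ]; linarith)
    (gsq_nonneg f x) (hA x).1 (by rw [← he]; exact lp_sq_le f x)
    ((gdot_sq_le f a x).trans (mul_le_mul_of_nonneg_left (hA x).2 (gsq_nonneg f x)))
    ((gdot_sq_le f ρ x).trans (mul_le_mul_of_nonneg_left hgρ (gsq_nonneg f x))) hτ hL h2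

end RH

theorem r_har : R_har := by
  intro n A
  refine ⟨Real.sqrt (4 * A + n * (25 + 20 * n + A ^ 2) + 1), Real.sqrt_nonneg _,
    fun a w ha hw hA hp he x => ?_⟩
  have sf : RH.Sm fun x => Real.log (w x) := hw.log fun x => (hp x).ne'
  have d1 : ∀ x, HasDerivAt Real.log (w x)⁻¹ (w x) := fun x => Real.hasDerivAt_log (hp x).ne'
  have hg : ∀ x, RH.gsq (fun x => Real.log (w x)) x = (w x)⁻¹ ^ 2 * RH.gsq w x := fun x => by
    simp only [RH.gsq, RH.pd_comp hw (φ' := fun t => t⁻¹) d1, mul_pow, Finset.mul_sum]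
  have h := RH.harnack (A := A) ha sf (fun x => ⟨(hA x).1, by
    rw [← RH.norm_sq]; have := (hA x).2; gcongr⟩) (fun x => by
    rw [RH.lp_comp hw (φ' := fun t => t⁻¹) (φ'' := fun t => -(t ^ 2)⁻¹) d1
      (fun x => hasDerivAt_inv (hp x).ne') (hw.inv fun x => (hp x).ne'), ← RH.lap_eq hw, he, hg]
    have := (hp x).ne'
    field_simp
    ring) x
  rw [hg, ← RH.norm_sq] at h
  have h1 : (w x)⁻¹ * ‖fderiv ℝ w x‖ ≤ Real.sqrt (4 * A + n * (25 + 20 * n + A ^ 2) + 1) :=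
    Real.le_sqrt_of_sq_le (by rw [mul_pow]; exact h)
  rw [inv_mul_le_iff₀ (hp x)] at h1
  linarith

end Vale.Agent.P134
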