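import Vale.Agent.P134.RIf

/-! P134, block R: limits of differentiable maps. -/

open Filter Topology MeasureTheory
open scoped ContDiff Laplacian RealInnerProductSpace

namespace Vale.Agent.P134

noncomputable section

variable {n : ℕ} {F : Type} [NormedAddCommGroup F] [NormedSpace ℝ F]

theorem RLim_norm (i : Fin n) : ‖ev i‖ = 1 := by simp [ev]

theorem RLim_dec (A : E n →L[ℝ] F) :
    A = ∑ i, (EuclideanSpace.proj i : E n →L[ℝ] ℝ).smulRight (A (ev i)) := by
  ext v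
  have e : v = ∑ i, v i • ev i := by
    ext j
    simp [ev, Pi.single_apply]
  conv_lhs => rw [e]
  simp

theorem RLim_vec [CompleteSpace F] {ι : Type} {l : Filter ι} {f : ι → E n → F}
    {L : ι → E n →L[ℝ] F} {g : E n → F} {x : E n} {M : ℝ} [l.NeBot]
    (h1 : ∀ᶠ j in l, ∀ h : E n, ‖h‖ ≤ 1 → ‖f j (x + h) - f j x - L j h‖ ≤ M * ‖h‖ ^ 2)
    (h2 : ∀ y, Tendsto (fun j => f j y) l (𝓝 (g y))) {e : E n} (he : ‖e‖ = 1) :
    ∃ a, Tendsto (fun j => L j e) l (𝓝 a) := by
  refine CompleteSpace.complete (Metric.cauchy_iff.2 ⟨inferInstance, fun ε hε => ?_⟩)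
  have hM : 0 < |M| + 1 := by positivity
  obtain ⟨t, t0, t1, t2⟩ : ∃ t : ℝ, 0 < t ∧ t ≤ 1 ∧ M * t ≤ ε / 4 := by
    refine ⟨min 1 (ε / 4 / (|M| + 1)), by positivity, min_le_left _ _, ?_⟩
    have a1 : min 1 (ε / 4 / (|M| + 1)) ≤ ε / 4 / (|M| + 1) := min_le_right _ _
    have a2 : 0 < min 1 (ε / 4 / (|M| + 1)) := by positivity
    rw [le_div_iff₀ hM] at a1
    nlinarith [le_abs_self M]
  have h3 : Tendsto (fun j => t⁻¹ • (f j (x + t • e) - f j x)) l
      (𝓝 (t⁻¹ • (g (x + t • e) - g x))) := ((h2 _).sub (h2 _)).const_smul _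
  refine ⟨Metric.ball (t⁻¹ • (g (x + t • e) - g x)) (ε / 2), ?_, fun a ha b hb => ?_⟩
  · rw [mem_map]
    filter_upwards [h1, Metric.tendsto_nhds.1 h3 (ε / 4) (by positivity)] with j a1 a2
    have a3 : ‖t • e‖ = t := by rw [norm_smul, he, mul_one, Real.norm_of_nonneg t0.le]
    have a4 := a1 (t • e) (by rw [a3]; exact t1)
    have a5 : dist (L j e) (t⁻¹ • (f j (x + t • e) - f j x)) ≤ ε / 4 := by
      have e1 : t⁻¹ • (f j (x + t • e) - f j x) - L j e =
          t⁻¹ • (f j (x + t • e) - f j x - L j (t • e)) := by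
        rw [map_smul, smul_sub t⁻¹ _ (t • L j e), inv_smul_smul₀ t0.ne']
      rw [dist_comm, dist_eq_norm, e1, norm_smul, Real.norm_of_nonneg (inv_pos.2 t0).le,
        inv_mul_le_iff₀ t0]
      rw [a3] at a4
      nlinarith
    have a6 := dist_triangle (L j e) (t⁻¹ • (f j (x + t • e) - f j x))
      (t⁻¹ • (g (x + t • e) - g x))
    show dist (L j e) _ < ε / 2
    linarith
  · have := dist_triangle_right a b (t⁻¹ • (g (x + t • e) - g x))
    rw [Metric.mem_ball] at ha hb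
    linarith

theorem q_lim : Q_lim := by
  intro n F _ _ _ ι l f L g x M hl h1 h2
  choose a ha using fun i : Fin n => RLim_vec h1 h2 (RLim_norm i)
  have h3 : Tendsto L l (𝓝 (∑ i, (EuclideanSpace.proj i : E n →L[ℝ] ℝ).smulRight (a i))) := by
    refine Tendsto.congr (fun j => (RLim_dec (L j)).symm) (tendsto_finsetSum _ fun i _ => ?_)
    exact ((ContinuousLinearMap.smulRightL ℝ (E n) F
      (EuclideanSpace.proj i : E n →L[ℝ] ℝ)).continuous.tendsto _).comp (ha i)
  generalize ∑ i, (EuclideanSpace.proj i : E n →L[ℝ] ℝ).smulRight (a i) = A at h3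
  have h4 : ∀ h : E n, ‖h‖ ≤ 1 → ‖g (x + h) - g x - A h‖ ≤ M * ‖h‖ ^ 2 := fun h hh => by
    have a1 : Tendsto (fun j => L j h) l (𝓝 (A h)) :=
      ((ContinuousLinearMap.apply ℝ F h).continuous.tendsto _).comp h3
    exact le_of_tendsto (((h2 _).sub (h2 _)).sub a1).norm (h1.mono fun j hj => hj h hh)
  have h5 : HasFDerivAt g A x := by
    rw [hasFDerivAt_iff_isLittleO_nhds_zero]
    refine (Asymptotics.IsBigO.of_bound M ?_).trans_isLittleO
      (Asymptotics.isLittleO_norm_pow_id (n := 2) (by norm_num))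
    filter_upwards [Metric.closedBall_mem_nhds (0 : E n) one_pos] with h hh
    rw [norm_pow, norm_norm]
    exact h4 h (mem_closedBall_zero_iff.1 hh)
  exact ⟨h5.differentiableAt, h5.fderiv ▸ h3⟩

theorem q_unif : Q_unif := by
  intro n F _ _ ι l f g C hl h1 h2 K hK
  have h3 : ∀ x y, ‖g x - g y‖ ≤ C * ‖x - y‖ := fun x y =>
    le_of_tendsto' ((h2 x).sub (h2 y)).norm fun j => h1 j x y
  rw [Metric.tendstoUniformlyOn_iff]
  intro ε hε
  have hC : 0 < |C| + 1 := by positivity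
  obtain ⟨T, -, hT, hc⟩ := hK.finite_cover_balls (e := ε / 3 / (|C| + 1)) (by positivity)
  have h4 : ∀ᶠ j in l, ∀ y ∈ T, dist (f j y) (g y) < ε / 3 :=
    (eventually_all_finite hT).2 fun y _ => Metric.tendsto_nhds.1 (h2 y) _ (by positivity)
  filter_upwards [h4] with j hj x hx
  obtain ⟨y, hy, hxy⟩ := Set.mem_iUnion₂.1 (hc hx)
  rw [Metric.mem_ball, dist_eq_norm, lt_div_iff₀ hC] at hxy
  have a1 : C * ‖x - y‖ ≤ ε / 3 := by nlinarith [le_abs_self C, norm_nonneg (x - y)]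
  have a2 := hj y hy
  have a3 := h1 j x y
  have a4 := h3 x y
  have a5 := dist_triangle4 (g x) (g y) (f j y) (f j x)
  rw [dist_comm (g y), dist_comm (f j y) (f j x), dist_eq_norm (g x) (g y),
    dist_eq_norm (f j x) (f j y)] at a5
  linarith

end

end Vale.Agent.P134
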