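import Vale.Agent.P134.RIf

/-! P134, block R: logarithm and exponential. -/

open Filter Topology MeasureTheory
open scoped ContDiff Laplacian RealInnerProductSpace

namespace Vale.Agent.P134

variable {n : ℕ}

theorem RLog_fd {φ : E n → ℝ} (hs : ContDiff ℝ ∞ φ) (hp : ∀ x, 0 < φ x) (x : E n) :
    fderiv ℝ (fun x => Real.log (φ x)) x = (φ x)⁻¹ • fderiv ℝ φ x :=
  fderiv_comp1 (Real.hasDerivAt_log (hp x).ne') (hs.differentiable (by simp) x)

theorem RLog_bd {φ : E n → ℝ} {C : ℕ → ℝ} (hs : ContDiff ℝ ∞ φ) (hp : ∀ x, 0 < φ x)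
    (hC : ∀ k x, ‖iteratedFDeriv ℝ k φ x‖ ≤ C k * φ x) (k : ℕ) (x : E n) :
    ‖iteratedFDeriv ℝ (k + 1) (fun x => Real.log (φ x)) x‖ ≤ (k + 1).factorial *
      (∑ i ∈ Finset.range (k + 2), ‖iteratedFDerivWithin ℝ i Real.log (Set.Ioi 0) 1‖) *
        (1 + ∑ i ∈ Finset.range (k + 2), |C i|) ^ (k + 1) := by
  have hx := hp x
  have e : (fun y => Real.log (φ y)) =
      fun y => Real.log (φ x) + (Real.log ∘ fun y => (φ x)⁻¹ • φ y) y := by
    funext y
    rw [Function.comp, smul_eq_mul, Real.log_mul (inv_pos.2 hx).ne' (hp y).ne', Real.log_inv]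
    ring
  have e2 : fderiv ℝ (fun y => Real.log (φ y)) = fderiv ℝ (Real.log ∘ fun y => (φ x)⁻¹ • φ y) := by
    rw [e]; funext y; exact fderiv_const_add _
  rw [← norm_iteratedFDeriv_fderiv, e2, norm_iteratedFDeriv_fderiv]
  refine norm_iteratedFDeriv_comp_le' (N := ∞) (t := Set.Ioi 0) ?_ (uniqueDiffOn_Ioi 0)
    (Real.contDiffOn_log.mono fun t ht => ne_of_gt ht) (hs.const_smul _)
    (by exact_mod_cast le_top) x (fun i hi => ?_) fun i h1 hi => ?_
  · rintro _ ⟨y, rfl⟩
    exact mul_pos (inv_pos.2 hx) (hp y)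
  · rw [smul_eq_mul, inv_mul_cancel₀ hx.ne']
    exact Finset.single_le_sum (f := fun i => ‖iteratedFDerivWithin ℝ i Real.log (Set.Ioi 0) 1‖)
      (fun _ _ => norm_nonneg _) (Finset.mem_range.2 (by omega))
  · rw [iteratedFDeriv_const_smul_apply' (hs.contDiffAt.of_le (by exact_mod_cast le_top)),
      norm_smul, Real.norm_of_nonneg (inv_pos.2 hx).le]
    have h2 : |C i| ≤ ∑ i ∈ Finset.range (k + 2), |C i| :=
      Finset.single_le_sum (f := fun i => |C i|) (fun _ _ => abs_nonneg _)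
        (Finset.mem_range.2 (by omega))
    refine le_trans ?_ (le_self_pow₀ (by linarith [abs_nonneg (C i)]) (by omega))
    rw [inv_mul_le_iff₀ hx, mul_comm]
    exact (hC i x).trans (mul_le_mul_of_nonneg_right (by linarith [le_abs_self (C i)]) hx.le)

theorem q_log : Q_log := by
  refine fun n => ⟨fun φ C hs hp hC => ⟨hs.log fun x => (hp x).ne', ⟨fun k => k.factorial *
      (∑ i ∈ Finset.range (k + 1), ‖iteratedFDerivWithin ℝ i Real.log (Set.Ioi 0) 1‖) *
        (1 + ∑ i ∈ Finset.range (k + 1), |C i|) ^ k, fun k hk x => ?_⟩, fun x => ?_⟩,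
    fun φ C hs hp hC => ⟨hp, fun x y => ?_⟩, fun u l C hs hC h => ⟨hs.exp, fun x => Real.exp_pos _,
      fun x => ?_, fun x => ?_⟩⟩
  · obtain ⟨k, rfl⟩ := Nat.exists_eq_add_of_le' hk
    exact RLog_bd hs hp hC k x
  · have hx := hp x
    rw [lap_comp (G1 := fun t => t⁻¹) (Real.contDiffAt_log.2 hx.ne')
      ((eventually_ne_nhds hx.ne').mono fun t ht => Real.hasDerivAt_log ht) (hasDerivAt_inv hx.ne')
      (hs.contDiffAt.of_le two_le_oo), RLog_fd hs hp, norm_smul, Real.norm_of_nonneg (inv_pos.2 hx).le]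
    field_simp
    ring
  · have h := Convex.norm_image_sub_le_of_norm_fderiv_le (𝕜 := ℝ) (f := fun x => Real.log (φ x))
      (s := Set.univ) (C := C) (x := x) (y := y)
      (fun z _ => (hs.log fun x => (hp x).ne').differentiable (by simp) z)
      (fun z _ => by
        rw [RLog_fd hs hp, norm_smul, Real.norm_of_nonneg (inv_pos.2 (hp z)).le,
          inv_mul_le_iff₀ (hp z), mul_comm]
        exact hC z) convex_univ trivial trivial
    rw [← Real.exp_log (hp x), ← Real.exp_log (hp y), ← Real.exp_add]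
    exact Real.exp_le_exp.2 (by linarith [(abs_le.1 h).2])
  · rw [lap_comp (G1 := Real.exp) Real.contDiff_exp.contDiffAt
      (Eventually.of_forall Real.hasDerivAt_exp) (Real.hasDerivAt_exp _)
      (hs.contDiffAt.of_le two_le_oo), ← mul_add, mul_comm]
    exact mul_le_mul_of_nonneg_right (h x) (Real.exp_pos _).le
  · rw [fderiv_comp1 (Real.hasDerivAt_exp _) (hs.differentiable (by simp) x), norm_smul,
      Real.norm_of_nonneg (Real.exp_pos _).le, mul_comm]
    exact mul_le_mul_of_nonneg_right (hC x) (Real.exp_pos _).le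

end Vale.Agent.P134
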