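import Vale.Agent.P134.RHc

/-! P134, block R: Modica's estimate. -/

open Filter Topology
open scoped ContDiff Laplacian RealInnerProductSpace

namespace Vale.Agent.P134

namespace RH

variable {n : ℕ}

theorem mod_alg {δ s Q H m β L : ℝ} (hδ : 0 < δ) (hδ1 : δ ≤ 1) (hs : |s| ≤ 1) (hQ : δ ≤ Q)
    (hm : m ^ 2 ≤ H * Q ^ 2) (hβ : β = 2 * m - (2 * (s ^ 3 - s) - 2 * δ * s) * Q)
    (hb : β ^ 2 ≤ (δ ^ 2 / 8) ^ 2 * δ * Q)
    (hL : L = 2 * H + 2 * ((3 * s ^ 2 - 1) * Q) - ((2 * (s ^ 3 - s) - 2 * δ * s) * (s ^ 3 - s) +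
      (6 * s ^ 2 - 2 - 2 * δ) * Q)) : δ ^ 2 ≤ L := by
  set G := 2 * (s ^ 3 - s) - 2 * δ * s with hG
  have hQ0 : 0 < Q := hδ.trans_le hQ
  have hs2 : s ^ 2 ≤ 1 := by rw [← sq_abs]; nlinarith [abs_nonneg s]
  have hG4 : |G| ≤ 4 := by
    have e : G = s * (2 * (s ^ 2 - 1) - 2 * δ) := by rw [hG]; ring
    rw [e, abs_mul]
    have : |2 * (s ^ 2 - 1) - 2 * δ| ≤ 4 := abs_le.2 ⟨by nlinarith [sq_nonneg s], by nlinarith⟩
    nlinarith [abs_nonneg s, abs_nonneg (2 * (s ^ 2 - 1) - 2 * δ)]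
  have hβ1 : |β| ≤ δ ^ 2 / 8 * Q := by
    refine abs_le_of_sq_le_sq' ?_ (by positivity) |> abs_le.2
    calc β ^ 2 ≤ (δ ^ 2 / 8) ^ 2 * δ * Q := hb
      _ ≤ (δ ^ 2 / 8) ^ 2 * Q * Q := by gcongr
      _ = _ := by ring
  have h1 : |G * β| ≤ 4 * (δ ^ 2 / 8 * Q) := by
    rw [abs_mul]; exact mul_le_mul hG4 hβ1 (abs_nonneg _) (by norm_num)
  have h2 : (G ^ 2 / 2 - δ ^ 2 / 2) * Q ^ 2 ≤ 2 * H * Q ^ 2 := by
    have e : 4 * m ^ 2 = β ^ 2 + 2 * (G * β) * Q + G ^ 2 * Q ^ 2 := by rw [hβ]; ring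
    have := (abs_le.1 h1).1
    nlinarith [sq_nonneg β]
  have h3 : G ^ 2 / 2 - δ ^ 2 / 2 ≤ 2 * H := le_of_mul_le_mul_right h2 (by positivity)
  have h4 : 0 ≤ G ^ 2 / 2 - G * (s ^ 3 - s) := by
    have e : G ^ 2 / 2 - G * (s ^ 3 - s) = 2 * δ * s ^ 2 * (1 - s ^ 2 + δ) := by rw [hG]; ring
    rw [e]
    have : 0 ≤ 1 - s ^ 2 + δ := by linarith
    positivity
  rw [hL]
  nlinarith

theorem modica {u : E n → ℝ} (hu : Sol u) {M : ℝ} (hM : ∀ x, gsq u x ≤ M) (y : E n) :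
    gsq u y ≤ (1 - u y ^ 2) ^ 2 / 2 := by
  have hs : Sm u := hu.sm
  have hl : lp u = fun x => u x ^ 3 - u x := funext fun x => by rw [← lap_eq hs, hu.eq]
  have key : ∀ δ : ℝ, 0 < δ → δ ≤ 1 →
      gsq u y ≤ (1 - u y ^ 2) ^ 2 / 2 + δ * (2 - u y ^ 2) := by
    intro δ hδ hδ1
    by_contra! hc
    set G : ℝ → ℝ := fun t => (1 - t ^ 2) ^ 2 / 2 + δ * (2 - t ^ 2) with hG
    set G1 : ℝ → ℝ := fun t => 2 * (t ^ 3 - t) - 2 * δ * t with hG1
    set G2 : ℝ → ℝ := fun t => 6 * t ^ 2 - 2 - 2 * δ with hG2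
    have d1 : ∀ t, HasDerivAt G (G1 t) t := fun t => by
      have h := (((((hasDerivAt_pow 2 t).const_sub 1).pow 2).div_const 2).add
        (((hasDerivAt_pow 2 t).const_sub 2).const_mul δ))
      refine HasDerivAt.congr_deriv h ?_
      simp only [hG1]; push_cast; ring
    have d2 : ∀ t, HasDerivAt G1 (G2 t) t := fun t => by
      have h := (((hasDerivAt_pow 3 t).sub (hasDerivAt_id t)).const_mul 2).sub
        ((hasDerivAt_id t).const_mul (2 * δ))
      refine HasDerivAt.congr_deriv h ?_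
      simp only [hG2]; push_cast; ring
    have d3 : ∀ t : ℝ, HasDerivAt (fun t : ℝ => t ^ 3 - t) (3 * t ^ 2 - 1) t := fun t => by
      have h := (hasDerivAt_pow 3 t).sub (hasDerivAt_id t)
      refine HasDerivAt.congr_deriv h ?_
      push_cast; ring
    have sG : Sm fun x => G (u x) :=
      (((contDiff_const.sub (hs.pow 2)).pow 2).div_const 2).add
        (contDiff_const.mul (contDiff_const.sub (hs.pow 2)))
    have sG1 : Sm fun x => G1 (u x) :=
      (contDiff_const.mul ((hs.pow 3).sub hs)).sub (contDiff_const.mul hs)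
    have hGδ : ∀ x, δ ≤ G (u x) := fun x => by
      have h1 : u x ^ 2 ≤ 1 := by rw [← sq_abs]; nlinarith [abs_nonneg (u x), hu.bd x]
      simp only [hG]; nlinarith [sq_nonneg (1 - u x ^ 2)]
    have sP : Sm fun x => gsq u x - G (u x) := hs.gsq.sub sG
    have hPy : 0 < gsq u y - G (u y) := sub_pos.2 hc
    have hM0 : 0 ≤ M := (gsq_nonneg u y).trans (hM y)
    set η := (δ ^ 2 / 8) ^ 2 * δ with hη
    have hη0 : 0 < η := by positivity
    obtain ⟨x, h1, h2, h3⟩ := omori sP (M := M) (fun x => by linarith [hM x, hGδ x]) y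
      (σ := η / (4 * M + 2 * n + 1)) (by positivity)
    have hD : 0 < 4 * M + 2 * n + 1 := by positivity
    have hσ : η / (4 * M + 2 * n + 1) * (4 * M + 2 * n + 1) = η := by field_simp
    have hσ0 : 0 < η / (4 * M + 2 * n + 1) := by positivity
    have hn : (0 : ℝ) ≤ n := by positivity
    have h2' : gsq (fun x => gsq u x - G (u x)) x ≤ η := by nlinarith
    have h3' : lp (fun x => gsq u x - G (u x)) x ≤ η := by nlinarith
    have hQ : δ ≤ gsq u x := by linarith [hGδ x]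
    have hm : (∑ i, ∑ j, pd i (pd j u) x * (pd i u x * pd j u x)) ^ 2 ≤
        hsq u x * gsq u x ^ 2 := by
      have h := Finset.sum_mul_sq_le_sq_mul_sq (Finset.univ : Finset (Fin n × Fin n))
        (fun p => pd p.1 (pd p.2 u) x) (fun p => pd p.1 u x * pd p.2 u x)
      simp only [Fintype.sum_prod_type] at h
      refine h.trans_eq (congrArg (hsq u x * ·) ?_)
      simp only [gsq, mul_pow, sq (∑ _, _), Finset.sum_mul_sum]
    have hβ : gdot (fun x => gsq u x - G (u x)) u x =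
        2 * (∑ i, ∑ j, pd i (pd j u) x * (pd i u x * pd j u x)) - G1 (u x) * gsq u x := by
      simp only [gdot, pd_sub hs.gsq sG, pd_gsq hs, pd_comp hs (fun x => d1 (u x))]
      simp only [gsq, Finset.mul_sum, ← Finset.sum_sub_distrib]
      refine Finset.sum_congr rfl fun i _ => ?_
      rw [sub_mul, Finset.sum_mul]
      refine congrArg₂ (· - ·) (Finset.sum_congr rfl fun j _ => by ring) (by ring)
    have hb := (gdot_sq_le (fun x => gsq u x - G (u x)) u x).trans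
      (mul_le_mul_of_nonneg_right h2' (gsq_nonneg u x))
    have hL : lp (fun x => gsq u x - G (u x)) x = 2 * hsq u x +
        2 * ((3 * u x ^ 2 - 1) * gsq u x) - (G1 (u x) * (u x ^ 3 - u x) + G2 (u x) * gsq u x) := by
      rw [lp_sub hs.gsq sG, bochner hs, lp_comp hs (fun x => d1 (u x)) (fun x => d2 (u x)) sG1, hl]
      have : gdot u (fun x => u x ^ 3 - u x) x = (3 * u x ^ 2 - 1) * gsq u x := by
        simp only [gdot, pd_comp hs (φ' := fun t => 3 * t ^ 2 - 1) (fun x => d3 (u x)), gsq,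
          Finset.mul_sum]
        exact Finset.sum_congr rfl fun i _ => by ring
      rw [this]
    have h4 := mod_alg hδ hδ1 (hu.bd x) hQ hm hβ hb hL
    have h5 : η < δ ^ 2 := by
      have : δ ^ 3 ≤ 1 := pow_le_one₀ hδ.le hδ1
      have e : η = δ ^ 2 * (δ ^ 3 / 64) := by rw [hη]; ring
      have : 0 < δ ^ 2 := by positivity
      rw [e]; nlinarith
    linarith
  refine le_of_forall_pos_le_add fun ε hε => ?_
  have h := key (min 1 (ε / 2)) (by positivity) (min_le_left _ _)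
  have h1 : min 1 (ε / 2) ≤ ε / 2 := min_le_right _ _
  have h2 : 0 < min 1 (ε / 2) := by positivity
  nlinarith [sq_nonneg (u y)]

end RH

theorem r_mod (h : R_bd) : R_mod := by
  intro n u hu x
  obtain ⟨C, hC0, hC⟩ := h n 1
  rw [RH.norm_sq]
  refine RH.modica hu (M := C ^ 2) (fun y => ?_) x
  rw [← RH.norm_sq]
  have := hC u hu y
  rw [norm_iteratedFDeriv_one] at this
  gcongr

end Vale.Agent.P134
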