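import Vale.Agent.P134.RIf

/-! P134, block R: monotone solutions. -/

open Filter Topology MeasureTheory
open scoped ContDiff Laplacian RealInnerProductSpace

namespace Vale.Agent.P134

theorem RMon_lap {n : ℕ} {u : E n → ℝ} (h : Sol u) (e x : E n) :
    Δ (dv e u) x = (3 * u x ^ 2 - 1) * dv e u x := by
  rw [lap_dv (h.sm.of_le three_le_oo).contDiffAt,
    show Δ u = fun y => u y ^ 3 - u y from funext h.eq]
  have d : HasDerivAt (fun t : ℝ => t ^ 3 - t) (3 * u x ^ 2 - 1) (u x) := by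
    simpa using (hasDerivAt_pow 3 (u x)).fun_sub (hasDerivAt_id' (u x))
  exact dv_comp d (h.sm.differentiable (by simp) x) e

theorem RMon_lt {n : ℕ} {u : E (n + 1) → ℝ} (h : Mon u) (x : E (n + 1)) : |u x| < 1 := by
  have m : StrictMono fun t : ℝ => u (x + t • el n) := strictMono_of_deriv_pos fun t => by
    rw [(hasDerivAt_line (el n) (h.sol.sm.differentiable (by simp) _)).deriv]
    exact h.pos _
  have a := m (show (0 : ℝ) < 1 by norm_num)
  have b := m (show (-1 : ℝ) < 0 by norm_num)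
  simp only [zero_smul, add_zero] at a b
  exact abs_lt.2 ⟨(abs_le.1 (h.sol.bd _)).1.trans_lt b, a.trans_le (abs_le.1 (h.sol.bd _)).2⟩

theorem RMon_a {n : ℕ} {u : E n → ℝ} (h : Sol u) {C : ℝ} (c : 0 ≤ C) (x : E n)
    (b : ‖iteratedFDeriv ℝ 1 u x‖ ≤ C) : |3 * u x ^ 2 - 1| ≤ 2 + 6 * C ∧
      ‖fderiv ℝ (fun x => 3 * u x ^ 2 - 1) x‖ ≤ 2 + 6 * C := by
  have k := h.bd x
  have k2 : u x ^ 2 ≤ 1 := (sq_le_one_iff_abs_le_one _).2 k
  refine ⟨abs_le.2 ⟨by nlinarith [sq_nonneg (u x)], by linarith⟩, ?_⟩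
  have d : HasDerivAt (fun t : ℝ => 3 * t ^ 2 - 1) (6 * u x) (u x) := by
    refine (((hasDerivAt_pow 2 (u x)).const_mul 3).sub_const 1).congr_deriv ?_
    norm_num
    ring
  rw [norm_iteratedFDeriv_one] at b
  rw [fderiv_comp1 d (h.sm.differentiable (by simp) x), norm_smul, Real.norm_eq_abs, abs_mul,
    abs_of_pos (show (0 : ℝ) < 6 by norm_num)]
  nlinarith [mul_le_mul k b (norm_nonneg _) zero_le_one]

theorem r_mon (h1 : Q_alg) (h2 : Q_boot) (h3 : Q_sol) (h4 : Q_sm) (h5 : Q_log) (h6 : R_bd)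
    (h7 : R_har) : R_mon := by
  intro n
  obtain ⟨C1, c1, b1⟩ := h6 (n + 1) 1
  obtain ⟨C0, c0, b0⟩ := h7 (n + 1) (2 + 6 * C1)
  have har : ∀ u, Mon u → ∀ x, ‖fderiv ℝ (dv (el n) u) x‖ ≤ C0 * dv (el n) u x := fun u h =>
    b0 (fun x => 3 * u x ^ 2 - 1) _ (by have := h.sol.sm; fun_prop) (smooth_dv h.sol.sm _)
      (fun x => RMon_a h.sol c1 x (b1 u h.sol x)) h.pos (RMon_lap h.sol _)
  obtain ⟨Cb, -, bb⟩ := h2 (n + 1) C0 c0
  have key : ∀ k, ∃ M, ∀ u, Mon u → Lam (dv (el n) u) k M (dv (el n) u) := by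
    intro k
    induction k with
    | zero => exact ⟨1, fun u h x => ((abs_of_pos (h.pos x)).trans (one_mul _).symm).le⟩
    | succ k ih =>
      obtain ⟨M, hM⟩ := ih
      obtain ⟨B, hB⟩ := h3 (n + 1) k
      refine ⟨Cb * max M (2 ^ k * (|3| * (2 ^ k * B * B) + |-1|) * M), fun u h => ?_⟩
      have s := smooth_dv h.sol.sm (el n)
      obtain ⟨q1, -, -, -, -, q6, -⟩ := h1 (n + 1) (dv (el n) u) h.pos k
      obtain ⟨-, -, -, p4, p5, p6, p7, -⟩ := h1 (n + 1) (fun _ => 1) (fun _ => one_pos) k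
      have l1 := hB u (h.sol.sm.of_le two_le_oo) h.sol.eq h.sol.bd
      refine bb _ ((h5 (n + 1)).2.1 _ C0 s h.pos (har u h)) k _ _ (s.of_le two_le_oo)
        (q1 _ _ _ (le_max_left _ _) (hM u h)) (q1 _ _ _ (le_max_right _ _) ?_)
      rw [show Δ (dv (el n) u) = fun x => (3 * (u x * u x) + -1) * dv (el n) u x from
        funext fun x => by rw [RMon_lap h.sol]; ring]
      exact q6 _ _ _ _ (p4 _ _ _ _ (p5 _ 3 _ (p6 _ _ _ _ l1 l1)) (p7 (-1))) (hM u h)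
  choose C hC using key
  refine ⟨C, fun u h => ?_⟩
  have s := smooth_dv h.sol.sm (el n)
  have d := fun k => (h4 (n + 1) (dv (el n) u) h.pos).2 k (C k) _ s (hC k u h)
  exact ⟨RMon_lt h, ⟨s, h.pos, fun x => (RMon_lap h.sol _ x).le, fun x => by
    rw [← norm_iteratedFDeriv_one]; exact d 1 x⟩, RMon_lap h.sol _, d⟩

end Vale.Agent.P134
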