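import Vale.Agent.P134.RIf

/-! P134, block R: the limits in the monotone direction. -/

open Filter Topology MeasureTheory
open scoped ContDiff Laplacian RealInnerProductSpace

namespace Vale.Agent.P134

theorem RPm_one (h1 : Q_emb) (h2 : Q_log) (h3 : Q_avg) (h4 : R_lim) (h5 : R_mon) {n : ℕ}
    {u U : E (n + 1) → ℝ} (hu : Mon u) {σ : ℝ} (hσ : |σ| = 1)
    (hU : ∀ x, Tendsto (fun t : ℝ => u (x + (σ * t) • el n)) atTop (𝓝 (U x))) :
    Sol (fun y => U (em n y)) ∧ Stab (fun y => U (em n y)) ∧ ∀ x, U (em n (pr n x)) = U x := by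
  obtain ⟨-, -, -, e1, -, -, -, e2⟩ := h1 n
  have s2 : σ * σ = 1 := by rw [← abs_mul_abs_self, hσ, one_mul]
  have hS : Sol U := (h4 _ ℝ atTop (fun t x => u (x + (σ * t) • el n)) U inferInstance
    (fun t => ⟨hu.sol.sm.comp (contDiff_id.add contDiff_const),
      fun x => (lap_comp_add u _ x).trans (hu.sol.eq _), fun x => hu.sol.bd _⟩) hU).1
  have inv : ∀ x (s : ℝ), U (x + s • el n) = U x := fun x s => by
    refine tendsto_nhds_unique (hU _)
      (((hU x).comp (tendsto_atTop_add_const_left _ (σ * s) tendsto_id)).congr fun t => ?_)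
    simp only [Function.comp, id]
    rw [add_assoc, ← add_smul, mul_add, ← mul_assoc, s2, one_mul]
  have d0 : dv (el n) U = fun _ => 0 := funext fun x => by
    have k := hasDerivAt_line (x := x) (t := 0) (el n) (hS.sm.differentiable (by simp) _)
    simp only [inv, zero_smul, add_zero] at k
    exact k.unique (hasDerivAt_const _ _)
  refine ⟨⟨hS.sm.comp (em n).contDiff, fun y => ?_, fun y => hS.bd _⟩, ?_, fun x => ?_⟩
  · rw [(e2 U y hS.sm).1, d0, dv_const, sub_zero, hS.eq]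
  · obtain ⟨C, hC⟩ := h5 n
    obtain ⟨-, a1, a2, a3⟩ := hC u hu
    obtain ⟨b1, ⟨D, b2⟩, b3⟩ := (h2 _).1 _ C a1.sm a1.pos a3
    obtain ⟨m, m1, m2⟩ := h3 n _ (fun x => 3 * u x ^ 2 - 1) (fun y => 3 * U (em n y) ^ 2 - 1) D σ
      hσ b1 b2 (fun x => by rw [b3, a2, mul_div_cancel_right₀ _ (a1.pos x).ne'])
      fun y => (((hU _).pow 2).const_mul 3).sub_const 1
    exact ⟨_, _, (h2 n).2.2 _ m _ m1 (fun y => (m2 y).1) fun y => (m2 y).2⟩
  · rw [← inv _ (x (Fin.last n)), ← e1]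

theorem r_pm (h1 : Q_emb) (h2 : Q_log) (h3 : Q_avg) (h4 : R_lim) (h5 : R_mon) : R_pm := by
  intro n u hu
  have sm : ∀ x, StrictMono fun t : ℝ => u (x + t • el n) := fun x =>
    strictMono_of_deriv_pos fun t => by
      rw [(hasDerivAt_line (el n) (hu.sol.sm.differentiable (by simp) _)).deriv]
      exact hu.pos _
  have ba : ∀ x, BddAbove (Set.range fun t : ℝ => u (x + t • el n)) := fun x =>
    ⟨1, Set.forall_mem_range.2 fun t => (abs_le.1 (hu.sol.bd _)).2⟩
  have bb : ∀ x, BddBelow (Set.range fun t : ℝ => u (x + t • el n)) := fun x =>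
    ⟨-1, Set.forall_mem_range.2 fun t => (abs_le.1 (hu.sol.bd _)).1⟩
  have tp := fun x => tendsto_atTop_ciSup (sm x).monotone (ba x)
  have tm := fun x => tendsto_atBot_ciInf (sm x).monotone (bb x)
  obtain ⟨p1, p2, p3⟩ := RPm_one h1 h2 h3 h4 h5 hu (σ := 1) abs_one
    (U := fun x => ⨆ t : ℝ, u (x + t • el n)) fun x => by simpa only [one_mul] using tp x
  obtain ⟨q1, q2, q3⟩ := RPm_one h1 h2 h3 h4 h5 hu (σ := -1) (by simp)
    (U := fun x => ⨅ t : ℝ, u (x + t • el n)) fun x =>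
      ((tm x).comp tendsto_neg_atTop_atBot).congr fun t => by
        simp only [Function.comp, neg_one_mul]
  refine ⟨_, _, p1, q1, p2, q2, fun x => ?_⟩
  rw [p3, q3]
  have z : u (x + (0 : ℝ) • el n) = u x := by rw [zero_smul, add_zero]
  exact ⟨z ▸ (ciInf_le (bb x) (-1)).trans_lt (sm x (by norm_num)),
    z ▸ (sm x one_pos).trans_le (le_ciSup (ba x) 1), tp x, tm x⟩

end Vale.Agent.P134
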