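import Vale.Agent.P134.RIf

/-! P134, block R: positive solutions of linear equations, bounds for `log (1 ± u)`. -/

open Filter Topology MeasureTheory
open scoped ContDiff Laplacian RealInnerProductSpace

namespace Vale.Agent.P134

variable {n : ℕ}

theorem r_pos (h1 : Q_alg) (h2 : Q_boot) (h4 : Q_sm) (h5 : Q_log) {a φ : E n → ℝ} {C : ℝ}
    (hC : 0 ≤ C) (ha : ∀ k, ∃ B, Lam (fun _ => 1) k B a) (hs : ContDiff ℝ ∞ φ) (hp : ∀ x, 0 < φ x)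
    (he : ∀ x, Δ φ x = a x * φ x) (hg : ∀ x, ‖fderiv ℝ φ x‖ ≤ C * φ x) :
    ∃ D : ℕ → ℝ, ∀ k x, ‖iteratedFDeriv ℝ k φ x‖ ≤ D k * φ x := by
  have hw := (h5 n).2.1 φ C hs hp hg
  obtain ⟨K, -, hK⟩ := h2 n C hC
  have key : ∀ k, ∃ M, Lam φ k M φ := fun k => by
    induction k with
    | zero => exact ⟨1, fun x => by rw [one_mul, abs_of_pos (hp x)]⟩
    | succ k ih =>
      obtain ⟨M, hM⟩ := ih
      obtain ⟨B, hB⟩ := ha k
      obtain ⟨m, -, -, -, -, mul, -⟩ := h1 n φ hp k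
      have e : Δ φ = fun x => a x * φ x := funext he
      exact ⟨_, hK φ hw k (max M (2 ^ k * B * M)) φ (hs.of_le two_le_oo)
        (m _ _ _ (le_max_left _ _) hM) (m _ _ _ (le_max_right _ _) (e ▸ mul B M a φ hB hM))⟩
  choose D hD using key
  exact ⟨D, fun k => (h4 n φ hp).2 k _ φ hs (hD k)⟩

theorem Sol.neg {u : E n → ℝ} (hu : Sol u) : Sol fun x => -u x := by
  refine ⟨hu.sm.neg, fun x => ?_, fun x => by rw [abs_neg]; exact hu.bd x⟩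
  have h := lap_const_mul (x := x) (hu.sm.of_le two_le_oo).contDiffAt (-1)
  simp only [neg_mul, one_mul] at h
  rw [h, hu.eq]
  ring

theorem RPos_one (h1 : Q_alg) (h2 : Q_boot) (h3 : Q_sol) (h4 : Q_sm) (h5 : Q_log) (h6 : R_mod)
    {u : E n → ℝ} (hu : Sol u) (hl : ∀ x, |u x| < 1) :
    (∃ D : ℕ → ℝ, ∀ k x, ‖iteratedFDeriv ℝ k (fun x => 1 + u x) x‖ ≤ D k * (1 + u x)) ∧
    ∃ D : ℕ → ℝ, ∀ k, 1 ≤ k → ∀ x, ‖iteratedFDeriv ℝ k (fun x => Real.log (1 + u x)) x‖ ≤ D k := by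
  have hs : ContDiff ℝ ∞ fun x => 1 + u x := contDiff_const.add hu.sm
  have hp : ∀ x, 0 < 1 + u x := fun x => by linarith [(abs_lt.1 (hl x)).1]
  have u2 := hu.sm.of_le two_le_oo
  obtain ⟨D, hD⟩ := r_pos h1 h2 h4 h5 (a := fun x => u x * u x + -1 * u x) zero_le_two
    (fun k => by
      obtain ⟨M, hM⟩ := h3 n k
      have k1 := hM u u2 hu.eq hu.bd
      obtain ⟨-, -, -, ad, sm, mul, -⟩ := h1 n (fun _ => 1) (fun _ => one_pos) k
      exact ⟨_, ad _ _ _ _ (mul _ _ _ _ k1 k1) (sm _ (-1) _ k1)⟩) hs hp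
    (fun x => by rw [lap_add contDiffAt_const u2.contDiffAt, lap_const, hu.eq]; ring)
    fun x => by
      rw [fderiv_const_add]
      refine abs_le_of_sq_le_sq' ((h6 n u hu x).trans ?_) (by linarith [hp x]) |>.2
      have k1 := abs_lt.1 (hl x)
      have k2 : (1 - u x) ^ 2 ≤ 4 := by nlinarith
      nlinarith [mul_le_mul_of_nonneg_right k2 (sq_nonneg (1 + u x))]
  exact ⟨⟨D, hD⟩, ((h5 n).1 _ D hs hp hD).2.1⟩

theorem r_logb (h1 : Q_alg) (h2 : Q_boot) (h3 : Q_sol) (h4 : Q_sm) (h5 : Q_log) (h6 : R_mod)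
    (n : ℕ) (u : E n → ℝ) (hu : Sol u) (hl : ∀ x, |u x| < 1) :
    ∃ D : ℕ → ℝ, ∀ k, 1 ≤ k → ∀ x, ‖iteratedFDeriv ℝ k (fun x => Real.log (1 + u x)) x‖ ≤ D k ∧
      ‖iteratedFDeriv ℝ k (fun x => Real.log (1 - u x)) x‖ ≤ D k := by
  obtain ⟨D, hD⟩ := (RPos_one h1 h2 h3 h4 h5 h6 hu hl).2
  obtain ⟨D', hD'⟩ := (RPos_one h1 h2 h3 h4 h5 h6 hu.neg fun x => by
    rw [abs_neg]; exact hl x).2
  simp only [← sub_eq_add_neg] at hD'
  exact ⟨fun k => max (D k) (D' k), fun k hk x =>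
    ⟨(hD k hk x).trans (le_max_left _ _), (hD' k hk x).trans (le_max_right _ _)⟩⟩

end Vale.Agent.P134
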