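import Vale.Agent.P134.RIf

/-! P134, block R: from finite differences to derivatives. -/

open Filter Topology MeasureTheory
open scoped ContDiff Laplacian RealInnerProductSpace

namespace Vale.Agent.P134

variable {n : ℕ} {ρ f : E n → ℝ} {k : ℕ} {M : ℝ}

theorem RSm_lam (h1 : Q_alg) (hρ : ∀ x, 0 < ρ x) (hf : Lam ρ (k + 1) M f) (e : E n) :
    ∀ᶠ t : ℝ in 𝓝[>] 0, Lam ρ k (M * ‖e‖) fun x => t⁻¹ * dl (t • e) f x := by
  have h : Tendsto (fun t : ℝ => ‖t • e‖) (𝓝 0) (𝓝 ‖(0 : ℝ) • e‖) :=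
    Continuous.tendsto (by fun_prop) 0
  rw [zero_smul, norm_zero] at h
  filter_upwards [self_mem_nhdsWithin,
    nhdsWithin_le_nhds (h.eventually (eventually_le_nhds one_pos))] with t ht h'
  have ht : 0 < t := ht
  have := (h1 n ρ hρ k).2.2.2.2.1 _ t⁻¹ _ (hf.2 _ h')
  rwa [norm_smul, Real.norm_eq_abs, abs_inv, abs_of_pos ht,
    show t⁻¹ * (M * (t * ‖e‖)) = M * ‖e‖ by field_simp] at this

theorem RSm_lim (hf : Differentiable ℝ f) (e x : E n) :
    Tendsto (fun t : ℝ => t⁻¹ * dl (t • e) f x) (𝓝[>] 0) (𝓝 (dv e f x)) := by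
  simpa [dl] using (hasDerivAt_line (x := x) e (t := 0) (hf _)).tendsto_slope_zero_right

theorem RSm_A (h1 : Q_alg) (hρ : ∀ x, 0 < ρ x) (hd : Differentiable ℝ f)
    (hf : Lam ρ (k + 1) M f) (e : E n) : Lam ρ k (M * ‖e‖) (dv e f) :=
  (h1 n ρ hρ k).2.2.2.2.2.2.2 ℝ (𝓝[>] 0) _ _ _ inferInstance (RSm_lam h1 hρ hf e) (RSm_lim hd e)

theorem RSm_B (h1 : Q_alg) (hρ : ∀ x, 0 < ρ x) (hd : Differentiable ℝ f) (hf : Lam ρ 2 M f)
    (x h : E n) (hh : ‖h‖ ≤ 1) : ‖f (x + h) - f x - fderiv ℝ f x h‖ ≤ M * ρ x * ‖h‖ ^ 2 := by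
  have hM := ((h1 n ρ hρ 2).2.2.1 M f hf).1
  have a := RSm_A h1 hρ hd hf h
  have b := norm_image_sub_le_of_norm_deriv_le_segment_01'
    (f := fun s : ℝ => f (x + s • h) - s * dv h f x)
    (f' := fun s => dv h f (x + s • h) - 1 * dv h f x) (C := M * ρ x * ‖h‖ ^ 2)
    (fun s _ => ((hasDerivAt_line h (hd _)).sub
      ((hasDerivAt_id s).mul_const _)).hasDerivWithinAt) fun s hs => by
      have c : ‖s • h‖ ≤ ‖h‖ := by
        rw [norm_smul, Real.norm_eq_abs, abs_of_nonneg hs.1]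
        exact mul_le_of_le_one_left (norm_nonneg _) hs.2.le
      have := (hρ x).le
      rw [one_mul]
      calc _ ≤ M * ‖h‖ * ‖s • h‖ * ρ x := a.2 _ (c.trans hh) x
        _ ≤ M * ‖h‖ * ‖h‖ * ρ x := by gcongr
        _ = _ := by ring
  simp only [one_smul, one_mul, zero_smul, add_zero, zero_mul, sub_zero] at b
  rwa [sub_right_comm]

theorem RSm_C (h1 : Q_alg) (h2 : Q_lim) (hρ : ∀ x, 0 < ρ x) (hd : Differentiable ℝ f)
    (hf : Lam ρ 3 M f) (e : E n) : Differentiable ℝ (dv e f) := fun x => by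
  refine (h2 n ℝ ℝ (𝓝[>] 0) (fun t y => t⁻¹ * dl (t • e) f y)
    (fun t => fderiv ℝ (fun y => t⁻¹ * dl (t • e) f y) x) (dv e f) x (M * ‖e‖ * ρ x)
    inferInstance ((RSm_lam h1 hρ hf e).mono fun t ht h hh => ?_) (RSm_lim hd e)).1
  refine RSm_B h1 hρ ?_ ht x h hh
  unfold dl
  fun_prop

theorem q_sm (h1 : Q_alg) (h2 : Q_lim) : Q_sm := by
  intro n ρ hρ
  refine ⟨fun f hd hf => contDiff_infty.2 fun k => ?_, fun k => ?_⟩
  · induction k generalizing f with
    | zero => exact contDiff_zero.2 hd.continuous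
    | succ k ih =>
      rw [Nat.cast_succ, contDiff_succ_iff_fderiv_apply]
      refine ⟨hd, by simp, fun e => ih (dv e f) ?_ fun j => ?_⟩
      · obtain ⟨M, hM⟩ := hf 3
        exact RSm_C h1 h2 hρ hd hM e
      · obtain ⟨M, hM⟩ := hf (j + 1)
        exact ⟨_, RSm_A h1 hρ hd hM e⟩
  · induction k with
    | zero => exact fun M f _ hf x => by rw [norm_iteratedFDeriv_zero]; exact hf x
    | succ k ih =>
      intro M f hs hf x
      have hM := ((h1 n ρ hρ _).2.2.1 M f hf).1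
      refine ContinuousMultilinearMap.opNorm_le_bound (mul_nonneg hM (hρ x).le) fun m => ?_
      have hc : ContDiff ℝ ∞ (fderiv ℝ f) := hs.fderiv_right (by simp)
      rw [iteratedFDeriv_succ_apply_right, ← iteratedFDeriv_clm_apply_const_apply hc
        (WithTop.coe_le_coe.2 (le_top (a := (k : ℕ∞)))), Fin.prod_univ_castSucc]
      refine ((iteratedFDeriv ℝ k (dv (m (Fin.last k)) f) x).le_opNorm (Fin.init m)).trans ?_
      have b := ih _ _ (smooth_dv hs (m (Fin.last k)))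
        (RSm_A h1 hρ (hs.differentiable (by simp)) hf (m (Fin.last k))) x
      refine (mul_le_mul_of_nonneg_right b (Finset.prod_nonneg fun _ _ => norm_nonneg _)).trans
        (le_of_eq ?_)
      simp only [Fin.init]
      ring

end Vale.Agent.P134
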