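import Vale.Agent.P134.RDefs

/-! P134, block R: the weighted stability inequality. -/

open Filter Topology MeasureTheory
open scoped ContDiff Laplacian RealInnerProductSpace

namespace Vale.Agent.P134

namespace RStabAux

variable {n : ℕ}

lemma ev_eq (i : Fin n) : EuclideanSpace.basisFun (Fin n) ℝ i = ev i := by
  simp [ev]

lemma norm_sq (L : E n →L[ℝ] ℝ) : ‖L‖ ^ 2 = ∑ i, L (ev i) ^ 2 := by
  simpa only [ev_eq] using (EuclideanSpace.basisFun (Fin n) ℝ).norm_dual L

lemma cs (L M : E n →L[ℝ] ℝ) : ∑ i, L (ev i) * M (ev i) ≤ ‖L‖ * ‖M‖ := by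
  have h := Finset.sum_mul_sq_le_sq_mul_sq Finset.univ (fun i => L (ev i)) (fun i => M (ev i))
  rw [← norm_sq, ← norm_sq, ← mul_pow] at h
  exact (abs_le_of_sq_le_sq' h (by positivity)).2

lemma lap {φ : E n → ℝ} (hφ : ContDiff ℝ ∞ φ) (x : E n) :
    Δ φ x = ∑ i, fderiv ℝ (fun y => fderiv ℝ φ y (ev i)) x (ev i) := by
  rw [InnerProductSpace.laplacian_eq_iteratedFDeriv_orthonormalBasis φ
    (EuclideanSpace.basisFun (Fin n) ℝ)]
  refine Finset.sum_congr rfl fun i _ => ?_
  have h1 : DifferentiableAt ℝ (fderiv ℝ φ) x :=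
    ((hφ.fderiv_right (m := 1) (by norm_cast)).differentiable one_ne_zero) x
  rw [iteratedFDeriv_two_apply, fderiv_clm_apply h1 (differentiableAt_const _)]
  simp [ev]

lemma off {ψ χ : E n → ℝ} (hψ : Continuous ψ) (hχ : Continuous χ) {x : E n}
    (hx : x ∉ tsupport fun y => χ y * ψ y) :
    χ x * ψ x = 0 ∧ (χ x = 0 ∨ fderiv ℝ ψ x = 0) ∧ (ψ x = 0 ∨ fderiv ℝ χ x = 0) := by
  have h := notMem_tsupport_iff_eventuallyEq.1 hx
  refine ⟨h.eq_of_nhds, ?_, ?_⟩
  · refine or_iff_not_imp_left.2 fun h0 => ?_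
    have h1 : ψ =ᶠ[𝓝 x] fun _ => 0 := by
      filter_upwards [h, hχ.continuousAt.eventually_ne h0] with y a b
      exact (mul_eq_zero.1 a).resolve_left b
    rw [h1.fderiv_eq, fderiv_fun_const, Pi.zero_apply]
  · refine or_iff_not_imp_left.2 fun h0 => ?_
    have h1 : χ =ᶠ[𝓝 x] fun _ => 0 := by
      filter_upwards [h, hψ.continuousAt.eventually_ne h0] with y a b
      exact (mul_eq_zero.1 a).resolve_right b
    rw [h1.fderiv_eq, fderiv_fun_const, Pi.zero_apply]

lemma der {φ ψ χ : E n → ℝ} {x : E n} (hφ : DifferentiableAt ℝ φ x) (hψ : DifferentiableAt ℝ ψ x)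
    (hχ : DifferentiableAt ℝ χ x) (h0 : φ x ≠ 0) (v : E n) :
    fderiv ℝ (fun y => χ y * ψ y ^ 2 / φ y) x v =
      (fderiv ℝ χ x v * ψ x ^ 2 + 2 * χ x * ψ x * fderiv ℝ ψ x v) / φ x -
        χ x * ψ x ^ 2 * fderiv ℝ φ x v / φ x ^ 2 := by
  have h := (hχ.hasFDerivAt.mul (hψ.hasFDerivAt.pow 2)).mul ((hasDerivAt_inv h0).comp_hasFDerivAt x hφ.hasFDerivAt)
  have e : HasFDerivAt (fun y => χ y * ψ y ^ 2 / φ y) _ x := h
  rw [e.fderiv]
  simp
  field_simp
  ring

end RStabAux

open RStabAux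

theorem r_stab : R_stab := by
  intro n u φ C hu hS ψ χ hψ hχ hχ0 hK
  set f : E n → ℝ := fun y => χ y * ψ y ^ 2 / φ y with hf
  have hfC : ContDiff ℝ 1 f :=
    (hχ.mul (hψ.pow 2)).div (hS.sm.of_le (by norm_cast)) fun x => (hS.pos x).ne'
  have hg : ∀ i, ContDiff ℝ 1 fun y => fderiv ℝ φ y (ev i) := fun i =>
    (hS.sm.fderiv_right (m := 1) (by norm_cast)).clm_apply contDiff_const
  have hfK : HasCompactSupport f := by
    refine hK.mono fun x hx h0 => hx ?_
    simp only [hf]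
    rw [sq, ← mul_assoc, show χ x * ψ x = 0 from h0, zero_mul, zero_div]
  have hdψ := hψ.continuous_fderiv one_ne_zero
  have hdχ := hχ.continuous_fderiv one_ne_zero
  have hcψ := hψ.continuous
  have hcχ := hχ.continuous
  have i1 : ∀ i, Integrable fun x => fderiv ℝ f x (ev i) * fderiv ℝ φ x (ev i) := fun i =>
    (((hfC.continuous_fderiv one_ne_zero).clm_apply continuous_const).mul
      (hg i).continuous).integrable_of_hasCompactSupport (hfK.fderiv_apply ℝ (ev i)).mul_right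
  have i2 : ∀ i, Integrable fun x => f x * fderiv ℝ (fun y => fderiv ℝ φ y (ev i)) x (ev i) :=
    fun i => (hfC.continuous.mul (((hg i).continuous_fderiv one_ne_zero).clm_apply
      continuous_const)).integrable_of_hasCompactSupport hfK.mul_right
  have i3 : ∀ i, Integrable fun x => f x * fderiv ℝ φ x (ev i) := fun i =>
    (hfC.continuous.mul (hg i).continuous).integrable_of_hasCompactSupport hfK.mul_right
  have i4 : Integrable fun x => ψ x ^ 2 * ‖fderiv ℝ χ x‖ := by
    refine Continuous.integrable_of_hasCompactSupport (by fun_prop)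
      (HasCompactSupport.intro hK fun x hx => ?_)
    rcases (off hcψ hcχ hx).2.2 with h | h <;> simp [h]
  have i5 : Integrable fun x => χ x * (‖fderiv ℝ ψ x‖ ^ 2 + (3 * u x ^ 2 - 1) * ψ x ^ 2) := by
    refine Continuous.integrable_of_hasCompactSupport (by fun_prop)
      (HasCompactSupport.intro hK fun x hx => ?_)
    obtain ⟨h1, h | h, -⟩ := off hcψ hcχ hx
    · simp [h]
    · rw [h, norm_zero]
      linear_combination (3 * u x ^ 2 - 1) * ψ x * h1
  have i6 : ∀ i, Integrable fun x => f x * fderiv ℝ (fun y => fderiv ℝ φ y (ev i)) x (ev i) +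
      fderiv ℝ f x (ev i) * fderiv ℝ φ x (ev i) := fun i => (i2 i).add (i1 i)
  have h0 : ∫ x, ∑ i, (f x * fderiv ℝ (fun y => fderiv ℝ φ y (ev i)) x (ev i) +
      fderiv ℝ f x (ev i) * fderiv ℝ φ x (ev i)) = 0 := by
    rw [integral_finsetSum _ fun i _ => i6 i]
    refine Finset.sum_eq_zero fun i _ => ?_
    rw [integral_add (i2 i) (i1 i), integral_mul_fderiv_eq_neg_fderiv_mul_of_integrable (i1 i) (i2 i)
      (i3 i) (fun x _ => hfC.differentiable one_ne_zero x)
      (fun x _ => (hg i).differentiable one_ne_zero x), neg_add_cancel]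
  rw [neg_le_iff_add_nonneg, ← integral_const_mul, ← integral_add i5 (i4.const_mul C), ← h0]
  refine integral_mono (integrable_finsetSum _ fun i _ => i6 i)
    (i5.add (i4.const_mul C)) fun x => ?_
  have hp := hS.pos x
  have h1 : f x * Δ φ x ≤ χ x * ((3 * u x ^ 2 - 1) * ψ x ^ 2) := by
    have := mul_le_mul_of_nonneg_left (hS.sup x)
      (show 0 ≤ f x from div_nonneg (mul_nonneg (hχ0 x) (sq_nonneg _)) hp.le)
    refine this.trans (le_of_eq ?_)
    simp only [hf]
    field_simp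
  have h2 : ∀ i, fderiv ℝ f x (ev i) * fderiv ℝ φ x (ev i) ≤ χ x * fderiv ℝ ψ x (ev i) ^ 2 +
      ψ x ^ 2 / φ x * (fderiv ℝ χ x (ev i) * fderiv ℝ φ x (ev i)) := by
    intro i
    rw [hf, der (hS.sm.differentiable (by simp) x) (hψ.differentiable one_ne_zero x)
      (hχ.differentiable one_ne_zero x) hp.ne', ← sub_nonneg]
    refine (mul_nonneg (hχ0 x) (sq_nonneg
      (fderiv ℝ ψ x (ev i) - ψ x * fderiv ℝ φ x (ev i) / φ x))).trans (le_of_eq ?_)
    field_simp
    ring
  have h3 : ψ x ^ 2 / φ x * ∑ i, fderiv ℝ χ x (ev i) * fderiv ℝ φ x (ev i) ≤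
      C * (ψ x ^ 2 * ‖fderiv ℝ χ x‖) := by
    have := (cs (fderiv ℝ χ x) (fderiv ℝ φ x)).trans
      (mul_le_mul_of_nonneg_left (hS.har x) (norm_nonneg _))
    refine (mul_le_mul_of_nonneg_left this (div_nonneg (sq_nonneg _) hp.le)).trans (le_of_eq ?_)
    field_simp
  have h4 := Finset.sum_le_sum fun i (_ : i ∈ Finset.univ) => h2 i
  rw [Finset.sum_add_distrib, ← Finset.mul_sum, ← Finset.mul_sum, ← norm_sq] at h4
  simp only
  rw [Finset.sum_add_distrib, ← Finset.mul_sum, ← lap hS.sm]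
  linarith

end Vale.Agent.P134
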