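import Vale.Agent.P134.RAlg
import Vale.Agent.P134.RAvg
import Vale.Agent.P134.RBoot
import Vale.Agent.P134.RCpt
import Vale.Agent.P134.REmb
import Vale.Agent.P134.RGe
import Vale.Agent.P134.RHar
import Vale.Agent.P134.RLim
import Vale.Agent.P134.RLog
import Vale.Agent.P134.RLt
import Vale.Agent.P134.RMod
import Vale.Agent.P134.RMon
import Vale.Agent.P134.RPm
import Vale.Agent.P134.RPos
import Vale.Agent.P134.RSm
import Vale.Agent.P134.RStab

/-! P134, block R: everything closed. -/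

open Filter Topology MeasureTheory
open scoped ContDiff Laplacian RealInnerProductSpace

namespace Vale.Agent.P134

theorem q_boot' : Q_boot := q_boot q_alg q_ge
theorem q_sol' : Q_sol := q_sol q_alg q_boot'
theorem q_sm' : Q_sm := q_sm q_alg q_lim
theorem q_cpt' : Q_cpt := q_cpt q_lim
theorem q_avg' : Q_avg := q_avg q_emb q_cpt' q_tel
theorem r_reg' : R_reg := r_reg q_sol' q_sm'
theorem r_bd' : R_bd := r_bd q_sol' q_sm'
theorem r_lim' : R_lim := r_lim q_cpt' q_unif r_bd'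
theorem r_mod' : R_mod := r_mod r_bd'
theorem r_lt' : R_lt := r_lt r_mod'
theorem r_mon' : R_mon := r_mon q_alg q_boot' q_sol' q_sm' q_log r_bd' r_har
theorem r_pm' : R_pm := r_pm q_emb q_log q_avg' r_lim' r_mon'

theorem r_logb' (n : ℕ) (u : E n → ℝ) (hu : Sol u) (hl : ∀ x, |u x| < 1) :
    ∃ D : ℕ → ℝ, ∀ k, 1 ≤ k → ∀ x, ‖iteratedFDeriv ℝ k (fun x => Real.log (1 + u x)) x‖ ≤ D k ∧
      ‖iteratedFDeriv ℝ k (fun x => Real.log (1 - u x)) x‖ ≤ D k :=
  r_logb q_alg q_boot' q_sol' q_sm' q_log r_mod' n u hu hl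

end Vale.Agent.P134
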