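import Vale.Agent.P134.A2Est
import Vale.Agent.P134.A2Bas
import Vale.Agent.P134.A2Mp
import Vale.Agent.P134.A2Bar
import Vale.Agent.P134.A2Hr
import Vale.Agent.P134.A2Lev
import Vale.Agent.P134.A2Dec
import Vale.Agent.P134.HPW
import Vale.Agent.P134.HRig
import Vale.Agent.P134.HPId
import Vale.Agent.P134.HCut
import Vale.Agent.P134.HOm
import Vale.Agent.P134.RAll

/-! P134, block A2: everything together. -/

namespace Vale.Agent.P134.DG

theorem pw_all (hb : R_bd) : S_PW :=
  pw_pf a2_bas (a2_est hb a2_mp a2_bas) (a2_hr a2_mp a2_bar) (a2_dec a2_bas a2_mp a2_bar a2_lev)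

theorem rig_all (hb : R_bd) : S_Rig := rig_pf (pw_all hb)

theorem pw' : S_PW := pw_all r_bd'

theorem rig' : S_Rig := rig_all r_bd'

theorem om_all : S_Om := om_pf cut_pf

end Vale.Agent.P134.DG
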