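import Vale.Agent.P134.B3Bas
import Vale.Agent.P134.HAll

/-! P134, block B1: the gradient of `v` is Lipschitz. -/

open Filter Topology MeasureTheory Set Metric
open scoped ContDiff RealInnerProductSpace NNReal Laplacian

namespace Vale.Agent.P134.B3

variable {u : X → ℝ} {a : X}

theorem Cx.q_lip (h : Cx u a) : ∃ L : ℝ, 1 ≤ L ∧ ∀ e : X, ‖e‖ = 1 → ∀ x y,
    |qq u e x - qq u e y| ≤ L * ‖x - y‖ := by
  obtain ⟨C, hC0, hC⟩ := a2_est r_bd' a2_mp a2_bas 4 u h.nd
  refine ⟨C + 1, by linarith, fun e he x y => ?_⟩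
  have e1 : qq u e = dv e (vv u) := funext fun x => inner_gradient _ _ _
  have hb : ∀ z, ‖fderiv ℝ (qq u e) z‖ ≤ C + 1 := fun z => by
    refine ContinuousLinearMap.opNorm_le_bound _ (by linarith) fun c => ?_
    have h1 := abs_dv_dv_le (h.bas.smv.contDiffAt.of_le two_le_oo : ContDiffAt ℝ 2 (vv u) z) c e
    have h2 : ‖iteratedFDeriv ℝ 2 (vv u) z‖ ≤ C + 1 := by
      have h3 := (hC z).1
      have h4 := h.bas.s1 z
      nlinarith [norm_nonneg (iteratedFDeriv ℝ 2 (vv u) z)]
    rw [e1]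
    refine h1.trans ?_
    rw [he, mul_one]
    exact mul_le_mul_of_nonneg_right h2 (norm_nonneg _)
  exact (convex_univ.norm_image_sub_le_of_norm_fderiv_le
    (fun z _ => (h.sm_q e).differentiable (by simp) z) (fun z _ => hb z) (mem_univ y) (mem_univ x))

end Vale.Agent.P134.B3
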