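import Vale.Agent.P134.B3Ibp

/-! P134, block B1: the radial weight. -/

open Filter Topology MeasureTheory Set Metric
open scoped ContDiff RealInnerProductSpace NNReal Laplacian

namespace Vale.Agent.P134.B3

variable {u : X → ℝ} {a : X}

namespace B1OmAux

/-- `(1 + t) ^ (-1 / 2)` -/
noncomputable def ii (t : ℝ) : ℝ := (√(1 + t))⁻¹

/-- the profile -/
noncomputable def pf (ρ t : ℝ) : ℝ := ii t ^ 3 * pw 2 ((t / ρ ^ 2) ^ 2)

/-- twice its derivative -/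
noncomputable def pd (ρ t : ℝ) : ℝ :=
  -(3 * ii t ^ 5 * pw 2 ((t / ρ ^ 2) ^ 2) + 8 * ii t ^ 3 * pw 1 ((t / ρ ^ 2) ^ 2) * t / ρ ^ 4)

theorem ii_pos {t : ℝ} (h : 0 ≤ t) : 0 < ii t := by unfold ii; positivity

theorem ii_sq {t : ℝ} (h : 0 ≤ t) : ii t ^ 2 * (1 + t) = 1 := by
  rw [ii, inv_pow, Real.sq_sqrt (by linarith), inv_mul_cancel₀ (by linarith)]

theorem der {ρ t : ℝ} (hρ : ρ ≠ 0) (h : 0 ≤ t) : HasDerivAt (pf ρ) (pd ρ t / 2) t := by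
  have p : √(1 + t) ≠ 0 := by positivity
  have a : HasDerivAt ii _ t :=
    (((hasDerivAt_id' t).const_add 1).sqrt (by positivity)).inv p
  have b := (hasDerivAt_pw 0 _).comp t (((hasDerivAt_id' t).div_const (ρ ^ 2)).fun_pow 2)
  refine ((a.fun_pow 3).mul b).congr_deriv ?_
  simp only [pd, ii, Function.comp]
  norm_num
  field_simp
  ring

theorem scal {ρ r i A B : ℝ} (hρ : 2 ≤ ρ) (hr : 0 ≤ r) (hi : 0 < i) (e : i ^ 2 * (1 + r ^ 2) = 1)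
    (A0 : 0 ≤ A) (A1 : A ≤ 1) (B1 : B ≤ 1) (hB : ρ ≤ r → B = 0)
    (hA : r < 1 → (15 / 16) ^ 2 ≤ A) :
    i ^ 3 * A * r ≤ 1 / (1 + r ^ 2) ∧
    (r < 1 → 2 / 5 - 8 / ρ ^ 3 ≤
      3 * (i ^ 3 * A) + -(3 * i ^ 5 * A + 8 * i ^ 3 * B * r ^ 2 / ρ ^ 4) * r ^ 2) ∧
    -(8 / ρ ^ 3) ≤ 3 * (i ^ 3 * A) + -(3 * i ^ 5 * A + 8 * i ^ 3 * B * r ^ 2 / ρ ^ 4) * r ^ 2 := by
  have ρ0 : 0 < ρ := by linarith
  have ir : i * r ≤ 1 := by nlinarith [sq_nonneg (i * r - 1), sq_nonneg i]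
  have e2 : 3 * (i ^ 3 * A) + -(3 * i ^ 5 * A + 8 * i ^ 3 * B * r ^ 2 / ρ ^ 4) * r ^ 2 =
      3 * (i ^ 5 * A) - 8 * ((i * r) ^ 3 * B * r / ρ ^ 4) := by
    linear_combination (-3 * i ^ 3 * A) * e
  have e3 : (i * r) ^ 3 * B * r / ρ ^ 4 ≤ 1 / ρ ^ 3 := by
    rcases le_total ρ r with h | h
    · rw [hB h, mul_zero, zero_mul, zero_div]
      positivity
    · have a : (i * r) ^ 3 * B ≤ 1 := (mul_le_mul_of_nonneg_left B1 (by positivity)).trans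
        (by rw [mul_one]; exact pow_le_one₀ (by positivity) ir)
      rw [div_le_div_iff₀ (by positivity) (by positivity)]
      have b := mul_le_mul a h hr zero_le_one
      nlinarith [pow_pos ρ0 3]
  have e4 : 8 / ρ ^ 3 = 8 * (1 / ρ ^ 3) := by ring
  refine ⟨?_, fun h => ?_, ?_⟩
  · rw [le_div_iff₀ (by positivity)]
    have a := mul_le_mul ir A1 A0 zero_le_one
    calc _ = i * r * A * (i ^ 2 * (1 + r ^ 2)) := by ring
      _ ≤ 1 := by rw [e]; linarith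
  · have r1 : r ^ 2 ≤ 1 := by nlinarith
    have a : 1 / 2 ≤ i ^ 2 := by nlinarith [sq_nonneg i]
    have b : 7 / 10 ≤ i := by nlinarith
    have c : 7 / 40 ≤ i ^ 5 := by
      have := mul_le_mul (mul_le_mul a a (by norm_num) (sq_nonneg i)) b (by norm_num)
        (by positivity)
      nlinarith
    have d := mul_le_mul c (hA h) (by norm_num) (by positivity)
    rw [e2]
    linarith
  · have : 0 ≤ i ^ 5 * A := by positivity
    rw [e2]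
    linarith

end B1OmAux

open B1OmAux in
theorem exists_om {ρ : ℝ} (hρ : 2 ≤ ρ) (y : X) : ∃ g g' : X → ℝ, Tst g ∧ Continuous g' ∧
    (∀ x c, fderiv ℝ g x c = g' x * ⟪x - y, c⟫) ∧ ∀ x, 0 ≤ g x ∧ g' x ≤ 0 ∧
      g x * ‖x - y‖ ≤ 1 / (1 + ‖x - y‖ ^ 2) ∧ (x ∉ ball y ρ → g x = 0 ∧ g' x = 0) ∧
      (x ∈ ball y 1 → 2 / 5 - 8 / ρ ^ 3 ≤ 3 * g x + g' x * ‖x - y‖ ^ 2) ∧
      -(8 / ρ ^ 3) ≤ 3 * g x + g' x * ‖x - y‖ ^ 2 := by
  have ρ0 : 0 < ρ := by linarith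
  have n : ContDiff ℝ 1 fun x : X => ‖x - y‖ ^ 2 := (contDiff_id.sub contDiff_const).norm_sq ℝ
  have ci : ContDiff ℝ 1 fun x : X => ii (‖x - y‖ ^ 2) :=
    ((contDiff_const.add n).sqrt fun x => by positivity).inv fun x => by positivity
  have far : ∀ r : ℝ, ρ ≤ r → 1 ≤ (r ^ 2 / ρ ^ 2) ^ 2 := fun r h =>
    one_le_pow₀ ((one_le_div (by positivity)).2 (pow_le_pow_left₀ ρ0.le h 2))
  have z : ∀ x : X, ρ ≤ ‖x - y‖ → pf ρ (‖x - y‖ ^ 2) = 0 ∧ pd ρ (‖x - y‖ ^ 2) = 0 := fun x h => by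
    simp [pf, pd, pw_zero 1 (far _ h), show pw 1 _ = 0 from pw_zero 0 (far _ h)]
  refine ⟨fun x => pf ρ (‖x - y‖ ^ 2), fun x => pd ρ (‖x - y‖ ^ 2),
    ⟨(ci.pow 3).mul ((contDiff_pw 0).comp ((n.div_const _).pow 2)),
      HasCompactSupport.intro (isCompact_closedBall y ρ) fun x hx => (z x ?_).1⟩, ?_,
    fun x c => ?_, fun x => ?_⟩
  · rw [mem_closedBall_iff_norm, not_le] at hx
    exact hx.le
  · have a := ci.continuous
    have b := continuous_pw 1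
    have c := continuous_pw 2
    unfold pd
    fun_prop
  · have h := ((hasFDerivAt_id x).sub_const y).norm_sq
    simp only [id] at h
    rw [fderiv_comp1 (der ρ0.ne' (sq_nonneg _)) h.differentiableAt, h.fderiv]
    simp [inner_sub_left]
    ring
  have i0 := ii_pos (sq_nonneg ‖x - y‖)
  have A0 := pw_nonneg 2 ((‖x - y‖ ^ 2 / ρ ^ 2) ^ 2)
  have B0 := pw_nonneg 1 ((‖x - y‖ ^ 2 / ρ ^ 2) ^ 2)
  obtain ⟨h1, h2, h3⟩ := scal hρ (norm_nonneg (x - y)) i0 (ii_sq (sq_nonneg _)) A0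
    (pw_le_one 2 (sq_nonneg _)) (pw_le_one 1 (sq_nonneg _)) (fun h => pw_zero 0 (far _ h))
    fun h => by
      have a : ‖x - y‖ ^ 2 / ρ ^ 2 ≤ 1 / 4 := by
        rw [div_le_iff₀ (by positivity)]
        nlinarith [norm_nonneg (x - y)]
      have b := pow_le_pow_left₀ (by positivity) a 2
      exact pow_le_pow_left₀ (by norm_num) (le_max_of_le_left (by linarith)) 2
  refine ⟨mul_nonneg (by positivity) A0, neg_nonpos.2 (by positivity), h1, fun h => z x ?_,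
    fun h => h2 (mem_ball_iff_norm.1 h), h3⟩
  rwa [mem_ball_iff_norm, not_lt] at h

end Vale.Agent.P134.B3
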