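import Vale.Agent.P134.B1Str
import Vale.Agent.P134.B1Om

/-! P134, block B1: the weighted monotonicity formula. -/

open Filter Topology MeasureTheory Set Metric
open scoped ContDiff RealInnerProductSpace NNReal Laplacian

namespace Vale.Agent.P134.B3

variable {u : X → ℝ} {a : X}

theorem B1MonoAux.pt {g g' F s D n A B m k e : ℝ} (s0 : 0 ≤ s) (s1 : s ≤ 1) (hF : 0 ≤ F)
    (hD : 0 ≤ D) (hg : 0 ≤ g) (hg' : g' ≤ 0) (hn : g * n ≤ 1 / (1 + n ^ 2)) (hA : A * m ≤ D * n)
    (hB : -(D * n) ≤ B) (hk : 0 ≤ k) (he : 0 ≤ e) (hW : 2 * e - k ≤ 3 * g + g' * n ^ 2) :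
    (F * (g' * m) + g * A) * m + F * g * (1 - s) -
      (2 - s) / 2 * (F * (g' * n ^ 2) + g * B + 4 * (F * g)) ≤
      2 * (D / (1 + n ^ 2)) + k * F - e * F := by
  have a1 : F * g' * m ^ 2 ≤ 0 :=
    mul_nonpos_of_nonpos_of_nonneg (mul_nonpos_of_nonneg_of_nonpos hF hg') (sq_nonneg m)
  have a2 := mul_le_mul_of_nonneg_left hA hg
  have a3 := mul_le_mul_of_nonneg_left hB (by nlinarith : 0 ≤ (2 - s) / 2 * g)
  have a4 := mul_le_mul_of_nonneg_left hn hD
  have a5 := mul_le_mul_of_nonneg_left hW (by nlinarith : 0 ≤ (2 - s) / 2 * F)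
  have a6 : 0 ≤ F * g * s := by positivity
  have a7 : 0 ≤ s * k * F := by positivity
  have a8 : 0 ≤ (1 - s) * e * F := by have := sub_nonneg.2 s1; positivity
  have a9 : -(s * (D * (g * n))) ≤ s * (D * (1 / (1 + n ^ 2)) - D * (g * n)) := by
    have : 0 ≤ s * (D * (1 / (1 + n ^ 2))) := by positivity
    linarith
  have a10 := mul_le_mul_of_nonneg_left a4 (by linarith : 0 ≤ 2 - s / 2)
  have a11 : 0 ≤ s * (D * (1 / (1 + n ^ 2))) := by positivity
  rw [div_eq_mul_one_div D]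
  linarith

theorem Cx.mono_at (h : Cx u a) {F : X → ℝ} (hF : ContDiff ℝ 1 F) (h0 : ∀ x, 0 ≤ F x) (y : X)
    {ρ : ℝ} (hρ : 2 ≤ ρ) : ∫ x in ball y 1, rr u x * F x ≤
      40 / ρ ^ 3 * (∫ x in ball y ρ, rr u x * F x) +
        10 * ∫ x in ball y ρ, rr u x * ‖fderiv ℝ F x‖ / (1 + ‖x - y‖ ^ 2) := by
  obtain ⟨g, g', tg, -, dg, hg⟩ := exists_om hρ y
  have tf := tg.mul hF
  have df : ∀ x c, fderiv ℝ (fun x => F x * g x) x c =
      F x * (g' x * ⟪x - y, c⟫) + g x * fderiv ℝ F x c := fun x c => by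
    rw [← dg]
    exact dv_mul (hF.differentiable one_ne_zero x) (tg.c1.differentiable one_ne_zero x) c
  have c1 := h.sm_r.continuous
  have c2 := h.sm_p.continuous
  have c3 : Continuous (ss u) := by
    rw [show ss u = fun x => 1 - ‖pp u x‖ ^ 2 from funext (ss_eq u)]
    fun_prop
  have c4 := tf.c1.continuous_fderiv one_ne_zero
  have c5 := hF.continuous
  have c6 := tg.c1.continuous
  have c7 := hF.continuous_fderiv one_ne_zero
  have i1 : ∀ r, IntegrableOn (fun x => rr u x * F x) (ball y r) := intOn_ball (c1.mul c5) y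
  have i2 : IntegrableOn (fun x => rr u x * ‖fderiv ℝ F x‖ / (1 + ‖x - y‖ ^ 2)) (ball y ρ) :=
    intOn_ball (Continuous.div (by fun_prop) (by fun_prop) fun x => by positivity) y ρ
  have k := h.stress_at tf y
  rw [← setIntegral_eq_integral_of_forall_compl_eq_zero (s := ball y ρ) fun x hx => by
    simp [df, (hg x).2.2.2.1 hx]] at k
  have i3 : IntegrableOn (fun x => 2 * (rr u x * ‖fderiv ℝ F x‖ / (1 + ‖x - y‖ ^ 2)) +
      8 / ρ ^ 3 * (rr u x * F x)) (ball y ρ) := (i2.const_mul 2).add ((i1 ρ).const_mul _)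
  have i4 := ((i1 ρ).indicator (t := ball y 1) measurableSet_ball).const_mul (1 / 5)
  have l := k.symm.trans_le (setIntegral_mono (intOn_ball (by fun_prop) y ρ) (i3.sub i4)
    fun x => ?_)
  · simp only [Pi.sub_apply] at l
    rw [integral_sub i3 i4, integral_add (i2.const_mul 2) ((i1 ρ).const_mul _), integral_const_mul,
      integral_const_mul, integral_const_mul, setIntegral_indicator measurableSet_ball,
      inter_eq_right.2 (ball_subset_ball (by linarith))] at l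
    rw [show 40 / ρ ^ 3 = 5 * (8 / ρ ^ 3) by ring]
    linarith
  obtain ⟨g0, g1, g2, -, g3, g4⟩ := hg x
  have b1 : fderiv ℝ F x (pp u x) * ⟪x - y, pp u x⟫ ≤ ‖fderiv ℝ F x‖ * ‖x - y‖ :=
    (le_abs_self _).trans ((abs_mul _ _).trans_le (mul_le_mul
      (((fderiv ℝ F x).le_opNorm _).trans (mul_le_of_le_one_right (norm_nonneg _) (h.p_le x)))
      ((abs_real_inner_le_norm _ _).trans (mul_le_of_le_one_right (norm_nonneg _) (h.p_le x)))
      (abs_nonneg _) (norm_nonneg _)))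
  have b2 : -(‖fderiv ℝ F x‖ * ‖x - y‖) ≤ fderiv ℝ F x (x - y) :=
    (abs_le.1 ((fderiv ℝ F x).le_opNorm _)).1
  have hk : 0 ≤ 8 / ρ ^ 3 := by positivity
  simp only [Pi.sub_apply, df, real_inner_self_eq_norm_sq]
  by_cases hx : x ∈ ball y 1
  · rw [indicator_of_mem hx]
    refine (mul_le_mul_of_nonneg_left (B1MonoAux.pt (e := 1 / 5) (h.bas.s0 x) (h.bas.s1 x) (h0 x)
      (norm_nonneg _) g0 g1 g2 b1 b2 hk (by norm_num) (by linarith [g3 hx]))
      (h.r_pos x).le).trans (le_of_eq (by ring))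
  · rw [indicator_of_notMem hx]
    refine (mul_le_mul_of_nonneg_left (B1MonoAux.pt (e := 0) (h.bas.s0 x) (h.bas.s1 x) (h0 x)
      (norm_nonneg _) g0 g1 g2 b1 b2 hk le_rfl (by linarith)) (h.r_pos x).le).trans
      (le_of_eq (by ring))

end Vale.Agent.P134.B3
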