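import Vale.Agent.P134.B3Defs

/-! P134, block B1: the numerical iteration. -/

open Filter Topology MeasureTheory Set Metric
open scoped ContDiff RealInnerProductSpace NNReal Laplacian

namespace Vale.Agent.P134.B3

variable {u : X → ℝ} {a : X}

theorem seq_lemma {D : ℝ} (hD : 2 ≤ D) : ∃ ε : ℝ, 0 < ε ∧ ∀ (R : ℝ) (b : ℕ → ℝ), 0 < R →
    (∀ j, 0 ≤ b j) → b 0 ≤ ε * R ^ 3 →
    (∀ (j : ℕ) (ρ : ℝ), 2 ≤ ρ → D ^ (j + 1) * b j ≤ ρ ^ 3 →
      b (j + 1) ≤ D ^ (j + 1) * ρ ^ 2 / R ^ 2 * b j) → ∃ j, b j ≤ 32 / R ^ 2 := by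
  have D0 : 0 < D := by linarith
  have D1 : 1 ≤ D := by linarith
  refine ⟨1 / D ^ 10, by positivity, fun R b hR hb h0 hs => ?_⟩
  by_contra hc
  push Not at hc
  have key : ∀ j : ℕ, b j ≤ 1 / D ^ 10 * R ^ 3 / (D ^ 4) ^ j := fun j => by
    induction j with
    | zero => simpa using h0
    | succ j ih =>
      have a1 : D ^ (j + 1) * b j ≤ (R / (D ^ 3 * D ^ j)) ^ 3 :=
        (mul_le_mul_of_nonneg_left ih (by positivity)).trans_eq (by
          rw [← pow_mul, mul_comm 4 j, pow_mul]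
          field_simp
          ring)
      rcases le_total 2 (R / (D ^ 3 * D ^ j)) with k | k
      · refine (hs j _ k a1).trans ?_
        have a2 : D ^ (j + 1) * (R / (D ^ 3 * D ^ j)) ^ 2 / R ^ 2 ≤ 1 / D ^ 4 := by
          rw [show D ^ (j + 1) * (R / (D ^ 3 * D ^ j)) ^ 2 / R ^ 2 = 1 / (D ^ 4 * D ^ (j + 1)) by
            field_simp
            ring]
          exact one_div_le_one_div_of_le (by positivity)
            (le_mul_of_one_le_right (by positivity) (one_le_pow₀ D1))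
        refine (mul_le_mul a2 ih (hb j) (by positivity)).trans_eq ?_
        rw [pow_succ (D ^ 4)]
        field_simp
      · have a2 := a1.trans (pow_le_pow_left₀ (by positivity) k 3)
        refine absurd ((hs j 2 le_rfl a2).trans ?_) (hc (j + 1)).not_ge
        rw [div_mul_eq_mul_div, mul_right_comm]
        exact div_le_div_of_nonneg_right (by linarith) (by positivity)
  obtain ⟨n, hn⟩ := pow_unbounded_of_one_lt (1 / D ^ 10 * R ^ 3 / (32 / R ^ 2))
    (one_lt_pow₀ (by linarith : 1 < D) (by norm_num : 4 ≠ 0))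
  rw [div_lt_iff₀' (by positivity), ← div_lt_iff₀ (by positivity)] at hn
  exact absurd ((hc n).trans_le (key n)) hn.not_gt

end Vale.Agent.P134.B3
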