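import Vale.Agent.P134.B1Fub
import Vale.Agent.P134.B1Har

/-! P134, block B1: the Sobolev inequality. -/

open Filter Topology MeasureTheory Set Metric
open scoped ContDiff RealInnerProductSpace NNReal Laplacian

namespace Vale.Agent.P134.B3

variable {u : X → ℝ} {a : X}

namespace B1SobAux

theorem meas {r : X → ℝ} (hr : Continuous r) {A : Set X} (hA : MeasurableSet A) :
    StronglyMeasurable fun x : X => ∫ y in A ∩ ball x 1, r y := by
  have hS : MeasurableSet {p : X × X | p.2 ∈ A ∩ ball p.1 1} :=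
    (measurable_snd hA).inter (isOpen_lt (by fun_prop) continuous_const).measurableSet
  have h := ((hr.comp continuous_snd).stronglyMeasurable.indicator hS).integral_prod_right'
    (ν := volume)
  refine (show (fun x : X => ∫ y in A ∩ ball x 1, r y) = _ from funext fun x => ?_) ▸ h
  rw [← integral_indicator (hA.inter measurableSet_ball)]
  rfl

theorem alg {N D Q Y m c Cf K t ρ : ℝ} (hN : 0 ≤ N) (hD : 0 ≤ D) (hm0 : 0 ≤ m) (hc : 0 < c)
    (hK : 0 < K) (e : 2 * c * K = 9 * Cf) (ht : 0 < t) (ht1 : t ≤ 1) (hρ : 2 ≤ ρ)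
    (h1 : N ≤ D + 9 / 2 * Q) (h2 : c * t * Q ≤ Cf / ρ ^ 3 * m * N + Cf * ρ * Y)
    (h3 : Y ≤ t / (4 * K * ρ) * N + 4 * K * ρ / t * D)
    (hm : (4 * K + 8 * K ^ 2 + 2) * m ≤ t * ρ ^ 3) :
    N ≤ (4 * K + 8 * K ^ 2 + 2) * ρ ^ 2 / t ^ 2 * D := by
  have hρ0 : 0 < ρ := by linarith
  obtain rfl : Cf = 2 * c * K / 9 := by linarith
  have a1 : 9 / 2 * Q ≤ K * m / (t * ρ ^ 3) * N + K * ρ / t * Y := by
    refine le_of_mul_le_mul_left (le_of_eq_of_le ?_ (h2.trans_eq ?_)) (a := 2 / 9 * c * t)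
      (by positivity)
    · ring
    · field_simp
  have a2 : K * m / (t * ρ ^ 3) ≤ 1 / 4 := by
    rw [div_le_iff₀ (by positivity)]
    nlinarith [mul_nonneg (sq_nonneg K) hm0]
  have a3 : K * ρ / t * Y ≤ N / 4 + 4 * K ^ 2 * (ρ ^ 2 / t ^ 2 * D) := by
    refine (mul_le_mul_of_nonneg_left h3 (by positivity)).trans_eq ?_
    field_simp
  have a4 : D ≤ ρ ^ 2 / t ^ 2 * D := by
    refine le_mul_of_one_le_left hD ((one_le_div (by positivity)).2 ?_)
    exact pow_le_pow_left₀ ht.le (by linarith) 2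
  have a5 := mul_le_mul_of_nonneg_right a2 hN
  have a6 := mul_nonneg hK.le (hD.trans a4)
  rw [mul_div_assoc, mul_assoc]
  linarith

end B1SobAux

theorem Cx.sob (h : Cx u a) : ∃ C : ℝ, 1 ≤ C ∧ ∀ (f : X → ℝ) (A : Set X) (κ ρ : ℝ), Tst f →
    MeasurableSet A → Bornology.IsBounded A → 0 < κ → κ ≤ 1 → 2 ≤ ρ →
    (∀ x, f x ≠ 0 → ball x κ ⊆ A) → C * ∫ y in A, rr u y ≤ κ ^ 4 * ρ ^ 3 →
    ∫ x, rr u x * f x ^ 2 ≤ C * ρ ^ 2 / κ ^ 8 * ∫ x, rr u x * ‖fderiv ℝ f x‖ ^ 2 := by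
  obtain ⟨c, hc, hl⟩ := h.r_low
  obtain ⟨Cf, hCf, hf⟩ := h.fub
  obtain ⟨K, hK, e⟩ : ∃ K : ℝ, 0 < K ∧ 2 * c * K = 9 * Cf :=
    ⟨9 * Cf / (2 * c), by positivity, mul_div_cancel₀ _ (by positivity)⟩
  refine ⟨4 * K + 8 * K ^ 2 + 2, by nlinarith, fun f A κ ρ t hA hb hκ hκ1 hρ hs hm => ?_⟩
  have rc := h.sm_r.continuous
  have r0 := fun x => (h.r_pos x).le
  have tF : Tst fun x => f x ^ 2 := by simpa only [sq] using t.mul t.c1
  have iA : IntegrableOn (rr u) A := by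
    obtain ⟨R, hR⟩ := hb.subset_ball 0
    exact (intOn_ball rc 0 R).mono_set hR
  have iN := tF.int rc
  have dc := t.c1.continuous_fderiv one_ne_zero
  have iD : Integrable fun x => rr u x * ‖fderiv ℝ f x‖ ^ 2 :=
    (rc.mul (dc.norm.pow 2)).integrable_of_hasCompactSupport
      ((t.cs.fderiv ℝ).mono fun x hx e => hx (by simp [e]))
  have g0 : ∀ S : Set X, 0 ≤ ∫ y in S, rr u y := fun S => integral_nonneg r0
  rw [show κ ^ 8 = (κ ^ 4) ^ 2 by ring]
  refine B1SobAux.alg (integral_nonneg fun x => mul_nonneg (r0 x) (sq_nonneg _))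
    (integral_nonneg fun x => mul_nonneg (r0 x) (sq_nonneg _)) (g0 A) hc hK e (pow_pos hκ 4)
    (pow_le_one₀ hκ.le hκ1) hρ (h.hardy t)
    (le_trans ?_ (hf _ A ρ tF (fun x => sq_nonneg _) hA hb hρ)) ?_ hm
  · rw [← integral_const_mul]
    refine integral_mono ((tF.int (rc.pow 2)).const_mul _)
      (iN.mul_bdd (c := ∫ y in A, rr u y) (B1SobAux.meas rc hA).aestronglyMeasurable
        (Eventually.of_forall fun x => ?_)) fun x => ?_
    · rw [Real.norm_of_nonneg (g0 _)]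
      exact setIntegral_mono_set iA (Eventually.of_forall r0) inter_subset_left.eventuallyLE
    · by_cases hx : f x = 0
      · simp [hx]
      · have k := (hl x κ hκ hκ1).trans (setIntegral_mono_set (iA.mono_set inter_subset_left)
          (Eventually.of_forall r0)
          (subset_inter (hs x hx) (ball_subset_ball hκ1)).eventuallyLE)
        exact le_of_eq_of_le (by ring)
          (mul_le_mul_of_nonneg_left k (mul_nonneg (r0 x) (sq_nonneg (f x))))
  · rw [← integral_const_mul, ← integral_const_mul, ← integral_add (iN.const_mul _) (iD.const_mul _)]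
    refine integral_mono_of_nonneg (Eventually.of_forall fun x => mul_nonneg (r0 x) (norm_nonneg _))
      ((iN.const_mul _).add (iD.const_mul _)) (Eventually.of_forall fun x => ?_)
    have hρ0 : 0 < ρ := by linarith
    obtain ⟨l, hl0, e1, e2⟩ : ∃ l : ℝ, 0 < l ∧ κ ^ 4 / (4 * K * ρ) = l ∧ 4 * K * ρ / κ ^ 4 = l⁻¹ :=
      ⟨_, by positivity, rfl, (inv_div _ _).symm⟩
    have e3 : fderiv ℝ (fun x => f x ^ 2) x = _ :=
      fderiv_comp1 (hasDerivAt_pow 2 (f x)) (t.c1.differentiable one_ne_zero x)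
    have e4 : 2 * |f x| * ‖fderiv ℝ f x‖ ≤ l * f x ^ 2 + l⁻¹ * ‖fderiv ℝ f x‖ ^ 2 := by
      rw [← sq_abs (f x)]
      exact two_mul_le_add_mul_sq hl0
    simp only [e1, e2, e3, norm_smul, Real.norm_eq_abs, Nat.cast_ofNat, Nat.add_one_sub_one,
      pow_one, abs_mul, abs_two]
    exact (mul_le_mul_of_nonneg_left e4 (r0 x)).trans_eq (by ring)

end Vale.Agent.P134.B3
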