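import Vale.Agent.P134.B1Sob
import Vale.Agent.P134.B1Cac
import Vale.Agent.P134.B1Cut

/-! P134, block B1: one step of the iteration. -/

open Filter Topology MeasureTheory Set Metric
open scoped ContDiff RealInnerProductSpace NNReal Laplacian

namespace Vale.Agent.P134.B3

variable {u : X → ℝ} {a : X}

/-- the truncated excess -/
noncomputable def bq (u : X → ℝ) (e : X) (k r : ℝ) : ℝ :=
  ∫ x in ball (0 : X) r, rr u x * max (k - qq u e x) 0 ^ 3

theorem Cx.step (h : Cx u a) {L : ℝ} (hL1 : 1 ≤ L)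
    (hL : ∀ e : X, ‖e‖ = 1 → ∀ x y, |qq u e x - qq u e y| ≤ L * ‖x - y‖) :
    ∃ C : ℝ, 1 ≤ C ∧ ∀ (e : X) (k k' r r' ρ : ℝ), ‖e‖ = 1 →
    3 / 4 ≤ k' → k' < k → k ≤ 1 → 0 ≤ r' → k - k' ≤ r - r' → 2 ≤ ρ →
    C * bq u e k r ≤ (k - k') ^ 7 * ρ ^ 3 →
    bq u e k' r' ≤ C * ρ ^ 2 / ((k - k') ^ 8 * (r - r') ^ 2) * bq u e k r := by
  obtain ⟨Cs, s1, hs⟩ := h.sob
  obtain ⟨Cc, c0, hc⟩ := exists_cut
  have L0 : 0 < L := by linarith
  have p1 : 0 ≤ 128 * L ^ 4 * Cs := by positivity
  have p2 : 0 ≤ 7168 * L ^ 8 * Cs * Cc ^ 2 := by positivity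
  refine ⟨128 * L ^ 4 * Cs + 7168 * L ^ 8 * Cs * Cc ^ 2 + 1, by linarith,
    fun e k k' r r' ρ he k1 k2 k3 r0 hr hρ hb => ?_⟩
  obtain ⟨d, rfl⟩ : ∃ d, k = k' + d := ⟨k - k', by ring⟩
  obtain ⟨W, rfl⟩ : ∃ W, r = r' + 2 * W := ⟨(r - r') / 2, by ring⟩
  simp only [add_sub_cancel_left] at hr hb ⊢
  have d0 : 0 < d := by linarith
  have W0 : 0 < W := by linarith
  have cq := (h.sm_q e).continuous
  have cr := h.sm_r.continuous
  have r1 := fun x => (h.r_pos x).le
  have cF : Continuous fun x => rr u x * max (k' + d - qq u e x) 0 ^ 3 := by fun_prop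
  have F0 : ∀ x, 0 ≤ rr u x * max (k' + d - qq u e x) 0 ^ 3 := fun x => by
    have := r1 x; positivity
  have b0 : 0 ≤ bq u e (k' + d) (r' + 2 * W) := integral_nonneg F0
  obtain ⟨η, hη, η1, η2⟩ := hc r' W r0 W0
  obtain ⟨hf, hcac⟩ := h.cac he k1 hη
  have hκ : d / (2 * L) ≤ d / 2 := by gcongr; linarith
  set A := ball (0 : X) (r' + 2 * W) ∩ {x | qq u e x < k' + d / 2}
  have mA : MeasurableSet A :=
    measurableSet_ball.inter (isOpen_lt cq continuous_const).measurableSet
  have a1 : (∫ y in A, rr u y) * (d / 2) ^ 3 ≤ bq u e (k' + d) (r' + 2 * W) := by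
    rw [← integral_mul_const]
    refine (setIntegral_mono_on ((intOn_ball (by fun_prop) 0 _).mono_set inter_subset_left)
      ((intOn_ball cF 0 _).mono_set inter_subset_left) mA fun x hx => ?_).trans
      (setIntegral_mono_set (intOn_ball cF 0 _) (Eventually.of_forall F0)
        inter_subset_left.eventuallyLE)
    have : qq u e x < k' + d / 2 := hx.2
    exact mul_le_mul_of_nonneg_left (pow_le_pow_left₀ (by positivity)
      (le_max_of_le_left (by linarith)) 3) (r1 x)
  have a2 := hs _ A (d / (2 * L)) ρ hf mA (isBounded_ball.subset inter_subset_left)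
    (by positivity) (by linarith) hρ (fun x hx y hy => ?_) ?_
  · have a3 : bq u e k' r' ≤ ∫ x, rr u x * ((k' - qq u e x) ^ (3 / 2 : ℝ) * η x) ^ 2 := by
      refine le_of_eq_of_le (setIntegral_congr_fun measurableSet_ball fun x hx => ?_)
        (setIntegral_le_integral (s := ball 0 r') ?_ (Eventually.of_forall fun x => ?_))
      · simp only [η1 x hx, mul_one, rpow_sq]
      · simpa only [sq, mul_assoc] using hf.int (cr.fun_mul hf.c1.continuous)
      · exact mul_nonneg (r1 x) (sq_nonneg _)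
    have cη := hη.c1.continuous_fderiv one_ne_zero
    have a4 : ∫ x, rr u x * max (k' - qq u e x) 0 ^ 3 * ‖fderiv ℝ η x‖ ^ 2 ≤
        bq u e (k' + d) (r' + 2 * W) * (Cc / W) ^ 2 := by
      rw [bq, ← integral_mul_const, ← setIntegral_eq_integral_of_forall_compl_eq_zero
        (s := ball (0 : X) (r' + 2 * W)) fun x hx => by
          rw [((η2 x).2 fun k => hx (closedBall_subset_ball (by linarith) k)).2]
          simp]
      refine setIntegral_mono_on (intOn_ball (by fun_prop) 0 _) (intOn_ball (by fun_prop) 0 _)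
        measurableSet_ball fun x _ => mul_le_mul (mul_le_mul_of_nonneg_left
          (pow_le_pow_left₀ (le_max_right _ _) (max_le_max (by linarith) le_rfl) 3) (r1 x))
          (pow_le_pow_left₀ (norm_nonneg _) (η2 x).1 2) (sq_nonneg _) (F0 x)
    calc _ ≤ Cs * ρ ^ 2 / (d / (2 * L)) ^ 8 * (7 * (bq u e (k' + d) (r' + 2 * W) * (Cc / W) ^ 2)) :=
          a3.trans (a2.trans (mul_le_mul_of_nonneg_left (hcac.trans (by linarith)) (by positivity)))
      _ = 7168 * L ^ 8 * Cs * Cc ^ 2 * ρ ^ 2 / (d ^ 8 * (2 * W) ^ 2) *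
          bq u e (k' + d) (r' + 2 * W) := by
        field_simp
        ring
      _ ≤ _ := by gcongr; linarith
  · have y1 := mem_ball_iff_norm.1 hy
    have x1 : x ∈ closedBall (0 : X) (r' + W) := by
      by_contra k
      exact hx (by simp only [((η2 x).2 k).1, mul_zero])
    have x2 : qq u e x < k' := by
      by_contra k
      have := rpow_sq (k' - qq u e x)
      rw [max_eq_right (by linarith), zero_pow three_ne_zero, pow_eq_zero_iff two_ne_zero] at this
      exact hx (by simp only [this, zero_mul])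
    have y2 := (abs_le.1 (hL e he y x)).2
    have y3 := mul_le_mul_of_nonneg_left y1.le L0.le
    rw [show L * (d / (2 * L)) = d / 2 by field_simp] at y3
    refine ⟨mem_ball_zero_iff.2 ?_, show qq u e y < k' + d / 2 by linarith⟩
    linarith [mem_closedBall_zero_iff.1 x1, norm_le_norm_add_norm_sub' y x]
  · have t1 : 128 * L ^ 4 * Cs * bq u e (k' + d) (r' + 2 * W) ≤ d ^ 7 * ρ ^ 3 :=
      (mul_le_mul_of_nonneg_right (by linarith) b0).trans hb
    have t2 := (mul_le_mul_of_nonneg_left a1 p1).trans t1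
    rw [div_pow, div_mul_eq_mul_div, le_div_iff₀ (by positivity)]
    refine le_of_mul_le_mul_right ?_ (pow_pos d0 3)
    linarith

end Vale.Agent.P134.B3
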