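import Vale.Agent.P134.B3Str

/-! P134, block B1: the stress tensor at an arbitrary centre. -/

open Filter Topology MeasureTheory Set Metric
open scoped ContDiff RealInnerProductSpace NNReal Laplacian

namespace Vale.Agent.P134.B3

variable {u : X → ℝ} {a : X}

namespace B1StrAux

/-- the components of the stress tensor applied to `c` -/
noncomputable def g (u : X → ℝ) (c : X) (i : Fin 4) (y : X) : ℝ :=
  (∑ j, c j * dv (ev j) u y) * dv (ev i) u y -
    ((∑ j, dv (ev j) u y * dv (ev j) u y) * 2⁻¹ + (1 - u y * u y) * (1 - u y * u y) * 4⁻¹) * c i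

theorem sm (hu : ContDiff ℝ ∞ u) (c : X) (i : Fin 4) : ContDiff ℝ ∞ (g u c i) := by
  have hU := smooth_dv hu
  exact ((ContDiff.sum fun j _ => contDiff_const.mul (hU _)).mul (hU _)).sub
    ((((ContDiff.sum fun j _ => (hU _).mul (hU _)).mul contDiff_const).add
      (((contDiff_const.sub (hu.mul hu)).mul (contDiff_const.sub (hu.mul hu))).mul
        contDiff_const)).mul contDiff_const)

theorem d (hu : ContDiff ℝ ∞ u) (c : X) (i : Fin 4) (x b : X) : fderiv ℝ (g u c i) x b =
    (∑ j, c j * dv (ev j) u x) * dv b (dv (ev i) u) x +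
      dv (ev i) u x * (∑ j, c j * dv b (dv (ev j) u) x) -
      c i * ((∑ j, dv (ev j) u x * dv b (dv (ev j) u) x) + (u x ^ 3 - u x) * dv b u x) := by
  have hU : ∀ j, HasFDerivAt (dv (ev j) u) (fderiv ℝ (dv (ev j) u) x) x := fun j =>
    ((smooth_dv hu _).differentiable (by simp) x).hasFDerivAt
  have h0 := (hu.differentiable (by simp) x).hasFDerivAt
  have h1 := (h0.fun_mul h0).const_sub 1
  have k := ((HasFDerivAt.fun_sum (u := Finset.univ) fun j _ => (hU j).const_mul (c j)).fun_mul
    (hU i)).fun_sub ((((HasFDerivAt.fun_sum (u := Finset.univ) fun j _ =>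
      (hU j).fun_mul (hU j)).mul_const 2⁻¹).fun_add ((h1.fun_mul h1).mul_const 4⁻¹)).mul_const
        (c i))
  rw [show fderiv ℝ (g u c i) x = _ from k.fderiv]
  simp only [Fin.sum_univ_four, sub_apply, add_apply, smul_apply, neg_apply, smul_eq_mul, dv]
  ring

theorem dg (hu : Sol u) (c x : X) : ∑ i, fderiv ℝ (g u c i) x (ev i) = 0 := by
  have h2 : ContDiffAt ℝ 2 u x := (hu.sm.of_le two_le_oo).contDiffAt
  have e := hu.eq x
  have s := fun i j : Fin 4 => dv_comm h2 (ev i) (ev j)
  rw [lap_eq h2, Fin.sum_univ_four] at e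
  simp only [d hu.sm, Fin.sum_univ_four]
  rw [s 1 0, s 2 0, s 3 0, s 2 1, s 3 1, s 3 2, ← e]
  ring

end B1StrAux

theorem Cx.stress_c (h : Cx u a) {f : X → ℝ} (hf : Tst f) (c : X) :
    ∫ x, rr u x * (fderiv ℝ f x (pp u x) * ⟪c, pp u x⟫ - (2 - ss u x) / 2 * fderiv ℝ f x c) = 0 := by
  have hu := h.nd.sol
  have g1 : ∀ i, ContDiff ℝ 1 (B1StrAux.g u c i) := fun i =>
    (B1StrAux.sm hu.sm c i).of_le one_le_oo
  have i1 : ∀ i, Integrable fun x => f x * fderiv ℝ (B1StrAux.g u c i) x (ev i) := fun i => by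
    simpa only [mul_comm, dv] using hf.int (contDiff_dv (m := 0) (g1 i) (by simp) (ev i)).continuous
  have i2 : ∀ i, Integrable fun x => fderiv ℝ f x (ev i) * B1StrAux.g u c i x := fun i => by
    simpa only [mul_comm] using hf.int_d (g1 i).continuous (continuous_const (y := ev i))
  have e : ∀ x, rr u x * (fderiv ℝ f x (pp u x) * ⟪c, pp u x⟫ -
      (2 - ss u x) / 2 * fderiv ℝ f x c) =
      ∑ i, (f x * fderiv ℝ (B1StrAux.g u c i) x (ev i) +
        fderiv ℝ f x (ev i) * B1StrAux.g u c i x) := by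
    intro x
    have e1 : ∀ i, dv (ev i) u x = PP u x * pp u x i := fun i => by
      rw [dv, h.du, ev, EuclideanSpace.inner_single_right]
      simp
    have e2 : fderiv ℝ f x (pp u x) = _ := dv_eq_sum (pp u x) f x
    have e3 : fderiv ℝ f x c = _ := dv_eq_sum c f x
    have e4 : ⟪c, pp u x⟫ = ∑ i, c i * pp u x i := by simp [PiLp.inner_apply, mul_comm]
    have e5 : ss u x = 1 - ∑ i, pp u x i ^ 2 := by
      rw [ss_eq, EuclideanSpace.real_norm_sq_eq]
    have e6 : (1 - u x * u x) * (1 - u x * u x) = 2 * PP u x ^ 2 := by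
      have := rr_eq u x
      rw [rr] at this
      linarith
    rw [Finset.sum_add_distrib, ← Finset.mul_sum, B1StrAux.dg hu, e2, e3, e4, e5, rr]
    simp only [B1StrAux.g, e1, e6, Fin.sum_univ_four]
    simp only [dv]
    ring
  simp only [e]
  rw [integral_finsetSum _ fun i _ => by exact (i1 i).add (i2 i)]
  refine Finset.sum_eq_zero fun i _ => ?_
  rw [integral_add (i1 i) (i2 i), ibp hf (g1 i), neg_add_cancel]

theorem Cx.stress_at (h : Cx u a) {f : X → ℝ} (hf : Tst f) (y : X) :
    ∫ x, rr u x * (fderiv ℝ f x (pp u x) * ⟪x - y, pp u x⟫ + f x * (1 - ss u x) -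
      (2 - ss u x) / 2 * (fderiv ℝ f x (x - y) + 4 * f x)) = 0 := by
  have cr := h.sm_r.continuous
  have cp := h.sm_p.continuous
  have cs : Continuous (ss u) := by
    rw [show ss u = fun x => 1 - ‖pp u x‖ ^ 2 from funext (ss_eq u)]
    fun_prop
  have j1 : ∀ c : X → X, Continuous c → Integrable fun x => rr u x *
      (fderiv ℝ f x (pp u x) * ⟪c x, pp u x⟫ - (2 - ss u x) / 2 * fderiv ℝ f x (c x)) := by
    intro c hc
    refine ((hf.int_d (f := fun x => rr u x * ⟪c x, pp u x⟫) (by fun_prop) cp).sub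
      (hf.int_d (f := fun x => rr u x * ((2 - ss u x) / 2)) (by fun_prop) hc)).congr
        (Eventually.of_forall fun x => ?_)
    simp only [Pi.sub_apply]
    ring
  have j2 : Integrable fun x => rr u x * (fderiv ℝ f x (pp u x) * ⟪x, pp u x⟫ +
      f x * (1 - ss u x) - (2 - ss u x) / 2 * (fderiv ℝ f x x + 4 * f x)) := by
    refine ((j1 (fun x => x) continuous_id).add
      (hf.int (f := fun x => rr u x * (1 - ss u x - 2 * (2 - ss u x))) (by fun_prop))).congr
        (Eventually.of_forall fun x => ?_)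
    simp only [Pi.add_apply]
    ring
  have k := integral_sub j2 (j1 (fun _ => y) continuous_const)
  rw [h.stress hf, h.stress_c hf y, sub_zero] at k
  refine (integral_congr_ae (Eventually.of_forall fun x => ?_)).trans k
  simp only [inner_sub_left, map_sub]
  ring

end Vale.Agent.P134.B3
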