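import Mathlib

/-!
P134, block B2 (first file): energy density, weak solutions, the one-step inequality and the
chain along a monotone family of translates.
-/

open MeasureTheory Filter Topology Set
open scoped NNReal

namespace Vale.Agent.P134.B2

variable {n : ℕ}

/-- Euclidean space. -/
abbrev En (n : ℕ) := EuclideanSpace ℝ (Fin n)

/-- Standard basis vector. -/
noncomputable def bv (i : Fin n) : En n := EuclideanSpace.single i 1

/-- Scalar product of two gradients. -/
noncomputable def gg (f h : En n → ℝ) (x : En n) : ℝ :=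
  ∑ i, fderiv ℝ f x (bv i) * fderiv ℝ h x (bv i)

/-- Allen-Cahn energy density. -/
noncomputable def en (w : En n → ℝ) (x : En n) : ℝ := gg w w x / 2 + (1 - w x ^ 2) ^ 2 / 4

/-- Differentiable Lipschitz weak solutions. -/
structure WS (v : En n → ℝ) : Prop where
  diff : Differentiable ℝ v
  lip : ∃ K : ℝ≥0, LipschitzWith K v
  weak : ∀ (φ : En n → ℝ) (K : ℝ≥0), LipschitzWith K φ → HasCompactSupport φ →
    ∫ x, (gg v φ x + (v x ^ 3 - v x) * φ x) = 0

lemma norm_bv (i : Fin n) : ‖(bv i : En n)‖ = 1 := by simp [bv]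

lemma abs_fderiv_bv_le {f : En n → ℝ} {K : ℝ≥0} (hf : LipschitzWith K f) (x : En n) (i : Fin n) :
    |fderiv ℝ f x (bv i)| ≤ K := by
  have h1 : ‖fderiv ℝ f x‖ ≤ K := norm_fderiv_le_of_lipschitz ℝ hf
  have h2 := (fderiv ℝ f x).le_opNorm (bv i)
  rw [norm_bv, mul_one] at h2
  exact (Real.norm_eq_abs _ ▸ h2).trans h1

lemma measurable_gg (f h : En n → ℝ) : Measurable (gg f h) := by
  unfold gg
  refine Finset.measurable_sum _ fun i _ => ?_
  exact (measurable_fderiv_apply_const ℝ f _).mul (measurable_fderiv_apply_const ℝ h _)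

lemma abs_gg_le {f h : En n → ℝ} {K L : ℝ≥0} (hf : LipschitzWith K f) (hh : LipschitzWith L h)
    (x : En n) : |gg f h x| ≤ n * (K * L) := by
  unfold gg
  refine (Finset.abs_sum_le_sum_abs _ _).trans ?_
  have : ∀ i ∈ (Finset.univ : Finset (Fin n)),
      |fderiv ℝ f x (bv i) * fderiv ℝ h x (bv i)| ≤ (K : ℝ) * L := by
    intro i _
    rw [abs_mul]
    exact mul_le_mul (abs_fderiv_bv_le hf x i) (abs_fderiv_bv_le hh x i) (abs_nonneg _) K.2
  refine (Finset.sum_le_sum this).trans ?_
  simp

lemma integrableOn_gg {f h : En n → ℝ} {K L : ℝ≥0} (hf : LipschitzWith K f)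
    (hh : LipschitzWith L h) {B : Set (En n)} (hB : IsCompact B) :
    IntegrableOn (gg f h) B := by
  refine Measure.integrableOn_of_bounded (M := n * (K * L)) hB.measure_lt_top.ne
    (measurable_gg f h).aestronglyMeasurable ?_
  exact Eventually.of_forall fun x => by rw [Real.norm_eq_abs]; exact abs_gg_le hf hh x

lemma integrableOn_en {w : En n → ℝ} {K : ℝ≥0} (hw : LipschitzWith K w) {B : Set (En n)}
    (hB : IsCompact B) : IntegrableOn (en w) B := by
  have h1 := (integrableOn_gg hw hw hB).div_const 2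
  have hc : Continuous fun x => (1 - w x ^ 2) ^ 2 / 4 := by
    have := hw.continuous
    fun_prop
  exact h1.add (hc.continuousOn.integrableOn_compact hB)

lemma gg_self_nonneg (w : En n → ℝ) (x : En n) : 0 ≤ gg w w x :=
  Finset.sum_nonneg fun _ _ => mul_self_nonneg _

lemma en_nonneg (w : En n → ℝ) (x : En n) : 0 ≤ en w x := by
  unfold en
  have := gg_self_nonneg w x
  positivity

lemma en_congr {f h : En n → ℝ} {x : En n} (e : f =ᶠ[𝓝 x] h) : en f x = en h x := by
  unfold en gg
  rw [e.fderiv_eq, e.self_of_nhds]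

lemma en_neg (w : En n → ℝ) : en (fun x => - w x) = en w := by
  funext x
  unfold en gg
  have : fderiv ℝ (fun x => - w x) x = - fderiv ℝ w x := fderiv_fun_neg
  simp [this]

/-- Derivative of a minimum at a point where the second function is the smaller one. -/
lemma fderiv_min_right {f g : En n → ℝ} {x : En n} (hg : DifferentiableAt ℝ g x)
    (hm : DifferentiableAt ℝ (fun y => min (f y) (g y)) x) (h : g x ≤ f x) :
    fderiv ℝ (fun y => min (f y) (g y)) x = fderiv ℝ g x := by
  have hmax : IsLocalMax (fun y => min (f y) (g y) - g y) x := by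
    refine Eventually.of_forall fun y => ?_
    simp only [min_eq_right h, sub_self, sub_nonpos]
    exact min_le_right _ _
  have h0 := hmax.fderiv_eq_zero
  rw [fderiv_fun_sub hm hg] at h0
  exact sub_eq_zero.1 h0

lemma poly_step (a b : ℝ) :
    (1 - a ^ 2) ^ 2 / 4 + (a ^ 3 - a) * b ≤ (1 - (a + b) ^ 2) ^ 2 / 4 + b ^ 2 / 2 := by
  nlinarith [sq_nonneg (b * (b / 2 + a)), sq_nonneg (a * b)]

/-- The one-step inequality. -/
theorem step {v v' w : En n → ℝ} (hv : WS v) {K' Kw : ℝ≥0} (hv' : LipschitzWith K' v')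
    (hw : LipschitzWith Kw w) (hle : ∀ x, v x ≤ v' x) {B : Set (En n)} (hB : IsCompact B)
    (hout : ∀ x, x ∉ B → w x ≤ v x) :
    ∫ x in B, en (fun y => min (w y) (v y)) x ≤
      (∫ x in B, en (fun y => min (w y) (v' y)) x) + ∫ x in B, (v' x - v x) ^ 2 / 2 := by
  obtain ⟨K, hK⟩ := hv.lip
  set m : En n → ℝ := fun y => min (w y) (v y) with hm
  set m' : En n → ℝ := fun y => min (w y) (v' y) with hm'
  have lm : LipschitzWith (max Kw K) m := hw.min hK
  have lm' : LipschitzWith (max Kw K') m' := hw.min hv'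
  set φ : En n → ℝ := fun y => m' y - m y with hφ
  have lφ : LipschitzWith (max Kw K' + max Kw K) φ := lm'.sub lm
  have φ0 : ∀ x, x ∉ B → φ x = 0 := by
    intro x hx
    have h1 := hout x hx
    simp only [hφ, hm, hm', min_eq_left h1, min_eq_left (h1.trans (hle x)), sub_self]
  have cφ : HasCompactSupport φ := HasCompactSupport.intro hB φ0
  have hweak := hv.weak φ _ lφ cφ
  have hzero : ∀ x, x ∉ B → gg v φ x + (v x ^ 3 - v x) * φ x = 0 := by
    intro x hx
    have e : φ =ᶠ[𝓝 x] fun _ => (0 : ℝ) := by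
      filter_upwards [hB.isClosed.isOpen_compl.mem_nhds hx] with y hy using φ0 y hy
    have : fderiv ℝ φ x = 0 := by rw [e.fderiv_eq]; simp
    simp [gg, this, φ0 x hx]
  rw [← setIntegral_eq_integral_of_forall_compl_eq_zero hzero] at hweak
  have i1 := integrableOn_en lm hB
  have i2 := integrableOn_en lm' hB
  have cv := hK.continuous
  have cv' := hv'.continuous
  have cw := hw.continuous
  have i3 : IntegrableOn (fun x => (v' x - v x) ^ 2 / 2) B :=
    (by fun_prop : Continuous fun x => (v' x - v x) ^ 2 / 2).continuousOn.integrableOn_compact hB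
  have i4 : IntegrableOn (fun x => gg v φ x + (v x ^ 3 - v x) * φ x) B := by
    have cφ' := lφ.continuous
    exact (integrableOn_gg hK lφ hB).add
      ((by fun_prop : Continuous fun x => (v x ^ 3 - v x) * φ x).continuousOn.integrableOn_compact hB)
  have key : ∀ᵐ x, en m x + (gg v φ x + (v x ^ 3 - v x) * φ x) ≤
      en m' x + (v' x - v x) ^ 2 / 2 := by
    filter_upwards [lm.ae_differentiableAt (μ := volume), lm'.ae_differentiableAt (μ := volume)]
      with x d1 d2
    rcases lt_or_ge (w x) (v x) with hx | hx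
    · have ev : ∀ᶠ y in 𝓝 x, w y < v y := cw.continuousAt.eventually_lt cv.continuousAt hx
      have e1 : m =ᶠ[𝓝 x] m' := by
        filter_upwards [ev] with y hy
        simp only [hm, hm', min_eq_left hy.le, min_eq_left (hy.le.trans (hle y))]
      have e2 : φ =ᶠ[𝓝 x] fun _ => (0 : ℝ) := by
        filter_upwards [e1] with y hy
        simp only [hφ, hy, sub_self]
      have h0 : fderiv ℝ φ x = 0 := by rw [e2.fderiv_eq]; simp
      have h1 : φ x = 0 := e2.self_of_nhds
      rw [en_congr e1]
      have : gg v φ x = 0 := by simp [gg, h0]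
      rw [this, h1]
      have := sq_nonneg (v' x - v x)
      linarith
    · have dm : fderiv ℝ m x = fderiv ℝ v x := fderiv_min_right (hv.diff x) d1 hx
      have mx : m x = v x := min_eq_right hx
      have dφ : fderiv ℝ φ x = fderiv ℝ m' x - fderiv ℝ m x := fderiv_fun_sub d2 d1
      have dm' : fderiv ℝ m' x = fderiv ℝ v x + fderiv ℝ φ x := by rw [dφ, dm]; abel
      have m'x : m' x = v x + φ x := by simp only [hφ, mx]; ring
      have p0 : 0 ≤ φ x := by
        simp only [hφ, mx, hm', sub_nonneg]; exact le_min hx (hle x)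
      have p1 : φ x ≤ v' x - v x := by
        simp only [hφ, mx, hm']; exact sub_le_sub_right (min_le_right _ _) _
      have p2 : φ x ^ 2 ≤ (v' x - v x) ^ 2 := pow_le_pow_left₀ p0 p1 2
      have g1 : gg m m x = gg v v x := by simp only [gg, dm]
      have g2 : gg m' m' x = gg v v x + 2 * gg v φ x + gg φ φ x := by
        simp only [gg, dm', add_apply, Finset.mul_sum, ← Finset.sum_add_distrib]
        exact Finset.sum_congr rfl fun i _ => by ring
      have g3 := gg_self_nonneg φ x
      have g4 := poly_step (v x) (φ x)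
      unfold en
      rw [g1, g2, mx, m'x]
      linarith
  have := integral_mono_ae (i1.add i4) (i2.add i3) (ae_restrict_of_ae key)
  simp only [Pi.add_apply] at this
  rw [integral_add i1 i4, integral_add i2 i3, hweak] at this
  linarith

lemma WS.translate {v : En n → ℝ} (hv : WS v) (a : En n) : WS (fun x => v (x + a)) := by
  obtain ⟨K, hK⟩ := hv.lip
  refine ⟨?_, ⟨K, ?_⟩, ?_⟩
  · exact hv.diff.comp (differentiable_id.add_const a)
  · have := hK.comp (isometry_add_right a).lipschitz
    simpa [Function.comp_def] using this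
  · intro φ L hφ cφ
    have l2 : LipschitzWith L (fun x => φ (x + (-a))) := by
      have := hφ.comp (isometry_add_right (-a)).lipschitz
      simpa [Function.comp_def] using this
    have c2 : HasCompactSupport (fun x => φ (x + (-a))) :=
      cφ.comp_homeomorph (Homeomorph.addRight (-a))
    have h := hv.weak _ _ l2 c2
    rw [← integral_add_right_eq_self _ a] at h
    rw [← h]
    refine integral_congr_ae (Eventually.of_forall fun x => ?_)
    simp only [gg, fderiv_comp_add_right, add_neg_cancel_right]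

lemma WS.neg {v : En n → ℝ} (hv : WS v) : WS (fun x => - v x) := by
  obtain ⟨K, hK⟩ := hv.lip
  refine ⟨hv.diff.neg, ⟨K, hK.neg⟩, ?_⟩
  intro φ L hφ cφ
  have h := hv.weak φ L hφ cφ
  have : ∀ x, gg (fun x => - v x) φ x + ((- v x) ^ 3 - (- v x)) * φ x =
      - (gg v φ x + (v x ^ 3 - v x) * φ x) := by
    intro x
    have e : fderiv ℝ (fun x => - v x) x = - fderiv ℝ v x := fderiv_fun_neg
    simp only [gg, e, neg_apply, neg_mul, Finset.sum_neg_distrib]
    ring
  simp only [this, integral_neg, h, neg_zero]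

/-- A real function with quadratically small decrements is monotone. -/
lemma chain_real {I : ℝ → ℝ} {C : ℝ} (h : ∀ t, 0 ≤ t → ∀ s, 0 ≤ s → I t ≤ I (t + s) + C * s ^ 2)
    {T : ℝ} (hT : 0 ≤ T) : I 0 ≤ I T := by
  have hN : ∀ N : ℕ, I 0 ≤ I T + C * T ^ 2 * (1 / ((N : ℝ) + 1)) := by
    intro N
    have hp : (0 : ℝ) < (N : ℝ) + 1 := by positivity
    set s := T / ((N : ℝ) + 1) with hs
    have s0 : 0 ≤ s := div_nonneg hT hp.le
    have : ∀ k : ℕ, I 0 ≤ I (k * s) + k * (C * s ^ 2) := by
      intro k
      induction k with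
      | zero => simp
      | succ k ih =>
        have := h (k * s) (by positivity) s s0
        push_cast
        have e : ((k : ℝ) + 1) * s = k * s + s := by ring
        rw [e]; linarith
    have h1 := this (N + 1)
    push_cast at h1
    have e1 : ((N : ℝ) + 1) * s = T := by rw [hs]; field_simp
    have e2 : ((N : ℝ) + 1) * (C * s ^ 2) = C * T ^ 2 * (1 / ((N : ℝ) + 1)) := by
      rw [hs]; field_simp
    rw [e1, e2] at h1
    exact h1
  have lim : Tendsto (fun N : ℕ => I T + C * T ^ 2 * (1 / ((N : ℝ) + 1))) atTop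
      (𝓝 (I T + C * T ^ 2 * 0)) :=
    tendsto_const_nhds.add (tendsto_one_div_add_atTop_nhds_zero_nat.const_mul _)
  have := ge_of_tendsto' lim hN
  simpa using this

/-- Monotone translates: the energy of the truncation increases up to the limit function. -/
theorem chain {v U w : En n → ℝ} (hv : WS v) (ν : En n)
    (hmono : ∀ x, Monotone fun t : ℝ => v (x + t • ν))
    (hlim : ∀ x, Tendsto (fun t : ℝ => v (x + t • ν)) atTop (𝓝 (U x)))
    {Kw : ℝ≥0} (hw : LipschitzWith Kw w) {B : Set (En n)} (hB : IsCompact B)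
    (hout : ∀ x, x ∉ B → w x ≤ v x) :
    (∃ K : ℝ≥0, LipschitzWith K U) ∧ (∀ x, v x ≤ U x) ∧
    ∫ x in B, en (fun y => min (w y) (v y)) x ≤ ∫ x in B, en (fun y => min (w y) (U y)) x := by
  obtain ⟨K, hK⟩ := hv.lip
  have lt : ∀ t : ℝ, LipschitzWith K (fun x => v (x + t • ν)) := by
    intro t
    have := hK.comp (isometry_add_right (t • ν)).lipschitz
    simpa [Function.comp_def] using this
  have lU : LipschitzWith K U := by
    refine LipschitzWith.of_dist_le_mul fun x y => ?_
    exact le_of_tendsto' ((hlim x).dist (hlim y)) fun t => (lt t).dist_le_mul x y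
  have leU : ∀ t : ℝ, ∀ x, v (x + t • ν) ≤ U x := fun t x => (hmono x).ge_of_tendsto (hlim x) t
  have v0 : ∀ t : ℝ, 0 ≤ t → ∀ x, v x ≤ v (x + t • ν) := by
    intro t ht x
    simpa using hmono x ht
  have vU : ∀ x, v x ≤ U x := fun x => by simpa using leU 0 x
  refine ⟨⟨K, lU⟩, vU, ?_⟩
  set I : ℝ → ℝ := fun t => ∫ x in B, en (fun y => min (w y) (v (y + t • ν))) x with hI
  have h1 : ∀ t : ℝ, 0 ≤ t → ∀ s : ℝ, 0 ≤ s →
      I t ≤ I (t + s) + ((K * ‖ν‖) ^ 2 / 2 * volume.real B) * s ^ 2 := by
    intro t ht s hs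
    have hst := step (hv.translate (t • ν)) (lt (t + s)) hw
      (fun x => hmono x (le_add_of_nonneg_right hs)) hB
      (fun x hx => (hout x hx).trans (v0 t ht x))
    refine hst.trans (add_le_add le_rfl ?_)
    have c1 := (lt t).continuous
    have c2 := (lt (t + s)).continuous
    have hb : ∀ x ∈ B, (v (x + (t + s) • ν) - v (x + t • ν)) ^ 2 / 2 ≤
        (K * ‖ν‖) ^ 2 / 2 * s ^ 2 := by
      intro x _
      have d := hK.dist_le_mul (x + (t + s) • ν) (x + t • ν)
      have e : dist (x + (t + s) • ν) (x + t • ν) = s * ‖ν‖ := by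
        rw [dist_eq_norm]
        have : x + (t + s) • ν - (x + t • ν) = s • ν := by rw [add_smul]; abel
        rw [this, norm_smul, Real.norm_of_nonneg hs]
      rw [e, Real.dist_eq] at d
      have d2 : |v (x + (t + s) • ν) - v (x + t • ν)| ^ 2 ≤ (K * (s * ‖ν‖)) ^ 2 :=
        pow_le_pow_left₀ (abs_nonneg _) d 2
      rw [sq_abs] at d2
      nlinarith
    have i3 : IntegrableOn (fun x => (v (x + (t + s) • ν) - v (x + t • ν)) ^ 2 / 2) B :=
      (((c2.sub c1).pow 2).div_const 2).continuousOn.integrableOn_compact hB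
    have := setIntegral_mono_on i3 (integrableOn_const hB.measure_lt_top.ne) hB.measurableSet hb
    rw [setIntegral_const, smul_eq_mul] at this
    linarith
  have h2 : ∀ T : ℝ, 0 ≤ T → I 0 ≤ (∫ x in B, en (fun y => min (w y) (U y)) x) +
      ∫ x in B, (U x - v (x + T • ν)) ^ 2 / 2 := by
    intro T hT
    exact (chain_real h1 hT).trans (step (hv.translate (T • ν)) lU hw (leU T) hB
      (fun x hx => (hout x hx).trans (v0 T hT x)))
  have cU := lU.continuous
  have cv := hK.continuous
  have lim : Tendsto (fun T : ℝ => ∫ x in B, (U x - v (x + T • ν)) ^ 2 / 2) atTop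
      (𝓝 (∫ x in B, (U x - U x) ^ 2 / 2)) := by
    refine tendsto_integral_filter_of_dominated_convergence (fun x => (U x - v x) ^ 2 / 2) ?_ ?_
      ?_ ?_
    · refine Eventually.of_forall fun T => ?_
      have c1 := (lt T).continuous
      exact (((cU.sub c1).pow 2).div_const 2).aestronglyMeasurable
    · filter_upwards [eventually_ge_atTop (0 : ℝ)] with T hT
      refine Eventually.of_forall fun x => ?_
      have a1 := leU T x
      have a2 := v0 T hT x
      rw [Real.norm_of_nonneg (by positivity)]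
      have : (U x - v (x + T • ν)) ^ 2 ≤ (U x - v x) ^ 2 :=
        pow_le_pow_left₀ (by linarith) (by linarith) 2
      linarith
    · exact (by fun_prop : Continuous fun x =>
        (U x - v x) ^ 2 / 2).continuousOn.integrableOn_compact hB
    · refine Eventually.of_forall fun x => ?_
      exact ((tendsto_const_nhds.sub (hlim x)).pow 2).div_const 2
  have lim2 := (tendsto_const_nhds (x := ∫ x in B, en (fun y => min (w y) (U y)) x)).add lim
  have := ge_of_tendsto lim2 (by
    filter_upwards [eventually_ge_atTop (0 : ℝ)] with T hT using h2 T hT)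
  simpa [hI] using this

end Vale.Agent.P134.B2
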