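import Vale.Agent.P134.RDefs
import Vale.Agent.P134.B2Step

/-!
P134, block B2 (second file): a monotone solution whose limits are constant or monotone towards a
constant minimises the energy among Lipschitz competitors.
-/

open MeasureTheory Filter Topology Set
open scoped NNReal Laplacian RealInnerProductSpace ContDiff

namespace Vale.Agent.P134.B2

variable {n : ℕ}

lemma bv_eq_ev (i : Fin n) : (bv i : E n) = ev i := rfl

lemma gg_self_eq (w : E n → ℝ) (x : E n) : gg w w x = ‖fderiv ℝ w x‖ ^ 2 := by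
  set L := fderiv ℝ w x with hL
  set y : E n := (InnerProductSpace.toDual ℝ (E n)).symm L with hy
  have h1 : ∀ z, L z = ⟪y, z⟫ := fun z => by
    rw [hy, InnerProductSpace.toDual_symm_apply]
  have h2 : ‖y‖ = ‖L‖ := by rw [hy, LinearIsometryEquiv.norm_map]
  rw [← h2, EuclideanSpace.norm_sq_eq]
  unfold gg
  refine Finset.sum_congr rfl fun i _ => ?_
  rw [← hL, h1]
  simp [bv, EuclideanSpace.inner_single_right, sq]

/-- The energy density written with the operator norm of the derivative. -/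
lemma en_eq (w : E n → ℝ) (x : E n) :
    en w x = ‖fderiv ℝ w x‖ ^ 2 / 2 + (1 - w x ^ 2) ^ 2 / 4 := by
  unfold en; rw [gg_self_eq]

lemma ws_of_strong {v : E n → ℝ} (hd : Differentiable ℝ v) (hl : ∃ K : ℝ≥0, LipschitzWith K v)
    (hl2 : ∀ i, ∃ K : ℝ≥0, LipschitzWith K fun x => fderiv ℝ v x (bv i))
    (hd2 : ∀ i, Differentiable ℝ fun x => fderiv ℝ v x (bv i))
    (heq : ∀ x, ∑ i, fderiv ℝ (fun x => fderiv ℝ v x (bv i)) x (bv i) = v x ^ 3 - v x) :
    WS v := by
  refine ⟨hd, hl, fun φ K hφ cφ => ?_⟩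
  obtain ⟨Kv, hKv⟩ := hl
  have key : ∀ i, Integrable (fun x => fderiv ℝ v x (bv i) * fderiv ℝ φ x (bv i) +
      fderiv ℝ (fun x => fderiv ℝ v x (bv i)) x (bv i) * φ x) ∧
      ∫ x, (fderiv ℝ v x (bv i) * fderiv ℝ φ x (bv i) +
      fderiv ℝ (fun x => fderiv ℝ v x (bv i)) x (bv i) * φ x) = 0 := by
    intro i
    obtain ⟨L, hL⟩ := hl2 i
    have ib := hL.integral_lineDeriv_mul_eq (μ := volume) hφ cφ (bv i)
    have cD : HasCompactSupport fun x => fderiv ℝ φ x (bv i) :=
      (cφ.fderiv (𝕜 := ℝ)).comp_left (g := fun L : E n →L[ℝ] ℝ => L (bv i)) (by simp)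
    have iD : Integrable fun x => fderiv ℝ φ x (bv i) := by
      rw [← integrableOn_iff_integrable_of_support_subset (subset_tsupport _)]
      refine Measure.integrableOn_of_bounded (M := K) cD.measure_lt_top.ne
        (measurable_fderiv_apply_const ℝ φ _).aestronglyMeasurable ?_
      exact Eventually.of_forall fun x => by
        rw [Real.norm_eq_abs]; exact abs_fderiv_bv_le hφ x i
    have i1 : Integrable fun x => fderiv ℝ v x (bv i) * fderiv ℝ φ x (bv i) :=
      iD.bdd_mul (c := Kv) (measurable_fderiv_apply_const ℝ v _).aestronglyMeasurable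
        (Eventually.of_forall fun x => by rw [Real.norm_eq_abs]; exact abs_fderiv_bv_le hKv x i)
    have iφ : Integrable φ := hφ.continuous.integrable_of_hasCompactSupport cφ
    have i2 : Integrable fun x => fderiv ℝ (fun x => fderiv ℝ v x (bv i)) x (bv i) * φ x :=
      iφ.bdd_mul (c := L) (measurable_fderiv_apply_const ℝ _ _).aestronglyMeasurable
        (Eventually.of_forall fun x => by rw [Real.norm_eq_abs]; exact abs_fderiv_bv_le hL x i)
    refine ⟨i1.add i2, ?_⟩
    rw [integral_add i1 i2]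
    have e1 : ∫ x, lineDeriv ℝ (fun x => fderiv ℝ v x (bv i)) x (bv i) * φ x =
        ∫ x, fderiv ℝ (fun x => fderiv ℝ v x (bv i)) x (bv i) * φ x := by
      refine integral_congr_ae (Eventually.of_forall fun x => ?_)
      simp only [(hd2 i x).lineDeriv_eq_fderiv]
    have e2 : ∫ x, lineDeriv ℝ φ x (-bv i) * fderiv ℝ v x (bv i) =
        - ∫ x, fderiv ℝ v x (bv i) * fderiv ℝ φ x (bv i) := by
      rw [← integral_neg]
      refine integral_congr_ae ?_
      filter_upwards [hφ.ae_differentiableAt (μ := volume)] with x hx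
      rw [hx.lineDeriv_eq_fderiv, map_neg]; ring
    rw [e1, e2] at ib
    rw [ib]; ring
  have : ∀ x, gg v φ x + (v x ^ 3 - v x) * φ x = ∑ i, (fderiv ℝ v x (bv i) * fderiv ℝ φ x (bv i) +
      fderiv ℝ (fun x => fderiv ℝ v x (bv i)) x (bv i) * φ x) := by
    intro x
    rw [Finset.sum_add_distrib, ← Finset.sum_mul, heq, gg]
  simp only [this]
  rw [integral_finsetSum _ fun i _ => (key i).1]
  exact Finset.sum_eq_zero fun i _ => (key i).2

lemma ws_of_sol (hbd : R_bd) {u : E n → ℝ} (hu : Sol u) : WS u := by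
  obtain ⟨C1, h10, h1⟩ := hbd n 1
  obtain ⟨C2, h20, h2⟩ := hbd n 2
  have hd : Differentiable ℝ u := hu.sm.differentiable (by simp)
  have hs1 : ContDiff ℝ ∞ (fderiv ℝ u) := (contDiff_infty_iff_fderiv.1 hu.sm).2
  have hdd : Differentiable ℝ (fderiv ℝ u) := hs1.differentiable (by simp)
  have hD : ∀ (i : Fin n) x, HasFDerivAt (fun x => fderiv ℝ u x (bv i))
      ((ContinuousLinearMap.apply ℝ ℝ (bv i : E n)).comp (fderiv ℝ (fderiv ℝ u) x)) x :=
    fun i x => (ContinuousLinearMap.apply ℝ ℝ (bv i : E n)).hasFDerivAt.comp x (hdd x).hasFDerivAt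
  have l2 : LipschitzWith ⟨C2, h20⟩ (fderiv ℝ u) := by
    refine lipschitzWith_of_nnnorm_fderiv_le hdd fun x => ?_
    have := h2 u hu x
    rw [← norm_iteratedFDeriv_fderiv, norm_iteratedFDeriv_one] at this
    exact this
  refine ws_of_strong hd ⟨⟨C1, h10⟩, ?_⟩ (fun i => ?_)
    (fun i x => (hD i x).differentiableAt) ?_
  · refine lipschitzWith_of_nnnorm_fderiv_le hd fun x => ?_
    have := h1 u hu x
    rw [norm_iteratedFDeriv_one] at this
    exact this
  · exact ⟨_, (ContinuousLinearMap.apply ℝ ℝ (bv i : E n)).lipschitz.comp l2⟩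
  · intro x
    rw [← hu.eq x, InnerProductSpace.laplacian_eq_iteratedFDeriv_orthonormalBasis u
      (EuclideanSpace.basisFun (Fin n) ℝ)]
    refine Finset.sum_congr rfl fun i _ => ?_
    rw [(hD i x).fderiv, iteratedFDeriv_two_apply]
    simp [bv]

lemma sol_translate {u : E n → ℝ} (hu : Sol u) (a : E n) : Sol fun x => u (x + a) := by
  refine ⟨hu.sm.comp (contDiff_id.add contDiff_const), fun x => ?_, fun x => hu.bd _⟩
  rw [← hu.eq (x + a)]
  simp only [InnerProductSpace.laplacian_eq_iteratedFDeriv_stdOrthonormalBasis]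
  refine Finset.sum_congr rfl fun i _ => ?_
  rw [iteratedFDeriv_comp_add_right]

/-- `U` is the constant one, or a weak solution increasing to one in some direction. -/
def Top (U : E n → ℝ) : Prop := (∀ x, U x = 1) ∨ (WS U ∧ ∃ ν : E n,
  (∀ x, Monotone fun t : ℝ => U (x + t • ν)) ∧
    ∀ x, Tendsto (fun t : ℝ => U (x + t • ν)) atTop (𝓝 1))

lemma trunc_one {w : E n → ℝ} {Kw : ℝ≥0} (hw : LipschitzWith Kw w) {B : Set (E n)}
    (hB : IsCompact B) :
    ∫ x in B, en (fun y => min (w y) 1) x ≤ ∫ x in B, en w x := by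
  have lm : LipschitzWith (max Kw 0) fun y => min (w y) 1 := hw.min (LipschitzWith.const 1)
  refine integral_mono_ae (integrableOn_en lm hB) (integrableOn_en hw hB) (ae_restrict_of_ae ?_)
  filter_upwards [lm.ae_differentiableAt (μ := volume)] with x d1
  rcases lt_or_ge (w x) 1 with hx | hx
  · have ev : ∀ᶠ y in 𝓝 x, w y < 1 :=
      hw.continuous.continuousAt.eventually_lt continuousAt_const hx
    refine le_of_eq (en_congr ?_)
    filter_upwards [ev] with y hy using min_eq_left hy.le
  · have dm : fderiv ℝ (fun y => min (w y) 1) x = fderiv ℝ (fun _ : E n => (1 : ℝ)) x :=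
      fderiv_min_right (g := fun _ => (1 : ℝ)) (differentiableAt_const _) d1 hx
    have : en (fun y => min (w y) 1) x = 0 := by
      simp [en, gg, dm, min_eq_right hx]
    rw [this]; exact en_nonneg w x

/-- Truncating a competitor from above by the solution lowers the energy. -/
theorem upper {v U w : E n → ℝ} (hv : WS v) (ν : E n)
    (hmono : ∀ x, Monotone fun t : ℝ => v (x + t • ν))
    (hlim : ∀ x, Tendsto (fun t : ℝ => v (x + t • ν)) atTop (𝓝 (U x))) (hU : Top U)
    {Kw : ℝ≥0} (hw : LipschitzWith Kw w) {B : Set (E n)} (hB : IsCompact B)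
    (hout : ∀ x, x ∉ B → w x ≤ v x) :
    ∫ x in B, en (fun y => min (w y) (v y)) x ≤ ∫ x in B, en w x := by
  obtain ⟨_, hle, h1⟩ := chain hv ν hmono hlim hw hB hout
  refine h1.trans (le_trans ?_ (trunc_one hw hB))
  rcases hU with hU | ⟨hws, ν', hm', hl'⟩
  · simp only [hU]; exact le_rfl
  · exact (chain (U := fun _ => 1) hws ν' hm' hl' hw hB
      fun x hx => (hout x hx).trans (hle x)).2.2

/-- Minimality, abstract form. -/
theorem minimal {u Up Um w : E n → ℝ} (hu : WS u) (ν : E n)
    (hmono : ∀ x, Monotone fun t : ℝ => u (x + t • ν))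
    (hp : ∀ x, Tendsto (fun t : ℝ => u (x + t • ν)) atTop (𝓝 (Up x)))
    (hm : ∀ x, Tendsto (fun t : ℝ => u (x + t • ν)) atBot (𝓝 (Um x)))
    (hUp : Top Up) (hUm : Top fun x => - Um x)
    {Kw : ℝ≥0} (hw : LipschitzWith Kw w) {B : Set (E n)} (hB : IsCompact B)
    (hout : ∀ x, x ∉ B → w x = u x) :
    ∫ x in B, en u x ≤ ∫ x in B, en w x := by
  refine le_trans ?_ (upper hu ν hmono hp hUp hw hB fun x hx => (hout x hx).le)
  obtain ⟨K, hK⟩ := hu.lip
  have lm : LipschitzWith (max Kw K) fun y => min (w y) (u y) := hw.min hK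
  have h2 := upper (v := fun x => - u x) (U := fun x => - Um x)
    (w := fun y => - min (w y) (u y)) hu.neg (-ν) ?_ ?_ hUm lm.neg hB ?_
  · rw [en_neg (fun y => min (w y) (u y))] at h2
    have e : (fun y => min (- min (w y) (u y)) (- u y)) = fun y => - u y := by
      funext y
      exact min_eq_right (neg_le_neg (min_le_right _ _))
    rw [e, en_neg u] at h2
    exact h2
  · intro x s t hst
    have := hmono x (neg_le_neg hst)
    simp only [neg_smul, smul_neg] at this ⊢
    exact neg_le_neg this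
  · intro x
    have := ((hm x).comp tendsto_neg_atTop_atBot).neg
    simpa [Function.comp_def] using this
  · intro x hx
    simp only [hout x hx, min_self, le_refl]

lemma tanh_mono : Monotone Real.tanh := by
  intro a b hab
  rw [← Real.artanh_le_artanh_iff ⟨Real.neg_one_lt_tanh a, Real.tanh_lt_one a⟩
    ⟨Real.neg_one_lt_tanh b, Real.tanh_lt_one b⟩, Real.artanh_tanh, Real.artanh_tanh]
  exact hab

lemma tanh_tendsto : Tendsto Real.tanh atTop (𝓝 1) := by
  rw [tendsto_order]
  refine ⟨fun a ha => ?_, fun a ha => Eventually.of_forall fun x => (Real.tanh_lt_one x).trans ha⟩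
  set b := max ((a + 1) / 2) 0 with hb
  have hb1 : b ∈ Ioo (-1 : ℝ) 1 :=
    ⟨lt_of_lt_of_le (by norm_num) (le_max_right _ _), max_lt (by linarith) one_pos⟩
  filter_upwards [eventually_ge_atTop (Real.artanh b)] with x hx
  have := tanh_mono hx
  rw [Real.tanh_artanh hb1] at this
  have : (a + 1) / 2 ≤ b := le_max_left _ _
  linarith

/-- A profile `tanh ((ℓ x - c) / √2)` with `ℓ ≠ 0` is monotone towards one. -/
lemma top_of_tanh {U : E n → ℝ} (hU : WS U) (l : E n →L[ℝ] ℝ) (ν : E n) (hν : 0 < l ν) (c : ℝ)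
    (h : ∀ x, U x = Real.tanh ((l x - c) / √2)) : Top U := by
  have s2 : (0 : ℝ) < √2 := by positivity
  refine Or.inr ⟨hU, ν, fun x s t hst => ?_, fun x => ?_⟩
  · simp only [h, map_add, map_smul, smul_eq_mul]
    refine tanh_mono (div_le_div_of_nonneg_right ?_ s2.le)
    nlinarith
  · simp only [h, map_add, map_smul, smul_eq_mul]
    refine tanh_tendsto.comp (Tendsto.atTop_div_const s2 ?_)
    exact tendsto_atTop_add_const_right _ (-c)
      (tendsto_atTop_add_const_left _ _ (tendsto_id.atTop_mul_const hν))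

lemma pr_em (e : E n) : pr n (em n e) = e := by
  ext j
  simp [pr, em, ev, Finset.sum_apply, Pi.single_apply, Fin.castSucc_inj]

/-- The functions on `E n` that are `± 1` or a planar profile. -/
def Flat (U : E n → ℝ) : Prop := (∀ x, U x = 1) ∨ (∀ x, U x = -1) ∨
  ∃ (e : E n) (c : ℝ), ‖e‖ = 1 ∧ ∀ x, U x = Real.tanh ((⟪e, x⟫ - c) / √2)

lemma Flat.neg {U : E n → ℝ} (h : Flat U) : Flat fun x => - U x := by
  rcases h with h | h | ⟨e, c, he, h⟩
  · exact Or.inr (Or.inl fun x => by simp [h])
  · exact Or.inl fun x => by simp [h]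
  · refine Or.inr (Or.inr ⟨-e, -c, by simpa using he, fun x => ?_⟩)
    simp only [h, inner_neg_left]
    rw [← Real.tanh_neg]; congr 1; ring

lemma top_of_flat {U : E n → ℝ} (h : Flat U) (hws : WS fun x : E (n + 1) => U (pr n x))
    (hne : ∃ x, U x ≠ -1) : Top fun x : E (n + 1) => U (pr n x) := by
  rcases h with h | h | ⟨e, c, he, h⟩
  · exact Or.inl fun x => h _
  · obtain ⟨x, hx⟩ := hne; exact absurd (h x) hx
  · refine top_of_tanh hws ((innerSL ℝ e).comp (pr n)) (em n e) ?_ c fun x => by simp [h]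
    simp [pr_em, he]

/-- **B2.** A monotone solution whose two limits are `± 1` or planar profiles minimises the energy
among all Lipschitz competitors that agree with it outside a compact set. -/
theorem b2 (hbd : R_bd) (hlim : R_lim) {u : E (n + 1) → ℝ} (hu : Mon u) {up um : E n → ℝ}
    (hp : ∀ x, Tendsto (fun t : ℝ => u (x + t • el n)) atTop (𝓝 (up (pr n x))))
    (hm : ∀ x, Tendsto (fun t : ℝ => u (x + t • el n)) atBot (𝓝 (um (pr n x))))
    (hlt : ∀ x, um (pr n x) < u x ∧ u x < up (pr n x)) (fp : Flat up) (fm : Flat um)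
    {w : E (n + 1) → ℝ} {Kw : ℝ≥0} (hw : LipschitzWith Kw w) {B : Set (E (n + 1))}
    (hB : IsCompact B) (hout : ∀ x, x ∉ B → w x = u x) :
    ∫ x in B, (‖fderiv ℝ u x‖ ^ 2 / 2 + (1 - u x ^ 2) ^ 2 / 4) ≤
      ∫ x in B, (‖fderiv ℝ w x‖ ^ 2 / 2 + (1 - w x ^ 2) ^ 2 / 4) := by
  simp only [← en_eq]
  have hd : Differentiable ℝ u := hu.sol.sm.differentiable (by simp)
  have hmono : ∀ x, Monotone fun t : ℝ => u (x + t • el n) := by
    intro x
    have hD : ∀ t : ℝ, HasDerivAt (fun t : ℝ => u (x + t • el n))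
        (fderiv ℝ u (x + t • el n) (el n)) t := by
      intro t
      have h1 : HasDerivAt (fun t : ℝ => x + t • el n) (el n) t := by
        simpa using ((hasDerivAt_id t).smul_const (el n)).const_add x
      exact (hd _).hasFDerivAt.comp_hasDerivAt t h1
    exact monotone_of_deriv_nonneg (fun t => (hD t).differentiableAt)
      fun t => by rw [(hD t).deriv]; exact (hu.pos _).le
  have sp : Sol fun x : E (n + 1) => up (pr n x) :=
    (hlim _ ℝ atTop (fun t x => u (x + t • el n)) _ inferInstance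
      (fun t => sol_translate hu.sol _) hp).1
  have sm : Sol fun x : E (n + 1) => um (pr n x) :=
    (hlim _ ℝ atBot (fun t x => u (x + t • el n)) _ inferInstance
      (fun t => sol_translate hu.sol _) hm).1
  have b0 := abs_le.1 (hu.sol.bd 0)
  refine minimal (ws_of_sol hbd hu.sol) (el n) hmono hp hm
    (top_of_flat fp (ws_of_sol hbd sp) ⟨pr n 0, ?_⟩)
    (top_of_flat fm.neg (ws_of_sol hbd sm).neg ⟨pr n 0, ?_⟩) hw hB hout
  · have := (hlt 0).2; linarith [b0.1]
  · have := (hlt 0).1
    intro h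
    linarith [b0.2]

end Vale.Agent.P134.B2
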