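import Vale.Agent.P134.B1Step
import Vale.Agent.P134.B1Seq
import Vale.Agent.P134.B1Lip
import Vale.Agent.P134.B2Min

/-! P134, block B1: small excess implies flatness. -/

open Filter Topology MeasureTheory Set Metric
open scoped ContDiff RealInnerProductSpace NNReal Laplacian

namespace Vale.Agent.P134.B3

variable {u : X → ℝ} {a : X}

theorem Cx.bq_cont (h : Cx u a) (e : X) (k : ℝ) :
    Continuous fun x => rr u x * max (k - qq u e x) 0 ^ 3 :=
  h.sm_r.continuous.mul (((continuous_const.sub (h.sm_q e).continuous).max continuous_const).pow 3)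

theorem Cx.bq_nn (h : Cx u a) (e : X) (k : ℝ) (x : X) : 0 ≤ rr u x * max (k - qq u e x) 0 ^ 3 :=
  mul_nonneg (h.r_pos x).le (pow_nonneg (le_max_right _ _) 3)

theorem Cx.bq_mono (h : Cx u a) (e : X) {k k' r r' : ℝ} (hk : k ≤ k') (hr : r ≤ r') :
    bq u e k r ≤ bq u e k' r' := by
  refine (setIntegral_mono (intOn_ball (h.bq_cont e k) _ _) (intOn_ball (h.bq_cont e k') _ _)
    fun x => ?_).trans (int_ball_mono (h.bq_cont e k') (h.bq_nn e k') (by simpa using hr))
  exact mul_le_mul_of_nonneg_left (pow_le_pow_left₀ (le_max_right _ _)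
    (max_le_max (by linarith) le_rfl) 3) (h.r_pos x).le

theorem Cx.bq_one (h : Cx u a) {e : X} (he : ‖e‖ = 1) (R : ℝ) :
    bq u e 1 R ≤ 2 * ∫ x in ball (0 : X) R, rr u x * ‖pp u x - e‖ ^ 2 := by
  rw [← integral_const_mul]
  refine setIntegral_mono (intOn_ball (h.bq_cont e 1) _ _) (intOn_ball (continuous_const.mul
    (h.sm_r.continuous.mul ((h.sm_p.continuous.sub continuous_const).norm.pow 2))) _ _) fun x => ?_
  have h1 : 1 - qq u e x = ⟪e - pp u x, e⟫ := by
    rw [inner_sub_left, real_inner_self_eq_norm_sq, he, qq]; norm_num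
  have h2 : max (1 - qq u e x) 0 ≤ ‖pp u x - e‖ := by
    refine max_le ?_ (norm_nonneg _)
    rw [h1, norm_sub_rev]
    simpa [he] using real_inner_le_norm (e - pp u x) e
  have h3 : ‖pp u x - e‖ ≤ 2 := by linarith [norm_sub_le (pp u x) e, h.p_le x]
  have h4 := pow_le_pow_left₀ (le_max_right _ _) h2 3
  have h5 : ‖pp u x - e‖ ^ 3 ≤ 2 * ‖pp u x - e‖ ^ 2 := by
    nlinarith [sq_nonneg ‖pp u x - e‖]
  have h6 := h.r_pos x
  simp only
  nlinarith

theorem Cx.bq_zero (h : Cx u a) {e : X} (he : ‖e‖ = 1) (hf : ∀ ε : ℝ, 0 < ε → ∀ R0 : ℝ, ∃ R,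
    R0 ≤ R ∧ ∫ x in ball (0 : X) R, rr u x * ‖pp u x - e‖ ^ 2 ≤ ε * R ^ 3) {k : ℝ}
    (hk : 3 / 4 ≤ k) (hk1 : k < 1) {r : ℝ} (hr : 0 < r) : bq u e k r ≤ 0 := by
  obtain ⟨L, hL1, hL⟩ := h.q_lip
  obtain ⟨C, hC1, hC⟩ := h.step hL1 hL
  set d := 1 - k with hd
  have hd0 : 0 < d := by linarith
  have hd1 : d ≤ 1 := by linarith
  set M := 4 * C / d ^ 8 with hM
  have hd8 : d ^ 8 ≤ 1 := pow_le_one₀ hd0.le hd1
  have hM1 : 1 ≤ M := by rw [hM, le_div_iff₀ (by positivity)]; linarith
  obtain ⟨ε, hε, hs⟩ := seq_lemma (D := 1024 * M) (by linarith)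
  by_contra! hb
  obtain ⟨R, hR, hex⟩ := hf (ε / 2) (by positivity) (max (max 1 (2 * r)) (33 / bq u e k r))
  have hR1 : 1 ≤ R := (le_max_left _ _).trans ((le_max_left _ _).trans hR)
  have hR2 : 2 * r ≤ R := (le_max_right _ _).trans ((le_max_left _ _).trans hR)
  have hR3 : 33 / bq u e k r ≤ R := (le_max_right _ _).trans hR
  have hR0 : 0 < R := by linarith
  have hn : ∀ k r, 0 ≤ bq u e k r := fun k r => integral_nonneg (h.bq_nn e k)
  obtain ⟨j, hj⟩ := hs R (fun j => bq u e (k + d / 2 ^ j) (R / 2 + R / 2 / 2 ^ j)) hR0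
    (fun j => hn _ _) (by
      have := h.bq_one he R
      simp only [pow_zero, div_one, add_halves, hd, add_sub_cancel]
      linarith) (fun j ρ hρ hj => by
      set t : ℝ := 2 ^ (j + 1) with ht
      have ht1 : 1 ≤ t := one_le_pow₀ one_le_two
      have ht0 : 0 < t := by linarith
      have e0 : (2 : ℝ) ^ j = t / 2 := by rw [ht, pow_succ]; ring
      have e1 : k + d / 2 ^ j - (k + d / t) = d / t := by rw [e0]; field_simp; ring
      have e2 : R / 2 + R / 2 / 2 ^ j - (R / 2 + R / 2 / t) = R / (2 * t) := by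
        rw [e0]; field_simp; ring
      have e3 : M * t ^ 10 ≤ (1024 * M) ^ (j + 1) := by
        rw [mul_pow, ht, ← pow_mul, mul_comm (j + 1), pow_mul, mul_comm]
        norm_num
        exact le_self_pow₀ hM1 (Nat.succ_ne_zero j)
      have e4 : d / 2 ^ j ≤ d := div_le_self hd0.le (one_le_pow₀ one_le_two)
      have e5 : 0 < d / t := by positivity
      have h1 := hC e (k + d / 2 ^ j) (k + d / t) (R / 2 + R / 2 / 2 ^ j) (R / 2 + R / 2 / t) ρ he
        (by linarith) (by linarith) (by linarith) (by positivity)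
        (by rw [e1, e2, div_le_div_iff₀ ht0 (by positivity)]; nlinarith) hρ (by
          rw [e1]
          have h2 : C ≤ (d / t) ^ 7 * (M * t ^ 10) := by
            have e6 : (d / t) ^ 7 * (M * t ^ 10) = 4 * C * t ^ 3 / d := by rw [hM]; field_simp
            have e7 : 1 ≤ t ^ 3 := one_le_pow₀ ht1
            rw [e6, le_div_iff₀ hd0]
            nlinarith
          have h3 := hn (k + d / 2 ^ j) (R / 2 + R / 2 / 2 ^ j)
          calc _ ≤ (d / t) ^ 7 * (M * t ^ 10) * bq u e (k + d / 2 ^ j) (R / 2 + R / 2 / 2 ^ j) := by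
                gcongr
            _ ≤ (d / t) ^ 7 * ((1024 * M) ^ (j + 1) *
                bq u e (k + d / 2 ^ j) (R / 2 + R / 2 / 2 ^ j)) := by rw [mul_assoc]; gcongr
            _ ≤ _ := by gcongr)
      refine h1.trans (mul_le_mul_of_nonneg_right ?_ (hn _ _))
      rw [e1, e2]
      have e8 : C * ρ ^ 2 / ((d / t) ^ 8 * (R / (2 * t)) ^ 2) = M * t ^ 10 * ρ ^ 2 / R ^ 2 := by
        rw [hM]; field_simp; ring
      rw [e8]
      gcongr)
  have h1 : bq u e k r ≤ 32 / R ^ 2 := (h.bq_mono e (le_add_of_nonneg_right (by positivity))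
    (by have : 0 ≤ R / 2 / 2 ^ j := by positivity
        linarith)).trans hj
  rw [div_le_iff₀ hb] at hR3
  rw [le_div_iff₀ (by positivity)] at h1
  nlinarith

theorem Cx.b1 (h : Cx u a) (hf : Flt u) : B2.Flat u := by
  obtain ⟨e, he, hf⟩ := hf
  have h1 : ∀ x, 1 ≤ qq u e x := fun x => by
    by_contra! hx
    have hk : max (3 / 4) ((1 + qq u e x) / 2) < 1 := max_lt (by norm_num) (by linarith)
    have h0 := h.bq_zero he hf (le_max_left _ _) hk (r := ‖x‖ + 1) (by positivity)
    have h2 := (setIntegral_eq_zero_iff_of_nonneg_ae (ae_of_all _ (h.bq_nn e _))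
      (intOn_ball (h.bq_cont e _) _ _)).1 (le_antisymm h0 (integral_nonneg (h.bq_nn e _)))
    have h3 := Measure.eqOn_open_of_ae_eq h2 isOpen_ball (h.bq_cont e _).continuousOn
      continuousOn_const (show x ∈ ball (0 : X) (‖x‖ + 1) by simp)
    have h4 : 0 < max (3 / 4) ((1 + qq u e x) / 2) - qq u e x := by
      linarith [le_max_right (3 / 4) ((1 + qq u e x) / 2)]
    exact (mul_pos (h.r_pos x) (pow_pos (lt_max_of_lt_left h4) 3)).ne' h3
  have h2 : ∀ x, pp u x = e := fun x => by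
    have h3 := norm_sub_sq_real (pp u x) e
    have h4 : ‖pp u x‖ ^ 2 ≤ 1 := pow_le_one₀ (norm_nonneg _) (h.p_le x)
    have h5 : 1 ≤ ⟪pp u x, e⟫ := h1 x
    rw [he] at h3
    exact sub_eq_zero.1 (norm_eq_zero.1 (pow_eq_zero_iff two_ne_zero |>.1
      (le_antisymm (by linarith) (sq_nonneg _))))
  have hd : Differentiable ℝ (vv u) := h.bas.smv.differentiable (by simp)
  have h3 := is_const_of_fderiv_eq_zero (f := fun x => vv u x - innerSL ℝ e x)
    (hd.sub (innerSL ℝ e).differentiable) fun x => by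
      rw [fderiv_fun_sub (hd x) (innerSL ℝ e).differentiableAt, (innerSL ℝ e).fderiv]
      ext c
      have := inner_gradient (vv u) x c
      rw [show gradient (vv u) x = e from h2 x] at this
      simp [this, dv]
  refine Or.inr (Or.inr ⟨e, -vv u 0, he, fun x => ?_⟩)
  have h4 := h3 x 0
  simp only [innerSL_apply_apply, inner_zero_right, sub_zero] at h4
  rw [h.bas.th x, sub_neg_eq_add, ← h4, add_sub_cancel]

end Vale.Agent.P134.B3
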