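import Vale.Agent.P134.B3Bas
import Vale.Agent.P134.B3Ibp

/-! P134, block B3: shells. -/

open Filter Topology MeasureTheory Set Metric
open scoped ContDiff RealInnerProductSpace NNReal Laplacian

namespace Vale.Agent.P134.B3

variable {u : X → ℝ} {a : X}

theorem measurableSet_sh (y : X) (r l : ℝ) : MeasurableSet (sh y r l) :=
  measurableSet_closedBall.diff measurableSet_ball

theorem b3pig_int {F : X → ℝ} (hF : Continuous F) (y : X) (r : ℝ) :
    IntegrableOn F (closedBall y r) :=
  hF.continuousOn.integrableOn_compact (isCompact_closedBall _ _)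

theorem intOn_sh {F : X → ℝ} (hF : Continuous F) (y : X) (r l : ℝ) :
    IntegrableOn F (sh y r l) := (b3pig_int hF _ _).mono_set sdiff_subset

theorem b3pig_sh {F : X → ℝ} (hF : Continuous F) (y : X) (r : ℝ) {l : ℝ} (hl : 0 ≤ l) :
    ∫ x in sh y r l, F x = (∫ x in closedBall y (r + l), F x) - ∫ x in closedBall y r, F x := by
  rw [sh, setIntegral_sdiff measurableSet_ball (b3pig_int hF _ _)
    (ball_subset_closedBall.trans (closedBall_subset_closedBall (by linarith))),
    setIntegral_congr_set (ae_eq_of_subset_of_measure_ge ball_subset_closedBall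
      (Measure.addHaar_closedBall_eq_addHaar_ball volume y r).le
      measurableSet_ball.nullMeasurableSet measure_closedBall_lt_top.ne)]

theorem vol_sh (y : X) {r l : ℝ} (hr : 0 ≤ r) (hl : 0 ≤ l) :
    volume.real (sh y r l) = om * ((r + l) ^ 4 - r ^ 4) := by
  have h := b3pig_sh (F := fun _ => 1) continuous_const y r hl
  simp only [setIntegral_const, smul_eq_mul, mul_one] at h
  rw [h, vol_closedBall y hr, vol_closedBall y (add_nonneg hr hl), mul_sub]

theorem int_sh_radial {f : ℝ → ℝ} (hf : Continuous f) (y : X) {r l : ℝ} (hr : 0 ≤ r) (hl : 0 ≤ l) :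
    ∫ x in sh y r l, f ‖x - y‖ = 4 * om * ∫ t in r..(r + l), t ^ 3 * f t := by
  have e1 : (sh y r l).indicator (fun x => f ‖x - y‖) =
      fun x => (Icc r (r + l)).indicator f ‖x - y‖ := funext fun x => by
    have : x ∈ sh y r l ↔ ‖x - y‖ ∈ Icc r (r + l) := by
      simp only [sh, Set.mem_sdiff, mem_closedBall, mem_ball, dist_eq_norm, not_lt, mem_Icc, and_comm]
    by_cases h : x ∈ sh y r l
    · rw [indicator_of_mem h, indicator_of_mem (this.1 h)]
    · rw [indicator_of_notMem h, indicator_of_notMem (mt this.2 h)]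
  have e2 : ∀ t : ℝ, t ^ 3 * (Icc r (r + l)).indicator f t =
      (Icc r (r + l)).indicator (fun t => t ^ 3 * f t) t := fun t =>
    (indicator_mul_right _ (fun t : ℝ => t ^ 3) f).symm
  rw [← integral_indicator (measurableSet_sh _ _ _), e1,
    integral_sub_right_eq_self (fun x : X => (Icc r (r + l)).indicator f ‖x‖) y,
    integral_fun_norm_addHaar, finrank_euclideanSpace_fin, intervalIntegral.integral_of_le
      (by linarith), ← integral_Icc_eq_integral_Ioc, ← integral_indicator measurableSet_Icc,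
    setIntegral_eq_integral_of_forall_compl_eq_zero fun t ht => ?_]
  · simp only [smul_eq_mul, nsmul_eq_mul, Nat.cast_ofNat, Nat.add_one_sub_one, e2, om, mul_assoc]
  · by_cases h : t ∈ Icc r (r + l)
    · rw [le_antisymm (not_lt.1 ht) (hr.trans h.1)]
      simp
    · rw [indicator_of_notMem h, smul_zero]

theorem pigeon {F : X → ℝ} (hF : Continuous F) (h0 : ∀ x, 0 ≤ F x) (y : X) {r l : ℝ} (hr : 0 ≤ r)
    (hl : 0 < l) {N : ℕ} (hN : 0 < N) : ∃ j : ℕ, j < N ∧
      (N : ℝ) * ∫ x in sh y (r + j * l) l, F x ≤ ∫ x in closedBall y (r + N * l), F x := by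
  have e : ∀ j : ℕ, ∫ x in sh y (r + j * l) l, F x =
      (∫ x in closedBall y (r + (j + 1 : ℕ) * l), F x) - ∫ x in closedBall y (r + j * l), F x :=
    fun j => by rw [b3pig_sh hF y _ hl.le, Nat.cast_succ, add_mul, one_mul, add_assoc]
  obtain ⟨j, h1, h2⟩ := Finset.exists_le_of_sum_le (Finset.nonempty_range_iff.2 hN.ne')
    (f := fun j : ℕ => (N : ℝ) * ∫ x in sh y (r + j * l) l, F x)
    (g := fun _ => ∫ x in closedBall y (r + N * l), F x) (by
      simp only [e]
      rw [← Finset.mul_sum, Finset.sum_range_sub fun j : ℕ => ∫ x in closedBall y (r + j * l), F x,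
        Finset.sum_const, Finset.card_range, nsmul_eq_mul]
      exact mul_le_mul_of_nonneg_left (sub_le_self _ (integral_nonneg h0)) N.cast_nonneg)
  exact ⟨j, Finset.mem_range.1 h1, h2⟩

end Vale.Agent.P134.B3
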