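import Vale.Agent.P134.B3Hh
import Vale.Agent.P134.B3Pig

/-! P134, block B3: mollification. -/

open Filter Topology MeasureTheory Set Metric
open scoped ContDiff RealInnerProductSpace NNReal Laplacian

namespace Vale.Agent.P134.B3

variable {u : X → ℝ} {a : X}

variable {w ρ : X → ℝ} {p : X → X}

theorem b3av_tst (x : X) : Tst fun y => kk (‖x - y‖ ^ 2) := by
  have := (tst_pw 0 x one_pos).mul (contDiff_const (c := 6 / om))
  simpa only [kk, one_pow, div_one, norm_sub_rev x, zero_add] using this

theorem b3av_tst0 : Tst fun y : X => kk (‖y‖ ^ 2) := by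
  simpa only [zero_sub, norm_neg] using b3av_tst 0

theorem b3av_zero {z : X} (h : 1 ≤ ‖z‖) : kk (‖z‖ ^ 2) = 0 := kk_zero (one_le_pow₀ h)

theorem b3av_int {f : X → ℝ} (hf : Continuous f) : Integrable fun z => kk (‖z‖ ^ 2) * f z := by
  simpa only [mul_comm] using b3av_tst0.int hf

theorem b3av_swap {α β : Type} [MeasurableSpace α] [MeasurableSpace β] {μ : Measure α}
    {ν : Measure β} [SFinite μ] [SFinite ν] (F : α → β → ℝ)
    (hF : Integrable (Function.uncurry F) (μ.prod ν)) {f : α → ℝ} {g : β → ℝ} (h0 : ∀ x, 0 ≤ f x)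
    (h1 : ∀ x, f x ≤ ∫ y, F x y ∂ν) (hg : Integrable g ν) (h2 : ∀ᵐ y ∂ν, ∫ x, F x y ∂μ ≤ g y) :
    ∫ x, f x ∂μ ≤ ∫ y, g y ∂ν :=
  (integral_mono_of_nonneg (Eventually.of_forall h0) hF.integral_prod_left
    (Eventually.of_forall h1)).trans
    ((integral_integral_swap hF).trans_le (integral_mono_ae hF.integral_prod_right hg h2))

theorem kk_mass : ∫ z : X, kk (‖z‖ ^ 2) = 1 := by
  have o := om_pos
  have a := int_sh_radial (f := fun t => kk (t ^ 2)) (contDiff_kk.continuous.comp (by fun_prop))
    (0 : X) le_rfl zero_le_one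
  simp only [sub_zero, zero_add] at a
  rw [setIntegral_eq_integral_of_forall_compl_eq_zero fun z hz => b3av_zero (by
    simp only [sh, zero_add, ball_zero, sdiff_empty, mem_closedBall_zero_iff, not_le] at hz
    exact hz.le)] at a
  have b : ∫ t in (0 : ℝ)..1, t ^ 3 * kk (t ^ 2) =
      ∫ t in (0 : ℝ)..1, 6 / om * (t ^ 3 - 2 * t ^ 5 + t ^ 7) :=
    intervalIntegral.integral_congr fun t ht => by
      rw [uIcc_of_le zero_le_one] at ht
      have : 0 ≤ 1 - t ^ 2 := by nlinarith [ht.1, ht.2]
      simp only [kk, pw, max_eq_left this]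
      ring
  have c : ∫ t in (0 : ℝ)..1, (t ^ 3 - 2 * t ^ 5 + t ^ 7) = 1 / 24 := by
    rw [intervalIntegral.integral_add (Continuous.intervalIntegrable (by fun_prop) _ _)
      (Continuous.intervalIntegrable (by fun_prop) _ _),
      intervalIntegral.integral_sub (Continuous.intervalIntegrable (by fun_prop) _ _)
      (Continuous.intervalIntegrable (by fun_prop) _ _), intervalIntegral.integral_const_mul,
      integral_pow, integral_pow, integral_pow]
    norm_num
  rw [a, b, intervalIntegral.integral_const_mul, c]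
  field_simp
  norm_num

theorem Av_eq (w : X → ℝ) (x : X) : Av w x = ∫ z, kk (‖z‖ ^ 2) * w (x + z) := by
  rw [Av, ← integral_add_left_eq_self (fun y => kk (‖x - y‖ ^ 2) * w y) x]
  simp only [sub_add_cancel_left, norm_neg]

theorem Av_abs (h : Tri w ρ p) (x : X) : |Av w x| ≤ s0 / 2 := by
  have a := norm_integral_le_of_norm_le (f := fun z => kk (‖z‖ ^ 2) * w (x + z))
    (b3av_int (continuous_const (y := s0 / 2))) (Eventually.of_forall fun z => by
      rw [Real.norm_eq_abs, abs_mul, abs_of_nonneg (kk_nonneg _)]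
      exact mul_le_mul_of_nonneg_left (h.wb _) (kk_nonneg _))
  rwa [integral_mul_const, kk_mass, one_mul, ← Av_eq] at a

theorem Av_lip : ∃ C : ℝ, 0 ≤ C ∧ ∀ (w ρ : X → ℝ) (p : X → X), Tri w ρ p → ∀ x x' : X,
    |Av w x - Av w x'| ≤ C * ‖x - x'‖ := by
  obtain ⟨K, hK⟩ := b3av_tst0.c1.lipschitzWith_of_hasCompactSupport b3av_tst0.cs one_ne_zero
  have o := om_pos
  have s := s0_pos
  refine ⟨K * s0 * om, by positivity, fun w ρ p h x x' => ?_⟩
  have i : ∀ x : X, Integrable fun y => kk (‖x - y‖ ^ 2) * w y := fun x => by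
    simpa only [mul_comm] using (b3av_tst x).int h.w2.continuous
  have v : volume.real (ball x 1 ∪ ball x' 1) ≤ 2 * om := by
    have := measureReal_union_le (μ := volume) (ball x 1) (ball x' 1)
    rw [vol_ball x zero_le_one, vol_ball x' zero_le_one] at this
    linarith
  have a := norm_setIntegral_le_of_norm_le_const (μ := volume) (s := ball x 1 ∪ ball x' 1)
    (f := fun y => kk (‖x - y‖ ^ 2) * w y - kk (‖x' - y‖ ^ 2) * w y)
    (C := K * ‖x - x'‖ * (s0 / 2)) (isBounded_ball.union isBounded_ball).measure_lt_top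
    fun y _ => by
      have := hK.norm_sub_le (x - y) (x' - y)
      rw [sub_sub_sub_cancel_right] at this
      rw [← sub_mul, norm_mul]
      exact mul_le_mul this (h.wb y) (norm_nonneg _) (by positivity)
  rw [setIntegral_eq_integral_of_forall_compl_eq_zero fun y hy => by
    rw [mem_union, not_or, mem_ball', mem_ball', dist_eq_norm, dist_eq_norm, not_lt, not_lt] at hy
    rw [b3av_zero hy.1, b3av_zero hy.2, sub_self], integral_sub (i x) (i x')] at a
  refine a.trans ((mul_le_mul_of_nonneg_left v (by positivity)).trans (le_of_eq ?_))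
  ring

theorem b3av_seg (h : Tri w ρ p) (x : X) {z : X} (hz : ‖z‖ ≤ 1) :
    |w (x + z) - w x| ≤ ∫ t in Ioc (0 : ℝ) 1, ρ (x + t • z) := by
  have rc := h.rc
  have pc := h.p1.continuous
  have d : ∀ t : ℝ, HasDerivAt (fun t : ℝ => w (x + t • z))
      (ρ (x + t • z) * ⟪p (x + t • z), z⟫) t := fun t => by
    have := (h.w2.differentiable two_ne_zero (x + t • z)).hasFDerivAt.comp_hasDerivAt t
      (((hasDerivAt_id t).smul_const z).const_add x)
    rwa [one_smul, h.dw] at this
  have a := intervalIntegral.integral_eq_sub_of_hasDerivAt (a := 0) (b := 1) (fun t _ => d t)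
    (Continuous.intervalIntegrable (by fun_prop) _ _)
  rw [one_smul, zero_smul, add_zero] at a
  rw [← a, ← intervalIntegral.integral_of_le zero_le_one, ← Real.norm_eq_abs]
  refine intervalIntegral.norm_integral_le_of_norm_le (g := fun t : ℝ => ρ (x + t • z))
    zero_le_one (Eventually.of_forall fun t _ => ?_)
    (Continuous.intervalIntegrable (by fun_prop) _ _)
  rw [norm_mul, Real.norm_of_nonneg (h.r0 _)]
  exact mul_le_of_le_one_right (h.r0 _) ((norm_inner_le_norm _ _).trans
    (mul_le_one₀ (h.pl _) (norm_nonneg _) hz))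

theorem b3av_shift (h : Tri w ρ p) (L : ℝ) {z : X} (hz : ‖z‖ ≤ 1) :
    ∫ x in ball (0 : X) L, |w (x + z) - w x| ≤ ∫ x in ball (0 : X) (L + 1), ρ x := by
  have rc := h.rc
  have a := b3av_swap (μ := volume.restrict (ball (0 : X) L)) (ν := volume.restrict (Ioc (0 : ℝ) 1))
    (fun x t => ρ (x + t • z)) (by
      rw [Measure.prod_restrict]
      exact (ContinuousOn.integrableOn_compact ((isCompact_closedBall (0 : X) L).prod
        (isCompact_Icc (a := (0 : ℝ)) (b := 1))) (Continuous.continuousOn (by fun_prop))).mono_set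
        (prod_mono ball_subset_closedBall Ioc_subset_Icc_self))
    (fun _ => abs_nonneg _) (fun x => b3av_seg h x hz)
    (integrable_const (∫ x in ball (0 : X) (L + 1), ρ x))
    ((ae_restrict_mem measurableSet_Ioc).mono fun t ht => by
      have b := int_scale ρ (t • z) one_pos L
      simp only [one_smul, one_pow, inv_one, one_mul, add_comm (t • z)] at b
      rw [b]
      refine int_ball_mono rc h.r0 ?_
      rw [sub_zero, norm_smul, Real.norm_of_nonneg ht.1.le]
      linarith [mul_le_one₀ ht.2 (norm_nonneg z) hz])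
  simpa using a

theorem Av_err (h : Tri w ρ p) (L : ℝ) :
    ∫ x in ball (0 : X) L, |Av w x - w x| ≤ ∫ x in ball (0 : X) (L + 1), ρ x := by
  have wc := h.w2.continuous
  have kc := contDiff_kk.continuous
  have a := b3av_swap (μ := volume.restrict (ball (0 : X) L)) (ν := (volume : Measure X))
    (fun x z => kk (‖z‖ ^ 2) * |w (x + z) - w x|) (f := fun x => |Av w x - w x|)
    (Integrable.mono' ((intOn_ball (continuous_const (y := s0)) 0 L).mul_prod
      (b3av_int (continuous_const (y := 1)))) (Continuous.aestronglyMeasurable (by fun_prop))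
      (Eventually.of_forall fun q => by
        have a1 := abs_sub (w (q.1 + q.2)) (w q.1)
        have a2 := h.wb (q.1 + q.2)
        have a3 := h.wb q.1
        have a4 := kk_nonneg (‖q.2‖ ^ 2)
        simp only [Function.uncurry]
        rw [Real.norm_of_nonneg (by positivity)]
        nlinarith))
    (fun _ => abs_nonneg _) (fun x => by
      have e : Av w x - w x = ∫ z, kk (‖z‖ ^ 2) * (w (x + z) - w x) := by
        simp only [mul_sub]
        rw [integral_sub (b3av_int (by fun_prop)) (b3av_int continuous_const), integral_mul_const,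
          kk_mass, one_mul, Av_eq]
      rw [e]
      refine abs_integral_le_integral_abs.trans (le_of_eq ?_)
      simp only [abs_mul, abs_of_nonneg (kk_nonneg _)])
    (b3av_int (continuous_const (y := ∫ x in ball (0 : X) (L + 1), ρ x)))
    (Eventually.of_forall fun z => by
      rw [integral_const_mul]
      rcases le_total ‖z‖ 1 with k | k
      · exact mul_le_mul_of_nonneg_left (b3av_shift h L k) (kk_nonneg _)
      · rw [b3av_zero k, zero_mul, zero_mul])
  rwa [integral_mul_const, kk_mass, one_mul] at a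

end Vale.Agent.P134.B3
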