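import Vale.Agent.P134.B3Pig

/-! P134, block B3: gluing and the energy bound. -/

open Filter Topology MeasureTheory Set Metric
open scoped ContDiff RealInnerProductSpace NNReal Laplacian

namespace Vale.Agent.P134.B3

variable {u : X → ℝ} {a : X}

theorem ct_lip (y : X) (r : ℝ) {l : ℝ} (hl : 0 < l) :
    LipschitzWith (Real.toNNReal l⁻¹) (ct y r l) := by
  have h : LipschitzWith (Real.toNNReal l⁻¹) fun x : X => (r + l - ‖x - y‖) / l := by
    refine LipschitzWith.of_dist_le_mul fun x z => ?_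
    rw [Real.coe_toNNReal _ (inv_nonneg.2 hl.le), Real.dist_eq, dist_eq_norm, ← sub_div, abs_div,
      abs_of_pos hl, div_eq_inv_mul]
    refine mul_le_mul_of_nonneg_left ?_ (inv_nonneg.2 hl.le)
    have := abs_norm_sub_norm_le (z - y) (x - y)
    rw [show z - y - (x - y) = -(x - z) by abel, norm_neg] at this
    rw [show r + l - ‖x - y‖ - (r + l - ‖z - y‖) = ‖z - y‖ - ‖x - y‖ by ring]
    exact this
  exact (h.const_min 1).const_max 0

theorem ct_mem (y : X) (r l : ℝ) (x : X) : 0 ≤ ct y r l x ∧ ct y r l x ≤ 1 :=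
  ⟨le_max_left _ _, max_le zero_le_one (min_le_left _ _)⟩

theorem ct_one {y : X} {r l : ℝ} (hl : 0 < l) {x : X} (hx : ‖x - y‖ ≤ r) : ct y r l x = 1 := by
  have : 1 ≤ (r + l - ‖x - y‖) / l := by
    rw [le_div_iff₀ hl]; linarith
  unfold ct
  rw [min_eq_left this, max_eq_right zero_le_one]

theorem ct_zero {y : X} {r l : ℝ} (hl : 0 < l) {x : X} (hx : r + l ≤ ‖x - y‖) : ct y r l x = 0 := by
  have : (r + l - ‖x - y‖) / l ≤ 0 := div_nonpos_of_nonpos_of_nonneg (by linarith) hl.le
  unfold ct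
  exact max_eq_left ((min_le_right _ _).trans this)

theorem b3en_int {w : X → ℝ} {K : ℝ≥0} (hw : LipschitzWith K w) {B : Set X} (hB : IsCompact B) :
    IntegrableOn (en w) B := by
  have hm : Measurable fun x => ‖fderiv ℝ w x‖ ^ 2 / 2 :=
    ((measurable_fderiv ℝ w).norm.pow_const 2).div_const 2
  have h1 : IntegrableOn (fun x => ‖fderiv ℝ w x‖ ^ 2 / 2) B := by
    refine Measure.integrableOn_of_bounded (M := (K : ℝ) ^ 2 / 2) hB.measure_lt_top.ne
      hm.aestronglyMeasurable (Eventually.of_forall fun x => ?_)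
    rw [Real.norm_eq_abs, abs_of_nonneg (by positivity)]
    have := norm_fderiv_le_of_lipschitz ℝ hw (x₀ := x)
    have h2 := pow_le_pow_left₀ (norm_nonneg _) this 2
    linarith
  have hc : Continuous fun x => (1 - w x ^ 2) ^ 2 / 4 := by
    have := hw.continuous
    fun_prop
  exact h1.add (hc.continuousOn.integrableOn_compact hB)

theorem b3en_lip {u z c : X → ℝ} {K : ℝ≥0} (hu : LipschitzWith 1 u) (hz : LipschitzWith 1 z)
    (hc : LipschitzWith K c) (bu : ∀ x, |u x| ≤ 1) (bz : ∀ x, |z x| ≤ 1)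
    (bc : ∀ x, 0 ≤ c x ∧ c x ≤ 1) :
    LipschitzWith (3 + 2 * K) fun x => u x + c x * (z x - u x) := by
  refine LipschitzWith.of_dist_le_mul fun x y => ?_
  have h1 := hu.dist_le_mul x y
  have h2 := hz.dist_le_mul x y
  have h3 := hc.dist_le_mul x y
  rw [Real.dist_eq] at h1 h2 h3 ⊢
  push_cast at h1 h2 ⊢
  have e : u x + c x * (z x - u x) - (u y + c y * (z y - u y)) =
      (u x - u y) + c x * ((z x - z y) - (u x - u y)) + (c x - c y) * (z y - u y) := by ring
  have h4 : |c x * ((z x - z y) - (u x - u y))| ≤ 2 * dist x y := by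
    rw [abs_mul, abs_of_nonneg (bc x).1]
    have := abs_sub (z x - z y) (u x - u y)
    have h5 := mul_le_of_le_one_left (abs_nonneg ((z x - z y) - (u x - u y))) (bc x).2
    linarith
  have h5 : |(c x - c y) * (z y - u y)| ≤ K * dist x y * 2 := by
    rw [abs_mul]
    refine mul_le_mul h3 ?_ (abs_nonneg _) (by positivity)
    have := abs_sub (z y) (u y)
    linarith [bu y, bz y]
  rw [e]
  have h6 := abs_add_three (u x - u y) (c x * ((z x - z y) - (u x - u y)))
    ((c x - c y) * (z y - u y))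
  linarith

theorem b3en_der {u z c : X → ℝ} {x : X} {k : ℝ} (hu : DifferentiableAt ℝ u x)
    (hz : DifferentiableAt ℝ z x) (hc : DifferentiableAt ℝ c x) (bc : 0 ≤ c x ∧ c x ≤ 1)
    (hk : ‖fderiv ℝ c x‖ ≤ k) :
    ‖fderiv ℝ (fun x => u x + c x * (z x - u x)) x‖ ≤
      ‖fderiv ℝ u x‖ + ‖fderiv ℝ z x‖ + |z x - u x| * k := by
  have h : HasFDerivAt (fun x => u x + c x * (z x - u x))
      (fderiv ℝ u x + (c x • (fderiv ℝ z x - fderiv ℝ u x) + (z x - u x) • fderiv ℝ c x)) x :=
    hu.hasFDerivAt.add (hc.hasFDerivAt.mul (hz.hasFDerivAt.sub hu.hasFDerivAt))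
  have e : fderiv ℝ u x + (c x • (fderiv ℝ z x - fderiv ℝ u x) + (z x - u x) • fderiv ℝ c x) =
      (1 - c x) • fderiv ℝ u x + c x • fderiv ℝ z x + (z x - u x) • fderiv ℝ c x := by
    rw [smul_sub, sub_smul (1 : ℝ), one_smul]; abel
  rw [h.fderiv, e]
  refine norm_add₃_le.trans ?_
  rw [norm_smul, norm_smul, norm_smul, Real.norm_eq_abs, Real.norm_eq_abs, Real.norm_eq_abs,
    abs_of_nonneg (by linarith [bc.2] : 0 ≤ 1 - c x), abs_of_nonneg bc.1]
  have h1 := mul_le_of_le_one_left (norm_nonneg (fderiv ℝ u x)) (by linarith [bc.1] : 1 - c x ≤ 1)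
  have h2 := mul_le_of_le_one_left (norm_nonneg (fderiv ℝ z x)) bc.2
  have h3 := mul_le_mul_of_nonneg_left hk (abs_nonneg (z x - u x))
  linarith

theorem Cx.glue (h : Cx u a) {z : X → ℝ} (hz : ContDiff ℝ 1 z) (hz1 : LipschitzWith 1 z)
    (hb : ∀ x, |z x| ≤ 1) (y : X) {r l : ℝ} (hr : 0 < r) (hl : 0 < l) :
    ∫ x in closedBall y (r + l), en u x ≤ (∫ x in ball y r, en z x) +
      ∫ x in sh y r l, ((‖fderiv ℝ u x‖ + ‖fderiv ℝ z x‖ + |z x - u x| / l) ^ 2 / 2 +
        (1 - (u x + ct y r l x * (z x - u x)) ^ 2) ^ 2 / 4) := by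
  have hct := ct_lip y r hl
  have hsm : ContDiff ℝ 1 u := h.nd.sol.sm.of_le one_le_oo
  have hL := b3en_lip h.lip hz1 hct h.nd.sol.bd hb (ct_mem y r l)
  have hK : IsCompact (closedBall y (r + l)) := isCompact_closedBall _ _
  have h1 := h.mini _ _ _ hL hK fun x hx => by
    have : r + l ≤ ‖x - y‖ := by
      rw [mem_closedBall, dist_eq_norm, not_le] at hx
      exact hx.le
    simp only [ct_zero hl this, zero_mul, add_zero]
  have hI := b3en_int hL hK
  have hsub : ball y r ⊆ closedBall y (r + l) :=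
    ball_subset_closedBall.trans (closedBall_subset_closedBall (by linarith))
  have hsub2 : sh y r l ⊆ closedBall y (r + l) := sdiff_subset
  have hU : closedBall y (r + l) = ball y r ∪ sh y r l := (union_sdiff_cancel hsub).symm
  have h2 : ∫ x in closedBall y (r + l), en (fun x => u x + ct y r l x * (z x - u x)) x =
      (∫ x in ball y r, en (fun x => u x + ct y r l x * (z x - u x)) x) +
        ∫ x in sh y r l, en (fun x => u x + ct y r l x * (z x - u x)) x := by
    have hd : Disjoint (ball y r) (sh y r l) := disjoint_sdiff_right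
    rw [← setIntegral_union hd (measurableSet_sh y r l) (hI.mono_set hsub)
      (hI.mono_set hsub2), ← hU]
  have h3 : ∫ x in ball y r, en (fun x => u x + ct y r l x * (z x - u x)) x =
      ∫ x in ball y r, en z x := by
    refine setIntegral_congr_fun measurableSet_ball fun x hx => ?_
    have e : (fun x => u x + ct y r l x * (z x - u x)) =ᶠ[𝓝 x] z := by
      filter_upwards [isOpen_ball.mem_nhds hx] with w hw
      rw [mem_ball, dist_eq_norm] at hw
      rw [ct_one hl hw.le]; ring
    unfold en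
    rw [e.fderiv_eq, e.self_of_nhds]
  have hG : Continuous fun x => (‖fderiv ℝ u x‖ + ‖fderiv ℝ z x‖ + |z x - u x| / l) ^ 2 / 2 +
      (1 - (u x + ct y r l x * (z x - u x)) ^ 2) ^ 2 / 4 := by
    have c1 := hsm.continuous_fderiv one_ne_zero
    have c2 := hz.continuous_fderiv one_ne_zero
    have c3 := hsm.continuous
    have c4 := hz.continuous
    have c5 := hct.continuous
    fun_prop
  have h4 : ∫ x in sh y r l, en (fun x => u x + ct y r l x * (z x - u x)) x ≤
      ∫ x in sh y r l, ((‖fderiv ℝ u x‖ + ‖fderiv ℝ z x‖ + |z x - u x| / l) ^ 2 / 2 +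
        (1 - (u x + ct y r l x * (z x - u x)) ^ 2) ^ 2 / 4) := by
    refine setIntegral_mono_ae (hI.mono_set hsub2) (intOn_sh hG y r l) ?_
    filter_upwards [hct.ae_differentiableAt (μ := volume)] with x hx
    have hk : ‖fderiv ℝ (ct y r l) x‖ ≤ l⁻¹ := by
      have := norm_fderiv_le_of_lipschitz ℝ hct (x₀ := x)
      rwa [Real.coe_toNNReal _ (inv_nonneg.2 hl.le)] at this
    have h5 := b3en_der (hsm.differentiable one_ne_zero x) (hz.differentiable one_ne_zero x) hx
      (ct_mem y r l x) hk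
    have h6 := pow_le_pow_left₀ (norm_nonneg _) h5 2
    unfold en
    rw [div_eq_mul_inv |z x - u x| l]
    linarith
  linarith

theorem b3en_const_le {F : X → ℝ} {s : Set X} {M : ℝ} (hs : MeasurableSet s)
    (hv : volume s ≠ ⊤) (hF : IntegrableOn F s) (hM : ∀ x, F x ≤ M) :
    ∫ x in s, F x ≤ M * volume.real s := by
  have := setIntegral_mono_on hF (integrableOn_const hv) hs fun x _ => hM x
  rwa [setIntegral_const, smul_eq_mul, mul_comm] at this

theorem b3en_vol (h : Cx u a) (y : X) {r : ℝ} (hr : 0 < r) :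
    ∫ x in ball y r, en u x ≤ 75 * om * r ^ 3 := by
  have hom := om_pos
  have hr3 : 0 < r ^ 3 := by positivity
  rcases le_total r 1 with h1 | h1
  · have h2 := b3en_const_le measurableSet_ball measure_ball_lt_top.ne (intOn_ball h.cont_en y r)
      (M := 1) fun x => by
        rw [h.en_eq]
        nlinarith [h.r_le x, h.r_pos x, h.bas.s0 x]
    rw [vol_ball y hr.le] at h2
    have : r ^ 4 ≤ r ^ 3 := pow_le_pow_of_le_one hr.le h1 (by norm_num)
    nlinarith
  · have h2 := h.glue (z := fun _ => -1) contDiff_const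
      ((LipschitzWith.const (-1 : ℝ)).weaken zero_le_one) (fun _ => by simp) y hr one_pos
    have e0 : ∫ x in ball y r, en (fun _ : X => (-1 : ℝ)) x = 0 := by simp [en]
    have hK : IsCompact (closedBall y (r + 1)) := isCompact_closedBall _ _
    have h3 : ∫ x in ball y r, en u x ≤ ∫ x in closedBall y (r + 1), en u x := by
      refine setIntegral_mono_set (h.cont_en.continuousOn.integrableOn_compact hK)
        (Eventually.of_forall fun x => ?_) (LE.le.eventuallyLE
          (ball_subset_closedBall.trans (closedBall_subset_closedBall (by linarith))))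
      unfold en
      positivity
    have hsm : ContDiff ℝ 1 u := h.nd.sol.sm.of_le one_le_oo
    have hG : Continuous fun x => (‖fderiv ℝ u x‖ + ‖fderiv ℝ (fun _ : X => (-1 : ℝ)) x‖ +
        |-1 - u x| / 1) ^ 2 / 2 + (1 - (u x + ct y r 1 x * (-1 - u x)) ^ 2) ^ 2 / 4 := by
      have c1 := hsm.continuous_fderiv one_ne_zero
      have c2 := (contDiff_const (𝕜 := ℝ) (n := 1) (E := X) (c := (-1 : ℝ))).continuous_fderiv
        one_ne_zero
      have c3 := hsm.continuous
      have c5 := (ct_lip y r one_pos).continuous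
      fun_prop
    have hv : volume (sh y r 1) ≠ ⊤ :=
      ((measure_mono (sdiff_subset : sh y r 1 ⊆ closedBall y (r + 1))).trans_lt hK.measure_lt_top).ne
    have h4 := b3en_const_le (measurableSet_sh y r 1) hv (intOn_sh hG y r 1) (M := 5) fun x => by
      have a1 : ‖fderiv ℝ u x‖ ≤ 1 := by
        simpa using norm_fderiv_le_of_lipschitz ℝ h.lip (x₀ := x)
      have a2 : ‖fderiv ℝ (fun _ : X => (-1 : ℝ)) x‖ = 0 := by simp
      have a3 := abs_le.1 (h.nd.sol.bd x)
      have a4 : |-1 - u x| ≤ 2 := abs_le.2 ⟨by linarith, by linarith⟩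
      have a5 := ct_mem y r 1 x
      have a6 : (‖fderiv ℝ u x‖ + 0 + |-1 - u x| / 1) ^ 2 ≤ 3 ^ 2 :=
        pow_le_pow_left₀ (by positivity) (by linarith) 2
      have a7 : (u x + ct y r 1 x * (-1 - u x)) ^ 2 ≤ 1 := by
        refine (sq_le_one_iff_abs_le_one _).2 (abs_le.2 ⟨?_, ?_⟩) <;> nlinarith
      have a8 : (1 - (u x + ct y r 1 x * (-1 - u x)) ^ 2) ^ 2 ≤ 1 := by
        have := sq_nonneg (u x + ct y r 1 x * (-1 - u x))
        exact pow_le_one₀ (by linarith) (by linarith)
      rw [a2]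
      linarith
    rw [vol_sh y hr.le zero_le_one] at h4
    have h5 : (r + 1) ^ 4 - r ^ 4 ≤ 15 * r ^ 3 := by
      have b1 : r ^ 2 ≤ r ^ 3 := pow_le_pow_right₀ h1 (by norm_num)
      have b2 : r ≤ r ^ 3 := by simpa using pow_le_pow_right₀ h1 (by norm_num : 1 ≤ 3)
      have b3 : 1 ≤ r ^ 3 := one_le_pow₀ h1
      nlinarith
    have h6 := mul_le_mul_of_nonneg_left h5 hom.le
    linarith

theorem Cx.vol (h : Cx u a) : ∃ C : ℝ, 0 < C ∧ ∀ (y : X) (r : ℝ), 0 < r →
    ∫ x in ball y r, rr u x ≤ C * r ^ 3 ∧ ∫ x in ball y r, en u x ≤ C * r ^ 3 := by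
  have hom := om_pos
  refine ⟨150 * om, by positivity, fun y r hr => ?_⟩
  have h1 := b3en_vol h y hr
  have h2 : 0 < om * r ^ 3 := by positivity
  refine ⟨?_, by linarith⟩
  have h3 : ∫ x in ball y r, rr u x ≤ ∫ x in ball y r, 2 * en u x := by
    refine setIntegral_mono (intOn_ball h.sm_r.continuous y r)
      (intOn_ball (continuous_const.mul h.cont_en) y r) fun x => ?_
    show rr u x ≤ 2 * en u x
    rw [h.en_eq]
    nlinarith [h.r_pos x, h.bas.s1 x]
  rw [integral_const_mul] at h3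
  linarith

end Vale.Agent.P134.B3
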