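import Vale.Agent.P134.B3Str
import Vale.Agent.P134.B3En

/-! P134, block B3: the monotonicity formula. -/

open Filter Topology MeasureTheory Set Metric
open scoped ContDiff RealInnerProductSpace NNReal Laplacian

namespace Vale.Agent.P134.B3

variable {u : X → ℝ} {a : X}

theorem b3mon_off (n : ℕ) {R : ℝ} (hR : 0 < R) {x : X} (hx : R ≤ ‖x‖) :
    pw (n + 1) (‖x‖ ^ 2 / R ^ 2) = 0 :=
  pw_zero n (by rw [le_div_iff₀ (by positivity), one_mul]; gcongr)

theorem b3mon_int {f : X → ℝ} (hf : Continuous f) (n : ℕ) {R : ℝ} (hR : 0 < R) :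
    Integrable fun x : X => f x * pw (n + 1) (‖x‖ ^ 2 / R ^ 2) := by
  have := continuous_pw (n + 1)
  refine Continuous.integrable_of_hasCompactSupport (by fun_prop) ?_
  refine HasCompactSupport.intro (isCompact_closedBall (0 : X) R) fun x hx => ?_
  rw [b3mon_off n hR (by simpa using le_of_lt (by simpa using hx)), mul_zero]

/-- weighted energy -/
noncomputable def b3mon_I (u : X → ℝ) (R : ℝ) : ℝ := ∫ x, en u x * pw 2 (‖x‖ ^ 2 / R ^ 2)

/-- the defect -/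
noncomputable def b3mon_D (u : X → ℝ) (R : ℝ) : ℝ :=
  ∫ x, (rr u x * ss u x / 2 * pw 2 (‖x‖ ^ 2 / R ^ 2) +
    4 * rr u x * ⟪x, pp u x⟫ ^ 2 / R ^ 2 * pw 1 (‖x‖ ^ 2 / R ^ 2))

theorem b3mon_en0 (u : X → ℝ) (x : X) : 0 ≤ en u x := by unfold en; positivity

theorem b3mon_dI (h : Cx u a) {R : ℝ} (hR : 0 < R) : HasDerivAt (b3mon_I u)
    (∫ x, en u x * (4 * ‖x‖ ^ 2 / R ^ 3) * pw 1 (‖x‖ ^ 2 / R ^ 2)) R := by
  have hc := h.cont_en
  refine (hasDerivAt_integral_of_dominated_loc_of_deriv_le (s := Ioo (R / 2) (2 * R))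
    (F := fun R x => en u x * pw 2 (‖x‖ ^ 2 / R ^ 2))
    (F' := fun R x => en u x * (4 * ‖x‖ ^ 2 / R ^ 3) * pw 1 (‖x‖ ^ 2 / R ^ 2))
    (bound := (closedBall (0 : X) (2 * R)).indicator fun x => en u x * (4 * ‖x‖ ^ 2 / (R / 2) ^ 3))
    (Ioo_mem_nhds (by linarith) (by linarith)) ?_ (b3mon_int hc 1 hR)
    (b3mon_int (by fun_prop) 0 hR).aestronglyMeasurable (ae_of_all _ fun x t ht => ?_) ?_
    (ae_of_all _ fun x t ht => ?_)).2
  · filter_upwards [Ioi_mem_nhds hR] with t ht using (b3mon_int hc 1 ht).aestronglyMeasurable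
  · have ht0 : 0 < t := by linarith [ht.1]
    have e0 := b3mon_en0 u x
    by_cases hx : x ∈ closedBall (0 : X) (2 * R)
    · have p0 := pw_nonneg 1 (‖x‖ ^ 2 / t ^ 2)
      have p1 := pw_le_one 1 (s := ‖x‖ ^ 2 / t ^ 2) (by positivity)
      rw [indicator_of_mem hx, Real.norm_of_nonneg (by positivity)]
      refine (mul_le_of_le_one_right (by positivity) p1).trans ?_
      gcongr
      exact ht.1.le
    · rw [indicator_of_notMem hx, b3mon_off 0 ht0, mul_zero, norm_zero]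
      have : 2 * R < ‖x‖ := by simpa using hx
      linarith [ht.2]
  · exact (integrable_indicator_iff measurableSet_closedBall).2
      (ContinuousOn.integrableOn_compact (isCompact_closedBall _ _) (by fun_prop))
  · have ht0 : t ≠ 0 := by linarith [ht.1] |> ne_of_gt
    have h1 : HasDerivAt (fun t : ℝ => ‖x‖ ^ 2 / t ^ 2) (-(2 * ‖x‖ ^ 2 / t ^ 3)) t := by
      refine ((hasDerivAt_const t (‖x‖ ^ 2)).div (hasDerivAt_pow 2 t)
        (pow_ne_zero 2 ht0)).congr_deriv ?_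
      field_simp
      ring
    refine (((hasDerivAt_pw 0 _).comp t h1).const_mul (en u x)).congr_deriv ?_
    ring

theorem b3mon_id (h : Cx u a) {R : ℝ} (hR : 0 < R) :
    R * (∫ x, en u x * (4 * ‖x‖ ^ 2 / R ^ 3) * pw 1 (‖x‖ ^ 2 / R ^ 2)) - 3 * b3mon_I u R =
      b3mon_D u R := by
  have hc := h.cont_en
  have c1 := h.sm_r.continuous
  have c2 := h.bas.sms.continuous
  have c3 := h.sm_p.continuous
  have hs := h.stress (tst_pw 0 0 hR)
  simp only [fderiv_pw] at hs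
  simp only [sub_zero] at hs
  have i1 : Integrable fun x => R * (en u x * (4 * ‖x‖ ^ 2 / R ^ 3) * pw 1 (‖x‖ ^ 2 / R ^ 2)) :=
    (b3mon_int (f := fun x => en u x * (4 * ‖x‖ ^ 2 / R ^ 3)) (by fun_prop) 0 hR).const_mul R
  have i2 : Integrable fun x => 3 * (en u x * pw 2 (‖x‖ ^ 2 / R ^ 2)) :=
    (b3mon_int hc 1 hR).const_mul 3
  have i3 : Integrable fun x => rr u x * ss u x / 2 * pw 2 (‖x‖ ^ 2 / R ^ 2) +
      4 * rr u x * ⟪x, pp u x⟫ ^ 2 / R ^ 2 * pw 1 (‖x‖ ^ 2 / R ^ 2) :=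
    (b3mon_int (f := fun x => rr u x * ss u x / 2) (by fun_prop) 1 hR).add
      (b3mon_int (f := fun x => 4 * rr u x * ⟪x, pp u x⟫ ^ 2 / R ^ 2) (by fun_prop) 0 hR)
  have i4 : Integrable fun x => R * (en u x * (4 * ‖x‖ ^ 2 / R ^ 3) * pw 1 (‖x‖ ^ 2 / R ^ 2)) -
      3 * (en u x * pw 2 (‖x‖ ^ 2 / R ^ 2)) := i1.sub i2
  rw [b3mon_I, b3mon_D, ← integral_const_mul, ← integral_const_mul,
    ← integral_sub i1 i2, ← sub_eq_zero, ← integral_sub i4 i3, ← hs]
  refine integral_congr_ae (ae_of_all _ fun x => ?_)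
  simp only [h.en_eq, real_inner_self_eq_norm_sq, zero_add]
  field_simp
  ring

theorem b3mon_dP (h : Cx u a) {R : ℝ} (hR : 0 < R) :
    HasDerivAt (fun R => (R ^ 3)⁻¹ * b3mon_I u R) ((R ^ 4)⁻¹ * b3mon_D u R) R := by
  refine (((hasDerivAt_pow 3 R).inv (pow_ne_zero 3 hR.ne')).mul (b3mon_dI h hR)).congr_deriv ?_
  rw [← b3mon_id h hR]
  generalize ∫ x, en u x * (4 * ‖x‖ ^ 2 / R ^ 3) * pw 1 (‖x‖ ^ 2 / R ^ 2) = J
  simp only [Pi.inv_apply]
  field_simp
  ring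

theorem b3mon_low (h : Cx u a) {R t : ℝ} (hR : 0 < R) (ht : 2 * R ≤ t) :
    (∫ x in ball (0 : X) R, rr u x * ss u x) / 4 +
      (∫ x in ball (0 : X) R, rr u x * ⟪x, pp u x⟫ ^ 2) / t ^ 2 ≤ b3mon_D u t := by
  have c1 := h.sm_r.continuous
  have c2 := h.bas.sms.continuous
  have c3 := h.sm_p.continuous
  have ht0 : 0 < t := by linarith
  have i3 := (b3mon_int (f := fun x => rr u x * ss u x / 2) (by fun_prop) 1 ht0).add
    (b3mon_int (f := fun x => 4 * rr u x * ⟪x, pp u x⟫ ^ 2 / t ^ 2) (by fun_prop) 0 ht0)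
  rw [← integral_div, ← integral_div, ← integral_add ((intOn_ball (by fun_prop) _ _).div_const _)
    ((intOn_ball (by fun_prop) _ _).div_const _)]
  refine le_trans (setIntegral_mono_on (intOn_ball (by fun_prop) _ _) i3.integrableOn
    measurableSet_ball fun x hx => ?_) (setIntegral_le_integral i3 (ae_of_all _ fun x => ?_))
  · have hx' : ‖x‖ < R := by simpa using hx
    have h1 : ‖x‖ ^ 2 / t ^ 2 ≤ 1 / 4 := by
      rw [div_le_iff₀ (by positivity)]
      nlinarith [norm_nonneg x]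
    have h2 : 3 / 4 ≤ max (1 - ‖x‖ ^ 2 / t ^ 2) 0 := le_max_of_le_left (by linarith)
    have r0 := (h.r_pos x).le
    have s0 := h.bas.s0 x
    have k1 : 0 ≤ rr u x * ss u x := by positivity
    have k2 : 0 ≤ rr u x * ⟪x, pp u x⟫ ^ 2 / t ^ 2 := by positivity
    have h3 : 1 / 2 ≤ max (1 - ‖x‖ ^ 2 / t ^ 2) 0 ^ 2 := by nlinarith
    simp only [Pi.add_apply, pw, zero_add, pow_one, one_add_one_eq_two]
    have e : 4 * rr u x * ⟪x, pp u x⟫ ^ 2 / t ^ 2 = 4 * (rr u x * ⟪x, pp u x⟫ ^ 2 / t ^ 2) := by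
      ring
    rw [e]
    nlinarith
  · have r0 := (h.r_pos x).le
    have s0 := h.bas.s0 x
    have := pw_nonneg (1 + 1) (‖x‖ ^ 2 / t ^ 2)
    have := pw_nonneg (0 + 1) (‖x‖ ^ 2 / t ^ 2)
    simp only [Pi.add_apply, Pi.zero_apply]
    positivity

theorem b3mon_nn (h : Cx u a) (R : ℝ) : 0 ≤ ∫ x in ball (0 : X) R, rr u x * ss u x ∧
    0 ≤ ∫ x in ball (0 : X) R, rr u x * ⟪x, pp u x⟫ ^ 2 :=
  ⟨integral_nonneg fun x => mul_nonneg (h.r_pos x).le (h.bas.s0 x),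
    integral_nonneg fun x => mul_nonneg (h.r_pos x).le (sq_nonneg _)⟩

theorem b3mon_mono (h : Cx u a) : MonotoneOn (fun R => (R ^ 3)⁻¹ * b3mon_I u R) (Ioi 0) := by
  refine monotoneOn_of_deriv_nonneg (convex_Ioi 0)
    (fun R hR => (b3mon_dP h hR).continuousAt.continuousWithinAt)
    (fun R hR => (b3mon_dP h (interior_subset hR)).differentiableAt.differentiableWithinAt)
    fun R hR => ?_
  have hR0 : 0 < R := interior_subset hR
  have h1 := b3mon_low h (R := R / 2) (t := R) (by linarith) (by linarith)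
  have h2 := b3mon_nn h (R / 2)
  rw [(b3mon_dP h hR0).deriv]
  refine mul_nonneg (by positivity) (le_trans ?_ h1)
  have := h2.1
  have := h2.2
  positivity

theorem b3mon_le (h : Cx u a) {R : ℝ} (hR : 0 < R) :
    b3mon_I u R ≤ ∫ x in ball (0 : X) R, en u x := by
  rw [b3mon_I, ← setIntegral_eq_integral_of_forall_compl_eq_zero (s := ball (0 : X) R)
    fun x hx => by rw [b3mon_off 1 hR (by simpa using hx), mul_zero]]
  exact setIntegral_mono_on (b3mon_int h.cont_en 1 hR).integrableOn (intOn_ball h.cont_en _ _)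
    measurableSet_ball fun x _ =>
      mul_le_of_le_one_right (b3mon_en0 u x) (pw_le_one 2 (by positivity))

theorem Cx.mon_small (h : Cx u a) {ε : ℝ} (hε : 0 < ε) : ∃ R0 : ℝ, ∀ R, R0 ≤ R →
    ∫ x in ball (0 : X) R, rr u x * ss u x ≤ ε * R ^ 3 ∧
      ∫ x in ball (0 : X) R, rr u x * ⟪x, pp u x⟫ ^ 2 ≤ ε * R ^ 5 := by
  obtain ⟨C, -, hC⟩ := h.vol
  set Φ : ℝ → ℝ := fun R => (R ^ 3)⁻¹ * b3mon_I u R with hΦ
  have hb : BddAbove (Φ '' Ioi 0) := ⟨C, by
    rintro _ ⟨R, hR : 0 < R, rfl⟩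
    rw [hΦ, inv_mul_le_iff₀ (by positivity), mul_comm]
    exact (b3mon_le h hR).trans (hC 0 R hR).2⟩
  obtain ⟨_, ⟨R0, hR0 : 0 < R0, rfl⟩, h0⟩ := exists_lt_of_lt_csSup (s := Φ '' Ioi 0)
    ⟨_, 1, by simp, rfl⟩ (show sSup (Φ '' Ioi 0) - ε / 729 < _ by linarith)
  refine ⟨R0, fun R hR => ?_⟩
  have hR1 : 0 < R := by linarith
  obtain ⟨t, ht, e⟩ := exists_hasDerivAt_eq_slope Φ (fun t => (t ^ 4)⁻¹ * b3mon_D u t)
    (show 2 * R < 3 * R by linarith)
    (fun t ht => (b3mon_dP h (by linarith [ht.1])).continuousAt.continuousWithinAt)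
    fun t ht => b3mon_dP h (by linarith [ht.1])
  have h1 : Φ (3 * R) ≤ sSup (Φ '' Ioi 0) := le_csSup hb ⟨_, by simp [hR1], rfl⟩
  have h2 : Φ R0 ≤ Φ (2 * R) := b3mon_mono h hR0 (by simp [hR1]) (by linarith)
  have ht0 : 0 < t := by linarith [ht.1]
  have h3 : b3mon_D u t ≤ ε / 9 * R ^ 3 := by
    have : (t ^ 4)⁻¹ * b3mon_D u t ≤ ε / 729 / R := by
      rw [e, show 3 * R - 2 * R = R by ring]
      gcongr
      linarith
    rw [inv_mul_le_iff₀ (by positivity)] at this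
    refine this.trans (le_of_le_of_eq (b := (3 * R) ^ 4 * (ε / 729 / R)) ?_ ?_)
    · gcongr
      exact ht.2.le
    · field_simp
      ring
  have h4 := (b3mon_low h hR1 ht.1.le).trans h3
  obtain ⟨n1, n2⟩ := b3mon_nn h R
  have h5 : (∫ x in ball (0 : X) R, rr u x * ⟪x, pp u x⟫ ^ 2) / t ^ 2 ≤ ε / 9 * R ^ 3 := by
    linarith
  have h6 : 0 ≤ (∫ x in ball (0 : X) R, rr u x * ⟪x, pp u x⟫ ^ 2) / t ^ 2 := by positivity
  have h7 : 0 < ε * R ^ 3 := by positivity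
  refine ⟨by linarith, ?_⟩
  rw [div_le_iff₀ (by positivity)] at h5
  refine h5.trans (le_of_le_of_eq (b := ε / 9 * R ^ 3 * (3 * R) ^ 2) ?_ (by ring))
  gcongr
  exact ht.2.le

theorem Cx.mon_low (h : Cx u a) : ∃ c : ℝ, 0 < c ∧ ∀ R : ℝ, 1 ≤ R →
    c * R ^ 3 ≤ ∫ x in ball (0 : X) R, en u x := by
  refine ⟨b3mon_I u 1, ?_, fun R hR => ?_⟩
  · have hc := h.cont_en
    have := continuous_pw 2
    refine integral_pos_of_integrable_nonneg_nonzero (x := 0) (by fun_prop)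
      (b3mon_int hc 1 one_pos) (fun x => mul_nonneg (b3mon_en0 u x) (pw_nonneg _ _)) ?_
    have h1 := h.r_pos 0
    have h2 := h.bas.s1 0
    have h3 : 0 < en u 0 := by rw [h.en_eq]; nlinarith
    simpa [pw] using h3.ne'
  · have hR0 : 0 < R := by linarith
    have h1 := b3mon_mono h (show (1 : ℝ) ∈ Ioi 0 by simp) hR0 hR
    simp only [one_pow, inv_one, one_mul] at h1
    rw [le_inv_mul_iff₀ (by positivity), mul_comm] at h1
    exact h1.trans (b3mon_le h hR0)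

end Vale.Agent.P134.B3
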