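import Vale.Agent.P134.B3Weak

/-! P134, block B3: stability and the curvature bound. -/

open Filter Topology MeasureTheory Set Metric
open scoped ContDiff RealInnerProductSpace NNReal Laplacian

namespace Vale.Agent.P134.B3

variable {u : X → ℝ} {a : X}

theorem b3stab_gd {φ f g : X → ℝ} (h : Tst φ) (hf : Continuous f) (hg : ContDiff ℝ 1 g) :
    Integrable fun x => f x * gd g φ x := by
  have e : ∀ x, gd g φ x = fderiv ℝ φ x (gradient g x) := fun x => by
    rw [gd_eq, real_inner_comm, inner_gradient]; rfl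
  simp only [e]
  exact h.int_d hf ((InnerProductSpace.toDual ℝ X).symm.continuous.comp
    (hg.continuous_fderiv one_ne_zero))

theorem b3stab_en {φ f : X → ℝ} (h : Tst φ) (hf : Continuous f) :
    Integrable fun x => f x * ‖fderiv ℝ φ x‖ ^ 2 := by
  simpa only [gd_self] using b3stab_gd h hf h.c1

theorem b3stab_sq {φ f : X → ℝ} (h : Tst φ) (hf : Continuous f) :
    Integrable fun x => f x * φ x ^ 2 := by
  simpa only [sq] using (h.mul h.c1).int hf

theorem Cx.stab (h : Cx u a) {ψ : X → ℝ} (hψ : Tst ψ) :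
    ∫ x, rr u x * VV u x * ψ x ^ 2 ≤ ∫ x, rr u x * ‖fderiv ℝ ψ x‖ ^ 2 := by
  have hq : ContDiff ℝ 1 (qq u a) := (h.sm_q a).of_le one_le_oo
  have hi : ContDiff ℝ 1 fun x => (qq u a x)⁻¹ := hq.inv fun x => (h.q_pos x).ne'
  have hφ := hψ.mul (hψ.c1.mul hi)
  have e : ∫ x, rr u x * VV u x * ψ x ^ 2 =
      ∫ x, rr u x * VV u x * qq u a x * (ψ x * (qq u a x)⁻¹ * ψ x) :=
    integral_congr_ae (Eventually.of_forall fun x => by
      have := (h.q_pos x).ne'
      simp only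
      field_simp)
  rw [e, ← h.weak_q a hφ]
  refine integral_mono (b3stab_gd hφ h.sm_r.continuous hq) (b3stab_en hψ h.sm_r.continuous)
    fun x => mul_le_mul_of_nonneg_left ?_ (h.r_pos x).le
  have d1 := hψ.c1.differentiable one_ne_zero x
  have d2 := hi.differentiable one_ne_zero x
  rw [← gd_self]
  refine Finset.sum_le_sum fun i _ => ?_
  rw [dv_mul (d1.fun_mul d2) d1, dv_mul d1 d2,
    dv_comp (hasDerivAt_inv (h.q_pos x).ne') (hq.differentiable one_ne_zero x), ← inv_pow]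
  nlinarith [sq_nonneg (ψ x * (qq u a x)⁻¹ * dv (ev i) (qq u a) x - dv (ev i) ψ x)]

theorem b3stab_pt (h : Cx u a) {ψ : X → ℝ} (hψ : Tst ψ) (x : X) :
    gd (ss u) (fun x => ψ x * ψ x) x ≤ hs u x * ψ x ^ 2 + 4 * ‖fderiv ℝ ψ x‖ ^ 2 := by
  have d1 := hψ.c1.differentiable one_ne_zero x
  have e : gd (ss u) (fun x => ψ x * ψ x) x = 2 * (ψ x * gd (ss u) ψ x) := by
    simp only [gd, dv_mul d1 d1, Finset.mul_sum]
    exact Finset.sum_congr rfl fun i _ => by ring
  have a1 : ‖fderiv ℝ (ss u) x‖ ≤ 2 * ‖HM u x‖ :=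
    ContinuousLinearMap.opNorm_le_bound _ (by positivity) fun c => by
      rw [h.ds, norm_neg, norm_mul, Real.norm_two, mul_assoc]
      exact mul_le_mul_of_nonneg_left ((norm_inner_le_norm _ _).trans
        ((mul_le_of_le_one_right (norm_nonneg _) (h.p_le x)).trans ((HM u x).le_opNorm c)))
        zero_le_two
  have a2 := (abs_gd_le (ss u) ψ x).trans (mul_le_mul_of_nonneg_right a1 (norm_nonneg _))
  have a3 : ψ x * gd (ss u) ψ x ≤ |ψ x| * (2 * ‖HM u x‖ * ‖fderiv ℝ ψ x‖) :=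
    (le_abs_self _).trans (by rw [abs_mul]; exact mul_le_mul_of_nonneg_left a2 (abs_nonneg _))
  have a4 := mul_le_mul_of_nonneg_right (norm_M_sq u x) (sq_nonneg (ψ x))
  have a5 := sq_nonneg (‖HM u x‖ * |ψ x| - 2 * ‖fderiv ℝ ψ x‖)
  rw [sub_sq, mul_pow, sq_abs] at a5
  rw [e]
  linarith

theorem Cx.curv (h : Cx u a) {ψ : X → ℝ} (hψ : Tst ψ) :
    ∫ x, rr u x * hs u x * ψ x ^ 2 ≤ 6 * ∫ x, rr u x * ‖fderiv ℝ ψ x‖ ^ 2 := by
  have hφ := hψ.mul hψ.c1
  have cr := h.sm_r.continuous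
  have cV := h.bas.smV.continuous
  have i1 := hφ.int (cr.mul ((h.cont_hs.const_mul 2).sub
    ((cV.const_mul 2).mul (continuous_const (y := (1 : ℝ)) |>.sub h.bas.sms.continuous))))
  have i2 := b3stab_gd hφ cr (h.bas.sms.of_le one_le_oo)
  have i3 := b3stab_sq hψ (cr.mul cV)
  have i4 := b3stab_en hψ cr
  have k : ∫ x, rr u x * hs u x * ψ x ^ 2 ≤
      ∫ x, (rr u x * (2 * hs u x - 2 * VV u x * (1 - ss u x)) * (ψ x * ψ x) -
        rr u x * gd (ss u) (fun x => ψ x * ψ x) x + 2 * (rr u x * VV u x * ψ x ^ 2) +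
        4 * (rr u x * ‖fderiv ℝ ψ x‖ ^ 2)) := by
    refine integral_mono (b3stab_sq hψ (cr.mul h.cont_hs))
      (((i1.sub i2).add (i3.const_mul 2)).add (i4.const_mul 4)) fun x => ?_
    have a1 := mul_le_mul_of_nonneg_left (b3stab_pt h hψ x) (h.r_pos x).le
    have a2 := mul_nonneg (mul_nonneg (mul_nonneg (h.r_pos x).le (h.bas.V0 x)) (h.bas.s0 x))
      (sq_nonneg (ψ x))
    simp only
    linarith
  have i1' : Integrable fun x =>
      rr u x * (2 * hs u x - 2 * VV u x * (1 - ss u x)) * (ψ x * ψ x) := i1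
  have i3' : Integrable fun x => rr u x * VV u x * ψ x ^ 2 := i3
  rw [integral_add ((i1'.sub' i2).fun_add (i3'.const_mul 2)) (i4.const_mul 4),
    integral_add (i1'.sub' i2) (i3'.const_mul 2), integral_sub i1' i2, integral_const_mul,
    integral_const_mul, h.weak_s hφ, sub_self] at k
  linarith [h.stab hψ]

end Vale.Agent.P134.B3
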