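import Vale.Agent.P134.B3Qa
import Vale.Agent.P134.B3Stab
import Vale.Agent.P134.B3Mon

/-! P134, block B3: the weighted curvature is small. -/

open Filter Topology MeasureTheory Set Metric
open scoped ContDiff RealInnerProductSpace NNReal Laplacian

namespace Vale.Agent.P134.B3

variable {u : X → ℝ} {a : X}

theorem b3q_pw (n : ℕ) {x y : X} {R : ℝ} (hR : 0 < R) (hx : x ∈ ball y R) :
    (3 / 4 : ℝ) ^ n ≤ pw n (‖x - y‖ ^ 2 / (2 * R) ^ 2) := by
  have hx' : ‖x - y‖ < R := mem_ball_iff_norm.1 hx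
  have h1 : ‖x - y‖ ^ 2 / (2 * R) ^ 2 ≤ 1 / 4 := by
    rw [div_le_iff₀ (by positivity)]
    nlinarith [norm_nonneg (x - y)]
  exact pow_le_pow_left₀ (by norm_num) (le_max_of_le_left (by linarith)) n

theorem b3q_low {F ψ : X → ℝ} {y : X} {R c : ℝ} (hF : Continuous F) (h0 : ∀ x, 0 ≤ F x)
    (hi : Integrable fun x => F x * ψ x) (hψ : ∀ x, 0 ≤ ψ x) (hc : ∀ x ∈ ball y R, c ≤ ψ x) :
    c * ∫ x in ball y R, F x ≤ ∫ x, F x * ψ x := by
  rw [← integral_const_mul]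
  refine le_trans (setIntegral_mono_on ((intOn_ball hF _ _).const_mul _) hi.integrableOn
    measurableSet_ball fun x hx => ?_)
    (setIntegral_le_integral hi (ae_of_all _ fun x => mul_nonneg (h0 x) (hψ x)))
  rw [mul_comm]
  exact mul_le_mul_of_nonneg_left (hc x hx) (h0 x)

theorem b3q_d0 {x y : X} {R : ℝ} (hR : 0 < R) (hx : x ∉ ball y R) :
    fderiv ℝ (fun x => pw (0 + 2) (‖x - y‖ ^ 2 / R ^ 2)) x = 0 := by
  have hx' : R ≤ ‖x - y‖ := not_lt.1 fun h => hx (mem_ball_iff_norm.2 h)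
  ext c
  rw [fderiv_pw, pw_zero 0 (by rw [le_div_iff₀ (by positivity), one_mul]; gcongr)]
  simp

theorem b3q_d1 {x y : X} {R : ℝ} (hR : 0 < R) (hx : x ∈ ball y R) :
    ‖fderiv ℝ (fun x => pw (0 + 2) (‖x - y‖ ^ 2 / R ^ 2)) x‖ ≤ 4 / R := by
  have hx' : ‖x - y‖ < R := mem_ball_iff_norm.1 hx
  refine ContinuousLinearMap.opNorm_le_bound _ (by positivity) fun c => ?_
  have h1 := pw_nonneg (0 + 1) (‖x - y‖ ^ 2 / R ^ 2)
  have h2 := pw_le_one (0 + 1) (s := ‖x - y‖ ^ 2 / R ^ 2) (by positivity)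
  have h3 : |⟪x - y, c⟫| ≤ R * ‖c‖ := (abs_real_inner_le_norm _ _).trans (by gcongr)
  rw [fderiv_pw, norm_neg, Real.norm_eq_abs, abs_div, abs_mul, abs_of_nonneg (by positivity),
    abs_of_pos (pow_pos hR 2), div_le_iff₀ (by positivity)]
  calc _ ≤ 2 * (((0 : ℕ) : ℝ) + 2) * 1 * (R * ‖c‖) := by gcongr
    _ = _ := by
      push_cast
      field_simp
      ring

theorem Cx.curv_ball (h : Cx u a) : ∃ C : ℝ, 0 < C ∧ ∀ (y : X) (R : ℝ), 0 < R →
    ∫ x in ball y R, rr u x * hs u x ≤ C * R := by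
  obtain ⟨C, hC, hv⟩ := h.vol
  refine ⟨800 * C, by positivity, fun y R hR => ?_⟩
  have c1 := h.sm_r.continuous
  have c2 := h.cont_hs
  have hR2 : 0 < 2 * R := by positivity
  have hT := tst_pw 0 y hR2
  have c3 := hT.c1.continuous
  have c4 := hT.c1.continuous_fderiv (by simp)
  have h1 := h.curv hT
  have h2 := b3q_low (F := fun x => rr u x * hs u x) (y := y) (R := R) (c := ((3 / 4) ^ 2) ^ 2)
    (ψ := fun x => pw (0 + 2) (‖x - y‖ ^ 2 / (2 * R) ^ 2) ^ 2) (by fun_prop)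
    (fun x => mul_nonneg (h.r_pos x).le (hs_nonneg u x))
    ((hT.int ((c1.mul c2).mul c3)).congr (ae_of_all _ fun x => by simp only [Pi.mul_apply]; ring))
    (fun x => sq_nonneg _) fun x hx => pow_le_pow_left₀ (by norm_num) (b3q_pw _ hR hx) 2
  have h3 : ∫ x, rr u x * ‖fderiv ℝ (fun x => pw (0 + 2) (‖x - y‖ ^ 2 / (2 * R) ^ 2)) x‖ ^ 2 ≤
      (4 / (2 * R)) ^ 2 * ∫ x in ball y (2 * R), rr u x := by
    rw [← setIntegral_eq_integral_of_forall_compl_eq_zero (s := ball y (2 * R))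
      fun x hx => by rw [b3q_d0 hR2 hx]; simp, ← integral_const_mul]
    refine setIntegral_mono_on (intOn_ball (c1.mul (c4.norm.pow 2)) _ _)
      ((intOn_ball c1 _ _).const_mul _) measurableSet_ball fun x hx => ?_
    rw [mul_comm]
    exact mul_le_mul_of_nonneg_right (pow_le_pow_left₀ (norm_nonneg _) (b3q_d1 hR2 hx) 2)
      (h.r_pos x).le
  have h4 : (4 / (2 * R)) ^ 2 * ∫ x in ball y (2 * R), rr u x ≤
      (4 / (2 * R)) ^ 2 * (C * (2 * R) ^ 3) :=
    mul_le_mul_of_nonneg_left (hv y _ hR2).1 (by positivity)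
  have e : (4 / (2 * R)) ^ 2 * (C * (2 * R) ^ 3) = 32 * (C * R) := by
    field_simp
    ring
  have h5 : 0 < C * R := by positivity
  linarith

theorem Cx.cone_small (h : Cx u a) {ε : ℝ} (hε : 0 < ε) : ∃ R0 : ℝ, ∀ R, R0 ≤ R →
    ∫ x in ball (0 : X) R, rr u x * |⟪x, pp u x⟫| ≤ ε * R ^ 4 := by
  obtain ⟨C, hC, hv⟩ := h.vol
  obtain ⟨l, hl, el⟩ : ∃ l : ℝ, 0 < l ∧ l * C = ε / 2 :=
    ⟨ε / (2 * C), by positivity, by field_simp⟩
  obtain ⟨R0, h0⟩ := h.mon_small (ε := l * ε / 2) (by positivity)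
  refine ⟨max R0 1, fun R hR => ?_⟩
  have hR0 : 0 < R := lt_of_lt_of_le one_pos ((le_max_right _ _).trans hR)
  have c1 := h.sm_r.continuous
  have c3 := h.sm_p.continuous
  have h1 : ∫ x in ball (0 : X) R, rr u x * |⟪x, pp u x⟫| ≤
      l * R * (∫ x in ball (0 : X) R, rr u x) +
        1 / (l * R) * ∫ x in ball (0 : X) R, rr u x * ⟪x, pp u x⟫ ^ 2 := by
    rw [← integral_const_mul, ← integral_const_mul, ← integral_add (intOn_ball (by fun_prop) _ _)
      (intOn_ball (by fun_prop) _ _)]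
    refine setIntegral_mono_on (intOn_ball (by fun_prop) _ _) (intOn_ball (by fun_prop) _ _)
      measurableSet_ball fun x _ => ?_
    have k : |⟪x, pp u x⟫| ≤ l * R + 1 / (l * R) * ⟪x, pp u x⟫ ^ 2 := by
      rw [← sq_abs]
      have hb : 0 < l * R := by positivity
      have ht := abs_nonneg ⟪x, pp u x⟫
      generalize |⟪x, pp u x⟫| = t at ht
      generalize l * R = b at hb
      have : b + 1 / b * t ^ 2 - t = ((b - t) ^ 2 + b * t) / b := by
        field_simp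
        ring
      have : 0 ≤ ((b - t) ^ 2 + b * t) / b := by positivity
      linarith
    have := mul_le_mul_of_nonneg_left k (h.r_pos x).le
    linarith
  have h2 : l * R * (∫ x in ball (0 : X) R, rr u x) ≤ l * R * (C * R ^ 3) :=
    mul_le_mul_of_nonneg_left (hv 0 R hR0).1 (by positivity)
  have h3 : 1 / (l * R) * ∫ x in ball (0 : X) R, rr u x * ⟪x, pp u x⟫ ^ 2 ≤
      1 / (l * R) * (l * ε / 2 * R ^ 5) :=
    mul_le_mul_of_nonneg_left (h0 R ((le_max_left _ _).trans hR)).2 (by positivity)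
  have e1 : l * R * (C * R ^ 3) = ε / 2 * R ^ 4 := by
    rw [← el]
    ring
  have e2 : 1 / (l * R) * (l * ε / 2 * R ^ 5) = ε / 2 * R ^ 4 := by
    field_simp
  linarith

theorem b3q_pt {l R s t M H : ℝ} (hl : 0 < l) (hR : 0 < R) (s0 : 0 ≤ s) (s1 : s ≤ 1)
    (hM : M ^ 2 ≤ H) : (s + t / R) * (M / R + 1 / R ^ 2) ≤
      l * H + (1 / l + 1) / R ^ 2 * s + 1 / (l * R ^ 4) * t ^ 2 + 1 / R ^ 3 * t := by
  have h1 : (s + t / R) * (M / R) ≤ l * M ^ 2 + ((s + t / R) / R) ^ 2 / (4 * l) := by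
    have : l * M ^ 2 + ((s + t / R) / R) ^ 2 / (4 * l) - (s + t / R) * (M / R) =
        (2 * l * M - (s + t / R) / R) ^ 2 / (4 * l) := by
      field_simp
      ring
    have : 0 ≤ (2 * l * M - (s + t / R) / R) ^ 2 / (4 * l) := by positivity
    linarith
  have h2 : (s + t / R) ^ 2 ≤ 4 * (s + (t / R) ^ 2) := by
    nlinarith [sq_nonneg (s - t / R), sq_nonneg (t / R)]
  have h3 : ((s + t / R) / R) ^ 2 / (4 * l) ≤ 4 * (s + (t / R) ^ 2) / R ^ 2 / (4 * l) := by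
    rw [div_pow]
    gcongr
  have h4 : l * M ^ 2 ≤ l * H := by gcongr
  have e : 4 * (s + (t / R) ^ 2) / R ^ 2 / (4 * l) + (s + t / R) * (1 / R ^ 2) =
      (1 / l + 1) / R ^ 2 * s + 1 / (l * R ^ 4) * t ^ 2 + 1 / R ^ 3 * t := by
    field_simp
    ring
  rw [mul_add]
  linarith

theorem Cx.q_small (h : Cx u a) {ε : ℝ} (hε : 0 < ε) : ∃ R0 : ℝ, ∀ R, R0 ≤ R →
    ∫ x in ball (0 : X) R, rr u x * hs u x * qq u a x ≤ ε * R := by
  obtain ⟨C, hC, hq⟩ := h.q_ineq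
  obtain ⟨D, hD, hb⟩ := h.curv_ball
  obtain ⟨l, hl, el⟩ : ∃ l : ℝ, 0 < l ∧ C * (l * D) = ε / 10 :=
    ⟨ε / (10 * C * D), by positivity, by field_simp⟩
  obtain ⟨e, he, ee⟩ : ∃ e : ℝ, 0 < e ∧ C * (e * (2 / l + 2)) = ε / 10 :=
    ⟨ε / (10 * C * (2 / l + 2)), by positivity, by field_simp⟩
  obtain ⟨R0, h0⟩ := h.mon_small he
  obtain ⟨R1, h1⟩ := h.cone_small he
  refine ⟨max (max R0 R1) 1, fun R hR => ?_⟩
  have hR0 : 0 < R := lt_of_lt_of_le one_pos ((le_max_right _ _).trans hR)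
  have hR2 : 0 < 2 * R := by positivity
  have hR3 : max R0 R1 ≤ 2 * R := ((le_max_left _ _).trans hR).trans (by linarith)
  have c1 := h.sm_r.continuous
  have c2 := h.cont_hs
  have c3 := h.sm_p.continuous
  have c4 := (h.sm_q a).continuous
  have c5 := h.bas.sms.continuous
  have c6 := h.cont_M
  have a1 := b3q_low (F := fun x => rr u x * hs u x * qq u a x) (y := 0) (R := R) (c := (3 / 4) ^ 3)
    (ψ := fun x => pw 3 (‖x - 0‖ ^ 2 / (2 * R) ^ 2)) (by fun_prop)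
    (fun x => mul_nonneg (mul_nonneg (h.r_pos x).le (hs_nonneg u x)) (h.q_pos x).le)
    ((tst_pw 1 0 hR2).int (by fun_prop)) (fun x => pw_nonneg _ _) fun x hx => b3q_pw _ hR0 hx
  have a2 := hq _ hR2
  have b1 := hb 0 _ hR2
  obtain ⟨b2, b3⟩ := h0 _ ((le_max_left _ _).trans hR3)
  have b4 := h1 _ ((le_max_right _ _).trans hR3)
  have hr : R = 2 * R / 2 := by ring
  generalize 2 * R = S at a1 a2 b1 b2 b3 b4 hR2 hr
  have a3 : ∫ x in ball (0 : X) S, rr u x * (ss u x + |⟪x, pp u x⟫| / S) *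
      (‖HM u x‖ / S + 1 / S ^ 2) ≤ l * (∫ x in ball (0 : X) S, rr u x * hs u x) +
        (1 / l + 1) / S ^ 2 * (∫ x in ball (0 : X) S, rr u x * ss u x) +
        1 / (l * S ^ 4) * (∫ x in ball (0 : X) S, rr u x * ⟪x, pp u x⟫ ^ 2) +
        1 / S ^ 3 * ∫ x in ball (0 : X) S, rr u x * |⟪x, pp u x⟫| := by
    rw [← integral_const_mul, ← integral_const_mul, ← integral_const_mul, ← integral_const_mul,
      ← integral_add (intOn_ball (by fun_prop) _ _) (intOn_ball (by fun_prop) _ _),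
      ← integral_add (intOn_ball (by fun_prop) _ _) (intOn_ball (by fun_prop) _ _),
      ← integral_add (intOn_ball (by fun_prop) _ _) (intOn_ball (by fun_prop) _ _)]
    refine setIntegral_mono_on (intOn_ball (by fun_prop) _ _) (intOn_ball (by fun_prop) _ _)
      measurableSet_ball fun x _ => ?_
    have k := b3q_pt (t := |⟪x, pp u x⟫|) hl hR2 (h.bas.s0 x) (h.bas.s1 x) (norm_M_sq u x)
    rw [sq_abs] at k
    have := mul_le_mul_of_nonneg_left k (h.r_pos x).le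
    linarith
  have a4 : l * (∫ x in ball (0 : X) S, rr u x * hs u x) +
        (1 / l + 1) / S ^ 2 * (∫ x in ball (0 : X) S, rr u x * ss u x) +
        1 / (l * S ^ 4) * (∫ x in ball (0 : X) S, rr u x * ⟪x, pp u x⟫ ^ 2) +
        1 / S ^ 3 * (∫ x in ball (0 : X) S, rr u x * |⟪x, pp u x⟫|) ≤
      l * (D * S) + (1 / l + 1) / S ^ 2 * (e * S ^ 3) + 1 / (l * S ^ 4) * (e * S ^ 5) +
        1 / S ^ 3 * (e * S ^ 4) := by gcongr
  have e1 : l * (D * S) + (1 / l + 1) / S ^ 2 * (e * S ^ 3) + 1 / (l * S ^ 4) * (e * S ^ 5) +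
      1 / S ^ 3 * (e * S ^ 4) = (l * D + e * (2 / l + 2)) * S := by
    field_simp
    ring
  have a5 := mul_le_mul_of_nonneg_left (a3.trans (a4.trans_eq e1)) hC.le
  have e2 : C * ((l * D + e * (2 / l + 2)) * S) = 2 / 5 * (ε * R) := by
    rw [hr, ← mul_assoc, mul_add, el, ee]
    ring
  have : 0 < ε * R := by positivity
  linarith

end Vale.Agent.P134.B3
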