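import Vale.Agent.P134.B3Defs

/-! P134, block B3: two-valued odd functions of small variation. -/

open Filter Topology MeasureTheory Set Metric
open scoped ContDiff RealInnerProductSpace NNReal Laplacian

namespace Vale.Agent.P134.B3

variable {u : X → ℝ} {a : X}

/-- proportion of the complement of `A` near `x` -/
noncomputable def b3cv_ph (A : Set X) (x : X) (r : ℝ) : ENNReal :=
  volume {h : X | h ∈ closedBall (0 : X) r ∧ x + h ∉ A} / volume (closedBall (0 : X) r)

/-- density points -/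
def b3cv_D (A : Set X) : Set X := {x | Tendsto (b3cv_ph A x) (𝓝[>] 0) (𝓝 0)}

theorem b3cv_ae {A : Set X} (hA : MeasurableSet A) : ∀ᵐ x, x ∈ A → x ∈ b3cv_D A := by
  filter_upwards [Besicovitch.ae_tendsto_measure_inter_div_of_measurableSet volume hA.compl]
    with x hx hxA
  rw [indicator_of_notMem (notMem_compl_iff.2 hxA)] at hx
  refine hx.congr fun r => ?_
  rw [b3cv_ph, Measure.addHaar_closedBall_center, ← measure_preimage_add volume x]
  refine congrArg (fun S : Set X => volume S / volume (closedBall (0 : X) r)) (Set.ext fun h => ?_)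
  simp only [mem_preimage, mem_inter_iff, mem_compl_iff, mem_closedBall, dist_self_add_left,
    dist_zero_right, mem_ofPred_eq]
  exact and_comm

theorem b3cv_conv {A N : Set X} (hN : volume N = 0)
    (h : ∀ x y z, z ∈ segment ℝ x y → x ∈ A → y ∈ A → z ∈ A ∨ z ∈ N) : Convex ℝ (b3cv_D A) := by
  rw [convex_iff_segment_subset]
  intro x hx y hy z hz
  have h1 : Tendsto (fun r => b3cv_ph A x r + b3cv_ph A y r) (𝓝[>] 0) (𝓝 (0 + 0)) :=
    Tendsto.add hx hy
  rw [add_zero] at h1
  refine tendsto_of_tendsto_of_tendsto_of_le_of_le tendsto_const_nhds h1 (fun _ => zero_le)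
    fun r => ?_
  simp only [b3cv_ph]
  rw [← ENNReal.add_div]
  refine ENNReal.div_le_div_right ?_ _
  have h2 : volume ((fun k => z + k) ⁻¹' N) = 0 := by rw [measure_preimage_add, hN]
  refine (measure_mono (t := ({k : X | k ∈ closedBall (0 : X) r ∧ x + k ∉ A} ∪
    {k : X | k ∈ closedBall (0 : X) r ∧ y + k ∉ A}) ∪ (fun k => z + k) ⁻¹' N) ?_).trans ?_
  · intro k hk
    by_cases q1 : x + k ∈ A
    · by_cases q2 : y + k ∈ A
      · have q3 : z + k ∈ segment ℝ (x + k) (y + k) := by
          rw [add_comm z, add_comm x, add_comm y]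
          exact mem_segment_translate _ _ |>.2 hz
        exact Or.inr ((h _ _ _ q3 q1 q2).resolve_left hk.2)
      · exact Or.inl (Or.inr ⟨hk.1, q2⟩)
    · exact Or.inl (Or.inl ⟨hk.1, q1⟩)
  · refine (measure_union_le _ _).trans ?_
    rw [h2, add_zero]
    exact measure_union_le _ _

theorem b3cv_disj {A : Set X} (h : ∀ x ∈ A, -x ∉ A) {x : X} (hx : x ∈ b3cv_D A)
    (hy : -x ∈ b3cv_D A) : False := by
  have h1 : Tendsto (fun r => b3cv_ph A x r + b3cv_ph A (-x) r) (𝓝[>] 0) (𝓝 (0 + 0)) :=
    Tendsto.add hx hy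
  rw [add_zero] at h1
  have h2 : (1 : ENNReal) ≤ 0 := by
    refine ge_of_tendsto h1 ?_
    filter_upwards [self_mem_nhdsWithin] with r hr
    have h3 : volume (closedBall (0 : X) r) ≠ 0 := (measure_closedBall_pos volume _ hr).ne'
    simp only [b3cv_ph]
    rw [← ENNReal.add_div, ← ENNReal.div_self h3 measure_closedBall_lt_top.ne]
    refine ENNReal.div_le_div_right ?_ _
    rw [← Measure.measure_neg volume {k : X | k ∈ closedBall (0 : X) r ∧ -x + k ∉ A}]
    refine (measure_mono fun k hk => ?_).trans (measure_union_le _ _)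
    by_cases q : x + k ∈ A
    · refine Or.inr (mem_neg.2 ⟨?_, ?_⟩)
      · rw [mem_closedBall_zero_iff, norm_neg]
        exact mem_closedBall_zero_iff.1 hk
      · rw [← neg_add]
        exact h _ q
    · exact Or.inl ⟨hk, q⟩
  exact absurd h2 (by simp)

theorem cv {f : X → ℝ} {s m : ℝ} (hf : Measurable f) (ho : ∀ x, f (-x) = -f x) (hs : 0 < s)
    (hm : m < 6 * s) (h2 : ∀ᵐ x, |f x| = s) (ht : TV f m) :
    ∃ e : X, ‖e‖ = 1 ∧ ∀ᵐ x, f x = s * Real.sign ⟪e, x⟫ := by
  have hA : MeasurableSet {x | f x = s} := hf (measurableSet_singleton s)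
  have hc : Convex ℝ (b3cv_D {x | f x = s}) := by
    refine b3cv_conv (N := {x | ¬ |f x| = s}) h2 fun x y z hz hx hy => ?_
    have hx' : f x = s := hx
    have hy' : f y = s := hy
    by_cases q : |f z| = s
    · rcases (abs_eq hs.le).1 q with q1 | q1
      · exact Or.inl q1
      · have h3 := ht x y z hz
        rw [hx', hy', q1] at h3
        linarith [le_abs_self (s - -s), neg_le_abs (-s - s), le_abs_self (s + s)]
    · exact Or.inr q
  have hd : ∀ x ∈ {x | f x = s}, -x ∉ {x | f x = s} := fun x hx q => by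
    have hx' : f x = s := hx
    have q' : f (-x) = s := q
    rw [ho] at q'
    linarith
  have h3 : ∀ᵐ x, f x = s → x ∈ interior (b3cv_D {x | f x = s}) := by
    filter_upwards [b3cv_ae hA, measure_eq_zero_iff_ae_notMem.1 (hc.addHaar_frontier volume)]
      with x q1 q2 q3
    by_contra q4
    exact q2 ⟨subset_closure (q1 q3), q4⟩
  have h4 : ∀ᵐ x, f (-x) = s → -x ∈ interior (b3cv_D {x | f x = s}) :=
    (Measure.measurePreserving_neg (volume : Measure X)).quasiMeasurePreserving.ae h3
  have h5 : Disjoint (interior (b3cv_D {x | f x = s})) (-b3cv_D {x | f x = s}) :=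
    disjoint_left.2 fun x q1 q2 => b3cv_disj hd (interior_subset q1) (mem_neg.1 q2)
  generalize b3cv_D {x | f x = s} = D at hc h3 h4 h5
  obtain ⟨l, c, l1, l2⟩ := geometric_hahn_banach_open hc.interior isOpen_interior hc.neg h5
  have h6 : ∀ x ∈ interior D, l x < 0 := fun x q => by
    have q1 := l1 x q
    have q2 := l2 (-x) (neg_mem_neg.2 (interior_subset q))
    rw [map_neg] at q2
    linarith
  have h7 : ∀ᵐ x, (f x = s ∧ l x < 0) ∨ (f x = -s ∧ 0 < l x) := by
    filter_upwards [h2, h3, h4] with x q1 q2 q3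
    rcases (abs_eq hs.le).1 q1 with q | q
    · exact Or.inl ⟨q, h6 x (q2 q)⟩
    · have q4 := h6 _ (q3 (by rw [ho, q, neg_neg]))
      rw [map_neg] at q4
      exact Or.inr ⟨q, by linarith⟩
  obtain ⟨w, hw⟩ : ∃ w : X, ∀ x, ⟪w, x⟫ = l x :=
    ⟨(InnerProductSpace.toDual ℝ X).symm l, fun x => InnerProductSpace.toDual_symm_apply⟩
  have hw0 : 0 < ‖w‖ := by
    refine norm_pos_iff.2 fun q => ?_
    obtain ⟨x, hx⟩ := h7.exists
    rw [← hw, q, inner_zero_left] at hx
    exact hx.elim (fun q => lt_irrefl _ q.2) fun q => lt_irrefl _ q.2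
  refine ⟨(-‖w‖⁻¹) • w, ?_, ?_⟩
  · rw [norm_smul, norm_neg, norm_inv, norm_norm, inv_mul_cancel₀ hw0.ne']
  · filter_upwards [h7] with x q
    have hi := inv_pos.2 hw0
    rw [real_inner_smul_left, hw]
    rcases q with q | q
    · rw [Real.sign_of_pos (by nlinarith [q.2]), mul_one, q.1]
    · rw [Real.sign_of_neg (by nlinarith [q.2]), q.1, mul_neg, mul_one]

end Vale.Agent.P134.B3
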