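import Vale.Agent.P134.B3Lim0
import Vale.Agent.P134.B3Cv

/-! P134, block B3: identification of the blow-down. -/

open Filter Topology MeasureTheory Set Metric
open scoped ContDiff RealInnerProductSpace NNReal Laplacian

namespace Vale.Agent.P134.B3

variable {u : X → ℝ} {a : X}

theorem b3lim_s0 : 0 < s0 := by unfold s0; positivity

theorem b3lim_pos {g b : ℕ → ℝ} {S β : ℝ} (h : Tendsto (fun j => |g j|) atTop (𝓝 S))
    (k : Tendsto b atTop (𝓝 β)) (hb : ∀ j, b j ≤ g j) (hβ : -S < β) : Tendsto g atTop (𝓝 S) := by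
  refine h.congr' ?_
  filter_upwards [(h.add k).eventually_const_lt (show 0 < S + β by linarith)] with j hj
  refine abs_of_nonneg (not_lt.1 fun q => ?_)
  rw [abs_of_neg q] at hj
  linarith [hb j]

theorem b3lim_neg {g b : ℕ → ℝ} {S β : ℝ} (h : Tendsto (fun j => |g j|) atTop (𝓝 S))
    (k : Tendsto b atTop (𝓝 β)) (hb : ∀ j, g j ≤ b j) (hβ : β < S) :
    Tendsto g atTop (𝓝 (-S)) := by
  have q := b3lim_pos (g := fun j => -g j) (by simpa only [abs_neg] using h) k.neg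
    (fun j => neg_le_neg (hb j)) (neg_lt_neg hβ)
  simpa only [neg_neg] using q.neg

theorem Prof.one {A h : X → ℝ} {m T : ℝ} (hp : Prof A h m) (hm : 0 < m)
    (hmon : ∀ (x : X) (t : ℝ), 0 ≤ t → od h (x + t • a) - od h x ≤ A (x + t • a) - A x)
    (hT : 0 < T) (hsat : ∀ (x : X) (t : ℝ), T * (1 + ‖x‖) ≤ t → od h (x + t • a) = m / 2) :
    ∃ σ, Sg σ ∧ Cl A σ := by
  obtain ⟨Λ, f, l1, l2, fm, fo, ft, fb, fl, fa⟩ := hp.down
  have s1 := b3lim_s0
  have lo : ∀ z, od h z + m / 2 - s0 / 2 ≤ A z := fun z => by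
    have t0 : 0 ≤ T * (1 + ‖z‖) := by positivity
    have q1 := hmon (z - (T * (1 + ‖z‖)) • a) _ t0
    have q2 := hsat (-z) (T * (1 + ‖z‖)) (by rw [norm_neg])
    have q3 := (abs_le.1 (hp.bA (z - (T * (1 + ‖z‖)) • a))).1
    rw [sub_add_cancel] at q1
    simp only [od, neg_add, neg_neg, neg_sub, ← sub_eq_add_neg, neg_add_eq_sub] at q1 q2 ⊢
    linarith
  have hi : ∀ z, A z ≤ od h z - m / 2 + s0 / 2 := fun z => by
    have t0 : 0 ≤ T * (1 + ‖z‖) := by positivity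
    have q1 := hmon z _ t0
    have q2 := hsat z _ le_rfl
    have q3 := (abs_le.1 (hp.bA (z + (T * (1 + ‖z‖)) • a))).2
    linarith
  have up : ∀ x, Tendsto (fun j => |A (Λ j • x)|) atTop (𝓝 (s0 / 2)) → -(m / 2) < f x →
      Tendsto (fun j => A (Λ j • x)) atTop (𝓝 (s0 / 2)) := fun x q1 q2 =>
    b3lim_pos q1 (((fl x).add_const (m / 2)).sub_const (s0 / 2)) (fun j => lo _) (by linarith)
  have dn : ∀ x, Tendsto (fun j => |A (Λ j • x)|) atTop (𝓝 (s0 / 2)) → f x < m / 2 →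
      Tendsto (fun j => A (Λ j • x)) atTop (𝓝 (-(s0 / 2))) := fun x q1 q2 =>
    b3lim_neg q1 (((fl x).sub_const (m / 2)).add_const (s0 / 2)) (fun j => hi _) (by linarith)
  have f2 : ∀ᵐ x, |f x| = m / 2 := fa.mono fun x q => by
    refine le_antisymm (fb x) (not_lt.1 fun k => ?_)
    have := tendsto_nhds_unique (up x q (abs_lt.1 k).1) (dn x q (abs_lt.1 k).2)
    linarith
  obtain ⟨e, e1, e2⟩ := cv fm fo (half_pos hm) (by linarith) f2 ft
  have sg : Sg fun x => Real.sign ⟪e, x⟫ := Or.inr (Or.inr ⟨e, e1, rfl⟩)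
  refine ⟨_, sg, cl_of_ae hp.cA hp.bA sg l1 l2 ?_⟩
  filter_upwards [fa, f2, e2] with x q1 q2 q3
  rcases (abs_eq (half_pos hm).le).1 q2 with q | q
  · have k : Real.sign ⟪e, x⟫ = 1 := mul_left_cancel₀ (half_pos hm).ne' (by linarith)
    rw [k, mul_one]
    exact up x q1 (by linarith)
  · have k : Real.sign ⟪e, x⟫ = -1 := mul_left_cancel₀ (half_pos hm).ne' (by linarith)
    rw [k, mul_neg_one]
    exact dn x q1 (by linarith)

theorem Prof.two' {A h : X → ℝ} {m c : ℝ} (hp : Prof A h m) (hm : m < 3 * s0)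
    (hc : ∀ x, A x = c + od h x) : ∃ σ, Sg σ ∧ Cl A σ := by
  obtain ⟨Λ, f, l1, l2, fm, fo, ft, fb, fl, fa⟩ := hp.down
  have s1 := b3lim_s0
  have lim : ∀ x, Tendsto (fun j => A (Λ j • x)) atTop (𝓝 (c + f x)) := fun x => by
    simp only [hc]
    exact (fl x).const_add c
  have a1 : ∀ᵐ x, |c + f x| = s0 / 2 := fa.mono fun x q => tendsto_nhds_unique (lim x).abs q
  have a2 : ∀ᵐ x, |c + f (-x)| = s0 / 2 :=
    (Measure.measurePreserving_neg (volume : Measure X)).quasiMeasurePreserving.ae a1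
  by_cases c0 : c = 0
  · simp only [c0, zero_add] at a1 lim
    obtain ⟨e, e1, e2⟩ := cv fm fo (half_pos s1) (by linarith) a1 ft
    have sg : Sg fun x => Real.sign ⟪e, x⟫ := Or.inr (Or.inr ⟨e, e1, rfl⟩)
    exact ⟨_, sg, cl_of_ae hp.cA hp.bA sg l1 l2 (e2.mono fun x q => q ▸ lim x)⟩
  · have a3 : ∀ᵐ x, f x = 0 := by
      filter_upwards [a1, a2] with x q1 q2
      rw [fo] at q2
      have q3 := sq_eq_sq_iff_abs_eq_abs _ _ |>.2 (q1.trans q2.symm)
      exact mul_left_cancel₀ c0 (by linarith)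
    obtain ⟨x, q1, q2⟩ := (a1.and a3).exists
    rw [q2, add_zero] at q1
    rcases (abs_eq (half_pos s1).le).1 q1 with q | q
    · refine ⟨_, Or.inl rfl, cl_of_ae hp.cA hp.bA (Or.inl rfl) l1 l2 (a3.mono fun x k => ?_)⟩
      have := lim x
      rwa [k, add_zero, q, ← mul_one (s0 / 2)] at this
    · refine ⟨_, Or.inr (Or.inl rfl), cl_of_ae hp.cA hp.bA (Or.inr (Or.inl rfl)) l1 l2
        (a3.mono fun x k => ?_)⟩
      have := lim x
      rwa [k, add_zero, q, ← mul_neg_one (s0 / 2)] at this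

end Vale.Agent.P134.B3
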