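import Vale.Agent.P134.B3Rep
import Vale.Agent.P134.B3Av

/-! P134, block B3: the representation inequality. -/

open Filter Topology MeasureTheory Set Metric
open scoped ContDiff RealInnerProductSpace NNReal Laplacian

namespace Vale.Agent.P134.B3

variable {u : X → ℝ} {a : X}

theorem Er_nonneg {w ρ : X → ℝ} {p : X → X} (h : Tri w ρ p) (S : Set X) (L : ℝ) :
    0 ≤ Er ρ p S L :=
  setIntegral_nonneg measurableSet_ball fun y _ => mul_nonneg (h.r0 y) (add_nonneg (add_nonneg
    (sub_nonneg.2 (pow_le_one₀ (norm_nonneg _) (h.pl y))) (abs_nonneg _))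
    (mul_nonneg (indicator_nonneg (fun _ _ => zero_le_one) _) (norm_nonneg _)))

theorem b3rep2_int {f : X → ℝ} (hf : Continuous f) (c : X) (h0 : ∀ y, 1 ≤ ‖c - y‖ → f y = 0) :
    Integrable f :=
  hf.integrable_of_hasCompactSupport (HasCompactSupport.intro (isCompact_closedBall c 1)
    fun y hy => h0 y (not_le.1 (mt mem_closedBall_iff_norm'.2 hy)).le)

theorem b3rep2_ftc {F G : ℝ → X → ℝ} (hF : ∀ t, Continuous (F t))
    (hG : Continuous (Function.uncurry G)) (hd : ∀ z t, HasDerivAt (fun s => F s z) (G t z) t)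
    (h0 : ∀ t z, 1 ≤ ‖z‖ → F t z = 0 ∧ G t z = 0) :
    IntervalIntegrable (fun t => ∫ z, G t z) volume 0 1 ∧
      (∫ z, F 1 z) - ∫ z, F 0 z = ∫ t in (0 : ℝ)..1, ∫ z, G t z := by
  have h1 : Integrable (Function.uncurry G) ((volume.restrict (uIoc (0 : ℝ) 1)).prod volume) := by
    rw [Measure.restrict_prod_eq_prod_univ]
    refine (hG.continuousOn.integrableOn_compact ((isCompact_uIcc (a := (0 : ℝ)) (b := 1)).prod
      (isCompact_closedBall (0 : X) 1))).of_forall_sdiff_eq_zero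
      (measurableSet_uIoc.prod MeasurableSet.univ) fun q hq => (h0 _ _ ?_).2
    by_contra k
    exact hq.2 ⟨uIoc_subset_uIcc hq.1.1, mem_closedBall_zero_iff.2 (not_le.1 k).le⟩
  have h2 : ∀ t, Integrable (F t) := fun t =>
    b3rep2_int (hF t) 0 fun y hy => (h0 t y (by simpa using hy)).1
  refine ⟨intervalIntegrable_iff.2 h1.integral_prod_left, ?_⟩
  rw [intervalIntegral_integral_swap h1, ← integral_sub (h2 1) (h2 0)]
  refine integral_congr_ae (Eventually.of_forall fun z => ?_)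
  exact (intervalIntegral.integral_eq_sub_of_hasDerivAt (fun t _ => hd z t)
    ((hG.comp (Continuous.prodMk_left z)).intervalIntegrable _ _)).symm

theorem b3rep2_line (x b : X) (t : ℝ) : HasDerivAt (fun s : ℝ => x + s • b) b t := by
  simpa using ((hasDerivAt_id t).smul_const b).const_add x

theorem rep2 {L : ℝ} (hL : 0 ≤ L) : ∃ C : ℝ, 0 ≤ C ∧ ∀ (w ρ : X → ℝ) (p : X → X) (β : X → ℝ)
    (S : Set X), Tri w ρ p → Wt β S → ∀ x b : X, ‖x‖ ≤ L → ‖b‖ ≤ L →
    (∀ y, 0 ≤ (1 - β (p y)) * ⟪b, p y⟫) →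
    od (hh ρ p β) (x + b) - od (hh ρ p β) x - C * Er ρ p S (2 * L + 2) ≤
      Av w (x + b) - Av w x := by
  obtain ⟨C, hC, hr⟩ := rep (L := 2 * L) (by linarith)
  refine ⟨C, hC, fun w ρ p β S h hβ x b hx hb hs => ?_⟩
  have ck := contDiff_kk.continuous
  have cw := h.w2.continuous
  have cρ := h.rc
  have cp := h.p1.continuous
  have cβ := hβ.c1.continuous
  have k1 : ∀ z : X, 1 ≤ ‖z‖ → 1 ≤ ‖z‖ ^ 2 := fun z hz => one_le_pow₀ hz
  obtain ⟨i1, e1⟩ := b3rep2_ftc (F := fun t z => kk (‖z‖ ^ 2) * w (x + t • b + z))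
    (G := fun t z => kk (‖z‖ ^ 2) * (ρ (x + t • b + z) * ⟪p (x + t • b + z), b⟫))
    (fun t => by fun_prop) (by fun_prop) (fun z t => by
      rw [← h.dw]
      exact ((h.w2.differentiable (by simp) _).hasFDerivAt.comp_hasDerivAt t
        ((b3rep2_line x b t).add_const z)).const_mul _)
    fun t z hz => by simp only [kk_zero (k1 z hz), zero_mul, and_self]
  obtain ⟨i2, e2⟩ := b3rep2_ftc
    (F := fun t y => HH (‖y‖ ^ 2) ⟪x + t • b, p y⟫ * (β (p y) * ρ y))
    (G := fun t y => kk (‖y‖ ^ 2 + ⟪x + t • b, p y⟫ ^ 2) * (⟪b, p y⟫ * (β (p y) * ρ y)))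
    (fun t => (continuous_HH.comp (f := fun y => (‖y‖ ^ 2, ⟪x + t • b, p y⟫))
      (by fun_prop)).mul (by fun_prop)) (by fun_prop) (fun y t => by
      rw [← mul_assoc]
      refine ((hasDerivAt_HH _ _).comp t ?_).mul_const _
      simpa using (b3rep2_line x b t).inner ℝ (hasDerivAt_const t (p y)))
    fun t z hz => by
      simp only [HH_off (k1 z hz), kk_zero ((k1 z hz).trans (le_add_of_nonneg_right (sq_nonneg _))),
        zero_mul, and_self]
  simp only [one_smul, zero_smul, add_zero] at e1 e2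
  rw [Av_eq, Av_eq, od_hh h hβ, od_hh h hβ, e1, e2]
  have k := intervalIntegral.integral_mono_on zero_le_one
    (i2.sub (intervalIntegrable_const (c := C * Er ρ p S (2 * L + 2)))) i1 fun t ht => ?_
  · rwa [intervalIntegral.integral_sub i2 intervalIntegrable_const,
      intervalIntegral.integral_const, sub_zero, one_smul] at k
  have n1 : ‖x + t • b‖ ≤ 2 * L := by
    have := norm_add_le x (t • b)
    rw [norm_smul, Real.norm_of_nonneg ht.1] at this
    nlinarith [mul_le_of_le_one_left (norm_nonneg b) ht.2]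
  have a1 := (abs_le.1 (hr w ρ p β S h hβ (x + t • b) b n1 (by linarith))).1
  have a2 := Av_eq (fun y => ρ y * ⟪p y, b⟫) (x + t • b)
  have a3 : ∫ y, kk (‖x + t • b - y‖ ^ 2) * (⟪b, p y⟫ * (β (p y) * ρ y)) ≤
      Av (fun y => ρ y * ⟪p y, b⟫) (x + t • b) := by
    refine integral_mono (b3rep2_int (by fun_prop) (x + t • b) fun y hy => ?_)
      (b3rep2_int (by fun_prop) (x + t • b) fun y hy => ?_) fun y => ?_
    · rw [kk_zero (k1 _ hy), zero_mul]
    · rw [kk_zero (k1 _ hy), zero_mul]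
    · refine mul_le_mul_of_nonneg_left ?_ (kk_nonneg _)
      have := mul_nonneg (hs y) (h.r0 y)
      beta_reduce
      rw [real_inner_comm b]
      linarith
  linarith

end Vale.Agent.P134.B3
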