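import Vale.Agent.P134.B3Ult0
import Vale.Agent.P134.B3Rep2
import Vale.Agent.P134.B3Lim

/-! P134, block B3: the two cases for sequences. -/

open Filter Topology MeasureTheory Set Metric
open scoped ContDiff RealInnerProductSpace NNReal Laplacian

namespace Vale.Agent.P134.B3

variable {u : X → ℝ} {a : X}

variable {w ρ : ℕ → X → ℝ} {p : ℕ → X → X} {β : X → ℝ} {S : Set X}

theorem b3ult_lim (h : Sq w ρ p β S) {U : Ultrafilter ℕ} {A g : X → ℝ}
    (hU : (U : Filter ℕ) ≤ atTop) (hA : ∀ x, Tendsto (fun k => Av (w k) x) U (𝓝 (A x)))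
    (hg : ∀ x, Tendsto (fun k => hh (ρ k) (p k) β x) U (𝓝 (g x))) (x b : X)
    (hb : ∀ k y, 0 ≤ (1 - β (p k y)) * ⟪b, p k y⟫) :
    od g (x + b) - od g x ≤ A (x + b) - A x := by
  obtain ⟨C, _, hC⟩ := rep2 (L := max ‖x‖ ‖b‖) (le_max_of_le_left (norm_nonneg x))
  have ho : ∀ z, Tendsto (fun k => od (hh (ρ k) (p k) β) z) U (𝓝 (od g z)) := fun z =>
    (hg z).sub (hg (-z))
  have h1 := ((ho (x + b)).sub (ho x)).sub
    (((h.err (2 * max ‖x‖ ‖b‖ + 2)).mono_left hU).const_mul C)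
  rw [mul_zero, sub_zero] at h1
  exact le_of_tendsto_of_tendsto' h1 ((hA (x + b)).sub (hA x)) fun k =>
    hC _ _ _ _ _ (h.tri k) h.wt x b (le_max_left _ _) (le_max_right _ _) (hb k)

theorem Sq.one (h : Sq w ρ p β S) {τ c : ℝ} (hτ : 0 < τ) (hc : 0 < c)
    (h0 : ∀ k y, 0 ≤ ⟪p k y, a⟫) (h1 : ∀ z, β z ≠ 0 → τ ≤ ⟪z, a⟫)
    (h2 : ∀ k, c ≤ ∫ y in ball (0 : X) (1 / 2), β (p k y) * ρ k y) : ∃ σ, Sg σ ∧ Cs w σ := by
  obtain ⟨U, A, g, m, hU, hP, hA, hg, hm, hC⟩ := h.ult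
  have ho := om_pos
  have hm0 : 3 / (2 * om) * c ≤ m := ge_of_tendsto' hm fun k =>
    (mul_le_mul_of_nonneg_left (h2 k) (by positivity)).trans (ms_low (h.tri k) h.wt)
  have hm1 : 0 < m := lt_of_lt_of_le (by positivity) hm0
  obtain ⟨σ, s1, s2⟩ := hP.one (a := a) (T := 1 / τ) hm1 (fun x t ht => by
    refine b3ult_lim h hU hA hg x _ fun k y => mul_nonneg ?_ ?_
    · exact sub_nonneg.2 (h.wt.b1 _ ((h.tri k).pl y)).1
    · rw [real_inner_smul_left, real_inner_comm]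
      exact mul_nonneg ht (h0 k y)) (by positivity) (fun x t ht => by
    have e : ∀ k, od (hh (ρ k) (p k) β) (x + t • a) = ms (ρ k) (p k) β / 2 := fun k => by
      refine hh_sat (h.tri k) h.wt fun y hy => ?_
      have a1 := h1 _ hy
      have a2 := abs_real_inner_le_norm x (p k y)
      have a3 := mul_le_of_le_one_right (norm_nonneg x) ((h.tri k).pl y)
      have a4 : 1 + ‖x‖ ≤ t * τ := by
        rw [one_div, inv_mul_eq_div, div_le_iff₀ hτ] at ht
        exact ht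
      have a5 : 0 ≤ t := le_trans (by positivity) ht
      have a6 := mul_le_mul_of_nonneg_left a1 a5
      rw [inner_add_left, real_inner_smul_left, real_inner_comm (p k y) a]
      linarith [(abs_le.1 a2).1]
    have t1 : Tendsto (fun k => od (hh (ρ k) (p k) β) (x + t • a)) U (𝓝 (od g (x + t • a))) :=
      (hg _).sub (hg _)
    simp only [e] at t1
    exact tendsto_nhds_unique t1 (hm.div_const 2))
  exact ⟨σ, s1, hC σ s1 s2⟩

theorem Sq.two' (h : Sq w ρ p (fun _ => 1) univ) (hv : ∀ η : ℝ, 0 < η → ∀ᶠ k in atTop,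
    ∀ r : ℝ, 0 < r → r ≤ 1 → ∫ y in ball (0 : X) r, ρ k y ≤ 11 / 5 * om * r ^ 3 + η) :
    ∃ σ, Sg σ ∧ Cs w σ := by
  obtain ⟨U, A, g, m, hU, hP, hA, hg, hm, hC⟩ := h.ult
  have ho := om_pos
  have hm0 : m ≤ (128 / 105 * (11 / 5 * om) + 32 / 5 * (om / 100)) / om :=
    le_of_tendsto hm (((hv (om / 100) (by positivity)).filter_mono hU).mono fun k hk =>
      ms_up (h.tri k) h.wt (by positivity) (by positivity) hk)
  have e : (128 / 105 * (11 / 5 * om) + 32 / 5 * (om / 100)) / om =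
      128 / 105 * (11 / 5) + 32 / 5 / 100 := by
    rw [div_eq_iff ho.ne']
    ring
  have hs : (7 / 5 : ℝ) < √2 := Real.lt_sqrt_of_sq_lt (by norm_num)
  have hm1 : m < 3 * s0 := by
    rw [e] at hm0
    unfold s0
    linarith
  obtain ⟨σ, s1, s2⟩ := hP.two' (c := A 0) hm1 fun b => by
    have a1 := b3ult_lim h hU hA hg 0 b fun k y => by simp
    have a2 := b3ult_lim h hU hA hg b (-b) fun k y => by simp
    have a3 : od g 0 = 0 := by simp [od]
    rw [zero_add] at a1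
    rw [add_neg_cancel] at a2
    linarith
  exact ⟨σ, s1, hC σ s1 s2⟩

end Vale.Agent.P134.B3
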