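import Vale.Agent.P134.B3Sc
import Vale.Agent.P134.B3Ult
import Vale.Agent.P134.B3Q

/-! P134, block B3: the case of a transversal direction. -/

open Filter Topology MeasureTheory Set Metric
open scoped ContDiff RealInnerProductSpace NNReal Laplacian

namespace Vale.Agent.P134.B3

variable {u : X → ℝ} {a : X}

theorem b3c1_wt (ha : ‖a‖ = 1) {τ : ℝ} (hτ : 0 < τ) :
    Wt (fun z => pw 2 (1 + τ - ⟪z, a⟫)) {z | τ ≤ ⟪z, a⟫} := by
  have h1 : ∀ z : X, ‖z‖ ≤ 1 → 0 ≤ 1 + τ - ⟪z, a⟫ := fun z hz => by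
    have h2 := real_inner_le_norm z a
    rw [ha, mul_one] at h2
    linarith
  refine ⟨(contDiff_pw 0).comp (contDiff_const.sub (contDiff_id.inner ℝ contDiff_const)),
    isClosed_le continuous_const (continuous_id.inner continuous_const), fun z => pw_nonneg _ _,
    fun z hz => ⟨pw_le_one _ (h1 z hz), ?_⟩, fun z hz => pw_zero 1 ?_⟩
  · have h2 : HasFDerivAt (fun z : X => 1 + τ - ⟪z, a⟫) (-innerSL ℝ a) z := by
      have h3 : (fun z : X => 1 + τ - ⟪z, a⟫) = fun z : X => 1 + τ - innerSL ℝ a z :=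
        funext fun z => by rw [innerSL_apply_apply, real_inner_comm]
      rw [h3]
      exact (innerSL ℝ a).hasFDerivAt.const_sub _
    have h4 := ((hasDerivAt_pw 0 (1 + τ - ⟪z, a⟫)).comp_hasFDerivAt z h2).fderiv
    have h5 : fderiv ℝ (fun z : X => pw 2 (1 + τ - ⟪z, a⟫)) z = _ := h4
    rw [h5, norm_smul, norm_neg, norm_neg, innerSL_apply_norm, ha, mul_one, Nat.cast_zero,
      zero_add, Real.norm_of_nonneg (mul_nonneg zero_le_two (pw_nonneg _ _))]
    linarith [pw_le_one (0 + 1) (h1 z hz)]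
  · have h2 : ¬ τ ≤ ⟪z, a⟫ := hz
    linarith [not_le.1 h2]

theorem b3c1_low {τ q : ℝ} (hτ : 0 < τ) : 2 * τ * q - 3 * τ ^ 2 ≤ pw 2 (1 + τ - q) := by
  unfold pw
  rcases le_total (1 - (1 + τ - q)) 0 with h | h
  · rw [max_eq_right h]; nlinarith
  · rw [max_eq_left h]; nlinarith [sq_nonneg (q - 2 * τ)]

theorem b3c1_lim {F : ℝ → ℝ} {n : ℕ} (h0 : ∀ R, 0 ≤ F R)
    (hF : ∀ ε : ℝ, 0 < ε → ∃ R0 : ℝ, ∀ R, R0 ≤ R → F R ≤ ε * R ^ n) {r : ℕ → ℝ}
    (hr : ∀ k, 0 < r k) (hr' : Tendsto r atTop atTop) {L : ℝ} (hL : 0 < L) :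
    Tendsto (fun k => (r k ^ n)⁻¹ * F (r k * L)) atTop (𝓝 0) := by
  refine tendsto_order.2 ⟨fun b hb => Eventually.of_forall fun k =>
    hb.trans_le (mul_nonneg (inv_pos.2 (pow_pos (hr k) n)).le (h0 _)), fun b hb => ?_⟩
  obtain ⟨R0, h1⟩ := hF (b / (2 * L ^ n)) (by positivity)
  filter_upwards [(hr'.atTop_mul_const hL).eventually_ge_atTop R0] with k hk
  have h2 := hr k
  have h3 := mul_le_mul_of_nonneg_left (h1 _ hk) (inv_pos.2 (pow_pos h2 n)).le
  have h4 : (r k ^ n)⁻¹ * (b / (2 * L ^ n) * (r k * L) ^ n) = b / 2 := by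
    rw [mul_pow]; field_simp
  linarith

theorem b3c1_pt {m H q τ l R : ℝ} (hH : m ^ 2 ≤ H) (hτ : 0 < τ) (hq : τ ≤ q) (hl : 0 < l)
    (hR : 0 < R) : m ≤ l / R + R / (4 * l * τ) * (H * q) := by
  have h0 : 0 ≤ H := (sq_nonneg m).trans hH
  have h1 : m ^ 2 * τ ≤ H * q := mul_le_mul hH hq hτ.le h0
  have h2 : R / (4 * l * τ) * (m ^ 2 * τ) ≤ R / (4 * l * τ) * (H * q) :=
    mul_le_mul_of_nonneg_left h1 (by positivity)
  have h3 : l / R + R / (4 * l * τ) * (m ^ 2 * τ) - m = (R * m - 2 * l) ^ 2 / (4 * l * R) := by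
    field_simp; ring
  have h4 : 0 ≤ (R * m - 2 * l) ^ 2 / (4 * l * R) := by positivity
  linarith

theorem b3c1_third (h : Cx u a) {τ : ℝ} (hτ : 0 < τ) (ε : ℝ) (hε : 0 < ε) :
    ∃ R0 : ℝ, ∀ R, R0 ≤ R → ∫ x in ball (0 : X) R, rr u x *
      ({z : X | τ ≤ ⟪z, a⟫}.indicator (fun _ => (1 : ℝ)) (pp u x) * ‖HM u x‖) ≤ ε * R ^ 2 := by
  obtain ⟨C, hC, hv⟩ := h.vol
  obtain ⟨l, hl, hlC⟩ : ∃ l : ℝ, 0 < l ∧ l * C = ε / 2 := ⟨ε / (2 * C), by positivity, by
    field_simp⟩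
  obtain ⟨R0, h1⟩ := h.q_small (ε := 2 * l * τ * ε) (by positivity)
  refine ⟨max R0 1, fun R hR => ?_⟩
  have hR0 : 0 < R := lt_of_lt_of_le one_pos ((le_max_right _ _).trans hR)
  have h2 := h1 R ((le_max_left _ _).trans hR)
  have h3 := (hv 0 R hR0).1
  have i1 := intOn_ball h.sm_r.continuous (0 : X) R
  have i2 : IntegrableOn (fun x => rr u x * hs u x * qq u a x) (ball (0 : X) R) :=
    intOn_ball ((h.sm_r.continuous.mul h.cont_hs).mul (h.sm_q a).continuous) (0 : X) R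
  have h4 : ∫ x in ball (0 : X) R, rr u x *
      ({z : X | τ ≤ ⟪z, a⟫}.indicator (fun _ => (1 : ℝ)) (pp u x) * ‖HM u x‖) ≤
      ∫ x in ball (0 : X) R, (l / R * rr u x +
        R / (4 * l * τ) * (rr u x * hs u x * qq u a x)) := by
    refine integral_mono_of_nonneg (Eventually.of_forall fun x => mul_nonneg (h.r_pos x).le
      (mul_nonneg (indicator_nonneg (fun _ _ => zero_le_one) _) (norm_nonneg _)))
      ((i1.const_mul _).add (i2.const_mul _)) (Eventually.of_forall fun x => ?_)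
    have h5 : {z : X | τ ≤ ⟪z, a⟫}.indicator (fun _ => (1 : ℝ)) (pp u x) * ‖HM u x‖ ≤
        l / R + R / (4 * l * τ) * (hs u x * qq u a x) := by
      by_cases q : pp u x ∈ {z : X | τ ≤ ⟪z, a⟫}
      · rw [indicator_of_mem q, one_mul]
        exact b3c1_pt (norm_M_sq u x) hτ q hl hR0
      · rw [indicator_of_notMem q, zero_mul]
        have h6 := hs_nonneg u x
        have h7 := h.q_pos x
        positivity
    have h6 := mul_le_mul_of_nonneg_left h5 (h.r_pos x).le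
    refine h6.trans (le_of_eq ?_)
    ring
  rw [integral_add (i1.const_mul _) (i2.const_mul _), integral_const_mul, integral_const_mul] at h4
  have h5 := mul_le_mul_of_nonneg_left h3 (div_pos hl hR0).le
  have h6 := mul_le_mul_of_nonneg_left h2 (show 0 ≤ R / (4 * l * τ) by positivity)
  have h7 : l / R * (C * R ^ 3) = l * C * R ^ 2 := by field_simp
  have h8 : R / (4 * l * τ) * (2 * l * τ * ε * R) = ε / 2 * R ^ 2 := by field_simp; ring
  rw [hlC] at h7
  linarith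

theorem b3c1_mass (h : Cx u a) {δ τ C R : ℝ} (hτ : 0 < τ) (hR : 0 < R) (hC : 3 * τ * C ≤ δ)
    (h1 : ∫ x in ball (0 : X) R, rr u x ≤ C * R ^ 3)
    (h2 : δ * R ^ 3 ≤ ∫ x in ball (0 : X) R, rr u x * qq u a x) :
    τ * δ / 8 ≤ ∫ y in ball (0 : X) (1 / 2),
      pw 2 (1 + τ - ⟪pS u 0 (2 * R) y, a⟫) * rS u 0 (2 * R) y := by
  have h3 := int_rS (u := u) (fun x => pw 2 (1 + τ - qq u a x)) 0 (r := 2 * R) (by positivity)
    (1 / 2)
  have h4 : (fun y => pw 2 (1 + τ - ⟪pS u 0 (2 * R) y, a⟫) * rS u 0 (2 * R) y) =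
      fun y => rS u 0 (2 * R) y * pw 2 (1 + τ - qq u a (0 + (2 * R) • y)) :=
    funext fun y => mul_comm _ _
  rw [h4, h3, show 2 * R * (1 / 2) = R by ring]
  have i1 := intOn_ball h.sm_r.continuous (0 : X) R
  have i2 : IntegrableOn (fun x => rr u x * qq u a x) (ball (0 : X) R) :=
    intOn_ball (h.sm_r.continuous.mul (h.sm_q a).continuous) (0 : X) R
  have i3 := intOn_ball (h.sm_r.continuous.mul ((continuous_pw 2).comp
    ((continuous_const (y := 1 + τ)).sub (h.sm_q a).continuous))) (0 : X) R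
  have h5 : ∫ x in ball (0 : X) R, (2 * τ * (rr u x * qq u a x) - 3 * τ ^ 2 * rr u x) ≤
      ∫ x in ball (0 : X) R, rr u x * pw 2 (1 + τ - qq u a x) := by
    refine integral_mono ((i2.const_mul _).sub (i1.const_mul _)) i3 fun x => ?_
    have h6 := mul_le_mul_of_nonneg_left (b3c1_low (q := qq u a x) hτ) (h.r_pos x).le
    refine (le_of_eq ?_).trans h6
    ring
  rw [integral_sub (i2.const_mul _) (i1.const_mul _), integral_const_mul, integral_const_mul] at h5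
  have h6 := mul_le_mul_of_nonneg_left h1 (show 0 ≤ 3 * τ ^ 2 by positivity)
  have h7 := mul_le_mul_of_nonneg_left h2 (show 0 ≤ 2 * τ by positivity)
  have h8 := mul_le_mul_of_nonneg_left hC (show 0 ≤ τ * R ^ 3 by positivity)
  have h9 : τ * δ / 8 = ((2 * R) ^ 3)⁻¹ * (τ * δ * R ^ 3) := by field_simp; ring
  rw [h9]
  exact mul_le_mul_of_nonneg_left (by nlinarith) (by positivity)

theorem Cx.case1 (h : Cx u a) {δ : ℝ} (hδ : 0 < δ) (H : ∀ R0 : ℝ, ∃ R, R0 ≤ R ∧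
    δ * R ^ 3 ≤ ∫ x in ball (0 : X) R, rr u x * qq u a x) :
    ∃ σ, Sg σ ∧ Cl (fun x => GG (u x)) σ := by
  choose R hR1 hR2 using fun k : ℕ => H (k + 1)
  obtain ⟨C, hC, hv⟩ := h.vol
  obtain ⟨τ, hτ, hτC⟩ : ∃ τ : ℝ, 0 < τ ∧ 3 * τ * C ≤ δ :=
    ⟨δ / (3 * C), by positivity, le_of_eq (by field_simp)⟩
  have hR0 : ∀ k, 0 < R k := fun k => lt_of_lt_of_le (by positivity) (hR1 k)
  have hr : ∀ k, 0 < 2 * R k := fun k => mul_pos two_pos (hR0 k)
  have hr' : Tendsto (fun k => 2 * R k) atTop atTop :=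
    tendsto_atTop_mono (fun k => by linarith [hR1 k, hR0 k]) tendsto_natCast_atTop_atTop
  have hw := b3c1_wt h.unit hτ
  have hs := h.sq (y := fun _ => 0) hr hr' hw fun L hL => by
    have t1 := b3c1_lim (F := fun R => ∫ x in ball (0 : X) R, rr u x * ss u x) (n := 3)
      (fun R => (b3mon_nn h R).1) (fun ε hε => by
        obtain ⟨R0, q⟩ := h.mon_small hε
        exact ⟨R0, fun R hR => (q R hR).1⟩) hr hr' hL
    have t2 := b3c1_lim (F := fun R => ∫ x in ball (0 : X) R, rr u x * |⟪x, pp u x⟫|) (n := 4)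
      (fun R => integral_nonneg fun x => mul_nonneg (h.r_pos x).le (abs_nonneg _))
      (fun ε hε => h.cone_small hε) hr hr' hL
    have t3 := b3c1_lim (fun R => integral_nonneg fun x => mul_nonneg (h.r_pos x).le
      (mul_nonneg (indicator_nonneg (fun _ _ => zero_le_one) _) (norm_nonneg _)))
      (b3c1_third h hτ) hr hr' hL
    have t4 := (t1.add t2).add t3
    rw [add_zero, add_zero] at t4
    refine t4.congr fun k => ?_
    rw [h.er_eq 0 (hr k) hw.cl L]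
    simp only [sub_zero]
  obtain ⟨σ, h1, h2⟩ := hs.one (a := a) hτ (c := τ * δ / 8) (by positivity)
    (fun k y => (h.q_pos _).le) (fun z hz => by
      by_contra q
      exact hz (hw.off z q))
    fun k => b3c1_mass h hτ (hR0 k) hτC (hv 0 _ (hR0 k)).1 (hR2 k)
  refine ⟨σ, h1, h.back (y := fun _ => 0) hr hr' h1 h2 fun L _ => ?_⟩
  simp only [zero_add, sub_self, abs_zero, integral_zero, mul_zero]
  exact tendsto_const_nhds

end Vale.Agent.P134.B3
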