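import Vale.Agent.P134.B3Log
import Vale.Agent.P134.B3Q

/-! P134, block B3: good balls along the axis. -/

open Filter Topology MeasureTheory Set Metric
open scoped ContDiff RealInnerProductSpace NNReal Laplacian

namespace Vale.Agent.P134.B3

variable {u : X → ℝ} {a : X}

theorem b3c2a_line {w g : X → ℝ} (hw : Differentiable ℝ w) (hg : Continuous g) (y : X)
    (hd : ∀ x, fderiv ℝ w x y = g x) {s B : ℝ}
    (hB : ∀ θ ∈ Icc (0 : ℝ) 1, ∫ x in ball (θ • y) s, |g x| ≤ B) :
    ∫ x in ball (0 : X) s, |w (y + x) - w x| ≤ B := by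
  have hc : Continuous (Function.uncurry fun (θ : ℝ) (x : X) => |g (x + θ • y)|) := by
    unfold Function.uncurry
    fun_prop
  have hi : Integrable (Function.uncurry fun (θ : ℝ) (x : X) => |g (x + θ • y)|)
      ((volume.restrict (uIoc 0 1)).prod (volume.restrict (ball 0 s))) := by
    rw [Measure.prod_restrict]
    exact (hc.continuousOn.integrableOn_compact
      (isCompact_uIcc.prod (isCompact_closedBall 0 s))).mono_set
      (prod_mono uIoc_subset_uIcc ball_subset_closedBall)
  have h1 : ∀ x, |w (y + x) - w x| ≤ ∫ θ in (0 : ℝ)..1, |g (x + θ • y)| := fun x => by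
    have e := intervalIntegral.integral_eq_sub_of_hasDerivAt (a := 0) (b := 1)
      (f := fun θ : ℝ => w (x + θ • y)) (f' := fun θ => g (x + θ • y))
      (fun θ _ => hd (x + θ • y) ▸ hasDerivAt_line y (hw _))
      (Continuous.intervalIntegrable (by fun_prop) _ _)
    simp only [one_smul, zero_smul, add_zero] at e
    rw [add_comm y x, ← e]
    exact intervalIntegral.abs_integral_le_integral_abs zero_le_one
  have h2 : Continuous fun x : X => ∫ θ in (0 : ℝ)..1, |g (x + θ • y)| :=
    intervalIntegral.continuous_parametric_intervalIntegral_of_continuous' (by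
      unfold Function.uncurry
      fun_prop) _ _
  refine (integral_mono_of_nonneg (.of_forall fun _ => abs_nonneg _) (intOn_ball h2 _ _)
    (.of_forall h1)).trans ?_
  rw [← intervalIntegral_integral_swap hi]
  have e0 : B * |(1 : ℝ) - 0| = B := by simp
  refine (Real.le_norm_self _).trans ((intervalIntegral.norm_integral_le_of_norm_le_const
    fun θ hθ => ?_).trans e0.le)
  rw [uIoc_of_le zero_le_one] at hθ
  have e := int_scale (fun x => |g x|) (θ • y) one_pos s
  simp only [one_smul, one_pow, inv_one, one_mul] at e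
  rw [Real.norm_eq_abs, abs_of_nonneg (integral_nonneg fun _ => abs_nonneg _)]
  simp only [add_comm _ (θ • y)]
  exact e.le.trans (hB θ ⟨hθ.1.le, hθ.2⟩)

theorem b3c2a_amgm {m k l s : ℝ} (h : m ^ 2 ≤ k) (hl : 0 < l) (hs : 0 < s) :
    m ≤ l / s + s / (4 * l) * k := by
  have e : l / s + s / (4 * l) * m ^ 2 - m = (2 * l - s * m) ^ 2 / (4 * l * s) := by
    field_simp
    ring
  have h1 : 0 ≤ (2 * l - s * m) ^ 2 / (4 * l * s) := by positivity
  have h2 : s / (4 * l) * m ^ 2 ≤ s / (4 * l) * k := mul_le_mul_of_nonneg_left h (by positivity)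
  linarith

theorem Cx.good_ball (h : Cx u a) (H : ∀ δ : ℝ, 0 < δ → ∃ R0 : ℝ, ∀ R, R0 ≤ R →
    ∫ x in ball (0 : X) R, rr u x * qq u a x ≤ δ * R ^ 3) {δ : ℝ} (hδ : 0 < δ) (s1 : ℝ) :
    ∃ (s : ℝ) (y : X), s1 ≤ s ∧ 0 < s ∧ ∫ x in ball y s, rr u x * ss u x ≤ δ * s ^ 3 ∧
      ∫ x in ball y s, rr u x * |⟪x - y, pp u x⟫| ≤ δ * s ^ 4 ∧
      ∫ x in ball y s, rr u x * ‖HM u x‖ ≤ δ * s ^ 2 ∧
      ∫ x in ball (0 : X) s, |GG (u (y + x)) - GG (u x)| ≤ δ * s ^ 4 := by
  obtain ⟨C, hC, hv⟩ := h.vol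
  obtain ⟨N, hN, hcut⟩ := h.log_cut (δ := δ ^ 2 / C) (by positivity)
  obtain ⟨ε, hε, hεδ⟩ : ∃ ε : ℝ, 0 < ε ∧ 2 * ε * (N + 1) ^ 4 = δ :=
    ⟨δ / (2 * (N + 1) ^ 4), by positivity, by field_simp⟩
  obtain ⟨R1, h1⟩ := h.mon_small hε
  obtain ⟨R2, h2⟩ := h.cone_small hε
  obtain ⟨R3, h3⟩ := H ε hε
  obtain ⟨s, hs1, hs, hR⟩ : ∃ s : ℝ, s1 ≤ s ∧ 0 < s ∧ max R1 (max R2 R3) ≤ s :=
    ⟨max s1 (max 1 (max R1 (max R2 R3))), le_max_left _ _,
      one_pos.trans_le ((le_max_left _ _).trans (le_max_right _ _)),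
      (le_max_right _ _).trans (le_max_right _ _)⟩
  have hK : s ≤ (N + 1) * s := le_mul_of_one_le_left hs.le (by linarith)
  replace h1 := (h1 _ ((le_max_left _ _).trans (hR.trans hK))).1
  replace h2 := h2 _ ((le_max_left _ _).trans ((le_max_right _ _).trans (hR.trans hK)))
  replace h3 := h3 _ ((le_max_right _ _).trans ((le_max_right _ _).trans (hR.trans hK)))
  obtain ⟨t, ht, h4⟩ := hcut s hs
  have cr := h.sm_r.continuous
  have cp := h.sm_p.continuous
  have cq := (h.sm_q a).continuous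
  have cs := h.bas.sms.continuous
  have r0 := fun x => (h.r_pos x).le
  have hb : ∀ θ ∈ Icc (0 : ℝ) 1, ‖θ • t • a - 0‖ + s ≤ (N + 1) * s := fun θ hθ => by
    rw [sub_zero, norm_smul, norm_smul, h.unit, mul_one, Real.norm_eq_abs, Real.norm_eq_abs,
      abs_of_nonneg hθ.1]
    have := mul_le_of_le_one_left (abs_nonneg t) hθ.2
    linarith
  have hb1 := hb 1 ⟨zero_le_one, le_rfl⟩
  rw [one_smul] at hb1
  have hq : ∀ θ ∈ Icc (0 : ℝ) 1, ∫ x in ball (θ • t • a) s, |t| * (rr u x * qq u a x) ≤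
      δ / 2 * s ^ 4 := fun θ hθ => by
    rw [integral_const_mul]
    have k := (int_ball_mono (cr.mul cq) (fun x => mul_nonneg (r0 x) (h.q_pos x).le)
      (hb θ hθ)).trans h3
    calc _ ≤ |t| * (ε * ((N + 1) * s) ^ 3) := mul_le_mul_of_nonneg_left k (abs_nonneg t)
      _ ≤ (N + 1) * s * (ε * ((N + 1) * s) ^ 3) :=
          mul_le_mul_of_nonneg_right (by linarith) (by positivity)
      _ = _ := by rw [← hεδ]; ring
  refine ⟨s, t • a, hs1, hs, ?_, ?_, ?_, ?_⟩
  · refine ((int_ball_mono (cr.mul cs) (fun x => mul_nonneg (r0 x) (h.bas.s0 x)) hb1).trans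
      h1).trans ?_
    rw [← hεδ, mul_pow, ← mul_assoc]
    refine mul_le_mul_of_nonneg_right ?_ (by positivity)
    have : 0 < ε * (N + 1) ^ 3 := by positivity
    nlinarith
  · have c1 : Continuous fun x => rr u x * |⟪x, pp u x⟫| := by fun_prop
    have c2 : Continuous fun x => |t| * (rr u x * qq u a x) := by fun_prop
    have k1 := (int_ball_mono c1 (fun x => mul_nonneg (r0 x) (abs_nonneg _)) hb1).trans h2
    have k2 := hq 1 ⟨zero_le_one, le_rfl⟩
    rw [one_smul] at k2
    have k3 : ε * ((N + 1) * s) ^ 4 = δ / 2 * s ^ 4 := by rw [← hεδ]; ring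
    refine (integral_mono_of_nonneg (.of_forall fun x => mul_nonneg (r0 x) (abs_nonneg _))
      ((intOn_ball c1 _ _).add (intOn_ball c2 _ _)) (.of_forall fun x => ?_)).trans ?_
    · show _ ≤ rr u x * _ + |t| * (rr u x * _)
      rw [mul_left_comm, ← mul_add]
      refine mul_le_mul_of_nonneg_left ?_ (r0 x)
      rw [inner_sub_left, real_inner_smul_left, real_inner_comm (pp u x) a]
      refine (abs_sub _ _).trans (add_le_add le_rfl (le_of_eq ?_))
      rw [abs_mul]
      exact congrArg _ (abs_of_pos (h.q_pos x))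
    · rw [integral_add' (intOn_ball c1 _ _) (intOn_ball c2 _ _)]
      linarith
  · have hl : 0 < δ / (2 * C) := by positivity
    have c1 : Continuous fun x => δ / (2 * C) / s * rr u x := by fun_prop
    have c2 : Continuous fun x => s / (4 * (δ / (2 * C))) * (rr u x * B3.hs u x) :=
      continuous_const.mul (cr.mul h.cont_hs)
    refine (integral_mono_of_nonneg (.of_forall fun x => mul_nonneg (r0 x) (norm_nonneg _))
      ((intOn_ball c1 _ _).add (intOn_ball c2 _ _)) (.of_forall fun x => ?_)).trans ?_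
    · have k := mul_le_mul_of_nonneg_left (b3c2a_amgm (norm_M_sq u x) hl hs) (r0 x)
      refine k.trans (le_of_eq ?_)
      show _ = _ * rr u x + _ * (rr u x * _)
      ring
    · rw [integral_add' (intOn_ball c1 _ _) (intOn_ball c2 _ _), integral_const_mul,
        integral_const_mul]
      refine (add_le_add (mul_le_mul_of_nonneg_left (hv _ s hs).1 (by positivity))
        (mul_le_mul_of_nonneg_left h4 (by positivity))).trans (le_of_eq ?_)
      field_simp
      ring
  · have k := b3c2a_line (w := fun x => GG (u x)) (g := fun x => rr u x * ⟪pp u x, t • a⟫)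
      ((contDiff_GG.comp h.nd.sol.sm).differentiable (by simp)) (by fun_prop) (t • a)
      (fun x => h.dw x _) (s := s) (B := δ / 2 * s ^ 4) fun θ hθ => by
        refine le_of_eq_of_le (integral_congr_ae (.of_forall fun x => ?_)) (hq θ hθ)
        show |rr u x * ⟪pp u x, t • a⟫| = |t| * (rr u x * qq u a x)
        rw [real_inner_smul_right, mul_left_comm, abs_mul]
        exact congrArg _ (abs_of_pos (mul_pos (h.r_pos x) (h.q_pos x)))
    refine k.trans (mul_le_mul_of_nonneg_right (half_le_self hδ.le) (by positivity))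

end Vale.Agent.P134.B3
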