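import Vale.Agent.P134.B3En

/-! P134, block B3: the sharp energy bound. -/

open Filter Topology MeasureTheory Set Metric
open scoped ContDiff RealInnerProductSpace NNReal Laplacian

namespace Vale.Agent.P134.B3

variable {u : X → ℝ} {a : X}

theorem b3sharp_W {s t e : ℝ} (hs : |s| ≤ 1) (ht : |t| ≤ 1) (he : |s - t| ≤ e) :
    (1 - s ^ 2) ^ 2 / 4 ≤ (1 - t ^ 2) ^ 2 / 4 + e := by
  have h1 : |s + t| ≤ 2 := by linarith [abs_add_le s t]
  have h2 : |2 - s ^ 2 - t ^ 2| ≤ 2 := by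
    have := (sq_le_one_iff_abs_le_one s).2 hs
    have := (sq_le_one_iff_abs_le_one t).2 ht
    rw [abs_le]; constructor <;> nlinarith [sq_nonneg s, sq_nonneg t]
  have h3 : |(s - t) * ((s + t) * (2 - s ^ 2 - t ^ 2))| ≤ e * (2 * 2) := by
    rw [abs_mul, abs_mul]
    exact mul_le_mul he (mul_le_mul h1 h2 (abs_nonneg _) (by norm_num)) (by positivity)
      ((abs_nonneg _).trans he)
  nlinarith [(abs_le.1 h3).1]

theorem b3sharp_pot {t φ : ℝ} (h0 : 0 ≤ t) (h1 : t ≤ 1) (p0 : 0 ≤ φ) (p1 : φ ≤ 1) :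
    (1 - (t + φ * (-1 - t)) ^ 2) ^ 2 / 4 + (1 - (t + φ * (1 - t)) ^ 2) ^ 2 / 4 ≤
      4 * φ ^ 2 * (1 - φ) ^ 2 + 2 * (1 - t ^ 2) := by
  have a1 : 0 ≤ (1 - t) * (1 - φ) := mul_nonneg (by linarith) (by linarith)
  have a2 : 0 ≤ (1 - t) * φ := mul_nonneg (by linarith) p0
  have a3 : 0 ≤ (1 + t) * (1 - φ) := mul_nonneg (by linarith) (by linarith)
  have a4 : 0 ≤ (1 + t) * φ := mul_nonneg (by linarith) p0
  have b1 := b3sharp_W (s := t + φ * (-1 - t)) (t := 1 - 2 * φ) (e := 1 - t)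
    (abs_le.2 ⟨by linarith, by linarith⟩) (abs_le.2 ⟨by linarith, by linarith⟩)
    (abs_le.2 ⟨by linarith, by linarith⟩)
  have b2 := b3sharp_W (s := t + φ * (1 - t)) (t := 1) (e := 1 - t)
    (abs_le.2 ⟨by linarith, by linarith⟩) (by simp) (abs_le.2 ⟨by linarith, by linarith⟩)
  nlinarith [mul_nonneg h0 (sub_nonneg.2 h1)]

theorem b3sharp_pt {t φ d P : ℝ} (ht : |t| ≤ 1) (p0 : 0 ≤ φ) (p1 : φ ≤ 1) (d0 : 0 ≤ d)
    (d1 : d ≤ P) (hP : 1 - t ^ 2 ≤ 3 / 2 * P) (hP1 : P ≤ 1) :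
    ((d + 0 + |-1 - t| / 4) ^ 2 / 2 + (1 - (t + φ * (-1 - t)) ^ 2) ^ 2 / 4) +
      ((d + 0 + |1 - t| / 4) ^ 2 / 2 + (1 - (t + φ * (1 - t)) ^ 2) ^ 2 / 4) ≤
      (1 / 8 + 4 * φ ^ 2 * (1 - φ) ^ 2) + 5 * P := by
  obtain ⟨t0, t1⟩ := abs_le.1 ht
  rw [abs_of_nonpos (by linarith : -1 - t ≤ 0), abs_of_nonneg (by linarith : 0 ≤ 1 - t)]
  have g : (d + 0 + -(-1 - t) / 4) ^ 2 / 2 + (d + 0 + (1 - t) / 4) ^ 2 / 2 ≤ 1 / 8 + 2 * P := by
    nlinarith [mul_nonneg d0 (by linarith : 0 ≤ 1 - d), mul_nonneg (by linarith : 0 ≤ 1 - t)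
      (by linarith : 0 ≤ 1 + t)]
  rcases le_total 0 t with h | h
  · linarith [b3sharp_pot h t1 p0 p1]
  · have := b3sharp_pot (t := -t) (by linarith) (by linarith) p0 p1
    rw [show (-t + φ * (-1 - -t)) ^ 2 = (t + φ * (1 - t)) ^ 2 by ring,
      show (-t + φ * (1 - -t)) ^ 2 = (t + φ * (-1 - t)) ^ 2 by ring, neg_sq] at this
    linarith

theorem b3sharp_rad (y : X) {b : ℝ} (hb : 0 ≤ b) :
    ∫ x in sh y b 4, (1 / 8 + 4 * ((b + 4 - ‖x - y‖) / 4) ^ 2 * (1 - (b + 4 - ‖x - y‖) / 4) ^ 2) ≤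
      4 * om * ((b + 4) ^ 3 * (31 / 30)) := by
  rw [int_sh_radial (f := fun t => 1 / 8 + 4 * ((b + 4 - t) / 4) ^ 2 * (1 - (b + 4 - t) / 4) ^ 2)
    (by fun_prop) y hb (by norm_num)]
  refine mul_le_mul_of_nonneg_left ?_ (by linarith [om_pos])
  have e : ∫ t in b..(b + 4), (1 / 8 + 4 * ((b + 4 - t) / 4) ^ 2 * (1 - (b + 4 - t) / 4) ^ 2) =
      31 / 30 := by
    rw [intervalIntegral.integral_eq_sub_of_hasDerivAt (f := fun t => t / 8 -
      16 * (((b + 4 - t) / 4) ^ 3 / 3 - ((b + 4 - t) / 4) ^ 4 / 2 + ((b + 4 - t) / 4) ^ 5 / 5))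
      (fun t _ => ?_) (Continuous.intervalIntegrable (by fun_prop) _ _)]
    · ring
    · have c : HasDerivAt (fun t => (b + 4 - t) / 4) (-1 / 4) t :=
        ((hasDerivAt_id t).const_sub (b + 4)).div_const 4
      refine (((hasDerivAt_id t).div_const 8).sub (((((c.pow 3).div_const 3).sub
        ((c.pow 4).div_const 2)).add ((c.pow 5).div_const 5)).const_mul 16)).congr_deriv ?_
      push_cast
      ring
  rw [← e, ← intervalIntegral.integral_const_mul]
  refine intervalIntegral.integral_mono_on (by linarith)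
    (Continuous.intervalIntegrable (by fun_prop) _ _)
    (Continuous.intervalIntegrable (by fun_prop) _ _) fun t ht => ?_
  exact mul_le_mul_of_nonneg_right (pow_le_pow_left₀ (hb.trans ht.1) ht.2 3) (by positivity)

theorem b3sharp_glue (h : Cx u a) (y : X) {r b : ℝ} (hr : 0 < r) (hb : r ≤ b) :
    2 * ∫ x in ball y r, en u x ≤
      4 * om * ((b + 4) ^ 3 * (31 / 30)) + 5 * ∫ x in sh y b 4, PP u x := by
  have hb0 : 0 < b := hr.trans_le hb
  have c1 : Continuous u := h.lip.continuous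
  have c2 : Continuous (PP u) := h.bas.smP.continuous
  have c3 : Continuous (ct y b 4) := (ct_lip y b (by norm_num)).continuous
  have c4 : Continuous fun x => ‖fderiv ℝ u x‖ := by
    simp only [h.norm_du]
    exact c2.mul h.sm_p.continuous.norm
  have m : ∫ x in ball y r, en u x ≤ ∫ x in closedBall y (b + 4), en u x :=
    setIntegral_mono_set (h.cont_en.continuousOn.integrableOn_compact (isCompact_closedBall _ _))
      (Eventually.of_forall fun x => by unfold en; positivity)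
      (ball_subset_closedBall.trans (closedBall_subset_closedBall (by linarith))).eventuallyLE
  have g : ∀ z : ℝ, z ^ 2 = 1 → ∫ x in ball y r, en u x ≤ ∫ x in sh y b 4,
      ((‖fderiv ℝ u x‖ + 0 + |z - u x| / 4) ^ 2 / 2 +
        (1 - (u x + ct y b 4 x * (z - u x)) ^ 2) ^ 2 / 4) := fun z hz => by
    have := h.glue (z := fun _ => z) contDiff_const ((LipschitzWith.const z).weaken zero_le_one)
      (fun _ => (sq_le_one_iff_abs_le_one z).1 hz.le) y hb0 (by norm_num : (0 : ℝ) < 4)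
    have e : ∀ x : X, en (fun _ => z) x = 0 := fun x => by simp [en, hz]
    simp only [e, integral_zero, zero_add, fderiv_fun_const, Pi.zero_apply, norm_zero] at this
    exact m.trans this
  have g1 := g (-1) (by norm_num)
  have g2 := g 1 (by norm_num)
  refine le_trans ?_ (add_le_add_left (b3sharp_rad y hb0.le) _)
  rw [← integral_const_mul (5 : ℝ), ← integral_add (intOn_sh (by fun_prop) _ _ _)
    (intOn_sh (by fun_prop) _ _ _), two_mul]
  refine (add_le_add g1 g2).trans ?_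
  rw [← integral_add (intOn_sh (by fun_prop) _ _ _) (intOn_sh (by fun_prop) _ _ _)]
  refine setIntegral_mono_on (intOn_sh (by fun_prop) _ _ _) (intOn_sh (by fun_prop) _ _ _)
    (measurableSet_sh _ _ _) fun x hx => ?_
  have x1 : ‖x - y‖ ≤ b + 4 := by rw [← dist_eq_norm]; exact hx.1
  have x2 : b ≤ ‖x - y‖ := by rw [← dist_eq_norm]; exact not_lt.1 hx.2
  have e : (b + 4 - ‖x - y‖) / 4 = ct y b 4 x := by
    rw [ct, min_eq_right (by linarith), max_eq_right (by linarith)]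
  have s1 : (1 : ℝ) ≤ √2 := Real.one_le_sqrt.2 (by norm_num)
  have s2 : √2 ≤ (3 / 2 : ℝ) := Real.sqrt_le_iff.2 ⟨by norm_num, by norm_num⟩
  have P0 := h.bas.Ppos x
  have e2 : 1 - u x ^ 2 = √2 * PP u x := by rw [PP]; field_simp
  rw [e]
  refine b3sharp_pt (h.nd.lt x).le (ct_mem _ _ _ _).1 (ct_mem _ _ _ _).2 (norm_nonneg _) ?_
    (by rw [e2]; gcongr) (by nlinarith [h.bas.Ple x])
  rw [h.norm_du]
  exact mul_le_of_le_one_right P0.le (h.p_le x)

theorem Cx.sharp (h : Cx u a) : ∃ C : ℝ, 0 ≤ C ∧ ∀ (y : X) (r : ℝ), 0 < r →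
    ∫ x in ball y r, en u x ≤ 11 / 5 * om * r ^ 3 + C := by
  obtain ⟨C, hC, hv⟩ := h.vol
  have o := om_pos
  obtain ⟨r0, r1, r2⟩ : ∃ r0 : ℝ, 800 ≤ r0 ∧ 10 ^ 12 * C ≤ om * r0 :=
    ⟨max 800 (10 ^ 12 * C / om), le_max_left _ _, by
      rw [← div_le_iff₀' o]; exact le_max_right _ _⟩
  refine ⟨C * r0 ^ 3, by positivity, fun y r hr => ?_⟩
  rcases le_total r r0 with hl | hl
  · have : C * r ^ 3 ≤ C * r0 ^ 3 := by gcongr
    have : 0 ≤ 11 / 5 * om * r ^ 3 := by positivity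
    linarith [(hv y r hr).2]
  have c2 : Continuous (PP u) := h.bas.smP.continuous
  have n1 : (⌊r / 400⌋₊ : ℝ) ≤ r / 400 := Nat.floor_le (by positivity)
  have n2 : r / 800 ≤ (⌊r / 400⌋₊ : ℝ) := by linarith [Nat.lt_floor_add_one (r / 400)]
  obtain ⟨j, hj, hp⟩ := pigeon c2 (fun x => (h.bas.Ppos x).le) y hr.le (by norm_num : (0 : ℝ) < 4)
    (N := ⌊r / 400⌋₊) (by
      have : (0 : ℝ) < ⌊r / 400⌋₊ := by linarith
      exact_mod_cast this)
  have hj' : (j : ℝ) + 1 ≤ ⌊r / 400⌋₊ := by exact_mod_cast hj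
  have j0 : (0 : ℝ) ≤ j := Nat.cast_nonneg j
  have g := b3sharp_glue h y hr (b := r + j * 4) (by linarith)
  have m1 : ∫ x in closedBall y (r + ⌊r / 400⌋₊ * 4), PP u x ≤ ∫ x in ball y (2 * r), PP u x :=
    setIntegral_mono_set (intOn_ball c2 _ _) (Eventually.of_forall fun x => (h.bas.Ppos x).le)
      (closedBall_subset_ball (by linarith)).eventuallyLE
  have m2 : ∫ x in ball y (2 * r), PP u x ≤
      ∫ x in ball y (2 * r), (1 / 10 ^ 7 + 10 ^ 7 / 4 * rr u x) :=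
    setIntegral_mono (intOn_ball c2 _ _)
      (intOn_ball (continuous_const.add (continuous_const.mul h.sm_r.continuous)) _ _) fun x => by
        simp only [rr]
        nlinarith [sq_nonneg (10 ^ 7 * PP u x - 2)]
  have c5 := h.sm_r.continuous
  rw [integral_add (intOn_ball continuous_const _ _)
    (intOn_ball (by fun_prop) _ _), integral_const_mul,
    setIntegral_const, vol_ball y (by linarith), smul_eq_mul] at m2
  have m3 := (hv y (2 * r) (by linarith)).1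
  obtain ⟨I, hI⟩ : ∃ I, I = ∫ x in sh y (r + j * 4) 4, PP u x := ⟨_, rfl⟩
  have I0 : 0 ≤ I := hI ▸ integral_nonneg fun x => (h.bas.Ppos x).le
  rw [← hI] at hp g
  have m4 : r * I ≤ r * (800 * (16 / 10 ^ 7 * om * r ^ 3 + 2 * 10 ^ 7 * C * r ^ 2)) := by
    nlinarith [mul_le_mul_of_nonneg_right n2 I0]
  have m5 := le_of_mul_le_mul_left m4 hr
  have m6 : (r + j * 4 + 4) ^ 3 ≤ (101 / 100 * r) ^ 3 :=
    pow_le_pow_left₀ (by linarith) (by linarith) 3
  have m7 : 10 ^ 12 * C * r ^ 2 ≤ om * r * r ^ 2 :=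
    mul_le_mul_of_nonneg_right (r2.trans (by gcongr)) (by positivity)
  have m8 := mul_le_mul_of_nonneg_left m6 o.le
  have m9 : 0 ≤ C * r0 ^ 3 := by positivity
  have m10 : 0 ≤ om * r ^ 3 := by positivity
  nlinarith

end Vale.Agent.P134.B3
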