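import Vale.Agent.P134.B3Sc
import Vale.Agent.P134.B3Ult
import Vale.Agent.P134.B3C2a
import Vale.Agent.P134.B3Sharp

/-! P134, block B3: the cylindrical case. -/

open Filter Topology MeasureTheory Set Metric
open scoped ContDiff RealInnerProductSpace NNReal Laplacian

namespace Vale.Agent.P134.B3

variable {u : X → ℝ} {a : X}

theorem b3c2_key {F : ℕ → X → ℝ} {z : ℕ → X} {r : ℕ → ℝ} {n : ℕ} (hn : n ≤ 4)
    (hr : ∀ k, 0 < r k) (hF : ∀ k, Continuous (F k)) (h0 : ∀ k x, 0 ≤ F k x)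
    (h : ∀ k : ℕ, ∫ x in ball (z k) (r k * (k + 1)), F k x ≤
      (((k : ℝ) + 1) ^ 5)⁻¹ * (r k * (k + 1)) ^ n) (L : ℝ) :
    Tendsto (fun k => (r k ^ n)⁻¹ * ∫ x in ball (z k) (r k * L), F k x) atTop (𝓝 0) := by
  refine squeeze_zero' (Eventually.of_forall fun k => mul_nonneg
    (inv_nonneg.2 (pow_pos (hr k) n).le) (integral_nonneg (h0 k))) ?_
    tendsto_one_div_add_atTop_nhds_zero_nat
  filter_upwards [tendsto_natCast_atTop_atTop.eventually_ge_atTop L] with k hk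
  have r0 := hr k
  have N1 : (1 : ℝ) ≤ k + 1 := by linarith [Nat.cast_nonneg (α := ℝ) k]
  have m := (int_ball_mono (hF k) (h0 k) (y := z k) (z := z k) (r := r k * L)
    (s := r k * (k + 1)) (by rw [sub_self, norm_zero, zero_add]; gcongr; linarith)).trans (h k)
  calc _ ≤ (r k ^ n)⁻¹ * ((((k : ℝ) + 1) ^ 5)⁻¹ * (r k * (k + 1)) ^ n) := by gcongr
    _ = ((k : ℝ) + 1) ^ n / ((k : ℝ) + 1) ^ 5 := by rw [mul_pow]; field_simp
    _ ≤ ((k : ℝ) + 1) ^ 4 / ((k : ℝ) + 1) ^ 5 := by gcongr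
    _ = _ := by field_simp

theorem b3c2_vol (h : Cx u a) : ∃ C : ℝ, ∀ (y : X) (r t : ℝ), 0 < r → 0 < t → t ≤ 1 →
    ∫ x in ball (0 : X) t, rS u y r x ≤ 11 / 5 * om * t ^ 3 +
      ((r ^ 3)⁻¹ * C + (r ^ 3)⁻¹ * ∫ x in ball y (r * 1), rr u x * ss u x) := by
  obtain ⟨C, -, hC⟩ := h.sharp
  refine ⟨C, fun y r t r0 t0 t1 => ?_⟩
  have c1 : Continuous fun x => rr u x * ss u x := h.sm_r.continuous.mul h.bas.sms.continuous
  have n1 : ∀ x, 0 ≤ rr u x * ss u x := fun x => mul_nonneg (h.r_pos x).le (h.bas.s0 x)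
  have e := int_rS (u := u) (fun _ => 1) y r0 t
  simp only [mul_one] at e
  have m1 : ∫ x in ball y (r * t), rr u x ≤ ∫ x in ball y (r * t), (en u x + rr u x * ss u x) :=
    integral_mono (intOn_ball h.sm_r.continuous _ _) (intOn_ball (h.cont_en.add c1) _ _)
      fun x => by
        have := n1 x
        simp only [h.en_eq]
        linarith
  rw [integral_add (intOn_ball h.cont_en _ _) (intOn_ball c1 _ _)] at m1
  have m2 := int_ball_mono c1 n1 (y := y) (z := y) (r := r * t) (s := r * 1)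
    (by rw [sub_self, norm_zero, zero_add]; gcongr)
  have m3 := hC y _ (mul_pos r0 t0)
  rw [e]
  calc _ ≤ (r ^ 3)⁻¹ * (11 / 5 * om * (r * t) ^ 3 + C +
        ∫ x in ball y (r * 1), rr u x * ss u x) := by gcongr; linarith
    _ = _ := by field_simp; ring

theorem Cx.case2 (h : Cx u a) (H : ∀ δ : ℝ, 0 < δ → ∃ R0 : ℝ, ∀ R, R0 ≤ R →
    ∫ x in ball (0 : X) R, rr u x * qq u a x ≤ δ * R ^ 3) :
    ∃ σ, Sg σ ∧ Cl (fun x => GG (u x)) σ := by
  have N0 : ∀ k : ℕ, (0 : ℝ) < k + 1 := fun k => by positivity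
  choose s y s1 s0 b1 b2 b3 b4 using fun k : ℕ =>
    h.good_ball H (δ := (((k : ℝ) + 1) ^ 5)⁻¹) (by positivity) (((k : ℝ) + 1) ^ 2)
  obtain ⟨r, hr⟩ : ∃ r : ℕ → ℝ, ∀ k, s k = r k * (k + 1) :=
    ⟨fun k => s k / (k + 1), fun k => (div_mul_cancel₀ _ (N0 k).ne').symm⟩
  simp only [hr] at s1 s0 b1 b2 b3 b4
  have r0 : ∀ k, 0 < r k := fun k => (mul_pos_iff_of_pos_right (N0 k)).1 (s0 k)
  have r1 : Tendsto r atTop atTop := tendsto_atTop_mono (fun k => by
    have := le_of_mul_le_mul_right ((pow_two _).ge.trans (s1 k)) (N0 k)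
    linarith) tendsto_natCast_atTop_atTop
  have cr := h.sm_r.continuous
  have cp := h.sm_p.continuous
  have cu := h.lip.continuous
  have cG := contDiff_GG.continuous
  have k1 := b3c2_key (by norm_num) r0 (fun _ => cr.mul h.bas.sms.continuous)
    (fun _ x => mul_nonneg (h.r_pos x).le (h.bas.s0 x)) b1
  have k2 := b3c2_key (F := fun k x => rr u x * |⟪x - y k, pp u x⟫|) le_rfl r0
    (fun _ => by fun_prop) (fun _ x => mul_nonneg (h.r_pos x).le (abs_nonneg _)) b2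
  have k3 := b3c2_key (by norm_num) r0 (fun _ => cr.mul h.cont_M.norm)
    (fun _ x => mul_nonneg (h.r_pos x).le (norm_nonneg _)) b3
  have k4 := b3c2_key (F := fun k x => |GG (u (y k + x)) - GG (u x)|) (z := fun _ => 0) le_rfl r0
    (fun _ => by fun_prop) (fun _ x => abs_nonneg _) b4
  have q := h.sq (y := y) r0 r1 (β := fun _ => 1) (S := univ)
    ⟨contDiff_const, isClosed_univ, fun _ => zero_le_one, fun _ _ => by simp,
      fun z hz => absurd (mem_univ z) hz⟩ fun L _ => by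
      simpa only [h.er_eq _ (r0 _) isClosed_univ, indicator_univ, one_mul, add_zero,
        Pi.mul_apply] using
        ((k1 L).add (k2 L)).add (k3 L)
  obtain ⟨C, hC⟩ := b3c2_vol h
  obtain ⟨σ, hσ, hs⟩ := q.two' fun η η0 => by
    have t := ((((tendsto_pow_atTop three_ne_zero).comp r1).inv_tendsto_atTop).mul_const C).add
      (k1 1)
    rw [zero_mul, add_zero] at t
    filter_upwards [t.eventually_le_const η0] with k hk t t0 t1
    exact (hC (y k) (r k) t (r0 k) t0 t1).trans (add_le_add le_rfl hk)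
  exact ⟨σ, hσ, h.back r0 r1 hσ hs fun L _ => k4 L⟩

end Vale.Agent.P134.B3
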