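import Vale.Agent.P134.B3En

/-! P134, block B3: the mass of cylinders and averages along the axis. -/

open Filter Topology MeasureTheory Set Metric
open scoped ContDiff RealInnerProductSpace NNReal Laplacian

namespace Vale.Agent.P134.B3

variable {u : X → ℝ} {a : X}

/-- the squared distance to the axis -/
noncomputable def ax (a x : X) : ℝ := ‖x‖ ^ 2 - ⟪x, a⟫ ^ 2

/-- cylinders around the axis -/
def cyl (a : X) (r H : ℝ) : Set X := {x | ax a x ≤ r ^ 2 ∧ |⟪x, a⟫| ≤ H}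

theorem b3cyl_id (ha : ‖a‖ = 1) (x : X) (t : ℝ) :
    ‖x - t • a‖ ^ 2 = ax a x + (⟪x, a⟫ - t) ^ 2 := by
  rw [norm_sub_sq_real, real_inner_smul_right, norm_smul, ha, mul_one, Real.norm_eq_abs, sq_abs]
  unfold ax
  ring

theorem b3cyl_ax0 (ha : ‖a‖ = 1) (x : X) : 0 ≤ ax a x := by
  have h := b3cyl_id ha x ⟪x, a⟫
  rw [sub_self] at h
  nlinarith [sq_nonneg ‖x - ⟪x, a⟫ • a‖]

theorem isCompact_cyl (ha : ‖a‖ = 1) (r H : ℝ) : IsCompact (cyl a r H) := by
  have c1 : Continuous fun x : X => ⟪x, a⟫ := continuous_id.inner continuous_const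
  have c2 : Continuous fun x : X => ax a x := by
    unfold ax
    exact (continuous_norm.pow 2).sub (c1.pow 2)
  refine Metric.isCompact_of_isClosed_isBounded ?_ ?_
  · exact (isClosed_le c2 continuous_const).inter (isClosed_le c1.abs continuous_const)
  · refine (Metric.isBounded_closedBall (x := (0 : X)) (r := |r| + |H|)).subset ?_
    rintro x ⟨h1, h2⟩
    rw [mem_closedBall_zero_iff]
    have h3 := b3cyl_id ha x 0
    rw [zero_smul, sub_zero, sub_zero] at h3
    have h4 : ⟪x, a⟫ ^ 2 ≤ H ^ 2 := by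
      rw [← sq_abs]
      exact pow_le_pow_left₀ (abs_nonneg _) h2 2
    have h5 : ‖x‖ ^ 2 ≤ (|r| + |H|) ^ 2 := by
      nlinarith [sq_abs r, sq_abs H, mul_nonneg (abs_nonneg r) (abs_nonneg H)]
    exact (pow_le_pow_iff_left₀ (norm_nonneg _) (by positivity) two_ne_zero).1 h5

theorem b3cyl_int {F : X → ℝ} (hF : Continuous F) (y : X) (r : ℝ) :
    IntegrableOn F (ball y r) :=
  (hF.continuousOn.integrableOn_compact (isCompact_closedBall y r)).mono_set ball_subset_closedBall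

theorem b3cyl_cover {F : X → ℝ} (hF : Continuous F) (h0 : ∀ x, 0 ≤ F x) {S : Set X}
    (hS : IsCompact S) {n : ℕ} (c : ℕ → X) (r : ℝ)
    (hc : ∀ x ∈ S, ∃ j ∈ Finset.range n, x ∈ ball (c j) r) :
    ∫ x in S, F x ≤ ∑ j ∈ Finset.range n, ∫ x in ball (c j) r, F x := by
  have e1 : ∀ j, ∫ x in ball (c j) r, F x = ∫ x, (ball (c j) r).indicator F x := fun j =>
    (integral_indicator measurableSet_ball).symm
  have i1 : ∀ j, Integrable ((ball (c j) r).indicator F) := fun j =>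
    (integrable_indicator_iff measurableSet_ball).2 (b3cyl_int hF _ _)
  simp_rw [e1]
  rw [← integral_finsetSum _ (fun j _ => i1 j), ← integral_indicator hS.measurableSet]
  refine integral_mono ((integrable_indicator_iff hS.measurableSet).2
    (hF.continuousOn.integrableOn_compact hS)) (integrable_finsetSum _ fun j _ => i1 j) ?_
  intro x
  have n0 : ∀ j ∈ Finset.range n, 0 ≤ (ball (c j) r).indicator F x := fun j _ =>
    indicator_nonneg (fun y _ => h0 y) x
  by_cases hx : x ∈ S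
  · obtain ⟨j, hj, hxj⟩ := hc x hx
    have := Finset.single_le_sum n0 hj
    simp only [indicator_of_mem hx]
    rwa [indicator_of_mem hxj] at this
  · simp only [indicator_of_notMem hx]
    exact Finset.sum_nonneg n0

theorem Cx.vol_cyl (h : Cx u a) : ∃ C : ℝ, 0 < C ∧ ∀ r H : ℝ, 0 < r → r ≤ H →
    ∫ x in cyl a r H, rr u x ≤ C * r ^ 2 * H := by
  obtain ⟨C, hC, hv⟩ := h.vol
  refine ⟨40 * C, by positivity, fun r H hr hH => ?_⟩
  set N : ℕ := ⌈H / r⌉₊ with hN
  have hN1 : H ≤ N * r := by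
    have := Nat.le_ceil (H / r)
    rwa [div_le_iff₀ hr] at this
  have hN2 : (N : ℝ) * r ≤ 2 * H := by
    have h1 := Nat.ceil_lt_add_one (a := H / r) (div_nonneg (hr.le.trans hH) hr.le)
    have h2 : (N : ℝ) * r ≤ (H / r + 1) * r := mul_le_mul_of_nonneg_right h1.le hr.le
    rw [add_mul, div_mul_cancel₀ _ hr.ne'] at h2
    linarith
  have hcov := b3cyl_cover h.sm_r.continuous (fun x => (h.r_pos x).le) (isCompact_cyl h.unit r H)
    (n := 2 * N + 1) (fun j => (((j : ℝ) - N) * r) • a) (2 * r) (by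
      rintro x ⟨h1, h2⟩
      obtain ⟨h3, h4⟩ := abs_le.1 h2
      have p0 : 0 ≤ (⟪x, a⟫ + N * r) / r := div_nonneg (by linarith) hr.le
      refine ⟨⌊(⟪x, a⟫ + N * r) / r⌋₊, ?_, ?_⟩
      · rw [Finset.mem_range, Nat.lt_succ_iff]
        apply Nat.floor_le_of_le
        rw [div_le_iff₀ hr]
        push_cast
        linarith
      · have f1 := Nat.floor_le p0
        have f2 := Nat.lt_floor_add_one ((⟪x, a⟫ + N * r) / r)
        rw [le_div_iff₀ hr] at f1
        rw [div_lt_iff₀ hr] at f2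
        rw [mem_ball, dist_eq_norm]
        have e := b3cyl_id h.unit x (((⌊(⟪x, a⟫ + N * r) / r⌋₊ : ℝ) - N) * r)
        set j : ℝ := (⌊(⟪x, a⟫ + N * r) / r⌋₊ : ℝ)
        have g1 : 0 ≤ ⟪x, a⟫ - (j - N) * r := by linarith
        have g2 : ⟪x, a⟫ - (j - N) * r ≤ r := by linarith
        have g3 : (⟪x, a⟫ - (j - N) * r) ^ 2 ≤ r ^ 2 := pow_le_pow_left₀ g1 g2 2
        have g4 : ‖x - ((j - N) * r) • a‖ ^ 2 < (2 * r) ^ 2 := by nlinarith
        exact lt_of_pow_lt_pow_left₀ 2 (by positivity) g4)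
  refine hcov.trans ?_
  have hb : ∑ j ∈ Finset.range (2 * N + 1), ∫ x in ball ((((j : ℝ) - N) * r) • a) (2 * r), rr u x
      ≤ ∑ _j ∈ Finset.range (2 * N + 1), C * (2 * r) ^ 3 :=
    Finset.sum_le_sum fun j _ => (hv _ _ (by positivity)).1
  refine hb.trans ?_
  rw [Finset.sum_const, Finset.card_range, nsmul_eq_mul]
  push_cast
  have k1 : (2 * (N : ℝ) + 1) * r ≤ 5 * H := by linarith
  have k2 : 0 ≤ 8 * C * r ^ 2 := by positivity
  calc (2 * (N : ℝ) + 1) * (C * (2 * r) ^ 3) = 8 * C * r ^ 2 * ((2 * (N : ℝ) + 1) * r) := by ring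
    _ ≤ 8 * C * r ^ 2 * (5 * H) := mul_le_mul_of_nonneg_left k1 k2
    _ = 40 * C * r ^ 2 * H := by ring

theorem avg_axis (ha : ‖a‖ = 1) {F : X → ℝ} (hF : Continuous F) (h0 : ∀ x, 0 ≤ F x) {s H : ℝ}
    (hs : 0 < s) (hH : s ≤ H) : ∃ t : ℝ, |t| ≤ H ∧
      H * ∫ x in ball (t • a) s, F x ≤ 2 * s * ∫ x in cyl a s (2 * H), F x := by
  have hs2 : 0 < 2 * s := by positivity
  have p0 : 0 ≤ H / (2 * s) := div_nonneg (hs.le.trans hH) hs2.le
  set m : ℕ := ⌊H / (2 * s)⌋₊ with hm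
  have f1 : (m : ℝ) * (2 * s) ≤ H := by
    have := Nat.floor_le p0
    rwa [le_div_iff₀ hs2] at this
  have f2 : H < ((m : ℝ) + 1) * (2 * s) := by
    have := Nat.lt_floor_add_one (H / (2 * s))
    rwa [div_lt_iff₀ hs2] at this
  set t : ℕ → ℝ := fun j => ((j : ℝ) - m) * (2 * s) with ht
  have tb : ∀ j ∈ Finset.range (2 * m + 1), |t j| ≤ H := by
    intro j hj
    rw [Finset.mem_range, Nat.lt_succ_iff] at hj
    have hj' : (j : ℝ) ≤ 2 * m := by exact_mod_cast hj
    have j0 : (0 : ℝ) ≤ j := Nat.cast_nonneg j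
    rw [abs_le]
    constructor
    · simp only [ht]
      nlinarith
    · simp only [ht]
      nlinarith
  obtain ⟨j, hj, hmin⟩ := Finset.exists_min_image (Finset.range (2 * m + 1))
    (fun j => ∫ x in ball (t j • a) s, F x) ⟨0, Finset.mem_range.2 (Nat.succ_pos _)⟩
  refine ⟨t j, tb j hj, ?_⟩
  have hdis : Set.Pairwise (↑(Finset.range (2 * m + 1)) : Set ℕ)
      (Function.onFun Disjoint fun j => ball (t j • a) s) := by
    intro i _ k _ hik
    apply ball_disjoint_ball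
    rw [dist_eq_norm, ← sub_smul, norm_smul, ha, mul_one, Real.norm_eq_abs]
    have e : t i - t k = ((i : ℝ) - k) * (2 * s) := by
      simp only [ht]
      ring
    rw [e, abs_mul, abs_of_pos hs2]
    have : (1 : ℝ) ≤ |(i : ℝ) - k| := by
      have h1 : (1 : ℤ) ≤ |(i : ℤ) - k| := Int.one_le_abs (sub_ne_zero.2 (by exact_mod_cast hik))
      exact_mod_cast h1
    nlinarith
  have hsum := integral_biUnion_finset (μ := volume) (f := F) (Finset.range (2 * m + 1))
    (s := fun j => ball (t j • a) s) (fun j _ => measurableSet_ball) hdis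
    (fun j _ => b3cyl_int hF _ _)
  have hsub : (⋃ j ∈ Finset.range (2 * m + 1), ball (t j • a) s) ⊆ cyl a s (2 * H) := by
    intro x hx
    simp only [mem_iUnion] at hx
    obtain ⟨k, hk, hx⟩ := hx
    rw [mem_ball, dist_eq_norm] at hx
    have e := b3cyl_id ha x (t k)
    have g1 : ‖x - t k • a‖ ^ 2 ≤ s ^ 2 := pow_le_pow_left₀ (norm_nonneg _) hx.le 2
    have g2 := b3cyl_ax0 ha x
    refine ⟨by nlinarith [sq_nonneg (⟪x, a⟫ - t k)], ?_⟩
    have g3 : |⟪x, a⟫ - t k| ≤ s := abs_le_of_sq_le_sq' (by linarith) hs.le |> abs_le.2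
    have g4 := tb k hk
    have g5 := abs_add_le (⟪x, a⟫ - t k) (t k)
    rw [sub_add_cancel] at g5
    linarith
  have hmono : ∫ x in ⋃ j ∈ Finset.range (2 * m + 1), ball (t j • a) s, F x ≤
      ∫ x in cyl a s (2 * H), F x :=
    setIntegral_mono_set (hF.continuousOn.integrableOn_compact (isCompact_cyl ha _ _))
      (Eventually.of_forall h0) hsub.eventuallyLE
  rw [hsum] at hmono
  have hlow : ∑ _k ∈ Finset.range (2 * m + 1), ∫ x in ball (t j • a) s, F x ≤
      ∑ k ∈ Finset.range (2 * m + 1), ∫ x in ball (t k • a) s, F x :=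
    Finset.sum_le_sum hmin
  rw [Finset.sum_const, Finset.card_range, nsmul_eq_mul] at hlow
  push_cast at hlow
  have I0 : 0 ≤ ∫ x in ball (t j • a) s, F x := integral_nonneg h0
  have m0 : (0 : ℝ) ≤ m := Nat.cast_nonneg m
  have k1 : H ≤ 2 * s * (2 * m + 1) := by nlinarith
  calc H * ∫ x in ball (t j • a) s, F x
      ≤ 2 * s * (2 * m + 1) * ∫ x in ball (t j • a) s, F x := mul_le_mul_of_nonneg_right k1 I0
    _ = 2 * s * ((2 * m + 1) * ∫ x in ball (t j • a) s, F x) := by ring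
    _ ≤ 2 * s * ∫ x in cyl a s (2 * H), F x :=
      mul_le_mul_of_nonneg_left (hlow.trans hmono) hs2.le

end Vale.Agent.P134.B3
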