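import Vale.Agent.P134.A2Defs

/-! P134, block B3 (blow-down in dimension four): definitions. -/

open Filter Topology MeasureTheory Set Metric
open scoped ContDiff RealInnerProductSpace NNReal

namespace Vale.Agent.P134.B3

noncomputable section

abbrev X : Type := E 4

/-- `p = ∇ v` -/
def pp (u : X → ℝ) (x : X) : X := gradient (vv u) x

/-- `ρ = P ^ 2` -/
def rr (u : X → ℝ) (x : X) : ℝ := PP u x ^ 2

/-- `M = D p` -/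
def HM (u : X → ℝ) (x : X) : X →L[ℝ] X := fderiv ℝ (pp u) x

/-- squared Frobenius norm of `M` -/
def hs (u : X → ℝ) (x : X) : ℝ := ∑ i, ‖HM u x (ev i)‖ ^ 2

/-- a component of `p` -/
def qq (u : X → ℝ) (a : X) (x : X) : ℝ := ⟪pp u x, a⟫

/-- energy density -/
def en (w : X → ℝ) (x : X) : ℝ := ‖fderiv ℝ w x‖ ^ 2 / 2 + (1 - w x ^ 2) ^ 2 / 4

/-- the primitive of `(1 - s ^ 2) / √2` -/
def GG (s : ℝ) : ℝ := (s - s ^ 3 / 3) / √2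

/-- the surface tension -/
def s0 : ℝ := 2 * √2 / 3

/-- the volume of the unit ball -/
def om : ℝ := volume.real (ball (0 : X) 1)

/-- minimisers -/
def Mini (u : X → ℝ) : Prop := ∀ (w : X → ℝ) (K : ℝ≥0) (B : Set X), LipschitzWith K w →
  IsCompact B → (∀ x, x ∉ B → w x = u x) → ∫ x in B, en u x ≤ ∫ x in B, en w x

/-- standing assumptions -/
structure Cx (u : X → ℝ) (a : X) : Prop where
  nd : Nd u
  bas : Bas u
  unit : ‖a‖ = 1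
  pos : ∀ x, 0 < fderiv ℝ u x a
  mini : Mini u

/-- `C¹` with compact support -/
structure Tst (φ : X → ℝ) : Prop where
  c1 : ContDiff ℝ 1 φ
  cs : HasCompactSupport φ

/-- truncated powers -/
def pw (n : ℕ) (s : ℝ) : ℝ := max (1 - s) 0 ^ n

/-- Lipschitz cut-off: one on `ball y r`, zero outside `ball y (r + l)` -/
def ct (y : X) (r l : ℝ) (x : X) : ℝ := max 0 (min 1 ((r + l - ‖x - y‖) / l))

/-- the shell -/
def sh (y : X) (r l : ℝ) : Set X := closedBall y (r + l) \ ball y r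

/-- abstract data: `D w = ρ p` -/
structure Tri (w ρ : X → ℝ) (p : X → X) : Prop where
  w2 : ContDiff ℝ 2 w
  rc : Continuous ρ
  r0 : ∀ x, 0 ≤ ρ x
  p1 : ContDiff ℝ 1 p
  pl : ∀ x, ‖p x‖ ≤ 1
  dw : ∀ x c, fderiv ℝ w x c = ρ x * ⟪p x, c⟫
  wb : ∀ x, |w x| ≤ s0 / 2

/-- weights in the variable `p` -/
structure Wt (β : X → ℝ) (S : Set X) : Prop where
  c1 : ContDiff ℝ 1 β
  cl : IsClosed S
  b0 : ∀ z, 0 ≤ β z
  b1 : ∀ z, ‖z‖ ≤ 1 → β z ≤ 1 ∧ ‖fderiv ℝ β z‖ ≤ 2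
  off : ∀ z, z ∉ S → β z = 0

/-- the kernel, of mass one as a function of `‖z‖ ^ 2` -/
def kk (s : ℝ) : ℝ := 6 / om * pw 2 s

def HH (a s : ℝ) : ℝ := ∫ t in (0 : ℝ)..s, kk (a + t ^ 2)

/-- mollification -/
def Av (w : X → ℝ) (x : X) : ℝ := ∫ y, kk (‖x - y‖ ^ 2) * w y

def hh (ρ : X → ℝ) (p : X → X) (β : X → ℝ) (x : X) : ℝ :=
  ∫ y, HH (‖y‖ ^ 2) (max ⟪x, p y⟫ 0) * (β (p y) * ρ y)

/-- the mass -/
def ms (ρ : X → ℝ) (p : X → X) (β : X → ℝ) : ℝ := 2 * ∫ y, HH (‖y‖ ^ 2) 1 * (β (p y) * ρ y)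

/-- the odd part -/
def od (h : X → ℝ) (x : X) : ℝ := h x - h (-x)

/-- the error -/
def Er (ρ : X → ℝ) (p : X → X) (S : Set X) (L : ℝ) : ℝ := ∫ y in ball (0 : X) L,
  ρ y * (1 - ‖p y‖ ^ 2 + |⟪y, p y⟫| + S.indicator (fun _ => (1 : ℝ)) (p y) * ‖fderiv ℝ p y‖)

/-- total variation along `x, z, y, -x` -/
def TV (f : X → ℝ) (m : ℝ) : Prop :=
  ∀ x y z, z ∈ segment ℝ x y → |f x - f z| + |f z - f y| + |f y + f x| ≤ m

/-- limit profiles -/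
structure Prof (A h : X → ℝ) (m : ℝ) : Prop where
  cA : Continuous A
  ch : Continuous h
  bA : ∀ x, |A x| ≤ s0 / 2
  two : ∃ C, ∀ L : ℝ, 1 ≤ L → ∫ x in ball (0 : X) L, (s0 / 2 - |A x|) ≤ C * L ^ 3
  h0 : ∀ x, 0 ≤ h x ∧ h x ≤ m / 2
  mono : ∀ (x : X) (s t : ℝ), 0 ≤ s → s ≤ t → h (s • x) ≤ h (t • x)
  tv : TV (od h) m

/-- constant signs and half spaces -/
def Sg (σ : X → ℝ) : Prop := (σ = fun _ => 1) ∨ (σ = fun _ => -1) ∨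
  ∃ e : X, ‖e‖ = 1 ∧ σ = fun x => Real.sign ⟪e, x⟫

/-- `A` is close to `σ` in the mean on large balls -/
def Cl (A σ : X → ℝ) : Prop := ∀ ε : ℝ, 0 < ε → ∀ L0 : ℝ, ∃ L, L0 ≤ L ∧
  ∫ x in ball (0 : X) L, |A x - s0 / 2 * σ x| ≤ ε * L ^ 4

/-- sequences with vanishing errors -/
structure Sq (w ρ : ℕ → X → ℝ) (p : ℕ → X → X) (β : X → ℝ) (S : Set X) : Prop where
  tri : ∀ k, Tri (w k) (ρ k) (p k)
  wt : Wt β S
  vol : ∃ C, ∀ k (L : ℝ), 1 ≤ L → ∫ x in ball (0 : X) L, ρ k x ≤ C * L ^ 3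
  err : ∀ L : ℝ, Tendsto (fun k => Er (ρ k) (p k) S L) atTop (𝓝 0)
  two : ∀ L : ℝ, Tendsto (fun k => ∫ x in ball (0 : X) L, (s0 / 2 - |w k x|)) atTop (𝓝 0)

/-- the conclusion for sequences -/
def Cs (w : ℕ → X → ℝ) (σ : X → ℝ) : Prop := ∀ ε : ℝ, 0 < ε → ∃ L : ℝ, 1 ≤ L ∧
  ∃ᶠ k in atTop, ∫ x in ball (0 : X) L, |w k x - s0 / 2 * σ x| ≤ ε * L ^ 4

/-- rescaled data -/
def wS (u : X → ℝ) (y : X) (r : ℝ) (x : X) : ℝ := GG (u (y + r • x))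

def rS (u : X → ℝ) (y : X) (r : ℝ) (x : X) : ℝ := r * rr u (y + r • x)

def pS (u : X → ℝ) (y : X) (r : ℝ) (x : X) : X := pp u (y + r • x)

/-- the conclusion of block B3 -/
def Flt (u : X → ℝ) : Prop := ∃ e : X, ‖e‖ = 1 ∧ ∀ ε : ℝ, 0 < ε → ∀ R0 : ℝ, ∃ R, R0 ≤ R ∧
  ∫ x in ball (0 : X) R, rr u x * ‖pp u x - e‖ ^ 2 ≤ ε * R ^ 3

end

end Vale.Agent.P134.B3
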