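import Vale.Agent.P134.B3En

/-! P134, block B3: comparison with calibrated profiles. -/

open Filter Topology MeasureTheory Set Metric
open scoped ContDiff RealInnerProductSpace NNReal Laplacian

namespace Vale.Agent.P134.B3

variable {u : X → ℝ} {a : X}

/-- profiles calibrated in the direction `e` -/
structure Cal (z : X → ℝ) (e : X) : Prop where
  c1 : ContDiff ℝ 1 z
  lip : LipschitzWith 1 z
  bd : ∀ x, |z x| ≤ 1
  ne : ‖e‖ ≤ 1
  cal : ∀ x, en z x = fderiv ℝ (fun y => GG (z y)) x e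

theorem b3fa_cs (r : ℝ) : HasCompactSupport (ct 0 r 1) :=
  HasCompactSupport.intro (isCompact_closedBall 0 (r + 1)) fun x hx => ct_zero one_pos (by
    rw [sub_zero]
    exact (not_le.1 fun h => hx (mem_closedBall_zero_iff.2 h)).le)

theorem b3fa_int {F : X → ℝ} (hF : Continuous F) (r : ℝ) :
    Integrable fun x => ct 0 r 1 x * F x :=
  ((ct_lip 0 r one_pos).continuous.mul hF).integrable_of_hasCompactSupport (b3fa_cs r).mul_right

theorem b3fa_lo {F : X → ℝ} (hF : Continuous F) (h0 : ∀ x, 0 ≤ F x) (r : ℝ) :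
    ∫ x in ball (0 : X) r, F x ≤ ∫ x, ct 0 r 1 x * F x := by
  rw [← integral_indicator measurableSet_ball]
  refine integral_mono ((integrable_indicator_iff measurableSet_ball).2 (intOn_ball hF 0 r))
    (b3fa_int hF r) fun x => ?_
  by_cases hx : x ∈ ball (0 : X) r
  · simp only [indicator_of_mem hx]
    rw [ct_one one_pos (by simpa using (mem_ball_zero_iff.1 hx).le), one_mul]
  · simp only [indicator_of_notMem hx]
    exact mul_nonneg (ct_mem 0 r 1 x).1 (h0 x)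

theorem b3fa_hi {F : X → ℝ} (hF : Continuous F) (h0 : ∀ x, 0 ≤ F x) (r : ℝ) :
    ∫ x, ct 0 r 1 x * F x ≤ ∫ x in closedBall (0 : X) (r + 1), F x := by
  rw [← integral_indicator measurableSet_closedBall]
  refine integral_mono (b3fa_int hF r) ((integrable_indicator_iff measurableSet_closedBall).2
    (hF.continuousOn.integrableOn_compact (isCompact_closedBall _ _))) fun x => ?_
  by_cases hx : x ∈ closedBall (0 : X) (r + 1)
  · simp only [indicator_of_mem hx]
    exact mul_le_of_le_one_left (h0 x) (ct_mem 0 r 1 x).2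
  · simp only [indicator_of_notMem hx]
    rw [ct_zero one_pos (by
      simpa using (not_le.1 fun h => hx (mem_closedBall_zero_iff.2 h)).le), zero_mul]

theorem b3fa_en0 (z : X → ℝ) (x : X) : 0 ≤ en z x := by
  unfold en
  positivity

theorem b3fa_cen {z : X → ℝ} (hz : ContDiff ℝ 1 z) : Continuous (en z) := by
  have h1 := hz.continuous_fderiv one_ne_zero
  have h2 := hz.continuous
  unfold en
  fun_prop

theorem b3fa_lip {z : X → ℝ} (hz : LipschitzWith 1 z) (hb : ∀ x, |z x| ≤ 1) :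
    LipschitzWith 1 fun y => GG (z y) :=
  LipschitzWith.of_dist_le_mul fun x y => (GG_lip (hb x) (hb y)).trans (hz.dist_le_mul x y)

theorem b3fa_c1 {z : X → ℝ} (hz : ContDiff ℝ 1 z) : ContDiff ℝ 1 fun y => GG (z y) :=
  (contDiff_GG.of_le one_le_oo).comp hz

theorem b3fa_alg {a b s t c : ℝ} (hs : |s| ≤ 1) (ht : |t| ≤ 1) (c0 : 0 ≤ c) (c1 : c ≤ 1) :
    (a + b + |t - s| / 1) ^ 2 / 2 + (1 - (s + c * (t - s)) ^ 2) ^ 2 / 4 + |s - t| ≤
      5 * (a ^ 2 / 2 + (1 - s ^ 2) ^ 2 / 4 + (b ^ 2 / 2 + (1 - t ^ 2) ^ 2 / 4) + |s - t|) := by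
  rw [div_one, abs_sub_comm t s]
  obtain ⟨s1, s2⟩ := abs_le.1 hs
  obtain ⟨t1, t2⟩ := abs_le.1 ht
  set v := s + c * (t - s) with hv
  set d := |s - t| with hd
  have d0 : 0 ≤ d := abs_nonneg _
  have d2 : d ≤ 2 := abs_le.2 ⟨by linarith, by linarith⟩
  have v1 : -1 ≤ v := by nlinarith
  have v2 : v ≤ 1 := by nlinarith
  have e1 : |s - v| ≤ d := by
    rw [show s - v = c * (s - t) by ring, abs_mul, abs_of_nonneg c0]
    exact mul_le_of_le_one_left d0 c1
  have e2 : s ^ 2 - v ^ 2 ≤ 2 * d := by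
    rw [show s ^ 2 - v ^ 2 = (s + v) * (s - v) by ring]
    refine (le_abs_self _).trans ?_
    rw [abs_mul]
    exact mul_le_mul (abs_le.2 ⟨by linarith, by linarith⟩) e1 (abs_nonneg _) (by norm_num)
  have e3 : 0 ≤ 2 - s ^ 2 - v ^ 2 := by nlinarith
  have e4 : (s ^ 2 - v ^ 2) * (2 - s ^ 2 - v ^ 2) ≤ 2 * d * 2 :=
    (mul_le_mul_of_nonneg_right e2 e3).trans
      (mul_le_mul_of_nonneg_left (by nlinarith [sq_nonneg s, sq_nonneg v]) (by linarith))
  nlinarith [sq_nonneg (a - b), sq_nonneg (a - d), sq_nonneg (b - d), sq_nonneg a, sq_nonneg b,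
    sq_nonneg (1 - s ^ 2), sq_nonneg (1 - t ^ 2), mul_nonneg d0 (sub_nonneg.2 d2)]

theorem ibp_ct {f : X → ℝ} {K : ℝ≥0} (hf : ContDiff ℝ 1 f) (hl : LipschitzWith K f) {e : X}
    (he : ‖e‖ ≤ 1) {r : ℝ} (hr : 0 < r) :
    |∫ x, ct 0 r 1 x * fderiv ℝ f x e| ≤ ∫ x in sh 0 r 1, |f x| := by
  have h1 := hl.integral_lineDeriv_mul_eq (μ := volume) (ct_lip 0 r one_pos) (b3fa_cs r) e
  have e1 : ∫ x, ct 0 r 1 x * fderiv ℝ f x e = ∫ x, lineDeriv ℝ f x e * ct 0 r 1 x := by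
    congr 1
    funext x
    rw [mul_comm, (hf.differentiable one_ne_zero x).lineDeriv_eq_fderiv]
  rw [e1, h1, ← integral_indicator (measurableSet_sh 0 r 1), ← Real.norm_eq_abs]
  refine norm_integral_le_of_norm_le ((integrable_indicator_iff (measurableSet_sh 0 r 1)).2
    (intOn_sh hf.continuous.abs 0 r 1)) (ae_of_all _ fun x => ?_)
  by_cases hx : x ∈ sh 0 r 1
  · rw [indicator_of_mem hx, norm_mul, Real.norm_eq_abs (f x)]
    refine mul_le_of_le_one_left (abs_nonneg _)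
      ((norm_lineDeriv_le_of_lipschitz ℝ (ct_lip 0 r one_pos)).trans ?_)
    simpa using he
  · obtain ⟨c, hc⟩ : ∃ c : ℝ, ct 0 r 1 =ᶠ[𝓝 x] fun _ => c := by
      by_cases hb : x ∈ ball (0 : X) r
      · refine ⟨1, ?_⟩
        filter_upwards [isOpen_ball.mem_nhds hb] with y hy
        exact ct_one one_pos (by simpa using (mem_ball_zero_iff.1 hy).le)
      · refine ⟨0, ?_⟩
        filter_upwards [isClosed_closedBall.isOpen_compl.mem_nhds
          (show x ∈ (closedBall (0 : X) (r + 1))ᶜ from fun h => hx ⟨h, hb⟩)] with y hy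
        exact ct_zero one_pos (by
          simpa using (not_le.1 fun h => hy (mem_closedBall_zero_iff.2 h)).le)
    rw [indicator_of_notMem hx,
      (((hasFDerivAt_const c x).congr_of_eventuallyEq hc).hasLineDerivAt (-e)).lineDeriv]
    simp

theorem Cal.vol : ∃ C : ℝ, 0 < C ∧ ∀ (z : X → ℝ) (e : X), Cal z e → ∀ r : ℝ, 1 ≤ r →
    ∫ x in ball (0 : X) r, en z x ≤ C * r ^ 3 := by
  have h1 := s0_pos
  have h2 := om_pos
  refine ⟨s0 / 2 * om * 15, by positivity, fun z e h r hr => ?_⟩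
  refine (b3fa_lo (b3fa_cen h.c1) (b3fa_en0 z) r).trans ?_
  simp only [h.cal]
  refine (le_abs_self _).trans ((ibp_ct (b3fa_c1 h.c1) (b3fa_lip h.lip h.bd) h.ne
    (by linarith)).trans ?_)
  refine (setIntegral_mono (intOn_sh (b3fa_c1 h.c1).continuous.abs 0 r 1)
    (intOn_sh (continuous_const (y := s0 / 2)) 0 r 1) fun x => abs_GG_le (h.bd x)).trans ?_
  rw [setIntegral_const, vol_sh 0 (by linarith) zero_le_one, smul_eq_mul]
  have e1 : 1 ≤ r ^ 2 := by nlinarith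
  have e2 : (r + 1) ^ 4 - r ^ 4 ≤ 15 * r ^ 3 := by nlinarith
  nlinarith [mul_le_mul_of_nonneg_left e2 (mul_pos h1 h2).le]

theorem Cx.shell (h : Cx u a) : ∃ C : ℝ, 0 < C ∧ ∀ (z : X → ℝ) (e : X), Cal z e → ∀ r : ℝ, 0 < r →
    ∫ x in ball (0 : X) r, (en u x - rr u x * ⟪pp u x, e⟫) ≤
      C * ∫ x in sh 0 r 1, (en u x + en z x + |u x - z x|) := by
  refine ⟨5, by norm_num, fun z e hz r hr => ?_⟩
  have u1 : ContDiff ℝ 1 u := h.nd.sol.sm.of_le one_le_oo
  have ub := h.nd.sol.bd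
  have cu := u1.continuous
  have cz := hz.c1.continuous
  have cdu := u1.continuous_fderiv one_ne_zero
  have cdz := hz.c1.continuous_fderiv one_ne_zero
  have cc := (ct_lip 0 r one_pos).continuous
  have ce := h.cont_en
  have ce' := b3fa_cen hz.c1
  have cw : Continuous fun x => rr u x * ⟪pp u x, e⟫ :=
    h.sm_r.continuous.mul (h.sm_q e).continuous
  have a1 := b3fa_lo (ce.sub cw) (fun x => by
    have b1 : ⟪pp u x, e⟫ ≤ ‖pp u x‖ := (real_inner_le_norm _ _).trans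
      (mul_le_of_le_one_right (norm_nonneg _) hz.ne)
    have b2 : 0 ≤ (1 + ‖pp u x‖ ^ 2) / 2 - ⟪pp u x, e⟫ := by
      nlinarith [sq_nonneg (1 - ‖pp u x‖)]
    have b3 := mul_nonneg (h.r_pos x).le b2
    simp only [Pi.sub_apply]
    rw [h.en_eq, ss_eq]
    linarith) r
  simp only [Pi.sub_apply, mul_sub] at a1
  rw [integral_sub (b3fa_int ce r) (b3fa_int cw r)] at a1
  have a2 := (b3fa_hi ce (b3fa_en0 u) r).trans (h.glue hz.c1 hz.lip hz.bd 0 hr one_pos)
  have a3 := b3fa_lo ce' (b3fa_en0 z) r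
  have a4 := ibp_ct ((b3fa_c1 u1).sub (b3fa_c1 hz.c1))
    ((b3fa_lip h.lip ub).sub (b3fa_lip hz.lip hz.bd)) hz.ne hr
  have e1 : ∀ x, fderiv ℝ (fun y => GG (u y) - GG (z y)) x e =
      rr u x * ⟪pp u x, e⟫ - en z x := fun x => by
    rw [fderiv_fun_sub ((b3fa_c1 u1).differentiable one_ne_zero x)
      ((b3fa_c1 hz.c1).differentiable one_ne_zero x), ContinuousLinearMap.sub_apply, h.dw, hz.cal]
  simp only [e1, mul_sub] at a4
  rw [integral_sub (b3fa_int cw r) (b3fa_int ce' r)] at a4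
  have a5 : ∫ x in sh 0 r 1, |GG (u x) - GG (z x)| ≤ ∫ x in sh 0 r 1, |u x - z x| :=
    setIntegral_mono (intOn_sh ((b3fa_c1 u1).sub (b3fa_c1 hz.c1)).continuous.abs 0 r 1)
      (intOn_sh (cu.sub cz).abs 0 r 1) fun x => GG_lip (ub x) (hz.bd x)
  have cg : Continuous fun x => (‖fderiv ℝ u x‖ + ‖fderiv ℝ z x‖ + |z x - u x| / 1) ^ 2 / 2 +
      (1 - (u x + ct 0 r 1 x * (z x - u x)) ^ 2) ^ 2 / 4 := by fun_prop
  have cd : Continuous fun x => |u x - z x| := (cu.sub cz).abs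
  have a6 := setIntegral_mono (intOn_sh (cg.add cd) 0 r 1)
    (intOn_sh (continuous_const.mul ((ce.add ce').add cd)) 0 r 1)
    fun x => b3fa_alg (ub x) (hz.bd x) (ct_mem 0 r 1 x).1 (ct_mem 0 r 1 x).2
  simp only [Pi.add_apply, Pi.mul_apply] at a6
  rw [integral_add (intOn_sh cg 0 r 1) (intOn_sh cd 0 r 1), integral_const_mul] at a6
  linarith [(abs_le.1 a4).1]

end Vale.Agent.P134.B3
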