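import Vale.Agent.P134.B3Fa

/-! P134, block B3: choice of a good shell. -/

open Filter Topology MeasureTheory Set Metric
open scoped ContDiff RealInnerProductSpace NNReal Laplacian

namespace Vale.Agent.P134.B3

variable {u : X → ℝ} {a : X}

theorem good_shell {F : X → ℝ} (hF : Continuous F) (h0 : ∀ x, 0 ≤ F x) {r : ℝ} (hr : 1 ≤ r) :
    ∃ s : ℝ, r ≤ s ∧ s ≤ 2 * r ∧ r * ∫ x in sh 0 s 1, F x ≤ ∫ x in ball (0 : X) (4 * r), F x := by
  obtain ⟨j, h1, h2⟩ := pigeon hF h0 0 (r := r) (by linarith) one_pos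
    (Nat.ceil_pos.2 (show 0 < r by linarith))
  have a1 := Nat.le_ceil r
  have a2 := Nat.ceil_lt_add_one (show 0 ≤ r by linarith)
  have a3 : (j : ℝ) + 1 ≤ ⌈r⌉₊ := by exact_mod_cast h1
  have a4 : (0 : ℝ) ≤ j := j.cast_nonneg
  refine ⟨r + j * 1, by linarith, by linarith, ((mul_le_mul_of_nonneg_right a1
    (integral_nonneg h0)).trans h2).trans ?_⟩
  exact setIntegral_mono_set (intOn_ball hF _ _) (Eventually.of_forall h0)
    (closedBall_subset_ball (by linarith)).eventuallyLE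

theorem Cx.fin_ineq (h : Cx u a) : ∃ C : ℝ, 0 < C ∧ ∀ (z : X → ℝ) (e : X), Cal z e →
    ∀ r : ℝ, 1 ≤ r → ∫ x in ball (0 : X) r, (en u x - rr u x * ⟪pp u x, e⟫) ≤
      C * (r ^ 2 + r⁻¹ * ∫ x in ball (0 : X) (4 * r), |u x - z x|) := by
  obtain ⟨C1, p1, h1⟩ := h.shell
  obtain ⟨C2, p2, h2⟩ := h.vol
  obtain ⟨C3, p3, h3⟩ := Cal.vol
  refine ⟨C1 * (1 + 64 * (C2 + C3)), by positivity, fun z e hz r hr => ?_⟩
  have r0 : 0 < r := by linarith
  have c1 := h.cont_en
  have c2 : Continuous (en z) := by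
    have := hz.c1.continuous
    have := hz.c1.continuous_fderiv one_ne_zero
    unfold en
    fun_prop
  have c3 : Continuous fun x => |u x - z x| := (h.lip.continuous.sub hz.c1.continuous).abs
  obtain ⟨s, s1, s2, s3⟩ := good_shell ((c1.add c2).add c3)
    (fun x => by simp only [en, Pi.add_apply]; positivity) hr
  have a1 := int_ball_mono (F := fun x => en u x - rr u x * ⟪pp u x, e⟫)
    (c1.sub (h.sm_r.continuous.mul (h.sm_p.continuous.inner continuous_const))) (fun x => by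
      have b1 := real_inner_le_norm (pp u x) e
      have b2 := mul_le_mul_of_nonneg_left hz.ne (norm_nonneg (pp u x))
      have b3 : 0 ≤ (2 - (1 - ‖pp u x‖ ^ 2)) / 2 - ⟪pp u x, e⟫ := by
        nlinarith [sq_nonneg (‖pp u x‖ - 1)]
      have b4 := mul_nonneg (h.r_pos x).le b3
      rw [h.en_eq, ss_eq]
      linarith) (y := 0) (z := 0) (r := r) (s := s) (by simpa using s1)
  have a2 := h1 z e hz s (by linarith)
  simp only [Pi.add_apply] at s3
  have i1 : IntegrableOn (fun x => en u x + en z x) (ball (0 : X) (4 * r)) :=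
    intOn_ball (c1.add c2) _ _
  rw [integral_add i1 (intOn_ball c3 _ _), integral_add (intOn_ball c1 _ _) (intOn_ball c2 _ _),
    ← le_inv_mul_iff₀ r0] at s3
  have a3 := (h2 0 (4 * r) (by linarith)).2
  have a4 := h3 z e hz (4 * r) (by linarith)
  have a5 : 0 ≤ r⁻¹ * ∫ x in ball (0 : X) (4 * r), |u x - z x| :=
    mul_nonneg (by positivity) (integral_nonneg fun _ => abs_nonneg _)
  have a6 := mul_le_mul_of_nonneg_left (add_le_add a3 a4) (inv_pos.2 r0).le
  have a7 : r⁻¹ * (C2 * (4 * r) ^ 3 + C3 * (4 * r) ^ 3) = 64 * (C2 + C3) * r ^ 2 := by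
    field_simp
    norm_num
  refine a1.trans (a2.trans ?_)
  rw [mul_assoc]
  refine mul_le_mul_of_nonneg_left (s3.trans ?_) p1.le
  rw [mul_add r⁻¹]
  nlinarith [mul_nonneg (add_pos p2 p3).le a5, sq_nonneg r]

theorem cal_const {c : ℝ} (hc : c = 1 ∨ c = -1) : Cal (fun _ => c) 0 :=
  ⟨contDiff_const, (LipschitzWith.const c).weaken zero_le_one,
    fun _ => by rcases hc with rfl | rfl <;> simp, by simp,
    fun _ => by rcases hc with rfl | rfl <;> simp [en]⟩

theorem b3fb_tanh (t : ℝ) : HasDerivAt Real.tanh (1 - Real.tanh t ^ 2) t := by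
  have h := (Real.hasDerivAt_sinh t).fun_div (Real.hasDerivAt_cosh t) (Real.cosh_pos t).ne'
  rw [← funext Real.tanh_eq_sinh_div_cosh] at h
  refine h.congr_deriv ?_
  rw [Real.tanh_eq_sinh_div_cosh]
  field_simp [(Real.cosh_pos t).ne']

theorem cal_tanh {e : X} (he : ‖e‖ = 1) : Cal (fun x => Real.tanh (⟪e, x⟫ / √2)) e := by
  have s2 : (0 : ℝ) < √2 := by positivity
  have s3 : √2 ^ 2 = 2 := Real.sq_sqrt (by norm_num)
  have d : ∀ x : X, HasFDerivAt (fun x : X => Real.tanh (⟪e, x⟫ / √2))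
      (((1 - Real.tanh (⟪e, x⟫ / √2) ^ 2) / √2) • innerSL ℝ e) x := fun x => by
    have h1 : HasDerivAt (fun t : ℝ => Real.tanh (t / √2))
        ((1 - Real.tanh (⟪e, x⟫ / √2) ^ 2) / √2) ⟪e, x⟫ :=
      ((b3fb_tanh _).comp _ ((hasDerivAt_id' _).div_const √2)).congr_deriv (by ring)
    exact h1.comp_hasFDerivAt x (innerSL ℝ e).hasFDerivAt
  have t0 : ∀ t, 0 ≤ 1 - Real.tanh t ^ 2 := fun t => by linarith [Real.tanh_sq_lt_one t]
  have nd : ∀ x : X, ‖fderiv ℝ (fun x : X => Real.tanh (⟪e, x⟫ / √2)) x‖ =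
      (1 - Real.tanh (⟪e, x⟫ / √2) ^ 2) / √2 := fun x => by
    rw [(d x).fderiv, norm_smul, innerSL_apply_norm, he, mul_one,
      Real.norm_of_nonneg (div_nonneg (t0 _) s2.le)]
  refine ⟨?_, lipschitzWith_of_nnnorm_fderiv_le (fun x => (d x).differentiableAt) fun x => ?_,
    fun x => (Real.abs_tanh_lt_one _).le, he.le, fun x => ?_⟩
  · have c : ContDiff ℝ 1 fun x : X => ⟪e, x⟫ / √2 :=
      (contDiff_const.inner ℝ contDiff_id).div_const _
    simp only [Real.tanh_eq_sinh_div_cosh]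
    exact c.sinh.div c.cosh fun x => (Real.cosh_pos _).ne'
  · rw [← NNReal.coe_le_coe, coe_nnnorm, nd, NNReal.coe_one, div_le_one s2]
    nlinarith [sq_nonneg (Real.tanh (⟪e, x⟫ / √2))]
  · rw [en, nd, fderiv_comp1 (hasDerivAt_GG _) (d x).differentiableAt, (d x).fderiv]
    simp only [smul_apply, innerSL_apply_apply, real_inner_self_eq_norm_sq, he,
      smul_eq_mul]
    rw [one_pow, mul_one, ← sq, div_pow, s3]
    ring

end Vale.Agent.P134.B3
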