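import Vale.Agent.P134.B3Bas
import Vale.Agent.P134.B3Ibp

/-! P134, block B3: blow-down of a profile. -/

open Filter Topology MeasureTheory Set Metric
open scoped ContDiff RealInnerProductSpace NNReal Laplacian

namespace Vale.Agent.P134.B3

variable {u : X → ℝ} {a : X}

theorem Sg.meas {σ : X → ℝ} (h : Sg σ) : Measurable σ ∧ (∀ x, |σ x| ≤ 1) ∧
    ∀ (r : ℝ) (x : X), 0 < r → σ (r • x) = σ x := by
  rcases h with rfl | rfl | ⟨e, -, rfl⟩
  · exact ⟨measurable_const, fun _ => by simp, fun _ _ _ => rfl⟩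
  · exact ⟨measurable_const, fun _ => by simp, fun _ _ _ => rfl⟩
  have m : Measurable Real.sign := Measurable.ite measurableSet_Iio measurable_const
    (Measurable.ite measurableSet_Ioi measurable_const measurable_const)
  refine ⟨m.comp (continuous_const.inner continuous_id).measurable, fun x => ?_, fun r x hr => ?_⟩
  · rcases Real.sign_apply_eq ⟪e, x⟫ with h | h | h <;> simp [h]
  · simp only [inner_smul_right]
    rcases lt_trichotomy ⟪e, x⟫ 0 with h | h | h
    · rw [Real.sign_of_neg h, Real.sign_of_neg (mul_neg_of_pos_of_neg hr h)]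
    · rw [h, mul_zero]
    · rw [Real.sign_of_pos h, Real.sign_of_pos (mul_pos hr h)]

theorem b3lim0_ae {μ : Measure X} {F : ℕ → X → ℝ} (hm : ∀ j, Measurable (F j))
    (hi : ∀ j, Integrable (F j) μ) (h0 : ∀ j x, 0 ≤ F j x) (hs : Summable fun j => ∫ x, F j x ∂μ) :
    ∀ᵐ x ∂μ, Tendsto (fun j => F j x) atTop (𝓝 0) := by
  have h1 := hs.tsum_ofReal_ne_top
  simp only [fun j => ofReal_integral_eq_lintegral_ofReal (hi j) (ae_of_all _ (h0 j))] at h1
  rw [← lintegral_tsum fun j => (hm j).ennreal_ofReal.aemeasurable] at h1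
  filter_upwards [ae_lt_top (Measurable.tsum fun j => (hm j).ennreal_ofReal) h1] with x hx
  simpa only [Function.comp_def, ENNReal.toReal_ofReal (h0 _ _), ENNReal.toReal_zero] using
    (ENNReal.tendsto_toReal ENNReal.zero_ne_top).comp
      (ENNReal.tendsto_atTop_zero_of_tsum_ne_top hx.ne)

theorem Prof.down {A h : X → ℝ} {m : ℝ} (hp : Prof A h m) : ∃ (Λ : ℕ → ℝ) (f : X → ℝ),
    (∀ j, 1 ≤ Λ j) ∧ Tendsto Λ atTop atTop ∧ Measurable f ∧ (∀ x, f (-x) = -f x) ∧ TV f m ∧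
    (∀ x, |f x| ≤ m / 2) ∧ (∀ x, Tendsto (fun j => od h (Λ j • x)) atTop (𝓝 (f x))) ∧
    ∀ᵐ x : X, Tendsto (fun j => |A (Λ j • x)|) atTop (𝓝 (s0 / 2)) := by
  have l1 : ∀ j : ℕ, (1 : ℝ) ≤ 2 ^ j := fun j => one_le_pow₀ one_le_two
  have t0 : ∀ x : X, Tendsto (fun j : ℕ => h ((2 : ℝ) ^ j • x)) atTop
      (𝓝 (⨆ j : ℕ, h ((2 : ℝ) ^ j • x))) := fun x => tendsto_atTop_ciSup
    (fun i j hij => hp.mono x _ _ (by positivity) (pow_le_pow_right₀ one_le_two hij))
    ⟨m / 2, forall_mem_range.2 fun _ => (hp.h0 _).2⟩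
  have t1 : ∀ x : X, Tendsto (fun j : ℕ => od h ((2 : ℝ) ^ j • x)) atTop
      (𝓝 (od (fun x => ⨆ j : ℕ, h ((2 : ℝ) ^ j • x)) x)) := fun x => by
    simpa only [od, smul_neg] using (t0 x).sub (t0 (-x))
  have ch := hp.ch
  refine ⟨fun j => 2 ^ j, _, l1, tendsto_pow_atTop_atTop_of_one_lt one_lt_two,
    measurable_of_tendsto_metrizable (fun j => Continuous.measurable (by unfold od; fun_prop))
      (tendsto_pi_nhds.2 t1), fun x => by simp only [od, neg_neg, neg_sub], fun x y z hz => ?_,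
    fun x => le_of_tendsto' (t1 x).abs fun j => ?_, t1, ?_⟩
  · refine le_of_tendsto' ((((t1 x).sub (t1 z)).abs.add ((t1 z).sub (t1 y)).abs).add
      ((t1 y).add (t1 x)).abs) fun j => hp.tv _ _ _ ?_
    obtain ⟨s, t, h1, h2, h3, rfl⟩ := hz
    exact ⟨s, t, h1, h2, h3, by rw [smul_add, smul_comm s, smul_comm t]⟩
  · rw [od, abs_le]
    constructor <;> linarith [hp.h0 ((2 : ℝ) ^ j • x), hp.h0 (-((2 : ℝ) ^ j • x))]
  obtain ⟨C, hC⟩ := hp.two
  have cA := hp.cA
  have c : ∀ j : ℕ, Continuous fun x : X => s0 / 2 - |A ((2 : ℝ) ^ j • x)| := fun j => by fun_prop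
  have n : ∀ (j : ℕ) (x : X), 0 ≤ s0 / 2 - |A ((2 : ℝ) ^ j • x)| :=
    fun j x => sub_nonneg.2 (hp.bA _)
  have k : ∀ T : ℕ, ∀ᵐ x : X, x ∈ ball (0 : X) (T + 1) →
      Tendsto (fun j : ℕ => s0 / 2 - |A ((2 : ℝ) ^ j • x)|) atTop (𝓝 0) := fun T => by
    refine (ae_restrict_iff' measurableSet_ball).1 (b3lim0_ae (fun j => (c j).measurable)
      (fun j => intOn_ball (c j) _ _) n (Summable.of_nonneg_of_le
        (fun j => integral_nonneg (n j)) (fun j => ?_)
        (summable_geometric_two.mul_left (C * (T + 1) ^ 3))))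
    have e := int_scale (fun x => s0 / 2 - |A x|) 0 (r := 2 ^ j) (by positivity) (T + 1)
    simp only [zero_add] at e
    rw [e]
    refine (mul_le_mul_of_nonneg_left (hC _ (one_le_mul_of_one_le_of_one_le (l1 j)
      (by linarith [T.cast_nonneg (α := ℝ)]))) (by positivity)).trans_eq ?_
    rw [one_div, inv_pow]
    field_simp
  filter_upwards [ae_all_iff.2 k] with x hx
  obtain ⟨T, hT⟩ := exists_nat_gt ‖x‖
  simpa only [sub_sub_cancel, sub_zero] using
    (hx T (mem_ball_zero_iff.2 (by linarith))).const_sub (s0 / 2)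

theorem cl_of_ae {A σ : X → ℝ} (hA : Continuous A) (hb : ∀ x, |A x| ≤ s0 / 2) (hσ : Sg σ)
    {Λ : ℕ → ℝ} (h1 : ∀ j, 1 ≤ Λ j) (hΛ : Tendsto Λ atTop atTop)
    (h : ∀ᵐ x : X, Tendsto (fun j => A (Λ j • x)) atTop (𝓝 (s0 / 2 * σ x))) : Cl A σ := by
  obtain ⟨m, b, hom⟩ := hσ.meas
  have t := tendsto_integral_of_dominated_convergence (μ := volume.restrict (ball (0 : X) 1))
    (F := fun j x => |A (Λ j • x) - s0 / 2 * σ x|) (f := fun _ => 0) (fun _ => s0)
    (fun j => Measurable.aestronglyMeasurable (by fun_prop)) (intOn_ball continuous_const _ _)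
    (fun j => ae_of_all _ fun x => by
      rw [Real.norm_eq_abs, abs_abs]
      refine (abs_sub _ _).trans ?_
      rw [abs_mul, abs_of_pos (half_pos s0_pos)]
      linarith [hb (Λ j • x), mul_le_of_le_one_right (half_pos s0_pos).le (b x)])
    (ae_restrict_of_ae (h.mono fun x hx => by simpa using (hx.sub_const (s0 / 2 * σ x)).abs))
  rw [integral_zero] at t
  intro ε hε L0
  obtain ⟨j, j1, j2⟩ := ((hΛ.eventually_ge_atTop L0).and (t.eventually_le_const hε)).exists
  have p : 0 < Λ j := by linarith [h1 j]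
  have e := int_scale (fun x => |A x - s0 / 2 * σ x|) 0 p 1
  simp only [zero_add, hom _ _ p, mul_one] at e
  rw [e, inv_mul_le_iff₀' (by positivity)] at j2
  exact ⟨Λ j, j1, j2⟩

end Vale.Agent.P134.B3
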