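import Vale.Agent.P134.B3Fb
import Vale.Agent.P134.B3Mon
import Vale.Agent.P134.B3Lim0

/-! P134, block B3: from closeness in the mean to flatness. -/

open Filter Topology MeasureTheory Set Metric
open scoped ContDiff RealInnerProductSpace NNReal Laplacian

namespace Vale.Agent.P134.B3

variable {u : X → ℝ} {a : X}

theorem b3fin_am {l : ℝ} (hl : 0 < l) (w : ℝ) : w ≤ l + l⁻¹ * (w ^ 2 / 4) := by
  have h : l⁻¹ * (w / 2 - l) ^ 2 = l⁻¹ * (w ^ 2 / 4) - w + l := by field_simp; ring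
  have : 0 ≤ l⁻¹ * (w / 2 - l) ^ 2 := by positivity
  linarith

theorem b3fin_pt {l s t c E : ℝ} (hl : 0 < l) (hs : |s| ≤ 1) (hc : c = 1 ∨ c = -1)
    (ht : |t - c| ≤ 1 - t ^ 2) (hE : (1 - t ^ 2) ^ 2 / 4 ≤ E) :
    |s - t| ≤ 2 * l + 5 / 4 * l⁻¹ * |GG s - s0 / 2 * c| + l⁻¹ * E := by
  have h1 := b3fin_am hl |s - c|
  have h2 := b3fin_am hl (1 - t ^ 2)
  have h3 : |s - c| ^ 2 ≤ 5 * |GG s - s0 / 2 * c| := by
    rw [sq_abs]
    rcases hc with rfl | rfl
    · rw [mul_one]; linarith [(GG_low hs).1]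
    · rw [mul_neg, mul_one, sub_neg_eq_add, sub_neg_eq_add]; linarith [(GG_low hs).2]
  have h4 := abs_sub_le s c t
  rw [abs_sub_comm c t] at h4
  have h5 := mul_le_mul_of_nonneg_left h3 (inv_pos.2 hl).le
  have h6 := mul_le_mul_of_nonneg_left hE (inv_pos.2 hl).le
  linarith

theorem b3fin_int (h : Cx u a) {σ z : X → ℝ} {e : X} (hσ : Sg σ) (hz : Cal z e)
    (hae : ∀ᵐ x : X, (σ x = 1 ∨ σ x = -1) ∧ |z x - σ x| ≤ 1 - z x ^ 2) {l L : ℝ} (hl : 0 < l)
    (hL : 0 ≤ L) : ∫ x in ball (0 : X) L, |u x - z x| ≤ 2 * l * (om * L ^ 4) +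
      5 / 4 * l⁻¹ * (∫ x in ball (0 : X) L, |GG (u x) - s0 / 2 * σ x|) +
      l⁻¹ * ∫ x in ball (0 : X) L, en z x := by
  have cz : Continuous (en z) :=
    (((hz.c1.continuous_fderiv one_ne_zero).norm.pow 2).div_const 2).add
      (((continuous_const.sub (hz.c1.continuous.pow 2)).pow 2).div_const 4)
  have i0 : IntegrableOn σ (ball (0 : X) L) :=
    Measure.integrableOn_of_bounded (M := 1) measure_ball_lt_top.ne
      hσ.meas.1.aestronglyMeasurable (Eventually.of_forall hσ.meas.2.1)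
  have i1 : Integrable (fun _ : X => 2 * l) (volume.restrict (ball (0 : X) L)) :=
    intOn_ball continuous_const 0 L
  have i2 : Integrable (fun x => 5 / 4 * l⁻¹ * |GG (u x) - s0 / 2 * σ x|)
      (volume.restrict (ball (0 : X) L)) :=
    (((intOn_ball (contDiff_GG.continuous.comp h.lip.continuous) 0 L).sub
      (i0.const_mul _)).abs).const_mul _
  have i3 : Integrable (fun x => l⁻¹ * en z x) (volume.restrict (ball (0 : X) L)) :=
    (intOn_ball cz 0 L).const_mul _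
  have i4 : Integrable (fun x => 2 * l + 5 / 4 * l⁻¹ * |GG (u x) - s0 / 2 * σ x|)
      (volume.restrict (ball (0 : X) L)) := i1.add i2
  have H := integral_mono_of_nonneg (f := fun x => |u x - z x|)
    (Eventually.of_forall fun x => abs_nonneg _) (i4.add i3)
    (ae_restrict_of_ae (hae.mono fun x hx => b3fin_pt (E := en z x) hl (h.nd.lt x).le hx.1 hx.2
      (le_add_of_nonneg_left (by positivity))))
  simp only [Pi.add_apply] at H
  rw [integral_add i4 i3, integral_add i1 i2, setIntegral_const, integral_const_mul,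
    integral_const_mul, vol_ball 0 hL, smul_eq_mul, mul_comm (om * L ^ 4)] at H
  exact H

theorem b3fin_key (h : Cx u a) {σ z : X → ℝ} {e : X} (hσ : Sg σ) (hz : Cal z e)
    (hae : ∀ᵐ x : X, (σ x = 1 ∨ σ x = -1) ∧ |z x - σ x| ≤ 1 - z x ^ 2)
    (hc : Cl (fun x => GG (u x)) σ) {ε : ℝ} (hε : 0 < ε) (R0 : ℝ) : ∃ r, 1 ≤ r ∧ R0 ≤ r ∧
      ∫ x in ball (0 : X) r, (en u x - rr u x * ⟪pp u x, e⟫) ≤ ε * r ^ 3 := by
  obtain ⟨C, hC, H⟩ := h.fin_ineq
  obtain ⟨D, hD, H'⟩ := Cal.vol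
  have ho := om_pos
  obtain ⟨l, hl, el⟩ : ∃ l : ℝ, 0 < l ∧ C * (512 * l * om) = ε / 3 :=
    ⟨ε / (1536 * C * om), by positivity, by field_simp; norm_num⟩
  obtain ⟨δ, hδ, eδ⟩ : ∃ δ : ℝ, 0 < δ ∧ C * (320 * l⁻¹ * δ) = ε / 3 :=
    ⟨ε * l / (960 * C), by positivity, by field_simp; norm_num⟩
  obtain ⟨L, hL, HL⟩ := hc δ hδ (4 * max (max 1 R0) (3 * (C * (1 + 64 * l⁻¹ * D)) / ε))
  obtain ⟨r, rfl⟩ : ∃ r, L = 4 * r := ⟨L / 4, by ring⟩
  have hr : max (max 1 R0) (3 * (C * (1 + 64 * l⁻¹ * D)) / ε) ≤ r := by linarith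
  rw [max_le_iff, max_le_iff, div_le_iff₀ hε] at hr
  obtain ⟨⟨r1, r2⟩, r3⟩ := hr
  have r0 : 0 < r := by linarith
  refine ⟨r, r1, r2, (H z e hz r r1).trans ?_⟩
  have a1 := b3fin_int h hσ hz hae hl (L := 4 * r) (by linarith)
  have a2 := mul_le_mul_of_nonneg_left HL (show 0 ≤ 5 / 4 * l⁻¹ by positivity)
  have a3 := mul_le_mul_of_nonneg_left (H' z e hz (4 * r) (by linarith)) (inv_pos.2 hl).le
  have a4 : ∫ x in ball (0 : X) (4 * r), |u x - z x| ≤
      r * ((512 * l * om + 320 * l⁻¹ * δ) * r ^ 3 + 64 * l⁻¹ * D * r ^ 2) := by linarith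
  rw [← inv_mul_le_iff₀ r0] at a4
  have a5 := mul_le_mul_of_nonneg_left a4 hC.le
  have a6 := mul_le_mul_of_nonneg_right r3 (sq_nonneg r)
  have a7 : C * ((512 * l * om + 320 * l⁻¹ * δ) * r ^ 3) = 2 * ε / 3 * r ^ 3 := by
    rw [← mul_assoc, mul_add, el, eδ]; ring
  linarith

theorem b3fin_const (h : Cx u a) {c : ℝ} (hc : c = 1 ∨ c = -1) (hσ : Sg fun _ => c)
    (hl : Cl (fun x => GG (u x)) fun _ => c) : False := by
  obtain ⟨k, hk, H⟩ := h.mon_low
  obtain ⟨r, r1, -, hr⟩ := b3fin_key h hσ (cal_const hc) (Eventually.of_forall fun _ => ⟨hc, by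
    rcases hc with rfl | rfl <;> simp⟩) hl (half_pos hk) 0
  simp only [inner_zero_right, mul_zero, sub_zero] at hr
  have h1 := H r r1
  have h2 : 0 < k * r ^ 3 := by positivity
  linarith

theorem b3fin_sign {t : ℝ} (ht : t ≠ 0) : (Real.sign t = 1 ∨ Real.sign t = -1) ∧
    |Real.tanh (t / √2) - Real.sign t| ≤ 1 - Real.tanh (t / √2) ^ 2 := by
  have h1 := Real.tanh_lt_one (t / √2)
  have h2 := Real.neg_one_lt_tanh (t / √2)
  have h3 := Real.cosh_pos (t / √2)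
  rcases ht.lt_or_gt with h | h
  · have h4 : Real.tanh (t / √2) ≤ 0 := by
      rw [Real.tanh_eq_sinh_div_cosh]
      exact div_nonpos_of_nonpos_of_nonneg (Real.sinh_nonpos_iff.2
        (div_nonpos_of_nonpos_of_nonneg h.le (by positivity))) h3.le
    rw [Real.sign_of_neg h, abs_of_nonneg (by linarith)]
    exact ⟨Or.inr rfl, by nlinarith⟩
  · have h4 : 0 ≤ Real.tanh (t / √2) := by
      rw [Real.tanh_eq_sinh_div_cosh]
      exact div_nonneg (Real.sinh_nonneg_iff.2 (by positivity)) h3.le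
    rw [Real.sign_of_pos h, abs_of_nonpos (by linarith)]
    exact ⟨Or.inl rfl, by nlinarith⟩

theorem b3fin_null {e : X} (he : ‖e‖ = 1) : ∀ᵐ x : X, ⟪e, x⟫ ≠ 0 := by
  have h := Measure.addHaar_submodule (volume : Measure X) (Submodule.span ℝ {e})ᗮ fun h => by
    have h1 : e ∈ (Submodule.span ℝ {e})ᗮ := h ▸ Submodule.mem_top
    rw [Submodule.mem_orthogonal_singleton_iff_inner_right, real_inner_self_eq_norm_sq, he] at h1
    norm_num at h1
  exact (measure_eq_zero_iff_ae_notMem.1 h).mono fun x hx h' =>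
    hx (Submodule.mem_orthogonal_singleton_iff_inner_right.2 h')

theorem Cx.fin (h : Cx u a) {σ : X → ℝ} (hσ : Sg σ) (hc : Cl (fun x => GG (u x)) σ) : Flt u := by
  rcases id hσ with rfl | rfl | ⟨e, he, rfl⟩
  · exact (b3fin_const h (Or.inl rfl) hσ hc).elim
  · exact (b3fin_const h (Or.inr rfl) hσ hc).elim
  refine ⟨e, he, fun ε hε R0 => ?_⟩
  obtain ⟨r, -, r2, hr⟩ := b3fin_key h hσ (cal_tanh he)
    ((b3fin_null he).mono fun x hx => b3fin_sign hx) hc (half_pos hε) R0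
  have e1 : ∀ x, rr u x * ‖pp u x - e‖ ^ 2 = 2 * (en u x - rr u x * ⟪pp u x, e⟫) := fun x => by
    rw [h.en_eq, ss_eq, norm_sub_sq_real, he]; ring
  refine ⟨r, r2, ?_⟩
  simp only [e1]
  rw [integral_const_mul]
  linarith

end Vale.Agent.P134.B3
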