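import Vale.Agent.P134.B3Bas
import Vale.Agent.P134.B3Ibp

/-! P134, block B3: properties of the profile functions. -/

open Filter Topology MeasureTheory Set Metric
open scoped ContDiff RealInnerProductSpace NNReal Laplacian

namespace Vale.Agent.P134.B3

variable {u : X → ℝ} {a : X}

variable {w ρ : X → ℝ} {p : X → X} {β : X → ℝ} {S : Set X}

theorem kk_nonneg (s : ℝ) : 0 ≤ kk s :=
  mul_nonneg (div_nonneg (by norm_num) om_pos.le) (pw_nonneg _ _)

theorem kk_le {s : ℝ} (hs : 0 ≤ s) : kk s ≤ 6 / om :=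
  mul_le_of_le_one_right (div_nonneg (by norm_num) om_pos.le) (pw_le_one 2 hs)

theorem kk_zero {s : ℝ} (hs : 1 ≤ s) : kk s = 0 := by
  unfold kk
  rw [pw_zero 1 hs, mul_zero]

theorem contDiff_kk : ContDiff ℝ 1 kk := contDiff_const.mul (contDiff_pw 0)

theorem b3hh_c (c : ℝ) : Continuous fun t : ℝ => kk (c + t ^ 2) :=
  contDiff_kk.continuous.comp (by fun_prop)

theorem hasDerivAt_HH (c s : ℝ) : HasDerivAt (HH c) (kk (c + s ^ 2)) s :=
  ((b3hh_c c).integral_hasStrictDerivAt 0 s).hasDerivAt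

theorem continuous_HH : Continuous fun z : ℝ × ℝ => HH z.1 z.2 := by
  have : Continuous (Function.uncurry fun (c t : ℝ) => kk (c + t ^ 2)) :=
    contDiff_kk.continuous.comp (f := fun z : ℝ × ℝ => z.1 + z.2 ^ 2) (by fun_prop)
  exact intervalIntegral.continuous_parametric_primitive_of_continuous this

theorem HH_neg (c s : ℝ) : HH c (-s) = -HH c s := by
  have := intervalIntegral.integral_comp_neg (a := 0) (b := s) (fun t : ℝ => kk (c + t ^ 2))
  simp only [neg_zero, even_two, Even.neg_pow] at this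
  unfold HH
  rw [this, intervalIntegral.integral_symm]

theorem HH_mono (c : ℝ) : Monotone (HH c) :=
  monotone_of_deriv_nonneg (fun s => (hasDerivAt_HH c s).differentiableAt) fun s => by
    rw [(hasDerivAt_HH c s).deriv]; exact kk_nonneg _

theorem HH_sat {c s : ℝ} (hc : 0 ≤ c) (hs : 1 ≤ s) : HH c s = HH c 1 := by
  have h1 := intervalIntegral.integral_add_adjacent_intervals
    ((b3hh_c c).intervalIntegrable (μ := volume) 0 1) ((b3hh_c c).intervalIntegrable 1 s)
  have h2 : ∫ t in (1 : ℝ)..s, kk (c + t ^ 2) = ∫ t in (1 : ℝ)..s, (0 : ℝ) := by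
    refine intervalIntegral.integral_congr fun t ht => ?_
    rw [uIcc_of_le hs] at ht
    exact kk_zero (by nlinarith [ht.1])
  unfold HH
  rw [← h1, h2]
  simp

theorem HH_off {c : ℝ} (hc : 1 ≤ c) (s : ℝ) : HH c s = 0 := by
  have : (fun t : ℝ => kk (c + t ^ 2)) = fun _ => 0 :=
    funext fun t => kk_zero (by nlinarith [sq_nonneg t])
  unfold HH
  rw [this]
  simp

theorem b3hh_zero (c : ℝ) : HH c 0 = 0 := by simp [HH]

theorem b3hh_le {c : ℝ} (hc : 0 ≤ c) (t : ℝ) : HH c t ≤ HH c 1 := by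
  rcases le_total t 1 with h | h
  · exact HH_mono c h
  · exact (HH_sat hc h).le

theorem b3hh_abs {c : ℝ} (hc : 0 ≤ c) (t : ℝ) : |HH c t| ≤ HH c 1 := by
  refine abs_le.2 ⟨?_, b3hh_le hc t⟩
  have := b3hh_le hc (-t)
  rw [HH_neg] at this
  linarith

theorem b3hh_lip {c : ℝ} (hc : 0 ≤ c) (s t : ℝ) : |HH c s - HH c t| ≤ 6 / om * |s - t| := by
  have := (convex_univ (𝕜 := ℝ) (E := ℝ)).norm_image_sub_le_of_norm_hasDerivWithin_le
    (f := HH c) (f' := fun s => kk (c + s ^ 2)) (C := 6 / om) (x := t) (y := s)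
    (fun x _ => (hasDerivAt_HH c x).hasDerivWithinAt)
    (fun x _ => by
      rw [Real.norm_eq_abs, abs_of_nonneg (kk_nonneg _)]
      exact kk_le (by positivity)) (mem_univ _) (mem_univ _)
  simpa [Real.norm_eq_abs] using this

theorem b3hh_W (h : Tri w ρ p) (hβ : Wt β S) (y : X) : 0 ≤ β (p y) * ρ y :=
  mul_nonneg (hβ.b0 _) (h.r0 y)

theorem b3hh_int (h : Tri w ρ p) (hβ : Wt β S) {f : X → ℝ} (hf : Continuous f) :
    Integrable fun y : X => HH (‖y‖ ^ 2) (f y) * (β (p y) * ρ y) := by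
  have c1 : Continuous fun y : X => HH (‖y‖ ^ 2) (f y) :=
    continuous_HH.comp (f := fun y : X => (‖y‖ ^ 2, f y)) (by fun_prop)
  refine (c1.mul ((hβ.c1.continuous.comp h.p1.continuous).mul h.rc)).integrable_of_hasCompactSupport
    (HasCompactSupport.intro (isCompact_closedBall (0 : X) 1) fun y hy => ?_)
  have : 1 < ‖y‖ := by simpa using hy
  show HH (‖y‖ ^ 2) (f y) * (β (p y) * ρ y) = 0
  rw [HH_off (by nlinarith), zero_mul]

theorem b3hh_in (h : Tri w ρ p) (x : X) : Continuous fun y => ⟪x, p y⟫ :=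
  continuous_const.inner h.p1.continuous

theorem b3hh_mx (h : Tri w ρ p) (x : X) : Continuous fun y => max ⟪x, p y⟫ 0 :=
  (b3hh_in h x).max continuous_const

theorem b3hh_tv {H : ℝ → ℝ} {M A B C : ℝ} (hH : Monotone H) (hM : ∀ t, |H t| ≤ M)
    (hC : C ∈ segment ℝ A B) : |H A - H C| + |H C - H B| + |H B + H A| ≤ 2 * M := by
  have a1 := abs_le.1 (hM A)
  have a2 := abs_le.1 (hM B)
  rw [segment_eq_uIcc] at hC
  rcases mem_uIcc.1 hC with ⟨h1, h2⟩ | ⟨h1, h2⟩
  · have b1 := hH h1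
    have b2 := hH h2
    rw [abs_of_nonpos (by linarith : H A - H C ≤ 0), abs_of_nonpos (by linarith : H C - H B ≤ 0)]
    rcases abs_cases (H B + H A) with ⟨e, -⟩ | ⟨e, -⟩ <;> linarith
  · have b1 := hH h1
    have b2 := hH h2
    rw [abs_of_nonneg (by linarith : 0 ≤ H A - H C), abs_of_nonneg (by linarith : 0 ≤ H C - H B)]
    rcases abs_cases (H B + H A) with ⟨e, -⟩ | ⟨e, -⟩ <;> linarith

theorem od_hh (h : Tri w ρ p) (hβ : Wt β S) (x : X) :
    od (hh ρ p β) x = ∫ y, HH (‖y‖ ^ 2) ⟪x, p y⟫ * (β (p y) * ρ y) := by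
  unfold od hh
  rw [← integral_sub (b3hh_int h hβ (b3hh_mx h x)) (b3hh_int h hβ (b3hh_mx h (-x)))]
  refine integral_congr_ae (Eventually.of_forall fun y => ?_)
  simp only [inner_neg_left]
  rw [← sub_mul]
  congr 1
  rcases le_total ⟪x, p y⟫ 0 with hy | hy
  · rw [max_eq_right hy, max_eq_left (by linarith), HH_neg, b3hh_zero]; ring
  · rw [max_eq_left hy, max_eq_right (by linarith), b3hh_zero, sub_zero]

theorem hh_mem (h : Tri w ρ p) (hβ : Wt β S) (x : X) :
    0 ≤ hh ρ p β x ∧ hh ρ p β x ≤ ms ρ p β / 2 := by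
  constructor
  · refine integral_nonneg fun y => mul_nonneg ?_ (b3hh_W h hβ y)
    rw [← b3hh_zero (‖y‖ ^ 2)]
    exact HH_mono _ (by simp [b3hh_zero])
  · have := integral_mono (b3hh_int h hβ (b3hh_mx h x)) (b3hh_int h hβ (f := fun _ => 1)
      continuous_const) fun y => mul_le_mul_of_nonneg_right (b3hh_le (by positivity) _)
        (b3hh_W h hβ y)
    unfold hh ms
    linarith

theorem hh_mono (h : Tri w ρ p) (hβ : Wt β S) (x : X) {s t : ℝ} (hs : 0 ≤ s) (hst : s ≤ t) :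
    hh ρ p β (s • x) ≤ hh ρ p β (t • x) := by
  refine integral_mono (b3hh_int h hβ (b3hh_mx h _)) (b3hh_int h hβ (b3hh_mx h _)) fun y => ?_
  refine mul_le_mul_of_nonneg_right (HH_mono _ ?_) (b3hh_W h hβ y)
  simp only [real_inner_smul_left]
  rcases le_total ⟪x, p y⟫ 0 with hy | hy
  · exact max_le ((mul_nonpos_of_nonneg_of_nonpos hs hy).trans (le_max_right _ _))
      (le_max_right _ _)
  · exact max_le_max (mul_le_mul_of_nonneg_right hst hy) le_rfl

theorem hh_lip (h : Tri w ρ p) (hβ : Wt β S) (x x' : X) :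
    |hh ρ p β x - hh ρ p β x'| ≤ 6 / om * (∫ y in ball (0 : X) 1, ρ y) * ‖x - x'‖ := by
  unfold hh
  rw [← integral_sub (b3hh_int h hβ (b3hh_mx h x)) (b3hh_int h hβ (b3hh_mx h x'))]
  have h6 : 0 ≤ 6 / om := div_nonneg (by norm_num) om_pos.le
  have hi : Integrable ((ball (0 : X) 1).indicator fun y => 6 / om * ‖x - x'‖ * ρ y) :=
    (intOn_ball (continuous_const.mul h.rc) 0 1).integrable_indicator measurableSet_ball
  rw [← Real.norm_eq_abs]
  refine (norm_integral_le_of_norm_le hi (Eventually.of_forall fun y => ?_)).trans_eq ?_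
  · by_cases hy : y ∈ ball (0 : X) 1
    · rw [indicator_of_mem hy, ← sub_mul, Real.norm_eq_abs, abs_mul,
        abs_of_nonneg (b3hh_W h hβ y)]
      have a1 : |max ⟪x, p y⟫ 0 - max ⟪x', p y⟫ 0| ≤ ‖x - x'‖ := by
        refine (abs_max_sub_max_le_abs _ _ _).trans ?_
        rw [← inner_sub_left]
        exact (abs_real_inner_le_norm _ _).trans (mul_le_of_le_one_right (norm_nonneg _) (h.pl y))
      have a2 : β (p y) * ρ y ≤ ρ y := mul_le_of_le_one_left (h.r0 y) (hβ.b1 _ (h.pl y)).1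
      exact mul_le_mul ((b3hh_lip (by positivity) _ _).trans (mul_le_mul_of_nonneg_left a1 h6)) a2
        (b3hh_W h hβ y) (by positivity)
    · have : 1 ≤ ‖y‖ := by simpa using hy
      rw [indicator_of_notMem hy, HH_off (by nlinarith), HH_off (by nlinarith)]
      simp
  · rw [integral_indicator measurableSet_ball, integral_const_mul]
    ring

theorem hh_tv (h : Tri w ρ p) (hβ : Wt β S) : TV (od (hh ρ p β)) (ms ρ p β) := by
  intro x y z hz
  have ix := b3hh_int h hβ (b3hh_in h x)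
  have iy := b3hh_int h hβ (b3hh_in h y)
  have iz := b3hh_int h hβ (b3hh_in h z)
  have i1 := b3hh_int h hβ (f := fun _ => 1) continuous_const
  rw [od_hh h hβ, od_hh h hβ, od_hh h hβ, ← integral_sub ix iz, ← integral_sub iz iy,
    ← integral_add iy ix]
  have j1 := (ix.sub iz).abs
  have j2 := (iz.sub iy).abs
  have j3 := (iy.add ix).abs
  have key := integral_mono ((j1.add j2).add j3) (i1.const_mul 2) fun q => by
    have hq : ⟪z, p q⟫ ∈ segment ℝ ⟪x, p q⟫ ⟪y, p q⟫ := by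
      obtain ⟨a, b, ha, hb, hab, rfl⟩ := hz
      exact ⟨a, b, ha, hb, hab, by simp [inner_add_left, real_inner_smul_left]⟩
    have := mul_le_mul_of_nonneg_right (b3hh_tv (HH_mono (‖q‖ ^ 2))
      (b3hh_abs (by positivity)) hq) (b3hh_W h hβ q)
    simp only [Pi.add_apply, Pi.sub_apply]
    rw [← sub_mul, ← sub_mul, ← add_mul, abs_mul _ (β (p q) * ρ q), abs_mul _ (β (p q) * ρ q),
      abs_mul _ (β (p q) * ρ q), abs_of_nonneg (b3hh_W h hβ q)]
    linarith
  rw [integral_add' (j1.add j2) j3, integral_add' j1 j2, integral_const_mul] at key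
  refine le_trans (add_le_add (add_le_add abs_integral_le_integral_abs
    abs_integral_le_integral_abs) abs_integral_le_integral_abs) ?_
  exact key

theorem hh_sat (h : Tri w ρ p) (hβ : Wt β S) {x : X} (hx : ∀ y, β (p y) ≠ 0 → 1 ≤ ⟪x, p y⟫) :
    od (hh ρ p β) x = ms ρ p β / 2 := by
  rw [od_hh h hβ]
  have : ∫ y, HH (‖y‖ ^ 2) ⟪x, p y⟫ * (β (p y) * ρ y) =
      ∫ y, HH (‖y‖ ^ 2) 1 * (β (p y) * ρ y) := by
    refine integral_congr_ae (Eventually.of_forall fun y => ?_)
    by_cases hy : β (p y) = 0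
    · simp [hy]
    · simp only [HH_sat (sq_nonneg ‖y‖) (hx y hy)]
  rw [this]
  unfold ms
  ring

end Vale.Agent.P134.B3
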