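import Vale.Agent.P134.B3Cyl
import Vale.Agent.P134.B3Stab

/-! P134, block B3: the logarithmic cut-off around the axis. -/

open Filter Topology MeasureTheory Set Metric
open scoped ContDiff RealInnerProductSpace NNReal Laplacian

namespace Vale.Agent.P134.B3

variable {u : X → ℝ} {a : X}

theorem b3log_ax (ha : ‖a‖ = 1) (x : X) : ax a x = ‖x - ⟪x, a⟫ • a‖ ^ 2 := by
  rw [norm_sub_sq_real, inner_smul_right, norm_smul, ha, ax, Real.norm_eq_abs, mul_one, sq_abs]
  ring

theorem b3log_ax0 (ha : ‖a‖ = 1) (x : X) : 0 ≤ ax a x := by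
  rw [b3log_ax ha]; positivity

theorem b3log_hin (a x : X) : HasFDerivAt (fun x : X => ⟪x, a⟫) (innerSL ℝ a) x := by
  have : (fun x : X => ⟪x, a⟫) = innerSL ℝ a := by
    ext y
    simp [real_inner_comm]
  rw [this]
  exact (innerSL ℝ a).hasFDerivAt

theorem b3log_hax (a x : X) :
    HasFDerivAt (ax a) ((2 : ℝ) • innerSL ℝ (x - ⟪x, a⟫ • a)) x := by
  have h1 := (hasStrictFDerivAt_norm_sq x).hasFDerivAt
  have h2 := (b3log_hin a x).mul (b3log_hin a x)
  have e1 : ax a = (fun x : X => ‖x‖ ^ 2) - (fun x : X => ⟪x, a⟫) * fun x : X => ⟪x, a⟫ := by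
    ext y
    simp [ax, sq]
  rw [e1]
  refine (h1.sub h2).congr_fderiv ?_
  ext c
  simp
  ring

/-- the cut-off -/
noncomputable def b3log_psi (a : X) (s L H : ℝ) (x : X) : ℝ :=
  pw 2 (Real.log (1 + ax a x / s ^ 2) / L) * pw 2 (⟪x, a⟫ ^ 2 / (4 * H) ^ 2)

theorem b3log_c1 (ha : ‖a‖ = 1) (s L H : ℝ) : ContDiff ℝ 1 (b3log_psi a s L H) := by
  have hin : ContDiff ℝ 1 fun x : X => ⟪x, a⟫ := contDiff_id.inner ℝ contDiff_const
  have hax : ContDiff ℝ 1 (ax a) := (contDiff_norm_sq ℝ).sub (hin.pow 2)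
  refine ((contDiff_pw 0).comp (((contDiff_const.add (hax.div_const _)).log
    fun x => ?_).div_const _)).mul ((contDiff_pw 0).comp ((hin.pow 2).div_const _))
  have := b3log_ax0 ha x
  positivity

theorem b3log_d (ha : ‖a‖ = 1) {s H : ℝ} (hs : 0 < s) (hH : 0 < H) {J : ℕ} (hJ : 1 ≤ J) (x : X) :
    (x ∉ cyl a (2 ^ J * s) (4 * H) →
      b3log_psi a s J H x = 0 ∧ fderiv ℝ (b3log_psi a s J H) x = 0) ∧
    (x ∈ cyl a (2 ^ J * s) (4 * H) →
      ‖fderiv ℝ (b3log_psi a s J H) x‖ ^ 2 ≤ 32 / J ^ 2 * (1 / (s ^ 2 + ax a x)) + 2 / H ^ 2) := by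
  have hJ' : (1 : ℝ) ≤ J := by exact_mod_cast hJ
  have h0 := b3log_ax0 ha x
  have hne : 1 + ax a x / s ^ 2 ≠ 0 := by positivity
  have d1 : HasDerivAt (fun t : ℝ => 1 + t / s ^ 2) (1 / s ^ 2) (ax a x) :=
    ((hasDerivAt_id _).div_const _).const_add 1
  have d2 := ((hasDerivAt_pw 0 _).comp _ ((d1.log hne).div_const (J : ℝ))).comp_hasFDerivAt x
    (b3log_hax a x)
  have d3 : HasDerivAt (fun t : ℝ => t ^ 2 / (4 * H) ^ 2) (2 * ⟪x, a⟫ / (4 * H) ^ 2) ⟪x, a⟫ := by
    simpa using (hasDerivAt_pow 2 ⟪x, a⟫).div_const ((4 * H) ^ 2)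
  have d4 := ((hasDerivAt_pw 0 _).comp _ d3).comp_hasFDerivAt x (b3log_hin a x)
  have d5 := (d2.mul d4).fderiv
  have e : b3log_psi a s J H = (((pw (0 + 2) ∘ fun t : ℝ => Real.log (1 + t / s ^ 2) / J) ∘ ax a) *
      ((pw (0 + 2) ∘ fun t : ℝ => t ^ 2 / (4 * H) ^ 2) ∘ fun x : X => ⟪x, a⟫)) := rfl
  rw [← e] at d5
  simp only [Function.comp] at d5
  set g1 := Real.log (1 + ax a x / s ^ 2) / J with hg1
  set g2 := ⟪x, a⟫ ^ 2 / (4 * H) ^ 2 with hg2
  have g10 : 0 ≤ g1 := div_nonneg (Real.log_nonneg (by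
    have : 0 ≤ ax a x / s ^ 2 := by positivity
    linarith)) (by positivity)
  have g20 : 0 ≤ g2 := by positivity
  constructor
  · intro hx
    have hc : 1 ≤ g1 ∨ 1 ≤ g2 := by
      by_contra hcon
      rw [not_or, not_le, not_le] at hcon
      refine hx ⟨?_, ?_⟩
      · have h1 := hcon.1
        rw [hg1, div_lt_one (by positivity), Real.log_lt_iff_lt_exp (by positivity)] at h1
        have h2 : Real.exp J ≤ 4 ^ J := by
          rw [← mul_one (J : ℝ), Real.exp_nat_mul]
          exact pow_le_pow_left₀ (by positivity) (by linarith [Real.exp_one_lt_d9]) J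
        have h3 : ax a x / s ^ 2 ≤ 4 ^ J := by linarith
        rw [div_le_iff₀ (by positivity)] at h3
        have h4 : (2 ^ J * s) ^ 2 = 4 ^ J * s ^ 2 := by
          rw [mul_pow, ← pow_mul, mul_comm J 2, pow_mul]; norm_num
        rw [h4]
        exact h3
      · have h1 := hcon.2
        rw [hg2, div_lt_one (by positivity)] at h1
        exact (abs_le_of_sq_le_sq' h1.le (by positivity) |> abs_le.2)
    rw [d5]
    unfold b3log_psi
    rw [← hg1, ← hg2]
    rcases hc with hc | hc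
    · have z1 := pw_zero 0 hc
      have z2 := pw_zero 1 hc
      simp only [zero_add] at z1 ⊢
      simp [z1, z2]
    · have z1 := pw_zero 0 hc
      have z2 := pw_zero 1 hc
      simp only [zero_add] at z1 ⊢
      simp [z1, z2]
  · intro hx
    rw [d5]
    set r := ‖x - ⟪x, a⟫ • a‖ with hr
    have hr2 : ax a x = r ^ 2 := b3log_ax ha x
    have hr0 : 0 ≤ r := norm_nonneg _
    have n1 : ‖pw (0 + 2) g1 • (-((((0 : ℕ) : ℝ) + 2) * pw (0 + 1) g2) *
        (2 * ⟪x, a⟫ / (4 * H) ^ 2)) • innerSL ℝ a‖ ≤ 1 / H := by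
      rw [norm_smul, norm_smul, innerSL_apply_norm, ha, mul_one, Real.norm_eq_abs,
        Real.norm_eq_abs, abs_mul, abs_neg, abs_of_nonneg (pw_nonneg _ _), abs_mul,
        abs_of_nonneg (pw_nonneg _ _), abs_div, abs_mul, abs_of_nonneg (sq_nonneg (4 * H))]
      have p1 := pw_le_one (0 + 2) g10
      have p2 := pw_le_one (0 + 1) g20
      have p3 := pw_nonneg (0 + 1) g2
      have p4 : |⟪x, a⟫| ≤ 4 * H := hx.2
      calc _ ≤ 1 * (|(((0 : ℕ) : ℝ) + 2)| * 1 * (|(2 : ℝ)| * (4 * H) / (4 * H) ^ 2)) := by gcongr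
        _ = 1 / H := by
          rw [abs_of_nonneg (by positivity), abs_of_nonneg (by positivity)]
          field_simp
          norm_num
    have n2 : ‖pw (0 + 2) g2 • (-((((0 : ℕ) : ℝ) + 2) * pw (0 + 1) g1) *
        (1 / s ^ 2 / (1 + ax a x / s ^ 2) / J)) • (2 : ℝ) • innerSL ℝ (x - ⟪x, a⟫ • a)‖ ≤
        4 * r / (J * (s ^ 2 + ax a x)) := by
      rw [norm_smul, norm_smul, norm_smul, innerSL_apply_norm, ← hr, Real.norm_eq_abs,
        Real.norm_eq_abs, Real.norm_eq_abs, abs_mul, abs_neg, abs_of_nonneg (pw_nonneg _ _),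
        abs_mul, abs_of_nonneg (pw_nonneg _ _),
        abs_of_nonneg (by positivity : 0 ≤ 1 / s ^ 2 / (1 + ax a x / s ^ 2) / J)]
      have p1 := pw_le_one (0 + 2) g20
      have p2 := pw_le_one (0 + 1) g10
      have p3 := pw_nonneg (0 + 1) g1
      calc _ ≤ 1 * (|(((0 : ℕ) : ℝ) + 2)| * 1 * (1 / s ^ 2 / (1 + ax a x / s ^ 2) / J) *
          (|(2 : ℝ)| * r)) := by gcongr
        _ = _ := by
          rw [abs_of_nonneg (by positivity), abs_of_nonneg (by positivity)]
          field_simp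
          push_cast
          ring
    have n3 := (norm_add_le _ _).trans (add_le_add n1 n2)
    refine (pow_le_pow_left₀ (norm_nonneg _) n3 2).trans ?_
    have n4 : (4 * r / (J * (s ^ 2 + ax a x))) ^ 2 ≤ 16 / J ^ 2 * (1 / (s ^ 2 + ax a x)) := by
      rw [div_pow, div_mul_div_comm, div_le_div_iff₀ (by positivity) (by positivity), hr2]
      have : 0 ≤ 16 * (J : ℝ) ^ 2 * (s ^ 2 + r ^ 2) * s ^ 2 := by positivity
      nlinarith
    have n5 : (2 : ℝ) / H ^ 2 = 2 * (1 / H) ^ 2 := by field_simp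
    have n6 : (32 : ℝ) / J ^ 2 * (1 / (s ^ 2 + ax a x)) =
      2 * (16 / J ^ 2 * (1 / (s ^ 2 + ax a x))) := by ring
    nlinarith [sq_nonneg (1 / H - 4 * r / (J * (s ^ 2 + ax a x)))]

theorem b3log_dy {s t : ℝ} (hs : 0 < s) (ht : 0 ≤ t) (J : ℕ) (h : t ≤ (2 ^ J * s) ^ 2) :
    1 / (s ^ 2 + t) ≤ ∑ j ∈ Finset.range (J + 1),
      if t ≤ (2 ^ j * s) ^ 2 then 4 / (2 ^ j * s) ^ 2 else 0 := by
  induction J with
  | zero =>
    rw [zero_add, Finset.range_one, Finset.sum_singleton, if_pos h, pow_zero, one_mul]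
    rw [div_le_div_iff₀ (by positivity) (by positivity)]
    nlinarith [sq_nonneg s]
  | succ J ih =>
    rw [Finset.sum_range_succ, if_pos h]
    by_cases hc : t ≤ (2 ^ J * s) ^ 2
    · have := ih hc
      have : 0 ≤ 4 / (2 ^ (J + 1) * s) ^ 2 := by positivity
      linarith
    · have h1 : 0 ≤ ∑ j ∈ Finset.range (J + 1),
          if t ≤ (2 ^ j * s) ^ 2 then 4 / (2 ^ j * s) ^ 2 else 0 :=
        Finset.sum_nonneg fun j _ => by split_ifs <;> positivity
      have h2 : 1 / (s ^ 2 + t) ≤ 4 / (2 ^ (J + 1) * s) ^ 2 := by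
        rw [div_le_div_iff₀ (by positivity) (by positivity)]
        have : (2 ^ (J + 1) * s) ^ 2 = 4 * (2 ^ J * s) ^ 2 := by ring
        nlinarith [sq_nonneg s]
      linarith

theorem b3log_low {s H : ℝ} (hs : 0 < s) (hH : 0 < H) {J : ℕ} (hJ : 2 ≤ J) (ha : ‖a‖ = 1) {x : X}
    (hx : x ∈ cyl a s (2 * H)) : 1 / 8 ≤ b3log_psi a s J H x := by
  have hJ' : (2 : ℝ) ≤ J := by exact_mod_cast hJ
  have h0 := b3log_ax0 ha x
  have h1 : Real.log (1 + ax a x / s ^ 2) / J ≤ 1 / 2 := by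
    have e1 : ax a x / s ^ 2 ≤ 1 := (div_le_one (by positivity)).2 hx.1
    have e2 := Real.log_le_sub_one_of_pos (by positivity : 0 < 1 + ax a x / s ^ 2)
    rw [div_le_iff₀ (by positivity)]
    linarith
  have h2 : ⟪x, a⟫ ^ 2 / (4 * H) ^ 2 ≤ 1 / 4 := by
    rw [div_le_iff₀ (by positivity), ← sq_abs]
    have := pow_le_pow_left₀ (abs_nonneg _) hx.2 2
    linarith
  have h3 : (1 / 2 : ℝ) ^ 2 ≤ pw 2 (Real.log (1 + ax a x / s ^ 2) / J) :=
    pow_le_pow_left₀ (by norm_num) (le_max_of_le_left (by linarith)) 2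
  have h4 : (3 / 4 : ℝ) ^ 2 ≤ pw 2 (⟪x, a⟫ ^ 2 / (4 * H) ^ 2) :=
    pow_le_pow_left₀ (by norm_num) (le_max_of_le_left (by linarith)) 2
  exact le_trans (by norm_num) (mul_le_mul h3 h4 (by norm_num) (pw_nonneg _ _))

theorem Cx.log_cut (h : Cx u a) {δ : ℝ} (hδ : 0 < δ) : ∃ N : ℝ, 1 ≤ N ∧ ∀ s : ℝ, 0 < s →
    ∃ t : ℝ, |t| ≤ N * s ∧ ∫ x in ball (t • a) s, rr u x * hs u x ≤ δ * s := by
  classical
  obtain ⟨C, hC, hv⟩ := h.vol_cyl
  have ha := h.unit
  obtain ⟨J, hJ⟩ := exists_nat_ge (max 2 (768 * 1032 * C / δ))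
  have hJ2' : (2 : ℝ) ≤ J := (le_max_left _ _).trans hJ
  have hJ2 : 2 ≤ J := by exact_mod_cast hJ2'
  have hJδ : 768 * 1032 * C ≤ J * δ := (div_le_iff₀ hδ).1 ((le_max_right _ _).trans hJ)
  have hN : (1 : ℝ) ≤ 2 ^ J := one_le_pow₀ (by norm_num)
  have hJN : (J : ℝ) ≤ 2 ^ J := by exact_mod_cast (Nat.lt_two_pow_self (n := J)).le
  refine ⟨(2 ^ J) ^ 2, by nlinarith, fun s hs0 => ?_⟩
  set H : ℝ := (2 ^ J) ^ 2 * s with hHd
  have hH : 0 < H := by positivity
  have hsH : s ≤ H := le_mul_of_one_le_left hs0.le (one_le_pow₀ hN)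
  have hρ : Continuous (rr u) := h.sm_r.continuous
  have hF : Continuous fun x => rr u x * hs u x := hρ.mul h.cont_hs
  have hF0 : ∀ x, 0 ≤ rr u x * hs u x := fun x => mul_nonneg (h.r_pos x).le (hs_nonneg u x)
  have hT : Tst (b3log_psi a s J H) := ⟨b3log_c1 ha _ _ _, HasCompactSupport.intro
    (isCompact_cyl ha (2 ^ J * s) (4 * H)) fun x hx =>
      ((b3log_d ha hs0 hH (by omega) x).1 hx).1⟩
  have hm : ∀ r K, MeasurableSet (cyl a r K) := fun r K => (isCompact_cyl ha r K).measurableSet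
  have hi : ∀ r K, Integrable ((cyl a r K).indicator (rr u)) := fun r K =>
    (integrable_indicator_iff (hm r K)).2
      (hρ.continuousOn.integrableOn_compact (isCompact_cyl ha r K))
  have hj : ∀ j, j ≤ J → ∫ x, (cyl a (2 ^ j * s) (4 * H)).indicator (rr u) x ≤
      C * (2 ^ j * s) ^ 2 * (4 * H) := fun j hj => by
    rw [integral_indicator (hm _ _)]
    refine hv _ _ (by positivity) ?_
    have : (2 : ℝ) ^ j ≤ 2 ^ J := pow_le_pow_right₀ (by norm_num) hj
    have : (2 : ℝ) ^ j * s ≤ H := by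
      rw [hHd]
      refine mul_le_mul_of_nonneg_right ?_ hs0.le
      nlinarith
    linarith
  have k1 : ∫ x, rr u x * ‖fderiv ℝ (b3log_psi a s J H) x‖ ^ 2 ≤
      ∫ x, ((∑ j ∈ Finset.range (J + 1), 128 / (J ^ 2 * (2 ^ j * s) ^ 2) *
        (cyl a (2 ^ j * s) (4 * H)).indicator (rr u) x) +
        2 / H ^ 2 * (cyl a (2 ^ J * s) (4 * H)).indicator (rr u) x) := by
    refine integral_mono_of_nonneg (Eventually.of_forall fun x => ?_)
      ((integrable_finsetSum _ fun j _ => (hi _ _).const_mul _).add ((hi _ _).const_mul _))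
      (Eventually.of_forall fun x => ?_)
    · exact mul_nonneg (h.r_pos x).le (sq_nonneg _)
    · have hp := (h.r_pos x).le
      by_cases hx : x ∈ cyl a (2 ^ J * s) (4 * H)
      · have b1 := (b3log_d ha hs0 hH (by omega) x).2 hx
        have b2 := b3log_dy hs0 (b3log_ax0 ha x) J hx.1
        have b3 : ∑ j ∈ Finset.range (J + 1), 128 / (J ^ 2 * (2 ^ j * s) ^ 2) *
            (cyl a (2 ^ j * s) (4 * H)).indicator (rr u) x = rr u x * (32 / J ^ 2 *
            ∑ j ∈ Finset.range (J + 1),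
              if ax a x ≤ (2 ^ j * s) ^ 2 then 4 / (2 ^ j * s) ^ 2 else 0) := by
          rw [Finset.mul_sum, Finset.mul_sum]
          refine Finset.sum_congr rfl fun j _ => ?_
          split_ifs with hc
          · rw [indicator_of_mem (show x ∈ cyl a (2 ^ j * s) (4 * H) from ⟨hc, hx.2⟩)]
            field_simp
            ring
          · rw [indicator_of_notMem fun hx' : x ∈ cyl a (2 ^ j * s) (4 * H) => hc hx'.1]
            simp
        simp only
        rw [b3, indicator_of_mem hx]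
        have b4 := mul_le_mul_of_nonneg_left b2 (by positivity : (0 : ℝ) ≤ 32 / J ^ 2)
        have b5 := mul_le_mul_of_nonneg_left (b1.trans (add_le_add b4 le_rfl)) hp
        linarith
      · simp only
        rw [((b3log_d ha hs0 hH (by omega) x).1 hx).2, norm_zero]
        have : ∀ r K, 0 ≤ (cyl a r K).indicator (rr u) x := fun r K =>
          indicator_nonneg (fun y _ => (h.r_pos y).le) x
        simp only [ne_eq, OfNat.ofNat_ne_zero, not_false_eq_true, zero_pow, mul_zero]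
        exact add_nonneg (Finset.sum_nonneg fun j _ => mul_nonneg (by positivity) (this _ _))
          (mul_nonneg (by positivity) (this _ _))
  rw [integral_add (integrable_finsetSum _ fun j _ => (hi _ _).const_mul _)
    ((hi _ _).const_mul _), integral_finsetSum _ fun j _ => (hi _ _).const_mul _,
    integral_const_mul] at k1
  have k2 : ∑ j ∈ Finset.range (J + 1), ∫ x, 128 / (J ^ 2 * (2 ^ j * s) ^ 2) *
      (cyl a (2 ^ j * s) (4 * H)).indicator (rr u) x ≤ 1024 * C * H / J := by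
    refine (Finset.sum_le_card_nsmul _ _ (512 * C * H / J ^ 2) fun j hj' => ?_).trans ?_
    · rw [integral_const_mul]
      refine (mul_le_mul_of_nonneg_left (hj j (by simpa [Nat.lt_succ_iff] using hj'))
        (by positivity)).trans (le_of_eq ?_)
      field_simp
      norm_num
    · rw [Finset.card_range, nsmul_eq_mul, ← mul_div_assoc,
        div_le_div_iff₀ (by positivity) (by positivity)]
      push_cast
      have : 0 ≤ C * H * J * (J - 1) := by
        have : (0 : ℝ) ≤ J - 1 := by linarith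
        positivity
      nlinarith
  have k3 : 2 / H ^ 2 * ∫ x, (cyl a (2 ^ J * s) (4 * H)).indicator (rr u) x ≤ 8 * C * H / J := by
    refine (mul_le_mul_of_nonneg_left (hj J le_rfl) (by positivity)).trans ?_
    have e : 2 / H ^ 2 * (C * (2 ^ J * s) ^ 2 * (4 * H)) = 8 * C * H / (2 ^ J) ^ 2 := by
      rw [hHd]
      field_simp
      norm_num
    rw [e]
    refine div_le_div_of_nonneg_left (by positivity) (by positivity) (by nlinarith)
  have k4 := h.curv hT
  have k5 : ∫ x in cyl a s (2 * H), rr u x * hs u x ≤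
      ∫ x, 64 * (rr u x * hs u x * b3log_psi a s J H x ^ 2) := by
    rw [← integral_indicator (hm _ _)]
    refine integral_mono_of_nonneg (Eventually.of_forall fun x => ?_) ?_
      (Eventually.of_forall fun x => ?_)
    · exact indicator_nonneg (fun y _ => hF0 y) x
    · refine ((hT.int (hF.mul hT.c1.continuous)).const_mul 64).congr
        (Eventually.of_forall fun x => ?_)
      simp only [Pi.mul_apply]
      ring
    · have := hF0 x
      by_cases hx : x ∈ cyl a s (2 * H)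
      · have b1 := pow_le_pow_left₀ (by norm_num) (b3log_low hs0 hH hJ2 ha hx) 2
        simp only [indicator_of_mem hx]
        nlinarith
      · simp only [indicator_of_notMem hx]
        positivity
  rw [integral_const_mul] at k5
  obtain ⟨t, ht, ht'⟩ := avg_axis ha hF hF0 hs0 hsH
  refine ⟨t, ht, le_of_mul_le_mul_left (ht'.trans ?_) hH⟩
  have k6 : ∫ x in cyl a s (2 * H), rr u x * hs u x ≤ 384 * (1032 * C * H / J) := by
    have : 1032 * C * H / J = 1024 * C * H / J + 8 * C * H / J := by ring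
    linarith
  refine (mul_le_mul_of_nonneg_left k6 (by positivity)).trans ?_
  have k7 : 2 * s * (384 * (1032 * C * H / J)) = H * s * (768 * 1032 * C / J) := by ring
  have k8 : 768 * 1032 * C / J ≤ δ := by
    rw [div_le_iff₀ (by positivity)]
    linarith
  rw [k7, mul_comm δ s, ← mul_assoc]
  exact mul_le_mul_of_nonneg_left k8 (by positivity)

end Vale.Agent.P134.B3
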