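import Vale.Agent.P134.B3Hh

/-! P134, block B3: bounds for the mass. -/

open Filter Topology MeasureTheory Set Metric
open scoped ContDiff RealInnerProductSpace NNReal Laplacian

namespace Vale.Agent.P134.B3

variable {u : X → ℝ} {a : X}

variable {w ρ : X → ℝ} {p : X → X} {β : X → ℝ} {S : Set X}

theorem b3mass_int {f : ℝ → ℝ} (k : List ℝ)
    (h : ∀ x, f x = ∑ i ∈ Finset.range 9, k.getD i 0 * x ^ i) (c d : ℝ) : ∫ x in c..d, f x =
      ∑ i ∈ Finset.range 9, k.getD i 0 * ((d ^ (i + 1) - c ^ (i + 1)) / (i + 1)) := by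
  rw [funext h, intervalIntegral.integral_finsetSum fun i _ =>
    (by fun_prop : Continuous fun x : ℝ => k.getD i 0 * x ^ i).intervalIntegrable _ _]
  simp only [intervalIntegral.integral_const_mul, integral_pow]

theorem b3mass_ii (c s t : ℝ) : IntervalIntegrable (fun t => kk (c + t ^ 2)) volume s t :=
  (contDiff_kk.continuous.comp (by fun_prop)).intervalIntegrable _ _

theorem b3mass_0 (c : ℝ) : 0 ≤ HH c 1 :=
  intervalIntegral.integral_nonneg zero_le_one fun _ _ => kk_nonneg _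

theorem b3mass_le {c : ℝ} (hc : 0 ≤ c) : HH c 1 ≤ 6 / om := by
  have := intervalIntegral.integral_mono_on zero_le_one (b3mass_ii c 0 1)
    (intervalIntegrable_const (c := 6 / om)) fun t _ => kk_le (by positivity)
  simpa [HH] using this

theorem b3mass_low {c : ℝ} (hc : c ≤ 1 / 4) : 3 / (4 * om) ≤ HH c 1 := by
  have h0 := om_pos
  have := intervalIntegral.integral_mono_on (show (0 : ℝ) ≤ 1 / 2 by norm_num)
    (intervalIntegrable_const (c := 6 / om * (1 / 2) ^ 2)) (b3mass_ii c 0 (1 / 2)) fun t ht =>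
      mul_le_mul_of_nonneg_left (pow_le_pow_left₀ (by norm_num)
        (le_max_of_le_left (by nlinarith [ht.1, ht.2])) 2) (by positivity)
  refine le_trans (le_of_eq ?_) (this.trans (HH_mono c (show (1 / 2 : ℝ) ≤ 1 by norm_num)))
  rw [intervalIntegral.integral_const, smul_eq_mul]
  field_simp
  norm_num

theorem b3mass_up {c : ℝ} (h0 : 0 ≤ c) (h1 : c ≤ 1) :
    HH c 1 ≤ 8 / (5 * om) * ((1 - c) ^ 2 + (1 - c) ^ 3) := by
  obtain ⟨b, b0, hb⟩ : ∃ b : ℝ, 0 ≤ b ∧ 1 - c = b ^ 2 :=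
    ⟨√(1 - c), Real.sqrt_nonneg _, (Real.sq_sqrt (by linarith)).symm⟩
  have b1 : b ≤ 1 := by nlinarith
  have e1 : ∫ t in b..1, kk (c + t ^ 2) = 0 := by
    rw [intervalIntegral.integral_congr (g := fun _ => 0) fun t ht => kk_zero (by
      rw [uIcc_of_le b1] at ht
      nlinarith [ht.1])]
    simp
  have e2 : ∫ t in (0 : ℝ)..b, kk (c + t ^ 2) = ∫ t in (0 : ℝ)..b, 6 / om * (b ^ 2 - t ^ 2) ^ 2 :=
    intervalIntegral.integral_congr fun t ht => by
      rw [uIcc_of_le b0] at ht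
      simp only [kk, pw]
      rw [max_eq_left (by nlinarith [ht.1, ht.2]), ← hb, sub_sub]
  rw [HH, ← intervalIntegral.integral_add_adjacent_intervals (b3mass_ii c 0 b) (b3mass_ii c b 1),
    e1, e2, intervalIntegral.integral_const_mul, hb,
    b3mass_int [b ^ 4, 0, -2 * b ^ 2, 0, 1] fun t => by simp [Finset.sum_range_succ]; ring]
  have h2 := mul_nonneg (mul_nonneg (inv_pos.2 om_pos).le (pow_nonneg b0 4)) (sq_nonneg (b - 1))
  simp only [div_eq_mul_inv, mul_inv]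
  norm_num [Finset.sum_range_succ]
  nlinarith

theorem b3mass_cake (hρ : Continuous ρ) {Θ η : ℝ}
    (hv : ∀ r : ℝ, 0 < r → r ≤ 1 → ∫ y in ball (0 : X) r, ρ y ≤ Θ * r ^ 3 + η) :
    ∫ y in ball (0 : X) 1, ((1 - ‖y‖ ^ 2) ^ 2 + (1 - ‖y‖ ^ 2) ^ 3) * ρ y ≤ 8 / 21 * Θ + 2 * η := by
  have hg : Continuous fun r : ℝ => 10 * r - 16 * r ^ 3 + 6 * r ^ 5 := by fun_prop
  have i1 : Integrable (Function.uncurry fun (y : X) (r : ℝ) => {z : X × ℝ | ‖z.1‖ < z.2}.indicator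
      (fun z => ρ z.1 * (10 * z.2 - 16 * z.2 ^ 3 + 6 * z.2 ^ 5)) (y, r))
      ((volume.restrict (ball (0 : X) 1)).prod (volume.restrict (Ioc (0 : ℝ) 1))) :=
    (Integrable.mul_prod (intOn_ball hρ 0 1) (hg.integrableOn_Icc.mono_set Ioc_subset_Icc_self)).indicator
      (isOpen_lt (by fun_prop) (by fun_prop)).measurableSet
  have e1 : ∀ y ∈ ball (0 : X) 1, ((1 - ‖y‖ ^ 2) ^ 2 + (1 - ‖y‖ ^ 2) ^ 3) * ρ y =
      ∫ r in Ioc (0 : ℝ) 1, {z : X × ℝ | ‖z.1‖ < z.2}.indicator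
        (fun z => ρ z.1 * (10 * z.2 - 16 * z.2 ^ 3 + 6 * z.2 ^ 5)) (y, r) := fun y hy => by
    rw [mem_ball_zero_iff] at hy
    refine Eq.trans ?_ (setIntegral_indicator (t := Ioi ‖y‖)
      (f := fun r => ρ y * (10 * r - 16 * r ^ 3 + 6 * r ^ 5)) measurableSet_Ioi).symm
    rw [Ioc_inter_Ioi, max_eq_right (norm_nonneg y), ← intervalIntegral.integral_of_le hy.le,
      intervalIntegral.integral_const_mul,
      b3mass_int [0, 10, 0, -16, 0, 6] fun t => by simp [Finset.sum_range_succ]; ring]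
    norm_num [Finset.sum_range_succ]
    ring
  have e2 : ∀ r ∈ Ioc (0 : ℝ) 1, ∫ y in ball (0 : X) 1, {z : X × ℝ | ‖z.1‖ < z.2}.indicator
      (fun z => ρ z.1 * (10 * z.2 - 16 * z.2 ^ 3 + 6 * z.2 ^ 5)) (y, r) ≤
      (Θ * r ^ 3 + η) * (10 * r - 16 * r ^ 3 + 6 * r ^ 5) := fun r hr => by
    have e : ∀ y : X, {z : X × ℝ | ‖z.1‖ < z.2}.indicator
        (fun z => ρ z.1 * (10 * z.2 - 16 * z.2 ^ 3 + 6 * z.2 ^ 5)) (y, r) = (ball (0 : X) r).indicator
        (fun y => ρ y * (10 * r - 16 * r ^ 3 + 6 * r ^ 5)) y := fun y => by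
      simp only [indicator, mem_ball_zero_iff, mem_ofPred_eq]
    simp only [e]
    rw [setIntegral_indicator measurableSet_ball, inter_eq_right.2 (ball_subset_ball hr.2),
      integral_mul_const]
    refine mul_le_mul_of_nonneg_right (hv r hr.1 hr.2) ?_
    have h1 : 0 ≤ 1 - r ^ 2 := by nlinarith [hr.1, hr.2]
    nlinarith [mul_nonneg hr.1.le h1, mul_nonneg hr.1.le (sq_nonneg (1 - r ^ 2))]
  rw [setIntegral_congr_fun measurableSet_ball e1, integral_integral_swap i1]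
  have hc : Continuous fun r : ℝ => (Θ * r ^ 3 + η) * (10 * r - 16 * r ^ 3 + 6 * r ^ 5) := by
    fun_prop
  refine (setIntegral_mono_on i1.integral_prod_right
    (hc.integrableOn_Icc.mono_set Ioc_subset_Icc_self) measurableSet_Ioc e2).trans (le_of_eq ?_)
  rw [← intervalIntegral.integral_of_le zero_le_one,
    b3mass_int [0, 10 * η, 0, -16 * η, 10 * Θ, 6 * η, -16 * Θ, 0, 6 * Θ] fun t => by
      simp [Finset.sum_range_succ]; ring]
  norm_num [Finset.sum_range_succ]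
  ring

theorem b3mass_c1 (h : Tri w ρ p) (hβ : Wt β S) : Continuous fun y => β (p y) * ρ y :=
  (hβ.c1.continuous.comp h.p1.continuous).mul h.rc

theorem b3mass_c2 (h : Tri w ρ p) (hβ : Wt β S) :
    Continuous fun y : X => HH (‖y‖ ^ 2) 1 * (β (p y) * ρ y) :=
  (continuous_HH.comp (f := fun y : X => (‖y‖ ^ 2, (1 : ℝ))) (by fun_prop)).mul (b3mass_c1 h hβ)

theorem b3mass_eq (ρ : X → ℝ) (p : X → X) (β : X → ℝ) :
    ms ρ p β = 2 * ∫ y in ball (0 : X) 1, HH (‖y‖ ^ 2) 1 * (β (p y) * ρ y) := by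
  rw [ms, setIntegral_eq_integral_of_forall_compl_eq_zero fun y hy => ?_]
  rw [mem_ball_zero_iff, not_lt] at hy
  rw [HH_off (one_le_pow₀ hy), zero_mul]

theorem b3mass_top (h : Tri w ρ p) (hβ : Wt β S) {G : X → ℝ} (hG : Continuous G)
    (hle : ∀ y : X, ‖y‖ < 1 → HH (‖y‖ ^ 2) 1 ≤ G y) :
    ms ρ p β ≤ 2 * ∫ y in ball (0 : X) 1, G y * ρ y := by
  rw [b3mass_eq]
  refine mul_le_mul_of_nonneg_left (setIntegral_mono_on (intOn_ball (b3mass_c2 h hβ) 0 1)
    (intOn_ball (hG.mul h.rc) 0 1) measurableSet_ball fun y hy => ?_) zero_le_two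
  have := hle y (mem_ball_zero_iff.1 hy)
  exact mul_le_mul this (mul_le_of_le_one_left (h.r0 y) (hβ.b1 _ (h.pl y)).1)
    (mul_nonneg (hβ.b0 _) (h.r0 y)) ((b3mass_0 _).trans this)

theorem ms_low (h : Tri w ρ p) (hβ : Wt β S) :
    3 / (2 * om) * ∫ y in ball (0 : X) (1 / 2), β (p y) * ρ y ≤ ms ρ p β := by
  have h1 := int_ball_mono (b3mass_c2 h hβ)
    (fun y => mul_nonneg (b3mass_0 _) (mul_nonneg (hβ.b0 _) (h.r0 y)))
    (y := 0) (z := 0) (r := 1 / 2) (s := 1) (by norm_num)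
  have h2 := setIntegral_mono_on (intOn_ball (continuous_const.mul (b3mass_c1 h hβ)) 0 (1 / 2))
    (intOn_ball (b3mass_c2 h hβ) 0 (1 / 2)) measurableSet_ball fun y hy =>
      mul_le_mul_of_nonneg_right (b3mass_low (c := ‖y‖ ^ 2) (by
        nlinarith [mem_ball_zero_iff.1 hy, norm_nonneg y])) (mul_nonneg (hβ.b0 _) (h.r0 y))
  simp only [Pi.mul_apply, integral_const_mul] at h2
  rw [b3mass_eq, show 3 / (2 * om) = 2 * (3 / (4 * om)) by ring, mul_assoc]
  linarith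

theorem ms_up (h : Tri w ρ p) (hβ : Wt β S) {Θ η : ℝ} (hΘ : 0 ≤ Θ) (hη : 0 ≤ η)
    (hv : ∀ r : ℝ, 0 < r → r ≤ 1 → ∫ y in ball (0 : X) r, ρ y ≤ Θ * r ^ 3 + η) :
    ms ρ p β ≤ (128 / 105 * Θ + 32 / 5 * η) / om := by
  have _ := hΘ
  have _ := hη
  have h0 := om_pos
  have h1 := b3mass_top h hβ (G := fun y => 8 / (5 * om) * ((1 - ‖y‖ ^ 2) ^ 2 + (1 - ‖y‖ ^ 2) ^ 3))
    (by fun_prop) fun y hy => b3mass_up (sq_nonneg _) (pow_le_one₀ (norm_nonneg y) hy.le)
  simp only [mul_assoc] at h1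
  rw [integral_const_mul] at h1
  refine h1.trans ((mul_le_mul_of_nonneg_left (mul_le_mul_of_nonneg_left
    (b3mass_cake h.rc hv) (by positivity)) zero_le_two).trans (le_of_eq ?_))
  field_simp
  ring

theorem ms_crude (h : Tri w ρ p) (hβ : Wt β S) :
    ms ρ p β ≤ 12 / om * ∫ y in ball (0 : X) 1, ρ y := by
  have h1 := b3mass_top h hβ (G := fun _ => 6 / om) continuous_const fun y _ =>
    b3mass_le (sq_nonneg _)
  rw [integral_const_mul] at h1
  exact h1.trans (le_of_eq (by ring))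

end Vale.Agent.P134.B3
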