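import Vale.Agent.P134.B3Bas
import Vale.Agent.P134.B3Ibp

/-! P134, block B3: the stress tensor tested with `f x • x`. -/

open Filter Topology MeasureTheory Set Metric
open scoped ContDiff RealInnerProductSpace NNReal Laplacian

namespace Vale.Agent.P134.B3

variable {u : X → ℝ} {a : X}

/-- the components of the stress tensor applied to `x` -/
noncomputable def b3str_g (u : X → ℝ) (i : Fin 4) (y : X) : ℝ :=
  (∑ j, y j * dv (ev j) u y) * dv (ev i) u y -
    ((∑ j, dv (ev j) u y * dv (ev j) u y) * 2⁻¹ + (1 - u y * u y) * (1 - u y * u y) * 4⁻¹) * y i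

theorem b3str_sm (hu : ContDiff ℝ ∞ u) (i : Fin 4) : ContDiff ℝ ∞ (b3str_g u i) := by
  have hU := smooth_dv hu
  have hc : ∀ j, ContDiff ℝ ∞ fun y : X => y j := fun j =>
    (EuclideanSpace.proj j : X →L[ℝ] ℝ).contDiff
  exact ((ContDiff.sum fun j _ => (hc j).mul (hU _)).mul (hU _)).sub
    ((((ContDiff.sum fun j _ => (hU _).mul (hU _)).mul contDiff_const).add
      (((contDiff_const.sub (hu.mul hu)).mul (contDiff_const.sub (hu.mul hu))).mul
        contDiff_const)).mul (hc i))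

theorem b3str_d (hu : ContDiff ℝ ∞ u) (i : Fin 4) (x c : X) : fderiv ℝ (b3str_g u i) x c =
    (∑ j, x j * dv (ev j) u x) * dv c (dv (ev i) u) x +
      dv (ev i) u x * (∑ j, (x j * dv c (dv (ev j) u) x + dv (ev j) u x * c j)) -
      (((∑ j, dv (ev j) u x * dv (ev j) u x) * 2⁻¹ + (1 - u x * u x) * (1 - u x * u x) * 4⁻¹) * c i +
        x i * ((∑ j, dv (ev j) u x * dv c (dv (ev j) u) x) + (u x ^ 3 - u x) * dv c u x)) := by
  have hU : ∀ j, HasFDerivAt (dv (ev j) u) (fderiv ℝ (dv (ev j) u) x) x := fun j =>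
    ((smooth_dv hu _).differentiable (by simp) x).hasFDerivAt
  have hc : ∀ j, HasFDerivAt (fun y : X => y j) (EuclideanSpace.proj j : X →L[ℝ] ℝ) x := fun j =>
    (EuclideanSpace.proj j : X →L[ℝ] ℝ).hasFDerivAt
  have h0 := (hu.differentiable (by simp) x).hasFDerivAt
  have h1 := (h0.fun_mul h0).const_sub 1
  have k := ((HasFDerivAt.fun_sum (u := Finset.univ) fun j _ => (hc j).fun_mul (hU j)).fun_mul
    (hU i)).fun_sub ((((HasFDerivAt.fun_sum (u := Finset.univ) fun j _ =>
      (hU j).fun_mul (hU j)).mul_const 2⁻¹).fun_add ((h1.fun_mul h1).mul_const 4⁻¹)).fun_mul (hc i))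
  rw [show fderiv ℝ (b3str_g u i) x = _ from k.fderiv]
  simp only [Fin.sum_univ_four, sub_apply, add_apply, smul_apply, neg_apply, smul_eq_mul, dv,
    PiLp.proj_apply]
  ring

theorem b3str_div (hu : Sol u) (x : X) :
    ∑ i, fderiv ℝ (b3str_g u i) x (ev i) = ‖fderiv ℝ u x‖ ^ 2 - 4 * en u x := by
  have h2 : ContDiffAt ℝ 2 u x := (hu.sm.of_le two_le_oo).contDiffAt
  have e := hu.eq x
  have s := fun i j : Fin 4 => dv_comm h2 (ev i) (ev j)
  rw [lap_eq h2, Fin.sum_univ_four] at e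
  simp only [b3str_d hu.sm, en, norm_sq_fderiv, Fin.sum_univ_four]
  rw [s 1 0, s 2 0, s 3 0, s 2 1, s 3 1, s 3 2, ← e]
  simp [ev]
  ring

theorem Cx.stress (h : Cx u a) {f : X → ℝ} (hf : Tst f) :
    ∫ x, rr u x * (fderiv ℝ f x (pp u x) * ⟪x, pp u x⟫ + f x * (1 - ss u x) -
      (2 - ss u x) / 2 * (fderiv ℝ f x x + 4 * f x)) = 0 := by
  have hu := h.nd.sol
  have g1 : ∀ i, ContDiff ℝ 1 (b3str_g u i) := fun i => (b3str_sm hu.sm i).of_le one_le_oo
  have i1 : ∀ i, Integrable fun x => f x * fderiv ℝ (b3str_g u i) x (ev i) := fun i => by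
    simpa only [mul_comm, dv] using hf.int (contDiff_dv (m := 0) (g1 i) (by simp) (ev i)).continuous
  have i2 : ∀ i, Integrable fun x => fderiv ℝ f x (ev i) * b3str_g u i x := fun i => by
    simpa only [mul_comm] using hf.int_d (g1 i).continuous (continuous_const (y := ev i))
  have e : ∀ x, rr u x * (fderiv ℝ f x (pp u x) * ⟪x, pp u x⟫ + f x * (1 - ss u x) -
      (2 - ss u x) / 2 * (fderiv ℝ f x x + 4 * f x)) =
      ∑ i, (f x * fderiv ℝ (b3str_g u i) x (ev i) + fderiv ℝ f x (ev i) * b3str_g u i x) := by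
    intro x
    have e1 : ∀ i, dv (ev i) u x = PP u x * pp u x i := fun i => by
      rw [dv, h.du, ev, EuclideanSpace.inner_single_right]
      simp
    have e2 : fderiv ℝ f x (pp u x) = _ := dv_eq_sum (pp u x) f x
    have e3 : fderiv ℝ f x x = _ := dv_eq_sum x f x
    have e4 : ⟪x, pp u x⟫ = ∑ i, x i * pp u x i := by simp [PiLp.inner_apply, mul_comm]
    have e5 : ss u x = 1 - ∑ i, pp u x i ^ 2 := by
      rw [ss_eq, EuclideanSpace.real_norm_sq_eq]
    have e6 : (1 - u x * u x) * (1 - u x * u x) = 2 * PP u x ^ 2 := by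
      have := rr_eq u x
      rw [rr] at this
      linarith
    rw [Finset.sum_add_distrib, ← Finset.mul_sum, b3str_div hu, h.en_eq, norm_sq_fderiv, e2, e3, e4,
      e5, rr]
    simp only [b3str_g, e1, e6, Fin.sum_univ_four]
    simp only [dv]
    ring
  simp only [e]
  rw [integral_finsetSum _ fun i _ => by exact (i1 i).add (i2 i)]
  refine Finset.sum_eq_zero fun i _ => ?_
  rw [integral_add (i1 i) (i2 i), ibp hf (g1 i), neg_add_cancel]

end Vale.Agent.P134.B3
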