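import Vale.Agent.P134.B3Weak
import Vale.Agent.P134.B3Str

/-! P134, block B3: the weighted curvature inequality. -/

open Filter Topology MeasureTheory Set Metric
open scoped ContDiff RealInnerProductSpace NNReal Laplacian

namespace Vale.Agent.P134.B3

variable {u : X → ℝ} {a : X}

theorem b3qa_mul {c x y K a b : ℝ} (hc : |c| ≤ K) (hx : |x| ≤ a) (hy : |y| ≤ b) :
    c * (x * y) ≤ K * (a * b) := by
  have h0 : 0 ≤ a := (abs_nonneg _).trans hx
  have hK : 0 ≤ K := (abs_nonneg _).trans hc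
  refine (le_abs_self _).trans ?_
  rw [abs_mul, abs_mul]
  exact mul_le_mul hc (mul_le_mul hx hy (abs_nonneg _) h0) (by positivity) hK

theorem b3qa_e1 {s q p2 A B Ap Bp τ T m : ℝ} (s0 : 0 ≤ s) (s1 : s ≤ 1)
    (qp : 0 ≤ q * p2 ∧ q * p2 ≤ 1) (p20 : 0 ≤ p2) (p21 : p2 ≤ 1) (hA : |A| ≤ m) (hB : |B| ≤ 2 * m)
    (hAp : |Ap| ≤ m) (hBp : |Bp| ≤ 2 * m) (hτ : |τ| ≤ T) :
    -3 * (q * p2) * (s * B) + 6 * ((1 - s / 2) * p2) * (s * A) +
      -6 * (q * p2) * (τ * Bp) + -6 * ((2 + s) * p2) * (τ * Ap) ≤ 120 * ((s + T) * m) := by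
  have sp : 0 ≤ s * p2 ∧ s * p2 ≤ p2 := ⟨by positivity, mul_le_of_le_one_left p20 s1⟩
  have hm : 0 ≤ m := (abs_nonneg _).trans hAp
  have hT : 0 ≤ T := (abs_nonneg _).trans hτ
  have hs : |s| ≤ s := (abs_of_nonneg s0).le
  have e1 := b3qa_mul (c := -3 * (q * p2)) (K := 3) (abs_le.2 ⟨by linarith, by linarith⟩) hs hB
  have e2 := b3qa_mul (c := 6 * ((1 - s / 2) * p2)) (K := 6)
    (abs_le.2 ⟨by linarith, by linarith⟩) hs hA
  have e3 := b3qa_mul (c := -6 * (q * p2)) (K := 6) (abs_le.2 ⟨by linarith, by linarith⟩) hτ hBp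
  have e4 := b3qa_mul (c := -6 * ((2 + s) * p2)) (K := 18)
    (abs_le.2 ⟨by linarith, by linarith⟩) hτ hAp
  linarith [mul_nonneg s0 hm, mul_nonneg hT hm]

theorem b3qa_e2 {s a b p1 ν ξ τ T : ℝ} (s0 : 0 ≤ s) (s1 : s ≤ 1) (a0 : 0 ≤ a) (a1 : a ≤ 1)
    (b0 : 0 ≤ b) (b1 : b ≤ 1) (p10 : 0 ≤ p1) (p11 : p1 ≤ 1) (hν : |ν| ≤ 1) (hξ : |ξ| ≤ 1)
    (h1 : |τ| ≤ 1) (hτ : |τ| ≤ T) :
    12 * (s * a) * (s * ν) + 6 * ((1 - s) * b) * (s * 1) + 24 * ((2 + s) * a) * (τ * τ) +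
      -48 * p1 * (τ * ξ) ≤ 120 * (s + T) := by
  have sa : 0 ≤ s * a ∧ s * a ≤ a := ⟨by positivity, mul_le_of_le_one_left a0 s1⟩
  have sb : 0 ≤ s * b ∧ s * b ≤ b := ⟨by positivity, mul_le_of_le_one_left b0 s1⟩
  have hs : |s| ≤ s := (abs_of_nonneg s0).le
  have e5 := b3qa_mul (c := 12 * (s * a)) (K := 12) (abs_le.2 ⟨by linarith, by linarith⟩) hs hν
  have e6 := b3qa_mul (c := 6 * ((1 - s) * b)) (K := 6) (y := 1) (b := 1)
    (abs_le.2 ⟨by linarith, by linarith⟩) hs (by simp)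
  have e7 := b3qa_mul (c := 24 * ((2 + s) * a)) (K := 72)
    (abs_le.2 ⟨by linarith, by linarith⟩) hτ h1
  have e8 := b3qa_mul (c := -48 * p1) (K := 48) (abs_le.2 ⟨by linarith, by linarith⟩) hτ hξ
  linarith

theorem b3qa_alg {s q p1 p2 A B Ap Bp t xa n i m : ℝ} (hi : 0 < i) (s0 : 0 ≤ s) (s1 : s ≤ 1)
    (q0 : 0 ≤ q) (q1 : q ≤ 1) (p10 : 0 ≤ p1) (p11 : p1 ≤ 1) (p20 : 0 ≤ p2) (p21 : p2 ≤ 1)
    (hA : |A * i| ≤ m) (hB : |B * i| ≤ 2 * m) (hAp : |Ap| ≤ m) (hBp : |Bp| ≤ 2 * m)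
    (ht : |t * i| ≤ 1) (hxa : |xa * i| ≤ 1) (hn : |n * i ^ 2| ≤ 1) :
    s / 2 * q * (-6 * i ^ 2 * p2) * B + (s ^ 2 / 2 - s) * (-6 * i ^ 2 * p2) * A +
      s ^ 2 / 2 * q * (24 * i ^ 4 * p1) * n - (s - s ^ 2) * q * (-6 * i ^ 2 * p2) +
      (Bp * q * (-6 * i ^ 2 * p2) + (2 + s) * Ap * (-6 * i ^ 2 * p2) +
        (2 + s) * q * (24 * i ^ 4 * p1) * t) * t - 2 * (24 * i ^ 4 * p1) * xa * t ≤
      120 * ((s + |t| * i) * (m * i + i ^ 2)) := by
  have qp2 : 0 ≤ q * p2 ∧ q * p2 ≤ 1 := ⟨by positivity, mul_le_one₀ q1 p20 p21⟩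
  have qp1 : 0 ≤ q * p1 ∧ q * p1 ≤ 1 := ⟨by positivity, mul_le_one₀ q1 p10 p11⟩
  have hτ : |t * i| ≤ |t| * i := by rw [abs_mul, abs_of_pos hi]
  have g1 := mul_le_mul_of_nonneg_right (b3qa_e1 s0 s1 qp2 p20 p21 hA hB hAp hBp hτ) hi.le
  have g2 := mul_le_mul_of_nonneg_right
    (b3qa_e2 s0 s1 qp1.1 qp1.2 qp2.1 qp2.2 p10 p11 hn hxa ht hτ) (pow_pos hi 2).le
  linarith

theorem b3qa_int (R : ℝ) {F : X → ℝ} (hF : Continuous F) (h0 : ∀ x, R ≤ ‖x‖ → F x = 0) :
    Integrable F :=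
  hF.integrable_of_hasCompactSupport <| HasCompactSupport.intro (isCompact_closedBall (0 : X) R)
    fun x hx => h0 x (by simpa using (not_le.1 fun h => hx (mem_closedBall_zero_iff.2 h)).le)

theorem b3qa_abs {R : ℝ} {ρ hs q s V η j j1 A B G Ap Bp t xa n Q : X → ℝ} (cρ : Continuous ρ)
    (chs : Continuous hs) (cq : Continuous q) (cs : Continuous s) (cV : Continuous V)
    (cη : Continuous η) (cj : Continuous j) (cj1 : Continuous j1) (cA : Continuous A)
    (cB : Continuous B) (cG : Continuous G) (cAp : Continuous Ap) (cBp : Continuous Bp)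
    (ct : Continuous t) (cxa : Continuous xa) (cn : Continuous n) (cQ : Continuous Q)
    (h0 : ∀ x, R ≤ ‖x‖ → η x = 0 ∧ j x = 0 ∧ j1 x = 0) (hρ : ∀ x, 0 ≤ ρ x)
    (hp : ∀ x, 0 ≤ V x * q x * s x * η x)
    (I1 : ∫ x, ρ x * (η x * G x + q x * (j x * B x)) =
      ∫ x, ρ x * (2 * hs x - 2 * V x * (1 - s x)) * (q x * η x))
    (I2 : ∫ x, ρ x * (η x * G x + s x * (j x * A x)) = ∫ x, ρ x * V x * q x * (s x * η x))
    (I3 : ∫ x, ρ x * (j x * A x) = ∫ x, ρ x * V x * q x * η x)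
    (I4 : ∫ x, ρ x * ((Bp x * q x * j x + (2 + s x) * Ap x * j x + (2 + s x) * q x * j1 x * t x) *
      t x + (2 + s x) * q x * j x * (1 - s x) - (2 - s x) / 2 * ((B x * q x * j x +
        (2 + s x) * A x * j x + (2 + s x) * q x * j1 x * n x) + 4 * ((2 + s x) * q x * j x))) = 0)
    (I5 : ∫ x, ((3 * j x + j1 x * n x) * (ρ x * q x) - j1 x * xa x * (ρ x * t x)) = 0)
    (hQ : ∀ x, ‖x‖ < R → s x / 2 * q x * j x * B x + (s x ^ 2 / 2 - s x) * j x * A x +
      s x ^ 2 / 2 * q x * j1 x * n x - (s x - s x ^ 2) * q x * j x +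
      (Bp x * q x * j x + (2 + s x) * Ap x * j x + (2 + s x) * q x * j1 x * t x) * t x -
      2 * j1 x * xa x * t x ≤ Q x) :
    2 * ∫ x, ρ x * hs x * q x * η x ≤ ∫ x in ball (0 : X) R, ρ x * Q x := by
  have i0 : Integrable fun x => 2 * (ρ x * hs x * q x * η x) :=
    b3qa_int R (by fun_prop) fun x hx => by simp [h0 x hx]
  have i1 : Integrable fun x => ρ x * (η x * G x + q x * (j x * B x)) :=
    b3qa_int R (by fun_prop) fun x hx => by simp [h0 x hx]
  have i1' : Integrable fun x => ρ x * (2 * hs x - 2 * V x * (1 - s x)) * (q x * η x) :=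
    b3qa_int R (by fun_prop) fun x hx => by simp [h0 x hx]
  have i2 : Integrable fun x => ρ x * (η x * G x + s x * (j x * A x)) :=
    b3qa_int R (by fun_prop) fun x hx => by simp [h0 x hx]
  have i2' : Integrable fun x => ρ x * V x * q x * (s x * η x) :=
    b3qa_int R (by fun_prop) fun x hx => by simp [h0 x hx]
  have i3 : Integrable fun x => ρ x * (j x * A x) :=
    b3qa_int R (by fun_prop) fun x hx => by simp [h0 x hx]
  have i3' : Integrable fun x => ρ x * V x * q x * η x :=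
    b3qa_int R (by fun_prop) fun x hx => by simp [h0 x hx]
  have i4 : Integrable fun x => ρ x * ((Bp x * q x * j x + (2 + s x) * Ap x * j x +
      (2 + s x) * q x * j1 x * t x) * t x + (2 + s x) * q x * j x * (1 - s x) - (2 - s x) / 2 *
      ((B x * q x * j x + (2 + s x) * A x * j x + (2 + s x) * q x * j1 x * n x) +
        4 * ((2 + s x) * q x * j x))) :=
    b3qa_int R (by fun_prop) fun x hx => by simp [h0 x hx]
  have i5 : Integrable fun x => (3 * j x + j1 x * n x) * (ρ x * q x) - j1 x * xa x * (ρ x * t x) :=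
    b3qa_int R (by fun_prop) fun x hx => by simp [h0 x hx]
  have i6 : Integrable ((ball (0 : X) R).indicator fun x => ρ x * Q x) :=
    (integrable_indicator_iff measurableSet_ball).2 (intOn_ball (cρ.mul cQ) 0 R)
  have key := integral_mono i0 (((((i6.sub i4).sub (i5.const_mul 2)).sub (i1.sub i1')).add
    (i2.sub i2')).sub ((i3.sub i3').const_mul 2)) fun x => by
      simp only [Pi.add_apply, Pi.sub_apply]
      by_cases hx : ‖x‖ < R
      · rw [indicator_of_mem (mem_ball_zero_iff.2 hx)]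
        have e1 := mul_le_mul_of_nonneg_left (hQ x hx) (hρ x)
        have e2 := mul_nonneg (hρ x) (hp x)
        linarith
      · rw [indicator_of_notMem fun h => hx (mem_ball_zero_iff.1 h)]
        simp [h0 x (not_lt.1 hx)]
  rw [integral_sub', integral_add', integral_sub', integral_sub', integral_sub', integral_sub',
    integral_sub'] at key
  · simp only [Pi.sub_apply] at key
    rw [integral_const_mul, integral_const_mul, integral_const_mul, integral_sub i3 i3',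
      integral_indicator measurableSet_ball, I1, I2, I3, I4, I5] at key
    linarith
  all_goals first
    | assumption
    | exact i5.const_mul 2
    | exact i6.sub i4
    | exact (i6.sub i4).sub (i5.const_mul 2)
    | exact i1.sub i1'
    | exact i2.sub i2'
    | exact ((i6.sub i4).sub (i5.const_mul 2)).sub (i1.sub i1')
    | exact (((i6.sub i4).sub (i5.const_mul 2)).sub (i1.sub i1')).add (i2.sub i2')
    | exact (i3.sub i3').const_mul 2

theorem b3qa_gd_mul {f g k : X → ℝ} (hg : Differentiable ℝ g) (hk : Differentiable ℝ k) (x : X) :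
    gd f (fun y => g y * k y) x = k x * gd f g x + g x * gd f k x := by
  simp only [gd, dv_mul (hg x) (hk x), Finset.mul_sum, ← Finset.sum_add_distrib]
  exact Finset.sum_congr rfl fun i _ => by ring

theorem b3qa_gd_rad {f k : X → ℝ} {x : X} {j : ℝ} (hk : ∀ c, fderiv ℝ k x c = j * ⟪x, c⟫) :
    gd f k x = j * fderiv ℝ f x x := by
  have h := dv_eq_sum x f x
  rw [dv] at h
  rw [h, gd, Finset.mul_sum]
  refine Finset.sum_congr rfl fun i _ => ?_
  rw [dv, dv, hk, ev, EuclideanSpace.inner_single_right]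
  simp only [conj_trivial, one_mul]
  ring

theorem b3qa_gd_comm (f g : X → ℝ) (x : X) : gd f g x = gd g f x := by
  simp only [gd, mul_comm]

theorem Cx.q_ineq (h : Cx u a) : ∃ C : ℝ, 0 < C ∧ ∀ R : ℝ, 0 < R →
    ∫ x, rr u x * hs u x * qq u a x * pw 3 (‖x - 0‖ ^ 2 / R ^ 2) ≤
      C * ∫ x in ball (0 : X) R, rr u x * (ss u x + |⟪x, pp u x⟫| / R) *
        (‖HM u x‖ / R + 1 / R ^ 2) := by
  refine ⟨60, by norm_num, fun R hR => ?_⟩
  have hi : 0 < R⁻¹ := inv_pos.2 hR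
  have cs1 : ContDiff ℝ 1 (ss u) := h.bas.sms.of_le one_le_oo
  have cq1 : ContDiff ℝ 1 (qq u a) := (h.sm_q a).of_le one_le_oo
  have ds : Differentiable ℝ (ss u) := cs1.differentiable one_ne_zero
  have dq : Differentiable ℝ (qq u a) := cq1.differentiable one_ne_zero
  have cp : Continuous (pp u) := h.sm_p.continuous
  have cM := h.cont_M
  have cDs : Continuous (fderiv ℝ (ss u)) := cs1.continuous_fderiv one_ne_zero
  have cDq : Continuous (fderiv ℝ (qq u a)) := cq1.continuous_fderiv one_ne_zero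
  have tη : Tst fun x : X => pw 3 (‖x - 0‖ ^ 2 / R ^ 2) := tst_pw 1 0 hR
  have t2 : Tst fun x : X => pw 2 (‖x - 0‖ ^ 2 / R ^ 2) := tst_pw 0 0 hR
  have tj : Tst fun x : X => -6 * R⁻¹ ^ 2 * pw 2 (‖x - 0‖ ^ 2 / R ^ 2) := t2.mul contDiff_const
  have dη := tη.c1.differentiable one_ne_zero
  have d2 := t2.c1.differentiable one_ne_zero
  have dj := tj.c1.differentiable one_ne_zero
  have Dη : ∀ x c : X, fderiv ℝ (fun x : X => pw 3 (‖x - 0‖ ^ 2 / R ^ 2)) x c =
      -6 * R⁻¹ ^ 2 * pw 2 (‖x - 0‖ ^ 2 / R ^ 2) * ⟪x, c⟫ := fun x c => by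
    have := fderiv_pw 1 0 R x c
    rw [this, sub_zero]
    push_cast
    ring
  have Dj : ∀ x c : X, fderiv ℝ (fun x : X => -6 * R⁻¹ ^ 2 * pw 2 (‖x - 0‖ ^ 2 / R ^ 2)) x c =
      24 * R⁻¹ ^ 4 * pw 1 (‖x - 0‖ ^ 2 / R ^ 2) * ⟪x, c⟫ := fun x c => by
    have := fderiv_pw 0 0 R x c
    have e := dv_const_mul (d2 x) (-6 * R⁻¹ ^ 2) c
    simp only [dv] at e
    rw [e, this, sub_zero]
    push_cast
    ring
  have c2s : ContDiff ℝ 1 fun x => (2 + ss u x) * qq u a x := (contDiff_const.add cs1).mul cq1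
  have tf := tj.mul c2s
  have Df : ∀ x c : X, fderiv ℝ (fun x : X => (2 + ss u x) * qq u a x *
      (-6 * R⁻¹ ^ 2 * pw 2 (‖x - 0‖ ^ 2 / R ^ 2))) x c =
      fderiv ℝ (ss u) x c * qq u a x * (-6 * R⁻¹ ^ 2 * pw 2 (‖x - 0‖ ^ 2 / R ^ 2)) +
      (2 + ss u x) * fderiv ℝ (qq u a) x c * (-6 * R⁻¹ ^ 2 * pw 2 (‖x - 0‖ ^ 2 / R ^ 2)) +
      (2 + ss u x) * qq u a x * (24 * R⁻¹ ^ 4 * pw 1 (‖x - 0‖ ^ 2 / R ^ 2)) * ⟪x, c⟫ :=
    fun x c => by
    have e1 := dv_mul (c2s.differentiable one_ne_zero x) (dj x) c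
    have e2 := dv_mul ((differentiableAt_const (2 : ℝ)).add (ds x)) (dq x) c
    have e3 := dv_add (differentiableAt_const (2 : ℝ)) (ds x) c
    rw [dv_const] at e3
    simp only [dv, Pi.add_def] at e1 e2 e3
    rw [e1, e2, e3, Dj]
    ring
  have cw : ContDiff ℝ 2 fun y => GG (u y) :=
    (contDiff_GG.comp h.nd.sol.sm).of_le two_le_oo
  have I1 := h.weak_s (tη.mul cq1)
  have I2 := h.weak_q a (tη.mul cs1)
  have I3 := h.weak_q a tη
  have I4 := h.stress tf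
  have I5 := curl_x tj cw a
  simp only [b3qa_gd_mul dq dη, b3qa_gd_rad (Dη _)] at I1
  simp only [b3qa_gd_mul ds dη, b3qa_gd_rad (Dη _), b3qa_gd_comm (qq u a) (ss u)] at I2
  simp only [b3qa_gd_rad (Dη _)] at I3
  simp only [Df, real_inner_self_eq_norm_sq] at I4
  simp only [Dj, h.dw, real_inner_self_eq_norm_sq, real_inner_comm _ (pp u _)] at I5
  have cpw := fun n => (continuous_pw n).comp
    (by fun_prop : Continuous fun x : X => ‖x - 0‖ ^ 2 / R ^ 2)
  have cG : Continuous (gd (ss u) (qq u a)) := by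
    unfold gd dv
    fun_prop
  have key := b3qa_abs (R := R) (xa := fun x => ⟪x, a⟫) (n := fun x => ‖x‖ ^ 2)
    (Q := fun x => 120 * ((ss u x + |⟪x, pp u x⟫| * R⁻¹) * (‖HM u x‖ * R⁻¹ + R⁻¹ ^ 2)))
    h.sm_r.continuous h.cont_hs cq1.continuous cs1.continuous h.bas.smV.continuous (cpw 3)
    (continuous_const.mul (cpw 2)) (continuous_const.mul (cpw 1)) (by fun_prop) (by fun_prop) cG
    (by fun_prop) (by fun_prop) (by fun_prop) (by fun_prop) (by fun_prop)
    (by have := cs1.continuous; fun_prop) ?_ (fun x => (h.r_pos x).le) ?_ I1 I2 I3 I4 ?_ ?_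
  · have e : ∫ x in ball (0 : X) R, rr u x * (120 * ((ss u x + |⟪x, pp u x⟫| * R⁻¹) *
        (‖HM u x‖ * R⁻¹ + R⁻¹ ^ 2))) = 120 * ∫ x in ball (0 : X) R, rr u x *
        (ss u x + |⟪x, pp u x⟫| / R) * (‖HM u x‖ / R + 1 / R ^ 2) := by
      rw [← integral_const_mul]
      exact integral_congr_ae (Eventually.of_forall fun x => by ring)
    simp only [Function.comp_def] at key
    linarith
  · intro x hx
    have : 1 ≤ ‖x - 0‖ ^ 2 / R ^ 2 := by
      rw [sub_zero, one_le_div (by positivity)]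
      gcongr
    simp only [Function.comp_def, Pi.mul_apply, pw_zero _ this, mul_zero, and_self]
  · intro x
    exact mul_nonneg (mul_nonneg (mul_nonneg (h.bas.V0 x) (h.q_pos x).le) (h.bas.s0 x))
      (pw_nonneg _ _)
  · simpa only [qq, real_inner_comm _ (pp u _), Function.comp_def, Pi.mul_apply] using I5
  · intro x hx
    have hz : 0 ≤ ‖x - 0‖ ^ 2 / R ^ 2 := by positivity
    have hx1 : ‖x‖ * R⁻¹ ≤ 1 := by rw [← div_eq_mul_inv, div_le_one hR]; exact hx.le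
    have hp := h.p_le x
    have hM : ∀ c, ‖HM u x c‖ ≤ ‖HM u x‖ * ‖c‖ := fun c => (HM u x).le_opNorm c
    have b1 : ∀ c, |fderiv ℝ (qq u a) x c| ≤ ‖HM u x‖ * ‖c‖ := fun c => by
      rw [h.dq]
      refine (abs_real_inner_le_norm _ _).trans ?_
      rw [h.unit, mul_one]; exact hM c
    have b2 : ∀ c, |fderiv ℝ (ss u) x c| ≤ 2 * ‖HM u x‖ * ‖c‖ := fun c => by
      rw [h.ds, abs_neg, abs_mul, abs_two, mul_assoc]
      refine mul_le_mul_of_nonneg_left ((abs_real_inner_le_norm _ _).trans ?_) two_pos.le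
      exact (mul_le_of_le_one_right (norm_nonneg _) hp).trans (hM c)
    have sc : ∀ {y K : ℝ}, 0 ≤ K → |y| ≤ K * ‖x‖ → |y * R⁻¹| ≤ K := fun {y K} hK hy => by
      rw [abs_mul, abs_of_pos hi]
      refine (mul_le_mul_of_nonneg_right hy hi.le).trans ?_
      rw [mul_assoc]; exact mul_le_of_le_one_right hK hx1
    refine b3qa_alg hi (h.bas.s0 x) (h.bas.s1 x) (h.q_pos x).le (h.q_le x) (pw_nonneg _ _)
      (pw_le_one _ hz) (pw_nonneg _ _) (pw_le_one _ hz) (sc (norm_nonneg _) (b1 x))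
      (sc (by positivity) (b2 x)) ((b1 _).trans (mul_le_of_le_one_right (norm_nonneg _) hp))
      ((b2 _).trans (mul_le_of_le_one_right (by positivity) hp)) (sc one_pos.le ?_)
      (sc one_pos.le ?_) ?_
    · rw [one_mul]
      exact (abs_real_inner_le_norm _ _).trans (mul_le_of_le_one_right (norm_nonneg _) hp)
    · refine (abs_real_inner_le_norm _ _).trans ?_
      rw [h.unit, mul_comm]
    · rw [← mul_pow, abs_of_nonneg (by positivity)]
      exact pow_le_one₀ (by positivity) hx1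

end Vale.Agent.P134.B3
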