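import Vale.Agent.P134.B3Bas
import Vale.Agent.P134.B3Ibp

/-! P134, block B3: the homotopy estimate. -/

open Filter Topology MeasureTheory Set Metric
open scoped ContDiff RealInnerProductSpace NNReal Laplacian

namespace Vale.Agent.P134.B3

variable {u : X → ℝ} {a : X}

theorem b3rep_sum (a b : X) : ∑ i, ⟪a, ev i⟫ * ⟪b, ev i⟫ = ⟪a, b⟫ := by
  simp only [ev_eq, real_inner_comm _ b]
  exact (EuclideanSpace.basisFun (Fin 4) ℝ).sum_inner_mul_inner a b

theorem b3rep_sum' (L : X →L[ℝ] ℝ) (a : X) : ∑ i, ⟪a, ev i⟫ * L (ev i) = L a := by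
  conv_rhs => rw [← (EuclideanSpace.basisFun (Fin 4) ℝ).sum_repr' a]
  simp only [map_sum, map_smul, smul_eq_mul, ev_eq, real_inner_comm a]

theorem Tri.curl_p {w ρ : X → ℝ} {p : X → X} (h : Tri w ρ p) {φ : X → ℝ} (hφ : Tst φ) (x : X) :
    |∫ y, ρ y * (fderiv ℝ φ y x * ‖p y‖ ^ 2 - fderiv ℝ φ y (p y) * ⟪x, p y⟫)| ≤
      5 * ‖x‖ * ∫ y, ρ y * |φ y| * ‖fderiv ℝ p y‖ := by
  have cp := h.p1.continuous
  have cρ := h.rc
  have cD := h.p1.continuous_fderiv one_ne_zero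
  have T := fun i => hφ.mul (h.p1.inner ℝ (contDiff_const (c := ev i)))
  have D : ∀ i y c, fderiv ℝ (fun y => ⟪p y, ev i⟫ * φ y) y c =
      ⟪p y, ev i⟫ * fderiv ℝ φ y c + φ y * ⟪fderiv ℝ p y c, ev i⟫ := fun i y c => by
    rw [(((h.p1.differentiable one_ne_zero y).hasFDerivAt.inner ℝ (hasFDerivAt_const (ev i) y)
      ).fun_mul (hφ.c1.differentiable one_ne_zero y).hasFDerivAt).fderiv]
    simp
  have I : ∀ i (b c : X), Integrable fun y =>
      fderiv ℝ (fun y => ⟪p y, ev i⟫ * φ y) y b * fderiv ℝ w y c := fun i b c => by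
    simpa only [mul_comm] using (T i).int_d (f := fun y => fderiv ℝ w y c) (c := fun _ => b)
      ((h.w2.continuous_fderiv (by simp)).clm_apply continuous_const) continuous_const
  have z : ∫ y, ∑ i, (fderiv ℝ (fun y => ⟪p y, ev i⟫ * φ y) y x * fderiv ℝ w y (ev i) -
      fderiv ℝ (fun y => ⟪p y, ev i⟫ * φ y) y (ev i) * fderiv ℝ w y x) = 0 := by
    refine (integral_finsetSum _ fun i _ => by exact (I i _ _).sub (I i _ _)).trans
      (Finset.sum_eq_zero fun i _ => ?_)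
    rw [integral_sub (I i _ _) (I i _ _), curl (T i) h.w2, sub_self]
  have e : ∀ y, ∑ i, (fderiv ℝ (fun y => ⟪p y, ev i⟫ * φ y) y x * fderiv ℝ w y (ev i) -
      fderiv ℝ (fun y => ⟪p y, ev i⟫ * φ y) y (ev i) * fderiv ℝ w y x) =
      ρ y * (fderiv ℝ φ y x * ‖p y‖ ^ 2 - fderiv ℝ φ y (p y) * ⟪x, p y⟫) +
      ρ y * (⟪fderiv ℝ p y x, p y⟫ - (∑ i, ⟪fderiv ℝ p y (ev i), ev i⟫) * ⟪x, p y⟫) * φ y :=
    fun y => by
    rw [← real_inner_self_eq_norm_sq, ← b3rep_sum (p y) (p y), ← b3rep_sum' _ (p y),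
      ← b3rep_sum (fderiv ℝ p y x)]
    simp only [D, h.dw, real_inner_comm x, Fin.sum_univ_four]
    ring
  have i2 : Integrable fun y => ρ y * (⟪fderiv ℝ p y x, p y⟫ -
      (∑ i, ⟪fderiv ℝ p y (ev i), ev i⟫) * ⟪x, p y⟫) * φ y := hφ.int (by fun_prop)
  have i1 : Integrable fun y =>
      ρ y * (fderiv ℝ φ y x * ‖p y‖ ^ 2 - fderiv ℝ φ y (p y) * ⟪x, p y⟫) := by
    refine ((hφ.int_d (f := fun y => ρ y * ‖p y‖ ^ 2) (c := fun _ => x) (by fun_prop)
      continuous_const).sub (hφ.int_d (f := fun y => ρ y * ⟪x, p y⟫) (by fun_prop) cp)).congr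
      (ae_of_all _ fun y => ?_)
    simp only [Pi.sub_apply]
    ring
  simp only [e] at z
  rw [integral_add i1 i2, add_eq_zero_iff_eq_neg] at z
  rw [z, abs_neg, ← integral_const_mul]
  refine abs_integral_le_integral_abs.trans (integral_mono i2.abs (Integrable.const_mul ?_ _)
    fun y => ?_)
  · refine (hφ.int (f := fun y => ρ y * ‖fderiv ℝ p y‖) (by fun_prop)).abs.congr
      (ae_of_all _ fun y => ?_)
    simp only [abs_mul, abs_of_nonneg (h.r0 y), abs_norm]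
    ring
  · have k1 : |⟪fderiv ℝ p y x, p y⟫| ≤ ‖fderiv ℝ p y‖ * ‖x‖ := (abs_real_inner_le_norm _ _).trans
      ((mul_le_of_le_one_right (norm_nonneg _) (h.pl y)).trans ((fderiv ℝ p y).le_opNorm x))
    have k2 : |∑ i, ⟪fderiv ℝ p y (ev i), ev i⟫| ≤ 4 * ‖fderiv ℝ p y‖ := by
      refine (Finset.abs_sum_le_sum_abs _ _).trans ((Finset.sum_le_card_nsmul _ _ ‖fderiv ℝ p y‖
        fun i _ => (abs_real_inner_le_norm _ _).trans ?_).trans (by simp))
      simpa only [norm_ev, mul_one] using (fderiv ℝ p y).le_opNorm (ev i)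
    have k3 : |⟪x, p y⟫| ≤ ‖x‖ := (abs_real_inner_le_norm _ _).trans
      (mul_le_of_le_one_right (norm_nonneg _) (h.pl y))
    have k4 := (abs_sub _ _).trans (add_le_add k1 ((abs_mul _ _).le.trans
      (mul_le_mul k2 k3 (abs_nonneg _) (by positivity))))
    have r := h.r0 y
    simp only [abs_mul, abs_of_nonneg r]
    calc _ ≤ ρ y * (‖fderiv ℝ p y‖ * ‖x‖ + 4 * ‖fderiv ℝ p y‖ * ‖x‖) * |φ y| := by gcongr
      _ = _ := by ring

theorem b3rep_alg {κ L D k1 k0 F a1 n xp yp τ m1 m2 d1 d2 : ℝ} (hL : 0 ≤ L) (hD : 0 ≤ D)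
    (h1 : |k1| ≤ κ) (h0 : |k0| ≤ κ) (hF : |F| ≤ L) (ha : |a1| ≤ L) (n0 : 0 ≤ n) (n1 : n ≤ 1)
    (hx : |xp| ≤ L) (t0 : |τ| ≤ 1) (hm1 : |m1| ≤ L * (D * L)) (hm2 : |m2| ≤ L * D)
    (hd1 : |d1| ≤ 3 * L * (D * L)) (hd2 : |d2| ≤ 3 * L * D) :
    |k1 * F * (2 * a1 * (1 - n) - 2 * yp * xp + 2 * τ * xp * (m1 * n - m2 * xp)) +
      k0 * (d1 * n - d2 * xp)| ≤ κ * (8 * L ^ 2 + 4 * L ^ 4) * (1 - n + |yp| + D) := by
  have κ0 := (abs_nonneg _).trans h1
  have hn : |n| ≤ 1 := by rwa [abs_of_nonneg n0]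
  have θ0 : 0 ≤ 1 - n := sub_nonneg.2 n1
  have y0 := abs_nonneg yp
  have e1 : |2 * a1 * (1 - n)| ≤ 2 * L * (1 - n) := by
    rw [abs_mul, abs_mul, abs_two, abs_of_nonneg θ0]; gcongr
  have e2 : |2 * yp * xp| ≤ 2 * |yp| * L := by rw [abs_mul, abs_mul, abs_two]; gcongr
  have e3 : |m1 * n - m2 * xp| ≤ L * (D * L) * 1 + L * D * L :=
    (abs_sub _ _).trans (by rw [abs_mul, abs_mul]; gcongr)
  have e4 : |2 * τ * xp * (m1 * n - m2 * xp)| ≤ 2 * 1 * L * (L * (D * L) * 1 + L * D * L) := by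
    rw [abs_mul, abs_mul, abs_mul, abs_two]; gcongr
  have e5 : |d1 * n - d2 * xp| ≤ 3 * L * (D * L) * 1 + 3 * L * D * L :=
    (abs_sub _ _).trans (by rw [abs_mul, abs_mul]; gcongr)
  have e6 := (abs_add_le _ _).trans (add_le_add ((abs_sub _ _).trans (add_le_add e1 e2)) e4)
  refine (abs_add_le _ _).trans ?_
  rw [abs_mul, abs_mul, abs_mul k0]
  calc _ ≤ κ * L * (2 * L * (1 - n) + 2 * |yp| * L + 2 * 1 * L * (L * (D * L) * 1 + L * D * L)) +
        κ * (3 * L * (D * L) * 1 + 3 * L * D * L) := by gcongr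
    _ = κ * (2 * L ^ 2 * (1 - n) + 2 * L ^ 2 * |yp| + (6 * L ^ 2 + 4 * L ^ 4) * D) := by ring
    _ ≤ κ * ((8 * L ^ 2 + 4 * L ^ 4) * (1 - n) + (8 * L ^ 2 + 4 * L ^ 4) * |yp| +
        (8 * L ^ 2 + 4 * L ^ 4) * D) := by
      have : 0 ≤ L ^ 2 := by positivity
      have : 0 ≤ L ^ 4 := by positivity
      gcongr <;> linarith
    _ = _ := by ring

/-- derivative of the kernel -/
noncomputable def b3rep_k (s : ℝ) : ℝ := 6 / om * -(2 * pw 1 s)

theorem b3rep_dk (s : ℝ) : HasDerivAt kk (b3rep_k s) s := by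
  exact ((hasDerivAt_pw 0 s).const_mul (6 / om)).congr_deriv (by simp [b3rep_k])

theorem b3rep_kb {s : ℝ} (hs : 0 ≤ s) : |b3rep_k s| ≤ 12 / om ∧ |kk s| ≤ 12 / om := by
  have o : 0 < 6 / om := div_pos (by norm_num) om_pos
  have e : 12 / om = 6 / om * 2 := by ring
  rw [b3rep_k, kk, abs_mul, abs_mul, abs_neg, abs_of_pos o, e,
    abs_of_nonneg (mul_nonneg zero_le_two (pw_nonneg 1 s)), abs_of_nonneg (pw_nonneg 2 s)]
  exact ⟨mul_le_mul_of_nonneg_left (by linarith [pw_le_one 1 hs]) o.le,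
    mul_le_mul_of_nonneg_left (by linarith [pw_le_one 2 hs]) o.le⟩

theorem b3rep_kz {s : ℝ} (hs : 1 ≤ s) : b3rep_k s = 0 ∧ kk s = 0 := by
  simp [b3rep_k, kk, pw_zero 0 hs, pw_zero 1 hs]

theorem b3rep_er {w ρ : X → ℝ} {p : X → X} (h : Tri w ρ p) {S : Set X} (hS : IsClosed S) (R C : ℝ)
    {f : X → ℝ} (h0 : ∀ y, 0 ≤ f y) (h1 : ∀ y, f y = 0 ∨ (‖y‖ < R ∧ p y ∈ S ∧
      f y ≤ C * (ρ y * (1 - ‖p y‖ ^ 2 + |⟪y, p y⟫| + ‖fderiv ℝ p y‖)))) (hC : 0 ≤ C) :
    ∫ y, f y ≤ C * Er ρ p S R := by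
  have cp := h.p1.continuous
  have cρ := h.rc
  have cD := h.p1.continuous_fderiv one_ne_zero
  have i : IntegrableOn (fun y => ρ y * (1 - ‖p y‖ ^ 2 + |⟪y, p y⟫| +
      S.indicator (fun _ => (1 : ℝ)) (p y) * ‖fderiv ℝ p y‖)) (ball 0 R) := by
    refine ((intOn_ball (F := fun y => ρ y * (1 - ‖p y‖ ^ 2 + |⟪y, p y⟫|)) (by fun_prop) 0 R).add
      ((intOn_ball (F := fun y => ρ y * ‖fderiv ℝ p y‖) (by fun_prop) 0 R).indicator
        (hS.preimage cp).measurableSet)).congr (ae_of_all _ fun y => ?_)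
    by_cases hy : p y ∈ S <;> simp [hy, mul_add]
  rw [Er, ← integral_indicator measurableSet_ball, ← integral_const_mul]
  refine integral_mono_of_nonneg (ae_of_all _ h0)
    (((integrable_indicator_iff measurableSet_ball).2 i).const_mul C) (ae_of_all _ fun y => ?_)
  rcases h1 y with e | ⟨e1, e2, e3⟩
  · refine e.le.trans (mul_nonneg hC (indicator_nonneg (fun z _ => mul_nonneg (h.r0 z) ?_) y))
    have k1 : ‖p z‖ ^ 2 ≤ 1 := pow_le_one₀ (norm_nonneg _) (h.pl z)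
    have k2 : 0 ≤ S.indicator (fun _ => (1 : ℝ)) (p z) := indicator_nonneg (fun _ _ => zero_le_one) _
    linarith [abs_nonneg ⟪z, p z⟫, mul_nonneg k2 (norm_nonneg (fderiv ℝ p z))]
  · simpa only [indicator_of_mem (mem_ball_zero_iff.2 e1), indicator_of_mem e2, one_mul] using e3

theorem b3rep_t {L : ℝ} (hL : 0 ≤ L) {w ρ : X → ℝ} {p : X → X} {β : X → ℝ} {S : Set X}
    (h : Tri w ρ p) (hβ : Wt β S) {x b : X} (hx : ‖x‖ ≤ L) (hb : ‖b‖ ≤ L) {t : ℝ}
    (ht : t ∈ Icc (0 : ℝ) 1) :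
    |∫ y in closedBall (0 : X) (L + 2), b3rep_k (‖t • x - y‖ ^ 2 + (1 - t ^ 2) * ⟪x, p y⟫ ^ 2) *
      (2 * ⟪t • x - y, x⟫ + -(2 * t) * ⟪x, p y⟫ ^ 2) * (⟪b, p y⟫ * (β (p y) * ρ y))| ≤
      (12 / om * (8 * L ^ 2 + 4 * L ^ 4) + 5 * L * (12 / om * L)) * Er ρ p S (L + 2) := by
  have cp := h.p1.continuous
  have cρ := h.rc
  have cβ := hβ.c1.continuous
  have ck : Continuous b3rep_k := continuous_const.mul (continuous_const.mul (continuous_pw 1)).neg
  have o : 0 ≤ 12 / om := (div_pos (by norm_num) om_pos).le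
  have τ0 : 0 ≤ 1 - t ^ 2 := by nlinarith [ht.1, ht.2]
  set g : X → ℝ := fun y => ‖t • x - y‖ ^ 2 + (1 - t ^ 2) * ⟪x, p y⟫ ^ 2 with hg
  have g0 : ∀ y, 0 ≤ g y := fun y => by positivity
  have g1 : ∀ y, g y < 1 → ‖t • x - y‖ ≤ 1 ∧ ‖y‖ < L + 2 := fun y hy => by
    have k1 : ‖t • x - y‖ ≤ 1 := abs_le_of_sq_le_sq' (by
      nlinarith [mul_nonneg τ0 (sq_nonneg ⟪x, p y⟫)]) zero_le_one |>.2
    have k2 : ‖t • x‖ ≤ L := by
      rw [norm_smul, Real.norm_of_nonneg ht.1]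
      nlinarith [norm_nonneg x, ht.1, ht.2]
    have k3 := norm_sub_le (t • x) (t • x - y)
    rw [sub_sub_cancel] at k3
    exact ⟨k1, by linarith⟩
  have g2 : ∀ y, y ∉ closedBall (0 : X) (L + 2) → 1 ≤ g y := fun y hy =>
    le_of_not_gt fun k => hy (mem_closedBall_zero_iff.2 (g1 y k).2.le)
  have cg : ContDiff ℝ 1 g := ((contDiff_const.sub contDiff_id).norm_sq ℝ).add
    (contDiff_const.mul ((contDiff_const.inner ℝ h.p1).pow 2))
  have TA : Tst fun y => kk (g y) * (⟪b, p y⟫ * β (p y)) :=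
    ⟨((contDiff_const.mul (contDiff_pw 0)).comp cg).mul
      ((contDiff_const.inner ℝ h.p1).mul (hβ.c1.comp h.p1)),
      HasCompactSupport.intro (isCompact_closedBall 0 (L + 2)) fun y hy => by
        rw [(b3rep_kz (g2 y hy)).2, zero_mul]⟩
  have DA : ∀ y c, fderiv ℝ (fun y => kk (g y) * (⟪b, p y⟫ * β (p y))) y c =
      b3rep_k (g y) * (⟪b, p y⟫ * β (p y)) *
        (-2 * ⟪t • x - y, c⟫ + 2 * (1 - t ^ 2) * ⟪x, p y⟫ * ⟪x, fderiv ℝ p y c⟫) +
      kk (g y) * (⟪b, p y⟫ * fderiv ℝ β (p y) (fderiv ℝ p y c) +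
        β (p y) * ⟪b, fderiv ℝ p y c⟫) := fun y c => by
    have dp := (h.p1.differentiable one_ne_zero y).hasFDerivAt
    have dg : HasFDerivAt g _ y := ((hasFDerivAt_id y).const_sub (t • x)).norm_sq.fun_add
      ((((hasFDerivAt_const x y).inner ℝ dp).pow 2).const_mul (1 - t ^ 2))
    have dd : HasFDerivAt (fun y => kk (g y) * (⟪b, p y⟫ * β (p y))) _ y :=
      ((b3rep_dk (g y)).comp_hasFDerivAt y dg).fun_mul (((hasFDerivAt_const b y).inner ℝ dp
      ).fun_mul ((hβ.c1.differentiable one_ne_zero (p y)).hasFDerivAt.comp y dp))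
    rw [dd.fderiv, inner_sub_left (t • x), real_inner_smul_left]
    simp
    ring
  have off : ∀ y, p y ∉ S → β (p y) = 0 ∧ fderiv ℝ β (p y) = 0 := fun y hy =>
    ⟨hβ.off _ hy, by
      rw [(show β =ᶠ[𝓝 (p y)] fun _ => 0 from
        (hβ.cl.isOpen_compl.eventually_mem hy).mono hβ.off).fderiv_eq, fderiv_const_apply]⟩
  have xp : ∀ (z : X) y, ‖z‖ ≤ L → |⟪z, p y⟫| ≤ L := fun z y hz => (abs_real_inner_le_norm _ _).trans
    ((mul_le_of_le_one_right (norm_nonneg _) (h.pl y)).trans hz)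
  have bF : ∀ y, |⟪b, p y⟫ * β (p y)| ≤ L := fun y => by
    rw [abs_mul, abs_of_nonneg (hβ.b0 _)]
    exact (mul_le_of_le_one_right (abs_nonneg _) (hβ.b1 _ (h.pl y)).1).trans (xp b y hb)
  have c1 := h.curl_p TA x
  have iQ : Integrable fun y => ρ y * (fderiv ℝ (fun y => kk (g y) * (⟪b, p y⟫ * β (p y))) y x *
      ‖p y‖ ^ 2 - fderiv ℝ (fun y => kk (g y) * (⟪b, p y⟫ * β (p y))) y (p y) * ⟪x, p y⟫) := by
    refine ((TA.int_d (f := fun y => ρ y * ‖p y‖ ^ 2) (c := fun _ => x) (by fun_prop)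
      continuous_const).sub (TA.int_d (f := fun y => ρ y * ⟪x, p y⟫) (by fun_prop) cp)).congr
      (ae_of_all _ fun y => ?_)
    simp only [Pi.sub_apply]
    ring
  have cg' := cg.continuous
  have iH : Integrable fun y => b3rep_k (g y) *
      (2 * ⟪t • x - y, x⟫ + -(2 * t) * ⟪x, p y⟫ ^ 2) * (⟪b, p y⟫ * (β (p y) * ρ y)) :=
    Continuous.integrable_of_hasCompactSupport (by fun_prop)
      (HasCompactSupport.intro (isCompact_closedBall 0 (L + 2)) fun y hy => by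
        rw [(b3rep_kz (g2 y hy)).1, zero_mul, zero_mul])
  have c2 := b3rep_er h hβ.cl (L + 2) (12 / om * L)
    (f := fun y => ρ y * |kk (g y) * (⟪b, p y⟫ * β (p y))| * ‖fderiv ℝ p y‖)
    (fun y => mul_nonneg (mul_nonneg (h.r0 y) (abs_nonneg _)) (norm_nonneg _)) (fun y => by
      by_cases k1 : 1 ≤ g y
      · exact Or.inl (by simp [(b3rep_kz k1).2])
      by_cases k2 : p y ∈ S
      · refine Or.inr ⟨(g1 y (not_le.1 k1)).2, k2, ?_⟩
        have k3 : ‖p y‖ ^ 2 ≤ 1 := pow_le_one₀ (norm_nonneg _) (h.pl y)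
        have k4 := (b3rep_kb (g0 y)).2
        have k5 := bF y
        have r := h.r0 y
        rw [abs_mul]
        calc _ ≤ ρ y * (12 / om * L) * (1 - ‖p y‖ ^ 2 + |⟪y, p y⟫| + ‖fderiv ℝ p y‖) := by
              gcongr
              linarith [abs_nonneg ⟪y, p y⟫]
          _ = _ := by ring
      · exact Or.inl (by simp [(off y k2).1])) (by positivity)
  have c3 := b3rep_er h hβ.cl (L + 2) (12 / om * (8 * L ^ 2 + 4 * L ^ 4))
    (f := fun y => |b3rep_k (g y) *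
      (2 * ⟪t • x - y, x⟫ + -(2 * t) * ⟪x, p y⟫ ^ 2) * (⟪b, p y⟫ * (β (p y) * ρ y)) +
      ρ y * (fderiv ℝ (fun y => kk (g y) * (⟪b, p y⟫ * β (p y))) y x * ‖p y‖ ^ 2 -
        fderiv ℝ (fun y => kk (g y) * (⟪b, p y⟫ * β (p y))) y (p y) * ⟪x, p y⟫)|)
    (fun y => abs_nonneg _) (fun y => by
      by_cases k1 : 1 ≤ g y
      · exact Or.inl (by simp [DA, b3rep_kz k1])
      by_cases k2 : p y ∈ S
      · obtain ⟨k3, k4⟩ := g1 y (not_le.1 k1)
        refine Or.inr ⟨k4, k2, ?_⟩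
        have n1 : ‖fderiv ℝ p y x‖ ≤ ‖fderiv ℝ p y‖ * L :=
          (fderiv ℝ p y).le_opNorm_of_le hx
        have n2 : ‖fderiv ℝ p y (p y)‖ ≤ ‖fderiv ℝ p y‖ := by
          simpa only [mul_one] using (fderiv ℝ p y).le_opNorm_of_le (h.pl y)
        have m : ∀ (z c : X) (r : ℝ), ‖z‖ ≤ L → ‖c‖ ≤ r → |⟪z, c⟫| ≤ L * r := fun z c r h1 h2 =>
          (abs_real_inner_le_norm _ _).trans (mul_le_mul h1 h2 (norm_nonneg _) hL)
        have d : ∀ (c : X) (r : ℝ), ‖c‖ ≤ r →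
            |⟪b, p y⟫ * fderiv ℝ β (p y) c + β (p y) * ⟪b, c⟫| ≤ 3 * L * r := fun c r hc => by
          obtain ⟨b1, b2⟩ := hβ.b1 _ (h.pl y)
          have b3 : |fderiv ℝ β (p y) c| ≤ 2 * r := (fderiv ℝ β (p y)).le_of_opNorm_le_of_le b2 hc
          have b4 := mul_le_mul (xp b y hb) b3 (abs_nonneg _) hL
          have b5 := mul_le_mul b1 (m b c r hb hc) (abs_nonneg _) zero_le_one
          refine (abs_add_le _ _).trans ?_
          rw [abs_mul, abs_mul, abs_of_nonneg (hβ.b0 _)]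
          linarith
        have k5 := b3rep_alg (yp := ⟪y, p y⟫) (τ := 1 - t ^ 2) hL (norm_nonneg (fderiv ℝ p y))
          (b3rep_kb (g0 y)).1 (b3rep_kb (g0 y)).2 (bF y) (a1 := ⟪t • x - y, x⟫)
          ((abs_real_inner_le_norm _ _).trans ((mul_le_of_le_one_left (norm_nonneg _) k3).trans hx))
          (sq_nonneg ‖p y‖) (pow_le_one₀ (norm_nonneg _) (h.pl y)) (xp x y hx)
          (by rw [abs_of_nonneg τ0]; nlinarith) (m x _ _ hx n1) (m x _ _ hx n2) (d _ _ n1) (d _ _ n2)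
        have k6 := mul_le_mul_of_nonneg_left k5 (h.r0 y)
        rw [← abs_of_nonneg (h.r0 y), ← abs_mul, abs_of_nonneg (h.r0 y), mul_left_comm (ρ y)] at k6
        refine le_of_eq_of_le (congrArg _ ?_) k6
        rw [DA, DA, inner_sub_left _ _ (p y), real_inner_smul_left]
        ring
      · exact Or.inl (by simp [DA, off y k2])) (by positivity)
  rw [setIntegral_eq_integral_of_forall_compl_eq_zero fun y hy => by
    rw [(b3rep_kz (g2 y hy)).1, zero_mul, zero_mul]]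
  have c4 := abs_integral_le_integral_abs.trans c3
  rw [integral_add iH iQ] at c4
  have c5 := c1.trans (mul_le_mul (show 5 * ‖x‖ ≤ 5 * L by linarith) c2 (integral_nonneg fun y =>
    mul_nonneg (mul_nonneg (h.r0 y) (abs_nonneg _)) (norm_nonneg _)) (by positivity))
  rw [abs_le] at c4 c5 ⊢
  constructor <;> linarith [c4.1, c4.2, c5.1, c5.2]

theorem rep {L : ℝ} (hL : 0 ≤ L) : ∃ C : ℝ, 0 ≤ C ∧ ∀ (w ρ : X → ℝ) (p : X → X) (β : X → ℝ)
    (S : Set X), Tri w ρ p → Wt β S → ∀ x b : X, ‖x‖ ≤ L → ‖b‖ ≤ L →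
    |(∫ y, kk (‖x - y‖ ^ 2) * (⟪b, p y⟫ * (β (p y) * ρ y))) -
      ∫ y, kk (‖y‖ ^ 2 + ⟪x, p y⟫ ^ 2) * (⟪b, p y⟫ * (β (p y) * ρ y))| ≤
      C * Er ρ p S (L + 2) := by
  have o := om_pos
  refine ⟨_, by positivity, fun w ρ p β S h hβ x b hx hb => le_of_eq_of_le ?_
    (norm_image_sub_le_of_norm_deriv_le_segment_01' (f := fun t => ∫ y in closedBall (0 : X) (L + 2),
      kk (‖t • x - y‖ ^ 2 + (1 - t ^ 2) * ⟪x, p y⟫ ^ 2) * (⟪b, p y⟫ * (β (p y) * ρ y)))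
      (fun t _ => HasDerivAt.hasDerivWithinAt ?_)
      fun t ht => b3rep_t hL h hβ hx hb (Ico_subset_Icc_self ht))⟩
  · rw [Real.norm_eq_abs, setIntegral_eq_integral_of_forall_compl_eq_zero,
      setIntegral_eq_integral_of_forall_compl_eq_zero]
    · simp
    · intro y hy
      have k := not_le.1 (mem_closedBall_zero_iff.not.1 hy)
      rw [(b3rep_kz _).2, zero_mul]
      simp only [zero_smul, zero_sub, norm_neg]
      nlinarith [sq_nonneg ⟪x, p y⟫]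
    · intro y hy
      have k := not_le.1 (mem_closedBall_zero_iff.not.1 hy)
      have k3 := norm_sub_le x (x - y)
      rw [sub_sub_cancel] at k3
      rw [(b3rep_kz _).2, zero_mul]
      simp only [one_smul]
      nlinarith
  · have cp := h.p1.continuous
    have cρ := h.rc
    have cβ := hβ.c1.continuous
    have ck : Continuous b3rep_k :=
      continuous_const.mul (continuous_const.mul (continuous_pw 1)).neg
    have ck0 : Continuous kk := continuous_const.mul (continuous_pw 2)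
    obtain ⟨M, hM⟩ := ((isCompact_closedBall t 1).prod (isCompact_closedBall (0 : X) (L + 2))
      ).exists_bound_of_continuousOn (f := fun q : ℝ × X =>
        b3rep_k (‖q.1 • x - q.2‖ ^ 2 + (1 - q.1 ^ 2) * ⟪x, p q.2⟫ ^ 2) *
        (2 * ⟪q.1 • x - q.2, x⟫ + -(2 * q.1) * ⟪x, p q.2⟫ ^ 2) *
          (⟪b, p q.2⟫ * (β (p q.2) * ρ q.2))) (Continuous.continuousOn (by fun_prop))
    refine (hasDerivAt_integral_of_dominated_loc_of_deriv_le (bound := fun _ => M)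
      (closedBall_mem_nhds t one_pos)
      (Eventually.of_forall fun s => Continuous.aestronglyMeasurable (by fun_prop))
      (ContinuousOn.integrableOn_compact (isCompact_closedBall _ _)
        (Continuous.continuousOn (by fun_prop)))
      (Continuous.aestronglyMeasurable (by fun_prop))
      ((ae_restrict_mem measurableSet_closedBall).mono fun y hy s hs => hM (s, y) ⟨hs, hy⟩)
      (integrableOn_const measure_closedBall_lt_top.ne) (ae_of_all _ fun y s _ => ?_)).2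
    have d1 : HasDerivAt (fun s : ℝ => ‖s • x - y‖ ^ 2 + (1 - s ^ 2) * ⟪x, p y⟫ ^ 2)
        (2 * ⟪s • x - y, x⟫ + -(2 * s) * ⟪x, p y⟫ ^ 2) s := by
      simpa using (((hasDerivAt_id s).smul_const x).sub_const y).norm_sq.fun_add
        (((hasDerivAt_pow 2 s).const_sub 1).mul_const (⟪x, p y⟫ ^ 2))
    exact ((b3rep_dk _).comp s d1).mul_const _

end Vale.Agent.P134.B3
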