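import Vale.Agent.P134.B3En
import Vale.Agent.P134.B3Lim0

/-! P134, block B3: rescaled data. -/

open Filter Topology MeasureTheory Set Metric
open scoped ContDiff RealInnerProductSpace NNReal Laplacian

namespace Vale.Agent.P134.B3

variable {u : X → ℝ} {a : X}

theorem b3sc_aff (y : X) (r : ℝ) : ContDiff ℝ ∞ fun x : X => y + r • x :=
  contDiff_const.add (contDiff_id.const_smul r)

theorem b3sc_fd {F : Type} [NormedAddCommGroup F] [NormedSpace ℝ F] {f : X → F}
    (hf : ContDiff ℝ ∞ f) (y : X) (r : ℝ) (x : X) :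
    fderiv ℝ (fun x => f (y + r • x)) x = r • fderiv ℝ f (y + r • x) := by
  have h1 : HasFDerivAt (fun x : X => y + r • x) (r • ContinuousLinearMap.id ℝ X) x :=
    ((hasFDerivAt_id x).const_smul r).const_add y
  have h2 := ((hf.differentiable (by simp) (y + r • x)).hasFDerivAt.comp x h1).fderiv
  rw [ContinuousLinearMap.comp_smul, ContinuousLinearMap.comp_id] at h2
  exact h2

theorem Cx.tri (h : Cx u a) (y : X) {r : ℝ} (hr : 0 < r) :
    Tri (wS u y r) (rS u y r) (pS u y r) where
  w2 := (contDiff_GG.comp (h.nd.sol.sm.comp (b3sc_aff y r))).of_le two_le_oo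
  rc := continuous_const.mul (h.sm_r.continuous.comp (b3sc_aff y r).continuous)
  r0 := fun _ => mul_nonneg hr.le (h.r_pos _).le
  p1 := (h.sm_p.comp (b3sc_aff y r)).of_le one_le_oo
  pl := fun _ => h.p_le _
  dw := fun x c => by
    have h1 : fderiv ℝ (wS u y r) x = r • fderiv ℝ (fun z => GG (u z)) (y + r • x) :=
      b3sc_fd (f := fun z => GG (u z)) (contDiff_GG.comp h.nd.sol.sm) y r x
    rw [h1, smul_apply, h.dw, smul_eq_mul, rS, pS, mul_assoc]
  wb := fun _ => abs_GG_le (h.nd.sol.bd _)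

theorem int_rS (F : X → ℝ) (y : X) {r : ℝ} (hr : 0 < r) (L : ℝ) :
    ∫ x in ball (0 : X) L, rS u y r x * F (y + r • x) =
      (r ^ 3)⁻¹ * ∫ x in ball y (r * L), rr u x * F x := by
  simp only [rS, mul_assoc]
  rw [integral_const_mul, int_scale (fun x => rr u x * F x) y hr L]
  field_simp

theorem Cx.er_eq (h : Cx u a) (y : X) {r : ℝ} (hr : 0 < r) {S : Set X} (hS : IsClosed S) (L : ℝ) :
    Er (rS u y r) (pS u y r) S L = (r ^ 3)⁻¹ * (∫ x in ball y (r * L), rr u x * ss u x) +
      (r ^ 4)⁻¹ * (∫ x in ball y (r * L), rr u x * |⟪x - y, pp u x⟫|) +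
      (r ^ 2)⁻¹ * ∫ x in ball y (r * L),
        rr u x * (S.indicator (fun _ => (1 : ℝ)) (pp u x) * ‖HM u x‖) := by
  have cr := h.sm_r.continuous
  have cp := h.sm_p.continuous
  have i1 : IntegrableOn (fun x => rr u x * ss u x) (ball y (r * L)) :=
    intOn_ball (cr.mul h.bas.sms.continuous) _ _
  have i2 : IntegrableOn (fun x => rr u x * |⟪x - y, pp u x⟫|) (ball y (r * L)) :=
    intOn_ball (cr.mul ((continuous_id.sub continuous_const).inner cp).abs) _ _
  have i3 : IntegrableOn (fun x => rr u x * (S.indicator (fun _ => (1 : ℝ)) (pp u x) * ‖HM u x‖))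
      (ball y (r * L)) := by
    refine Integrable.mono' (intOn_ball (F := fun x => rr u x * ‖HM u x‖)
      (cr.mul h.cont_M.norm) y (r * L))
      (cr.measurable.mul (((measurable_const.indicator hS.measurableSet).comp cp.measurable).mul
        h.cont_M.norm.measurable)).aestronglyMeasurable (Eventually.of_forall fun x => ?_)
    have r0 := (h.r_pos x).le
    by_cases hx : pp u x ∈ S
    · rw [indicator_of_mem hx, one_mul, Real.norm_of_nonneg (by positivity)]
    · rw [indicator_of_notMem hx, zero_mul, mul_zero, norm_zero]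
      positivity
  have e1 : Er (rS u y r) (pS u y r) S L = ∫ x in ball (0 : X) L, rS u y r x *
      (fun z => ss u z + r⁻¹ * |⟪z - y, pp u z⟫| +
        r * (S.indicator (fun _ => (1 : ℝ)) (pp u z) * ‖HM u z‖)) (y + r • x) := by
    refine integral_congr_ae (Eventually.of_forall fun x => ?_)
    have h1 : fderiv ℝ (pS u y r) x = r • HM u (y + r • x) := b3sc_fd h.sm_p y r x
    simp only [h1, pS, ss_eq, add_sub_cancel_left, real_inner_smul_left, abs_mul, norm_smul,
      Real.norm_eq_abs, abs_of_pos hr]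
    rw [inv_mul_cancel_left₀ hr.ne', mul_left_comm r]
  have e2 : ∀ z, rr u z * (ss u z + r⁻¹ * |⟪z - y, pp u z⟫| +
      r * (S.indicator (fun _ => (1 : ℝ)) (pp u z) * ‖HM u z‖)) =
      rr u z * ss u z + r⁻¹ * (rr u z * |⟪z - y, pp u z⟫|) +
        r * (rr u z * (S.indicator (fun _ => (1 : ℝ)) (pp u z) * ‖HM u z‖)) := fun z => by ring
  have i4 : IntegrableOn (fun x => rr u x * ss u x + r⁻¹ * (rr u x * |⟪x - y, pp u x⟫|))
      (ball y (r * L)) := i1.add (i2.const_mul _)
  refine (e1.trans (int_rS (u := u) (fun z => ss u z + r⁻¹ * |⟪z - y, pp u z⟫| +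
    r * (S.indicator (fun _ => (1 : ℝ)) (pp u z) * ‖HM u z‖)) y hr L)).trans ?_
  simp only [e2]
  rw [integral_add i4 (i3.const_mul _), integral_add i1 (i2.const_mul _),
    integral_const_mul, integral_const_mul]
  field_simp

/-- a rescaled sequence is admissible as soon as the errors vanish -/
theorem Cx.sq (h : Cx u a) {y : ℕ → X} {r : ℕ → ℝ} (hr : ∀ k, 0 < r k)
    (hr' : Tendsto r atTop atTop) {β : X → ℝ} {S : Set X} (hβ : Wt β S)
    (he : ∀ L : ℝ, 0 < L →
      Tendsto (fun k => Er (rS u (y k) (r k)) (pS u (y k) (r k)) S L) atTop (𝓝 0)) :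
    Sq (fun k => wS u (y k) (r k)) (fun k => rS u (y k) (r k)) (fun k => pS u (y k) (r k)) β S := by
  obtain ⟨C, C0, hC⟩ := h.vol
  refine ⟨fun k => h.tri _ (hr k), hβ, ⟨C, fun k L hL => ?_⟩, fun L => ?_, fun L => ?_⟩
  · have r0 := hr k
    have h1 := int_rS (u := u) (fun _ => 1) (y k) r0 L
    simp only [mul_one] at h1
    rw [h1]
    refine (mul_le_mul_of_nonneg_left (hC (y k) _ (by positivity)).1 (by positivity)).trans
      (le_of_eq ?_)
    field_simp
  · rcases lt_or_ge 0 L with hL | hL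
    · exact he L hL
    · simp only [Er, ball_eq_empty.2 hL, setIntegral_empty]
      exact tendsto_const_nhds
  · rcases lt_or_ge 0 L with hL | hL
    · have h1 : Tendsto (fun k => 2 * C * L ^ 3 * (r k)⁻¹) atTop (𝓝 0) := by
        simpa using (tendsto_inv_atTop_zero.comp hr').const_mul (2 * C * L ^ 3)
      refine squeeze_zero (fun k => integral_nonneg fun x => sub_nonneg.2 ((h.tri _ (hr k)).wb x))
        (fun k => ?_) h1
      have r0 := hr k
      have h2 : ∫ x in ball (y k) (r k * L), (s0 / 2 - |GG (u x)|) ≤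
          ∫ x in ball (y k) (r k * L), 2 * rr u x :=
        integral_mono (intOn_ball (continuous_const.sub
          (contDiff_GG.comp h.nd.sol.sm).continuous.abs) _ _)
          (intOn_ball (continuous_const.mul h.sm_r.continuous) _ _) fun x => by
            have := GG_gap (h.nd.sol.bd x)
            simp only [rr_eq]
            linarith
      rw [integral_const_mul] at h2
      have h3 := (hC (y k) _ (mul_pos r0 hL)).1
      refine (int_scale (fun x => s0 / 2 - |GG (u x)|) (y k) r0 L).trans_le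
        ((mul_le_mul_of_nonneg_left (h2.trans (mul_le_mul_of_nonneg_left h3 zero_le_two))
          (by positivity)).trans (le_of_eq ?_))
      field_simp
    · simp only [ball_eq_empty.2 hL, setIntegral_empty]
      exact tendsto_const_nhds

theorem b3sc_int {A σ : X → ℝ} (hA : Continuous A) (hσ : Sg σ) (R : ℝ) :
    IntegrableOn (fun x => |A x - s0 / 2 * σ x|) (ball (0 : X) R) := by
  have h1 : IntegrableOn σ (ball (0 : X) R) :=
    Integrable.mono' (intOn_ball (F := fun _ => (1 : ℝ)) continuous_const 0 R)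
      hσ.meas.1.aestronglyMeasurable (Eventually.of_forall hσ.meas.2.1)
  exact ((intOn_ball hA 0 R).sub (h1.const_mul _)).abs

/-- back to the original scale -/
theorem Cx.back (h : Cx u a) {y : ℕ → X} {r : ℕ → ℝ} (hr : ∀ k, 0 < r k)
    (hr' : Tendsto r atTop atTop) {σ : X → ℝ} (hσ : Sg σ) (hs : Cs (fun k => wS u (y k) (r k)) σ)
    (ht : ∀ L : ℝ, 0 < L → Tendsto (fun k => (r k ^ 4)⁻¹ *
      ∫ x in ball (0 : X) (r k * L), |GG (u (y k + x)) - GG (u x)|) atTop (𝓝 0)) :
    Cl (fun x => GG (u x)) σ := by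
  intro ε hε L0
  obtain ⟨L, hL, hf⟩ := hs (ε / 2) (half_pos hε)
  have L1 : 0 < L := one_pos.trans_le hL
  obtain ⟨k, k1, k2, k3⟩ := (hf.and_eventually (((hr'.atTop_mul_const L1).eventually_ge_atTop
    L0).and ((ht L L1).eventually_le_const (show 0 < ε / 2 * L ^ 4 by positivity)))).exists
  refine ⟨r k * L, k2, ?_⟩
  have r0 := hr k
  have cG : Continuous fun x => GG (u x) := (contDiff_GG.comp h.nd.sol.sm).continuous
  have cG' : Continuous fun x => GG (u (y k + x)) := cG.comp (continuous_const.add continuous_id)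
  have h1 := int_scale (fun x => |GG (u (y k + x)) - s0 / 2 * σ x|) 0 r0 L
  simp only [zero_add, hσ.meas.2.2 _ _ r0] at h1
  have h2 : (r k ^ 4)⁻¹ * ∫ x in ball (0 : X) (r k * L), |GG (u (y k + x)) - s0 / 2 * σ x| ≤
      ε / 2 * L ^ 4 := h1 ▸ k1
  have i1 := intOn_ball (F := fun x => |GG (u (y k + x)) - GG (u x)|) (cG'.sub cG).abs 0 (r k * L)
  have i2 := b3sc_int cG' hσ (r k * L)
  have h3 : ∫ x in ball (0 : X) (r k * L), |GG (u x) - s0 / 2 * σ x| ≤
      ∫ x in ball (0 : X) (r k * L),
        (|GG (u (y k + x)) - GG (u x)| + |GG (u (y k + x)) - s0 / 2 * σ x|) :=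
    integral_mono (b3sc_int cG hσ _) (i1.add i2) fun x => by
      have := abs_sub_le (GG (u x)) (GG (u (y k + x))) (s0 / 2 * σ x)
      rwa [abs_sub_comm (GG (u x)) (GG (u (y k + x)))] at this
  rw [integral_add i1 i2] at h3
  rw [inv_mul_le_iff₀ (by positivity)] at h2 k3
  rw [mul_pow]
  linarith

end Vale.Agent.P134.B3
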