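import Vale.Agent.P134.B3C1
import Vale.Agent.P134.B3C2
import Vale.Agent.P134.B3Fin

/-! P134, block B3: the result of the block. -/

open Filter Topology MeasureTheory Set Metric
open scoped ContDiff RealInnerProductSpace NNReal Laplacian

namespace Vale.Agent.P134.B3

variable {u : X → ℝ} {a : X}

theorem Cx.flt (h : Cx u a) : Flt u := by
  by_cases H : ∀ δ : ℝ, 0 < δ → ∃ R0 : ℝ, ∀ R, R0 ≤ R →
      ∫ x in ball (0 : X) R, rr u x * qq u a x ≤ δ * R ^ 3
  · obtain ⟨σ, h1, h2⟩ := h.case2 H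
    exact h.fin h1 h2
  · push Not at H
    obtain ⟨δ, hδ, H⟩ := H
    obtain ⟨σ, h1, h2⟩ := h.case1 hδ fun R0 => (H R0).imp fun R hR => ⟨hR.1, hR.2.le⟩
    exact h.fin h1 h2

end Vale.Agent.P134.B3
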