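import Vale.Agent.P134.B3Av
import Vale.Agent.P134.B3Mass
import Vale.Agent.P134.B3Lim0

/-! P134, block B3: limits along an ultrafilter. -/

open Filter Topology MeasureTheory Set Metric
open scoped ContDiff RealInnerProductSpace NNReal Laplacian

namespace Vale.Agent.P134.B3

variable {u : X → ℝ} {a : X}

theorem b3ult0_lim (U : Ultrafilter ℕ) {f : ℕ → ℝ} {b : ℝ} (h : ∀ k, |f k| ≤ b) :
    ∃ c, Tendsto f U (𝓝 c) := by
  obtain ⟨c, -, hc⟩ := (isCompact_Icc (a := -b) (b := b)).ultrafilter_le_nhds (U.map f)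
    (le_principal_iff.2 (mem_map.2 (Eventually.of_forall fun k => abs_le.1 (h k))))
  exact ⟨c, hc⟩

theorem b3ult0_cont {f : X → ℝ} {C : ℝ} (h : ∀ x x', |f x - f x'| ≤ C * ‖x - x'‖) :
    Continuous f :=
  (LipschitzWith.of_dist_le' (K := C) fun x x' => by simpa [dist_eq_norm] using h x x').continuous

theorem b3ult0_lip {l : Filter ℕ} [l.NeBot] {F : ℕ → X → ℝ} {f : X → ℝ} {C : ℝ}
    (h : ∀ k x x', |F k x - F k x'| ≤ C * ‖x - x'‖) (hf : ∀ x, Tendsto (fun k => F k x) l (𝓝 (f x)))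
    (x x' : X) : |f x - f x'| ≤ C * ‖x - x'‖ :=
  le_of_tendsto' ((hf x).sub (hf x')).abs fun k => h k x x'

theorem b3ult0_int {f : X → ℝ} (h : Continuous f) (L : ℝ) : IntegrableOn f (ball (0 : X) L) :=
  (h.continuousOn.integrableOn_compact (isCompact_closedBall 0 L)).mono_set ball_subset_closedBall

theorem b3ult0_unif {l : Filter ℕ} [l.NeBot] {F : ℕ → X → ℝ} {f : X → ℝ} {C : ℝ} (hC : 0 ≤ C)
    (h : ∀ k x x', |F k x - F k x'| ≤ C * ‖x - x'‖) (hf : ∀ x, Tendsto (fun k => F k x) l (𝓝 (f x)))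
    (L : ℝ) : Tendsto (fun k => ∫ x in ball (0 : X) L, |f x - F k x|) l (𝓝 0) := by
  have hV : 0 ≤ volume.real (ball (0 : X) L) := measureReal_nonneg
  rw [Metric.tendsto_nhds]
  intro ε hε
  obtain ⟨e, he, h1⟩ : ∃ e : ℝ, 0 < e ∧ (2 * C + 1) * e * volume.real (ball (0 : X) L) < ε :=
    ⟨ε / ((2 * C + 1) * volume.real (ball (0 : X) L) + 1), by positivity, by
      rw [mul_right_comm, mul_div_assoc', div_lt_iff₀ (by positivity)]; nlinarith⟩
  obtain ⟨t, -, ht, hc⟩ := finite_cover_balls_of_compact (isCompact_closedBall (0 : X) L) he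
  filter_upwards [(eventually_all_finite ht).2 fun y _ => Metric.tendsto_nhds.1 (hf y) e he] with k hk
  rw [dist_zero_right]
  refine (norm_setIntegral_le_of_norm_le_const measure_ball_lt_top fun x hx => ?_).trans_lt h1
  obtain ⟨y, hy, hxy⟩ := mem_iUnion₂.1 (hc (ball_subset_closedBall hx))
  have a1 := abs_le.1 (b3ult0_lip h hf x y)
  have a2 := abs_le.1 (h k x y)
  have a3 := abs_lt.1 (Real.dist_eq _ _ ▸ hk y hy)
  have a4 : C * ‖x - y‖ ≤ C * e := mul_le_mul_of_nonneg_left (mem_ball_iff_norm.1 hxy).le hC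
  rw [Real.norm_eq_abs, abs_abs, abs_le]
  constructor <;> linarith [a1.1, a1.2, a2.1, a2.2, a3.1, a3.2]

theorem Sq.ult {w ρ : ℕ → X → ℝ} {p : ℕ → X → X} {β : X → ℝ} {S : Set X} (h : Sq w ρ p β S) :
    ∃ (U : Ultrafilter ℕ) (A g : X → ℝ) (m : ℝ), (U : Filter ℕ) ≤ atTop ∧ Prof A g m ∧
      (∀ x, Tendsto (fun k => Av (w k) x) U (𝓝 (A x))) ∧
      (∀ x, Tendsto (fun k => hh (ρ k) (p k) β x) U (𝓝 (g x))) ∧
      Tendsto (fun k => ms (ρ k) (p k) β) U (𝓝 m) ∧ ∀ σ, Sg σ → Cl A σ → Cs w σ := by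
  let U : Ultrafilter ℕ := Ultrafilter.of atTop
  have hU : (U : Filter ℕ) ≤ atTop := Ultrafilter.of_le _
  obtain ⟨C, hC⟩ := h.vol
  obtain ⟨K, hK, hL⟩ := Av_lip
  have om0 := om_pos
  have v1 : ∀ k, ∫ x in ball (0 : X) 1, ρ k x ≤ C := fun k => by simpa using hC k 1 le_rfl
  have C0 : 0 ≤ C := (integral_nonneg (h.tri 0).r0).trans (v1 0)
  have m1 : ∀ k, ms (ρ k) (p k) β ≤ 12 / om * C := fun k =>
    (ms_crude (h.tri k) h.wt).trans (mul_le_mul_of_nonneg_left (v1 k) (by positivity))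
  have m2 := fun k => hh_mem (h.tri k) h.wt
  choose A hA using fun x => b3ult0_lim U fun k => Av_abs (h.tri k) x
  choose g hg using fun x => b3ult0_lim U (f := fun k => hh (ρ k) (p k) β x) (b := 12 / om * C)
    fun k => abs_le.2 ⟨by linarith [m2 k x, m1 k], by linarith [m2 k x, m1 k]⟩
  obtain ⟨m, hm⟩ := b3ult0_lim U (f := fun k => ms (ρ k) (p k) β) (b := 12 / om * C)
    fun k => abs_le.2 ⟨by linarith [m2 k 0, m1 k], m1 k⟩
  have lA := fun k => hL _ _ _ (h.tri k)
  have cA : Continuous A := b3ult0_cont (b3ult0_lip lA hA)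
  have cV : ∀ k, Continuous (Av (w k)) := fun k => b3ult0_cont (lA k)
  have cw : ∀ k, Continuous (w k) := fun k => (h.tri k).w2.continuous
  have bA : ∀ x, |A x| ≤ s0 / 2 := fun x => le_of_tendsto' (hA x).abs fun k => Av_abs (h.tri k) x
  have er : ∀ k (L : ℝ), 1 ≤ L → ∫ x in ball (0 : X) L, |Av (w k) x - w k x| ≤ 8 * C * L ^ 3 :=
    fun k L h1 => ((Av_err (h.tri k) L).trans (hC k _ (by linarith))).trans (by
      have : (L + 1) ^ 3 ≤ (2 * L) ^ 3 := by gcongr; linarith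
      nlinarith)
  have i1 := fun k L => b3ult0_int (f := fun x => |A x - Av (w k) x|) (cA.sub (cV k)).abs L
  have i2 := fun k L => b3ult0_int (f := fun x => |Av (w k) x - w k x|) ((cV k).sub (cw k)).abs L
  have i0 : ∀ k L, IntegrableOn (fun x => |A x - Av (w k) x| + |Av (w k) x - w k x|)
      (ball (0 : X) L) := fun k L => (i1 k L).add (i2 k L)
  have od' : ∀ x, Tendsto (fun k => od (hh (ρ k) (p k) β) x) U (𝓝 (od g x)) :=
    fun x => (hg x).sub (hg (-x))
  refine ⟨U, A, g, m, hU, ⟨cA, b3ult0_cont (C := 6 / om * C) (b3ult0_lip (fun k x x' =>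
    (hh_lip (h.tri k) h.wt x x').trans (by have := v1 k; gcongr)) hg), bA,
    ⟨8 * C, fun L h1 => ?_⟩, fun x => ⟨ge_of_tendsto' (hg x) fun k => (m2 k x).1,
      le_of_tendsto_of_tendsto' (hg x) (hm.div_const 2) fun k => (m2 k x).2⟩,
    fun x s t hs hst => le_of_tendsto_of_tendsto' (hg _) (hg _) fun k =>
      hh_mono (h.tri k) h.wt x hs hst,
    fun x y z hz => le_of_tendsto_of_tendsto' (((((od' x).sub (od' z)).abs.add
      ((od' z).sub (od' y)).abs)).add ((od' y).add (od' x)).abs) hm fun k =>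
        hh_tv (h.tri k) h.wt x y z hz⟩, hA, hg, hm, fun σ hσ hc ε hε => ?_⟩
  · have t := ((b3ult0_unif hK lA hA L).add_const (8 * C * L ^ 3)).add ((h.two L).mono_left hU)
    rw [zero_add, add_zero] at t
    refine ge_of_tendsto' t fun k => ?_
    have i3 := b3ult0_int (f := fun x => s0 / 2 - |w k x|) (continuous_const.sub (cw k).abs) L
    refine le_trans ?_ (add_le_add_left (add_le_add_right (er k L h1) _) _)
    rw [← integral_add (i1 k L) (i2 k L), ← integral_add (i0 k L) i3]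
    refine integral_mono (b3ult0_int (continuous_const.sub cA.abs) L)
      ((i0 k L).add i3) fun x => ?_
    have a1 := abs_sub_abs_le_abs_sub (w k x) (A x)
    have a2 := abs_sub_le (A x) (Av (w k) x) (w k x)
    rw [abs_sub_comm] at a1
    beta_reduce
    linarith
  · obtain ⟨L, h1, h2⟩ := hc (ε / 3) (by positivity) (max 1 (24 * C / ε))
    have h3 : 1 ≤ L := (le_max_left _ _).trans h1
    have h4 : 24 * C ≤ L * ε := (div_le_iff₀ hε).1 ((le_max_right _ _).trans h1)
    have i3 : IntegrableOn (fun x => |A x - s0 / 2 * σ x|) (ball (0 : X) L) :=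
      ((b3ult0_int cA L).sub ((Measure.integrableOn_of_bounded (M := 1) measure_ball_lt_top.ne
        hσ.meas.1.aestronglyMeasurable (.of_forall hσ.meas.2.1)).const_mul _)).abs
    refine ⟨L, h3, Frequently.filter_mono (Eventually.frequently ?_) hU⟩
    filter_upwards [(b3ult0_unif hK lA hA L).eventually
      (gt_mem_nhds (show 0 < ε / 3 * L ^ 4 by positivity))] with k hk
    have b1 : ∫ x in ball (0 : X) L, |w k x - s0 / 2 * σ x| ≤ ∫ x in ball (0 : X) L,
        (|A x - Av (w k) x| + |Av (w k) x - w k x| + |A x - s0 / 2 * σ x|) := by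
      refine integral_mono_of_nonneg (.of_forall fun x => abs_nonneg _)
        ((i0 k L).add i3) (.of_forall fun x => ?_)
      have a1 := abs_sub_le (w k x) (A x) (s0 / 2 * σ x)
      have a2 := abs_sub_le (A x) (Av (w k) x) (w k x)
      rw [abs_sub_comm (w k x) (A x)] at a1
      beta_reduce
      linarith
    rw [integral_add (i0 k L) i3, integral_add (i1 k L) (i2 k L)] at b1
    have b2 : 24 * C * L ^ 3 ≤ L * ε * L ^ 3 := by gcongr
    nlinarith [er k L h3]

end Vale.Agent.P134.B3
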