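import Vale.Agent.P134.B3Bas
import Vale.Agent.P134.B3Ibp

/-! P134, block B3: weak forms of the equations for `p` and `s`. -/

open Filter Topology MeasureTheory Set Metric
open scoped ContDiff RealInnerProductSpace NNReal Laplacian

namespace Vale.Agent.P134.B3

variable {u : X → ℝ} {a : X}

theorem b3weak_comm (f g : X → ℝ) (x : X) : gd f g x = dv (gradient f x) g x := by
  rw [← gd_eq_dv, gd_eq, gd_eq, real_inner_comm]

theorem b3weak_nsq (z : X) : ‖z‖ ^ 2 = ∑ i, ⟪z, ev i⟫ ^ 2 := by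
  rw [EuclideanSpace.real_norm_sq_eq]
  simp [ev, EuclideanSpace.inner_single_right]

theorem b3weak_q (h : Cx u a) (b x : X) :
    rr u x * Δ (qq u b) x + gd (rr u) (qq u b) x = -(rr u x * VV u x * qq u b x) := by
  have e1 : qq u b = dv b (vv u) := funext fun y => inner_gradient _ _ _
  have e2 : Δ (vv u) = fun y => -√2 * (u y * ss u y) := funext fun y => by
    rw [h.bas.lapv]
    ring
  have d1 : DifferentiableAt ℝ u x := h.nd.sol.sm.differentiable (by simp) x
  have d2 : DifferentiableAt ℝ (ss u) x := h.bas.sms.differentiable (by simp) x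
  have e3 : Δ (qq u b) x = -√2 * (u x * dv b (ss u) x + ss u x * dv b u x) := by
    rw [e1, lap_dv (h.bas.smv.of_le three_le_oo).contDiffAt, e2, dv_const_mul (d1.fun_mul d2),
      dv_mul d1 d2]
  have e4 : ⟪pp u x, gradient (qq u b) x⟫ = ⟪HM u x b, pp u x⟫ := by
    rw [real_inner_comm, inner_gradient, dv, h.dq, h.symm, real_inner_comm]
  rw [e3, gd_eq_dv, dv, dv, dv, h.dr, h.ds, h.du, e4, VV, qq]
  ring

theorem b3weak_s (h : Cx u a) (x : X) : rr u x * Δ (ss u) x + gd (rr u) (ss u) x =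
    -(rr u x * (2 * hs u x - 2 * VV u x * (1 - ss u x))) := by
  have e1 : ss u = fun y => 1 - ∑ i, qq u (ev i) y ^ 2 := funext fun y => by
    rw [ss_eq, b3weak_nsq]
    rfl
  have c2 : ∀ i, ContDiffAt ℝ 2 (qq u (ev i)) x := fun i =>
    ((h.sm_q _).of_le two_le_oo).contDiffAt
  have d2 : ∀ i, DifferentiableAt ℝ (qq u (ev i)) x := fun i =>
    (c2 i).differentiableAt (by norm_num)
  have e2 : Δ (ss u) x =
      -∑ i, (2 * qq u (ev i) x * Δ (qq u (ev i)) x + 2 * ‖fderiv ℝ (qq u (ev i)) x‖ ^ 2) := by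
    rw [e1, lap_sub contDiffAt_const (ContDiffAt.sum fun i _ => (c2 i).pow 2), lap_const,
      lap_sum fun i _ => (c2 i).pow 2, zero_sub]
    simp only [lap_sq (c2 _)]
  have e3 : gd (rr u) (ss u) x = -∑ i, 2 * qq u (ev i) x * gd (rr u) (qq u (ev i)) x := by
    simp only [b3weak_comm (rr u)]
    rw [e1, dv_sub (differentiableAt_const _) (DifferentiableAt.fun_sum fun i _ => (d2 i).fun_pow 2),
      dv_const, dv_sum fun i _ => (d2 i).fun_pow 2, zero_sub]
    refine congrArg _ (Finset.sum_congr rfl fun i _ => ?_)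
    simp only [sq]
    rw [dv_mul (d2 i) (d2 i)]
    ring
  have e4 : ∑ i, ‖fderiv ℝ (qq u (ev i)) x‖ ^ 2 = hs u x := by
    simp only [norm_sq_fderiv, dv, h.dq, hs, b3weak_nsq (HM u x _)]
    exact Finset.sum_comm
  have e5 : 1 - ss u x = ∑ i, qq u (ev i) x ^ 2 := by
    rw [e1]
    ring
  have e6 : ∑ i, 2 * qq u (ev i) x * (rr u x * Δ (qq u (ev i)) x + gd (rr u) (qq u (ev i)) x) =
      -(2 * rr u x * VV u x * (1 - ss u x)) := by
    rw [e5, Finset.mul_sum, ← Finset.sum_neg_distrib]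
    exact Finset.sum_congr rfl fun i _ => by
      rw [b3weak_q h]
      ring
  simp only [mul_add, Finset.sum_add_distrib, mul_left_comm _ (rr u x), ← Finset.mul_sum] at e6
  rw [e2, e3, Finset.sum_add_distrib, ← Finset.mul_sum, e4]
  linear_combination -e6

theorem Cx.weak_q (h : Cx u a) (b : X) {φ : X → ℝ} (hφ : Tst φ) :
    ∫ x, rr u x * gd (qq u b) φ x = ∫ x, rr u x * VV u x * qq u b x * φ x := by
  rw [green hφ (h.sm_r.of_le one_le_oo) ((h.sm_q b).of_le two_le_oo), ← integral_neg]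
  simp only [b3weak_q h, neg_mul, neg_neg]

theorem Cx.weak_s (h : Cx u a) {φ : X → ℝ} (hφ : Tst φ) :
    ∫ x, rr u x * gd (ss u) φ x =
      ∫ x, rr u x * (2 * hs u x - 2 * VV u x * (1 - ss u x)) * φ x := by
  rw [green hφ (h.sm_r.of_le one_le_oo) (h.bas.sms.of_le two_le_oo), ← integral_neg]
  simp only [b3weak_s h, neg_mul, neg_neg]

end Vale.Agent.P134.B3
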