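import Vale.Agent.P134.B2Min

/-! P134: the statement of part (B). -/

open Filter Topology

namespace Vale.Agent.P134

/-- a monotone solution in dimension four with flat limits is flat -/
def S_B : Prop := ∀ (u : E (3 + 1) → ℝ) (up um : E 3 → ℝ), Mon u → Sol up → Sol um →
  (∀ x, um (pr 3 x) < u x ∧ u x < up (pr 3 x) ∧
    Tendsto (fun t : ℝ => u (x + t • el 3)) atTop (𝓝 (up (pr 3 x))) ∧
    Tendsto (fun t : ℝ => u (x + t • el 3)) atBot (𝓝 (um (pr 3 x)))) →
  B2.Flat up → B2.Flat um → B2.Flat u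

end Vale.Agent.P134
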