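import Vale.Agent.P134.B3Top
import Vale.Agent.P134.BStm
import Vale.Agent.P134.RAll
import Vale.Agent.P134.A2Bas

/-! P134: part (B) from the blow-down (B3) and the regularity step (B1). -/

open Filter Topology

namespace Vale.Agent.P134

/-- a monotone solution with flat limits satisfies the standing assumptions of block B3 -/
theorem cx_of_mon {u : E (3 + 1) → ℝ} {up um : E 3 → ℝ} (hu : Mon u)
    (hl : ∀ x, um (pr 3 x) < u x ∧ u x < up (pr 3 x) ∧
      Tendsto (fun t : ℝ => u (x + t • el 3)) atTop (𝓝 (up (pr 3 x))) ∧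
      Tendsto (fun t : ℝ => u (x + t • el 3)) atBot (𝓝 (um (pr 3 x))))
    (fp : B2.Flat up) (fm : B2.Flat um) : B3.Cx u (el 3) := by
  obtain ⟨C, hC⟩ := r_mon' 3
  have nd : Nd u := ⟨hu.sol, (hC u hu).1, r_mod' _ u hu.sol⟩
  exact ⟨nd, a2_bas _ u nd, norm_ev _, hu.pos, fun w K B hw hB hout =>
    B2.b2 r_bd' r_lim' hu (fun x => (hl x).2.2.1) (fun x => (hl x).2.2.2)
      (fun x => ⟨(hl x).1, (hl x).2.1⟩) fp fm hw hB hout⟩

theorem s_b_of (h1 : ∀ (u : B3.X → ℝ) (a : B3.X), B3.Cx u a → B3.Flt u → B2.Flat u) : S_B :=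
  fun u _ _ hu _ _ hl fp fm => h1 u _ (cx_of_mon hu hl fp fm) (cx_of_mon hu hl fp fm).flt

end Vale.Agent.P134
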