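import Vale.Agent.P134.BCx
import Vale.Agent.P134.B1Top

/-! P134: part (B). -/

namespace Vale.Agent.P134

theorem s_b : S_B := s_b_of fun _ _ h hf => h.b1 hf

end Vale.Agent.P134
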