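import Vale.Agent.P134.A2Defs

/-! Shared objects for the Allen-Cahn equation written for `v` with `u = tanh (v / √2)`. -/

open scoped RealInnerProductSpace ContDiff ENNReal Topology Laplacian
open MeasureTheory Set Metric Filter

namespace Vale.Agent.P134.DG

/-- The profile `g`. -/
noncomputable def gg (s : ℝ) : ℝ := Real.tanh (s / √2)

/-- The derivative `g'` of the profile. -/
noncomputable def g1 (s : ℝ) : ℝ := (1 - gg s ^ 2) / √2

/-- `W''(g s)`. -/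
noncomputable def w2 (s : ℝ) : ℝ := 3 * gg s ^ 2 - 1

/-- `∫ g'²`. -/
noncomputable def s0 : ℝ := 2 * √2 / 3

section Gen

variable {n : ℕ}

/-- `θ = 1 - |∇v|²`. -/
noncomputable def th (v : E n → ℝ) (x : E n) : ℝ := 1 - ‖gradient v x‖ ^ 2

/-- `P = g'(v)`. -/
noncomputable def PP (v : E n → ℝ) (x : E n) : ℝ := g1 (v x)

/-- `V = √2 P θ`. -/
noncomputable def VV (v : E n → ℝ) (x : E n) : ℝ := √2 * PP v x * th v x

/-- The mass density `V P²`. -/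
noncomputable def mm (v : E n → ℝ) (x : E n) : ℝ := VV v x * PP v x ^ 2

/-- The Hessian `D²v` as a linear map. -/
noncomputable def MM (v : E n → ℝ) (x : E n) : E n →L[ℝ] E n := fderiv ℝ (gradient v) x

/-- The squared Frobenius norm. -/
noncomputable def fro (A : E n →L[ℝ] E n) : ℝ := ∑ i, ‖A (ev i)‖ ^ 2

/-- `u = g ∘ v` is a smooth solution with the Modica bound. -/
structure Sol (v : E n → ℝ) : Prop where
  smooth : ContDiff ℝ ∞ v
  eq : ∀ x, Δ v x = -(√2 * gg (v x) * th v x)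
  mod : ∀ x, ‖gradient v x‖ ≤ 1

/-- Stability in calibrated form: `div X + |X|² ≤ W''(u)`. -/
structure Cal (v : E n → ℝ) (X : E n → E n) (CX : ℝ) : Prop where
  sm : ContDiff ℝ 1 X
  bdd : ∀ x, ‖X x‖ ≤ CX
  ineq : ∀ x, ∑ i, ⟪ev i, fderiv ℝ X x (ev i)⟫ + ‖X x‖ ^ 2 ≤ w2 (v x)

/-- The pointwise estimates of block A2. -/
structure PW (v : E n → ℝ) (C : ℝ) : Prop where
  one : 1 ≤ C
  d2 : ∀ x, ‖iteratedFDeriv ℝ 2 v x‖ ^ 2 ≤ C * th v x
  d3 : ∀ x, ‖iteratedFDeriv ℝ 3 v x‖ ^ 2 ≤ C * th v x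
  dth : ∀ x, ‖fderiv ℝ (th v) x‖ ≤ C * th v x
  hth : ∀ x y, th v y ≤ Real.exp (C * dist x y) * th v x
  hV : ∀ x y, VV v y ≤ C * Real.exp (3 / 2 * dist x y) * VV v x
  dec : ∀ (x : E n) (R : ℝ), (∀ z, dist z x < R → v z ≠ 0) →
    PP v x ≤ C * Real.exp (-(13 / 10 * R))

end Gen

section Fermi

/-- The unit normal. -/
noncomputable def NN (v : E 3 → ℝ) (x : E 3) : E 3 := ‖gradient v x‖⁻¹ • gradient v x

/-- The projection on the tangent plane of the level set. -/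
noncomputable def Pr (v : E 3 → ℝ) (x : E 3) : E 3 →L[ℝ] E 3 :=
  ContinuousLinearMap.id ℝ (E 3) - (innerSL ℝ (NN v x)).smulRight (NN v x)

/-- The shape operator, extended by zero on the normal. -/
noncomputable def SS (v : E 3 → ℝ) (x : E 3) : E 3 →L[ℝ] E 3 :=
  (fderiv ℝ (NN v) x).comp (Pr v x)

/-- Mean curvature (trace). -/
noncomputable def HH (v : E 3 → ℝ) (x : E 3) : ℝ := ∑ i, ⟪ev i, SS v x (ev i)⟫

/-- Gauss curvature. -/
noncomputable def KK (v : E 3 → ℝ) (x : E 3) : ℝ := (HH v x ^ 2 - fro (SS v x)) / 2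

/-- The normal exponential map. -/
noncomputable def FF (v : E 3 → ℝ) (z : E 3 × ℝ) : E 3 := z.1 + z.2 • NN v z.1

/-- Its Jacobian. -/
noncomputable def JJ (v : E 3 → ℝ) (z : E 3 × ℝ) : ℝ :=
  1 + z.2 * HH v z.1 + z.2 ^ 2 * KK v z.1

/-- The inverse of `1 + t S`. -/
noncomputable def Bi (v : E 3 → ℝ) (z : E 3 × ℝ) : E 3 →L[ℝ] E 3 :=
  Ring.inverse (1 + z.2 • SS v z.1)

/-- The differential of the local inverse of the normal exponential map. -/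
noncomputable def DI (v : E 3 → ℝ) (z : E 3 × ℝ) (ξ : E 3) : E 3 × ℝ :=
  (Pr v z.1 (Bi v z ξ), ⟪NN v z.1, ξ⟫)

/-- The Euclidean gradient of a function given in Fermi coordinates. -/
noncomputable def gr (v : E 3 → ℝ) (h : E 3 × ℝ → ℝ) (z : E 3 × ℝ) : E 3 :=
  ∑ i, fderiv ℝ h z (DI v z (ev i)) • ev i

/-- The Euclidean divergence of a vector field given in Fermi coordinates. -/
noncomputable def dO (v : E 3 → ℝ) (G : E 3 × ℝ → E 3) (z : E 3 × ℝ) : ℝ :=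
  ∑ i, ⟪ev i, fderiv ℝ G z (DI v z (ev i))⟫

/-- `w = t - v`. -/
noncomputable def ww (v : E 3 → ℝ) (z : E 3 × ℝ) : ℝ := z.2 - v (FF v z)

/-- `∂ₜ w`. -/
noncomputable def wt (v : E 3 → ℝ) (z : E 3 × ℝ) : ℝ := 1 - ⟪gradient v (FF v z), NN v z.1⟫

/-- The zero set is almost flat at unit scale around each of its points in `O`. -/
structure Good (v : E 3 → ℝ) (O : Set (E 3)) (ε : ℝ) : Prop where
  op : IsOpen O
  th_le : ∀ x ∈ O, th v x ≤ 1 / 2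
  small : ∀ y ∈ O, v y = 0 → ∀ x ∈ ball y 4,
    th v x ≤ ε ∧ ‖iteratedFDeriv ℝ 2 v x‖ ≤ ε ∧ ‖iteratedFDeriv ℝ 3 v x‖ ≤ ε

/-- The domain of Fermi coordinates. -/
def Om (v : E 3 → ℝ) (O : Set (E 3)) : Set (E 3 × ℝ) :=
  {z | z.1 ∈ O ∧ z.2 ^ 2 * fro (SS v z.1) < 1 / 400}

/-- The area of the parallelogram spanned by two vectors. -/
noncomputable def ar (a b : E 3) : ℝ := √(‖a‖ ^ 2 * ‖b‖ ^ 2 - ⟪a, b⟫ ^ 2)

/-- A differentiable map of `U` into the zero set. -/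
def Par (v : E 3 → ℝ) (O : Set (E 3)) (U : Set (ℝ × ℝ)) (Y : ℝ × ℝ → E 3)
    (Y' : ℝ × ℝ → ℝ × ℝ →L[ℝ] E 3) : Prop :=
  MeasurableSet U ∧ ∀ a ∈ U, HasFDerivAt Y (Y' a) a ∧ Y a ∈ O ∧ v (Y a) = 0 ∧
    ∀ ξ, ⟪gradient v (Y a), Y' a ξ⟫ = 0

/-- `σ` is the area measure of the zero set inside `O`. -/
structure Surf (v : E 3 → ℝ) (O : Set (E 3)) (σ : Measure (E 3)) : Prop where
  supp : σ {y | y ∈ O ∧ v y = 0}ᶜ = 0
  le : ∀ U Y Y', Par v O U Y Y' → ∀ A, MeasurableSet A → A ⊆ Y '' U →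
    ∀ Φ : E 3 → ℝ≥0∞, Measurable Φ → ∫⁻ y in A, Φ y ∂σ ≤
      ∫⁻ a in U, Φ (Y a) * ENNReal.ofReal (ar (Y' a (1, 0)) (Y' a (0, 1)))
  eq : ∀ U Y Y', Par v O U Y Y' → InjOn Y U → ∀ Φ : E 3 → ℝ≥0∞, Measurable Φ →
    ∫⁻ y in Y '' U, Φ y ∂σ =
      ∫⁻ a in U, Φ (Y a) * ENNReal.ofReal (ar (Y' a (1, 0)) (Y' a (0, 1)))
  vol : ∀ A : Set (E 3), MeasurableSet A → σ A ≤ 2 * volume (thickening 1 A)

/-- The standing assumptions of the Fermi calculus. -/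
structure Ctx (v : E 3 → ℝ) (O : Set (E 3)) (ε : ℝ) (σ : Measure (E 3)) : Prop where
  sol : Sol v
  good : Good v O ε
  pos : 0 < ε
  small : ε ≤ 1 / 10000
  surf : Surf v O σ

/-- Over the zero set, `a` vanishes outside a compact subset of the Fermi domain. -/
def CptO {F : Type} [Zero F] (v : E 3 → ℝ) (O : Set (E 3)) (a : E 3 × ℝ → F) : Prop :=
  ∃ K, IsCompact K ∧ K ⊆ Om v O ∧ ∀ z, v z.1 = 0 → z ∉ K → a z = 0

/-- Oscillation of a weight along the normal line. -/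
noncomputable def DD (v τ : E 3 → ℝ) (y : E 3) : ℝ :=
  ∫ t : ℝ, Real.exp (-|t|) * |τ (FF v (y, t)) - τ y|

/-- Gradient of a weight along the normal line. -/
noncomputable def DGr (v τ : E 3 → ℝ) (y : E 3) : ℝ :=
  ∫ t : ℝ, Real.exp (-|t|) * ‖gradient τ (FF v (y, t))‖

/-- Gradient of a weight along the normal line above height `L`. -/
noncomputable def DT (v τ : E 3 → ℝ) (L : ℝ) (y : E 3) : ℝ :=
  ∫ t in {t : ℝ | L < |t|}, Real.exp (-(2 * |t|)) * ‖gradient τ (FF v (y, t))‖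

/-- The field of the test function `P`. -/
noncomputable def Yin (v : E 3 → ℝ) (X : E 3 → E 3) (x : E 3) : E 3 :=
  PP v x ^ 2 • (X x + (√2 * gg (v x)) • gradient v x)

/-- The field of the test function `g'(t)`. -/
noncomputable def Yo (v : E 3 → ℝ) (X : E 3 → E 3) (z : E 3 × ℝ) : E 3 :=
  g1 z.2 ^ 2 • (X (FF v z) + (√2 * gg z.2) • NN v z.1)

/-- The flux term of a weight `τ`, cut at height `L`. -/
noncomputable def YT (v : E 3 → ℝ) (σ : Measure (E 3)) (X : E 3 → E 3) (L : ℝ) (τ η : E 3 → ℝ) : ℝ :=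
  ∫ y, η y ^ 2 * (∫ t in (-L)..L, ⟪gradient τ (FF v (y, t)), Yo v X (y, t)⟫ * JJ v (y, t)) ∂σ

end Fermi

end Vale.Agent.P134.DG
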