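import Vale.Agent.P134.FStm

/-! The area formula in Fermi coordinates. -/

open scoped RealInnerProductSpace ContDiff ENNReal Topology Laplacian
open MeasureTheory Set Metric Filter

namespace Vale.Agent.P134.DG

namespace FAFAux

theorem piece (hM : F_Meas) (hT : F_Tube) {v : E 3 → ℝ} {O : Set (E 3)} {ε : ℝ}
    {σ : Measure (E 3)} (hc : Ctx v O ε σ) {U Y Y'} (hP : Par v O U Y Y') (hY : InjOn Y U)
    {D : Set (E 3 × ℝ)} (hD : MeasurableSet D) (h1 : D ⊆ Om v O) (h2 : ∀ z ∈ D, z.1 ∈ Y '' U)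
    (h3 : InjOn (FF v) D) {Φ : E 3 → ℝ≥0∞} (hΦ : Measurable Φ) :
    MeasurableSet (FF v '' D) ∧ ∫⁻ x in FF v '' D, Φ x =
      ∫⁻ z in D, Φ (FF v z) * ENNReal.ofReal (JJ v z) ∂(σ.prod volume) := by
  obtain ⟨-, -, -, -, mF, mJ, -⟩ := hM v hc.sol
  have e : D ∩ {z | z.1 ∈ Y '' U} = D := inter_eq_left.2 h2
  have k := (hT v O ε hc.sol hc.good U Y Y' hP D hD h1 Φ hΦ).2 hY (by rwa [e])
  rw [e] at k
  refine ⟨k.1, k.2.trans ?_⟩
  have m : Measurable (D.indicator fun z => Φ (FF v z) * ENNReal.ofReal (JJ v z)) :=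
    ((hΦ.comp mF).mul mJ.ennreal_ofReal).indicator hD
  rw [← hc.surf.eq U Y Y' hP hY _ m.lintegral_prod_right', ← lintegral_indicator hD,
    lintegral_prod _ m.aemeasurable]
  refine setLIntegral_eq_of_support_subset fun y hy => by_contra fun h => hy ?_
  exact (lintegral_congr fun t => indicator_of_notMem (fun hz => h (h2 _ hz)) _).trans
    lintegral_zero

end FAFAux

theorem af_pf (hM : F_Meas) (hT : F_Tube) (hC : F_Chart) (_hN : F_Int) (hL : F_LI) : S_AF := by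
  intro v O ε σ hc D hD h1 h2 Φ hΦ
  have key : ∀ z : E 3 × ℝ, ∃ V, IsOpen V ∧ (z ∈ D → z ∈ V) ∧ ∀ D', MeasurableSet D' → D' ⊆ D →
      D' ⊆ V → MeasurableSet (FF v '' D') ∧ ∫⁻ x in FF v '' D', Φ x =
        ∫⁻ z in D', Φ (FF v z) * ENNReal.ofReal (JJ v z) ∂(σ.prod volume) := fun z => by
    by_cases hz : z ∈ D
    · obtain ⟨U, Y, Y', W, hP, hY, hW, hy, hx⟩ := hC v O ε hc.sol hc.good z.1 (h1 hz).1 (h2 z hz)
      obtain ⟨V, I, hV, hzV, -, -, hI⟩ := hL v O ε hc.sol hc.good z (h1 hz) (h2 z hz)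
      refine ⟨V ∩ Prod.fst ⁻¹' W, hV.inter (hW.preimage continuous_fst), fun _ => ⟨hzV, hy⟩,
        fun D' m s1 s2 => FAFAux.piece hM hT hc hP hY m (s1.trans h1)
          (fun w hw => hx _ (s2 hw).2 (h2 w (s1 hw))) (fun a ha b hb hab => ?_) hΦ⟩
      rw [← (hI a (s2 ha).1 (h2 a (s1 ha))).1, hab, (hI b (s2 hb).1 (h2 b (s1 hb))).1]
    · refine ⟨∅, isOpen_empty, fun h => absurd h hz, fun D' _ _ s => ?_⟩
      rw [subset_empty_iff.1 s]
      simp
  choose V hV hz hk using key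
  obtain ⟨t, -, ht, hcov⟩ := TopologicalSpace.countable_cover_nhdsWithin (s := D) (f := V)
    fun z h => mem_nhdsWithin_of_mem_nhds ((hV z).mem_nhds (hz z h))
  obtain ⟨f, hf⟩ := countable_iff_exists_subset_range.1 ht
  let A : ℕ → Set (E 3 × ℝ) := fun k => D ∩ disjointed (fun k => V (f k)) k
  have mA : ∀ k, MeasurableSet (A k) := fun k =>
    hD.inter (MeasurableSet.disjointed (fun k => (hV _).measurableSet) k)
  have dA : Pairwise (Function.onFun Disjoint A) := fun i j hij =>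
    (disjoint_disjointed _ hij).mono inter_subset_right inter_subset_right
  have uA : ⋃ k, A k = D := by
    rw [← inter_iUnion, iUnion_disjointed, inter_eq_left]
    intro z h
    obtain ⟨w, hw, hzw⟩ := mem_iUnion₂.1 (hcov h)
    obtain ⟨k, rfl⟩ := hf hw
    exact mem_iUnion.2 ⟨k, hzw⟩
  have kA := fun k => hk (f k) (A k) (mA k) inter_subset_left
    (inter_subset_right.trans (disjointed_subset (fun k => V (f k)) k))
  have e1 : FF v '' D = ⋃ k, FF v '' A k := by rw [← image_iUnion, uA]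
  have e2 : ∫⁻ z in D, Φ (FF v z) * ENNReal.ofReal (JJ v z) ∂(σ.prod volume) =
      ∑' k, ∫⁻ x in FF v '' A k, Φ x := by
    rw [← uA, lintegral_iUnion mA dA]
    exact tsum_congr fun k => (kA k).2.symm
  rw [e1, e2]
  refine ⟨fun T _ hT => (lintegral_mono_set hT).trans (lintegral_iUnion_le _ _),
    fun hi => ⟨MeasurableSet.iUnion fun k => (kA k).1,
    lintegral_iUnion (fun k => (kA k).1) (fun i j hij => ?_) _⟩⟩
  exact disjoint_image_image fun a ha b hb hab =>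
    disjoint_left.1 (dA hij) ha (hi ha.1 hb.1 hab ▸ hb)

end Vale.Agent.P134.DG
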