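import Vale.Agent.P134.FStm

/-! The algebra of the Fermi coordinates. -/

open scoped RealInnerProductSpace ContDiff ENNReal Topology Laplacian
open MeasureTheory Set Metric Filter

namespace Vale.Agent.P134.DG

namespace FAlgAux

theorem pr_apply (v : E 3 → ℝ) (y a : E 3) : Pr v y a = a - ⟪NN v y, a⟫ • NN v y := rfl

theorem pr_symm (v : E 3 → ℝ) (y a b : E 3) : ⟪Pr v y a, b⟫ = ⟪a, Pr v y b⟫ := by
  simp only [pr_apply, inner_sub_left, inner_sub_right, real_inner_smul_left,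
    real_inner_smul_right, real_inner_comm a (NN v y)]
  ring

theorem sum_ev (a : E 3) : ∑ i, ⟪a, ev i⟫ • ev i = a := by
  simpa only [ev_eq, real_inner_comm a] using (EuclideanSpace.basisFun (Fin 3) ℝ).sum_repr' a

theorem split {h : E 3 × ℝ → ℝ} {y : E 3} {t : ℝ} (hh : DifferentiableAt ℝ h (y, t)) (ξ : E 3)
    (s : ℝ) : fderiv ℝ h (y, t) (ξ, s) =
      ⟪gradient (fun x => h (x, t)) y, ξ⟫ + s * deriv (fun s => h (y, s)) t := by
  have h1 : HasFDerivAt (fun x => h (x, t)) _ y :=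
    hh.hasFDerivAt.comp y (hasFDerivAt_prodMk_left y t)
  have h2 : HasDerivAt (fun s => h (y, s)) _ t :=
    hh.hasFDerivAt.comp_hasDerivAt t ((hasDerivAt_const t y).prodMk (hasDerivAt_id t))
  rw [inner_gradient, dv, h1.fderiv, h2.deriv, ← smul_eq_mul, ← map_smul]
  simp [← map_add]

end FAlgAux

open FAlgAux

theorem alg_pf (h1 : F_Alg1) (h2 : F_Lin) (h3 : F_Lin2) : S_Alg := by
  intro v y hs ht
  obtain ⟨a1, a2, a3, a4, a5, a6, a7, a8, a9, a10, a11, a12⟩ := h1 v y hs ht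
  refine ⟨a1, a2, a3, a4, a5, a6, a7, a8, a9, a10, a11, a12, fun t hq => ?_⟩
  obtain ⟨b0, b1, b2, b3, b4, b5, b6, b7⟩ := h2 (SS v y) (NN v y) t _ (KK v y) a1 a4 a5 rfl rfl hq
  obtain ⟨c1, c2⟩ := h3 (SS v y) _ (NN v y) t _ (KK v y) a1 a4 a5 rfl rfl b1
  change ∀ a, Bi v (y, t) a + t • SS v y (Bi v (y, t) a) = a at b2
  change ∀ a b, ⟪Bi v (y, t) a, b⟫ = ⟪a, Bi v (y, t) b⟫ at b3
  change Bi v (y, t) (NN v y) = NN v y at b4
  have nb : ∀ a, ⟪NN v y, Bi v (y, t) a⟫ = ⟪NN v y, a⟫ := fun a => by rw [← b3, b4]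
  have pb : ∀ a, Pr v y (Bi v (y, t) a) = Bi v (y, t) (Pr v y a) := fun a => by
    rw [pr_apply, pr_apply, map_sub, map_smul, b4, nb]
  refine ⟨b1, b2, b3, b4, pb, b5, ?_, b6, b7, c1, fun a => ?_, c2, fun h hh => ?_⟩
  · obtain ⟨u, hu⟩ := b0
    have e : ContDiffAt ℝ ∞ (fun z : E 3 × ℝ => 1 + z.2 • SS v z.1) (y, t) :=
      contDiffAt_const.add (contDiffAt_snd.smul (a3.comp (y, t) contDiffAt_fst))
    exact ContDiffAt.comp (y, t) (g := Ring.inverse) (hu ▸ contDiffAt_ringInverse ℝ u) e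
  · have e0 : HasFDerivAt (fun z : E 3 × ℝ => NN v z.1) _ (y, t) :=
      HasFDerivAt.comp (g := NN v) (f := Prod.fst) (y, t)
        (a2.differentiableAt (by simp)).hasFDerivAt hasFDerivAt_fst
    have e : HasFDerivAt (FF v) _ (y, t) := hasFDerivAt_fst.add (hasFDerivAt_snd.fun_smul e0)
    rw [e.fderiv]
    change Pr v y (Bi v (y, t) a) + (t • fderiv ℝ (NN v) y (Pr v y (Bi v (y, t) a)) +
      ⟪NN v y, a⟫ • NN v y) = a
    rw [a6, pr_apply, nb, ← add_assoc, sub_add_eq_add_sub, b2, sub_add_cancel]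
  · have e : ∀ a, fderiv ℝ h (y, t) (DI v (y, t) a) =
        ⟪Bi v (y, t) (Pr v y (gradient (fun x => h (x, t)) y)) +
          deriv (fun s => h (y, s)) t • NN v y, a⟫ := fun a => by
      rw [DI, split hh, inner_add_left, b3, pr_symm, real_inner_smul_left, mul_comm]
    simp only [gr, e, sum_ev]

end Vale.Agent.P134.DG
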