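import Vale.Agent.P134.FStm

/-! The shape operator: algebraic facts. -/

open scoped RealInnerProductSpace ContDiff ENNReal Topology Laplacian
open MeasureTheory Set Metric Filter

namespace Vale.Agent.P134.DG

namespace FAlg1Aux

variable {v : E 3 → ℝ} {y : E 3}

theorem grad_sm (hv : ContDiff ℝ ∞ v) : ContDiff ℝ ∞ (gradient v) :=
  (InnerProductSpace.toDual ℝ (E 3)).symm.toContinuousLinearEquiv.contDiff.comp
    (hv.fderiv_right (m := ∞) (by simp))

theorem has_grad (hv : ContDiff ℝ ∞ v) (y : E 3) : HasFDerivAt (gradient v) (MM v y) y :=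
  ((grad_sm hv).differentiable (by simp) y).hasFDerivAt

theorem inner_MM (hv : ContDiff ℝ ∞ v) (y a b : E 3) : ⟪b, MM v y a⟫ = dv a (dv b v) y := by
  have h1 := (innerSL ℝ b).hasFDerivAt.comp y (has_grad hv y)
  have h2 : dv b v = (innerSL ℝ b) ∘ gradient v := by
    funext x
    rw [← inner_gradient, real_inner_comm]
    rfl
  rw [dv, h2, h1.fderiv]
  rfl

theorem MM_symm (hv : ContDiff ℝ ∞ v) (y a b : E 3) : ⟪MM v y a, b⟫ = ⟪a, MM v y b⟫ := by
  rw [real_inner_comm, inner_MM hv, inner_MM hv, dv_comm (hv.of_le two_le_oo).contDiffAt]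

theorem MM_le (hv : ContDiff ℝ ∞ v) (y a : E 3) :
    ‖MM v y a‖ ≤ ‖iteratedFDeriv ℝ 2 v y‖ * ‖a‖ := by
  have h := abs_dv_dv_le (x := y) (hv.of_le two_le_oo).contDiffAt a (MM v y a)
  rw [← inner_MM hv, real_inner_self_eq_norm_mul_norm, abs_of_nonneg (by positivity),
    ← mul_assoc] at h
  rcases (norm_nonneg (MM v y a)).eq_or_lt with h0 | h0
  · rw [← h0]
    positivity
  · exact le_of_mul_le_mul_right h h0

theorem Pr_apply (v : E 3 → ℝ) (y a : E 3) : Pr v y a = a - ⟪NN v y, a⟫ • NN v y := rfl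

theorem DN (hv : ContDiff ℝ ∞ v) (hp : gradient v y ≠ 0) (a : E 3) :
    fderiv ℝ (NN v) y a = ‖gradient v y‖⁻¹ • Pr v y (MM v y a) := by
  have hq : ‖gradient v y‖ ≠ 0 := norm_ne_zero_iff.2 hp
  have h1 := (has_grad hv y).norm_sq.sqrt (pow_ne_zero 2 hq)
  simp only [Real.sqrt_sq (norm_nonneg _)] at h1
  have h2 := ((hasDerivAt_inv hq).comp_hasFDerivAt y h1).smul (has_grad hv y)
  have h3 : fderiv ℝ (NN v) y = _ := h2.fderiv
  rw [h3, Pr_apply, NN, real_inner_smul_left, smul_sub, sub_eq_add_neg, ← neg_smul]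
  simp only [add_apply, smul_apply, ContinuousLinearMap.smulRight_apply, smul_smul,
    ContinuousLinearMap.comp_apply, innerSL_apply_apply, Function.comp, smul_eq_mul, nsmul_eq_mul]
  congr 2
  push_cast
  field_simp

theorem Pr_symm (v : E 3 → ℝ) (y a b : E 3) : ⟪Pr v y a, b⟫ = ⟪a, Pr v y b⟫ := by
  simp only [Pr_apply, inner_sub_left, inner_sub_right, real_inner_smul_left,
    real_inner_smul_right, real_inner_comm (NN v y) a]
  ring

theorem Pr_N (hN : ‖NN v y‖ = 1) : Pr v y (NN v y) = 0 := by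
  rw [Pr_apply, real_inner_self_eq_norm_sq, hN, one_pow, one_smul, sub_self]

theorem Pr_le (hN : ‖NN v y‖ = 1) (a : E 3) : ‖Pr v y a‖ ≤ ‖a‖ := by
  refine abs_le_of_sq_le_sq' ?_ (norm_nonneg _) |>.2
  rw [Pr_apply, norm_sub_sq_real, real_inner_smul_right, norm_smul, hN, real_inner_comm,
    mul_one, Real.norm_eq_abs, sq_abs]
  nlinarith [sq_nonneg ⟪a, NN v y⟫]

theorem sum_inner (a b : E 3) : ∑ i, ⟪a, ev i⟫ * ⟪ev i, b⟫ = ⟪a, b⟫ := by
  simp only [ev_eq]
  exact (EuclideanSpace.basisFun (Fin 3) ℝ).sum_inner_mul_inner a b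

theorem le_fro (S : E 3 →L[ℝ] E 3) (a : E 3) : ‖S a‖ ^ 2 ≤ fro S * ‖a‖ ^ 2 := by
  have h1 : S a = ∑ i, a i • S (ev i) := by
    conv_lhs => rw [← (EuclideanSpace.basisFun (Fin 3) ℝ).sum_repr a]
    simp only [map_sum, map_smul, EuclideanSpace.basisFun_repr, ev_eq]
  have h2 : ‖S a‖ ≤ ∑ i, ‖S (ev i)‖ * ‖a i‖ := by
    rw [h1]
    exact (norm_sum_le _ _).trans (Finset.sum_le_sum fun i _ => by rw [norm_smul, mul_comm])
  rw [fro, EuclideanSpace.norm_sq_eq a]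
  exact (pow_le_pow_left₀ (norm_nonneg _) h2 2).trans (Finset.sum_mul_sq_le_sq_mul_sq _ _ _)

theorem tr_sq (S : E 3 →L[ℝ] E 3) : (∑ i, ⟪ev i, S (ev i)⟫) ^ 2 ≤ 3 * fro S := by
  refine sq_sum_le_card_mul_sum_sq.trans ?_
  rw [Finset.card_univ, Fintype.card_fin, Nat.cast_ofNat]
  refine mul_le_mul_of_nonneg_left (Finset.sum_le_sum fun i _ => ?_) (by norm_num)
  have h := abs_real_inner_le_norm (ev i) (S (ev i))
  rw [norm_ev, one_mul] at h
  exact sq_le_sq' (abs_le.1 h).1 (abs_le.1 h).2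

theorem tr_Pr (hv : ContDiff ℝ ∞ v) (hN : ‖NN v y‖ = 1) :
    ∑ i, ⟪ev i, Pr v y (MM v y (Pr v y (ev i)))⟫ =
      ∑ i, ⟪ev i, MM v y (ev i)⟫ - ⟪MM v y (NN v y), NN v y⟫ := by
  have e : ∀ i, ⟪ev i, Pr v y (MM v y (Pr v y (ev i)))⟫ = ⟪ev i, MM v y (ev i)⟫ -
      2 * (⟪NN v y, ev i⟫ * ⟪ev i, MM v y (NN v y)⟫) +
      ⟪NN v y, ev i⟫ * ⟪ev i, NN v y⟫ * ⟪NN v y, MM v y (NN v y)⟫ := fun i => by
    have h1 : ⟪NN v y, MM v y (ev i)⟫ = ⟪ev i, MM v y (NN v y)⟫ := by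
      rw [← MM_symm hv, real_inner_comm]
    rw [← Pr_symm]
    simp only [Pr_apply, map_sub, map_smul, inner_sub_left, inner_sub_right, real_inner_smul_left,
      real_inner_smul_right, h1, real_inner_comm (NN v y) (ev i)]
    ring
  simp only [e, Finset.sum_add_distrib, Finset.sum_sub_distrib, ← Finset.mul_sum,
    ← Finset.sum_mul, sum_inner]
  rw [real_inner_self_eq_norm_sq, hN, real_inner_comm (NN v y)]
  ring

end FAlg1Aux

open FAlg1Aux in
theorem alg1_pf : F_Alg1 := by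
  intro v y hs ht
  have hv := hs.smooth
  have hq2 : 1 / 2 ≤ ‖gradient v y‖ ^ 2 := by
    unfold th at ht
    linarith
  have hq : 0 < ‖gradient v y‖ := (norm_nonneg _).lt_of_ne fun e => by
    rw [← e] at hq2
    norm_num at hq2
  have hp : gradient v y ≠ 0 := norm_pos_iff.1 hq
  have hN : ‖NN v y‖ = 1 := by
    rw [NN, norm_smul, norm_inv, norm_norm, inv_mul_cancel₀ hq.ne']
  have hc2 : ‖gradient v y‖⁻¹ ^ 2 ≤ 2 := by
    rw [inv_pow, inv_le_comm₀ (by positivity) two_pos]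
    linarith
  have hc0 : 0 < ‖gradient v y‖⁻¹ := inv_pos.2 hq
  have hc : ‖gradient v y‖⁻¹ ≤ 2 := by nlinarith
  have sN : ContDiffAt ℝ ∞ (NN v) y :=
    (((grad_sm hv).contDiffAt.norm ℝ hp).inv hq.ne').smul (grad_sm hv).contDiffAt
  have sP : ContDiffAt ℝ ∞ (Pr v) y :=
    contDiffAt_const.sub ((((innerSL ℝ (E := E 3)).contDiff.contDiffAt).comp y sN).smulRight sN)
  have hS : ∀ a, SS v y a = ‖gradient v y‖⁻¹ • Pr v y (MM v y (Pr v y a)) := fun a => DN hv hp _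
  have hD : ∀ a, ‖fderiv ℝ (NN v) y a‖ ≤
      ‖gradient v y‖⁻¹ * (‖iteratedFDeriv ℝ 2 v y‖ * ‖a‖) := fun a => by
    rw [DN hv hp, norm_smul, norm_inv, norm_norm]
    exact mul_le_mul_of_nonneg_left ((Pr_le hN _).trans (MM_le hv y a)) hc0.le
  refine ⟨hN, sN, (sN.fderiv_right (m := ∞) (by simp)).clm_comp sP, ?_, fun a b => ?_,
    fun _ => rfl, fun a => ?_, le_fro _, ?_, tr_sq _, ?_, fun h0 => ?_⟩
  · rw [hS, Pr_N hN, map_zero, map_zero, smul_zero]
  · rw [hS, hS, real_inner_smul_left, real_inner_smul_right, Pr_symm, MM_symm hv, Pr_symm]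
  · rw [hS, real_inner_smul_right, ← Pr_symm, Pr_N hN, inner_zero_left, mul_zero]
  · have h1 : ∀ i, ‖SS v y (ev i)‖ ^ 2 ≤ 2 * ‖iteratedFDeriv ℝ 2 v y‖ ^ 2 := fun i => by
      have h2 : ‖SS v y (ev i)‖ ≤ ‖gradient v y‖⁻¹ * ‖iteratedFDeriv ℝ 2 v y‖ :=
        (hD _).trans (mul_le_mul_of_nonneg_left (mul_le_of_le_one_right (norm_nonneg _)
          ((Pr_le hN _).trans (norm_ev i).le)) hc0.le)
      refine (pow_le_pow_left₀ (norm_nonneg _) h2 2).trans ?_
      rw [mul_pow]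
      exact mul_le_mul_of_nonneg_right hc2 (sq_nonneg _)
    refine (Finset.sum_le_sum fun i _ => h1 i).trans (le_of_eq ?_)
    rw [Finset.sum_const, Finset.card_univ, Fintype.card_fin, nsmul_eq_mul]
    push_cast
    ring
  · refine ContinuousLinearMap.opNorm_le_bound _ (by positivity) fun a => (hD a).trans ?_
    rw [mul_assoc]
    exact mul_le_mul_of_nonneg_right hc (by positivity)
  · have h1 : ∑ i, ⟪ev i, MM v y (ev i)⟫ = 0 := by
      simp only [inner_MM hv]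
      rw [← lap_eq (hv.of_le two_le_oo).contDiffAt, hs.eq, h0, gg, zero_div, Real.tanh_zero,
        mul_zero, zero_mul, neg_zero]
    simp only [HH, hS, real_inner_smul_right]
    rw [← Finset.mul_sum, tr_Pr hv hN, h1, zero_sub, mul_right_comm, inv_mul_cancel₀ hq.ne',
      one_mul]

end Vale.Agent.P134.DG
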