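import Vale.Agent.P134.FStm

/-! Change of variables from the product space to the Euclidean space. -/

open scoped RealInnerProductSpace ContDiff ENNReal Topology Laplacian
open MeasureTheory Set Metric Filter

namespace Vale.Agent.P134.DG

namespace FCVAux

/-- the area inequality without injectivity -/
theorem area_le {s : Set (E 3)} {f : E 3 → E 3} {f' : E 3 → E 3 →L[ℝ] E 3} (hs : MeasurableSet s)
    (hf : ∀ x ∈ s, HasFDerivWithinAt f (f' x) s x) {Φ : E 3 → ℝ≥0∞} (hΦ : Measurable Φ)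
    {T : Set (E 3)} (hT : T ⊆ f '' s) :
    ∫⁻ x in T, Φ x ≤ ∫⁻ x in s, ENNReal.ofReal |(f' x).det| * Φ (f x) := by
  classical
  have hc : ContinuousOn f s := fun x hx => (hf x hx).continuousWithinAt
  have hg : Measurable (s.piecewise f fun _ => 0) :=
    hc.measurable_piecewise continuousOn_const hs
  have hle : volume.restrict T ≤ Measure.map (s.piecewise f fun _ => 0)
      ((volume.restrict s).withDensity fun x => ENNReal.ofReal |(f' x).det|) := by
    refine Measure.le_iff.2 fun B hB => ?_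
    rw [Measure.restrict_apply hB, Measure.map_apply hg hB, withDensity_apply _ (hg hB),
      Measure.restrict_restrict (hg hB)]
    refine le_trans (measure_mono ?_) (addHaar_image_le_lintegral_abs_det_fderiv volume
      ((hg hB).inter hs) fun x hx => (hf x hx.2).mono inter_subset_right)
    rintro y ⟨hy, hy'⟩
    obtain ⟨x, hx, rfl⟩ := hT hy'
    exact ⟨x, ⟨by rwa [mem_preimage, piecewise_eq_of_mem _ _ _ hx], hx⟩, rfl⟩
  refine (lintegral_mono' hle le_rfl).trans (le_of_eq ?_)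
  rw [lintegral_map hΦ hg]
  refine (lintegral_withDensity_eq_lintegral_mul₀
    (aemeasurable_ofReal_abs_det_fderivWithin volume hs hf) (hΦ.comp hg).aemeasurable).trans
    (setLIntegral_congr_fun hs fun x hx => ?_)
  simp only [Pi.mul_apply, Function.comp, piecewise_eq_of_mem _ _ _ hx]

/-- coordinates -/
noncomputable def L : E 3 →L[ℝ] (ℝ × ℝ) × ℝ :=
  ((EuclideanSpace.proj 0).prod (EuclideanSpace.proj 1)).prod (EuclideanSpace.proj 2)

/-- coordinates as a measurable equivalence -/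
noncomputable def eL : E 3 ≃ᵐ (ℝ × ℝ) × ℝ :=
  (((MeasurableEquiv.toLp 2 (Fin 3 → ℝ)).symm.trans
    (MeasurableEquiv.piFinSuccAbove (fun _ : Fin 3 => ℝ) 2)).trans
      MeasurableEquiv.prodComm).trans
    (MeasurableEquiv.finTwoArrow.prodCongr (MeasurableEquiv.refl ℝ))

theorem eL_eq : ⇑eL = ⇑L := by
  funext x
  rfl

theorem eL_mp : MeasurePreserving eL := by
  have h1 := EuclideanSpace.volume_preserving_symm_measurableEquiv_toLp (Fin 3)
  have h2 := volume_preserving_piFinSuccAbove (fun _ : Fin 3 => ℝ) 2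
  have h3 : MeasurePreserving (Prod.swap : ℝ × (Fin 2 → ℝ) → (Fin 2 → ℝ) × ℝ) :=
    Measure.measurePreserving_swap
  have h4 := (volume_preserving_finTwoArrow ℝ).prod (MeasurePreserving.id (volume : Measure ℝ))
  exact h4.comp (h3.comp (h2.comp h1))

theorem det_eq (A : (ℝ × ℝ) × ℝ →L[ℝ] E 3) :
    (A.comp L).det = d3 (A ((1, 0), 0)) (A ((0, 1), 0)) (A ((0, 0), 1)) := by
  rw [ContinuousLinearMap.det, ← LinearMap.det_toMatrix (EuclideanSpace.basisFun (Fin 3) ℝ).toBasis,
    d3, ← Matrix.det_transpose]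
  congr 1
  ext i j
  fin_cases i <;> simp [LinearMap.toMatrix_apply, L]

end FCVAux

open FCVAux in
theorem cv_pf : F_CV := by
  intro s Ψ Ψ' hs hΨ Φ hΦ
  have hm : MeasurableEmbedding L := eL_eq ▸ eL.measurableEmbedding
  have hp : MeasurePreserving L := eL_eq ▸ eL_mp
  have hb : Function.Bijective L := eL_eq ▸ eL.bijective
  have hs' : MeasurableSet (L ⁻¹' s) := hm.measurable hs
  have hf : ∀ x ∈ L ⁻¹' s, HasFDerivWithinAt (Ψ ∘ L) ((Ψ' (L x)).comp L) (L ⁻¹' s) x :=
    fun x hx => (hΨ _ hx).comp x L.hasFDerivWithinAt (mapsTo_preimage _ _)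
  have him : (Ψ ∘ L) '' (L ⁻¹' s) = Ψ '' s := by
    rw [image_comp, image_preimage_eq _ hb.2]
  have e : ∫⁻ x in L ⁻¹' s, ENNReal.ofReal |((Ψ' (L x)).comp L).det| * Φ ((Ψ ∘ L) x) =
      ∫⁻ a in s, Φ (Ψ a) *
        ENNReal.ofReal |d3 (Ψ' a ((1, 0), 0)) (Ψ' a ((0, 1), 0)) (Ψ' a ((0, 0), 1))| := by
    rw [← hp.setLIntegral_comp_preimage_emb hm]
    simp only [det_eq, Function.comp, mul_comm]
  refine ⟨fun T _ hT => e ▸ area_le hs' hf hΦ (him ▸ hT), fun hi => ?_⟩
  have hi' : InjOn (Ψ ∘ L) (L ⁻¹' s) := hi.comp hb.1.injOn (mapsTo_preimage _ _)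
  exact ⟨him ▸ measurable_image_of_fderivWithin hs' hf hi',
    by rw [← him, lintegral_image_eq_lintegral_abs_det_fderiv_mul volume hs' hf hi', e]⟩

end Vale.Agent.P134.DG
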