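import Vale.Agent.P134.FStm

/-! Local charts of the zero set. -/

open scoped RealInnerProductSpace ContDiff ENNReal Topology Laplacian
open MeasureTheory Set Metric Filter

namespace Vale.Agent.P134.DG

namespace FChartAux

theorem exists_equiv (φ : E 3 →L[ℝ] ℝ) (hφ : φ ≠ 0) :
    ∃ (L : E 3 →L[ℝ] ℝ × ℝ) (A : E 3 ≃L[ℝ] (ℝ × ℝ) × ℝ), (A : E 3 →L[ℝ] (ℝ × ℝ) × ℝ) = L.prod φ := by
  have h1 : Module.finrank ℝ (LinearMap.ker (φ : E 3 →ₗ[ℝ] ℝ)) + 1 = Module.finrank ℝ (E 3) :=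
    Module.Dual.finrank_ker_add_one_of_ne_zero fun h => hφ (ContinuousLinearMap.coe_injective h)
  have h2 : Module.finrank ℝ (E 3) = 3 := by simp
  obtain ⟨k⟩ : Nonempty (LinearMap.ker (φ : E 3 →ₗ[ℝ] ℝ) ≃L[ℝ] ℝ × ℝ) :=
    FiniteDimensional.nonempty_continuousLinearEquiv_of_finrank_eq (by
      rw [Module.finrank_prod, Module.finrank_self]; omega)
  obtain ⟨L, hL⟩ : ∃ L : E 3 →L[ℝ] ℝ × ℝ, ∀ x, φ x = 0 → L x = 0 → x = 0 := by
    refine ⟨(k : _ →L[ℝ] ℝ × ℝ).comp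
      (LinearMap.ker (φ : E 3 →ₗ[ℝ] ℝ)).orthogonalProjectionOnto, fun x h3 h4 => ?_⟩
    have h5 := Submodule.orthogonalProjectionOnto_mem_subspace_eq_self
      (K := LinearMap.ker (φ : E 3 →ₗ[ℝ] ℝ)) ⟨x, h3⟩
    have h6 : k ((LinearMap.ker (φ : E 3 →ₗ[ℝ] ℝ)).orthogonalProjectionOnto x) = 0 := h4
    rw [k.map_eq_zero_iff] at h6
    exact congrArg Subtype.val (h5.symm.trans h6)
  have h3 : Function.Injective ((L.prod φ : E 3 →L[ℝ] (ℝ × ℝ) × ℝ) : E 3 →ₗ[ℝ] (ℝ × ℝ) × ℝ) :=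
    (injective_iff_map_eq_zero _).2 fun x hx =>
      hL x (congrArg Prod.snd hx) (congrArg Prod.fst hx)
  refine ⟨L, (LinearMap.linearEquivOfInjective _ h3 (by
    rw [h2, Module.finrank_prod, Module.finrank_prod, Module.finrank_self])).toContinuousLinearEquiv,
    ?_⟩
  ext1 x
  rfl

end FChartAux

theorem chart_pf (hA : S_Alg) : F_Chart := by
  intro v O ε hv hO y hy hy0
  have hd : Differentiable ℝ v := hv.smooth.differentiable (by simp)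
  have hφ : fderiv ℝ v y ≠ 0 := fun h => by
    have h1 := (hA v y hv (hO.th_le y hy)).1
    simp [NN, gradient, h] at h1
  obtain ⟨L, A, hLA⟩ := FChartAux.exists_equiv _ hφ
  have hG : ContDiffAt ℝ 1 (fun x => (L x, v x)) y :=
    L.contDiff.contDiffAt.prodMk (hv.smooth.of_le (by simp)).contDiffAt
  have hG' : HasFDerivAt (fun x => (L x, v x)) (A : E 3 →L[ℝ] (ℝ × ℝ) × ℝ) y :=
    hLA ▸ L.hasFDerivAt.prodMk (hd y).hasFDerivAt
  obtain ⟨e, he, hye, hs⟩ : ∃ e : OpenPartialHomeomorph (E 3) ((ℝ × ℝ) × ℝ),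
      (∀ x, e x = (L x, v x)) ∧ y ∈ e.source ∧ ContDiffAt ℝ 1 e.symm (e y) :=
    ⟨hG.toOpenPartialHomeomorph _ hG' one_ne_zero, fun _ => rfl,
      hG.mem_toOpenPartialHomeomorph_source hG' one_ne_zero, hG.to_localInverse hG' one_ne_zero⟩
  obtain ⟨V, hV, hVo, hyV⟩ := _root_.eventually_nhds_iff.1 (hs.eventually (by simp))
  have hc : Continuous fun a : ℝ × ℝ => (a, (0 : ℝ)) := by fun_prop
  have hU : IsOpen ((fun a : ℝ × ℝ => (a, (0 : ℝ))) ⁻¹' (e.target ∩ e.symm ⁻¹' O ∩ V)) :=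
    ((e.isOpen_inter_preimage_symm hO.op).inter hVo).preimage hc
  have h0 : ∀ a : ℝ × ℝ, (a, (0 : ℝ)) ∈ e.target → v (e.symm (a, 0)) = 0 := fun a ha =>
    congrArg Prod.snd ((he _).symm.trans (e.right_inv ha))
  refine ⟨_, fun a => e.symm (a, 0), fun a => fderiv ℝ (fun a => e.symm (a, 0)) a,
    e.source ∩ e ⁻¹' V ∩ O, ⟨hU.measurableSet, fun a ha => ?_⟩, fun a ha b hb h => ?_,
    (e.isOpen_inter_preimage hVo).inter hO.op, ⟨⟨hye, hyV⟩, hy⟩, fun x hx hx0 => ?_⟩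
  · have h1 : DifferentiableAt ℝ (fun a : ℝ × ℝ => e.symm (a, 0)) a :=
      ((hV _ ha.2).differentiableAt one_ne_zero).comp a (by fun_prop)
    refine ⟨h1.hasFDerivAt, ha.1.2, h0 a ha.1.1, fun ξ => ?_⟩
    have h2 := (hd _).hasFDerivAt.comp a h1.hasFDerivAt
    have h3 : HasFDerivAt (v ∘ fun a : ℝ × ℝ => e.symm (a, 0)) (0 : ℝ × ℝ →L[ℝ] ℝ) a :=
      (hasFDerivAt_const (0 : ℝ) a).congr_of_eventuallyEq
        ((hU.eventually_mem ha).mono fun b hb => h0 b hb.1.1)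
    exact (InnerProductSpace.toDual_symm_apply).trans (DFunLike.congr_fun (h2.unique h3) ξ)
  · exact congrArg Prod.fst (e.symm.injOn ha.1.1 hb.1.1 h)
  · have h1 : e x = (L x, 0) := by rw [he, hx0]
    have h2 : e.symm (L x, 0) = x := by rw [← h1, e.left_inv hx.1.1]
    have h3 : (L x, (0 : ℝ)) ∈ e.target := h1 ▸ e.map_source hx.1.1
    have h4 : (L x, (0 : ℝ)) ∈ V := h1 ▸ hx.1.2
    refine ⟨L x, ⟨⟨h3, ?_⟩, h4⟩, h2⟩
    rw [mem_preimage, h2]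
    exact hx.2

end Vale.Agent.P134.DG
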