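import Vale.Agent.P134.FStm

/-! The divergence theorem in Fermi coordinates. -/

open scoped RealInnerProductSpace ContDiff ENNReal Topology Laplacian Manifold
open MeasureTheory Set Metric Filter

namespace Vale.Agent.P134.DG

theorem dv_pf (hM : F_Meas) (hT : F_Tan) (hN : F_Int) (hR : T_Rule) (hl : F_DVl) : S_DV := by
  intro v O ε σ hc G hG ⟨K, k1, k2, k3⟩
  obtain ⟨oO, -, cJ, -, -, -, -, -, cD⟩ := (hM v hc.sol).2.2.2.2.2.2.2.2 O ε hc.good
  obtain ⟨-, -, ae, hI⟩ := hN v O ε σ hc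
  have df : ∀ G : E 3 × ℝ → E 3, ContDiffOn ℝ 1 G (Om v O) → ∀ z ∈ Om v O,
      DifferentiableAt ℝ G z := fun G hG z hz =>
    (hG.contDiffAt (oO.mem_nhds hz)).differentiableAt one_ne_zero
  have tan : ∀ G : E 3 × ℝ → E 3, ContDiffOn ℝ 1 G (Om v O) → ∀ K, IsCompact K →
      (∀ z, v z.1 = 0 → z ∉ K → G z = 0) → ∀ z ∈ Om v O, v z.1 = 0 → z ∉ K → dO v G z = 0 :=
    fun G hG K k1 k3 z hz h0 hK => (hT v O ε hc.sol hc.good z hz h0).1 G (df G hG z hz)
      (Filter.mem_of_superset (k1.isClosed.isOpen_compl.mem_nhds hK) fun z' h a => k3 z' a h)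
  have int : ∀ G : E 3 × ℝ → E 3, ContDiffOn ℝ 1 G (Om v O) → ∀ K, IsCompact K → K ⊆ Om v O →
      (∀ z, v z.1 = 0 → z ∉ K → G z = 0) →
      IntegrableOn (fun z => dO v G z * JJ v z) (Om v O) (σ.prod volume) :=
    fun G hG K k1 k2 k3 => (integrable_indicator_iff oO.measurableSet).1 (hI
      ((Om v O).indicator fun z => dO v G z * JJ v z)
      (((cD G hG).mul cJ.continuousOn).congr fun z hz => indicator_of_mem hz _)
      ⟨K, k1, k2, fun z h0 hK => by
        by_cases hz : z ∈ Om v O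
        · rw [indicator_of_mem hz, tan G hG K k1 k3 z hz h0 hK, zero_mul]
        · exact indicator_of_notMem hz _⟩).1
  have k0 : IsCompact (K ∩ {z | v z.1 = 0}) :=
    k1.inter_right (isClosed_eq (hc.sol.smooth.continuous.comp continuous_fst) continuous_const)
  obtain ⟨U, -, u1, -, u2⟩ := k0.induction_on (p := fun s => ∃ U, IsOpen U ∧ s ⊆ U ∧ U ⊆ Om v O ∧
      ∀ G : E 3 × ℝ → E 3, ContDiffOn ℝ 1 G (Om v O) → ∀ K, IsCompact K → K ⊆ U →
        (∀ z : E 3 × ℝ, v z.1 = 0 → z ∉ K → G z = 0) →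
        ∫ z in Om v O, dO v G z * JJ v z ∂(σ.prod volume) = 0)
    ⟨∅, isOpen_empty, Subset.rfl, empty_subset _, fun G hG K k1 k2 k3 => integral_eq_zero_of_ae (by
      filter_upwards [ae_restrict_of_ae ae, ae_restrict_mem oO.measurableSet] with z h1 h2
      rw [tan G hG K k1 k3 z h2 h1.2 fun a => k2 a, zero_mul]
      rfl)⟩
    (fun s t hst ⟨U, a, b, c⟩ => ⟨U, a, hst.trans b, c⟩)
    (fun s t ⟨U, a, b, c, d⟩ ⟨U', a', b', c', d'⟩ => ⟨U ∪ U', a.union a', union_subset_union b b',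
      union_subset c c', fun G hG K k1 k2 k3 => by
        obtain ⟨K1, K2, p1, p2, p3, p4, rfl⟩ := k1.binary_compact_cover a a' k2
        obtain ⟨L, l1, l2, l3⟩ := exists_compact_between p1 a p3
        obtain ⟨f, f0, f1, -⟩ := exists_contMDiffMap_zero_one_of_isClosed (n := 1) 𝓘(ℝ, E 3 × ℝ)
          isOpen_interior.isClosed_compl p1.isClosed (disjoint_compl_left_iff_subset.2 l2)
        have cf : ContDiff ℝ 1 f := f.contMDiff.contDiff
        have g1 : ContDiffOn ℝ 1 (fun z => f z • G z) (Om v O) := cf.contDiffOn.smul hG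
        have g2 : ContDiffOn ℝ 1 (fun z => (1 - f z) • G z) (Om v O) :=
          (contDiff_const.sub cf).contDiffOn.smul hG
        have z1 : ∀ z : E 3 × ℝ, v z.1 = 0 → z ∉ L → f z • G z = 0 := fun z _ hz => by
          rw [f0 fun h => hz (interior_subset h), Pi.zero_apply, zero_smul]
        have z2 : ∀ z : E 3 × ℝ, v z.1 = 0 → z ∉ K2 → (1 - f z) • G z = 0 := fun z h0 hz => by
          by_cases h : z ∈ K1
          · rw [f1 h, Pi.one_apply, sub_self, zero_smul]
          · rw [k3 z h0 fun a => a.elim h hz, smul_zero]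
        have e := integral_add (int _ g1 L l1 (l3.trans c) z1) (int _ g2 K2 p2 (p4.trans c') z2)
        rw [d _ g1 L l1 l3 z1, d' _ g2 K2 p2 p4 z2, add_zero] at e
        refine (setIntegral_congr_fun oO.measurableSet fun z hz => ?_).trans e
        rw [← add_mul, ← (hR v z hc.sol (hc.good.th_le _ hz.1) hz.2).2.1 _ _ (df _ g1 z hz)
          (df _ g2 z hz)]
        simp only [← add_smul, add_sub_cancel, one_smul]⟩)
    fun z hz => by
      obtain ⟨U, a, b, c⟩ := hl v O ε σ hc z (k2 hz.1) hz.2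
      exact ⟨U, mem_nhdsWithin_of_mem_nhds (a.mem_nhds b), U, a, Subset.rfl, c⟩
  exact u2 G hG _ k0 u1 fun z h0 hz => k3 z h0 fun a => hz ⟨a, h0⟩

end Vale.Agent.P134.DG
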