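import Vale.Agent.P134.FStm

/-! The divergence theorem in Fermi coordinates, local form. -/

open scoped RealInnerProductSpace ContDiff ENNReal Topology Laplacian
open MeasureTheory Set Metric Filter

namespace Vale.Agent.P134.DG

namespace FDVlAux

/-- Euclidean divergence. -/
noncomputable def dv3 (G : E 3 → E 3) (x : E 3) : ℝ := ∑ i, ⟪ev i, fderiv ℝ G x (ev i)⟫

theorem cont_term {G : E 3 → E 3} (hG : ContDiff ℝ 1 G) (a b : E 3) :
    Continuous fun x => ⟪a, fderiv ℝ G x b⟫ :=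
  continuous_const.inner ((hG.continuous_fderiv one_ne_zero).clm_apply continuous_const)

theorem cont_dv3 {G : E 3 → E 3} (hG : ContDiff ℝ 1 G) : Continuous (dv3 G) :=
  continuous_finsetSum _ fun _ _ => cont_term hG _ _

theorem int_term {G : E 3 → E 3} (hG : ContDiff ℝ 1 G) (hc : HasCompactSupport G) (a b : E 3) :
    Integrable fun x => ⟪a, fderiv ℝ G x b⟫ :=
  (cont_term hG a b).integrable_of_hasCompactSupport
    ((hc.fderiv_apply ℝ b).comp_left (g := fun w : E 3 => ⟪a, w⟫) (inner_zero_right _))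

theorem zero_term {G : E 3 → E 3} (hG : ContDiff ℝ 1 G) (hc : HasCompactSupport G) (a b : E 3) :
    ∫ x, ⟪a, fderiv ℝ G x b⟫ = 0 := by
  have h := integral_bilinear_fderiv_right_eq_neg_left_of_integrable (μ := volume)
    (f := fun _ : E 3 => a) (g := G) (v := b) (B := innerSL ℝ) (by simp)
    (int_term hG hc a b)
    ((continuous_const.inner hG.continuous).integrable_of_hasCompactSupport
      (hc.comp_left (g := fun w : E 3 => ⟪a, w⟫) (inner_zero_right _)))
    (fun x _ => differentiableAt_const _) (fun x _ => hG.differentiable one_ne_zero x)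
  refine h.trans ?_
  simp

theorem div_zero {G : E 3 → E 3} (hG : ContDiff ℝ 1 G) (hc : HasCompactSupport G) :
    ∫ x, dv3 G x = 0 := by
  unfold dv3
  rw [integral_finsetSum _ fun i _ => int_term hG hc _ _]
  exact Finset.sum_eq_zero fun i _ => zero_term hG hc _ _

theorem cov {Z X : Type} [MeasurableSpace Z] [MeasurableSpace X] {μ : Measure Z} {ν : Measure X}
    {D : Set Z} {T : Set X} {F : Z → X} {J : Z → ℝ} (hD : MeasurableSet D) (hF : Measurable F)
    (hJ : Measurable J) (h0 : ∀ z ∈ D, 0 ≤ J z)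
    (h : ∀ Φ : X → ℝ≥0∞, Measurable Φ →
      ∫⁻ x in T, Φ x ∂ν = ∫⁻ z in D, Φ (F z) * ENNReal.ofReal (J z) ∂μ)
    {φ : X → ℝ} (hφ : Measurable φ) : ∫ x in T, φ x ∂ν = ∫ z in D, φ (F z) * J z ∂μ := by
  have hJ' : Measurable fun z => ENNReal.ofReal (J z) := hJ.ennreal_ofReal
  have e : ν.restrict T =
      Measure.map F ((μ.restrict D).withDensity fun z => ENNReal.ofReal (J z)) := by
    refine Measure.ext_of_lintegral _ fun Φ hΦ => ?_
    rw [h Φ hΦ, lintegral_map hΦ hF,
      lintegral_withDensity_eq_lintegral_mul _ hJ' (g := fun z => Φ (F z)) (hΦ.comp hF)]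
    exact lintegral_congr fun z => mul_comm _ _
  rw [e, integral_map hF.aemeasurable hφ.aestronglyMeasurable,
    integral_withDensity_eq_integral_toReal_smul hJ'
      (Eventually.of_forall fun z => ENNReal.ofReal_lt_top)]
  refine setIntegral_congr_fun hD fun z hz => ?_
  simp only [ENNReal.toReal_ofReal (h0 z hz), smul_eq_mul, mul_comm]

end FDVlAux

open FDVlAux in
theorem dvl_pf (hA : S_Alg) (hM : F_Meas) (hL : F_LI) (hT : F_Tan) (hF : S_AF) (hN : F_Int) :
    F_DVl := by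
  intro v O ε σ hC z₀ hz₀ hv₀
  obtain ⟨U, I, hU, hzU, hUO, hO', hI⟩ := hL v O ε hC.sol hC.good z₀ hz₀ hv₀
  refine ⟨U, hU, hzU, hUO, fun G hG K hK hKU h0 => ?_⟩
  obtain ⟨-, -, -, -, mF, mJ, -, -, hM'⟩ := hM v hC.sol
  obtain ⟨hOm, cF, -⟩ := hM' O ε hC.good
  obtain ⟨-, -, hae, -⟩ := hN v O ε σ hC
  have hZ : IsClosed {z : E 3 × ℝ | v z.1 = 0} :=
    isClosed_eq (hC.sol.smooth.continuous.comp continuous_fst) continuous_const
  set D := U ∩ {z : E 3 × ℝ | v z.1 = 0} with hD
  have mD : MeasurableSet D := hU.measurableSet.inter hZ.measurableSet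
  have hDO : D ⊆ Om v O := inter_subset_left.trans hUO
  have inj : InjOn (FF v) D := fun z hz z' hz' e => by
    rw [← (hI z hz.1 hz.2).1, e, (hI z' hz'.1 hz'.2).1]
  have hK' : IsCompact (FF v '' (K ∩ {z : E 3 × ℝ | v z.1 = 0})) :=
    (hK.inter_right hZ).image_of_continuousOn
      (cF.continuousOn.mono (inter_subset_left.trans (hKU.trans hUO)))
  set G' : E 3 → E 3 := (FF v '' D).indicator fun x => G (I x) with hG'
  have g0 : ∀ x, x ∉ FF v '' (K ∩ {z : E 3 × ℝ | v z.1 = 0}) → G' x = 0 := fun x hx => by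
    by_cases h : x ∈ FF v '' D
    · obtain ⟨z, hz, rfl⟩ := h
      rw [hG', indicator_of_mem (mem_image_of_mem _ hz), (hI z hz.1 hz.2).1]
      exact h0 z hz.2 fun hk => hx ⟨z, ⟨hk, hz.2⟩, rfl⟩
    · exact indicator_of_notMem h _
  have g1 : ∀ x, x ∉ FF v '' D → G' =ᶠ[𝓝 x] fun _ => 0 := fun x hx => by
    have : x ∈ (FF v '' (K ∩ {z : E 3 × ℝ | v z.1 = 0}))ᶜ := fun h =>
      hx (image_mono (inter_subset_inter_left _ hKU) h)
    filter_upwards [hK'.isClosed.isOpen_compl.mem_nhds this] with y hy using g0 y hy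
  have g2 : ∀ x ∈ FF v '' D, G' =ᶠ[𝓝 x] fun x => G (I x) := fun x hx => by
    filter_upwards [hO'.mem_nhds hx] with y hy using indicator_of_mem hy _
  have gz : ∀ z ∈ D, ContDiffAt ℝ 1 G (I (FF v z)) := fun z hz => by
    rw [(hI z hz.1 hz.2).1]
    exact hG.contDiffAt (hOm.mem_nhds (hDO hz))
  have cG : ContDiff ℝ 1 G' := contDiff_iff_contDiffAt.2 fun x => by
    by_cases h : x ∈ FF v '' D
    · obtain ⟨z, hz, rfl⟩ := h
      exact ((gz z hz).comp _ (hI z hz.1 hz.2).2.1).congr_of_eventuallyEq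
        (g2 _ (mem_image_of_mem _ hz))
    · exact contDiffAt_const.congr_of_eventuallyEq (g1 x h)
  have d1 : ∀ x, x ∉ FF v '' D → dv3 G' x = 0 := fun x hx => by
    simp [dv3, (g1 x hx).fderiv_eq]
  have d2 : ∀ z ∈ D, dv3 G' (FF v z) = dO v G z := fun z hz => by
    obtain ⟨i1, i2, i3⟩ := hI z hz.1 hz.2
    have := fderiv_comp (FF v z) ((gz z hz).differentiableAt one_ne_zero)
      (i2.differentiableAt one_ne_zero)
    unfold dv3 dO
    rw [(g2 _ (mem_image_of_mem _ hz)).fderiv_eq]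
    refine Finset.sum_congr rfl fun i _ => ?_
    rw [show (fun x => G (I x)) = G ∘ I from rfl, this, ContinuousLinearMap.comp_apply, i1, i3]
  have hJ : ∀ z ∈ D, 0 ≤ JJ v z := fun z hz => by
    obtain ⟨-, -, -, -, -, -, -, -, -, -, -, -, h⟩ :=
      hA v z.1 hC.sol (hC.good.th_le _ (hDO hz).1)
    obtain ⟨-, -, -, -, -, -, -, h, -⟩ := h z.2 (hDO hz).2
    exact le_trans (by norm_num) h
  have key := cov (ν := volume) (μ := σ.prod volume) mD mF mJ hJ
    (fun Φ hΦ => ((hF v O ε σ hC D mD hDO (fun z hz => hz.2) Φ hΦ).2 inj).2)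
    (cont_dv3 cG).measurable
  rw [setIntegral_eq_integral_of_forall_compl_eq_zero d1,
    div_zero cG (HasCompactSupport.intro hK' g0)] at key
  rw [setIntegral_eq_of_subset_of_ae_sdiff_eq_zero hOm.measurableSet.nullMeasurableSet hDO, key]
  · exact setIntegral_congr_fun mD fun z hz => by simp only [d2 z hz]
  · filter_upwards [hae] with z hz hz'
    have hk : z ∈ Kᶜ := fun h => hz'.2 ⟨hKU h, hz.2⟩
    rw [(hT v O ε hC.sol hC.good z hz'.1 hz.2).1 G
      ((hG.contDiffAt (hOm.mem_nhds hz'.1)).differentiableAt one_ne_zero) ?_, zero_mul]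
    filter_upwards [hK.isClosed.isOpen_compl.mem_nhds hk] with y hy hy' using h0 y hy' hy

end Vale.Agent.P134.DG
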