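import Vale.Agent.P134.FStm

/-! The determinant of three vectors under a linear map fixing the normal. -/

open scoped RealInnerProductSpace ContDiff ENNReal Topology Laplacian
open MeasureTheory Set Metric Filter

namespace Vale.Agent.P134.DG

namespace FDetAux

theorem d3_eq (a b c : E 3) :
    d3 a b c = (EuclideanSpace.basisFun (Fin 3) ℝ).toBasis.det ![a, b, c] := by
  rw [Module.Basis.det_apply, ← Matrix.det_transpose, d3]
  congr 1
  ext i j
  fin_cases i <;> simp [Module.Basis.toMatrix_apply]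

theorem d3_map (B : E 3 →L[ℝ] E 3) (a b c : E 3) :
    d3 (B a) (B b) (B c) = LinearMap.det (B : E 3 →ₗ[ℝ] E 3) * d3 a b c := by
  rw [d3_eq, d3_eq, ← Module.Basis.det_comp]
  congr 1
  funext i
  fin_cases i <;> rfl

theorem inn (a b : E 3) : ⟪a, b⟫ = a 0 * b 0 + a 1 * b 1 + a 2 * b 2 := by
  simp [PiLp.inner_apply, Fin.sum_univ_three, mul_comm]

theorem gram (a b c : E 3) : d3 a b c ^ 2 = ⟪c, c⟫ * (⟪a, a⟫ * ⟪b, b⟫ - ⟪a, b⟫ ^ 2) -
    ⟪c, a⟫ * (⟪c, a⟫ * ⟪b, b⟫ - ⟪a, b⟫ * ⟪c, b⟫) + ⟪c, b⟫ * (⟪c, a⟫ * ⟪a, b⟫ - ⟪a, a⟫ * ⟪c, b⟫) := by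
  simp only [inn, d3, Matrix.det_fin_three, Matrix.of_apply, Matrix.cons_val_zero,
    Matrix.cons_val_one, Matrix.cons_val]
  ring

end FDetAux

theorem det_pf : F_Det := by
  intro B a b N h1 ha hb hB
  have h := FDetAux.gram a b N
  simp only [ha, hb, real_inner_self_eq_norm_sq, h1, one_pow, one_mul, zero_mul, sub_zero,
    add_zero] at h
  have e := FDetAux.d3_map B a b N
  rw [hB] at e
  rw [e, abs_mul, ar, ← h, Real.sqrt_sq_eq_abs]

end Vale.Agent.P134.DG
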