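import Vale.Agent.P134.FStm

/-! Injectivity of the normal exponential map on a ball. -/

open scoped RealInnerProductSpace ContDiff ENNReal Topology Laplacian
open MeasureTheory Set Metric Filter

namespace Vale.Agent.P134.DG

namespace FInjAux

theorem alg {N N' D : E 3} {t t' L a b : ℝ} (hN : ‖N‖ = 1) (hD : D = t • N - t' • N')
    (ht : |t'| ≤ L) (h1 : |⟪N, D⟫| ≤ a * ‖D‖) (h2 : ‖N - N'‖ ≤ b * ‖D‖) (h : a + 2 * (b * L) < 1) :
    D = 0 ∧ t = t' := by
  have e : D = (t - t') • N + t' • (N - N') := by rw [hD]; module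
  have k : ‖t' • (N - N')‖ ≤ b * L * ‖D‖ := by
    rw [norm_smul, mul_comm b, mul_assoc]
    exact mul_le_mul ht h2 (norm_nonneg _) ((abs_nonneg _).trans ht)
  have e1 : t - t' = ⟪N, D⟫ - ⟪N, t' • (N - N')⟫ := by
    rw [e, inner_add_right, inner_smul_right N N, real_inner_self_eq_norm_sq, hN]; ring
  have k1 : |⟪N, t' • (N - N')⟫| ≤ b * L * ‖D‖ :=
    (abs_real_inner_le_norm _ _).trans (by rw [hN, one_mul]; exact k)
  have k2 : |t - t'| ≤ a * ‖D‖ + b * L * ‖D‖ := by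
    rw [e1]; exact (abs_sub _ _).trans (add_le_add h1 k1)
  have k3 : ‖D‖ ≤ |t - t'| + b * L * ‖D‖ := by
    have := norm_add_le ((t - t') • N) (t' • (N - N'))
    rw [← e, norm_smul, hN, mul_one, Real.norm_eq_abs] at this
    linarith
  have k4 : ‖D‖ = 0 := le_antisymm (by nlinarith [norm_nonneg D]) (norm_nonneg _)
  rw [k4] at k2
  exact ⟨norm_eq_zero.1 k4, sub_eq_zero.1 (abs_nonpos_iff.1 (by linarith))⟩

end FInjAux

theorem inj_pf (hA : S_Alg) : S_Inj := by
  rintro v O ε L hv hg e0 e1 hL y₀ h0 v0 ⟨y, t⟩ ⟨hy, vy, -⟩ ⟨y', t'⟩ ⟨hy', vy', ht'⟩ e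
  have hs := fun x (hx : x ∈ ball y₀ 3) => hg.small y₀ h0 v0 x (ball_subset_ball (by norm_num) hx)
  have hB := fun x (hx : x ∈ ball y₀ 3) => hA v x hv ((hs x hx).1.trans (by linarith))
  have c2 : ContDiff ℝ 2 v := hv.smooth.of_le two_le_oo
  have n1 : ‖NN v y - NN v y'‖ ≤ 2 * ε * ‖y' - y‖ := by
    rw [norm_sub_rev y']
    exact (convex_ball y₀ 3).norm_image_sub_le_of_norm_fderiv_le (𝕜 := ℝ)
      (fun x hx => (hB x hx).2.1.differentiableAt (by simp))
      (fun x hx => (hB x hx).2.2.2.2.2.2.2.2.2.2.1.trans (by linarith [(hs x hx).2.1])) hy' hy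
  have n2 : ∀ x ∈ ball y₀ 3, ‖fderiv ℝ v x - fderiv ℝ v y‖ ≤ 6 * ε := fun x hx => by
    have a := (convex_ball y₀ 3).norm_image_sub_le_of_norm_fderiv_le (𝕜 := ℝ) (f := fderiv ℝ v)
      (C := ε) (fun x _ => (c2.fderiv_right (m := 1) (by norm_num)).differentiable one_ne_zero x)
      (fun x hx => by
        rw [← norm_iteratedFDeriv_one, norm_iteratedFDeriv_fderiv]; exact (hs x hx).2.1) hy hx
    have b : ‖x - y‖ ≤ 6 := by
      rw [← dist_eq_norm]
      linarith [dist_triangle_right x y y₀, mem_ball.1 hx, mem_ball.1 hy]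
    nlinarith
  have n3 := (convex_ball y₀ 3).norm_image_sub_le_of_norm_fderiv_le' (𝕜 := ℝ)
    (fun x _ => c2.differentiable (by simp) x) n2 hy hy'
  replace vy : v y = 0 := vy
  replace vy' : v y' = 0 := vy'
  rw [vy, vy', sub_zero, zero_sub, norm_neg, Real.norm_eq_abs] at n3
  have n4 : ‖gradient v y‖⁻¹ ≤ 3 / 2 := by
    have a : 1 - ‖gradient v y‖ ^ 2 ≤ ε := (hs y hy).1
    have b : 2 / 3 ≤ ‖gradient v y‖ := by
      by_contra c
      nlinarith [norm_nonneg (gradient v y)]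
    exact (inv_anti₀ (by norm_num) b).trans (by norm_num)
  have n5 : |⟪NN v y, y' - y⟫| ≤ 9 * ε * ‖y' - y‖ := by
    rw [NN, real_inner_smul_left, inner_gradient, abs_mul, abs_of_nonneg (by positivity)]
    exact (mul_le_mul n4 n3 (abs_nonneg _) (by norm_num)).trans (le_of_eq (by ring))
  have e' : y + t • NN v y = y' + t' • NN v y' := e
  obtain ⟨a, b⟩ := FInjAux.alg (hB y hy).1 (t := t) (t' := t') (N' := NN v y') (D := y' - y)
    (by linear_combination (norm := module) -e') ht' n5 n1 (by linarith)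
  exact Prod.ext (sub_eq_zero.1 a).symm b

end Vale.Agent.P134.DG
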