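import Vale.Agent.P134.FStm

/-! Integration over the Fermi domain. -/

open scoped RealInnerProductSpace ContDiff ENNReal Topology Laplacian
open MeasureTheory Set Metric Filter

namespace Vale.Agent.P134.DG

theorem int_pf (hM : F_Meas) : F_Int := by
  intro v O ε σ h
  have lf : IsLocallyFiniteMeasure σ := ⟨fun x => ⟨ball x 1, ball_mem_nhds x one_pos,
    (h.surf.vol _ measurableSet_ball).trans_lt (ENNReal.mul_lt_top (by simp)
      (isBounded_ball.thickening.measure_lt_top))⟩⟩
  have a1 : ∀ᵐ y ∂σ, y ∈ O ∧ v y = 0 := h.surf.supp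
  have a2 : ∀ᵐ z ∂(σ.prod (volume : Measure ℝ)), z.1 ∈ O ∧ v z.1 = 0 :=
    Measure.quasiMeasurePreserving_fst.ae a1
  refine ⟨lf, a1, a2, fun f hf ⟨K, hK, hKO, h0⟩ => ?_⟩
  have hO : IsOpen (Om v O) := ((hM v h.sol).2.2.2.2.2.2.2.2 O ε h.good).1
  have e : f =ᵐ[σ.prod volume] K.indicator f := a2.mono fun z hz => by
    by_cases hz' : z ∈ K
    · rw [indicator_of_mem hz']
    · rw [indicator_of_notMem hz', h0 z hz.2 hz']
  have i : Integrable f (σ.prod volume) :=
    ((integrable_indicator_iff hK.measurableSet).2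
      ((hf.mono hKO).integrableOn_compact hK)).congr e.symm
  refine ⟨i, ?_, i.integral_prod_left⟩
  rw [setIntegral_eq_integral_of_ae_compl_eq_zero, integral_prod _ i]
  exact a2.mono fun z hz hn => h0 z hz.2 fun hz' => hn (hKO hz')

end Vale.Agent.P134.DG
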