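import Vale.Agent.P134.FStm

/-! The local inverse of the normal exponential map. -/

open scoped RealInnerProductSpace ContDiff ENNReal Topology Laplacian
open MeasureTheory Set Metric Filter

namespace Vale.Agent.P134.DG

namespace FLIAux

variable {v : E 3 → ℝ} {O : Set (E 3)} {ε : ℝ} {z : E 3 × ℝ}

/-- The normal exponential map together with the level. -/
noncomputable def Ga (v : E 3 → ℝ) (z : E 3 × ℝ) : E 3 × ℝ := (FF v z, v z.1)

theorem cdF (hM : F_Meas) (hv : Sol v) (hg : Good v O ε) (hz : z ∈ Om v O) :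
    ContDiffAt ℝ 1 (FF v) z := by
  obtain ⟨-, -, -, -, -, -, -, -, h⟩ := hM v hv
  obtain ⟨h1, h2, -⟩ := h O ε hg
  exact (h2.contDiffAt (h1.mem_nhds hz)).of_le one_le_oo

theorem cdG (hM : F_Meas) (hv : Sol v) (hg : Good v O ε) (hz : z ∈ Om v O) :
    ContDiffAt ℝ 1 (Ga v) z :=
  (cdF hM hv hg hz).prodMk (((hv.smooth.of_le one_le_oo).comp contDiff_fst).contDiffAt)

theorem fd_grad (v : E 3 → ℝ) (y a : E 3) : fderiv ℝ v y a = ⟪gradient v y, a⟫ := by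
  rw [gradient, InnerProductSpace.toDual_symm_apply]

theorem grad_eq {y : E 3} (h : ‖NN v y‖ = 1) :
    ‖gradient v y‖ ≠ 0 ∧ gradient v y = ‖gradient v y‖ • NN v y := by
  have h0 : ‖gradient v y‖ ≠ 0 := by
    intro h0
    rw [NN, h0, inv_zero, zero_smul, norm_zero] at h
    exact zero_ne_one h
  exact ⟨h0, by rw [NN, smul_smul, mul_inv_cancel₀ h0, one_smul]⟩

theorem inner_pr {y : E 3} (h : ‖NN v y‖ = 1) (a : E 3) : ⟪NN v y, Pr v y a⟫ = 0 := by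
  simp only [Pr, sub_apply, ContinuousLinearMap.id_apply,
    ContinuousLinearMap.smulRight_apply, innerSL_apply_apply, inner_sub_right,
    real_inner_smul_right, real_inner_self_eq_norm_sq, h]
  ring

theorem eqv (hA : S_Alg) (hM : F_Meas) (hv : Sol v) (hg : Good v O ε) (hz : z ∈ Om v O) :
    ∃ e : (E 3 × ℝ) ≃L[ℝ] (E 3 × ℝ), HasFDerivAt (Ga v) (e : (E 3 × ℝ) →L[ℝ] (E 3 × ℝ)) z ∧
      ∀ ξ, e (DI v z ξ) = (ξ, 0) := by
  obtain ⟨hN, -, -, -, -, -, -, -, -, -, -, -, h⟩ := hA v z.1 hv (hg.th_le _ hz.1)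
  obtain ⟨-, -, -, -, -, -, -, -, -, -, hF, -⟩ := h z.2 hz.2
  obtain ⟨h0, hp⟩ := grad_eq hN
  have d1 := ((cdF hM hv hg hz).differentiableAt one_ne_zero).hasFDerivAt
  have d2 : HasFDerivAt (fun w : E 3 × ℝ => v w.1)
      ((fderiv ℝ v z.1).comp (ContinuousLinearMap.fst ℝ (E 3) ℝ)) z :=
    ((hv.smooth.of_le one_le_oo).differentiable one_ne_zero z.1).hasFDerivAt.comp z hasFDerivAt_fst
  obtain ⟨D, hD, hD'⟩ : ∃ D : (E 3 × ℝ) →L[ℝ] (E 3 × ℝ), HasFDerivAt (Ga v) D z ∧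
      ∀ w, D w = (fderiv ℝ (FF v) z w, ⟪gradient v z.1, w.1⟫) :=
    ⟨_, d1.prodMk d2, fun w => by rw [← fd_grad]; rfl⟩
  have k : ∀ ξ, D (DI v z ξ) = (ξ, 0) := fun ξ => by
    rw [hD', hF ξ, hp, real_inner_smul_left, DI, inner_pr hN, mul_zero]
  have hs : Function.Surjective D := by
    rintro ⟨ξ, s⟩
    have e : (D ((s / ‖gradient v z.1‖) • NN v z.1, 0)).2 = s := by
      have e1 : ⟪gradient v z.1, NN v z.1⟫ = ‖gradient v z.1‖ := by
        nth_rewrite 1 [hp]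
        rw [real_inner_smul_left, real_inner_self_eq_norm_sq, hN, one_pow, mul_one]
      rw [hD', real_inner_smul_right, e1]
      exact div_mul_cancel₀ s h0
    refine ⟨((s / ‖gradient v z.1‖) • NN v z.1, 0) +
      DI v z (ξ - (D ((s / ‖gradient v z.1‖) • NN v z.1, 0)).1), ?_⟩
    rw [map_add, k]
    exact Prod.ext (by simp) (by simp [e])
  have hi : Function.Injective D :=
    (LinearMap.injective_iff_surjective (f := (D : (E 3 × ℝ) →ₗ[ℝ] (E 3 × ℝ)))).2 hs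
  exact ⟨(LinearEquiv.ofBijective (D : (E 3 × ℝ) →ₗ[ℝ] (E 3 × ℝ)) ⟨hi, hs⟩).toContinuousLinearEquiv,
    hD, k⟩

theorem tan0 {F : Type} [NormedAddCommGroup F] [NormedSpace ℝ F] (hL : F_LI) (hv : Sol v)
    (hg : Good v O ε) (hz : z ∈ Om v O) (h0 : v z.1 = 0) {G : E 3 × ℝ → F}
    (hG : DifferentiableAt ℝ G z) (h : ∀ᶠ z' in 𝓝 z, v z'.1 = 0 → G z' = 0) (ξ : E 3) :
    fderiv ℝ G z (DI v z ξ) = 0 := by
  obtain ⟨U, I, -, hU, -, ho, hI⟩ := hL v O ε hv hg z hz h0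
  obtain ⟨e, hc, hd⟩ := hI z hU h0
  have hI' := hc.differentiableAt one_ne_zero
  have ht : Tendsto I (𝓝 (FF v z)) (𝓝 z) := by
    have := hI'.continuousAt.tendsto
    rwa [e] at this
  have h1 : (fun x => G (I x)) =ᶠ[𝓝 (FF v z)] fun _ => 0 := by
    filter_upwards [ht.eventually h, ho.mem_nhds ⟨z, ⟨hU, h0⟩, rfl⟩] with x hx hx'
    obtain ⟨w, hw, rfl⟩ := hx'
    refine hx ?_
    rw [(hI w hw.1 hw.2).1]
    exact hw.2
  have h2 : HasFDerivAt G (fderiv ℝ G z) (I (FF v z)) := e.symm ▸ hG.hasFDerivAt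
  have h3 : fderiv ℝ (fun x => G (I x)) (FF v z) = (fderiv ℝ G z).comp (fderiv ℝ I (FF v z)) :=
    (h2.comp _ hI'.hasFDerivAt).fderiv
  rw [← hd, ← ContinuousLinearMap.comp_apply, ← h3, h1.fderiv_eq]
  simp

end FLIAux

open FLIAux in
theorem li_pf (hA : S_Alg) (hM : F_Meas) : F_LI := by
  intro v O ε hv hg z₀ hz₀ _
  have ho : IsOpen (Om v O) := by
    obtain ⟨-, -, -, -, -, -, -, -, h⟩ := hM v hv
    exact (h O ε hg).1
  obtain ⟨e₀, he₀, -⟩ := eqv hA hM hv hg hz₀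
  obtain ⟨P, hP, hs⟩ : ∃ P : OpenPartialHomeomorph (E 3 × ℝ) (E 3 × ℝ),
      (P : E 3 × ℝ → E 3 × ℝ) = Ga v ∧ z₀ ∈ P.source :=
    ⟨(cdG hM hv hg hz₀).toOpenPartialHomeomorph _ he₀ one_ne_zero, rfl,
      ContDiffAt.mem_toOpenPartialHomeomorph_source _ _ _⟩
  have hv0 : ∀ z : E 3 × ℝ, v z.1 = 0 → P z = (FF v z, 0) := fun z h => by rw [hP, Ga, h]
  refine ⟨P.source ∩ Om v O, fun x => P.symm (x, 0), P.open_source.inter ho, ⟨hs, hz₀⟩,
    inter_subset_right, ?_, fun z hz h => ?_⟩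
  · have e : FF v '' (P.source ∩ Om v O ∩ {z | v z.1 = 0}) =
        (fun x : E 3 => (x, (0 : ℝ))) ⁻¹' (P.target ∩ P.symm ⁻¹' Om v O) := by
      ext x
      constructor
      · rintro ⟨z, ⟨⟨h1, h2⟩, h3⟩, rfl⟩
        rw [mem_preimage, ← hv0 z h3]
        exact ⟨P.map_source h1, by rw [mem_preimage, P.left_inv h1]; exact h2⟩
      · rintro ⟨h1, h2⟩
        have h3 := P.right_inv h1
        rw [hP] at h3
        exact ⟨P.symm (x, 0), ⟨⟨P.map_target h1, h2⟩, congrArg Prod.snd h3⟩,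
          congrArg Prod.fst h3⟩
    rw [e]
    exact (P.isOpen_inter_preimage_symm ho).preimage (by fun_prop)
  · obtain ⟨e, he, hk⟩ := eqv hA hM hv hg hz.2
    have h1 : P.symm (FF v z, 0) = z := by rw [← hv0 z h, P.left_inv hz.1]
    have h2 : (FF v z, (0 : ℝ)) ∈ P.target := hv0 z h ▸ P.map_source hz.1
    have h3 : HasFDerivAt P (e : (E 3 × ℝ) →L[ℝ] (E 3 × ℝ)) (P.symm (FF v z, 0)) := by
      rw [h1, hP]
      exact he
    have h4 : ContDiffAt ℝ 1 P (P.symm (FF v z, 0)) := by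
      rw [h1, hP]
      exact cdG hM hv hg hz.2
    refine ⟨h1, (P.contDiffAt_symm h2 h3 h4).comp (FF v z) (by fun_prop), fun ξ => ?_⟩
    have h7 : HasFDerivAt (fun x : E 3 => (x, (0 : ℝ))) (ContinuousLinearMap.inl ℝ (E 3) ℝ)
        (FF v z) := hasFDerivAt_prodMk_left _ _
    have h5 := HasFDerivAt.comp (f := fun x : E 3 => (x, (0 : ℝ))) (FF v z)
      (P.hasFDerivAt_symm h2 h3) h7
    have h6 : fderiv ℝ (fun x => P.symm (x, 0)) (FF v z) = _ := h5.fderiv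
    rw [h6, ContinuousLinearMap.comp_apply, ContinuousLinearMap.inl_apply, ← hk ξ]
    exact e.symm_apply_apply _

theorem tan_pf (hL : F_LI) : F_Tan := by
  intro v O ε hv hg z hz h0
  refine ⟨fun G hG h => ?_, fun G hG h => ?_⟩
  · simp only [dO, FLIAux.tan0 hL hv hg hz h0 hG h, inner_zero_right, Finset.sum_const_zero]
  · simp only [gr, FLIAux.tan0 hL hv hg hz h0 hG h, zero_smul, Finset.sum_const_zero]

end Vale.Agent.P134.DG
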