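import Vale.Agent.P134.FStm

/-! The inverse of `1 + t S`. -/

open scoped RealInnerProductSpace ContDiff ENNReal Topology Laplacian
open MeasureTheory Set Metric Filter

namespace Vale.Agent.P134.DG

namespace FLinAux

theorem sq_le (S : E 3 →L[ℝ] E 3) (a : E 3) : ‖S a‖ ^ 2 ≤ fro S * ‖a‖ ^ 2 := by
  have e : S a = ∑ i, a i • S (ev i) := by
    conv_lhs => rw [← (EuclideanSpace.basisFun (Fin 3) ℝ).sum_repr a]
    simp [ev]
  have h : ‖S a‖ ≤ ∑ i, ‖S (ev i)‖ * ‖a i‖ := by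
    rw [e]
    exact (norm_sum_le _ _).trans_eq (Finset.sum_congr rfl fun i _ => by rw [norm_smul, mul_comm])
  rw [EuclideanSpace.norm_sq_eq a]
  exact (pow_le_pow_left₀ (norm_nonneg _) h 2).trans (Finset.sum_mul_sq_le_sq_mul_sq _ _ _)

theorem tr_le (S : E 3 →L[ℝ] E 3) : (∑ i, ⟪ev i, S (ev i)⟫) ^ 2 ≤ 3 * fro S := by
  have h : ∀ i, ⟪ev i, S (ev i)⟫ ^ 2 ≤ ‖S (ev i)‖ ^ 2 := fun i => by
    have := abs_real_inner_le_norm (ev i) (S (ev i))
    rw [show ‖(ev i : E 3)‖ = 1 by simp [ev], one_mul] at this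
    exact sq_le_sq' (abs_le.1 this).1 (abs_le.1 this).2
  refine sq_sum_le_card_mul_sum_sq.trans ?_
  rw [Finset.card_univ, Fintype.card_fin]
  exact mul_le_mul_of_nonneg_left (Finset.sum_le_sum fun i _ => h i) (by norm_num)

end FLinAux

theorem lin_pf : F_Lin := by
  intro S N t H K _ h0 hs hH hK ht
  have h1 : ∀ a, ‖t • S a‖ ≤ 1 / 20 * ‖a‖ := fun a => by
    refine (abs_le_of_sq_le_sq' ?_ (by positivity)).2
    rw [norm_smul, mul_pow, Real.norm_eq_abs, sq_abs]
    nlinarith [mul_le_mul_of_nonneg_left (FLinAux.sq_le S a) (sq_nonneg t), sq_nonneg ‖a‖]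
  have hu : IsUnit (1 + t • S) := by
    have h : ‖-(t • S)‖ < 1 := by
      rw [norm_neg]
      exact ((t • S).opNorm_le_bound (by norm_num) h1).trans_lt (by norm_num)
    simpa only [sub_neg_eq_add] using isUnit_one_sub_of_norm_lt_one h
  have e1 : ∀ a, Ring.inverse (1 + t • S) (a + t • S a) = a := fun a =>
    congrArg (fun T : E 3 →L[ℝ] E 3 => T a) (Ring.inverse_mul_cancel _ hu)
  have e2 : ∀ a, Ring.inverse (1 + t • S) a + t • S (Ring.inverse (1 + t • S) a) = a := fun a =>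
    congrArg (fun T : E 3 →L[ℝ] E 3 => T a) (Ring.mul_inverse_cancel _ hu)
  have f0 : 0 ≤ fro S := Finset.sum_nonneg fun _ _ => sq_nonneg _
  have f1 : (t * H) ^ 2 ≤ (9 / 100) ^ 2 := by
    have := mul_le_mul_of_nonneg_left (FLinAux.tr_le S) (sq_nonneg t)
    rw [← hH] at this
    nlinarith
  have f2 := abs_le.1 (abs_le_of_sq_le_sq f1 (by norm_num))
  have f3 : t ^ 2 * K = ((t * H) ^ 2 - t ^ 2 * fro S) / 2 := by rw [hK]; ring
  refine ⟨hu, e1, e2, fun a b => ?_, by simpa only [h0, smul_zero, add_zero] using e1 N,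
    fun a => ?_, by nlinarith [sq_nonneg (t * H)], by nlinarith [mul_nonneg (sq_nonneg t) f0]⟩
  · generalize Ring.inverse (1 + t • S) = B at e2
    conv_lhs => rw [← e2 b]
    conv_rhs => rw [← e2 a]
    rw [inner_add_right, inner_add_left, real_inner_smul_left, real_inner_smul_right, hs]
  · generalize Ring.inverse (1 + t • S) = B at e2
    have := norm_sub_le a (t • S (B a))
    rw [← eq_sub_of_add_eq (e2 a)] at this
    linarith [h1 (B a)]

end Vale.Agent.P134.DG
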