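import Vale.Agent.P134.FStm

/-! The Jacobian of the normal exponential map: linear algebra. -/

open scoped RealInnerProductSpace ContDiff ENNReal Topology Laplacian
open MeasureTheory Set Metric Filter

namespace Vale.Agent.P134.DG

namespace FLin2Aux

/-- the matrix of an operator -/
noncomputable def mx (S : E 3 →ₗ[ℝ] E 3) : Matrix (Fin 3) (Fin 3) ℝ :=
  LinearMap.toMatrix (EuclideanSpace.basisFun (Fin 3) ℝ).toBasis
    (EuclideanSpace.basisFun (Fin 3) ℝ).toBasis S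

theorem mx_apply (S : E 3 →ₗ[ℝ] E 3) (i j : Fin 3) : mx S i j = S (ev j) i := by
  simp [mx, LinearMap.toMatrix_apply, ev]

theorem inner_ev (i : Fin 3) (x : E 3) : ⟪ev i, x⟫ = x i := by
  simp [ev, EuclideanSpace.inner_single_left]

theorem mat (A C : Matrix (Fin 3) (Fin 3) ℝ) (t H K : ℝ) (hs : ∀ i j, A i j = A j i)
    (hd : A.det = 0) (hH : H = ∑ i, A i i) (hK : K = (H ^ 2 - ∑ i, ∑ j, A j i ^ 2) / 2)
    (hC : C * (1 + t • A) = 1) : (1 + t • A).det = 1 + t * H + t ^ 2 * K ∧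
      (A * C).trace * (1 + t * H + t ^ 2 * K) = H + 2 * t * K := by
  have s1 := hs 1 0
  have s2 := hs 2 0
  have s3 := hs 2 1
  simp only [Fin.sum_univ_three] at hH hK
  rw [Matrix.det_fin_three] at hd
  simp only [s1, s2, s3] at hd hK
  refine ⟨?_, ?_⟩
  · rw [Matrix.det_fin_three, hK, hH]
    simp [s1, s2, s3]
    linear_combination t ^ 3 * hd
  · have e : (1 + t • A) * ((1 + t * H) • A - t • (A * A)) = (1 + t * H + t ^ 2 * K) • A := by
      ext i j
      rw [hK, hH]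
      fin_cases i <;> fin_cases j <;>
        simp [Matrix.mul_apply, Fin.sum_univ_three, Matrix.one_apply, s1, s2, s3] <;>
        first | ring1 | linear_combination (-t ^ 2) * hd
    have e2 := congrArg (fun X => (C * X).trace) e
    simp only [← Matrix.mul_assoc, hC, Matrix.one_mul, Matrix.mul_smul, Matrix.trace_smul,
      smul_eq_mul] at e2
    rw [Matrix.trace_mul_comm, mul_comm, ← e2, hK, hH]
    simp [Matrix.trace, Matrix.mul_apply, Fin.sum_univ_three, s1, s2, s3]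
    ring

end FLin2Aux

open FLin2Aux in
theorem lin2_pf : F_Lin2 := by
  intro S B N t H K hN hS hs hH hK hB
  have hd : (mx (S : E 3 →ₗ[ℝ] E 3)).det = 0 := by
    rw [mx, LinearMap.det_toMatrix, LinearMap.det_eq_zero_iff_ker_ne_bot, Submodule.ne_bot_iff]
    exact ⟨N, hS, fun h => by rw [h, norm_zero] at hN; exact zero_ne_one hN⟩
  have e1 : mx ((1 + t • S : E 3 →L[ℝ] E 3) : E 3 →ₗ[ℝ] E 3) = 1 + t • mx (S : E 3 →ₗ[ℝ] E 3) := by
    have : ((1 + t • S : E 3 →L[ℝ] E 3) : E 3 →ₗ[ℝ] E 3) = 1 + t • (S : E 3 →ₗ[ℝ] E 3) := rfl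
    rw [this, mx, mx, map_add, map_smul, LinearMap.toMatrix_one]
  have hC : mx (B : E 3 →ₗ[ℝ] E 3) * (1 + t • mx (S : E 3 →ₗ[ℝ] E 3)) = 1 := by
    have : (B : E 3 →ₗ[ℝ] E 3) * ((1 + t • S : E 3 →L[ℝ] E 3) : E 3 →ₗ[ℝ] E 3) = 1 :=
      LinearMap.ext hB
    rw [← e1, mx, mx, ← LinearMap.toMatrix_mul, this, LinearMap.toMatrix_one]
  obtain ⟨a1, a2⟩ := mat (mx S) (mx B) t H K (fun i j => by
      rw [mx_apply, mx_apply, ← inner_ev, ← inner_ev, real_inner_comm]
      exact hs _ _) hd (by simp only [hH, mx_apply, inner_ev]; rfl)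
    (by
      rw [hK, fro]
      simp only [mx_apply, EuclideanSpace.real_norm_sq_eq]
      rfl) hC
  refine ⟨by rw [← a1, ← e1, mx, LinearMap.det_toMatrix], ?_⟩
  rw [← a2, mx, mx, ← LinearMap.toMatrix_mul]
  have : ∑ i, ⟪ev i, S (B (ev i))⟫ =
      (mx ((S : E 3 →ₗ[ℝ] E 3) * (B : E 3 →ₗ[ℝ] E 3))).trace := by
    simp only [Matrix.trace, Matrix.diag, mx_apply, inner_ev]
    rfl
  rw [this, mx]

end Vale.Agent.P134.DG
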