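import Vale.Agent.P134.FStm

/-! Measurability and smoothness of the Fermi objects. -/

open scoped RealInnerProductSpace ContDiff ENNReal Topology Laplacian
open MeasureTheory Set Metric Filter

namespace Vale.Agent.P134.DG

namespace FMeasAux

variable {v : E 3 → ℝ}

theorem grad_cont (hv : Sol v) : Continuous (gradient v) :=
  (InnerProductSpace.toDual ℝ (E 3)).symm.continuous.comp (hv.smooth.continuous_fderiv (by simp))

theorem nn_meas (hv : Sol v) : Measurable (NN v) :=
  (grad_cont hv).measurable.norm.inv.smul (grad_cont hv).measurable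

theorem pr_meas (hv : Sol v) (f : E 3 → E 3) (hf : Measurable f) :
    Measurable fun y => Pr v y (f y) :=
  hf.sub (((nn_meas hv).inner (𝕜 := ℝ) hf).smul (nn_meas hv))

theorem ss_meas (hv : Sol v) (a : E 3) : Measurable fun y => SS v y a :=
  (ContinuousLinearMap.measurable_apply₂ (𝕜 := ℝ) (E := E 3) (F := E 3)).comp
    ((measurable_fderiv ℝ (NN v)).prodMk (pr_meas hv _ measurable_const))

theorem hh_meas (hv : Sol v) : Measurable (HH v) :=
  Finset.measurable_sum _ fun _ _ => measurable_const.inner (ss_meas hv _)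

theorem fro_meas (hv : Sol v) : Measurable fun y => fro (SS v y) :=
  Finset.measurable_sum _ fun _ _ => (ss_meas hv _).norm.pow_const 2

theorem kk_meas (hv : Sol v) : Measurable (KK v) :=
  (((hh_meas hv).pow_const 2).sub (fro_meas hv)).div_const 2

theorem hh_cd {y : E 3} (h : ContDiffAt ℝ ∞ (SS v) y) : ContDiffAt ℝ ∞ (HH v) y :=
  ContDiffAt.sum fun _ _ => contDiffAt_const.inner ℝ (h.clm_apply contDiffAt_const)

theorem fro_cd {y : E 3} (h : ContDiffAt ℝ ∞ (SS v) y) :
    ContDiffAt ℝ ∞ (fun y => fro (SS v y)) y :=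
  ContDiffAt.sum fun _ _ => (h.clm_apply contDiffAt_const).norm_sq ℝ

theorem kk_cd {y : E 3} (h : ContDiffAt ℝ ∞ (SS v) y) : ContDiffAt ℝ ∞ (KK v) y :=
  (((hh_cd h).pow 2).sub (fro_cd h)).div_const 2

end FMeasAux

open FMeasAux in
theorem meas_pf (h : S_Alg) : F_Meas := by
  intro v hv
  refine ⟨nn_meas hv, hh_meas hv, kk_meas hv, fro_meas hv,
    measurable_fst.add (measurable_snd.smul ((nn_meas hv).comp measurable_fst)),
    (measurable_const.add (measurable_snd.mul ((hh_meas hv).comp measurable_fst))).add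
      ((measurable_snd.pow_const 2).mul ((kk_meas hv).comp measurable_fst)),
    pr_meas hv, continuous_const.sub ((grad_cont hv).norm.pow 2), fun O ε hO => ?_⟩
  have hS : ∀ y ∈ O, ContDiffAt ℝ ∞ (SS v) y := fun y hy => (h v y hv (hO.th_le y hy)).2.2.1
  have op : IsOpen (Om v O) := by
    have h1 : ContinuousOn (fun z : E 3 × ℝ => z.2 ^ 2 * fro (SS v z.1)) (Prod.fst ⁻¹' O) :=
      fun z hz => ((continuousAt_snd.pow 2).mul
        ((fro_cd (hS _ hz)).continuousAt.comp continuousAt_fst)).continuousWithinAt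
    exact h1.isOpen_inter_preimage (hO.op.preimage continuous_fst) (isOpen_Iio (a := 1 / 400))
  have hN : ContDiffOn ℝ ∞ (fun z : E 3 × ℝ => NN v z.1) (Om v O) := fun z hz =>
    ((h v z.1 hv (hO.th_le _ hz.1)).2.1.comp z contDiffAt_fst).contDiffWithinAt
  have hH : ContDiffOn ℝ ∞ (fun z : E 3 × ℝ => HH v z.1) (Om v O) := fun z hz =>
    ((hh_cd (hS _ hz.1)).comp z contDiffAt_fst).contDiffWithinAt
  have hK : ContDiffOn ℝ ∞ (fun z : E 3 × ℝ => KK v z.1) (Om v O) := fun z hz =>
    ((kk_cd (hS _ hz.1)).comp z contDiffAt_fst).contDiffWithinAt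
  have hB : ContinuousOn (Bi v) (Om v O) := fun z hz =>
    ((h v z.1 hv (hO.th_le _ hz.1)).2.2.2.2.2.2.2.2.2.2.2.2 z.2
      hz.2).2.2.2.2.2.2.1.continuousAt.continuousWithinAt
  have hD : ∀ ξ, ContinuousOn (fun z => DI v z ξ) (Om v O) := fun ξ => by
    have h1 : ContinuousOn (fun z => Bi v z ξ) (Om v O) := hB.clm_apply continuousOn_const
    exact (h1.sub ((hN.continuousOn.inner (𝕜 := ℝ) h1).smul hN.continuousOn)).prodMk
      (hN.continuousOn.inner (𝕜 := ℝ) continuousOn_const)
  exact ⟨op, contDiffOn_fst.add (contDiffOn_snd.smul hN),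
    (contDiffOn_const.add (contDiffOn_snd.mul hH)).add ((contDiffOn_snd.pow 2).mul hK),
    hH.add ((contDiffOn_const.mul contDiffOn_snd).mul hK), hN, hK, hD,
    fun f hf => continuousOn_finset_sum _ fun _ _ =>
      ((hf.continuousOn_fderiv_of_isOpen op le_rfl).clm_apply (hD _)).smul continuousOn_const,
    fun G hG => continuousOn_finset_sum _ fun _ _ => continuousOn_const.inner (𝕜 := ℝ)
      ((hG.continuousOn_fderiv_of_isOpen op le_rfl).clm_apply (hD _))⟩

end Vale.Agent.P134.DG
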