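import Vale.Agent.P134.FStm

/-! The area measure of the zero set. -/

open scoped RealInnerProductSpace ContDiff ENNReal Topology Laplacian
open MeasureTheory Set Metric Filter

namespace Vale.Agent.P134.DG

namespace FSurfAux

/-- primitive of the Jacobian -/
noncomputable def AA (v : E 3 → ℝ) (z : E 3 × ℝ) : ℝ :=
  z.2 + z.2 ^ 2 * HH v z.1 / 2 + z.2 ^ 3 * KK v z.1 / 3

/-- a one-sided tube of constant weight -/
def D0 (v : E 3 → ℝ) (O : Set (E 3)) : Set (E 3 × ℝ) :=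
  {z | (z.1 ∈ O ∧ v z.1 = 0) ∧ 0 < z.2 ∧ z.2 < 1 ∧ AA v z < 1 / 2}

variable {v : E 3 → ℝ} {O : Set (E 3)} {ε : ℝ}

theorem fro_lt (hA : S_Alg) (hs : Sol v) (hg : Good v O ε) (h1 : ε ≤ 1 / 10000) {y : E 3}
    (hy : y ∈ O) (h0 : v y = 0) {t : ℝ} (ht : 0 ≤ t) (ht1 : t ≤ 1) :
    t ^ 2 * fro (SS v y) < 1 / 400 := by
  have a := (hA v y hs (hg.th_le y hy)).2.2.2.2.2.2.2.2.1
  have b := (hg.small y hy h0 y (mem_ball_self (by norm_num))).2.1
  have c : ‖iteratedFDeriv ℝ 2 v y‖ ^ 2 ≤ (1 / 10000) ^ 2 :=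
    pow_le_pow_left₀ (norm_nonneg _) (b.trans h1) 2
  have d : t ^ 2 ≤ 1 := pow_le_one₀ ht ht1
  have e : 0 ≤ fro (SS v y) := Finset.sum_nonneg fun _ _ => sq_nonneg _
  nlinarith

theorem half (hA : S_Alg) (hs : Sol v) (hg : Good v O ε) (h1 : ε ≤ 1 / 10000) {y : E 3}
    (hy : y ∈ O) (h0 : v y = 0) :
    2 * ∫⁻ t in {t : ℝ | 0 < t ∧ t < 1 ∧ AA v (y, t) < 1 / 2}, ENNReal.ofReal (JJ v (y, t)) = 1 := by
  have hJ : ∀ t ∈ Icc (0 : ℝ) 1, 9 / 10 ≤ JJ v (y, t) := fun t ht =>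
    ((hA v y hs (hg.th_le y hy)).2.2.2.2.2.2.2.2.2.2.2.2 t
      (fro_lt hA hs hg h1 hy h0 ht.1 ht.2)).2.2.2.2.2.2.2.1
  have hd : ∀ t : ℝ, HasDerivAt (fun t => AA v (y, t)) (JJ v (y, t)) t := fun t => by
    have h := ((hasDerivAt_id t).add (((hasDerivAt_pow 2 t).mul_const (HH v y)).div_const 2)).add
      (((hasDerivAt_pow 3 t).mul_const (KK v y)).div_const 3)
    refine HasDerivAt.congr_deriv h ?_
    simp only [JJ]; push_cast; ring
  have hc : Continuous fun t => AA v (y, t) :=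
    continuous_iff_continuousAt.2 fun t => (hd t).continuousAt
  have hm : StrictMonoOn (fun t => AA v (y, t)) (Icc 0 1) :=
    strictMonoOn_of_deriv_pos (convex_Icc 0 1) hc.continuousOn fun t ht => by
      rw [(hd t).deriv]; linarith [hJ t (interior_subset ht)]
  have a0 : AA v (y, 0) = 0 := by simp [AA]
  have a1 : 1 / 2 < AA v (y, 1) := by
    have b1 := hJ 1 ⟨zero_le_one, le_rfl⟩
    have b2 := hJ (1 / 2) ⟨by norm_num, by norm_num⟩
    simp only [JJ, AA] at b1 b2 ⊢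
    linarith
  obtain ⟨s, hs', hs1⟩ := intermediate_value_Ioo zero_le_one hc.continuousOn
    (show (1 / 2 : ℝ) ∈ Ioo (AA v (y, 0)) (AA v (y, 1)) from ⟨by rw [a0]; norm_num, a1⟩)
  have hs1 : AA v (y, s) = 1 / 2 := hs1
  have he : {t : ℝ | 0 < t ∧ t < 1 ∧ AA v (y, t) < 1 / 2} = Ioo 0 s := by
    ext t
    constructor
    · rintro ⟨b1, b2, b3⟩
      refine ⟨b1, (hm.lt_iff_lt ⟨b1.le, b2.le⟩ ⟨hs'.1.le, hs'.2.le⟩).1 ?_⟩
      rwa [← hs1] at b3
    · rintro ⟨b1, b2⟩
      refine ⟨b1, b2.trans hs'.2, ?_⟩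
      rw [← hs1]
      exact hm ⟨b1.le, (b2.trans hs'.2).le⟩ ⟨hs'.1.le, hs'.2.le⟩ b2
  have cJ : Continuous fun t => JJ v (y, t) := by simp only [JJ]; fun_prop
  rw [he, ← ofReal_integral_eq_lintegral_ofReal
    ((cJ.integrableOn_Icc (a := 0) (b := s)).mono_set Ioo_subset_Icc_self)
    ((ae_restrict_iff' measurableSet_Ioo).2 (Eventually.of_forall fun t ht => by
      have := hJ t ⟨ht.1.le, (ht.2.trans hs'.2).le⟩
      simp only [Pi.zero_apply]; linarith)),
    ← integral_Ioc_eq_integral_Ioo, ← intervalIntegral.integral_of_le hs'.1.le,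
    intervalIntegral.integral_eq_sub_of_hasDerivAt (fun t _ => hd t) (cJ.intervalIntegrable _ _),
    hs1, a0, sub_zero, ← ENNReal.ofReal_ofNat, ← ENNReal.ofReal_mul (by norm_num)]
  norm_num

theorem lint_image {α β : Type} [MeasurableSpace α] [MeasurableSpace β] {f : α → β}
    (hf : MeasurableEmbedding f) (μ : Measure β) (S : Set α) (g : β → ℝ≥0∞) :
    ∫⁻ x in f '' S, g x ∂μ = ∫⁻ z in S, g (f z) ∂(μ.comap f) := by
  have h := hf.map_comap (μ.restrict (f '' S))
  rw [hf.comap_restrict, preimage_image_eq _ hf.injective,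
    Measure.restrict_restrict hf.measurableSet_range,
    inter_eq_right.2 (image_subset_range _ _)] at h
  rw [← h, hf.lintegral_map]

end FSurfAux

open FSurfAux

theorem surf_pf (hA : S_Alg) (hM : F_Meas) (hI : S_Inj) (hT : F_Tube) : S_Surf := by
  intro v O ε hs hg h0 h1
  obtain ⟨-, mH, mK, -, -, mJ, -, -, hO⟩ := hM v hs
  obtain ⟨-, cF, -⟩ := hO O ε hg
  have mZ : MeasurableSet {y | y ∈ O ∧ v y = 0} :=
    hg.op.measurableSet.inter (hs.smooth.continuous.measurable (measurableSet_singleton 0))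
  have mA : Measurable (AA v) :=
    (measurable_snd.add (((measurable_snd.pow_const 2).mul (mH.comp measurable_fst)).div_const
      2)).add (((measurable_snd.pow_const 3).mul (mK.comp measurable_fst)).div_const 3)
  have mD : MeasurableSet (D0 v O) :=
    (measurable_fst mZ).inter ((measurableSet_lt measurable_const measurable_snd).inter
      ((measurableSet_lt measurable_snd measurable_const).inter
        (measurableSet_lt mA measurable_const)))
  have sD : D0 v O ⊆ Om v O := fun z hz =>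
    ⟨hz.1.1, fro_lt hA hs hg h1 hz.1.1 hz.1.2 hz.2.1.le hz.2.2.1.le⟩
  have hN : ∀ z ∈ D0 v O, dist (FF v z) z.1 < 1 := fun z hz => by
    rw [FF, dist_eq_norm, add_sub_cancel_left, norm_smul, (hA v z.1 hs (hg.th_le _ hz.1.1)).1,
      Real.norm_eq_abs, abs_of_pos hz.2.1, mul_one]
    exact hz.2.2.1
  have iD : InjOn (FF v) (D0 v O) := fun z hz z' hz' he => by
    refine hI v O ε 1 hs hg h0 h1 (by linarith) z.1 hz.1.1 hz.1.2
      ⟨mem_ball_self (by norm_num), hz.1.2, abs_le.2 ⟨by linarith [hz.2.1], hz.2.2.1.le⟩⟩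
      ⟨?_, hz'.1.2, abs_le.2 ⟨by linarith [hz'.2.1], hz'.2.2.1.le⟩⟩ he
    have a := hN z hz
    have b := hN z' hz'
    have c := dist_triangle_left z'.1 z.1 (FF v z)
    rw [← he] at b
    rw [mem_ball]
    linarith
  have emb : MeasurableEmbedding ((D0 v O).restrict (FF v)) :=
    (cF.continuousOn.mono sD).measurableEmbedding mD iD
  have mp : Measurable fun z : D0 v O => z.1.1 := measurable_fst.comp measurable_subtype_coe
  have him : ∀ A : Set (E 3), (D0 v O).restrict (FF v) '' ((fun z : D0 v O => z.1.1) ⁻¹' A) =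
      FF v '' (D0 v O ∩ {z | z.1 ∈ A}) := fun A => by
    ext x
    constructor
    · rintro ⟨z, hz, rfl⟩
      exact ⟨z.1, ⟨z.2, hz⟩, rfl⟩
    · rintro ⟨z, hz, rfl⟩
      exact ⟨⟨z, hz.1⟩, hz.2, rfl⟩
  set σ : Measure (E 3) := (2 : ℝ≥0∞) •
    (volume.comap ((D0 v O).restrict (FF v))).map fun z : D0 v O => z.1.1 with hσ
  set ex : (E 3 → ℝ≥0∞) → E 3 → ℝ≥0∞ := fun Φ =>
    Function.extend ((D0 v O).restrict (FF v)) (fun z => Φ z.1.1) fun _ => 0 with hex
  have mex : ∀ Φ, Measurable Φ → Measurable (ex Φ) := fun Φ hΦ =>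
    emb.measurable_extend (hΦ.comp mp) measurable_const
  have vex : ∀ Φ (z : D0 v O), ex Φ (FF v z) = Φ z.1.1 := fun Φ z =>
    emb.injective.extend_apply _ _ z
  have key : ∀ A Φ, MeasurableSet A → Measurable Φ → ∫⁻ y in A, Φ y ∂σ =
      2 * ∫⁻ x in FF v '' (D0 v O ∩ {z | z.1 ∈ A}), ex Φ x := fun A Φ hA' hΦ => by
    rw [hσ, Measure.restrict_smul, lintegral_smul_measure, setLIntegral_map hA' hΦ mp, ← him,
      lint_image emb, smul_eq_mul]
    exact congrArg (2 * ·) (lintegral_congr fun z => (vex Φ z).symm)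
  have inn : ∀ (A : Set (E 3)) Φ y, y ∈ O → v y = 0 → 2 * ∫⁻ t : ℝ,
      (D0 v O ∩ {z | z.1 ∈ A}).indicator
        (fun z => ex Φ (FF v z) * ENNReal.ofReal (JJ v z)) (y, t) = A.indicator Φ y := by
    intro A Φ y hy hy0
    by_cases hyA : y ∈ A
    · have e : ∀ t : ℝ, (D0 v O ∩ {z | z.1 ∈ A}).indicator
          (fun z => ex Φ (FF v z) * ENNReal.ofReal (JJ v z)) (y, t) =
          {t : ℝ | 0 < t ∧ t < 1 ∧ AA v (y, t) < 1 / 2}.indicator
            (fun t => Φ y * ENNReal.ofReal (JJ v (y, t))) t := fun t => by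
        by_cases ht : 0 < t ∧ t < 1 ∧ AA v (y, t) < 1 / 2
        · have hz : (y, t) ∈ D0 v O := ⟨⟨hy, hy0⟩, ht⟩
          rw [indicator_of_mem (show (y, t) ∈ D0 v O ∩ {z | z.1 ∈ A} from ⟨hz, hyA⟩),
            indicator_of_mem (show t ∈ {t : ℝ | 0 < t ∧ t < 1 ∧ AA v (y, t) < 1 / 2} from ht),
            vex Φ ⟨_, hz⟩]
        · rw [indicator_of_notMem (fun h => ht h.1.2),
            indicator_of_notMem (show t ∉ {t : ℝ | 0 < t ∧ t < 1 ∧ AA v (y, t) < 1 / 2} from ht)]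
      have mt : MeasurableSet {t : ℝ | 0 < t ∧ t < 1 ∧ AA v (y, t) < 1 / 2} :=
        (measurableSet_lt measurable_const measurable_id).inter
          ((measurableSet_lt measurable_id measurable_const).inter
            (measurableSet_lt (mA.comp measurable_prodMk_left) measurable_const))
      simp only [e]
      have mj : Measurable fun t : ℝ => ENNReal.ofReal (JJ v (y, t)) :=
        (mJ.comp measurable_prodMk_left).ennreal_ofReal
      rw [lintegral_indicator mt, lintegral_const_mul _ mj, mul_left_comm,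
        half hA hs hg h1 hy hy0, mul_one, indicator_of_mem hyA]
    · rw [indicator_of_notMem hyA]
      simp only [indicator_of_notMem (show ∀ {t : ℝ}, (y, t) ∉ D0 v O ∩ {z | z.1 ∈ A} from
        fun h => hyA h.2), lintegral_zero, mul_zero]
  have mDA : ∀ A, MeasurableSet A → MeasurableSet (D0 v O ∩ {z | z.1 ∈ A}) := fun A h =>
    mD.inter (measurable_fst h)
  refine ⟨σ, ?_, ?_, ?_, ?_⟩
  · rw [hσ, Measure.smul_apply, Measure.map_apply mp mZ.compl]
    have : (fun z : D0 v O => z.1.1) ⁻¹' {y | y ∈ O ∧ v y = 0}ᶜ = ∅ :=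
      eq_empty_of_forall_notMem fun z hz => hz z.2.1
    rw [this, measure_empty, smul_zero]
  · intro U Y Y' hP A hA' hAU Φ hΦ
    have h := (hT v O ε hs hg U Y Y' hP _ (mDA A hA') (inter_subset_left.trans sD) _
      (mex Φ hΦ)).1 (FF v '' (D0 v O ∩ {z | z.1 ∈ A}))
      (by rw [← him]; exact emb.measurableSet_image.2 (mp hA'))
      (image_mono fun z hz => ⟨hz, hAU hz.2⟩)
    rw [key A Φ hA' hΦ]
    refine (mul_le_mul_right h 2).trans ?_
    rw [← lintegral_const_mul' _ _ ENNReal.ofNat_ne_top]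
    refine setLIntegral_mono' hP.1 fun a ha => ?_
    rw [← mul_assoc, inn A Φ _ (hP.2 a ha).2.1 (hP.2 a ha).2.2.1]
    exact mul_le_mul_left (indicator_le_self _ _ _) _
  · intro U Y Y' hP hinj Φ hΦ
    have mY : MeasurableSet (Y '' U) := hP.1.image_of_continuousOn_injOn
      (fun a ha => (hP.2 a ha).1.continuousAt.continuousWithinAt) hinj
    have e : D0 v O ∩ {z | z.1 ∈ Y '' U} ∩ {z | z.1 ∈ Y '' U} = D0 v O ∩ {z | z.1 ∈ Y '' U} := by
      rw [inter_assoc, inter_self]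
    have h := (hT v O ε hs hg U Y Y' hP _ (mDA _ mY) (inter_subset_left.trans sD) _
      (mex Φ hΦ)).2 hinj (iD.mono fun z hz => hz.1.1)
    rw [e] at h
    rw [key _ Φ mY hΦ, h.2, ← lintegral_const_mul' _ _ ENNReal.ofNat_ne_top]
    refine setLIntegral_congr_fun hP.1 fun a ha => ?_
    rw [← mul_assoc, inn _ Φ _ (hP.2 a ha).2.1 (hP.2 a ha).2.2.1,
      indicator_of_mem (mem_image_of_mem Y ha)]
  · intro A hA'
    rw [hσ, Measure.smul_apply, Measure.map_apply mp hA', emb.comap_apply, him, smul_eq_mul]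
    refine mul_le_mul_right (measure_mono ?_) 2
    rintro _ ⟨z, hz, rfl⟩
    exact mem_thickening_iff.2 ⟨z.1, hz.2, hN z hz.1⟩

end Vale.Agent.P134.DG
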