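import Vale.Agent.P134.FStm

/-! The volume of a tube over a parametrised piece of the zero set. -/

open scoped RealInnerProductSpace ContDiff ENNReal Topology Laplacian
open MeasureTheory Set Metric Filter

namespace Vale.Agent.P134.DG

namespace FTubeAux

/-- the derivative of the tube map and its Jacobian -/
theorem der (hA : S_Alg) (hD : F_Det) {v : E 3 → ℝ} (hv : Sol v) {Y : ℝ × ℝ → E 3}
    {L : ℝ × ℝ →L[ℝ] E 3} {p : (ℝ × ℝ) × ℝ} (hY : HasFDerivAt Y L p.1)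
    (h1 : th v (Y p.1) ≤ 1 / 2) (h2 : ∀ ξ, ⟪gradient v (Y p.1), L ξ⟫ = 0)
    (h3 : p.2 ^ 2 * fro (SS v (Y p.1)) < 1 / 400) :
    ∃ M : (ℝ × ℝ) × ℝ →L[ℝ] E 3, HasFDerivAt (fun q : (ℝ × ℝ) × ℝ => FF v (Y q.1, q.2)) M p ∧
      ENNReal.ofReal |d3 (M ((1, 0), 0)) (M ((0, 1), 0)) (M ((0, 0), 1))| =
        ENNReal.ofReal (JJ v (Y p.1, p.2)) * ENNReal.ofReal (ar (L (1, 0)) (L (0, 1))) := by
  obtain ⟨a1, a2, -, a4, -, a6, -, -, -, -, -, -, a⟩ := hA v (Y p.1) hv h1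
  obtain ⟨-, -, -, -, -, -, -, b1, -, b2, -⟩ := a p.2 h3
  have d1 : HasFDerivAt (fun q : (ℝ × ℝ) × ℝ => Y q.1)
      (L.comp (ContinuousLinearMap.fst ℝ (ℝ × ℝ) ℝ)) p := hY.comp p hasFDerivAt_fst
  have d2 := (a2.differentiableAt (by simp)).hasFDerivAt.comp p d1
  have d3' := d1.add ((hasFDerivAt_snd (𝕜 := ℝ) (p := p)).smul d2)
  have n0 : ∀ ξ, ⟪NN v (Y p.1), L ξ⟫ = 0 := fun ξ => by
    rw [NN, real_inner_smul_left, h2, mul_zero]
  have n1 : ∀ ξ, fderiv ℝ (NN v) (Y p.1) (L ξ) = SS v (Y p.1) (L ξ) := fun ξ => by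
    rw [← a6]
    simp [Pr, n0]
  have k := hD (1 + p.2 • SS v (Y p.1)) (L (1, 0)) (L (0, 1)) (NN v (Y p.1)) a1 (n0 _) (n0 _)
    (by simp [a4])
  refine ⟨_, d3', ?_⟩
  rw [← ENNReal.ofReal_mul (by linarith), ← abs_of_nonneg (by linarith : 0 ≤ JJ v (Y p.1, p.2)),
    ← b2, ← k]
  have z0 : ((0 : ℝ), (0 : ℝ)) = 0 := rfl
  simp [n1, z0]

end FTubeAux

theorem tube_pf (hA : S_Alg) (hM : F_Meas) (hD : F_Det) (hC : F_CV) : F_Tube := by
  classical
  intro v O ε hv hg U Y Y' ⟨hU, hY⟩ D hDm hDO Φ hΦ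
  obtain ⟨-, -, -, -, mF, mJ, -⟩ := hM v hv
  have cY : ContinuousOn Y U := fun a ha => (hY a ha).1.continuousAt.continuousWithinAt
  have mZ : Measurable (U.piecewise Y fun _ => 0) :=
    cY.measurable_piecewise continuousOn_const hU
  have mP : Measurable fun p : (ℝ × ℝ) × ℝ => (U.piecewise Y (fun _ => 0) p.1, p.2) :=
    (mZ.comp measurable_fst).prodMk measurable_snd
  obtain ⟨s, hs⟩ : ∃ s : Set ((ℝ × ℝ) × ℝ), s = {p | p.1 ∈ U ∧ (Y p.1, p.2) ∈ D} := ⟨_, rfl⟩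
  have hs' : ∀ p, p ∈ s ↔ p.1 ∈ U ∧ (Y p.1, p.2) ∈ D := fun p => by rw [hs]; rfl
  have ms : MeasurableSet s := by
    have : s = Prod.fst ⁻¹' U ∩
        (fun p : (ℝ × ℝ) × ℝ => (U.piecewise Y (fun _ => 0) p.1, p.2)) ⁻¹' D := by
      ext p
      rw [hs', mem_inter_iff, mem_preimage, mem_preimage]
      exact and_congr_right fun h => by rw [piecewise_eq_of_mem _ _ _ h]
    rw [this]
    exact (measurable_fst hU).inter (mP hDm)
  have key : ∀ p : (ℝ × ℝ) × ℝ, ∃ M : (ℝ × ℝ) × ℝ →L[ℝ] E 3, p ∈ s →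
      HasFDerivAt (fun q : (ℝ × ℝ) × ℝ => FF v (Y q.1, q.2)) M p ∧
      ENNReal.ofReal |d3 (M ((1, 0), 0)) (M ((0, 1), 0)) (M ((0, 0), 1))| =
        ENNReal.ofReal (JJ v (Y p.1, p.2)) *
          ENNReal.ofReal (ar (Y' p.1 (1, 0)) (Y' p.1 (0, 1))) := fun p => by
    by_cases hp : p ∈ s
    · obtain ⟨h1, h2⟩ := (hs' p).1 hp
      obtain ⟨k1, k2, -, k4⟩ := hY _ h1
      obtain ⟨M, hM⟩ := FTubeAux.der hA hD hv k1 (hg.th_le _ k2) k4 (hDO h2).2
      exact ⟨M, fun _ => hM⟩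
    · exact ⟨0, fun h => absurd h hp⟩
  choose M hM' using key
  have im : (fun q : (ℝ × ℝ) × ℝ => FF v (Y q.1, q.2)) '' s = FF v '' (D ∩ {z | z.1 ∈ Y '' U}) := by
    ext x
    constructor
    · rintro ⟨p, hp, rfl⟩
      exact ⟨(Y p.1, p.2), ⟨((hs' p).1 hp).2, p.1, ((hs' p).1 hp).1, rfl⟩, rfl⟩
    · rintro ⟨⟨y, t⟩, ⟨h1, a, ha, rfl⟩, rfl⟩
      exact ⟨(a, t), (hs' _).2 ⟨ha, h1⟩, rfl⟩
  have mA : Measurable fun a : ℝ × ℝ =>
      ENNReal.ofReal (ar (fderiv ℝ Y a (1, 0)) (fderiv ℝ Y a (0, 1))) := by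
    have m1 := measurable_fderiv_apply_const ℝ Y ((1 : ℝ), (0 : ℝ))
    have m2 := measurable_fderiv_apply_const ℝ Y ((0 : ℝ), (1 : ℝ))
    exact ENNReal.measurable_ofReal.comp
      (((m1.norm.pow_const 2).mul (m2.norm.pow_const 2)).sub ((m1.inner m2).pow_const 2)).sqrt
  have mH : Measurable fun z => Φ (FF v z) * ENNReal.ofReal (JJ v z) :=
    (hΦ.comp mF).mul (ENNReal.measurable_ofReal.comp mJ)
  have mG := ((mH.comp mP).mul (mA.comp measurable_fst)).indicator ms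
  have e : ∫⁻ p in s, Φ (FF v (Y p.1, p.2)) *
      ENNReal.ofReal |d3 (M p ((1, 0), 0)) (M p ((0, 1), 0)) (M p ((0, 0), 1))| =
      ∫⁻ a in U, (∫⁻ t : ℝ, D.indicator (fun z => Φ (FF v z) * ENNReal.ofReal (JJ v z)) (Y a, t)) *
        ENNReal.ofReal (ar (Y' a (1, 0)) (Y' a (0, 1))) := by
    rw [← lintegral_indicator ms, ← lintegral_indicator hU]
    refine (lintegral_congr fun p => ?_).trans
      ((lintegral_prod _ mG.aemeasurable).trans (lintegral_congr fun a => ?_))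
    · by_cases hp : p ∈ s
      · have h1 := ((hs' p).1 hp).1
        simp only [indicator_of_mem hp, Pi.mul_apply, Function.comp_apply,
          piecewise_eq_of_mem _ _ _ h1,
          (hM' p hp).2, (hY _ h1).1.fderiv, mul_assoc]
      · simp only [indicator_of_notMem hp]
    · by_cases ha : a ∈ U
      · rw [indicator_of_mem ha, ← lintegral_mul_const' _ _ ENNReal.ofReal_ne_top]
        refine lintegral_congr fun t => ?_
        by_cases ht : (Y a, t) ∈ D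
        · simp only [indicator_of_mem ht, indicator_of_mem ((hs' (a, t)).2 ⟨ha, ht⟩),
            Pi.mul_apply, Function.comp_apply,
          piecewise_eq_of_mem _ _ _ ha, (hY _ ha).1.fderiv]
        · rw [indicator_of_notMem ht, indicator_of_notMem fun h => ht ((hs' (a, t)).1 h).2,
            zero_mul]
      · rw [indicator_of_notMem ha]
        exact (lintegral_congr fun t =>
          indicator_of_notMem (fun h => ha ((hs' (a, t)).1 h).1) _).trans lintegral_zero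
  obtain ⟨c1, c2⟩ := hC s (fun q => FF v (Y q.1, q.2)) M ms
    (fun p hp => (hM' p hp).1.hasFDerivWithinAt) Φ hΦ
  rw [im, e] at c1 c2
  refine ⟨c1, fun i1 i2 => c2 fun p hp q hq h => ?_⟩
  obtain ⟨p1, p2⟩ := (hs' p).1 hp
  obtain ⟨q1, q2⟩ := (hs' q).1 hq
  have := i2 ⟨p2, p.1, p1, rfl⟩ ⟨q2, q.1, q1, rfl⟩ h
  exact Prod.ext (i1 p1 q1 (Prod.ext_iff.1 this).1) (Prod.ext_iff.1 this).2

end Vale.Agent.P134.DG
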