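import Vale.Agent.P134.FStm

/-! Properties of the one dimensional profile and of the cut-off profile. -/

open scoped RealInnerProductSpace ContDiff ENNReal Topology Laplacian
open MeasureTheory Set Metric Filter

namespace Vale.Agent.P134.DG

namespace TGAux

theorem s2 : (0 : ℝ) < √2 := by positivity

theorem ss : √2 * √2 = (2 : ℝ) := Real.mul_self_sqrt zero_le_two

theorem tanh_eq : Real.tanh = fun s => Real.sinh s / Real.cosh s :=
  funext Real.tanh_eq_sinh_div_cosh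

theorem d_gg (s : ℝ) : HasDerivAt gg (g1 s) s := by
  have h (t : ℝ) : HasDerivAt Real.tanh (1 - Real.tanh t ^ 2) t := by
    have k := (Real.hasDerivAt_sinh t).div (Real.hasDerivAt_cosh t) (Real.cosh_pos t).ne'
    rw [tanh_eq]
    refine k.congr_deriv ?_
    have := (Real.cosh_pos t).ne'
    field_simp
  have k := (h (s / √2)).comp s ((hasDerivAt_id s).div_const √2)
  exact k.congr_deriv (by rw [g1, gg]; ring)

theorem d_g1 (s : ℝ) : HasDerivAt g1 (-(√2 * gg s * g1 s)) s := by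
  have k := ((d_gg s).fun_pow 2).const_sub 1 |>.div_const √2
  refine k.congr_deriv ?_
  rw [div_eq_iff s2.ne']
  norm_num
  linear_combination (-(gg s * g1 s)) * ss

theorem c_gg : ContDiff ℝ ∞ gg := by
  have h : ContDiff ℝ ∞ Real.tanh := by
    rw [tanh_eq]; exact Real.contDiff_sinh.div Real.contDiff_cosh fun s => (Real.cosh_pos s).ne'
  exact h.comp (contDiff_id.div_const _)

theorem c_g1 : ContDiff ℝ ∞ g1 := (contDiff_const.sub (c_gg.pow 2)).div_const _

theorem abs_gg (s : ℝ) : |gg s| < 1 := Real.abs_tanh_lt_one _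

theorem g1_pos (s : ℝ) : 0 < g1 s :=
  div_pos (sub_pos.2 ((sq_lt_one_iff_abs_lt_one _).2 (abs_gg s))) s2

theorem gg_mono : StrictMono gg :=
  strictMono_of_hasDerivAt_pos d_gg g1_pos

theorem gg_neg (s : ℝ) : gg (-s) = -gg s := by rw [gg, gg, neg_div, Real.tanh_neg]

theorem gg_zero : gg 0 = 0 := by simp [gg]

theorem g1_eq (s : ℝ) : g1 s = 1 / (√2 * Real.cosh (|s| / √2) ^ 2) := by
  have e : Real.cosh (|s| / √2) = Real.cosh (s / √2) := by
    rw [← Real.cosh_abs (s / √2), abs_div, abs_of_pos s2]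
  rw [e, g1, gg, Real.tanh_eq_sinh_div_cosh]
  have h1 := (Real.cosh_pos (s / √2)).ne'
  have h2 := s2.ne'
  field_simp
  rw [Real.cosh_sq]; ring

theorem exp_sq (s : ℝ) : Real.exp (|s| / √2) ^ 2 * Real.exp (-(√2 * |s|)) = 1 := by
  rw [← Real.exp_nat_mul, ← Real.exp_add, Real.exp_eq_one_iff]
  have h2 := s2.ne'
  field_simp
  push_cast
  linear_combination (-|s|) * ss

theorem g1_le (s : ℝ) : g1 s ≤ 4 * Real.exp (-(√2 * |s|)) / √2 := by
  have h : Real.exp (|s| / √2) / 2 ≤ Real.cosh (|s| / √2) := by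
    rw [Real.cosh_eq]; linarith [Real.exp_pos (-(|s| / √2))]
  have h1 := pow_le_pow_left₀ (by positivity) h 2
  have h2 := mul_le_mul_of_nonneg_right h1 (Real.exp_pos (-(√2 * |s|))).le
  have h3 := Real.cosh_pos (|s| / √2)
  rw [g1_eq, div_le_div_iff₀ (by positivity) s2]
  nlinarith [exp_sq s, s2, mul_le_mul_of_nonneg_left h2 s2.le]

theorem g1_ge (s : ℝ) : Real.exp (-(√2 * |s|)) / √2 ≤ g1 s := by
  have h : Real.cosh (|s| / √2) ≤ Real.exp (|s| / √2) := by
    have : (0 : ℝ) ≤ |s| / √2 := by positivity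
    rw [Real.cosh_eq]; linarith [Real.exp_le_exp.2 (show -(|s| / √2) ≤ |s| / √2 by linarith)]
  have h3 := Real.cosh_pos (|s| / √2)
  have h1 := pow_le_pow_left₀ h3.le h 2
  have h2 := mul_le_mul_of_nonneg_right h1 (Real.exp_pos (-(√2 * |s|))).le
  rw [exp_sq] at h2
  rw [g1_eq, div_le_div_iff₀ s2 (by positivity)]
  nlinarith [s2, mul_le_mul_of_nonneg_left h2 s2.le]

theorem g1_sq (s : ℝ) : g1 s ^ 2 ≤ 8 * Real.exp (-(2 * √2 * |s|)) := by
  refine (pow_le_pow_left₀ (g1_pos s).le (g1_le s) 2).trans_eq ?_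
  rw [div_pow, mul_pow, ← Real.exp_nat_mul, Real.sq_sqrt zero_le_two]
  rw [show ((2 : ℕ) : ℝ) * -(√2 * |s|) = -(2 * √2 * |s|) by push_cast; ring]
  ring

theorem gg_top : Tendsto gg atTop (𝓝 1) := by
  rw [tendsto_order]
  refine ⟨fun a ha => ?_, fun a ha => Eventually.of_forall fun x => (Real.tanh_lt_one _).trans ha⟩
  have hb1 : max ((a + 1) / 2) 0 ∈ Ioo (-1 : ℝ) 1 :=
    ⟨lt_of_lt_of_le (by norm_num) (le_max_right _ _), max_lt (by linarith) one_pos⟩
  filter_upwards [eventually_ge_atTop (Real.artanh (max ((a + 1) / 2) 0) * √2)] with x hx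
  have := gg_mono.monotone hx
  rw [gg, mul_div_cancel_right₀ _ s2.ne', Real.tanh_artanh hb1] at this
  linarith [le_max_left ((a + 1) / 2) 0]

theorem gg_bot : Tendsto gg atBot (𝓝 (-1)) := by
  have := (gg_top.comp tendsto_neg_atBot_atTop).neg
  exact this.congr fun x => by simp [gg_neg]

theorem d_G (s : ℝ) : HasDerivAt (fun s => (gg s - gg s ^ 3 / 3) / √2) (g1 s ^ 2) s := by
  have k := ((d_gg s).fun_sub (((d_gg s).fun_pow 3).div_const 3)).div_const √2
  refine k.congr_deriv ?_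
  have e : g1 s ^ 2 = g1 s * ((1 - gg s ^ 2) / √2) := by rw [sq]; rfl
  rw [e]
  norm_num
  ring

theorem int_g1 : Integrable fun s => g1 s ^ 2 := by
  have h1 : IntegrableOn (fun s => g1 s ^ 2) (Ici 0) :=
    Iff.mpr integrableOn_Ici_iff_integrableOn_Ioi <| integrableOn_Ioi_deriv_of_nonneg'
      (fun x _ => d_G x) (fun x _ => sq_nonneg _)
      ((gg_top.sub ((gg_top.pow 3).div_const 3)).div_const √2)
  have h2 : IntegrableOn (fun s => g1 (-s) ^ 2) (Iic 0) :=
    IntegrableOn.comp_neg_Iic (f := fun s => g1 s ^ 2) (by simpa using h1)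
  have e : ∀ s, g1 (-s) = g1 s := fun s => by rw [g1, gg_neg, neg_sq, g1]
  simp only [e] at h2
  rw [← integrableOn_univ, ← Iic_union_Ici (a := (0 : ℝ))]
  exact h2.union h1

theorem int_eq : ∫ s, g1 s ^ 2 = s0 := by
  rw [integral_of_hasDerivAt_of_tendsto d_G int_g1
    ((gg_bot.sub ((gg_bot.pow 3).div_const 3)).div_const √2)
    ((gg_top.sub ((gg_top.pow 3).div_const 3)).div_const √2), s0, ← sub_div,
    div_eq_iff s2.ne']
  linear_combination (-2 / 3) * ss

theorem sq_abs' (a : ℝ) : gg a ^ 2 = gg |a| ^ 2 := by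
  rcases abs_choice a with h | h <;> rw [h]
  rw [gg_neg, neg_sq]

theorem gg_nn (a : ℝ) : 0 ≤ gg |a| := gg_zero ▸ gg_mono.monotone (abs_nonneg a)

theorem sq_mono (a b : ℝ) (h : |a| ≤ |b|) : gg a ^ 2 ≤ gg b ^ 2 := by
  rw [sq_abs' a, sq_abs' b]
  exact pow_le_pow_left₀ (gg_nn a) (gg_mono.monotone h) 2

theorem c_bound : ∃ c, 0 < c ∧ ∀ a b, 1 ≤ |b| → |b| ≤ 2 → |a| ≤ |b| →
    c * (|b| - |a|) ≤ gg b ^ 2 - gg a ^ 2 := by
  have h1 : 0 < gg 1 := gg_zero ▸ gg_mono one_pos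
  refine ⟨gg 1 * (Real.exp (-(√2 * 2)) / √2), by positivity, fun a b hb hb' hab => ?_⟩
  have k := (convex_Icc (0 : ℝ) 2).mul_sub_le_image_sub_of_le_deriv (f := gg)
    c_gg.continuous.continuousOn (fun x _ => (d_gg x).differentiableAt.differentiableWithinAt)
    (C := Real.exp (-(√2 * 2)) / √2) (fun x hx => by
      have hx := interior_subset hx
      rw [(d_gg x).deriv]
      refine le_trans ?_ (g1_ge x)
      rw [abs_of_nonneg hx.1]
      have := hx.2
      gcongr) |a| ⟨abs_nonneg a, hab.trans hb'⟩ |b| ⟨abs_nonneg b, hb'⟩ hab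
  have h2 := gg_mono.monotone hb
  have h3 := gg_mono.monotone hab
  rw [sq_abs' a, sq_abs' b, mul_assoc]
  nlinarith [gg_nn a, mul_le_mul_of_nonneg_left k h1.le]

theorem poly_bound (s : ℝ) :
    g1 s ^ 2 * (1 + |s|) ^ 6 ≤ 8 * 10 ^ 6 * Real.exp (-(2 * |s|)) := by
  have h0 := abs_nonneg s
  have h1 : 1 + |s| ≤ 10 * Real.exp (|s| / 10) := by linarith [Real.add_one_le_exp (|s| / 10)]
  have h2 := pow_le_pow_left₀ (by positivity) h1 6
  rw [mul_pow, ← Real.exp_nat_mul] at h2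
  have h3 : (13 / 10 : ℝ) ≤ √2 := Real.le_sqrt_of_sq_le (by norm_num)
  refine (mul_le_mul (g1_sq s) h2 (by positivity) (by positivity)).trans ?_
  rw [mul_mul_mul_comm, ← Real.exp_add]
  gcongr
  push_cast
  nlinarith

theorem c_bb : ContDiff ℝ ∞ bb :=
  Real.smoothTransition.contDiff.comp (contDiff_const.sub (contDiff_const.mul contDiff_id))

theorem bb_one (s : ℝ) (h : s ≤ 1 / 2) : bb s = 1 :=
  Real.smoothTransition.one_of_one_le (by linarith)

theorem bb_zero (s : ℝ) (h : 1 ≤ s) : bb s = 0 :=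
  Real.smoothTransition.zero_of_nonpos (by linarith)

theorem d_bb (s : ℝ) (h : s < 1 / 2 ∨ 1 < s) : deriv bb s = 0 := by
  rcases h with h | h
  · have : bb =ᶠ[𝓝 s] fun _ => 1 := (eventually_lt_nhds h).mono fun x hx => bb_one x hx.le
    rw [this.deriv_eq, deriv_const]
  · have : bb =ᶠ[𝓝 s] fun _ => 0 := (eventually_gt_nhds h).mono fun x hx => bb_zero x hx.le
    rw [this.deriv_eq, deriv_const]

theorem bb_bound : ∃ C, ∀ s, |deriv bb s| ≤ C ∧ (s < 1 / 2 ∨ 1 < s → deriv bb s = 0) := by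
  obtain ⟨C, hC⟩ := (isCompact_Icc (a := (1 / 2 : ℝ)) (b := 1)).exists_bound_of_continuousOn
    (c_bb.continuous_deriv (by simp)).continuousOn
  refine ⟨max C 0, fun s => ⟨?_, d_bb s⟩⟩
  by_cases h : s < 1 / 2 ∨ 1 < s
  · rw [d_bb s h, abs_zero]; exact le_max_right _ _
  · rw [not_or, not_lt, not_lt] at h
    exact (hC s h).trans (le_max_left _ _)

end TGAux

open TGAux in
theorem g_pf : T_G :=
  ⟨d_gg, d_g1, c_gg, c_g1, fun s => ⟨g1_pos s, abs_gg s⟩, gg_mono, gg_neg, g1_sq, g1_ge, int_g1,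
    int_eq, sq_mono, c_bound, ⟨_, poly_bound⟩, c_bb,
    fun _ => ⟨Real.smoothTransition.nonneg _, Real.smoothTransition.le_one _⟩, bb_one, bb_zero,
    bb_bound⟩

end Vale.Agent.P134.DG
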