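import Vale.Agent.P134.FStm

/-! Integrability of the terms of the reduced stability inequality. -/

open scoped RealInnerProductSpace ContDiff ENNReal Topology Laplacian
open MeasureTheory Set Metric Filter

namespace Vale.Agent.P134.DG

namespace TIAux

theorem int_exp : Integrable fun t : ℝ => Real.exp (-|t|) := by
  rw [← integrableOn_univ, ← Iic_union_Ioi (a := (0 : ℝ))]
  refine IntegrableOn.union ?_ ?_
  · refine (integrableOn_exp_Iic 0).congr_fun (fun t ht => ?_) measurableSet_Iic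
    simp only [abs_of_nonpos (mem_Iic.1 ht), neg_neg]
  · refine (integrableOn_exp_neg_Ioi 0).congr_fun (fun t ht => ?_) measurableSet_Ioi
    simp only [abs_of_pos (mem_Ioi.1 ht)]

theorem cont_grad {τ : E 3 → ℝ} (h : ContDiff ℝ 1 τ) : Continuous (gradient τ) :=
  (InnerProductSpace.toDual ℝ (E 3)).symm.continuous.comp (h.continuous_fderiv one_ne_zero)

theorem cpt_grad {η : E 3 → ℝ} (h : HasCompactSupport η) : HasCompactSupport (gradient η) :=
  (h.fderiv ℝ).comp_left (g := (InnerProductSpace.toDual ℝ (E 3)).symm) (map_zero _)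

theorem pr_le (v : E 3 → ℝ) (y a : E 3) (h : ‖NN v y‖ = 1) : ‖Pr v y a‖ ^ 2 ≤ ‖a‖ ^ 2 := by
  have e : Pr v y a = a - ⟪NN v y, a⟫ • NN v y := rfl
  rw [e, norm_sub_sq_real, norm_smul, h, inner_smul_right, real_inner_comm (NN v y) a, mul_one,
    Real.norm_eq_abs, sq_abs]
  nlinarith [sq_nonneg ⟪NN v y, a⟫]

theorem bd (μ : Measure ℝ) (hμ : μ ≤ volume) (f : ℝ → ℝ) (B : ℝ)
    (h : ∀ t, |f t| ≤ Real.exp (-|t|) * B) :
    ‖∫ t, f t ∂μ‖ ≤ ∫ t, Real.exp (-|t|) * B ∂μ :=
  norm_integral_le_of_norm_le ((int_exp.mono_measure hμ).mul_const B) (ae_of_all _ h)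

theorem sq_cpt {F : Type} [NormedAddCommGroup F] {σ : Measure (E 3)} [IsLocallyFiniteMeasure σ]
    {f : E 3 → F} (hc : Continuous f) (h : HasCompactSupport f) :
    Integrable (fun y => ‖f y‖ ^ 2) σ := by
  have h1 : Continuous fun y => ‖f y‖ ^ 2 := hc.norm.pow 2
  have h2 : HasCompactSupport fun y => ‖f y‖ ^ 2 :=
    h.comp_left (g := fun a : F => ‖a‖ ^ 2) (by simp)
  exact h1.integrable_of_hasCompactSupport h2

end TIAux

open TIAux in
theorem ti_pf (hA : S_Alg) (hM : F_Meas) (hG : T_G) (hL : T_Loc) (hN : F_Int) : T_I := by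
  intro v C₀ hP O ε σ X CX hc hX τ η Λ L hτ hτ1 hΛ hη hη0 hL0
  obtain ⟨hσ, hae, -⟩ := hN v O ε σ hc
  obtain ⟨mN, mH, mK, -, mF, mJ, mP, cth, -⟩ := hM v hc.sol
  obtain ⟨c, -, hl⟩ := hL v C₀ hP
  obtain ⟨-, -, cg, cg1, hg, -, -, hg8, -⟩ := hG
  have hC := hP.one
  have loc : ∀ᵐ y ∂σ, ‖NN v y‖ = 1 ∧ |th v y| ≤ 1 ∧ |HH v y| ≤ 2 * C₀ ∧ |KK v y| ≤ 6 * C₀ := by
    filter_upwards [hae] with y hy
    obtain ⟨a1, a2, a3, -, a5, -⟩ := hl O ε hc.sol hc.good hc.pos hc.small y hy.1 hy.2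
    have := hc.small
    have t1 : th v y ≤ 1 := by linarith
    exact ⟨(hA v y hc.sol (hc.good.th_le y hy.1)).1, by rwa [abs_of_nonneg a2],
      a3.trans (by nlinarith), a5.trans (by nlinarith)⟩
  have iη : Integrable (fun y => η y ^ 2) σ := by
    simpa only [Real.norm_eq_abs, sq_abs] using sq_cpt (σ := σ) hη.continuous hη0
  have cτ := cont_grad hτ
  have iP : Integrable (fun y => ‖Pr v y (gradient η y)‖ ^ 2) σ := by
    refine (sq_cpt (σ := σ) (cont_grad hη) (cpt_grad hη0)).mono'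
      ((mP _ (cont_grad hη).measurable).norm.pow_const 2).aestronglyMeasurable ?_
    filter_upwards [loc] with y hy
    rw [Real.norm_eq_abs, abs_of_nonneg (sq_nonneg _)]
    exact pr_le v y _ hy.1
  have bτ : ∀ y, ‖τ y‖ ≤ 1 := fun y => by
    rw [Real.norm_eq_abs, abs_of_nonneg (hτ1 y).1]; exact (hτ1 y).2
  have mτ := hτ.continuous.measurable
  have mG : Measurable fun z => gradient τ (FF v z) := cτ.measurable.comp mF
  have bth : ∀ᵐ y ∂σ, ‖th v y‖ ≤ 1 := loc.mono fun y hy => hy.2.1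
  have iθ := iη.bdd_mul cth.aestronglyMeasurable bth
  have mD : AEStronglyMeasurable (DD v τ) σ :=
    (StronglyMeasurable.integral_prod_right' (ν := volume)
      (f := fun z : E 3 × ℝ => Real.exp (-|z.2|) * |τ (FF v z) - τ z.1|)
      (Measurable.stronglyMeasurable (by
        have := mτ.comp mF
        fun_prop))).aestronglyMeasurable
  have bD : ∀ᵐ y ∂σ, ‖DD v τ y‖ ≤ ∫ t : ℝ, Real.exp (-|t|) * 1 :=
    ae_of_all _ fun y => bd volume le_rfl _ 1 fun t => by
      rw [abs_mul, abs_abs, abs_of_pos (Real.exp_pos _)]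
      refine mul_le_mul_of_nonneg_left (abs_le.2 ⟨?_, ?_⟩) (Real.exp_pos _).le <;>
        linarith [hτ1 y, (hτ1 y).1, (hτ1 y).2, (hτ1 (FF v (y, t))).1, (hτ1 (FF v (y, t))).2]
  have mR : AEStronglyMeasurable (DGr v τ) σ :=
    (StronglyMeasurable.integral_prod_right' (ν := volume)
      (f := fun z : E 3 × ℝ => Real.exp (-|z.2|) * ‖gradient τ (FF v z)‖)
      (Measurable.stronglyMeasurable (by fun_prop))).aestronglyMeasurable
  have bR : ∀ᵐ y ∂σ, ‖DGr v τ y‖ ≤ ∫ t : ℝ, Real.exp (-|t|) * Λ :=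
    ae_of_all _ fun y => bd volume le_rfl _ Λ fun t => by
      rw [abs_mul, abs_norm, abs_of_pos (Real.exp_pos _)]
      exact mul_le_mul_of_nonneg_left (hΛ _) (Real.exp_pos _).le
  have mT : AEStronglyMeasurable (DT v τ L) σ :=
    (StronglyMeasurable.integral_prod_right' (ν := volume.restrict {t : ℝ | L < |t|})
      (f := fun z : E 3 × ℝ => Real.exp (-(2 * |z.2|)) * ‖gradient τ (FF v z)‖)
      (Measurable.stronglyMeasurable (by fun_prop))).aestronglyMeasurable
  have bT : ∀ᵐ y ∂σ, ‖DT v τ L y‖ ≤ ∫ t in {t : ℝ | L < |t|}, Real.exp (-|t|) * Λ :=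
    ae_of_all _ fun y => bd _ Measure.restrict_le_self _ Λ fun t => by
      rw [abs_mul, abs_norm, abs_of_pos (Real.exp_pos _)]
      exact mul_le_mul (Real.exp_le_exp.2 (by linarith [abs_nonneg t])) (hΛ _) (norm_nonneg _)
        (Real.exp_pos _).le
  have mY : Measurable (Yo v X) := by
    have h1 := cg.continuous.measurable
    have h2 := cg1.continuous.measurable
    have h3 : Measurable fun z => X (FF v z) := hX.sm.continuous.measurable.comp mF
    exact ((h2.comp measurable_snd).pow_const 2).smul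
      (h3.add (((h1.comp measurable_snd).const_mul _).smul (mN.comp measurable_fst)))
  have mI : AEStronglyMeasurable (fun y =>
      ∫ t in (-L)..L, ⟪gradient τ (FF v (y, t)), Yo v X (y, t)⟫ * JJ v (y, t)) σ := by
    simp only [intervalIntegral.integral_of_le (show -L ≤ L by linarith)]
    exact (StronglyMeasurable.integral_prod_right' (ν := volume.restrict (Ioc (-L) L))
      (f := fun z : E 3 × ℝ => ⟪gradient τ (FF v z), Yo v X z⟫ * JJ v z)
      ((mG.inner mY).mul mJ).stronglyMeasurable).aestronglyMeasurable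
  have bI : ∀ᵐ y ∂σ, ‖∫ t in (-L)..L, ⟪gradient τ (FF v (y, t)), Yo v X (y, t)⟫ * JJ v (y, t)‖ ≤
      Λ * (8 * (CX + √2)) * (1 + L * (2 * C₀) + L ^ 2 * (6 * C₀)) * |L - -L| := by
    filter_upwards [loc] with y hy
    refine intervalIntegral.norm_integral_le_of_norm_le_const fun t ht => ?_
    rw [uIoc_of_le (by linarith)] at ht
    have t1 : |t| ≤ L := abs_le.2 ⟨ht.1.le, ht.2⟩
    have y1 : ‖Yo v X (y, t)‖ ≤ 8 * (CX + √2) := by
      rw [Yo, norm_smul, Real.norm_eq_abs, abs_of_nonneg (sq_nonneg _)]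
      refine mul_le_mul ((hg8 t).trans ?_) ((norm_add_le _ _).trans (add_le_add (hX.bdd _) ?_))
        (norm_nonneg _) (by norm_num)
      · have : Real.exp (-(2 * √2 * |t|)) ≤ 1 := Real.exp_le_one_iff.2 (neg_nonpos.2 (by positivity))
        linarith
      · rw [norm_smul, hy.1, mul_one, Real.norm_eq_abs, abs_mul, abs_of_nonneg (Real.sqrt_nonneg _)]
        exact mul_le_of_le_one_right (Real.sqrt_nonneg _) (hg t).2.le
    have j1 : |JJ v (y, t)| ≤ 1 + L * (2 * C₀) + L ^ 2 * (6 * C₀) := by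
      refine (abs_add_three _ _ _).trans ?_
      rw [abs_one, abs_mul, abs_mul, abs_pow]
      gcongr
      exacts [hy.2.2.1, hy.2.2.2]
    have l0 : 0 ≤ Λ := (norm_nonneg _).trans (hΛ 0)
    rw [Real.norm_eq_abs, abs_mul]
    exact mul_le_mul ((abs_real_inner_le_norm _ _).trans
      (mul_le_mul (hΛ _) y1 (norm_nonneg _) l0)) j1 (abs_nonneg _)
      (mul_nonneg l0 ((norm_nonneg _).trans y1))
  refine ⟨?_, ?_, iP.bdd_mul mτ.aestronglyMeasurable (ae_of_all _ bτ), iθ.bdd_mul mD bD,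
    iP.bdd_mul mD bD, ?_, iη.bdd_mul mT bT, iη.mul_bdd mI bI, fun y => ?_⟩
  · simpa only [mul_assoc] using (iη.bdd_mul mK.abs.aestronglyMeasurable
      (loc.mono fun y hy => by rw [Real.norm_eq_abs, abs_abs]; exact hy.2.2.2)).bdd_mul
      mτ.aestronglyMeasurable (ae_of_all _ bτ)
  · simpa only [mul_assoc] using iθ.bdd_mul mτ.aestronglyMeasurable (ae_of_all _ bτ)
  · simpa only [mul_assoc] using iθ.bdd_mul mR bR
  · exact integral_nonneg fun t => mul_nonneg (Real.exp_pos _).le (abs_nonneg _)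

end Vale.Agent.P134.DG
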