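import Vale.Agent.P134.RDefs

/-! P134, block R: calculus for the Laplacian. -/

open Filter Topology MeasureTheory
open scoped ContDiff Laplacian RealInnerProductSpace

namespace Vale.Agent.P134

variable {n : ℕ} {f g : E n → ℝ} {x : E n}

theorem two_le_oo : (2 : WithTop ℕ∞) ≤ ∞ := WithTop.coe_le_coe.2 (le_top (a := (2 : ℕ∞)))

theorem three_le_oo : (3 : WithTop ℕ∞) ≤ ∞ := WithTop.coe_le_coe.2 (le_top (a := (3 : ℕ∞)))

theorem one_le_oo : (1 : WithTop ℕ∞) ≤ ∞ := WithTop.coe_le_coe.2 (le_top (a := (1 : ℕ∞)))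

theorem norm_ev (i : Fin n) : ‖ev i‖ = 1 := by simp [ev]

theorem ev_eq (i : Fin n) : ev i = EuclideanSpace.basisFun (Fin n) ℝ i := by simp [ev]

theorem contDiffAt_dv {m k : WithTop ℕ∞} (hf : ContDiffAt ℝ k f x) (h : m + 1 ≤ k) (e : E n) :
    ContDiffAt ℝ m (dv e f) x := (hf.fderiv_right h).clm_apply contDiffAt_const

theorem contDiff_dv {m k : WithTop ℕ∞} (hf : ContDiff ℝ k f) (h : m + 1 ≤ k) (e : E n) :
    ContDiff ℝ m (dv e f) := contDiff_iff_contDiffAt.2 fun _ => contDiffAt_dv hf.contDiffAt h e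

theorem smooth_dv (hf : ContDiff ℝ ∞ f) (e : E n) : ContDiff ℝ ∞ (dv e f) :=
  contDiff_dv hf (by simp) e

theorem diffAt_dv (hf : ContDiffAt ℝ 2 f x) (e : E n) : DifferentiableAt ℝ (dv e f) x :=
  (contDiffAt_dv (m := 1) hf (by norm_num) e).differentiableAt one_ne_zero

theorem ev_diff (hf : ContDiffAt ℝ 2 f x) : ∀ᶠ y in 𝓝 x, DifferentiableAt ℝ f y :=
  (hf.eventually (by simp)).mono fun _ h => h.differentiableAt (by simp)

theorem dv_congr (h : f =ᶠ[𝓝 x] g) (e : E n) : dv e f x = dv e g x := by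
  rw [dv, dv, h.fderiv_eq]

theorem abs_dv_le (e : E n) (f : E n → ℝ) (x : E n) : |dv e f x| ≤ ‖fderiv ℝ f x‖ * ‖e‖ :=
  (fderiv ℝ f x).le_opNorm e

theorem dv_const (e : E n) (c : ℝ) : dv e (fun _ => c) x = 0 := by simp [dv]

theorem dv_add (hf : DifferentiableAt ℝ f x) (hg : DifferentiableAt ℝ g x) (e : E n) :
    dv e (fun y => f y + g y) x = dv e f x + dv e g x := by
  rw [dv, fderiv_fun_add hf hg]; rfl

theorem dv_sub (hf : DifferentiableAt ℝ f x) (hg : DifferentiableAt ℝ g x) (e : E n) :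
    dv e (fun y => f y - g y) x = dv e f x - dv e g x := by
  rw [dv, fderiv_fun_sub hf hg]; rfl

theorem dv_mul (hf : DifferentiableAt ℝ f x) (hg : DifferentiableAt ℝ g x) (e : E n) :
    dv e (fun y => f y * g y) x = f x * dv e g x + g x * dv e f x := by
  rw [dv, fderiv_fun_mul hf hg]; rfl

theorem dv_const_mul (hf : DifferentiableAt ℝ f x) (c : ℝ) (e : E n) :
    dv e (fun y => c * f y) x = c * dv e f x := by
  rw [dv, fderiv_const_mul hf]; rfl

theorem dv_sum {ι : Type*} {s : Finset ι} {F : ι → E n → ℝ}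
    (h : ∀ i ∈ s, DifferentiableAt ℝ (F i) x) (e : E n) :
    dv e (fun y => ∑ i ∈ s, F i y) x = ∑ i ∈ s, dv e (F i) x := by
  rw [dv, fderiv_fun_sum h, sum_apply]; rfl

theorem fderiv_comp1 {G : ℝ → ℝ} {G' : ℝ} (hG : HasDerivAt G G' (f x))
    (hf : DifferentiableAt ℝ f x) : fderiv ℝ (fun y => G (f y)) x = G' • fderiv ℝ f x :=
  (hG.comp_hasFDerivAt x hf.hasFDerivAt).fderiv

theorem dv_comp {G : ℝ → ℝ} {G' : ℝ} (hG : HasDerivAt G G' (f x)) (hf : DifferentiableAt ℝ f x)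
    (e : E n) : dv e (fun y => G (f y)) x = G' * dv e f x := by
  rw [dv, fderiv_comp1 hG hf]; rfl

theorem dv_comp_add (e h : E n) (f : E n → ℝ) :
    dv e (fun y => f (y + h)) = fun y => dv e f (y + h) := by
  funext y; rw [dv, fderiv_comp_add_right]; rfl

theorem hasDerivAt_line (e : E n) {t : ℝ} (hf : DifferentiableAt ℝ f (x + t • e)) :
    HasDerivAt (fun s : ℝ => f (x + s • e)) (dv e f (x + t • e)) t := by
  have h : HasDerivAt (fun s : ℝ => x + s • e) e t := by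
    simpa using ((hasDerivAt_id t).smul_const e).const_add x
  exact hf.hasFDerivAt.comp_hasDerivAt t h

theorem dv_dv (hf : ContDiffAt ℝ 2 f x) (v w : E n) :
    dv v (dv w f) x = fderiv ℝ (fderiv ℝ f) x v w := by
  have h : DifferentiableAt ℝ (fderiv ℝ f) x :=
    (hf.fderiv_right (m := 1) (by norm_num)).differentiableAt one_ne_zero
  show fderiv ℝ (fun y => fderiv ℝ f y w) x v = _
  rw [fderiv_clm_apply h (differentiableAt_const w)]
  simp

theorem dv_comm (hf : ContDiffAt ℝ 2 f x) (v w : E n) : dv v (dv w f) x = dv w (dv v f) x := by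
  rw [dv_dv hf, dv_dv hf]
  exact hf.isSymmSndFDerivAt (by simp) v w

theorem abs_dv_dv_le (hf : ContDiffAt ℝ 2 f x) (v w : E n) :
    |dv v (dv w f) x| ≤ ‖iteratedFDeriv ℝ 2 f x‖ * (‖v‖ * ‖w‖) := by
  have h := (iteratedFDeriv ℝ 2 f x).le_opNorm ![v, w]
  rw [iteratedFDeriv_two_apply, Fin.prod_univ_two] at h
  rw [dv_dv hf]
  exact h

theorem lap_onb {ι : Type*} [Fintype ι] (b : OrthonormalBasis ι ℝ (E n))
    (hf : ContDiffAt ℝ 2 f x) : Δ f x = ∑ i, dv (b i) (dv (b i) f) x := by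
  rw [InnerProductSpace.laplacian_eq_iteratedFDeriv_orthonormalBasis f b]
  exact Finset.sum_congr rfl fun i _ => by rw [iteratedFDeriv_two_apply, dv_dv hf]; rfl

theorem lap_eq (hf : ContDiffAt ℝ 2 f x) : Δ f x = ∑ i, dv (ev i) (dv (ev i) f) x := by
  simp only [ev_eq]; exact lap_onb _ hf

theorem lap_congr (h : f =ᶠ[𝓝 x] g) : Δ f x = Δ g x :=
  (InnerProductSpace.laplacian_congr_nhds h).self_of_nhds

theorem abs_lap_le (hf : ContDiffAt ℝ 2 f x) : |Δ f x| ≤ n * ‖iteratedFDeriv ℝ 2 f x‖ := by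
  rw [lap_eq hf]
  refine (Finset.abs_sum_le_sum_abs _ _).trans ((Finset.sum_le_sum fun i _ =>
    abs_dv_dv_le hf (ev i) (ev i)).trans (le_of_eq ?_))
  simp [norm_ev]

/-- scalar product of the gradients -/
noncomputable def gd (f g : E n → ℝ) (x : E n) : ℝ := ∑ i, dv (ev i) f x * dv (ev i) g x

theorem gradient_apply (f : E n → ℝ) (x : E n) (i : Fin n) : gradient f x i = dv (ev i) f x := by
  have h : ⟪gradient f x, ev i⟫ = fderiv ℝ f x (ev i) := InnerProductSpace.toDual_symm_apply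
  rw [dv, ← h, ev, EuclideanSpace.inner_single_right]
  simp

theorem inner_gradient (f : E n → ℝ) (x e : E n) : ⟪gradient f x, e⟫ = dv e f x :=
  InnerProductSpace.toDual_symm_apply

theorem norm_gradient (f : E n → ℝ) (x : E n) : ‖gradient f x‖ = ‖fderiv ℝ f x‖ :=
  LinearIsometryEquiv.norm_map _ _

theorem gd_eq (f g : E n → ℝ) (x : E n) : gd f g x = ⟪gradient f x, gradient g x⟫ := by
  simp only [gd, PiLp.inner_apply, gradient_apply, RCLike.inner_apply, conj_trivial, mul_comm]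

theorem gd_eq_dv (f g : E n → ℝ) (x : E n) : gd f g x = dv (gradient g x) f x := by
  rw [gd_eq, inner_gradient]

theorem gd_self (f : E n → ℝ) (x : E n) : gd f f x = ‖fderiv ℝ f x‖ ^ 2 := by
  rw [gd_eq, real_inner_self_eq_norm_sq, norm_gradient]

theorem abs_gd_le (f g : E n → ℝ) (x : E n) : |gd f g x| ≤ ‖fderiv ℝ f x‖ * ‖fderiv ℝ g x‖ := by
  rw [gd_eq, ← norm_gradient, ← norm_gradient]; exact abs_real_inner_le_norm _ _

theorem dv_eq_sum (e : E n) (f : E n → ℝ) (x : E n) : dv e f x = ∑ i, e i * dv (ev i) f x := by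
  rw [← inner_gradient]
  simp only [PiLp.inner_apply, gradient_apply, RCLike.inner_apply, conj_trivial]

theorem lap_const (c : ℝ) : Δ (fun _ : E n => c) x = 0 := by
  rw [lap_eq contDiffAt_const]
  refine Finset.sum_eq_zero fun i _ => ?_
  rw [show dv (ev i) (fun _ : E n => c) = fun _ => 0 from funext fun _ => dv_const _ _, dv_const]

theorem lap_add (hf : ContDiffAt ℝ 2 f x) (hg : ContDiffAt ℝ 2 g x) :
    Δ (fun y => f y + g y) x = Δ f x + Δ g x := hf.laplacian_add hg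

theorem lap_sub (hf : ContDiffAt ℝ 2 f x) (hg : ContDiffAt ℝ 2 g x) :
    Δ (fun y => f y - g y) x = Δ f x - Δ g x := hf.laplacian_sub hg

theorem lap_const_mul (hf : ContDiffAt ℝ 2 f x) (c : ℝ) : Δ (fun y => c * f y) x = c * Δ f x :=
  InnerProductSpace.laplacian_smul c hf

theorem lap_sum {ι : Type*} {s : Finset ι} {F : ι → E n → ℝ}
    (h : ∀ i ∈ s, ContDiffAt ℝ 2 (F i) x) :
    Δ (fun y => ∑ i ∈ s, F i y) x = ∑ i ∈ s, Δ (F i) x := by
  classical
  induction s using Finset.induction_on with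
  | empty => simp
  | insert a s ha ih =>
    have h1 := fun i hi => h i (Finset.mem_insert_of_mem hi)
    simp only [Finset.sum_insert ha]
    rw [lap_add (h a (Finset.mem_insert_self _ _)) (ContDiffAt.sum h1), ih h1]

theorem dv_dv_mul (hf : ContDiffAt ℝ 2 f x) (hg : ContDiffAt ℝ 2 g x) (v w : E n) :
    dv v (dv w fun y => f y * g y) x = f x * dv v (dv w g) x + dv v f x * dv w g x +
      dv w f x * dv v g x + g x * dv v (dv w f) x := by
  have d1 := hf.differentiableAt (by simp)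
  have d2 := hg.differentiableAt (by simp)
  have e : dv w (fun y => f y * g y) =ᶠ[𝓝 x] fun y => f y * dv w g y + g y * dv w f y := by
    filter_upwards [ev_diff hf, ev_diff hg] with y h1 h2 using dv_mul h1 h2 w
  rw [dv_congr e, dv_add (d1.fun_mul (diffAt_dv hg w))
    (d2.fun_mul (diffAt_dv hf w)), dv_mul d1 (diffAt_dv hg w), dv_mul d2 (diffAt_dv hf w)]
  ring

theorem lap_mul (hf : ContDiffAt ℝ 2 f x) (hg : ContDiffAt ℝ 2 g x) :
    Δ (fun y => f y * g y) x = f x * Δ g x + 2 * gd f g x + g x * Δ f x := by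
  rw [lap_eq (hf.mul hg), lap_eq hf, lap_eq hg, gd]
  simp only [dv_dv_mul hf hg, Finset.mul_sum, ← Finset.sum_add_distrib]
  exact Finset.sum_congr rfl fun i _ => by ring

theorem dv_dv_comp {G G1 : ℝ → ℝ} {G2 : ℝ} (h1 : ∀ᶠ t in 𝓝 (f x), HasDerivAt G (G1 t) t)
    (h2 : HasDerivAt G1 G2 (f x)) (hf : ContDiffAt ℝ 2 f x) (v w : E n) :
    dv v (dv w fun y => G (f y)) x =
      G1 (f x) * dv v (dv w f) x + G2 * (dv v f x * dv w f x) := by
  have d1 := hf.differentiableAt (by simp)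
  have e : dv w (fun y => G (f y)) =ᶠ[𝓝 x] fun y => G1 (f y) * dv w f y := by
    filter_upwards [ev_diff hf, hf.continuousAt.eventually h1] with y k1 k2 using dv_comp k2 k1 w
  rw [dv_congr e, dv_mul (f := fun y => G1 (f y)) (h2.differentiableAt.comp x d1)
    (diffAt_dv hf w), dv_comp h2 d1]
  ring

/-- chain rule -/
theorem lap_comp {G G1 : ℝ → ℝ} {G2 : ℝ} (hG : ContDiffAt ℝ 2 G (f x))
    (h1 : ∀ᶠ t in 𝓝 (f x), HasDerivAt G (G1 t) t) (h2 : HasDerivAt G1 G2 (f x))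
    (hf : ContDiffAt ℝ 2 f x) :
    Δ (fun y => G (f y)) x = G1 (f x) * Δ f x + G2 * ‖fderiv ℝ f x‖ ^ 2 := by
  rw [lap_eq (f := fun y => G (f y)) (hG.comp x hf), lap_eq hf, ← gd_self, gd]
  simp only [dv_dv_comp h1 h2 hf, Finset.mul_sum, ← Finset.sum_add_distrib]

theorem lap_comp_add (f : E n → ℝ) (h x : E n) : Δ (fun y => f (y + h)) x = Δ f (x + h) := by
  simp only [InnerProductSpace.laplacian_eq_iteratedFDeriv_stdOrthonormalBasis,
    iteratedFDeriv_comp_add_right]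

theorem dv_comp_clm {m : ℕ} (L : E m →L[ℝ] E n) {y : E m} (hf : DifferentiableAt ℝ f (L y))
    (e : E m) : dv e (fun z => f (L z)) y = dv (L e) f (L y) := by
  have h : fderiv ℝ (fun z => f (L z)) y = _ := (hf.hasFDerivAt.comp y L.hasFDerivAt).fderiv
  rw [dv, h]; rfl

theorem dv_dv_comp_clm {m : ℕ} (L : E m →L[ℝ] E n) {y : E m} (hf : ContDiffAt ℝ 2 f (L y))
    (v w : E m) : dv v (dv w fun z => f (L z)) y = dv (L v) (dv (L w) f) (L y) := by
  have e : dv w (fun z => f (L z)) =ᶠ[𝓝 y] fun z => dv (L w) f (L z) := by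
    filter_upwards [L.continuous.continuousAt.eventually (ev_diff hf)] with z h
      using dv_comp_clm L h w
  rw [dv_congr e, dv_comp_clm L (diffAt_dv hf _)]

theorem lap_comp_iso (σ : E n ≃ₗᵢ[ℝ] E n) (hf : ContDiffAt ℝ 2 f (σ x)) :
    Δ (fun y => f (σ y)) x = Δ f (σ x) := by
  have L := σ.toContinuousLinearEquiv.toContinuousLinearMap
  rw [lap_eq (f := fun y => f (σ y)) (hf.comp x σ.contDiff.contDiffAt),
    lap_onb ((EuclideanSpace.basisFun (Fin n) ℝ).map σ) hf]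
  refine Finset.sum_congr rfl fun i _ => ?_
  rw [OrthonormalBasis.map_apply, ← ev_eq]
  exact dv_dv_comp_clm σ.toContinuousLinearEquiv.toContinuousLinearMap hf _ _

theorem lap_dv (hf : ContDiffAt ℝ 3 f x) (e : E n) : Δ (dv e f) x = dv e (Δ f) x := by
  have h2 : ∀ᶠ y in 𝓝 x, ContDiffAt ℝ 2 f y :=
    (hf.of_le (m := 2) (by norm_num)).eventually (by simp)
  have c : ∀ v, ContDiffAt ℝ 2 (dv v f) x := fun v => contDiffAt_dv hf (by norm_num) v
  have e1 : Δ f =ᶠ[𝓝 x] fun y => ∑ i, dv (ev i) (dv (ev i) f) y := h2.mono fun y h => lap_eq h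
  rw [dv_congr e1, dv_sum fun i _ => diffAt_dv (c _) _, lap_eq (c e)]
  refine Finset.sum_congr rfl fun i _ => ?_
  rw [dv_comm (c (ev i)) e (ev i)]
  exact dv_congr (f := dv (ev i) (dv e f)) (g := dv e (dv (ev i) f))
    (h2.mono fun y h => dv_comm h _ _) _

theorem contDiff_lap {m k : WithTop ℕ∞} (hf : ContDiff ℝ k f) (h : m + 2 ≤ k) :
    ContDiff ℝ m (Δ f) := by
  have h2 : ContDiff ℝ 2 f := hf.of_le (le_add_self.trans h)
  rw [show Δ f = fun y => ∑ i, dv (ev i) (dv (ev i) f) y from funext fun y =>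
    lap_eq h2.contDiffAt]
  exact ContDiff.sum fun i _ => contDiff_dv (k := m + 1)
    (contDiff_dv hf (by rwa [add_assoc, one_add_one_eq_two]) _) le_rfl _

/-- Bochner type formula for the square -/
theorem lap_sq (hf : ContDiffAt ℝ 2 f x) :
    Δ (fun y => f y ^ 2) x = 2 * f x * Δ f x + 2 * ‖fderiv ℝ f x‖ ^ 2 := by
  simp only [pow_two (f _)]
  rw [lap_mul hf hf, gd_self]
  ring

theorem norm_sq_fderiv (f : E n → ℝ) (x : E n) :
    ‖fderiv ℝ f x‖ ^ 2 = ∑ i, dv (ev i) f x ^ 2 := by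
  rw [← gd_self, gd]; simp only [pow_two]

theorem dv_dv_nonpos (hf : ContDiffAt ℝ 2 f x) (h : IsLocalMax f x) (e : E n) :
    dv e (dv e f) x ≤ 0 := by
  by_contra hp
  have c : Tendsto (fun s : ℝ => x + s • e) (𝓝 0) (𝓝 x) :=
    Continuous.tendsto' (by fun_prop) _ _ (by simp)
  have d1 : deriv (fun s : ℝ => f (x + s • e)) =ᶠ[𝓝 0] fun s => dv e f (x + s • e) :=
    (c.eventually (ev_diff hf)).mono fun s hs => (hasDerivAt_line e hs).deriv
  have d2 : deriv (deriv fun s : ℝ => f (x + s • e)) 0 = dv e (dv e f) x := by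
    rw [d1.deriv_eq, (hasDerivAt_line e (by simpa using diffAt_dv hf e)).deriv]
    simp
  have m : IsLocalMax (fun s : ℝ => f (x + s • e)) 0 := by
    have := c.eventually h
    simpa [IsLocalMax, IsMaxFilter] using this
  have m' := isLocalMin_of_deriv_deriv_pos (f := fun s : ℝ => f (x + s • e)) (x₀ := 0)
    (by rw [d2]; exact not_le.1 hp) m.deriv_eq_zero
    (hasDerivAt_line e (by simpa using hf.differentiableAt (by simp))).continuousAt
  have e0 : (fun s : ℝ => f (x + s • e)) =ᶠ[𝓝 0] fun _ => f (x + (0 : ℝ) • e) := by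
    filter_upwards [m, m'] with s h1 h2 using le_antisymm h1 h2
  rw [e0.deriv.deriv_eq] at d2
  simp only [deriv_const'] at d2
  exact hp (by rw [← d2])

/-- at a local maximum -/
theorem lap_nonpos (hf : ContDiffAt ℝ 2 f x) (h : IsLocalMax f x) : Δ f x ≤ 0 := by
  rw [lap_eq hf]
  exact Finset.sum_nonpos fun i _ => dv_dv_nonpos hf h _

end Vale.Agent.P134
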