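import Vale.Agent.P134.FStm
import Vale.Agent.P134.RCalc

/-! Local bounds along the zero set and the cut-off test function. -/

open scoped RealInnerProductSpace ContDiff ENNReal Topology Laplacian
open MeasureTheory Set Metric Filter

namespace Vale.Agent.P134.DG

namespace TLocAux

variable {v : E 3 → ℝ}

theorem cg (hv : Sol v) : ContDiff ℝ ∞ (gradient v) :=
  contDiff_euclidean.2 fun i => by simpa only [gradient_apply] using smooth_dv hv.smooth (ev i)

theorem cth (hv : Sol v) : ContDiff ℝ ∞ (th v) := contDiff_const.sub ((cg hv).norm_sq ℝ)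

theorem th0 (hv : Sol v) (x : E 3) : 0 ≤ th v x := by
  have := hv.mod x
  have := norm_nonneg (gradient v x)
  unfold th
  nlinarith

theorem dth (hv : Sol v) (y a : E 3) : fderiv ℝ (th v) y a = -(2 * ⟪gradient v y, MM v y a⟫) := by
  have h := (((cg hv).differentiable (by simp) y).hasFDerivAt.norm_sq.const_sub 1).fderiv
  rw [show fderiv ℝ (th v) y = _ from h]
  simp [MM]

theorem mv (hv : Sol v) {y : E 3} (h0 : v y = 0) (hN : ‖NN v y‖ = 1) {R L t : ℝ}
    (h : ∀ x ∈ closedBall y R, ‖gradient v x‖ ≤ L) (ht : |t| ≤ R) :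
    |v (FF v (y, t))| ≤ L * |t| := by
  have e : ‖FF v (y, t) - y‖ = |t| := by
    rw [FF, add_sub_cancel_left, norm_smul, hN, mul_one, Real.norm_eq_abs]
  have := (convex_closedBall y R).norm_image_sub_le_of_norm_fderiv_le (𝕜 := ℝ)
    (fun x _ => hv.smooth.differentiable (by simp) x) (fun x hx => norm_gradient v x ▸ h x hx)
    (mem_closedBall_self ((abs_nonneg t).trans ht)) (mem_closedBall_iff_norm.2 (e.trans_le ht))
  rwa [h0, sub_zero, e] at this

end TLocAux

open TLocAux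

theorem loc_pf (hA : S_Alg) (hG : T_G) : T_Loc := by
  intro v C hP
  obtain ⟨-, -, -, -, -, -, -, -, -, -, -, -, ⟨c, c0, hc⟩, -⟩ := hG
  refine ⟨c * (Real.exp (-(C * 2)) / 2), by positivity, fun O ε hv hO _ _ y hy h0 => ?_⟩
  have t1 := hO.th_le y hy
  have t0 := th0 hv y
  have C1 := hP.one
  obtain ⟨hN, -, -, -, -, -, -, -, a1, a2, -, a3, -⟩ := hA v y hv t1
  have f0 : 0 ≤ fro (SS v y) := Finset.sum_nonneg fun _ _ => sq_nonneg _
  have f1 : fro (SS v y) ≤ 6 * C * th v y := by linarith [hP.d2 y]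
  have q2 : 1 / 2 ≤ ‖gradient v y‖ ^ 2 := by unfold th at t1; linarith
  have q0 : ‖gradient v y‖ ≠ 0 := fun e => by rw [e] at q2; norm_num at q2
  have h1 : |HH v y| ≤ C * th v y := by
    have e : fderiv ℝ (th v) y (NN v y) = HH v y * (2 * ‖gradient v y‖ ^ 2) := by
      have e1 : gradient v y = ‖gradient v y‖ • NN v y := by rw [NN, smul_inv_smul₀ q0]
      rw [dth hv]
      nth_rewrite 1 [e1]
      rw [real_inner_smul_left, real_inner_comm]
      linear_combination (-2 * ‖gradient v y‖) * a3 h0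
    have e2 := (fderiv ℝ (th v) y).le_opNorm (NN v y)
    rw [e, hN, mul_one, Real.norm_eq_abs, abs_mul, abs_of_nonneg (a := 2 * _) (by positivity)] at e2
    nlinarith [hP.dth y, abs_nonneg (HH v y)]
  have h2 : HH v y ^ 2 ≤ (C * th v y) ^ 2 := sq_le_sq' (abs_le.1 h1).1 (abs_le.1 h1).2
  have h3 := mul_nonneg (zero_le_one.trans C1) t0
  have m1 := fun t => mv hv h0 hN (t := t) (fun x _ => hv.mod x) le_rfl
  simp only [one_mul] at m1
  refine ⟨(hO.small y hy h0 y (mem_ball_self four_pos)).1, t0, by linarith, f1, ?_, ?_, m1,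
    fun t b1 b2 => ?_⟩
  · rw [KK, abs_le]
    constructor <;> nlinarith [sq_nonneg (HH v y)]
  · rw [abs_le, KK]
    constructor <;> nlinarith [sq_nonneg (C * th v y)]
  · have m2 := mv hv h0 hN (L := 1 - Real.exp (-(C * 2)) / 2 * th v y) (fun x hx => ?_) b2
    · refine le_trans ?_ (hc _ t b1 b2 (m1 t))
      rw [mul_assoc]
      refine mul_le_mul_of_nonneg_left ?_ c0.le
      nlinarith [mul_nonneg (Real.exp_pos (-(C * 2))).le t0]
    · have e1 := (hP.hth x y).trans (mul_le_mul_of_nonneg_right (Real.exp_le_exp.2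
        (mul_le_mul_of_nonneg_left (mem_closedBall.1 hx) (zero_le_one.trans C1))) (th0 hv x))
      rw [← inv_mul_le_iff₀ (Real.exp_pos _), ← Real.exp_neg] at e1
      have e2 : th v x = 1 - ‖gradient v x‖ ^ 2 := rfl
      nlinarith [sq_nonneg (‖gradient v x‖ - 1)]

theorem bf_pf (hA : S_Alg) (hG : T_G) : T_Bf := by
  intro v C hP O ε hv hO e0 e1 hp η hη hc hs
  obtain ⟨c, -, hl⟩ := loc_pf hA hG v C hP
  obtain ⟨-, -, -, -, -, -, -, -, -, -, -, -, -, -, b1, -, -, b2, -⟩ := hG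
  have h1 : ContDiff ℝ 1 fun z : E 3 × ℝ => 4000 * C * z.2 ^ 2 * th v z.1 :=
    (contDiff_const.mul (contDiff_snd.pow 2)).mul (((cth hv).of_le one_le_oo).comp contDiff_fst)
  obtain ⟨m, m0, hm⟩ := hc.isCompact.exists_forall_le' (cth hv).continuous.continuousOn
    fun x _ => hp x
  refine ⟨(hη.comp contDiff_fst).mul ((b1.of_le one_le_oo).comp h1),
    {z | z.1 ∈ tsupport η ∧ v z.1 = 0 ∧ 4000 * C * z.2 ^ 2 * th v z.1 ≤ 1}, ?_, fun z hz => ?_,
    fun z h0 hz => ?_⟩
  · refine (hc.isCompact.prod (isCompact_closedBall (0 : ℝ) (1 + m⁻¹))).of_isClosed_subset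
      (((isClosed_tsupport η).preimage continuous_fst).inter
        ((isClosed_eq (hv.smooth.continuous.comp continuous_fst) continuous_const).inter
          (isClosed_le h1.continuous continuous_const))) fun z hz => ⟨hz.1, ?_⟩
    have a1 := mul_le_mul_of_nonneg_left (hm _ hz.1) (sq_nonneg z.2)
    have a2 := mul_nonneg (sq_nonneg z.2) m0.le
    have a3 : z.2 ^ 2 ≤ m⁻¹ := by
      rw [← one_div, le_div_iff₀ m0]
      nlinarith [hz.2.2, hP.one]
    rw [mem_closedBall_zero_iff, Real.norm_eq_abs]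
    nlinarith [sq_nonneg (|z.2| - 1), sq_abs z.2, inv_pos.2 m0]
  · have hy := hs ⟨hz.1, hz.2.1⟩
    have := mul_le_mul_of_nonneg_left (hl O ε hv hO e0 e1 _ hy hz.2.1).2.2.2.1 (sq_nonneg z.2)
    exact ⟨hy, by nlinarith [hz.2.2]⟩
  · by_cases h : z.1 ∈ tsupport η
    · rw [bf, b2 _ (le_of_not_ge fun k => hz ⟨h, h0, k⟩), mul_zero]
    · rw [bf, image_eq_zero_of_notMem_tsupport h, zero_mul]

end Vale.Agent.P134.DG
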