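import Vale.Agent.P134.FStm

/-! The pointwise inequality for the divergence of the calibrating field. -/

open scoped RealInnerProductSpace ContDiff ENNReal Topology Laplacian
open MeasureTheory Set Metric Filter

namespace Vale.Agent.P134.DG

namespace TPtAux

theorem hder {β g γ : ℝ → ℝ} {t bt g' γ' : ℝ} (H K : ℝ) (hβ : HasDerivAt β bt t)
    (hg : HasDerivAt g g' t) (hγ : HasDerivAt γ γ' t) (hJ : 1 + t * H + t ^ 2 * K ≠ 0) :
    deriv (fun s => β s ^ 2 * (√2 * g s * γ s ^ 2 +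
      γ s ^ 2 * (H + 2 * s * K) / (2 * (1 + s * H + s ^ 2 * K)))) t * (1 + t * H + t ^ 2 * K) +
      β t ^ 2 * (√2 * g t * γ t ^ 2 + γ t ^ 2 * (H + 2 * t * K) / (2 * (1 + t * H + t ^ 2 * K))) *
        (H + 2 * t * K) =
      (1 + t * H + t ^ 2 * K) * (2 * β t * bt * (√2 * g t * γ t ^ 2) +
        β t ^ 2 * (√2 * g' * γ t ^ 2 + √2 * g t * (2 * γ t * γ'))) +
      β t * bt * γ t ^ 2 * (H + 2 * t * K) + β t ^ 2 * (γ t * γ' * (H + 2 * t * K) + γ t ^ 2 * K) +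
      β t ^ 2 * (√2 * g t * γ t ^ 2) * (H + 2 * t * K) := by
  have h1 : HasDerivAt (fun s => H + 2 * s * K) (2 * K) t := by
    simpa using (((hasDerivAt_id' t).const_mul 2).mul_const K).const_add H
  have h2 : HasDerivAt (fun s => 2 * (1 + s * H + s ^ 2 * K)) (2 * (H + 2 * t * K)) t := by
    simpa using ((((hasDerivAt_id' t).mul_const H).const_add 1).fun_add
      (((hasDerivAt_id' t).fun_pow 2).mul_const K)).const_mul 2
  have h := (hβ.fun_pow 2).fun_mul (((hg.const_mul √2).fun_mul (hγ.fun_pow 2)).fun_add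
    (((hγ.fun_pow 2).fun_mul h1).fun_div h2 (mul_ne_zero two_ne_zero hJ)))
  rw [h.deriv]
  generalize 1 + t * H + t ^ 2 * K = J at hJ ⊢
  simp only [Nat.cast_ofNat, Nat.add_one_sub_one, pow_one]
  field_simp
  ring

end TPtAux

theorem pt_pf (hA : S_Alg) (hM : F_Meas) (hG : T_G) (hR : T_Rule) : T_Pt := by
  intro v O ε X CX hs hg hc z hz b hb
  have hth := hg.th_le _ hz.1
  obtain ⟨hN, -, -, -, -, -, -, -, -, -, -, -, hA'⟩ := hA v z.1 hs hth
  have hJ : 9 / 10 ≤ JJ v z := (hA' z.2 hz.2).2.2.2.2.2.2.2.1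
  obtain ⟨-, -, -, -, -, -, -, -, hM'⟩ := hM v hs
  obtain ⟨ho, mF, mJ, mJt, mN, -⟩ := hM' O ε hg
  have dF := (mF.contDiffAt (ho.mem_nhds hz)).differentiableAt (by simp)
  have dJ := (mJ.contDiffAt (ho.mem_nhds hz)).differentiableAt (by simp)
  have dJt := (mJt.contDiffAt (ho.mem_nhds hz)).differentiableAt (by simp)
  have dN := (mN.contDiffAt (ho.mem_nhds hz)).differentiableAt (by simp)
  obtain ⟨r1, r2, r3, -, r5, r6, r7, r8⟩ := hR v z hs hth hz.2
  have dg : DifferentiableAt ℝ (fun z : E 3 × ℝ => gg z.2) z :=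
    (hG.1 z.2).differentiableAt.comp z differentiableAt_snd
  have d1 : DifferentiableAt ℝ (fun z : E 3 × ℝ => g1 z.2) z :=
    (hG.2.1 z.2).differentiableAt.comp z differentiableAt_snd
  have dX : DifferentiableAt ℝ X (FF v z) := hc.sm.differentiable one_ne_zero _
  have dXF : DifferentiableAt ℝ (fun z => X (FF v z)) z := dX.comp z dF
  have dψ : DifferentiableAt ℝ (fun z : E 3 × ℝ => b z * g1 z.2) z := hb.mul d1
  have hJ0 : JJ v z ≠ 0 := by linarith
  have dh : DifferentiableAt ℝ (fun z : E 3 × ℝ => b z ^ 2 * (√2 * gg z.2 * g1 z.2 ^ 2 +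
      g1 z.2 ^ 2 * Jt v z / (2 * JJ v z))) z :=
    (hb.fun_pow 2).fun_mul (((dg.const_mul _).fun_mul (d1.fun_pow 2)).fun_add
      (((d1.fun_pow 2).fun_mul dJt).fun_mul
        ((dJ.const_mul 2).fun_inv (mul_ne_zero two_ne_zero hJ0))))
  have e : Yb v X b = fun z => ((b z * g1 z.2) * (b z * g1 z.2)) • X (FF v z) +
      (b z ^ 2 * (√2 * gg z.2 * g1 z.2 ^ 2 + g1 z.2 ^ 2 * Jt v z / (2 * JJ v z))) • NN v z.1 := by
    funext z
    simp only [Yb, Yo]
    module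
  have hβ : HasDerivAt (fun s => b (z.1, s)) (deriv (fun s => b (z.1, s)) z.2) z.2 :=
    (DifferentiableAt.comp (g := b) (f := fun s => (z.1, s)) z.2 hb
      ((differentiableAt_const _).prodMk differentiableAt_id)).hasDerivAt
  have k := TPtAux.hder (HH v z.1) (KK v z.1) hβ (hG.1 z.2) (hG.2.1 z.2) hJ0
  have k5 := (r5 _ dh).trans k
  have k6 := r6 _ _ hb d1
  rw [r7 g1 _ (hG.2.1 z.2)] at k6
  have k7 : ‖gr v (fun z : E 3 × ℝ => b z * g1 z.2) z‖ ^ 2 =
      (b z * (√2 * gg z.2 * g1 z.2)) ^ 2 - 2 * (b z * (√2 * gg z.2 * g1 z.2)) * g1 z.2 *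
        deriv (fun s => b (z.1, s)) z.2 + g1 z.2 ^ 2 * ‖gr v b z‖ ^ 2 := by
    rw [k6, norm_add_sq_real, norm_smul, norm_smul, norm_smul, hN, real_inner_smul_left,
      real_inner_smul_left, real_inner_smul_right, real_inner_comm, r8 b hb]
    simp only [Real.norm_eq_abs, mul_pow, sq_abs, mul_one, neg_sq]
    ring
  have k8 := sq_nonneg ‖gr v (fun z : E 3 × ℝ => b z * g1 z.2) z - (b z * g1 z.2) • X (FF v z)‖
  rw [norm_sub_sq_real, real_inner_smul_right, norm_smul, mul_pow, Real.norm_eq_abs, sq_abs] at k8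
  have k9 := mul_le_mul_of_nonneg_left (hc.ineq (FF v z)) (sq_nonneg (b z * g1 z.2))
  have s2 : √2 ^ 2 = (2 : ℝ) := Real.sq_sqrt zero_le_two
  have s3 : √2 * g1 z.2 = 1 - gg z.2 ^ 2 := by
    unfold g1
    field_simp
  have k10 : dO v (fun z => ((b z * g1 z.2) * (b z * g1 z.2)) • X (FF v z)) z ≤
      (b z * g1 z.2) ^ 2 * w2 (v (FF v z)) + ‖gr v (fun z : E 3 × ℝ => b z * g1 z.2) z‖ ^ 2 := by
    rw [r1 _ _ (dψ.fun_mul dψ) dXF, r3 X dX, r6 _ _ dψ dψ, inner_add_left, real_inner_smul_left]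
    linarith
  have k11 := mul_le_mul_of_nonneg_right k10 (by linarith : 0 ≤ JJ v z)
  rw [e, r2 _ _ ((dψ.fun_mul dψ).fun_smul dXF) (dh.fun_smul dN), add_mul, k5]
  rw [k7, w2] at k11
  refine (add_le_add_left k11 _).trans_eq ?_
  unfold JJ Jt
  generalize 1 + z.2 * HH v z.1 + z.2 ^ 2 * KK v z.1 = J
  simp only [Prod.mk.eta]
  linear_combination (-(J * b z ^ 2 * gg z.2 ^ 2 * g1 z.2 ^ 2)) * s2 + J * b z ^ 2 * g1 z.2 ^ 2 * s3

end Vale.Agent.P134.DG
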