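import Vale.Agent.P134.FStm

/-! Calculus rules for the gradient and the divergence in Fermi coordinates. -/

open scoped RealInnerProductSpace ContDiff ENNReal Topology Laplacian
open MeasureTheory Set Metric Filter

namespace Vale.Agent.P134.DG

namespace TRuleAux

theorem sum_ev (a : E 3) : ∑ i, a i • ev i = a := by
  simp only [ev_eq]
  exact (EuclideanSpace.basisFun (Fin 3) ℝ).sum_repr a

theorem dO_smul (v : E 3 → ℝ) (z : E 3 × ℝ) (h : E 3 × ℝ → ℝ) (G : E 3 × ℝ → E 3)
    (hh : DifferentiableAt ℝ h z) (hG : DifferentiableAt ℝ G z) :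
    dO v (fun z => h z • G z) z = h z * dO v G z + ⟪gr v h z, G z⟫ := by
  unfold dO gr
  rw [fderiv_fun_smul hh hG, Finset.mul_sum, sum_inner, ← Finset.sum_add_distrib]
  refine Finset.sum_congr rfl fun i _ => ?_
  simp only [add_apply, smul_apply,
    ContinuousLinearMap.smulRight_apply, inner_add_right, real_inner_smul_right,
    real_inner_smul_left]

theorem inner_pr (v : E 3 → ℝ) (y a : E 3) (hN : ‖NN v y‖ = 1) : ⟪Pr v y a, NN v y⟫ = 0 := by
  have h : Pr v y a = a - ⟪NN v y, a⟫ • NN v y := rfl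
  rw [h, inner_sub_left, real_inner_smul_left, real_inner_self_eq_norm_sq, hN, real_inner_comm]
  ring

end TRuleAux

open TRuleAux in
theorem rule_pf (hA : S_Alg) : T_Rule := by
  rintro v ⟨y, t⟩ hv hth ht
  obtain ⟨hN, hNs, -, -, -, hDN, -, -, -, -, -, -, hB⟩ := hA v y hv hth
  obtain ⟨-, -, hsym, hBN, -, -, -, -, -, -, hF, htr, hgr⟩ := hB t ht
  have dN : DifferentiableAt ℝ (NN v) y := hNs.differentiableAt (by simp)
  have hN1 : HasFDerivAt (fun z : E 3 × ℝ => NN v z.1)
      ((fderiv ℝ (NN v) y).comp (ContinuousLinearMap.fst ℝ (E 3) ℝ)) (y, t) :=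
    HasFDerivAt.comp (y, t) (g := NN v) dN.hasFDerivAt hasFDerivAt_fst
  have dF : DifferentiableAt ℝ (FF v) (y, t) :=
    differentiableAt_fst.add (differentiableAt_snd.smul hN1.differentiableAt)
  have last : ∀ h : E 3 × ℝ → ℝ, DifferentiableAt ℝ h (y, t) →
      ⟪gr v h (y, t), NN v y⟫ = deriv (fun s => h (y, s)) t := by
    intro h hh
    rw [hgr h hh, inner_add_left, hsym, hBN, inner_pr v y _ hN, real_inner_smul_left,
      real_inner_self_eq_norm_sq, hN]
    ring
  refine ⟨fun h G hh hG => dO_smul v _ h G hh hG, fun G G' hG hG' => ?_, fun X hX => ?_,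
    fun τ hτ => ?_, fun h hh => ?_, fun h k hh hk => ?_, fun φ φ' hφ => ?_, last⟩
  · unfold dO
    rw [fderiv_fun_add hG hG', ← Finset.sum_add_distrib]
    exact Finset.sum_congr rfl fun i _ => by rw [add_apply, inner_add_right]
  · unfold dO
    have h1 : fderiv ℝ (fun z => X (FF v z)) (y, t) = _ :=
      (hX.hasFDerivAt.comp (y, t) dF.hasFDerivAt).fderiv
    rw [h1]
    exact Finset.sum_congr rfl fun i _ => by rw [ContinuousLinearMap.comp_apply, hF]
  · unfold gr
    have h1 : fderiv ℝ (fun z => τ (FF v z)) (y, t) = _ :=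
      (hτ.hasFDerivAt.comp (y, t) dF.hasFDerivAt).fderiv
    rw [h1, ← sum_ev (gradient τ (FF v (y, t)))]
    exact Finset.sum_congr rfl fun i _ => by
      rw [ContinuousLinearMap.comp_apply, hF, gradient_apply, dv]
  · have h1 : dO v (fun z : E 3 × ℝ => NN v z.1) (y, t) =
        ∑ i, ⟪ev i, SS v y (Bi v (y, t) (ev i))⟫ := by
      unfold dO
      rw [hN1.fderiv]
      exact Finset.sum_congr rfl fun i _ => by rw [← hDN]; rfl
    rw [dO_smul v _ h _ hh hN1.differentiableAt, h1, add_mul, mul_assoc, htr]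
    show _ + ⟪gr v h (y, t), NN v y⟫ * _ = _
    rw [last h hh, add_comm]
    rfl
  · unfold gr
    rw [fderiv_fun_mul hh hk, Finset.smul_sum, Finset.smul_sum, ← Finset.sum_add_distrib]
    refine Finset.sum_congr rfl fun i _ => ?_
    simp only [add_apply, smul_apply, smul_eq_mul, add_smul,
      mul_smul]
  · have hd : DifferentiableAt ℝ (fun z : E 3 × ℝ => φ z.2) (y, t) :=
      DifferentiableAt.comp (y, t) (g := φ) hφ.differentiableAt differentiableAt_snd
    rw [hgr _ hd]
    have h1 : deriv (fun s => φ s) t = φ' := hφ.deriv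
    simp only [gradient_fun_const, map_zero, zero_add, h1]

end Vale.Agent.P134.DG
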