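import Vale.Agent.P134.FAlg1
import Vale.Agent.P134.FLin
import Vale.Agent.P134.FLin2
import Vale.Agent.P134.FAlg
import Vale.Agent.P134.FDet
import Vale.Agent.P134.FCV
import Vale.Agent.P134.FMeas
import Vale.Agent.P134.FTube
import Vale.Agent.P134.FInj
import Vale.Agent.P134.FSurf
import Vale.Agent.P134.FChart
import Vale.Agent.P134.FAF
import Vale.Agent.P134.FLI
import Vale.Agent.P134.FInt
import Vale.Agent.P134.FDVl
import Vale.Agent.P134.FDV
import Vale.Agent.P134.TG
import Vale.Agent.P134.TRule
import Vale.Agent.P134.TPt
import Vale.Agent.P134.TRS0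
import Vale.Agent.P134.TLoc
import Vale.Agent.P134.TI

/-! Block A0 assembled: Fermi coordinates, surface measure, area and divergence formulas. -/

namespace Vale.Agent.P134.DG

theorem alg_all : S_Alg := alg_pf alg1_pf lin_pf lin2_pf

theorem meas_all : F_Meas := meas_pf alg_all

theorem tube_all : F_Tube := tube_pf alg_all meas_all det_pf cv_pf

theorem inj_all : S_Inj := inj_pf alg_all

theorem surf_all : S_Surf := surf_pf alg_all meas_all inj_all tube_all

theorem int_all : F_Int := int_pf meas_all

theorem li_all : F_LI := li_pf alg_all meas_all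

theorem tan_all : F_Tan := tan_pf li_all

theorem af_all : S_AF := af_pf meas_all tube_all (chart_pf alg_all) int_all li_all

theorem rule_all : T_Rule := rule_pf alg_all

theorem dv_all : S_DV :=
  dv_pf meas_all tan_all int_all rule_all (dvl_pf alg_all meas_all li_all tan_all af_all int_all)

theorem loc_all : T_Loc := loc_pf alg_all g_pf

theorem rs0_all : T_RS0 :=
  rs0_pf alg_all meas_all g_pf rule_all (pt_pf alg_all meas_all g_pf rule_all) tan_all int_all dv_all

theorem ti_all : T_I := ti_pf alg_all meas_all g_pf loc_all int_all

end Vale.Agent.P134.DG
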