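import Vale.Agent.P134.Stm

/-! Internal statements of the Fermi calculus and of the reduced stability inequality. -/

open scoped RealInnerProductSpace ContDiff ENNReal Topology Laplacian
open MeasureTheory Set Metric Filter

namespace Vale.Agent.P134.DG

/-- The determinant of three vectors. -/
noncomputable def d3 (a b c : E 3) : ℝ := Matrix.det (Matrix.of ![a.ofLp, b.ofLp, c.ofLp])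

/-- The `t`-derivative of the Jacobian. -/
noncomputable def Jt (v : E 3 → ℝ) (z : E 3 × ℝ) : ℝ := HH v z.1 + 2 * z.2 * KK v z.1

/-- The cut-off profile. -/
noncomputable def bb (s : ℝ) : ℝ := Real.smoothTransition (2 - 2 * s)

/-- The cut-off test function. -/
noncomputable def bf (v η : E 3 → ℝ) (C₀ : ℝ) (z : E 3 × ℝ) : ℝ :=
  η z.1 * bb (4000 * C₀ * z.2 ^ 2 * th v z.1)

/-- The calibrating field. -/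
noncomputable def Yb (v : E 3 → ℝ) (X : E 3 → E 3) (b : E 3 × ℝ → ℝ) (z : E 3 × ℝ) : E 3 :=
  b z ^ 2 • (Yo v X z + (g1 z.2 ^ 2 * Jt v z / (2 * JJ v z)) • NN v z.1)

def F_Alg1 : Prop := ∀ (v : E 3 → ℝ) (y : E 3), Sol v → th v y ≤ 1 / 2 →
  ‖NN v y‖ = 1 ∧ ContDiffAt ℝ ∞ (NN v) y ∧ ContDiffAt ℝ ∞ (SS v) y ∧ SS v y (NN v y) = 0 ∧
  (∀ a b, ⟪SS v y a, b⟫ = ⟪a, SS v y b⟫) ∧ (∀ a, fderiv ℝ (NN v) y (Pr v y a) = SS v y a) ∧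
  (∀ a, ⟪NN v y, SS v y a⟫ = 0) ∧ (∀ a, ‖SS v y a‖ ^ 2 ≤ fro (SS v y) * ‖a‖ ^ 2) ∧
  fro (SS v y) ≤ 6 * ‖iteratedFDeriv ℝ 2 v y‖ ^ 2 ∧ HH v y ^ 2 ≤ 3 * fro (SS v y) ∧
  ‖fderiv ℝ (NN v) y‖ ≤ 2 * ‖iteratedFDeriv ℝ 2 v y‖ ∧
  (v y = 0 → HH v y * ‖gradient v y‖ = -⟪MM v y (NN v y), NN v y⟫)

def F_Lin : Prop := ∀ (S : E 3 →L[ℝ] E 3) (N : E 3) (t H K : ℝ), ‖N‖ = 1 → S N = 0 →
  (∀ a b, ⟪S a, b⟫ = ⟪a, S b⟫) → H = ∑ i, ⟪ev i, S (ev i)⟫ → K = (H ^ 2 - fro S) / 2 →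
  t ^ 2 * fro S < 1 / 400 → IsUnit (1 + t • S) ∧
    (∀ a, Ring.inverse (1 + t • S) (a + t • S a) = a) ∧
    (∀ a, Ring.inverse (1 + t • S) a + t • S (Ring.inverse (1 + t • S) a) = a) ∧
    (∀ a b, ⟪Ring.inverse (1 + t • S) a, b⟫ = ⟪a, Ring.inverse (1 + t • S) b⟫) ∧
    Ring.inverse (1 + t • S) N = N ∧ (∀ a, ‖Ring.inverse (1 + t • S) a‖ ≤ 20 / 19 * ‖a‖) ∧
    9 / 10 ≤ 1 + t * H + t ^ 2 * K ∧ 1 + t * H + t ^ 2 * K ≤ 10 / 9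

def F_Lin2 : Prop := ∀ (S B : E 3 →L[ℝ] E 3) (N : E 3) (t H K : ℝ), ‖N‖ = 1 → S N = 0 →
  (∀ a b, ⟪S a, b⟫ = ⟪a, S b⟫) → H = ∑ i, ⟪ev i, S (ev i)⟫ → K = (H ^ 2 - fro S) / 2 →
  (∀ a, B (a + t • S a) = a) →
    LinearMap.det ((1 + t • S : E 3 →L[ℝ] E 3) : E 3 →ₗ[ℝ] E 3) = 1 + t * H + t ^ 2 * K ∧
    (∑ i, ⟪ev i, S (B (ev i))⟫) * (1 + t * H + t ^ 2 * K) = H + 2 * t * K

def F_Det : Prop := ∀ (B : E 3 →L[ℝ] E 3) (a b N : E 3), ‖N‖ = 1 → ⟪N, a⟫ = 0 → ⟪N, b⟫ = 0 →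
  B N = N → |d3 (B a) (B b) N| = |LinearMap.det (B : E 3 →ₗ[ℝ] E 3)| * ar a b

def F_CV : Prop := ∀ (s : Set ((ℝ × ℝ) × ℝ)) (Ψ : (ℝ × ℝ) × ℝ → E 3)
  (Ψ' : (ℝ × ℝ) × ℝ → (ℝ × ℝ) × ℝ →L[ℝ] E 3), MeasurableSet s →
  (∀ a ∈ s, HasFDerivWithinAt Ψ (Ψ' a) s a) → ∀ Φ : E 3 → ℝ≥0∞, Measurable Φ →
  (∀ T, MeasurableSet T → T ⊆ Ψ '' s → ∫⁻ x in T, Φ x ≤ ∫⁻ a in s, Φ (Ψ a) *
    ENNReal.ofReal |d3 (Ψ' a ((1, 0), 0)) (Ψ' a ((0, 1), 0)) (Ψ' a ((0, 0), 1))|) ∧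
  (InjOn Ψ s → MeasurableSet (Ψ '' s) ∧ ∫⁻ x in Ψ '' s, Φ x = ∫⁻ a in s, Φ (Ψ a) *
    ENNReal.ofReal |d3 (Ψ' a ((1, 0), 0)) (Ψ' a ((0, 1), 0)) (Ψ' a ((0, 0), 1))|)

def F_Meas : Prop := ∀ v : E 3 → ℝ, Sol v → Measurable (NN v) ∧ Measurable (HH v) ∧
  Measurable (KK v) ∧ Measurable (fun y => fro (SS v y)) ∧ Measurable (FF v) ∧ Measurable (JJ v) ∧
  (∀ f : E 3 → E 3, Measurable f → Measurable fun y => Pr v y (f y)) ∧ Continuous (th v) ∧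
  ∀ O ε, Good v O ε → IsOpen (Om v O) ∧ ContDiffOn ℝ ∞ (FF v) (Om v O) ∧
    ContDiffOn ℝ ∞ (JJ v) (Om v O) ∧ ContDiffOn ℝ ∞ (Jt v) (Om v O) ∧
    ContDiffOn ℝ ∞ (fun z : E 3 × ℝ => NN v z.1) (Om v O) ∧
    ContDiffOn ℝ ∞ (fun z : E 3 × ℝ => KK v z.1) (Om v O) ∧
    (∀ ξ, ContinuousOn (fun z => DI v z ξ) (Om v O)) ∧
    (∀ h : E 3 × ℝ → ℝ, ContDiffOn ℝ 1 h (Om v O) → ContinuousOn (gr v h) (Om v O)) ∧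
    ∀ G : E 3 × ℝ → E 3, ContDiffOn ℝ 1 G (Om v O) → ContinuousOn (dO v G) (Om v O)

def F_Tube : Prop := ∀ (v : E 3 → ℝ) O (ε : ℝ), Sol v → Good v O ε → ∀ U Y Y', Par v O U Y Y' →
  ∀ D : Set (E 3 × ℝ), MeasurableSet D → D ⊆ Om v O → ∀ Φ : E 3 → ℝ≥0∞, Measurable Φ →
  (∀ T, MeasurableSet T → T ⊆ FF v '' (D ∩ {z | z.1 ∈ Y '' U}) → ∫⁻ x in T, Φ x ≤
    ∫⁻ a in U, (∫⁻ t : ℝ, D.indicator (fun z => Φ (FF v z) * ENNReal.ofReal (JJ v z)) (Y a, t)) *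
      ENNReal.ofReal (ar (Y' a (1, 0)) (Y' a (0, 1)))) ∧
  (InjOn Y U → InjOn (FF v) (D ∩ {z | z.1 ∈ Y '' U}) →
    MeasurableSet (FF v '' (D ∩ {z | z.1 ∈ Y '' U})) ∧
    ∫⁻ x in FF v '' (D ∩ {z | z.1 ∈ Y '' U}), Φ x =
    ∫⁻ a in U, (∫⁻ t : ℝ, D.indicator (fun z => Φ (FF v z) * ENNReal.ofReal (JJ v z)) (Y a, t)) *
      ENNReal.ofReal (ar (Y' a (1, 0)) (Y' a (0, 1))))

def F_Chart : Prop := ∀ (v : E 3 → ℝ) O (ε : ℝ), Sol v → Good v O ε → ∀ y ∈ O, v y = 0 →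
  ∃ U Y Y' W, Par v O U Y Y' ∧ InjOn Y U ∧ IsOpen W ∧ y ∈ W ∧ ∀ x ∈ W, v x = 0 → x ∈ Y '' U

def F_LI : Prop := ∀ (v : E 3 → ℝ) O (ε : ℝ), Sol v → Good v O ε → ∀ z₀ ∈ Om v O, v z₀.1 = 0 →
  ∃ (U : Set (E 3 × ℝ)) (I : E 3 → E 3 × ℝ), IsOpen U ∧ z₀ ∈ U ∧ U ⊆ Om v O ∧
    IsOpen (FF v '' (U ∩ {z | v z.1 = 0})) ∧ ∀ z ∈ U, v z.1 = 0 →
      I (FF v z) = z ∧ ContDiffAt ℝ 1 I (FF v z) ∧ ∀ ξ, fderiv ℝ I (FF v z) ξ = DI v z ξ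

def F_Int : Prop := ∀ (v : E 3 → ℝ) O ε σ, Ctx v O ε σ → IsLocallyFiniteMeasure σ ∧
  (∀ᵐ y ∂σ, y ∈ O ∧ v y = 0) ∧ (∀ᵐ z ∂(σ.prod (volume : Measure ℝ)), z.1 ∈ O ∧ v z.1 = 0) ∧
  ∀ f : E 3 × ℝ → ℝ, ContinuousOn f (Om v O) → CptO v O f →
    Integrable f (σ.prod volume) ∧
    ∫ z in Om v O, f z ∂(σ.prod volume) = ∫ y, (∫ t, f (y, t)) ∂σ ∧
    Integrable (fun y => ∫ t, f (y, t)) σ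

def F_Tan : Prop := ∀ (v : E 3 → ℝ) O (ε : ℝ), Sol v → Good v O ε → ∀ z ∈ Om v O, v z.1 = 0 →
  (∀ G : E 3 × ℝ → E 3, DifferentiableAt ℝ G z → (∀ᶠ z' in 𝓝 z, v z'.1 = 0 → G z' = 0) →
    dO v G z = 0) ∧
  ∀ h : E 3 × ℝ → ℝ, DifferentiableAt ℝ h z → (∀ᶠ z' in 𝓝 z, v z'.1 = 0 → h z' = 0) →
    gr v h z = 0

def F_DVl : Prop := ∀ (v : E 3 → ℝ) O ε σ, Ctx v O ε σ → ∀ z₀ ∈ Om v O, v z₀.1 = 0 →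
  ∃ U, IsOpen U ∧ z₀ ∈ U ∧ U ⊆ Om v O ∧ ∀ G : E 3 × ℝ → E 3, ContDiffOn ℝ 1 G (Om v O) →
    ∀ K, IsCompact K → K ⊆ U → (∀ z, v z.1 = 0 → z ∉ K → G z = 0) →
    ∫ z in Om v O, dO v G z * JJ v z ∂(σ.prod volume) = 0

/-! The reduced stability inequality. -/

def T_G : Prop := (∀ s, HasDerivAt gg (g1 s) s) ∧ (∀ s, HasDerivAt g1 (-(√2 * gg s * g1 s)) s) ∧
  ContDiff ℝ ∞ gg ∧ ContDiff ℝ ∞ g1 ∧ (∀ s, 0 < g1 s ∧ |gg s| < 1) ∧ StrictMono gg ∧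
  (∀ s, gg (-s) = -gg s) ∧ (∀ s, g1 s ^ 2 ≤ 8 * Real.exp (-(2 * √2 * |s|))) ∧
  (∀ s, Real.exp (-(√2 * |s|)) / √2 ≤ g1 s) ∧ Integrable (fun s => g1 s ^ 2) ∧
  ∫ s, g1 s ^ 2 = s0 ∧ (∀ a b, |a| ≤ |b| → gg a ^ 2 ≤ gg b ^ 2) ∧
  (∃ c, 0 < c ∧ ∀ a b, 1 ≤ |b| → |b| ≤ 2 → |a| ≤ |b| → c * (|b| - |a|) ≤ gg b ^ 2 - gg a ^ 2) ∧
  (∃ C, ∀ s, g1 s ^ 2 * (1 + |s|) ^ 6 ≤ C * Real.exp (-(2 * |s|))) ∧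
  ContDiff ℝ ∞ bb ∧ (∀ s, 0 ≤ bb s ∧ bb s ≤ 1) ∧ (∀ s, s ≤ 1 / 2 → bb s = 1) ∧
  (∀ s, 1 ≤ s → bb s = 0) ∧ ∃ C, ∀ s, |deriv bb s| ≤ C ∧ (s < 1 / 2 ∨ 1 < s → deriv bb s = 0)

def T_Rule : Prop := ∀ (v : E 3 → ℝ) (z : E 3 × ℝ), Sol v → th v z.1 ≤ 1 / 2 →
  z.2 ^ 2 * fro (SS v z.1) < 1 / 400 →
  (∀ (h : E 3 × ℝ → ℝ) (G : E 3 × ℝ → E 3), DifferentiableAt ℝ h z → DifferentiableAt ℝ G z →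
    dO v (fun z => h z • G z) z = h z * dO v G z + ⟪gr v h z, G z⟫) ∧
  (∀ G G' : E 3 × ℝ → E 3, DifferentiableAt ℝ G z → DifferentiableAt ℝ G' z →
    dO v (fun z => G z + G' z) z = dO v G z + dO v G' z) ∧
  (∀ X : E 3 → E 3, DifferentiableAt ℝ X (FF v z) →
    dO v (fun z => X (FF v z)) z = ∑ i, ⟪ev i, fderiv ℝ X (FF v z) (ev i)⟫) ∧
  (∀ τ : E 3 → ℝ, DifferentiableAt ℝ τ (FF v z) →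
    gr v (fun z => τ (FF v z)) z = gradient τ (FF v z)) ∧
  (∀ h : E 3 × ℝ → ℝ, DifferentiableAt ℝ h z →
    dO v (fun z => h z • NN v z.1) z * JJ v z =
      deriv (fun s => h (z.1, s)) z.2 * JJ v z + h z * Jt v z) ∧
  (∀ h k : E 3 × ℝ → ℝ, DifferentiableAt ℝ h z → DifferentiableAt ℝ k z →
    gr v (fun z => h z * k z) z = h z • gr v k z + k z • gr v h z) ∧
  (∀ (φ : ℝ → ℝ) (φ' : ℝ), HasDerivAt φ φ' z.2 → gr v (fun z => φ z.2) z = φ' • NN v z.1) ∧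
  (∀ h : E 3 × ℝ → ℝ, DifferentiableAt ℝ h z →
    ⟪gr v h z, NN v z.1⟫ = deriv (fun s => h (z.1, s)) z.2)

def T_Pt : Prop := ∀ (v : E 3 → ℝ) O (ε : ℝ) X CX, Sol v → Good v O ε → Cal v X CX →
  ∀ z ∈ Om v O, ∀ b : E 3 × ℝ → ℝ, DifferentiableAt ℝ b z →
  dO v (Yb v X b) z * JJ v z ≤
    g1 z.2 ^ 2 * (JJ v z * ‖gr v b z‖ ^ 2 + b z * deriv (fun s => b (z.1, s)) z.2 * Jt v z +
      b z ^ 2 * KK v z.1) -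
    3 * (gg z.2 ^ 2 - gg (v (FF v z)) ^ 2) * g1 z.2 ^ 2 * b z ^ 2 * JJ v z

def T_RS0 : Prop := ∀ (v : E 3 → ℝ) O ε σ X CX, Ctx v O ε σ → Cal v X CX →
  ∀ τ : E 3 → ℝ, ContDiff ℝ 1 τ → (∀ x, 0 ≤ τ x) → ∀ b : E 3 × ℝ → ℝ,
  ContDiffOn ℝ 1 b (Om v O) → CptO v O b →
  ∫ y, (∫ t, τ (FF v (y, t)) * g1 t ^ 2 * b (y, t) ^ 2 *
      (-KK v y + 3 * (gg t ^ 2 - gg (v (FF v (y, t))) ^ 2) * JJ v (y, t))) ∂σ ≤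
    (∫ y, (∫ t, (Om v O).indicator (fun z => τ (FF v z) * g1 z.2 ^ 2 * (JJ v z * ‖gr v b z‖ ^ 2 +
      b z * deriv (fun s => b (z.1, s)) z.2 * Jt v z)) (y, t)) ∂σ) +
    ∫ y, (∫ t, ⟪gradient τ (FF v (y, t)), Yb v X b (y, t)⟫ * JJ v (y, t)) ∂σ ∧
  Integrable (fun y => ∫ t, τ (FF v (y, t)) * g1 t ^ 2 * b (y, t) ^ 2 *
      (-KK v y + 3 * (gg t ^ 2 - gg (v (FF v (y, t))) ^ 2) * JJ v (y, t))) σ ∧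
  Integrable (fun y => ∫ t, (Om v O).indicator (fun z => τ (FF v z) * g1 z.2 ^ 2 *
      (JJ v z * ‖gr v b z‖ ^ 2 + b z * deriv (fun s => b (z.1, s)) z.2 * Jt v z)) (y, t)) σ ∧
  Integrable (fun y => ∫ t, ⟪gradient τ (FF v (y, t)), Yb v X b (y, t)⟫ * JJ v (y, t)) σ

def T_Loc : Prop := ∀ (v : E 3 → ℝ) (C₀ : ℝ), PW v C₀ → ∃ c, 0 < c ∧ ∀ O ε, Sol v → Good v O ε →
  0 < ε → ε ≤ 1 / 10000 → ∀ y ∈ O, v y = 0 →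
  th v y ≤ ε ∧ 0 ≤ th v y ∧ |HH v y| ≤ 2 * C₀ * th v y ∧ fro (SS v y) ≤ 6 * C₀ * th v y ∧
    |KK v y| ≤ 6 * C₀ * th v y ∧ |KK v y| ≤ -KK v y + 4 * C₀ ^ 2 * th v y ^ 2 ∧
    (∀ t, |v (FF v (y, t))| ≤ |t|) ∧
    ∀ t, 1 ≤ |t| → |t| ≤ 2 → c * th v y ≤ gg t ^ 2 - gg (v (FF v (y, t))) ^ 2

def T_Bf : Prop := ∀ (v : E 3 → ℝ) (C₀ : ℝ), PW v C₀ → ∀ O ε, Sol v → Good v O ε → 0 < ε →
  ε ≤ 1 / 10000 → (∀ x, 0 < th v x) → ∀ η : E 3 → ℝ, ContDiff ℝ 1 η → HasCompactSupport η →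
  tsupport η ∩ {y | v y = 0} ⊆ O → ContDiff ℝ 1 (bf v η C₀) ∧ CptO v O (bf v η C₀)

def T_L1 : Prop := ∀ (v : E 3 → ℝ) (C₀ : ℝ), PW v C₀ → ∃ C c ε₀ : ℝ, 0 < C ∧ 0 < c ∧ 0 < ε₀ ∧
  ∀ O ε, Sol v → Good v O ε → 0 < ε → ε ≤ 1 / 10000 → ε ≤ ε₀ → ∀ τ η : E 3 → ℝ, Continuous τ →
  (∀ x, 0 ≤ τ x ∧ τ x ≤ 1) → ∀ y ∈ O, v y = 0 → 0 < th v y →
  η y ^ 2 * (s0 * (τ y * |KK v y|) + c * (τ y * th v y) - C * (DD v τ y * th v y)) ≤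
    ∫ t, τ (FF v (y, t)) * g1 t ^ 2 * bf v η C₀ (y, t) ^ 2 *
      (-KK v y + 3 * (gg t ^ 2 - gg (v (FF v (y, t))) ^ 2) * JJ v (y, t))

def T_L2 : Prop := ∀ (v : E 3 → ℝ) (C₀ : ℝ), PW v C₀ → ∃ C : ℝ, 0 < C ∧
  ∀ O ε, Sol v → Good v O ε → 0 < ε → ε ≤ 1 / 10000 → ∀ τ η : E 3 → ℝ, Continuous τ →
  (∀ x, 0 ≤ τ x ∧ τ x ≤ 1) → ContDiff ℝ 1 η → ∀ y ∈ O, v y = 0 → 0 < th v y →
  ∫ t, (Om v O).indicator (fun z => τ (FF v z) * g1 z.2 ^ 2 *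
      (JJ v z * ‖gr v (bf v η C₀) z‖ ^ 2 +
        bf v η C₀ z * deriv (fun s => bf v η C₀ (z.1, s)) z.2 * Jt v z)) (y, t) ≤
    13 / 10 * s0 * (τ y * ‖Pr v y (gradient η y)‖ ^ 2) +
      C * (DD v τ y * ‖Pr v y (gradient η y)‖ ^ 2) +
      C * ε * ((τ y + DD v τ y) * th v y * η y ^ 2)

def T_L3 : Prop := ∀ (v : E 3 → ℝ) (C₀ : ℝ), PW v C₀ → ∃ C ε₀ : ℝ, 0 < C ∧ 0 < ε₀ ∧
  ∀ O ε X CX, Sol v → Good v O ε → 0 < ε → ε ≤ 1 / 10000 → Cal v X CX →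
  ∀ (τ η : E 3 → ℝ) (Λ L : ℝ), ContDiff ℝ 1 τ → (∀ x, ‖gradient τ x‖ ≤ Λ) → 2 ≤ L →
  ε * L ^ 2 ≤ ε₀ → ∀ y ∈ O, v y = 0 → 0 < th v y →
  ∫ t, ⟪gradient τ (FF v (y, t)), Yb v X (bf v η C₀) (y, t)⟫ * JJ v (y, t) ≤
    η y ^ 2 * ((∫ t in (-L)..L, ⟪gradient τ (FF v (y, t)), Yo v X (y, t)⟫ * JJ v (y, t)) +
      C * (DGr v τ y * th v y) + C * (1 + CX) * DT v τ L y)

def T_I : Prop := ∀ (v : E 3 → ℝ) (C₀ : ℝ), PW v C₀ → ∀ O ε σ X CX, Ctx v O ε σ → Cal v X CX →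
  ∀ (τ η : E 3 → ℝ) (Λ L : ℝ), ContDiff ℝ 1 τ → (∀ x, 0 ≤ τ x ∧ τ x ≤ 1) →
  (∀ x, ‖gradient τ x‖ ≤ Λ) → ContDiff ℝ 1 η → HasCompactSupport η → 0 ≤ L →
  Integrable (fun y => τ y * |KK v y| * η y ^ 2) σ ∧
  Integrable (fun y => τ y * th v y * η y ^ 2) σ ∧
  Integrable (fun y => τ y * ‖Pr v y (gradient η y)‖ ^ 2) σ ∧
  Integrable (fun y => DD v τ y * (th v y * η y ^ 2)) σ ∧
  Integrable (fun y => DD v τ y * ‖Pr v y (gradient η y)‖ ^ 2) σ ∧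
  Integrable (fun y => DGr v τ y * th v y * η y ^ 2) σ ∧
  Integrable (fun y => DT v τ L y * η y ^ 2) σ ∧
  Integrable (fun y => η y ^ 2 *
    ∫ t in (-L)..L, ⟪gradient τ (FF v (y, t)), Yo v X (y, t)⟫ * JJ v (y, t)) σ ∧
  ∀ y, 0 ≤ DD v τ y

end Vale.Agent.P134.DG
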