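import Vale.Agent.P134.GDefs

/-! The cross product and orthonormal frames of tangent planes. -/

open scoped RealInnerProductSpace ContDiff ENNReal Topology
open MeasureTheory Set Metric Filter

namespace Vale.Agent.P134.DG.G

namespace GCrossA

/-- The cross product. -/
noncomputable def cr : E 3 →L[ℝ] E 3 →L[ℝ] E 3 :=
  (LinearMap.mk₂ ℝ (fun a b : E 3 => (WithLp.toLp 2
      ![a 1 * b 2 - a 2 * b 1, a 2 * b 0 - a 0 * b 2, a 0 * b 1 - a 1 * b 0] : E 3))
    (fun a a' b => by ext i; fin_cases i <;> simp <;> ring)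
    (fun c a b => by ext i; fin_cases i <;> simp <;> ring)
    (fun a b b' => by ext i; fin_cases i <;> simp <;> ring)
    (fun c a b => by ext i; fin_cases i <;> simp <;> ring)).toContinuousBilinearMap

theorem c0 (a b : E 3) : cr a b 0 = a 1 * b 2 - a 2 * b 1 := rfl
theorem c1 (a b : E 3) : cr a b 1 = a 2 * b 0 - a 0 * b 2 := rfl
theorem c2 (a b : E 3) : cr a b 2 = a 0 * b 1 - a 1 * b 0 := rfl

theorem inn (a b : E 3) : ⟪a, b⟫ = a 0 * b 0 + a 1 * b 1 + a 2 * b 2 := by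
  simp only [PiLp.inner_apply, Fin.sum_univ_three, RCLike.inner_apply, conj_trivial]
  ring

theorem ext3 {a b : E 3} (h0 : a 0 = b 0) (h1 : a 1 = b 1) (h2 : a 2 = b 2) : a = b := by
  ext i
  fin_cases i
  exacts [h0, h1, h2]

theorem in1 {a : E 3} (h : ‖a‖ = 1) : ⟪a, a⟫ = 1 := by
  rw [real_inner_self_eq_norm_sq, h, one_pow]

theorem nm1 {a : E 3} (h : ⟪a, a⟫ = 1) : ‖a‖ = 1 := by
  rw [real_inner_self_eq_norm_sq] at h
  exact (pow_eq_one_iff_of_nonneg (norm_nonneg a) two_ne_zero).1 h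

theorem tr (b : OrthonormalBasis (Fin 3) ℝ (E 3)) (T : E 3 →L[ℝ] E 3) :
    ∑ i, ⟪ev i, T (ev i)⟫ = ⟪b 0, T (b 0)⟫ + ⟪b 1, T (b 1)⟫ + ⟪b 2, T (b 2)⟫ := by
  have h1 := LinearMap.trace_eq_sum_inner (T : E 3 →ₗ[ℝ] E 3) b
  have h2 := LinearMap.trace_eq_sum_inner (T : E 3 →ₗ[ℝ] E 3) (EuclideanSpace.basisFun (Fin 3) ℝ)
  rw [h1, Fin.sum_univ_three] at h2
  simpa [ev] using h2.symm

end GCrossA

open GCrossA

theorem cross_pf : S_GCross := by
  refine ⟨cr, fun a => ext3 ?_ ?_ ?_, fun n g hn hg hc => ?_⟩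
  · simp [c0, mul_comm]
  · simp [c1, mul_comm]
  · simp [c2, mul_comm]
  have n1 := in1 hn
  have g1 := in1 hg
  have hN := n1
  have hG := g1
  have hC := hc
  rw [inn] at hN hG hC
  have a1 : ⟪cr n g, cr n g⟫ = 1 := by
    rw [inn, c0, c1, c2]
    linear_combination (g 0 * g 0 + g 1 * g 1 + g 2 * g 2) * hN + hG -
      (n 0 * g 0 + n 1 * g 1 + n 2 * g 2) * hC
  have a2 : ⟪n, cr n g⟫ = 0 := by rw [inn, c0, c1, c2]; ring
  have a3 : ⟪g, cr n g⟫ = 0 := by rw [inn, c0, c1, c2]; ring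
  have a5 : cr (cr n g) g = -n := by
    refine ext3 ?_ ?_ ?_
    · rw [c0, c1, c2, PiLp.neg_apply]
      linear_combination g 0 * hC - n 0 * hG
    · rw [c1, c0, c2, PiLp.neg_apply]
      linear_combination g 1 * hC - n 1 * hG
    · rw [c2, c0, c1, PiLp.neg_apply]
      linear_combination g 2 * hC - n 2 * hG
  have a6 : cr g g = 0 := ext3 (by simp [c0, mul_comm]) (by simp [c1, mul_comm])
    (by simp [c2, mul_comm])
  generalize cr n g = ν at a1 a2 a3 a5 ⊢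
  have ho : Orthonormal ℝ ![n, g, ν] := by
    rw [orthonormal_iff_ite]
    intro i j
    fin_cases i <;> fin_cases j <;>
      simp [hn, hg, nm1 a1, hc, a2, a3, real_inner_comm n, real_inner_comm g ν]
  obtain ⟨b, hb⟩ : ∃ b : OrthonormalBasis (Fin 3) ℝ (E 3), ⇑b = ![n, g, ν] :=
    ⟨(basisOfOrthonormalOfCardEqFinrank ho (by simp)).toOrthonormalBasis (by simpa using ho),
      by simp⟩
  have b0 : b 0 = n := by rw [hb]; rfl
  have b1 : b 1 = g := by rw [hb]; rfl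
  have b2 : b 2 = ν := by rw [hb]; rfl
  have a4 : ∀ y, y = ⟪y, n⟫ • n + ⟪y, g⟫ • g + ⟪y, ν⟫ • ν := fun y => by
    have := b.sum_repr' y
    rw [Fin.sum_univ_three, b0, b1, b2, real_inner_comm y n, real_inner_comm y g,
      real_inner_comm y ν] at this
    exact this.symm
  have a7 : ∀ y, ⟪y, y⟫ = ⟪y, n⟫ ^ 2 + ⟪y, g⟫ ^ 2 + ⟪y, ν⟫ ^ 2 := fun y => by
    have := congrArg (fun z => ⟪y, z⟫) (a4 y)
    simp only [inner_add_right, real_inner_smul_right] at this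
    linarith
  refine ⟨nm1 a1, a2, a3, a4, fun y hy => ?_, fun y hy => ?_, fun S hS h0 => ?_⟩
  · have := a7 y
    rw [real_inner_comm n y, hy, real_inner_self_eq_norm_sq] at this
    rw [ar, hg, ← Real.sqrt_sq_eq_abs]
    congr 1
    linarith
  · have := congrArg (fun z => cr z g) (a4 y)
    simp only [map_add, map_smul, add_apply, smul_apply,
      real_inner_comm n y, hy, a5, a6, zero_smul, smul_zero, zero_add] at this
    rw [this, smul_neg, neg_smul]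
  · have e : fro S = ∑ i, ⟪ev i, (S ∘L S) (ev i)⟫ := Finset.sum_congr rfl fun i _ => by
      rw [ContinuousLinearMap.comp_apply, ← hS, real_inner_self_eq_norm_sq]
    have z : ∀ y, ⟪S y, n⟫ = 0 := fun y => by rw [hS, h0, inner_zero_right]
    have d1 := a7 (S g)
    have d2 := a7 (S ν)
    rw [z, hS g g, hS g ν, hS g (S g)] at d1
    rw [z, real_inner_comm g (S ν), hS ν ν, hS ν (S ν)] at d2
    rw [e, tr b, tr b, b0, b1, b2]
    simp only [ContinuousLinearMap.comp_apply, h0, map_zero, inner_zero_right]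
    rw [d1, d2]
    ring

theorem frm_pf (hC : S_GCross) : S_GFrm := by
  intro v z hp
  obtain ⟨cr, -, h⟩ := hC
  obtain ⟨n, hn, e⟩ : ∃ n : E 3, ‖n‖ = 1 ∧ ∀ y, ⟪gradient v z, y⟫ = 0 ↔ ⟪n, y⟫ = 0 :=
    ⟨‖gradient v z‖⁻¹ • gradient v z, norm_smul_inv_norm (𝕜 := ℝ) hp, fun y => by
      simp [real_inner_smul_left, hp]⟩
  obtain ⟨g, hg, hc⟩ : ∃ g : E 3, ‖g‖ = 1 ∧ ⟪n, g⟫ = 0 := by
    have ho : Orthonormal ℝ (({0} : Set (Fin 3)).domRestrict fun _ => n) :=
      ⟨fun _ => hn, Subsingleton.pairwise⟩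
    obtain ⟨b, hb⟩ := ho.exists_orthonormalBasis_extension_of_card_eq (by simp)
    refine ⟨b 1, b.norm_eq_one 1, ?_⟩
    rw [← hb 0 rfl]
    exact b.inner_eq_zero (by decide)
  obtain ⟨a1, a2, a3, a4, -⟩ := h n g hn hg hc
  generalize cr n g = ν at a1 a2 a3 a4
  have g1 := in1 hg
  have n1 := in1 a1
  have a3' : ⟪ν, g⟫ = 0 := by rw [real_inner_comm, a3]
  have k : ∀ s t : ℝ, ⟪s • g + t • ν, g⟫ = s ∧ ⟪s • g + t • ν, ν⟫ = t ∧
      ⟪s • g + t • ν, s • g + t • ν⟫ = s ^ 2 + t ^ 2 := fun s t => by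
    simp only [inner_add_left, inner_add_right, real_inner_smul_left, real_inner_smul_right, g1, n1,
      a3, a3']
    refine ⟨by ring, by ring, by ring⟩
  refine ⟨g, ν, fun θ => ⟨nm1 ?_, (e _).2 ?_⟩, fun θ => nm1 ?_, fun b hb => ?_,
    fun θ hθ θ' hθ' hh => ?_⟩
  · rw [bb, (k _ _).2.2, Real.cos_sq_add_sin_sq]
  · simp only [bb, inner_add_right, real_inner_smul_right, hc, a2, mul_zero, add_zero]
  · rw [(k _ _).2.2, neg_sq, Real.sin_sq_add_cos_sq]
  · have h1 := a4 b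
    rw [real_inner_comm n b, (e b).1 hb.2, zero_smul, zero_add] at h1
    have h2 := (k ⟪b, g⟫ ⟪b, ν⟫).2.2
    rw [← h1, in1 hb.1] at h2
    let w : Circle := ⟨⟨⟪b, g⟫, ⟪b, ν⟫⟩, by
      simp only [Submonoid.unitSphere, Submonoid.mem_mk, Subsemigroup.mem_mk,
        mem_sphere_zero_iff_norm]
      rw [Complex.norm_eq_sqrt_sq_add_sq, ← h2, Real.sqrt_one]⟩
    obtain ⟨θ, hθ, hw⟩ := (Circle.periodic_exp).exists_mem_Ico₀ Real.two_pi_pos (Complex.arg w)
    rw [Circle.exp_arg] at hw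
    have h3 := congrArg (fun u : Circle => (u : ℂ).re) hw
    have h4 := congrArg (fun u : Circle => (u : ℂ).im) hw
    simp only [Circle.coe_exp, Complex.exp_ofReal_mul_I_re, Complex.exp_ofReal_mul_I_im] at h3 h4
    refine ⟨θ, hθ, h1.trans ?_⟩
    rw [bb, ← h3, ← h4]
  · have h1 := congrArg (fun y => ⟪y, g⟫) hh
    have h2 := congrArg (fun y => ⟪y, ν⟫) hh
    simp only [bb, (k _ _).1, (k _ _).2.1] at h1 h2
    refine Circle.exp_injOn_Ico (by simp) hθ hθ' (Circle.ext (Complex.ext ?_ ?_))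
    · simpa only [Circle.coe_exp, Complex.exp_ofReal_mul_I_re] using h1
    · simpa only [Circle.coe_exp, Complex.exp_ofReal_mul_I_im] using h2

end Vale.Agent.P134.DG.G
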