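import Vale.Agent.P134.GDefs

/-! Block A3: the cross product and orthonormal frames. -/

open scoped RealInnerProductSpace ContDiff ENNReal Topology
open MeasureTheory Set Metric Filter

namespace Vale.Agent.P134.DG.G

namespace GCrossB

/-- The cross product. -/
noncomputable def c0 (a b : E 3) : E 3 :=
  WithLp.toLp 2 ![a 1 * b 2 - a 2 * b 1, a 2 * b 0 - a 0 * b 2, a 0 * b 1 - a 1 * b 0]

theorem inn (a b : E 3) : ⟪a, b⟫ = a 0 * b 0 + a 1 * b 1 + a 2 * b 2 := by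
  simp only [PiLp.inner_apply, Fin.sum_univ_three, RCLike.inner_apply, conj_trivial]
  ring

theorem ext3 {a b : E 3} (h0 : a 0 = b 0) (h1 : a 1 = b 1) (h2 : a 2 = b 2) : a = b := by
  ext i
  fin_cases i
  exacts [h0, h1, h2]

/-- The cross product as a bilinear map. -/
noncomputable def c1 : E 3 →ₗ[ℝ] E 3 →ₗ[ℝ] E 3 := LinearMap.mk₂ ℝ c0
  (fun a a' b => ext3 (by simp [c0]; ring) (by simp [c0]; ring) (by simp [c0]; ring))
  (fun t a b => ext3 (by simp [c0]; ring) (by simp [c0]; ring) (by simp [c0]; ring))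
  (fun a b b' => ext3 (by simp [c0]; ring) (by simp [c0]; ring) (by simp [c0]; ring))
  (fun t a b => ext3 (by simp [c0]; ring) (by simp [c0]; ring) (by simp [c0]; ring))

/-- The cross product as a continuous bilinear map. -/
noncomputable def c2 : E 3 →L[ℝ] E 3 →L[ℝ] E 3 :=
  LinearMap.toContinuousLinearMap
    ((LinearMap.toContinuousLinearMap : (E 3 →ₗ[ℝ] E 3) ≃ₗ[ℝ] _).toLinearMap.comp c1)

theorem c2_apply (a b : E 3) : c2 a b = c0 a b := rfl

theorem c00 (a b : E 3) : c0 a b 0 = a 1 * b 2 - a 2 * b 1 := rfl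
theorem c01 (a b : E 3) : c0 a b 1 = a 2 * b 0 - a 0 * b 2 := rfl
theorem c02 (a b : E 3) : c0 a b 2 = a 0 * b 1 - a 1 * b 0 := rfl

theorem lag (a b : E 3) : ⟪c0 a b, c0 a b⟫ = ⟪a, a⟫ * ⟪b, b⟫ - ⟪a, b⟫ ^ 2 := by
  simp only [inn, c00, c01, c02]; ring

theorem dec (n g y : E 3) : (⟪n, n⟫ * ⟪g, g⟫ - ⟪n, g⟫ ^ 2) • y =
    (⟪y, n⟫ * ⟪g, g⟫ - ⟪y, g⟫ * ⟪n, g⟫) • n + (⟪y, g⟫ * ⟪n, n⟫ - ⟪y, n⟫ * ⟪n, g⟫) • g +
      ⟪y, c0 n g⟫ • c0 n g := by
  refine ext3 ?_ ?_ ?_ <;>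
    simp only [inn, c00, c01, c02, PiLp.add_apply, PiLp.smul_apply, smul_eq_mul] <;> ring

theorem dbl (n g : E 3) : c0 (c0 n g) g = ⟪n, g⟫ • g - ⟪g, g⟫ • n := by
  refine ext3 ?_ ?_ ?_ <;>
    simp only [inn, c00, c01, c02, PiLp.sub_apply, PiLp.smul_apply, smul_eq_mul] <;> ring

theorem sum_ev (a b : E 3) : ∑ i, ⟪ev i, a⟫ * ⟪ev i, b⟫ = ⟪a, b⟫ := by
  simp [inn, ev, Fin.sum_univ_three]

end GCrossB

open GCrossB in
theorem cross_pf' : S_GCross := by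
  have h0 : ∀ a, c2 a a = 0 := fun a => ext3 (by simp [c2_apply, c00]; ring)
    (by simp [c2_apply, c01]; ring) (by simp [c2_apply, c02]; ring)
  refine ⟨c2, h0, fun n g hn hg hng => ?_⟩
  have nn : ⟪n, n⟫ = 1 := by rw [real_inner_self_eq_norm_sq, hn, one_pow]
  have gg : ⟪g, g⟫ = 1 := by rw [real_inner_self_eq_norm_sq, hg, one_pow]
  have h1 : ⟪c2 n g, c2 n g⟫ = 1 := by rw [c2_apply, lag, nn, gg, hng]; ring
  have h2 : ⟪n, c2 n g⟫ = 0 := by simp only [c2_apply, inn, c00, c01, c02]; ring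
  have h3 : ⟪g, c2 n g⟫ = 0 := by simp only [c2_apply, inn, c00, c01, c02]; ring
  have h4 : ∀ y, y = ⟪y, n⟫ • n + ⟪y, g⟫ • g + ⟪y, c2 n g⟫ • c2 n g := fun y => by
    simpa [hn, hg, hng, c2_apply] using dec n g y
  have h5 : c2 (c2 n g) g = -n := by simp [c2_apply, dbl, hng, hg]
  generalize c2 n g = ν at *
  have h6 : ∀ y z, ⟪y, z⟫ = ⟪y, n⟫ * ⟪n, z⟫ + ⟪y, g⟫ * ⟪g, z⟫ + ⟪y, ν⟫ * ⟪ν, z⟫ := fun y z => by
    conv_lhs => rw [h4 y]
    simp only [inner_add_left, real_inner_smul_left]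
  refine ⟨?_, h2, h3, h4, fun y hy => ?_, fun y hy => ?_, fun S hS hSn => ?_⟩
  · rw [real_inner_self_eq_norm_sq] at h1
    exact (pow_eq_one_iff_of_nonneg (norm_nonneg _) two_ne_zero).1 h1
  · rw [ar, hg, ← real_inner_self_eq_norm_sq, h6 y y, hy, real_inner_comm y g,
      real_inner_comm y ν, ← Real.sqrt_sq_eq_abs]
    congr 1
    ring
  · conv_lhs => rw [h4 y, real_inner_comm n y, hy]
    simp [h0, h5]
  · have a1 : ∀ y, ⟪S y, n⟫ = 0 := fun y => by rw [hS, hSn, inner_zero_right]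
    have a2 : ∑ i, ⟪ev i, S (ev i)⟫ = ⟪g, S g⟫ + ⟪ν, S ν⟫ := by
      rw [← sum_ev g (S g), ← sum_ev ν (S ν), ← Finset.sum_add_distrib]
      refine Finset.sum_congr rfl fun i _ => ?_
      rw [h6, real_inner_comm (S _) n, a1, ← hS g, ← hS ν, real_inner_comm (ev i) (S g),
        real_inner_comm (ev i) (S ν)]
      ring
    have a3 : fro S = ⟪S g, S g⟫ + ⟪S ν, S ν⟫ := by
      rw [fro, ← sum_ev (S g) (S g), ← sum_ev (S ν) (S ν), ← Finset.sum_add_distrib]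
      refine Finset.sum_congr rfl fun i _ => ?_
      rw [← real_inner_self_eq_norm_sq, h6, a1, real_inner_comm (S (ev i)) g,
        real_inner_comm (S (ev i)) ν, hS, hS]
      ring
    rw [a2, a3, h6 (S g) (S g), h6 (S ν) (S ν), a1, a1, real_inner_comm g (S g),
      real_inner_comm ν (S ν), real_inner_comm g (S ν), hS g ν, real_inner_comm (S g) ν, hS g ν]
    ring

theorem frm_pf' (hC : S_GCross) : S_GFrm := by
  obtain ⟨cr, -, h⟩ := hC
  intro v z hp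
  set p := gradient v z with hp'
  have hq : ‖p‖ ≠ 0 := norm_ne_zero_iff.2 hp
  have hn : ‖‖p‖⁻¹ • p‖ = 1 := by rw [norm_smul, norm_inv, norm_norm, inv_mul_cancel₀ hq]
  obtain ⟨g, hg, hpg⟩ : ∃ g : E 3, ‖g‖ = 1 ∧ ⟪p, g⟫ = 0 := by
    have h1 : Module.finrank ℝ (ℝ ∙ p)ᗮ = 2 := by
      have := Submodule.finrank_add_finrank_orthogonal (ℝ ∙ p)
      rw [finrank_span_singleton hp, finrank_euclideanSpace_fin] at this
      omega
    have : Nontrivial (ℝ ∙ p)ᗮ := Module.nontrivial_of_finrank_pos (R := ℝ) (by omega)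
    obtain ⟨g, hg⟩ := exists_norm_eq (ℝ ∙ p)ᗮ zero_le_one
    exact ⟨g, hg, Submodule.mem_orthogonal_singleton_iff_inner_right.1 g.2⟩
  obtain ⟨a1, a2, a3, a4, -⟩ := h _ g hn hg (by rw [real_inner_smul_left, hpg, mul_zero])
  generalize cr (‖p‖⁻¹ • p) g = ν at *
  replace a2 : ⟪p, ν⟫ = 0 := by
    rw [real_inner_smul_left] at a2
    exact (mul_eq_zero.1 a2).resolve_left (inv_ne_zero hq)
  have nrm : ∀ s t : ℝ, ‖s • g + t • ν‖ ^ 2 = s ^ 2 + t ^ 2 := fun s t => by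
    rw [norm_add_sq_real, real_inner_smul_left, real_inner_smul_right, a3, norm_smul, norm_smul,
      hg, a1]
    simp
  have one : ∀ s t : ℝ, s ^ 2 + t ^ 2 = 1 → ‖s • g + t • ν‖ = 1 := fun s t e =>
    (pow_eq_one_iff_of_nonneg (norm_nonneg _) two_ne_zero).1 ((nrm s t).trans e)
  refine ⟨g, ν, fun θ => ⟨one _ _ (Real.cos_sq_add_sin_sq θ), ?_⟩,
    fun θ => one _ _ (by rw [neg_sq, Real.sin_sq_add_cos_sq]), fun b hb => ?_, ?_⟩
  · rw [bb, inner_add_right, real_inner_smul_right, real_inner_smul_right, ← hp', hpg, a2]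
    ring
  · have b1 := a4 b
    rw [real_inner_smul_right, real_inner_comm p b, hb.2, mul_zero, zero_smul, zero_add] at b1
    have b2 := nrm ⟪b, g⟫ ⟪b, ν⟫
    rw [← b1, hb.1, one_pow] at b2
    let w : ℂ := ⟨⟪b, g⟫, ⟪b, ν⟫⟩
    have hw : ‖w‖ = 1 := by
      rw [Complex.norm_eq_sqrt_sq_add_sq, ← b2, Real.sqrt_one]
    have hw0 : w ≠ 0 := norm_ne_zero_iff.1 (by rw [hw]; exact one_ne_zero)
    have c1 := Complex.cos_arg hw0
    have c2 := Complex.sin_arg w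
    rw [hw, div_one] at c1 c2
    refine ⟨toIcoMod Real.two_pi_pos 0 w.arg, by
      simpa using toIcoMod_mem_Ico Real.two_pi_pos 0 w.arg, ?_⟩
    rw [bb, ← self_sub_toIcoDiv_zsmul, zsmul_eq_mul, Real.cos_sub_int_mul_two_pi,
      Real.sin_sub_int_mul_two_pi, c1, c2]
    exact b1
  · intro s hs t ht e
    have e1 : ‖(Real.cos s - Real.cos t) • g + (Real.sin s - Real.sin t) • ν‖ ^ 2 = 0 := by
      have : (Real.cos s - Real.cos t) • g + (Real.sin s - Real.sin t) • ν =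
          bb g ν s - bb g ν t := by simp only [bb, sub_smul]; abel
      rw [this, e, sub_self, norm_zero]
      ring
    rw [nrm] at e1
    have e2 : Real.cos (s - t) = 1 := by
      rw [Real.cos_sub]
      nlinarith [Real.cos_sq_add_sin_sq s, Real.cos_sq_add_sin_sq t]
    have := (Real.cos_eq_one_iff_of_lt_of_lt (by linarith [hs.1, ht.2])
      (by linarith [hs.2, ht.1])).1 e2
    linarith

end Vale.Agent.P134.DG.G
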