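import Vale.Agent.P134.Stm

/-! Block A3: geodesics of the zero set, intrinsic distance, statements of the pieces. -/

open scoped RealInnerProductSpace ContDiff ENNReal Topology
open MeasureTheory Set Metric Filter

namespace Vale.Agent.P134.DG.G

/-- Equal to `1 / |p|²` where `|p|² ≥ 1 / 4`, smooth everywhere. -/
noncomputable def bt (v : E 3 → ℝ) (x : E 3) : ℝ :=
  (‖gradient v x‖ ^ 2 + expNegInvGlue (1 / 4 - ‖gradient v x‖ ^ 2))⁻¹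

/-- The acceleration of geodesics of the level sets. -/
noncomputable def QQ (v : E 3 → ℝ) (x w : E 3) : E 3 :=
  bt v x • (⟪gradient v x, w⟫ • MM v x w - ⟪w, MM v x w⟫ • gradient v x)

/-- The geodesic flow: position `X x w t` and velocity `W x w t`. -/
structure Geo (v : E 3 → ℝ) (X W : E 3 → E 3 → ℝ → E 3) : Prop where
  sX : ContDiff ℝ 3 fun z : E 3 × E 3 × ℝ => X z.1 z.2.1 z.2.2
  sW : ContDiff ℝ 3 fun z : E 3 × E 3 × ℝ => W z.1 z.2.1 z.2.2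
  X0 : ∀ x w, X x w 0 = x
  W0 : ∀ x w, W x w 0 = w
  Xadd : ∀ x w s t, X x w (s + t) = X (X x w s) (W x w s) t
  Wadd : ∀ x w s t, W x w (s + t) = W (X x w s) (W x w s) t
  norm : ∀ x w t, ‖W x w t‖ = ‖w‖
  dX : ∀ x w t, ‖w‖ ≤ 2 → HasDerivAt (X x w) (W x w t) t
  dW : ∀ x w t, ‖w‖ ≤ 2 → HasDerivAt (W x w) (QQ v (X x w t) (W x w t)) t
  Xsm : ∀ x w (a t : ℝ), ‖w‖ ≤ 2 → |a| ≤ 1 → X x (a • w) t = X x w (a * t)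
  Wsm : ∀ x w (a t : ℝ), ‖w‖ ≤ 2 → |a| ≤ 1 → W x (a • w) t = a • W x w (a * t)

/-- Good points of the zero set. -/
def GP (v : E 3 → ℝ) (ε : ℝ) (y : E 3) : Prop :=
  v y = 0 ∧ ∀ x ∈ ball y 4, th v x ≤ ε ∧ ‖iteratedFDeriv ℝ 2 v x‖ ≤ ε

/-- Unit tangent vectors. -/
def UT (v : E 3 → ℝ) (x b : E 3) : Prop := ‖b‖ = 1 ∧ ⟪gradient v x, b⟫ = 0

/-- `a` and `b` are joined inside the zero set by a path of length at most `L`. -/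
def Jn (v : E 3 → ℝ) (a b : E 3) (L : ℝ) : Prop :=
  0 ≤ L ∧ ∃ c : ℝ → E 3, LipschitzWith 1 c ∧ (∀ t ∈ Icc 0 L, v (c t) = 0) ∧ c 0 = a ∧ c L = b

/-- `f` is the intrinsic distance to `Z`, capped at `T`. -/
structure Dst (v : E 3 → ℝ) (Z : Set (E 3)) (T : ℝ) (f : E 3 → ℝ) : Prop where
  nonneg : ∀ y, 0 ≤ f y
  le : ∀ y, f y ≤ T
  lip : ∀ a b L, Jn v a b L → f b ≤ f a + L
  app : ∀ y, f y < T → ∀ η > 0, ∃ z ∈ Z, ∃ L, L ≤ f y + η ∧ Jn v z y L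
  zero : ∀ z ∈ Z, f z = 0

/-- Minimal rays. -/
def Mn (v : E 3 → ℝ) (ε : ℝ) (X : E 3 → E 3 → ℝ → E 3) (f : E 3 → ℝ) (z b : E 3) (r : ℝ) : Prop :=
  UT v z b ∧ ∀ s ∈ Icc 0 r, GP v ε (X z b s) ∧ f (X z b s) = s

/-- The unit circle of a plane. -/
noncomputable def bb (e₁ e₂ : E 3) (θ : ℝ) : E 3 := Real.cos θ • e₁ + Real.sin θ • e₂

/-- An orthonormal frame of the tangent plane. -/
structure Frm (v : E 3 → ℝ) (z e₁ e₂ : E 3) : Prop where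
  ut : ∀ θ, UT v z (bb e₁ e₂ θ)
  der : ∀ θ, ‖-Real.sin θ • e₁ + Real.cos θ • e₂‖ = 1
  surj : ∀ b, UT v z b → ∃ θ ∈ Ico 0 (2 * Real.pi), b = bb e₁ e₂ θ
  inj : InjOn (bb e₁ e₂) (Ico 0 (2 * Real.pi))

/-- Polar coordinates. -/
noncomputable def YY (X : E 3 → E 3 → ℝ → E 3) (z e₁ e₂ : E 3) (a : ℝ × ℝ) : E 3 :=
  X z (bb e₁ e₂ a.1) a.2

/-- The net, the intrinsic distance `f₀` to it and its smoothing `f`. -/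
structure Pre (v d : E 3 → ℝ) (ρ ℓ : ℝ) (Z : Set (E 3)) (f₀ f : E 3 → ℝ) : Prop where
  sub : ∀ z ∈ Z, v z = 0 ∧ ρ ≤ d z ∧ d z ≤ ρ + 1
  cl : IsClosed Z
  dst : Dst v Z (2 * ℓ + 5) f₀
  two : ∀ y, v y = 0 → ρ ≤ d y → d y ≤ ρ + 1 → f₀ y ≤ 2
  sm : ContDiff ℝ 1 f
  up : ∀ y, v y = 0 → ρ ≤ d y → f₀ y ≤ f y + 1 / 2
  near : ∀ y, v y = 0 → ρ + 1 < d y → 2 ≤ f₀ y → |f y - f₀ y| ≤ 1 / 2
  one : ∀ y, v y = 0 → ρ - 5 < d y → ‖gradient f y‖ ≤ 21 / 20 ∧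
    (d y ≤ ρ + 1 / 2 → f y ≤ 3) ∧ (f y < ℓ + 1 → d y ≤ ρ + f y + 3)

/-! Statements. -/

def S_GFlow : Prop := ∀ (B : Type) [NormedAddCommGroup B] [NormedSpace ℝ B] [FiniteDimensional ℝ B]
  (F : B → B) (M : ℝ), ContDiff ℝ ∞ F → (∀ z, ‖F z‖ ≤ M) → ∃ Φ : B × ℝ → B, ContDiff ℝ 3 Φ ∧
    (∀ z, Φ (z, 0) = z) ∧ (∀ z t, HasDerivAt (fun s => Φ (z, s)) (F (Φ (z, t))) t) ∧
    ∀ α : ℝ → B, (∀ t, HasDerivAt α (F (α t)) t) → ∀ t, α t = Φ (α 0, t)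

def S_GGeo : Prop := ∀ (v : E 3 → ℝ) (C : ℝ), Sol v → (∀ x, ‖iteratedFDeriv ℝ 2 v x‖ ≤ C) →
  ∃ X W, Geo v X W

def S_GTan : Prop := ∀ (v : E 3 → ℝ) X W, Sol v → Geo v X W → ∀ x w t, ‖w‖ ≤ 2 →
  (∀ s ∈ uIcc 0 t, th v (X x w s) ≤ 1 / 2) →
  (⟪gradient v x, w⟫ = 0 → ⟪gradient v (X x w t), W x w t⟫ = 0 ∧ v (X x w t) = v x) ∧
    (t ≠ 0 → v (X x w t) = v x → ⟪gradient v x, w⟫ = 0)

def S_GTube : Prop := ∀ (v : E 3 → ℝ) X W (ε : ℝ), Sol v → Geo v X W → ε ≤ 1 / 2 →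
  ∀ (z : E 3) (b : ℝ → E 3) (θ₀ r₁ : ℝ), Continuous b → (∀ θ, UT v z (b θ)) → 0 ≤ r₁ →
  (∀ t ∈ Icc 0 r₁, GP v ε (X z (b θ₀) t)) → ∃ U : Set (ℝ × ℝ), IsOpen U ∧
    (∀ t ∈ Icc 0 r₁, (θ₀, t) ∈ U) ∧ ∀ a ∈ U, v (X z (b a.1) a.2) = 0 ∧
      th v (X z (b a.1) a.2) ≤ 1 / 2 ∧ ⟪gradient v (X z (b a.1) a.2), W z (b a.1) a.2⟫ = 0

def S_GLoc : Prop := ∀ (v : E 3 → ℝ) (ε : ℝ), Sol v → 0 < ε → ε ≤ 1 / 10000 → ∀ m, GP v ε m →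
  ∀ r, r ≤ 3 → ∀ y ∈ closedBall m r, ∀ y' ∈ closedBall m r, v y = 0 → v y' = 0 →
    Jn v y y' ((1 + 10 * ε * r) * dist y y')

def S_GGauss : Prop := ∀ (v : E 3 → ℝ) X W (ε : ℝ), Sol v → Geo v X W → ε ≤ 1 / 2 →
  ∀ m, GP v ε m → ∀ w w', ‖w‖ ≤ 1 → ⟪gradient v m, w⟫ = 0 → ⟪gradient v m, w'⟫ = 0 →
    ⟪fderiv ℝ (fun u => X m u 1) w w, fderiv ℝ (fun u => X m u 1) w w'⟫ = ⟪w, w'⟫

def S_GNorm : Prop := ∀ (v : E 3 → ℝ) X W (ε : ℝ), Sol v → Geo v X W → ε ≤ 1 / 2 →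
  ∀ m, GP v ε m → ∃ δ₀ > 0, ∀ δ, 0 < δ → δ ≤ δ₀ → ∀ (c : ℝ → E 3) (L : ℝ), LipschitzWith 1 c →
    c 0 = m → 0 ≤ L → (∀ t ∈ Icc 0 L, v (c t) = 0) → δ < dist (c L) m →
    ∃ τ ∈ Icc δ L, ∃ b, UT v m b ∧ c τ = X m b δ

def S_GDesc : Prop := ∀ (v : E 3 → ℝ) X W (ε : ℝ) Z T f, Sol v → Geo v X W → 0 < ε →
  ε ≤ 1 / 10000 → Dst v Z T f → ∀ m, GP v ε m → 0 < f m → f m < T →
    ∃ b, UT v m b ∧ ∃ δ > 0, ∀ r ∈ Icc 0 δ, f (X m b r) = f m - r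

def S_GCor : Prop := ∀ (v : E 3 → ℝ) X W (ε : ℝ) Z T f, Sol v → Geo v X W → 0 < ε →
  ε ≤ 1 / 10000 → Dst v Z T f → ∀ m, GP v ε m → ∀ a b, UT v m a → UT v m b → ∀ δ > 0,
    (∀ r ∈ Ioc 0 δ, f (X m b r) + 2 * r ≤ f (X m a r)) → b = -a

def S_GHR : Prop := ∀ (v : E 3 → ℝ) X W (ε : ℝ) Z T f, Sol v → Geo v X W → 0 < ε →
  ε ≤ 1 / 10000 → Dst v Z T f → IsClosed Z → ∀ y, v y = 0 → 0 < f y → f y < T →
    (∀ (c : ℝ → E 3) (t : ℝ), LipschitzWith 1 c → c 0 = y → 0 ≤ t →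
      (∀ s ∈ Icc 0 t, v (c s) = 0 ∧ f (c s) = f y - s) → GP v ε (c t)) →
    ∃ z ∈ Z, ∃ b, Mn v ε X f z b (f y) ∧ X z b (f y) = y

def S_GUni : Prop := ∀ (v : E 3 → ℝ) X W (ε : ℝ) Z T f, Sol v → Geo v X W → 0 < ε →
  ε ≤ 1 / 10000 → Dst v Z T f → ∀ z b z' b' r r', Mn v ε X f z b r' → Mn v ε X f z' b' r →
    0 < r → r < r' → X z b r = X z' b' r → z = z' ∧ b = b'

def S_GCross : Prop := ∃ cr : E 3 →L[ℝ] E 3 →L[ℝ] E 3, (∀ a, cr a a = 0) ∧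
  ∀ n g : E 3, ‖n‖ = 1 → ‖g‖ = 1 → ⟪n, g⟫ = 0 →
    ‖cr n g‖ = 1 ∧ ⟪n, cr n g⟫ = 0 ∧ ⟪g, cr n g⟫ = 0 ∧
    (∀ y, y = ⟪y, n⟫ • n + ⟪y, g⟫ • g + ⟪y, cr n g⟫ • cr n g) ∧
    (∀ y, ⟪n, y⟫ = 0 → ar y g = |⟪y, cr n g⟫|) ∧
    (∀ y, ⟪n, y⟫ = 0 → cr y g = -⟪y, cr n g⟫ • n) ∧
    ∀ S : E 3 →L[ℝ] E 3, (∀ a b, ⟪S a, b⟫ = ⟪a, S b⟫) → S n = 0 →
      ((∑ i, ⟪ev i, S (ev i)⟫) ^ 2 - fro S) / 2 =
        ⟪g, S g⟫ * ⟪cr n g, S (cr n g)⟫ - ⟪g, S (cr n g)⟫ ^ 2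

def S_GFrm : Prop := ∀ (v : E 3 → ℝ) (z : E 3), gradient v z ≠ 0 → ∃ e₁ e₂, Frm v z e₁ e₂

def S_GJac : Prop := ∀ (v : E 3 → ℝ), Sol v → ∀ x w : ℝ × ℝ → E 3, ContDiff ℝ 2 x →
  ContDiff ℝ 2 w → (∀ θ r, HasDerivAt (fun s => x (θ, s)) (w (θ, r)) r) → ∀ U : Set (ℝ × ℝ),
  IsOpen U → (∀ a ∈ U, v (x a) = 0 ∧ th v (x a) ≤ 1 / 2 ∧ ‖w a‖ = 1 ∧
    ∃ μ : ℝ, HasDerivAt (fun s => w (a.1, s)) (μ • gradient v (x a)) a.2) →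
  ∀ θ, ∃ J J₁ : ℝ → ℝ, ∀ r, (θ, r) ∈ U → HasDerivAt J (J₁ r) r ∧
    HasDerivAt J₁ (-(KK v (x (θ, r)) * J r)) r ∧
    ar (fderiv ℝ x (θ, r) (1, 0)) (fderiv ℝ x (θ, r) (0, 1)) = |J r| ∧
    |J₁ r| ≤ ‖fderiv ℝ w (θ, r) (1, 0)‖ ∧ ∀ ξ, ⟪gradient v (x (θ, r)), fderiv ℝ x (θ, r) ξ⟫ = 0

def S_GOde : Prop := ∀ (J J₁ k : ℝ → ℝ) (r₁ s : ℝ), 10 ≤ s → 0 ≤ r₁ → r₁ ≤ s →
  ContinuousOn k (Icc 0 r₁) → (∀ r ∈ Icc 0 r₁, HasDerivAt J (J₁ r) r ∧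
    HasDerivAt J₁ (-(k r * J r)) r ∧ |k r| ≤ 1 / 100) → J 0 = 0 → |J₁ 0| ≤ 1 →
  ∫⁻ r in Icc 0 r₁, ENNReal.ofReal (12 / s ^ 2 * (1 - r / s) ^ 2) * ENNReal.ofReal |J r| ≤
    2 + ∫⁻ r in Ioo 5 r₁, ENNReal.ofReal (|k r| * (1 - r / s) ^ 4) * ENNReal.ofReal |J r|

def S_GRay : Prop := ∀ (v : E 3 → ℝ) X W (ε : ℝ), Sol v → Geo v X W → 0 < ε → ε ≤ 1 / 10000 →
  ∀ z e₁ e₂, Frm v z e₁ e₂ → ∀ θ r₁ s : ℝ, 10 ≤ s → 0 ≤ r₁ → r₁ ≤ s →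
  (∀ t ∈ Icc 0 r₁, GP v ε (YY X z e₁ e₂ (θ, t))) →
  (∀ t ∈ Icc 0 r₁, ∀ ξ, ⟪gradient v (YY X z e₁ e₂ (θ, t)), fderiv ℝ (YY X z e₁ e₂) (θ, t) ξ⟫ = 0) ∧
  ∫⁻ r in Icc 0 r₁, ENNReal.ofReal (12 / s ^ 2 * (1 - r / s) ^ 2) * ENNReal.ofReal
      (ar (fderiv ℝ (YY X z e₁ e₂) (θ, r) (1, 0)) (fderiv ℝ (YY X z e₁ e₂) (θ, r) (0, 1))) ≤
    2 + ∫⁻ r in Ioo 5 r₁, ENNReal.ofReal (|KK v (YY X z e₁ e₂ (θ, r))| * (1 - r / s) ^ 4) *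
      ENNReal.ofReal
        (ar (fderiv ℝ (YY X z e₁ e₂) (θ, r) (1, 0)) (fderiv ℝ (YY X z e₁ e₂) (θ, r) (0, 1)))

def S_GOne : Prop := ∀ (v : E 3 → ℝ) O (ε : ℝ) σ X W, Ctx v O ε σ → Geo v X W →
  ∀ z e₁ e₂, Frm v z e₁ e₂ → ∀ (s : ℝ) (c : ℝ → ℝ), 10 ≤ s → Measurable c →
  (∀ θ, 0 ≤ c θ ∧ c θ ≤ s ∧ ∀ t ∈ Icc 0 (c θ), GP v ε (YY X z e₁ e₂ (θ, t)) ∧
    YY X z e₁ e₂ (θ, t) ∈ O) →
  InjOn (YY X z e₁ e₂) {a | a.1 ∈ Ico 0 (2 * Real.pi) ∧ a.2 ∈ Ioo 5 (c a.1)} →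
  ∀ A B : E 3 → ℝ≥0∞, Measurable A → Measurable B →
  (∀ θ, ∀ r ∈ Icc 0 (c θ), A (YY X z e₁ e₂ (θ, r)) ≤ ENNReal.ofReal (12 / s ^ 2 * (1 - r / s) ^ 2)) →
  (∀ θ, ∀ r ∈ Ioo 5 (c θ), ENNReal.ofReal (|KK v (YY X z e₁ e₂ (θ, r))| * (1 - r / s) ^ 4) ≤
    B (YY X z e₁ e₂ (θ, r))) →
  MeasurableSet (YY X z e₁ e₂ '' {a | a.1 ∈ Ico 0 (2 * Real.pi) ∧ a.2 ∈ Ioo 5 (c a.1)}) ∧
  ∫⁻ y in YY X z e₁ e₂ '' {a | a.1 ∈ Ico 0 (2 * Real.pi) ∧ a.2 ∈ Icc 0 (c a.1)}, A y ∂σ ≤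
    14 + ∫⁻ y in YY X z e₁ e₂ '' {a | a.1 ∈ Ico 0 (2 * Real.pi) ∧ a.2 ∈ Ioo 5 (c a.1)}, B y ∂σ

def S_GNet : Prop := ∃ C₀ : ℝ, 0 < C₀ ∧ ∀ A : Set (E 3), ∃ Z ⊆ A, IsClosed Z ∧
  (∀ y ∈ A, ∃ z ∈ Z, dist y z ≤ 1) ∧ ∀ B S : Set (E 3), Bornology.IsBounded S →
    (∀ z ∈ Z ∩ B, ball z (1 / 2) ⊆ S) →
    (Z ∩ B).Finite ∧ ((Z ∩ B).ncard : ℝ) ≤ C₀ * volume.real S

def S_GMol : Prop := ∀ (A : Set (E 3)) (f₁ : E 3 → ℝ) (T : ℝ), (∀ y ∈ A, 0 ≤ f₁ y ∧ f₁ y ≤ T) →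
  (∀ y ∈ A, ∀ y' ∈ A, dist y y' ≤ 3 → f₁ y ≤ f₁ y' + 101 / 100 * dist y y') →
  ∃ f : E 3 → ℝ, ContDiff ℝ 1 f ∧ ∀ y ∈ A, ‖gradient f y‖ ≤ 21 / 20 ∧ |f y - f₁ y| ≤ 1 / 2

def S_GCut : Prop := ∀ (P : Set (ℝ × ℝ)) (s : ℝ), IsClosed P → 0 ≤ s → (∀ θ, (θ, 0) ∈ P) →
  ∃ c : ℝ → ℝ, Measurable c ∧ ∀ θ, c θ ∈ Icc 0 s ∧ (θ, c θ) ∈ P ∧
    ∀ r ∈ Icc 0 s, (θ, r) ∈ P → r ≤ c θ

def S_GPre : Prop := ∀ (v d : E 3 → ℝ) (ε ρ ℓ : ℝ) (Z : Set (E 3)), Sol v → 0 < ε →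
  ε ≤ 1 / 10000 → LipschitzWith 1 d → 10 ≤ ℓ → (∀ y, v y = 0 → ρ - 10 < d y → GP v ε y) →
  (∀ z ∈ Z, v z = 0 ∧ ρ ≤ d z ∧ d z ≤ ρ + 1) → IsClosed Z →
  (∀ y, v y = 0 → ρ ≤ d y → d y ≤ ρ + 1 → ∃ z ∈ Z, dist y z ≤ 1) → ∃ f₀ f, Pre v d ρ ℓ Z f₀ f

def S_GSum : Prop := ∀ (v : E 3 → ℝ) O (ε : ℝ) σ X W (d : E 3 → ℝ) (ρ ℓ : ℝ) Z f₀ f, Ctx v O ε σ →
  Geo v X W → LipschitzWith 1 d → (∀ y, v y = 0 → ρ - 10 < d y → y ∈ O) → Pre v d ρ ℓ Z f₀ f →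
  Measurable (KK v) → ∀ s : ℝ, 10 ≤ s → s ≤ ℓ → ∀ (x₀ : E 3) (R : ℝ) (F : Finset (E 3)),
  (F : Set (E 3)) = Z ∩ ball x₀ (R + s) →
  ∫⁻ y in {y | ρ < d y} ∩ ball x₀ R,
      ENNReal.ofReal (12 / s ^ 2 * max (1 - (f y + 1) / s) 0 ^ 2) ∂σ ≤ 14 * F.card +
    ∫⁻ y in {y | ρ < d y ∧ 4 < f y} ∩ ball x₀ (R + 2 * s),
      ENNReal.ofReal (|KK v y| * max (1 - (f y - 1) / s) 0 ^ 4) ∂σ

/-! Basic facts. -/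

variable {v : E 3 → ℝ} {X W : E 3 → E 3 → ℝ → E 3} {ε : ℝ}

theorem norm_MM (v : E 3 → ℝ) (x : E 3) : ‖MM v x‖ = ‖iteratedFDeriv ℝ 2 v x‖ := by
  have h : gradient v = (InnerProductSpace.toDual ℝ (E 3)).symm ∘ fderiv ℝ v := rfl
  rw [MM, h, LinearIsometryEquiv.comp_fderiv, ← norm_iteratedFDeriv_fderiv, norm_iteratedFDeriv_one]
  exact (InnerProductSpace.toDual ℝ (E 3)).symm.toLinearIsometry.norm_toContinuousLinearMap_comp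

theorem contDiff_grad (hv : Sol v) : ContDiff ℝ ∞ (gradient v) :=
  (InnerProductSpace.toDual ℝ (E 3)).symm.contDiff.comp (hv.smooth.fderiv_right (by simp))

theorem hasFDerivAt_grad (hv : Sol v) (x : E 3) : HasFDerivAt (gradient v) (MM v x) x :=
  ((contDiff_grad hv).differentiable (by simp) x).hasFDerivAt

theorem fderiv_eq_inner (v : E 3 → ℝ) (x a : E 3) : fderiv ℝ v x a = ⟪gradient v x, a⟫ := by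
  rw [gradient, InnerProductSpace.toDual_symm_apply]

theorem bt_eq {x : E 3} (h : th v x ≤ 1 / 2) : bt v x * ‖gradient v x‖ ^ 2 = 1 := by
  unfold th at h
  rw [bt, expNegInvGlue.zero_of_nonpos (by linarith), add_zero, inv_mul_cancel₀ (by linarith)]

theorem GP.th_le {m : E 3} (h : GP v ε m) : th v m ≤ ε := (h.2 m (mem_ball_self (by norm_num))).1

theorem Geo.dist_le (h : Geo v X W) (x : E 3) {w : E 3} (hw : ‖w‖ ≤ 2) (s t : ℝ) :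
    dist (X x w s) (X x w t) ≤ ‖w‖ * |s - t| := by
  have := Convex.norm_image_sub_le_of_norm_hasDerivWithin_le (f := X x w) (f' := W x w) (C := ‖w‖)
    (s := univ) (fun t _ => (h.dX x w t hw).hasDerivWithinAt) (fun t _ => (h.norm x w t).le)
    convex_univ (mem_univ t) (mem_univ s)
  rwa [dist_eq_norm, ← Real.norm_eq_abs]

theorem Geo.lip (h : Geo v X W) (x : E 3) {w : E 3} (hw : ‖w‖ ≤ 1) : LipschitzWith 1 (X x w) :=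
  LipschitzWith.of_dist_le_mul fun s t => (h.dist_le x (by linarith) s t).trans (by
    rw [Real.dist_eq]
    exact mul_le_mul_of_nonneg_right (by simpa using hw) (abs_nonneg _))

theorem Geo.back (h : Geo v X W) (x : E 3) {w : E 3} (hw : ‖w‖ ≤ 2) (s t : ℝ) :
    X (X x w s) (-W x w s) t = X x w (s - t) ∧ W (X x w s) (-W x w s) t = -W x w (s - t) := by
  have h1 : ‖W x w s‖ ≤ 2 := by rwa [h.norm]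
  have h2 := h.Xsm (X x w s) (W x w s) (-1) t h1 (by simp)
  have h3 := h.Wsm (X x w s) (W x w s) (-1) t h1 (by simp)
  rw [neg_one_smul, neg_one_mul] at h2 h3
  rw [neg_one_smul] at h3
  rw [h2, h3, sub_eq_add_neg, h.Xadd, h.Wadd]
  exact ⟨rfl, rfl⟩

/-- Short geodesics from a good point stay in the zero set. -/
theorem short (hT : S_GTan) (hv : Sol v) (h : Geo v X W) (hε : ε ≤ 1 / 2) {m b : E 3}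
    (hm : GP v ε m) (hb : UT v m b) {t : ℝ} (ht : |t| < 4) :
    v (X m b t) = 0 ∧ UT v (X m b t) (W m b t) := by
  have h1 := (hT v X W hv h m b t (by rw [hb.1]; norm_num) fun s hs => ?_).1 hb.2
  · exact ⟨h1.2.trans hm.1, (h.norm m b t).trans hb.1, h1.1⟩
  refine (hm.2 _ ?_).1.trans hε
  have h2 := h.dist_le m (w := b) (by rw [hb.1]; norm_num) s 0
  rw [h.X0, hb.1, one_mul, sub_zero] at h2
  have h3 := abs_sub_left_of_mem_uIcc hs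
  rw [sub_zero, sub_zero] at h3
  exact mem_ball.2 (by linarith)

theorem Jn.of_path {c : ℝ → E 3} (hc : LipschitzWith 1 c) {s t : ℝ} (hst : s ≤ t)
    (h0 : ∀ r ∈ Icc s t, v (c r) = 0) : Jn v (c s) (c t) (t - s) := by
  refine ⟨by linarith, fun r => c (s + r), ?_, fun r hr => h0 _ ⟨by linarith [hr.1], by
    linarith [hr.2]⟩, by simp, by simp⟩
  exact LipschitzWith.of_dist_le_mul fun a b => by simpa using hc.dist_le_mul (s + a) (s + b)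

theorem Jn.symm {a b : E 3} {L : ℝ} (h : Jn v a b L) : Jn v b a L := by
  obtain ⟨hL, c, hc, h0, ha, hb⟩ := h
  refine ⟨hL, fun r => c (L - r), ?_, fun r hr => h0 _ ⟨by linarith [hr.2], by linarith [hr.1]⟩,
    by simpa using hb, by simpa using ha⟩
  exact LipschitzWith.of_dist_le_mul fun a b => by
    simpa only [dist_sub_left] using hc.dist_le_mul (L - a) (L - b)

theorem Jn.dist_le {a b : E 3} {L : ℝ} (h : Jn v a b L) : dist a b ≤ L := by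
  obtain ⟨hL, c, hc, -, ha, hb⟩ := h
  have := hc.dist_le_mul 0 L
  rwa [ha, hb, NNReal.coe_one, one_mul, Real.dist_eq, zero_sub, abs_neg, abs_of_nonneg hL] at this

theorem Jn.trans {a b c : E 3} {L L' : ℝ} (h : Jn v a b L) (h' : Jn v b c L') :
    Jn v a c (L + L') := by
  obtain ⟨hL, p, hp, h0, ha, hb⟩ := h
  obtain ⟨hL', q, hq, h0', hb', hc⟩ := h'
  refine ⟨by linarith, fun t => p (min t L) + (q (max (t - L) 0) - q 0), ?_, fun t ht => ?_, ?_, ?_⟩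
  · refine LipschitzWith.of_dist_le_mul fun s t => ?_
    refine (dist_add_add_le _ _ _ _).trans ?_
    rw [dist_sub_right]
    have h1 := hp.dist_le_mul (min s L) (min t L)
    have h2 := hq.dist_le_mul (max (s - L) 0) (max (t - L) 0)
    simp only [NNReal.coe_one, one_mul, Real.dist_eq] at h1 h2 ⊢
    refine (add_le_add h1 h2).trans ?_
    simp only [min_def, max_def]
    split_ifs <;> simp only [abs_eq_max_neg, max_def] <;> split_ifs <;> linarith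
  · rcases le_total t L with h | h
    · simp only [min_eq_left h, max_eq_right (sub_nonpos.2 h), sub_self, add_zero]
      exact h0 t ⟨ht.1, h⟩
    · simp only [min_eq_right h, max_eq_left (sub_nonneg.2 h), hb, hb', add_sub_cancel]
      exact h0' _ ⟨by linarith, by linarith [ht.2]⟩
  · simp [hL, ha]
  · simp [hL', hb, hb', hc]

theorem exists_dst (v : E 3 → ℝ) (Z : Set (E 3)) {T : ℝ} (hT : 0 ≤ T) (hZ : ∀ z ∈ Z, v z = 0) :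
    ∃ f, Dst v Z T f := by
  let S : E 3 → Set ℝ := fun y => {L | L = T ∨ ∃ z ∈ Z, Jn v z y L}
  have hb : ∀ y, ∀ L ∈ S y, 0 ≤ L := fun y L hL => by
    rcases hL with rfl | ⟨z, -, h⟩
    exacts [hT, h.1]
  have hn : ∀ y, (S y).Nonempty := fun y => ⟨T, Or.inl rfl⟩
  have h0 : ∀ y, 0 ≤ sInf (S y) := fun y => le_csInf (hn y) (hb y)
  have hle : ∀ y, ∀ L ∈ S y, sInf (S y) ≤ L := fun y L hL => csInf_le ⟨0, hb y⟩ hL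
  refine ⟨fun y => sInf (S y), h0, fun y => hle y T (Or.inl rfl), fun a b L h => ?_,
    fun y hy η hη => ?_, fun z hz => le_antisymm (hle z 0 (Or.inr ⟨z, hz, ?_⟩)) (h0 z)⟩
  · refine sub_le_iff_le_add.1 (le_csInf (hn a) fun L' hL' => ?_)
    rcases hL' with rfl | ⟨z, hz, h'⟩
    · linarith [hle b L' (Or.inl rfl), h.1]
    · linarith [hle b _ (Or.inr ⟨z, hz, h'.trans h⟩)]
  · obtain ⟨L, hL, h⟩ := exists_lt_of_csInf_lt (hn y) (lt_min hy (lt_add_of_pos_right _ hη))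
    rcases hL with rfl | ⟨z, hz, h'⟩
    · exact absurd (h.trans_le (min_le_left _ _)) (lt_irrefl _)
    · exact ⟨z, hz, L, (h.trans_le (min_le_right _ _)).le, h'⟩
  · exact ⟨le_rfl, fun _ => z, (LipschitzWith.const z).weaken zero_le_one, fun _ _ => hZ z hz,
      rfl, rfl⟩

theorem Dst.mem {Z : Set (E 3)} {T : ℝ} {f : E 3 → ℝ} (h : Dst v Z T f) (hZ : IsClosed Z)
    {y : E 3} (hT : f y < T) (hy : f y = 0) : y ∈ Z := by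
  refine hZ.closure_subset (Metric.mem_closure_iff.2 fun η hη => ?_)
  obtain ⟨z, hz, L, h1, h2⟩ := h.app y hT (η / 2) (by positivity)
  exact ⟨z, hz, by linarith [h2.symm.dist_le]⟩

end Vale.Agent.P134.DG.G
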