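import Vale.Agent.P134.GDefs

/-! Block A3: descent directions of the intrinsic distance. -/

open scoped RealInnerProductSpace ContDiff ENNReal Topology
open MeasureTheory Set Metric Filter

namespace Vale.Agent.P134.DG.G

namespace GDescA

variable {v : E 3 → ℝ} {X W : E 3 → E 3 → ℝ → E 3} {ε : ℝ} {m b : E 3}

theorem xmem (h : Geo v X W) (hb : UT v m b) {r R : ℝ} (hr : 0 ≤ r) (hR : r ≤ R) :
    X m b r ∈ closedBall m R := by
  have h2 := h.dist_le m (w := b) (by rw [hb.1]; norm_num) r 0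
  rw [h.X0, hb.1, one_mul, sub_zero, abs_of_nonneg hr] at h2
  exact mem_closedBall.2 (h2.trans hR)

theorem seg (hT : S_GTan) (hv : Sol v) (h : Geo v X W) (hε : ε ≤ 1 / 2) (hm : GP v ε m)
    (hb : UT v m b) {s t : ℝ} (hs : 0 ≤ s) (hst : s ≤ t) (ht : t < 4) :
    Jn v (X m b t) (X m b s) (t - s) :=
  (Jn.of_path (h.lip m hb.1.le) hst fun _ hr =>
    (short hT hv h hε hm hb (abs_lt.2 ⟨by linarith [hr.1], by linarith [hr.2]⟩)).1).symm

theorem cpt (v : E 3 → ℝ) (m : E 3) : IsCompact {b | UT v m b} :=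
  (isCompact_sphere (0 : E 3) 1).of_isClosed_subset
    ((isClosed_eq continuous_norm continuous_const).inter
      (isClosed_eq (continuous_const.inner continuous_id) continuous_const))
    fun _ hb => mem_sphere_zero_iff_norm.2 hb.1

theorem contX (h : Geo v X W) (m : E 3) (t : ℝ) : Continuous fun b => X m b t :=
  h.sX.continuous.comp (continuous_const.prodMk (continuous_id.prodMk continuous_const))

theorem lipf {Z : Set (E 3)} {T : ℝ} {f : E 3 → ℝ} (hL : S_GLoc) (hv : Sol v) (h0 : 0 < ε)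
    (hε : ε ≤ 1 / 10000) (hf : Dst v Z T f) (hm : GP v ε m) {x y : E 3}
    (hx : x ∈ closedBall m 1) (hy : y ∈ closedBall m 1) (hx0 : v x = 0) (hy0 : v y = 0) :
    f x ≤ f y + 3 / 2 * dist x y := by
  have h1 := hf.lip _ _ _ (hL v ε hv h0 hε m hm 1 (by norm_num) y hy x hx hy0 hx0)
  rw [dist_comm y x] at h1
  have h2 : (1 + 10 * ε * 1) * dist x y ≤ 3 / 2 * dist x y :=
    mul_le_mul_of_nonneg_right (by linarith) dist_nonneg
  linarith

end GDescA

open GDescA in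
theorem desc_pf (hT : S_GTan) (hL : S_GLoc) (hN : S_GNorm) : S_GDesc := by
  intro v X W ε Z T f hv h h0 hε hf m hm hp hmT
  have hε' : ε ≤ 1 / 2 := by linarith
  obtain ⟨δ₀, hδ₀, hn⟩ := hN v X W ε hv h hε' m hm
  obtain ⟨δ, hδ, hδ1, hδ2, hδ3⟩ : ∃ δ : ℝ, 0 < δ ∧ δ ≤ δ₀ ∧ δ ≤ 1 ∧ δ ≤ f m / 2 :=
    ⟨min δ₀ (min 1 (f m / 2)), lt_min hδ₀ (lt_min one_pos (by linarith)), min_le_left _ _,
      (min_le_right _ _).trans (min_le_left _ _), (min_le_right _ _).trans (min_le_right _ _)⟩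
  have hlip : LipschitzOnWith 2 f {y | y ∈ closedBall m 1 ∧ v y = 0} := by
    refine LipschitzOnWith.of_le_add_mul 2 fun x hx y hy => ?_
    have h1 := lipf hL hv h0 hε hf hm hx.1 hy.1 hx.2 hy.2
    have h2 : (0 : ℝ) ≤ dist x y := dist_nonneg
    rw [NNReal.coe_ofNat]
    linarith
  have hg : ContinuousOn (fun b => f (X m b δ)) {b | UT v m b} :=
    hlip.continuousOn.comp (contX h m δ).continuousOn fun b hb =>
      ⟨xmem h hb hδ.le hδ2,
        (short hT hv h hε' hm hb (abs_lt.2 ⟨by linarith, by linarith⟩)).1⟩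
  have key : ∀ η > 0, ∃ b, UT v m b ∧ f (X m b δ) ≤ f m - δ + η := by
    intro η hη
    obtain ⟨z, hz, L, hL1, hJ⟩ := hf.app m hmT η hη
    obtain ⟨hL0, c, hc, hc0, hca, hcb⟩ := hJ.symm
    have hz0 : v z = 0 := hcb ▸ hc0 L ⟨hL0, le_rfl⟩
    have hfz := hf.zero z hz
    have hd : δ < dist (c L) m := by
      rw [hcb]
      by_contra hd
      rw [not_lt] at hd
      have h1 := lipf hL hv h0 hε hf hm (mem_closedBall_self zero_le_one)
        (mem_closedBall.2 (hd.trans hδ2)) hm.1 hz0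
      rw [dist_comm] at h1
      linarith
    obtain ⟨τ, hτ, b, hb, he⟩ := hn δ hδ hδ1 c L hc hca hL0 hc0 hd
    have h1 := hf.lip _ _ _ (Jn.of_path (v := v) hc hτ.2 fun r hr =>
      hc0 r ⟨by linarith [hr.1, hτ.1], hr.2⟩).symm
    rw [hcb, he, hfz] at h1
    exact ⟨b, hb, by linarith [hτ.1]⟩
  obtain ⟨b₁, hb₁, -⟩ := key 1 one_pos
  obtain ⟨b, hb, hmin⟩ := (cpt v m).exists_isMinOn ⟨b₁, hb₁⟩ hg
  have hb' : UT v m b := hb
  have hle : f (X m b δ) ≤ f m - δ := le_of_forall_pos_le_add fun η hη => by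
    obtain ⟨b', hb'', h1⟩ := key η hη
    exact (isMinOn_iff.1 hmin b' hb'').trans h1
  refine ⟨b, hb', δ, hδ, fun r hr => ?_⟩
  have h1 := hf.lip _ _ _ (seg hT hv h hε' hm hb' le_rfl hr.1 (by linarith [hr.2]))
  have h2 := hf.lip _ _ _ (seg hT hv h hε' hm hb' hr.1 hr.2 (by linarith))
  rw [h.X0] at h1
  linarith

open GDescA in
theorem cor_pf (hT : S_GTan) (hL : S_GLoc) : S_GCor := by
  intro v X W ε Z T f hv h h0 hε hf m hm a b ha hb δ hδ H
  have hε' : ε ≤ 1 / 2 := by linarith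
  have hda := h.dX m a 0 (by rw [ha.1]; norm_num)
  have hdb := h.dX m b 0 (by rw [hb.1]; norm_num)
  rw [h.W0] at hda hdb
  have h1 := (hda.sub hdb).tendsto_slope_zero_right.norm
  have h2 : Tendsto (fun r : ℝ => 1 + 10 * ε * r) (𝓝[>] 0) (𝓝 (1 + 10 * ε * 0)) :=
    ((continuous_const.add (continuous_const.mul continuous_id)).tendsto 0).mono_left
      nhdsWithin_le_nhds
  have h3 : 2 ≤ (1 + 10 * ε * 0) * ‖a - b‖ := by
    refine ge_of_tendsto (h2.mul h1) ?_
    filter_upwards [Ioc_mem_nhdsGT (lt_min hδ (by norm_num : (0 : ℝ) < 3))] with r hr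
    have hr1 : r ≤ δ := hr.2.trans (min_le_left _ _)
    have hr2 : r ≤ 3 := hr.2.trans (min_le_right _ _)
    have hr3 : |r| < 4 := abs_lt.2 ⟨by linarith [hr.1], by linarith⟩
    have h4 := hf.lip _ _ _ (hL v ε hv h0 hε m hm r hr2 _ (xmem h hb hr.1.le le_rfl) _
      (xmem h ha hr.1.le le_rfl) (short hT hv h hε' hm hb hr3).1 (short hT hv h hε' hm ha hr3).1)
    have h5 := H r ⟨hr.1, hr1⟩
    rw [dist_comm, dist_eq_norm] at h4
    simp only [Pi.sub_apply, zero_add, h.X0, sub_self, sub_zero]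
    rw [norm_smul, Real.norm_of_nonneg (inv_pos.2 hr.1).le, mul_left_comm, ← div_eq_inv_mul,
      le_div_iff₀ hr.1]
    linarith
  have h4 := parallelogram_law_with_norm ℝ a b
  rw [ha.1, hb.1] at h4
  rw [mul_zero, add_zero, one_mul] at h3
  have h5 : ‖a + b‖ * ‖a + b‖ ≤ 0 := by nlinarith
  have h6 : ‖a + b‖ = 0 := by nlinarith [norm_nonneg (a + b)]
  exact eq_neg_of_add_eq_zero_right (norm_eq_zero.1 h6)

end Vale.Agent.P134.DG.G
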