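import Vale.Agent.P134.GDefs

/-! The Gauss lemma. -/

open scoped RealInnerProductSpace ContDiff ENNReal Topology
open MeasureTheory Set Metric Filter

namespace Vale.Agent.P134.DG.G

namespace GGaussA

theorem swap {f : E 3 × ℝ → E 3} {a : E 3} {t : ℝ} (hf : ContDiffAt ℝ 2 f (a, t)) (u : E 3) :
    HasDerivAt (fun τ => fderiv ℝ f (a, τ) (u, 0))
      (fderiv ℝ (fun c => fderiv ℝ f (c, t) (0, 1)) a u) t := by
  have h1 : DifferentiableAt ℝ (fderiv ℝ f) (a, t) :=
    (hf.fderiv_right (m := 1) (by rw [one_add_one_eq_two])).differentiableAt one_ne_zero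
  have hs : IsSymmSndFDerivAt ℝ f (a, t) := hf.isSymmSndFDerivAt (by
    simp only [minSmoothness_of_isRCLikeNormedField]
    exact le_rfl)
  have h2 : HasDerivAt (fun τ : ℝ => (a, τ)) ((0 : E 3), (1 : ℝ)) t :=
    (hasDerivAt_const t a).prodMk (hasDerivAt_id t)
  have h3 := (h1.hasFDerivAt.comp_hasDerivAt t h2).clm_apply
    (hasDerivAt_const t ((u, 0) : E 3 × ℝ))
  have h4 : HasFDerivAt (fun c : E 3 => (c, t)) (ContinuousLinearMap.inl ℝ (E 3) ℝ) a :=
    hasFDerivAt_prodMk_left a t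
  have h5 := (h1.hasFDerivAt.comp a h4).clm_apply (hasFDerivAt_const ((0, 1) : E 3 × ℝ) a)
  have h6 : fderiv ℝ (fun c => fderiv ℝ f (c, t) (0, 1)) a u
      = fderiv ℝ (fderiv ℝ f) (a, t) (u, 0) (0, 1) := by
    rw [show (fun c => fderiv ℝ f (c, t) (0, 1)) =
      fun c => (fderiv ℝ f ∘ fun c : E 3 => (c, t)) c (0, 1) from rfl, h5.fderiv]
    simp
  rw [h6, hs.eq]
  simpa using h3

theorem line (w w' : E 3) : HasDerivAt (fun s : ℝ => w + s • w') w' 0 := by
  simpa using ((hasDerivAt_id (0 : ℝ)).smul_const w').const_add w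

theorem along {g : E 3 → E 3} {w : E 3} (hg : DifferentiableAt ℝ g w) (w' : E 3) :
    HasDerivAt (fun s : ℝ => g (w + s • w')) (fderiv ℝ g w w') 0 := by
  have h : HasFDerivAt g (fderiv ℝ g w) ((fun s : ℝ => w + s • w') 0) := by
    simpa using hg.hasFDerivAt
  exact h.comp_hasDerivAt 0 (line w w')

end GGaussA

open GGaussA in
theorem gauss_pf (hT : S_GTan) : S_GGauss := by
  intro v X W ε hv h hε m hm w w' hw hp hp'
  have sX : ContDiff ℝ 3 fun z : E 3 × ℝ => X m z.1 z.2 :=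
    h.sX.comp (contDiff_const.prodMk contDiff_id)
  have sW : ContDiff ℝ 3 fun z : E 3 × ℝ => W m z.1 z.2 :=
    h.sW.comp (contDiff_const.prodMk contDiff_id)
  have dX : ∀ t, Differentiable ℝ fun u => X m u t := fun t =>
    (sX.comp (contDiff_id.prodMk contDiff_const)).differentiable (by simp)
  have dW : ∀ t, Differentiable ℝ fun u => W m u t := fun t =>
    (sW.comp (contDiff_id.prodMk contDiff_const)).differentiable (by simp)
  have tan : ∀ c, ‖c‖ ≤ 2 → ⟪gradient v m, c⟫ = 0 → ∀ t ∈ Icc (0 : ℝ) 1,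
      ⟪gradient v (X m c t), W m c t⟫ = 0 ∧ v (X m c t) = v m := by
    intro c hc hpc t ht
    refine (hT v X W hv h m c t hc fun s hs => (hm.2 _ ?_).1.trans hε).1 hpc
    have h2 := h.dist_le m hc s 0
    rw [h.X0, sub_zero] at h2
    rw [uIcc_of_le ht.1] at hs
    have h3 : |s| ≤ 1 := by rw [abs_of_nonneg hs.1]; exact hs.2.trans ht.2
    exact mem_ball.2 (by nlinarith [norm_nonneg c, abs_nonneg s])
  have near : ∀ᶠ c in 𝓝 w, ‖c‖ ≤ 2 :=
    (continuous_norm.continuousAt.eventually (Iic_mem_nhds (by linarith : ‖w‖ < 2)))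
  have hY : ∀ t, HasDerivAt (fun τ => fderiv ℝ (fun u => X m u τ) w w')
      (fderiv ℝ (fun u => W m u t) w w') t := by
    intro t
    have h1 := swap (f := fun z : E 3 × ℝ => X m z.1 z.2) (a := w) (t := t)
      (sX.of_le (by norm_num)).contDiffAt w'
    have h2 : (fun c => fderiv ℝ (fun z : E 3 × ℝ => X m z.1 z.2) (c, t) (0, 1)) =ᶠ[𝓝 w]
        fun u => W m u t := by
      filter_upwards [near] with c hc
      have h3 := (sX.differentiable (by simp) (c, t)).hasFDerivAt.comp_hasDerivAt t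
        ((hasDerivAt_const t c).prodMk (hasDerivAt_id t))
      exact h3.unique (h.dX m c t hc)
    rw [h2.fderiv_eq] at h1
    have h4 : (fun τ => fderiv ℝ (fun u => X m u τ) w w') =
        fun τ => fderiv ℝ (fun z : E 3 × ℝ => X m z.1 z.2) (w, τ) (w', 0) := by
      funext τ
      have h6 : HasFDerivAt (fun c : E 3 => (c, τ)) (ContinuousLinearMap.inl ℝ (E 3) ℝ) w :=
        hasFDerivAt_prodMk_left w τ
      have h5 := ((sX.differentiable (by simp) (w, τ)).hasFDerivAt.comp w h6).fderiv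
      exact (congrArg (fun L : E 3 →L[ℝ] E 3 => L w') h5).trans (by simp)
    rwa [h4]
  have hZ : ∀ t, ⟪W m w t, fderiv ℝ (fun u => W m u t) w w'⟫ = ⟪w, w'⟫ := by
    intro t
    have h1 := (along (dW t w) w').inner ℝ (along (dW t w) w')
    have h2 := (line w w').inner ℝ (line w w')
    have h3 : (fun s : ℝ => ⟪W m (w + s • w') t, W m (w + s • w') t⟫) =
        fun s : ℝ => ⟪w + s • w', w + s • w'⟫ := by
      funext s
      rw [real_inner_self_eq_norm_sq, real_inner_self_eq_norm_sq, h.norm]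
    rw [h3] at h1
    have h4 := h1.unique h2
    simp only [zero_smul, add_zero] at h4
    rw [real_inner_comm (W m w t), real_inner_comm w w'] at h4
    linarith
  have hN : ∀ t ∈ Icc (0 : ℝ) 1,
      ⟪gradient v (X m w t), fderiv ℝ (fun u => X m u t) w w'⟫ = 0 := by
    intro t ht
    have h0 : HasFDerivAt v (fderiv ℝ v (X m w t)) ((fun s : ℝ => X m (w + s • w') t) 0) := by
      simpa using (hv.smooth.differentiable (by simp) (X m w t)).hasFDerivAt
    have h1 := h0.comp_hasDerivAt 0 (along (dX t w) w')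
    have h2 : (v ∘ fun s : ℝ => X m (w + s • w') t) =ᶠ[𝓝 0] fun _ => v m := by
      have h3 : Tendsto (fun s : ℝ => w + s • w') (𝓝 0) (𝓝 w) := by
        simpa using (line w w').continuousAt.tendsto
      filter_upwards [h3.eventually near] with s hs
      exact (tan _ hs (by rw [inner_add_right, inner_smul_right, hp, hp']; simp) t ht).2
    rw [← fderiv_eq_inner]
    exact h1.unique ((hasDerivAt_const (0 : ℝ) (v m)).congr_of_eventuallyEq h2)
  have hw2 : ‖w‖ ≤ 2 := by linarith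
  have hg := fun t => (h.dW m w t hw2).inner ℝ (hY t)
  obtain ⟨c, hc, hc'⟩ := exists_hasDerivAt_eq_slope _ _ (zero_lt_one' ℝ)
    (fun t _ => (hg t).continuousAt.continuousWithinAt) fun t _ => hg t
  have hc1 : c ∈ Icc (0 : ℝ) 1 := Ioo_subset_Icc_self hc
  have h0 : fderiv ℝ (fun u => X m u 0) w w' = 0 := by simp [h.X0]
  rw [hZ, QQ, (tan w hw2 hp c hc1).1, zero_smul, zero_sub, inner_smul_left, inner_neg_left,
    inner_smul_left, hN c hc1, h0] at hc'
  have h1 : fderiv ℝ (fun u => X m u 1) w w = W m w 1 := by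
    have k : ‖(2 : ℝ) • w‖ ≤ 2 := by rw [norm_smul]; simpa using hw
    have h2 : HasDerivAt (fun s : ℝ => (1 + s) / 2 * 1) (1 / 2) 0 := by
      simpa using (((hasDerivAt_id (0 : ℝ)).const_add 1).div_const 2).mul_const 1
    have h3 := (h.dX m ((2 : ℝ) • w) ((1 + 0) / 2 * 1) k).scomp 0 h2
    have h4 : (fun s : ℝ => X m (w + s • w) 1) =ᶠ[𝓝 0]
        (X m ((2 : ℝ) • w) ∘ fun s : ℝ => (1 + s) / 2 * 1) := by
      filter_upwards [Icc_mem_nhds (by norm_num : (-1 : ℝ) < 0) zero_lt_one] with s hs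
      have e : w + s • w = ((1 + s) / 2) • (2 : ℝ) • w := by
        rw [smul_smul, div_mul_cancel₀ _ two_ne_zero, add_smul, one_smul]
      rw [e]
      exact h.Xsm m _ _ _ k (abs_le.2 ⟨by linarith [hs.1], by linarith [hs.2]⟩)
    have h5 := h.Wsm m ((2 : ℝ) • w) (1 / 2) 1 k (by rw [abs_of_nonneg] <;> norm_num)
    rw [smul_smul, one_div_mul_cancel two_ne_zero, one_smul] at h5
    rw [(along (dX 1 w) w).unique (h3.congr_of_eventuallyEq h4), h5, add_zero]
  rw [h1]
  simp at hc'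
  exact hc'.symm

end Vale.Agent.P134.DG.G
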