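import Vale.Agent.P134.GDefs

/-! The geodesic flow exists. -/

open scoped RealInnerProductSpace ContDiff ENNReal Topology
open MeasureTheory Set Metric Filter

namespace Vale.Agent.P134.DG.G

namespace GGeoA

variable {v : E 3 → ℝ}

theorem low {q : ℝ} (hq : 0 ≤ q) :
    min (1 / 8) (expNegInvGlue (1 / 8)) ≤ q + expNegInvGlue (1 / 4 - q) := by
  rcases le_total (1 / 8) q with h | h
  · exact (min_le_left _ _).trans (h.trans (le_add_of_nonneg_right (expNegInvGlue.nonneg _)))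
  · exact (min_le_right _ _).trans
      ((expNegInvGlue.monotone (by linarith)).trans (le_add_of_nonneg_left hq))

theorem kpos : 0 < min (1 / 8) (expNegInvGlue (1 / 8)) :=
  lt_min (by norm_num) (expNegInvGlue.pos_of_pos (by norm_num))

theorem smQ (hv : Sol v) : ContDiff ℝ ∞ fun z : E 3 × E 3 => QQ v z.1 z.2 := by
  have g := contDiff_grad hv
  have n := g.norm_sq ℝ
  have b : ContDiff ℝ ∞ (bt v) := (n.add (expNegInvGlue.contDiff.comp (contDiff_const.sub n))).inv
    fun x => (kpos.trans_le (low (sq_nonneg _))).ne'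
  have m : ContDiff ℝ ∞ fun z : E 3 × E 3 => MM v z.1 z.2 :=
    ((g.fderiv_right (by simp)).comp contDiff_fst).clm_apply contDiff_snd
  have g' := g.comp (contDiff_fst (F := E 3))
  exact (b.comp contDiff_fst).smul
    (((g'.inner ℝ contDiff_snd).smul m).sub ((contDiff_snd.inner ℝ m).smul g'))

theorem bdQ (hv : Sol v) {C : ℝ} (hC : ∀ x, ‖iteratedFDeriv ℝ 2 v x‖ ≤ C) (x : E 3) {w : E 3}
    (hw : ‖w‖ ≤ 3) : ‖QQ v x w‖ ≤ (min (1 / 8) (expNegInvGlue (1 / 8)))⁻¹ * (18 * C) := by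
  have C0 := (norm_nonneg _).trans (hC x)
  have m : ‖MM v x w‖ ≤ C * 3 := ((MM v x).le_opNorm w).trans
    (mul_le_mul ((norm_MM v x).trans_le (hC x)) hw (norm_nonneg _) C0)
  have p := hv.mod x
  have h1 : ‖⟪gradient v x, w⟫‖ ≤ 1 * 3 :=
    (norm_inner_le_norm _ _).trans (mul_le_mul p hw (norm_nonneg _) zero_le_one)
  have h2 : ‖⟪w, MM v x w⟫‖ ≤ 3 * (C * 3) :=
    (norm_inner_le_norm _ _).trans (mul_le_mul hw m (norm_nonneg _) (by norm_num))
  have k := low (sq_nonneg ‖gradient v x‖)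
  rw [QQ, norm_smul, bt, Real.norm_of_nonneg (inv_pos.2 (kpos.trans_le k)).le]
  refine mul_le_mul (inv_anti₀ kpos k) ((norm_sub_le _ _).trans ?_) (norm_nonneg _)
    (inv_pos.2 kpos).le
  rw [norm_smul, norm_smul]
  linarith [mul_le_mul h1 m (norm_nonneg _) (by norm_num),
    mul_le_mul h2 p (norm_nonneg _) (by positivity)]

theorem ort (x w : E 3) : ⟪w, QQ v x w⟫ = 0 := by
  simp only [QQ, inner_smul_right, inner_sub_right, real_inner_comm (gradient v x) w]
  ring

theorem hom (x w : E 3) (a : ℝ) : QQ v x (a • w) = a • a • QQ v x w := by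
  simp only [QQ, map_smul, inner_smul_right, real_inner_smul_left, smul_sub, smul_smul]
  congr 2 <;> ring

theorem d1 {f : ℝ → E 3 × E 3} {a : E 3 × E 3} {t : ℝ} (h : HasDerivAt f a t) :
    HasDerivAt (fun s => (f s).1) a.1 t :=
  (hasFDerivAt_fst (𝕜 := ℝ) (p := f t)).comp_hasDerivAt t h

theorem d2 {f : ℝ → E 3 × E 3} {a : E 3 × E 3} {t : ℝ} (h : HasDerivAt f a t) :
    HasDerivAt (fun s => (f s).2) a.2 t :=
  (hasFDerivAt_snd (𝕜 := ℝ) (p := f t)).comp_hasDerivAt t h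

end GGeoA

open GGeoA

theorem geo_pf (hF : S_GFlow) : S_GGeo := by
  intro v C hv hC
  let ψ : ContDiffBump (0 : E 3) := ⟨2, 3, by norm_num, by norm_num⟩
  have ψ1 : ∀ w : E 3, ‖w‖ ≤ 2 → ψ w = 1 := fun w hw =>
    ψ.one_of_mem_closedBall (mem_closedBall_zero_iff.2 hw)
  obtain ⟨Φ, s, h0, hd, hu⟩ := hF (E 3 × E 3) (fun z => ψ z.2 • (z.2, QQ v z.1 z.2))
    (max 3 ((min (1 / 8) (expNegInvGlue (1 / 8)))⁻¹ * (18 * C)))
    ((ψ.contDiff.comp contDiff_snd).smul (contDiff_snd.prodMk (smQ hv))) fun z => by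
      rcases le_total ‖z.2‖ 3 with h | h
      · rw [norm_smul, Real.norm_of_nonneg ψ.nonneg]
        exact (mul_le_of_le_one_left (norm_nonneg _) ψ.le_one).trans
          (max_le_max h (bdQ hv hC _ h))
      · rw [ψ.zero_of_le_dist (by rwa [dist_zero_right]), zero_smul, norm_zero]
        exact le_max_of_le_left (by norm_num)
  have s' : ContDiff ℝ 3 fun z : E 3 × E 3 × ℝ => Φ ((z.1, z.2.1), z.2.2) := s.comp (by fun_prop)
  have add : ∀ z s t, Φ (z, s + t) = Φ (Φ (z, s), t) := fun z s t => by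
    simpa only [add_zero] using hu (fun t => Φ (z, s + t))
      (fun t => (hd z (s + t)).comp_const_add s t) t
  have nm : ∀ z t, ‖(Φ (z, t)).2‖ = ‖z.2‖ := fun z t => by
    have d : ∀ t, HasDerivAt (fun s => ‖(Φ (z, s)).2‖ ^ 2) 0 t := fun t => by
      have := (d2 (hd z t)).norm_sq
      rwa [Prod.smul_snd, inner_smul_right, ort, mul_zero, mul_zero] at this
    have := is_const_of_deriv_eq_zero (fun t => (d t).differentiableAt) (fun t => (d t).deriv) t 0
    rwa [h0, sq_eq_sq₀ (norm_nonneg _) (norm_nonneg _)] at this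
  have hd' : ∀ (z : E 3 × E 3) t, ‖z.2‖ ≤ 2 → HasDerivAt (fun s => Φ (z, s))
      ((Φ (z, t)).2, QQ v (Φ (z, t)).1 (Φ (z, t)).2) t := fun z t hz => by
    simpa only [ψ1 _ ((nm z t).trans_le hz), one_smul] using hd z t
  have sm : ∀ (x w : E 3) (a t : ℝ), ‖w‖ ≤ 2 → |a| ≤ 1 → Φ ((x, a • w), t) =
      ((Φ ((x, w), a * t)).1, a • (Φ ((x, w), a * t)).2) := fun x w a t hw ha => by
    have := hu (fun t => ((Φ ((x, w), a * t)).1, a • (Φ ((x, w), a * t)).2)) (fun t => ?_) t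
    · simpa only [mul_zero, h0] using this.symm
    have d := (hd' (x, w) (a * t) hw).scomp t ((hasDerivAt_id t).const_mul a)
    rw [mul_one] at d
    rw [ψ1, one_smul, hom]
    · exact (d1 d).prodMk ((d2 d).const_smul a)
    · rw [norm_smul, nm]
      exact (mul_le_of_le_one_left (norm_nonneg _) ha).trans hw
  refine ⟨fun x w t => (Φ ((x, w), t)).1, fun x w t => (Φ ((x, w), t)).2, ?_, ?_,
    fun x w => ?_, fun x w => ?_, fun x w s t => ?_, fun x w s t => ?_, fun x w t => ?_,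
    fun x w t hw => ?_, fun x w t hw => ?_, fun x w a t hw ha => ?_, fun x w a t hw ha => ?_⟩
  · exact s'.fst
  · exact s'.snd
  · rw [h0]
  · rw [h0]
  · rw [add]
  · rw [add]
  · exact nm _ t
  · exact d1 (hd' (x, w) t hw)
  · exact d2 (hd' (x, w) t hw)
  · rw [sm x w a t hw ha]
  · rw [sm x w a t hw ha]

end Vale.Agent.P134.DG.G
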