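import Vale.Agent.P134.GDefs

/-! Block A3: minimal rays exist and are unique before their end. -/

open scoped RealInnerProductSpace ContDiff ENNReal Topology
open MeasureTheory Set Metric Filter

namespace Vale.Agent.P134.DG.G

namespace GHRA

variable {v : E 3 → ℝ} {X W : E 3 → E 3 → ℝ → E 3} {ε : ℝ}

theorem ut_end (hT : S_GTan) (hv : Sol v) (h : Geo v X W) (hε : ε ≤ 1 / 10000) {z b : E 3}
    (hb : UT v z b) {r : ℝ} (hr : 0 ≤ r) (hg : ∀ s ∈ Icc 0 r, GP v ε (X z b s)) :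
    UT v (X z b r) (W z b r) := by
  have h1 := (hT v X W hv h z b r (by rw [hb.1]; norm_num) fun s hs => ?_).1 hb.2
  · exact ⟨(h.norm z b r).trans hb.1, h1.1⟩
  rw [uIcc_of_le hr] at hs
  exact (hg s hs).th_le.trans (by linarith)

theorem ut_neg {x b : E 3} (hb : UT v x b) : UT v x (-b) :=
  ⟨by rw [norm_neg, hb.1], by rw [inner_neg_right, hb.2, neg_zero]⟩

end GHRA

open GHRA

theorem uni_pf (hT : S_GTan) (hC : S_GCor) : S_GUni := by
  intro v X W ε Z T f hv h h0 hε hd z b z' b' r r' hm hm' hr hrr he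
  have ha : UT v (X z b r) (W z b r) :=
    ut_end hT hv h hε hm.1 hr.le fun s hs => (hm.2 s ⟨hs.1, hs.2.trans hrr.le⟩).1
  have hb : UT v (X z' b' r) (W z' b' r) :=
    ut_end hT hv h hε hm'.1 hr.le fun s hs => (hm'.2 s hs).1
  have hb1 : UT v (X z b r) (-W z' b' r) := by rw [he]; exact ut_neg hb
  have hW := hC v X W ε Z T f hv h h0 hε hd (X z b r) (hm.2 r ⟨hr.le, hrr.le⟩).1 _ _ ha hb1
    (min r (r' - r)) (lt_min hr (by linarith)) fun t ht => by
      have h1 := ht.2.trans (min_le_left _ _)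
      have h2 := ht.2.trans (min_le_right _ _)
      rw [← h.Xadd, (hm.2 (r + t) ⟨by linarith [ht.1], by linarith⟩).2, he,
        (h.back z' (by rw [hm'.1.1]; norm_num) r t).1,
        (hm'.2 (r - t) ⟨by linarith, by linarith [ht.1]⟩).2]
      linarith
  have hW' : W z b r = W z' b' r := (neg_injective hW).symm
  have e1 := h.Xadd z b r (-r)
  have e2 := h.Xadd z' b' r (-r)
  have e3 := h.Wadd z b r (-r)
  have e4 := h.Wadd z' b' r (-r)
  rw [add_neg_cancel] at e1 e2 e3 e4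
  rw [h.X0] at e1 e2
  rw [h.W0] at e3 e4
  constructor
  · rw [e1, he, hW', ← e2]
  · rw [e3, he, hW', ← e4]

theorem hr_pf (hT : S_GTan) (hD : S_GDesc) (hC : S_GCor) : S_GHR := by
  intro v X W ε Z T f hv h h0 hε hd hZ y hy hf0 hfT hst
  have hgy : GP v ε y := by
    have := hst (fun _ => y) 0 ((LipschitzWith.const y).weaken zero_le_one) rfl le_rfl
      fun s hs => ⟨hy, by rw [le_antisymm hs.2 hs.1, sub_zero]⟩
    exact this
  obtain ⟨u, hu, δ, hδ, hdu⟩ := hD v X W ε Z T f hv h h0 hε hd y hgy hf0 hfT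
  have hu2 : ‖u‖ ≤ 2 := by rw [hu.1]; norm_num
  have hl : LipschitzWith 1 (X y u) := h.lip y hu.1.le
  set A : Set ℝ := {t | t ∈ Icc 0 (f y) ∧ (∀ s ∈ Icc 0 t, v (X y u s) = 0) ∧
    f (X y u t) ≤ f y - t} with hA
  have key : ∀ t ∈ A, ∀ s ∈ Icc 0 t, f (X y u s) = f y - s := by
    rintro t ⟨ht, hz, hft⟩ s hs
    have h1 := hd.lip _ _ _ (Jn.of_path hl hs.2 fun r hr => hz r ⟨hs.1.trans hr.1, hr.2⟩).symm
    have h2 := hd.lip _ _ _ (Jn.of_path hl hs.1 fun r hr => hz r ⟨hr.1, hr.2.trans hs.2⟩).symm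
    rw [h.X0] at h2
    linarith
  have gp : ∀ t ∈ A, ∀ s ∈ Icc 0 t, GP v ε (X y u s) := fun t ht s hs =>
    hst (X y u) s hl (h.X0 y u) hs.1 fun r hr =>
      ⟨ht.2.1 r ⟨hr.1, hr.2.trans hs.2⟩, key t ht r ⟨hr.1, hr.2.trans hs.2⟩⟩
  have hbd : BddAbove A := ⟨f y, fun t ht => ht.1.2⟩
  have hε2 : ε ≤ 1 / 2 := by linarith
  have hδA : min (min δ 1) (f y) ∈ A := by
    have p1 : 0 < min (min δ 1) (f y) := lt_min (lt_min hδ one_pos) hf0
    have p2 : min (min δ 1) (f y) ≤ δ := (min_le_left _ _).trans (min_le_left _ _)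
    have p3 : min (min δ 1) (f y) ≤ 1 := (min_le_left _ _).trans (min_le_right _ _)
    refine ⟨⟨p1.le, min_le_right _ _⟩, fun s hs => (short hT hv h hε2 hgy hu ?_).1,
      (hdu _ ⟨p1.le, p2⟩).le⟩
    rw [abs_of_nonneg hs.1]
    linarith [hs.2]
  have hne : A.Nonempty := ⟨_, hδA⟩
  set t₁ := sSup A with ht₁
  have hpos : 0 < t₁ := (lt_min (lt_min hδ one_pos) hf0).trans_le (le_csSup hbd hδA)
  have hle : t₁ ≤ f y := csSup_le hne fun t ht => ht.1.2
  have hlt : ∀ s ∈ Ico 0 t₁, v (X y u s) = 0 ∧ f (X y u s) = f y - s := fun s hs => by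
    obtain ⟨t, ht, hst⟩ := exists_lt_of_lt_csSup hne hs.2
    exact ⟨ht.2.1 s ⟨hs.1, hst.le⟩, key t ht s ⟨hs.1, hst.le⟩⟩
  have hz1 : ∀ s ∈ Icc 0 t₁, v (X y u s) = 0 := by
    have hc : IsClosed {s | v (X y u s) = 0} :=
      isClosed_eq (hv.smooth.continuous.comp hl.continuous) continuous_const
    have := hc.closure_subset_iff.2 fun s hs => (hlt s hs).1
    rwa [closure_Ico hpos.ne] at this
  have h1A : t₁ ∈ A := by
    refine ⟨⟨hpos.le, hle⟩, hz1, ?_⟩
    refine le_of_forall_pos_le_add fun η hη => ?_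
    have p1 : 0 ≤ max 0 (t₁ - η / 2) := le_max_left _ _
    have p2 : max 0 (t₁ - η / 2) < t₁ := max_lt hpos (by linarith)
    have p3 : t₁ - η / 2 ≤ max 0 (t₁ - η / 2) := le_max_right _ _
    have h1 := hd.lip _ _ _ (Jn.of_path hl p2.le fun r hr => hz1 r ⟨p1.trans hr.1, hr.2⟩)
    rw [(hlt _ ⟨p1, p2⟩).2] at h1
    linarith
  have hk := key t₁ h1A
  have hg := gp t₁ h1A
  have hut : UT v (X y u t₁) (W y u t₁) := ut_end hT hv h hε hu hpos.le hg
  have hend : t₁ = f y := by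
    refine le_antisymm hle (not_lt.1 fun hlt1 => ?_)
    have hm := hk t₁ ⟨hpos.le, le_rfl⟩
    have hgm := hg t₁ ⟨hpos.le, le_rfl⟩
    obtain ⟨b, hb, δ', hδ', hdb⟩ := hD v X W ε Z T f hv h h0 hε hd _ hgm (by linarith)
      (by linarith)
    have hba := hC v X W ε Z T f hv h h0 hε hd _ hgm _ b (ut_neg hut) hb (min δ' t₁)
      (lt_min hδ' hpos) fun r hr => by
        have p1 := hr.2.trans (min_le_left _ _)
        have p2 := hr.2.trans (min_le_right _ _)
        rw [hdb r ⟨hr.1.le, p1⟩, (h.back y hu2 t₁ r).1,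
          hk (t₁ - r) ⟨by linarith, by linarith [hr.1]⟩, hm]
        linarith
    rw [neg_neg] at hba
    set r := min (min δ' 1) (f y - t₁) with hr
    have p1 : 0 < r := lt_min (lt_min hδ' one_pos) (by linarith)
    have p2 : r ≤ δ' := (min_le_left _ _).trans (min_le_left _ _)
    have p3 : r ≤ 1 := (min_le_left _ _).trans (min_le_right _ _)
    have p4 : r ≤ f y - t₁ := min_le_right _ _
    have hA' : t₁ + r ∈ A := by
      refine ⟨⟨by linarith, by linarith⟩, fun s hs => ?_, ?_⟩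
      · rcases le_total s t₁ with h1 | h1
        · exact hz1 s ⟨hs.1, h1⟩
        · have e : s = t₁ + (s - t₁) := by ring
          rw [e, h.Xadd]
          refine (short hT hv h hε2 hgm hut ?_).1
          rw [abs_of_nonneg (by linarith)]
          linarith [hs.2]
      · rw [h.Xadd, ← hba, hdb r ⟨p1.le, p2⟩, hm]
        linarith
    linarith [le_csSup hbd hA']
  have hzZ : X y u t₁ ∈ Z := by
    have hm := hk t₁ ⟨hpos.le, le_rfl⟩
    exact hd.mem hZ (by linarith) (by linarith)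
  refine ⟨_, hzZ, -W y u t₁, ⟨ut_neg hut, fun s hs => ?_⟩, ?_⟩
  · rw [(h.back y hu2 t₁ s).1]
    have hs' : t₁ - s ∈ Icc 0 t₁ := ⟨by linarith [hs.2], by linarith [hs.1]⟩
    exact ⟨hg _ hs', by rw [hk _ hs']; linarith⟩
  · rw [(h.back y hu2 t₁ _).1, ← hend, sub_self, h.X0]

end Vale.Agent.P134.DG.G
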