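import Vale.Agent.P134.GDefs

/-! Block A3: the Jacobi equation. -/

open scoped RealInnerProductSpace ContDiff ENNReal Topology
open MeasureTheory Set Metric Filter

namespace Vale.Agent.P134.DG.G

namespace GJacA

variable {F : Type} [NormedAddCommGroup F] [NormedSpace ℝ F]

theorem line {f : ℝ × ℝ → F} {L : ℝ × ℝ →L[ℝ] F} {θ r : ℝ} (h : HasFDerivAt f L (θ, r)) :
    HasDerivAt (fun s => f (θ, s)) (L (0, 1)) r :=
  h.comp_hasDerivAt r ((hasDerivAt_const r θ).prodMk (hasDerivAt_id r))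

theorem dd {f : ℝ × ℝ → F} (hf : ContDiff ℝ 2 f) (a ξ : ℝ × ℝ) :
    HasFDerivAt (fun b => fderiv ℝ f b ξ) ((fderiv ℝ (fderiv ℝ f) a).flip ξ) a := by
  have h := ((hf.fderiv_right (m := 1) (by norm_num)).differentiable one_ne_zero a
    ).hasFDerivAt.clm_apply (hasFDerivAt_const ξ a)
  simpa using h

theorem swap {f : ℝ × ℝ → F} (hf : ContDiff ℝ 2 f) (a ξ η : ℝ × ℝ) :
    (fderiv ℝ (fderiv ℝ f) a).flip ξ η = (fderiv ℝ (fderiv ℝ f) a).flip η ξ :=
  hf.contDiffAt.isSymmSndFDerivAt (by simp) η ξ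

end GJacA

open GJacA in
theorem jac_pf (hA : S_Alg) (hC : S_GCross) : S_GJac := by
  obtain ⟨cr, c0, hc⟩ := hC
  intro v hv x w hx hw hxw U hU h θ
  have dx := fun a => (hx.differentiable (by simp) a).hasFDerivAt
  have dw := fun a => (hw.differentiable (by simp) a).hasFDerivAt
  have f0 : ∀ a, fderiv ℝ x a (0, 1) = w a := fun a => (line (dx (a.1, a.2))).unique (hxw a.1 a.2)
  have f1 : ∀ a ∈ U, ∀ ξ, ⟪gradient v (x a), fderiv ℝ x a ξ⟫ = 0 := fun a ha ξ => by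
    have k := (hv.smooth.differentiable (by simp) (x a)).hasFDerivAt.comp a (dx a)
    have e : v ∘ x =ᶠ[𝓝 a] fun _ => 0 := (hU.eventually_mem ha).mono fun b hb => (h b hb).1
    have k2 := k.unique ((hasFDerivAt_const (0 : ℝ) a).congr_of_eventuallyEq e)
    rw [← fderiv_eq_inner]
    exact congrArg (fun L : ℝ × ℝ →L[ℝ] ℝ => L ξ) k2
  have f2 : ∀ a ∈ U, ∀ ξ, ⟪NN v (x a), fderiv ℝ x a ξ⟫ = 0 := fun a ha ξ => by
    rw [NN, real_inner_smul_left, f1 a ha, mul_zero]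
  have f3 : ∀ a ∈ U, HasFDerivAt (fun b => NN v (x b)) ((SS v (x a)).comp (fderiv ℝ x a)) a :=
    fun a ha => by
    obtain ⟨-, s1, -, -, -, s2, -⟩ := hA v (x a) hv (h a ha).2.1
    refine ((s1.differentiableAt (by simp)).hasFDerivAt.comp a (dx a)).congr_fderiv
      (ContinuousLinearMap.ext fun ξ => ?_)
    rw [ContinuousLinearMap.comp_apply, ContinuousLinearMap.comp_apply, ← s2]
    simp [Pr, f2 a ha]
  have f4 : ∀ a ∈ U, fderiv ℝ w a (0, 1) = ⟪NN v (x a), fderiv ℝ w a (0, 1)⟫ • NN v (x a) :=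
    fun a ha => by
    obtain ⟨-, ht, -, μ, hμ⟩ := h a ha
    have n1 := (hA v (x a) hv ht).1
    have p0 : ‖gradient v (x a)‖ ≠ 0 := fun e => by
      rw [th, e] at ht
      norm_num at ht
    have e : fderiv ℝ w a (0, 1) = (μ * ‖gradient v (x a)‖) • NN v (x a) := by
      rw [(line (dw (a.1, a.2))).unique hμ, NN, smul_smul, mul_assoc, mul_inv_cancel₀ p0, mul_one]
    rw [e, real_inner_smul_right, real_inner_self_eq_norm_sq, n1, one_pow, mul_one]
  have f5 : ∀ a ∈ U, ∀ ξ, ⟪NN v (x a), fderiv ℝ w a ξ⟫ = -⟪SS v (x a) (fderiv ℝ x a ξ), w a⟫ :=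
    fun a ha ξ => by
    have k := (f3 a ha).inner ℝ (dw a)
    have e : (fun b => ⟪NN v (x b), w b⟫) =ᶠ[𝓝 a] fun _ => 0 :=
      (hU.eventually_mem ha).mono fun b hb => by simpa only [f0] using f2 b hb (0, 1)
    have k2 := congrArg (fun L : ℝ × ℝ →L[ℝ] ℝ => L ξ)
      (k.unique ((hasFDerivAt_const (0 : ℝ) a).congr_of_eventuallyEq e))
    simp only [ContinuousLinearMap.comp_apply, ContinuousLinearMap.prod_apply,
      fderivInnerCLM_apply, zero_apply] at k2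
    linarith
  refine ⟨fun r => ⟪fderiv ℝ x (θ, r) (1, 0), cr (NN v (x (θ, r))) (w (θ, r))⟫,
    fun r => ⟪fderiv ℝ w (θ, r) (1, 0), cr (NN v (x (θ, r))) (w (θ, r))⟫, fun r ha => ?_⟩
  obtain ⟨n1, -, -, s0, sy, -, sn, -⟩ := hA v _ hv (h _ ha).2.1
  have nw : ⟪NN v (x (θ, r)), w (θ, r)⟫ = 0 := by simpa only [f0] using f2 _ ha (0, 1)
  obtain ⟨c1, c2, -, c4, c5, c6, c7⟩ := hc _ _ n1 (h _ ha).2.2.1 nw
  have dν : HasDerivAt (fun s => cr (NN v (x (θ, s))) (w (θ, s)))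
      (-⟪SS v (x (θ, r)) (w (θ, r)), cr (NN v (x (θ, r))) (w (θ, r))⟫ • NN v (x (θ, r))) r := by
    have k := (cr.hasFDerivAt.comp_hasDerivAt r (line (f3 _ ha))).clm_apply (line (dw (θ, r)))
    refine k.congr_deriv ?_
    rw [f4 _ ha, ContinuousLinearMap.comp_apply, f0]
    simp only [Function.comp_apply, map_smul, c0, smul_zero, add_zero]
    exact c6 _ (sn _)
  have f6 : (fderiv ℝ (fderiv ℝ x) (θ, r)).flip (1, 0) (0, 1) = fderiv ℝ w (θ, r) (1, 0) := by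
    have k := dd hx (θ, r) (0, 1)
    simp only [f0] at k
    rw [swap hx, k.unique (dw _)]
  have f8 : ⟪(fderiv ℝ (fderiv ℝ w) (θ, r)).flip (1, 0) (0, 1), cr (NN v (x (θ, r))) (w (θ, r))⟫ =
      ⟪NN v (x (θ, r)), fderiv ℝ w (θ, r) (0, 1)⟫ *
        ⟪SS v (x (θ, r)) (fderiv ℝ x (θ, r) (1, 0)), cr (NN v (x (θ, r))) (w (θ, r))⟫ := by
    have k := dd hw (θ, r) (0, 1)
    have k1 := ((f3 _ ha).inner ℝ k).smul (f3 _ ha)
    have k2 := k.unique (k1.congr_of_eventuallyEq ((hU.eventually_mem ha).mono f4))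
    rw [swap hw, k2]
    simp only [add_apply, smul_apply, ContinuousLinearMap.smulRight_apply, inner_add_left,
      real_inner_smul_left, c2, mul_zero, add_zero, ContinuousLinearMap.comp_apply]
  have yN := f2 _ ha (1, 0)
  refine ⟨((line (dd hx (θ, r) (1, 0))).inner ℝ dν).congr_deriv ?_,
    ((line (dd hw (θ, r) (1, 0))).inner ℝ dν).congr_deriv ?_, ?_, ?_, f1 _ ha⟩
  · rw [f6, real_inner_smul_right, real_inner_comm, real_inner_comm (NN v _), yN, mul_zero,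
      zero_add]
  · have e := c4 (fderiv ℝ x (θ, r) (1, 0))
    rw [real_inner_comm, yN, zero_smul, zero_add] at e
    have k := c7 _ sy s0
    rw [f8, real_inner_smul_right, real_inner_comm (NN v _), f5 _ ha, f5 _ ha, f0, KK, HH, k]
    beta_reduce
    generalize ⟪fderiv ℝ x (θ, r) (1, 0), w (θ, r)⟫ = α at e
    generalize ⟪fderiv ℝ x (θ, r) (1, 0), cr (NN v (x (θ, r))) (w (θ, r))⟫ = J at e ⊢
    rw [e]
    have k2 := (real_inner_comm _ _).trans (sy (w (θ, r)) (cr (NN v (x (θ, r))) (w (θ, r))))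
    simp only [map_add, map_smul, inner_add_left, real_inner_smul_left, sy, k2]
    ring
  · rw [f0]
    exact c5 _ yN
  · simpa only [c1, mul_one] using
      abs_real_inner_le_norm (fderiv ℝ w (θ, r) (1, 0)) (cr (NN v (x (θ, r))) (w (θ, r)))

end Vale.Agent.P134.DG.G
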