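import Vale.Agent.P134.GDefs

/-! Nearby points of the zero set are joined by an almost straight path. -/

open scoped RealInnerProductSpace ContDiff ENNReal Topology
open MeasureTheory Set Metric Filter

namespace Vale.Agent.P134.DG.G

namespace GLocA

theorem core {v : E 3 → ℝ} (hv : Continuous v) {m n y y' : E 3} {r κ : ℝ} (hr : 0 < r)
    (hn : 9 / 10 ≤ ‖n‖ ^ 2) (hn1 : ‖n‖ ≤ 1) (hκ : 0 ≤ κ) (hκ1 : κ ≤ 1 / 1000)
    (H : ∀ a ∈ closedBall m (5 * r / 4), ∀ b ∈ closedBall m (5 * r / 4),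
      |v a - v b - ⟪n, a - b⟫| ≤ κ * ‖a - b‖)
    (hy : y ∈ closedBall m r) (hy' : y' ∈ closedBall m r) (h0 : v y = 0) (h0' : v y' = 0)
    (hne : y ≠ y') : Jn v y y' ((1 + 8 * κ) * ‖y' - y‖) := by
  have hD : 0 < ‖y' - y‖ := norm_pos_iff.2 (sub_ne_zero.2 hne.symm)
  have hD2 : ‖y' - y‖ ≤ 2 * r := by
    have := dist_triangle_right y' y m
    rw [dist_eq_norm] at this
    linarith [mem_closedBall.1 hy, mem_closedBall.1 hy']
  have hsub : closedBall m r ⊆ closedBall m (5 * r / 4) := closedBall_subset_closedBall (by linarith)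
  have hin : |⟪n, y' - y⟫| ≤ κ * ‖y' - y‖ := by
    have := H y' (hsub hy') y (hsub hy)
    rwa [h0, h0', sub_zero, zero_sub, abs_neg] at this
  have hmem : ∀ t ∈ Icc (0 : ℝ) 1, ∀ s : ℝ, |s| ≤ r / 4 →
      y + t • (y' - y) + s • n ∈ closedBall m (5 * r / 4) := by
    intro t ht s hs
    have a := mem_closedBall.1 ((convex_closedBall m r).add_smul_sub_mem hy hy' ht)
    have b : dist (y + t • (y' - y) + s • n) (y + t • (y' - y)) ≤ r / 4 := by
      rw [dist_self_add_left, norm_smul, Real.norm_eq_abs]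
      exact (mul_le_of_le_one_right (abs_nonneg _) hn1).trans hs
    have c := dist_triangle (y + t • (y' - y) + s • n) (y + t • (y' - y)) m
    exact mem_closedBall.2 (by linarith)
  have hdiff : ∀ t t' s s' : ℝ, y + t • (y' - y) + s • n - (y + t' • (y' - y) + s' • n) =
      (t - t') • (y' - y) + (s - s') • n := fun t t' s s' => by
    rw [sub_smul, sub_smul]
    abel
  have hnorm : ∀ t s : ℝ, ‖t • (y' - y) + s • n‖ ≤ |t| * ‖y' - y‖ + |s| := fun t s => by
    refine (norm_add_le _ _).trans ?_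
    rw [norm_smul, norm_smul, Real.norm_eq_abs, Real.norm_eq_abs]
    linarith [mul_le_of_le_one_right (abs_nonneg s) hn1]
  have key : ∀ t ∈ Icc (0 : ℝ) 1, ∀ t' ∈ Icc (0 : ℝ) 1, ∀ s s' : ℝ, |s| ≤ r / 4 → |s'| ≤ r / 4 →
      |v (y + t • (y' - y) + s • n) - v (y + t' • (y' - y) + s' • n) - (s - s') * ‖n‖ ^ 2| ≤
        κ * (2 * (|t - t'| * ‖y' - y‖) + |s - s'|) := by
    intro t ht t' ht' s s' hs hs'
    have a := H _ (hmem t ht s hs) _ (hmem t' ht' s' hs')
    rw [hdiff, inner_add_right, real_inner_smul_right, real_inner_smul_right,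
      real_inner_self_eq_norm_sq] at a
    have b := mul_le_mul_of_nonneg_left (hnorm (t - t') (s - s')) hκ
    have c : |(t - t') * ⟪n, y' - y⟫| ≤ |t - t'| * (κ * ‖y' - y‖) := by
      rw [abs_mul]
      exact mul_le_mul_of_nonneg_left hin (abs_nonneg _)
    have a' := abs_le.1 (a.trans b)
    have c' := abs_le.1 c
    rw [abs_le]
    constructor <;> linarith [a'.1, a'.2, c'.1, c'.2]
  have z0 : v (y + (0 : ℝ) • (y' - y) + (0 : ℝ) • n) = 0 := by simpa using h0
  have z1 : v (y + (1 : ℝ) • (y' - y) + (0 : ℝ) • n) = 0 := by simpa using h0'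
  have hz : |(0 : ℝ)| ≤ r / 4 := by rw [abs_zero]; linarith
  have hex : ∀ t : ℝ, ∃ s : ℝ, t ∈ Icc (0 : ℝ) 1 → |s| ≤ r / 4 ∧
      v (y + t • (y' - y) + s • n) = 0 := by
    intro t
    by_cases ht : t ∈ Icc (0 : ℝ) 1
    swap
    · exact ⟨0, fun h => absurd h ht⟩
    have hb : ∀ s : ℝ, |s| = r / 4 →
        |v (y + t • (y' - y) + s • n) - s * ‖n‖ ^ 2| ≤ r / 100 := by
      intro s hs
      have a := key t ht 0 ⟨le_rfl, zero_le_one⟩ s 0 hs.le hz
      rw [z0, sub_zero, sub_zero, sub_zero, hs, abs_of_nonneg ht.1] at a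
      have b : t * ‖y' - y‖ ≤ 2 * r := (mul_le_of_le_one_left hD.le ht.2).trans hD2
      have c : κ * (2 * (t * ‖y' - y‖) + r / 4) ≤ 1 / 1000 * (2 * (2 * r) + r / 4) :=
        mul_le_mul hκ1 (by linarith) (by have := ht.1; positivity) (by norm_num)
      linarith
    have h1 := (abs_le.1 (hb (r / 4) (abs_of_pos (by linarith)))).1
    have h2 := (abs_le.1 (hb (-(r / 4)) (by rw [abs_neg]; exact abs_of_pos (by linarith)))).2
    have h3 := mul_le_mul_of_nonneg_left hn hr.le
    have hc : Continuous fun s : ℝ => v (y + t • (y' - y) + s • n) := hv.comp (by fun_prop)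
    obtain ⟨s, hs, e⟩ := intermediate_value_Icc (show -(r / 4) ≤ r / 4 by linarith) hc.continuousOn
      (show (0 : ℝ) ∈ Icc _ _ from ⟨by linarith, by linarith⟩)
    exact ⟨s, fun _ => ⟨abs_le.2 hs, e⟩⟩
  have lip : ∀ t ∈ Icc (0 : ℝ) 1, ∀ t' ∈ Icc (0 : ℝ) 1, ∀ s s' : ℝ, |s| ≤ r / 4 → |s'| ≤ r / 4 →
      v (y + t • (y' - y) + s • n) = 0 → v (y + t' • (y' - y) + s' • n) = 0 →
      |s - s'| ≤ 8 * κ * (|t - t'| * ‖y' - y‖) := by
    intro t ht t' ht' s s' hs hs' e e'
    have a := key t ht t' ht' s s' hs hs'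
    rw [e, e', sub_zero, zero_sub, abs_neg, abs_mul, abs_of_nonneg (sq_nonneg ‖n‖)] at a
    have b := mul_le_mul_of_nonneg_left hn (abs_nonneg (s - s'))
    have c := mul_le_mul_of_nonneg_right hκ1 (abs_nonneg (s - s'))
    have d : 0 ≤ κ * (|t - t'| * ‖y' - y‖) := by positivity
    have f := abs_nonneg (s - s')
    linarith
  choose h hh using hex
  have i0 : (0 : ℝ) ∈ Icc (0 : ℝ) 1 := ⟨le_rfl, zero_le_one⟩
  have i1 : (1 : ℝ) ∈ Icc (0 : ℝ) 1 := ⟨zero_le_one, le_rfl⟩
  have e0 : h 0 = 0 := by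
    simpa using lip 0 i0 0 i0 (h 0) 0 (hh 0 i0).1 hz (hh 0 i0).2 z0
  have e1 : h 1 = 0 := by
    simpa using lip 1 i1 1 i1 (h 1) 0 (hh 1 i1).1 hz (hh 1 i1).2 z1
  have hL : 0 < (1 + 8 * κ) * ‖y' - y‖ := by positivity
  obtain ⟨L, hLe⟩ : ∃ L, L = (1 + 8 * κ) * ‖y' - y‖ := ⟨_, rfl⟩
  rw [← hLe] at hL ⊢
  refine ⟨hL.le, fun s => y + (projIcc (0 : ℝ) 1 zero_le_one (s / L) : ℝ) • (y' - y) +
    h (projIcc (0 : ℝ) 1 zero_le_one (s / L)) • n, ?_, fun s _ => (hh _ (projIcc _ _ _ _).2).2,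
    ?_, ?_⟩
  · refine LipschitzWith.of_dist_le_mul fun s s' => ?_
    have a := abs_projIcc_sub_projIcc (zero_le_one' ℝ) (c := s / L) (d := s' / L)
    generalize projIcc (0 : ℝ) 1 zero_le_one (s / L) = t at a ⊢
    generalize projIcc (0 : ℝ) 1 zero_le_one (s' / L) = t' at a ⊢
    have b := lip t t.2 t' t'.2 _ _ (hh t t.2).1 (hh t' t'.2).1 (hh t t.2).2 (hh t' t'.2).2
    rw [← sub_div, abs_div, abs_of_pos hL, le_div_iff₀ hL, hLe] at a
    rw [dist_eq_norm, hdiff, NNReal.coe_one, one_mul, Real.dist_eq]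
    refine (hnorm _ _).trans ?_
    linarith
  · simp only [zero_div, projIcc_left, e0, zero_smul, add_zero]
  · simp only [div_self hL.ne', projIcc_right, e1, zero_smul, add_zero, one_smul, add_sub_cancel]

end GLocA

theorem loc_pf : S_GLoc := by
  intro v ε hv hε hε1 m hm r hr y hy y' hy' h0 h0'
  by_cases hne : y = y'
  · subst hne
    rw [dist_self, mul_zero]
    exact ⟨le_rfl, fun _ => y, (LipschitzWith.const y).weaken zero_le_one, fun _ _ => h0, rfl, rfl⟩
  have hr0 : 0 < r := by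
    by_contra hc
    have a := dist_triangle_right y y' m
    have b := dist_pos.2 hne
    linarith [mem_closedBall.1 hy, mem_closedBall.1 hy']
  have hsub : closedBall m (5 * r / 4) ⊆ ball m 4 := closedBall_subset_ball (by linarith)
  have hg : ∀ x ∈ closedBall m (5 * r / 4), ‖gradient v x - gradient v m‖ ≤ 5 * ε * r / 4 := by
    intro x hx
    have a := (convex_closedBall m (5 * r / 4)).norm_image_sub_le_of_norm_hasFDerivWithin_le
      (f := gradient v) (f' := MM v) (C := ε) (fun z _ => (hasFDerivAt_grad hv z).hasFDerivWithinAt)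
      (fun z hz => (norm_MM v z).trans_le (hm.2 z (hsub hz)).2)
      (mem_closedBall_self (by linarith)) hx
    have b := mul_le_mul_of_nonneg_left (mem_closedBall_iff_norm.1 hx) hε.le
    linarith
  have hd : Differentiable ℝ v := hv.smooth.differentiable (by simp)
  have key := GLocA.core (κ := 5 * ε * r / 4) (n := gradient v m) hv.smooth.continuous hr0
    (by have := hm.th_le; unfold th at this; linarith) (hv.mod m) (by positivity) (by nlinarith)
    (fun a ha b hb => by
      have c := (convex_closedBall m (5 * r / 4)).norm_image_sub_le_of_norm_hasFDerivWithin_le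
        (f := fun x => v x - innerSL ℝ (gradient v m) x)
        (f' := fun x => fderiv ℝ v x - innerSL ℝ (gradient v m)) (C := 5 * ε * r / 4)
        (fun z _ => ((hd z).hasFDerivAt.sub (innerSL ℝ (gradient v m)).hasFDerivAt).hasFDerivWithinAt)
        (fun z hz => by
          have e : fderiv ℝ v z - innerSL ℝ (gradient v m) =
              innerSL ℝ (gradient v z - gradient v m) := by
            ext w
            simp only [ContinuousLinearMap.sub_apply, innerSL_apply_apply, fderiv_eq_inner,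
              inner_sub_left]
          rw [e, innerSL_apply_norm]
          exact hg z hz) hb ha
      rw [Real.norm_eq_abs, innerSL_apply_apply, innerSL_apply_apply] at c
      rw [inner_sub_right]
      refine le_trans (le_of_eq (congrArg _ ?_)) c
      ring) hy hy' h0 h0' hne
  have e : (1 + 10 * ε * r) * dist y y' = (1 + 8 * (5 * ε * r / 4)) * ‖y' - y‖ := by
    rw [dist_comm, dist_eq_norm]
    ring
  rw [e]
  exact key

end Vale.Agent.P134.DG.G
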