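import Vale.Agent.P134.GDefs
import Vale.Agent.P134.FStm

/-! Block A3: the area inequality from its pieces. -/

open scoped RealInnerProductSpace ContDiff ENNReal Topology
open MeasureTheory Set Metric Filter

namespace Vale.Agent.P134.DG.G

namespace GMainA

theorem norm_Pr_le {v : E 3 → ℝ} {y : E 3} (h : ‖NN v y‖ = 1) (a : E 3) : ‖Pr v y a‖ ≤ ‖a‖ := by
  have h1 : Pr v y a = a - ⟪NN v y, a⟫ • NN v y := by simp [Pr]
  refine abs_le_of_sq_le_sq' ?_ (norm_nonneg _) |>.2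
  rw [h1, norm_sub_sq_real, norm_smul, inner_smul_right, h, real_inner_comm, mul_one,
    Real.norm_eq_abs, sq_abs]
  nlinarith [sq_nonneg ⟪a, NN v y⟫]

theorem abs_KK_le (hA : S_Alg) {v : E 3 → ℝ} (hv : Sol v) {ε : ℝ} (hε : ε ≤ 1 / 10000) {y : E 3}
    (h1 : th v y ≤ ε) (h2 : ‖iteratedFDeriv ℝ 2 v y‖ ≤ ε) : |KK v y| ≤ 1 := by
  obtain ⟨-, -, -, -, -, -, -, -, a1, a2, -⟩ := hA v y hv (by linarith)
  have a3 : 0 ≤ fro (SS v y) := Finset.sum_nonneg fun _ _ => sq_nonneg _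
  have a4 : ‖iteratedFDeriv ℝ 2 v y‖ ^ 2 ≤ (1 / 10000) ^ 2 :=
    pow_le_pow_left₀ (norm_nonneg _) (h2.trans hε) 2
  rw [KK, abs_le]
  constructor <;> nlinarith [sq_nonneg (HH v y)]

end GMainA

open GMainA in
theorem pog_of (hA : S_Alg) (hM : F_Meas) (hG : S_GGeo) (hN : S_GNet) (hP : S_GPre)
    (hS : S_GSum) : S_Pog := by
  intro v C₀ hv hW
  obtain ⟨C₁, hC₁, hN⟩ := hN
  obtain ⟨X, W, hG⟩ := hG v √C₀ hv fun x => Real.le_sqrt_of_sq_le ((hW.d2 x).trans
    (mul_le_of_le_one_right (by linarith [hW.one]) (sub_le_self _ (sq_nonneg _))))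
  refine ⟨14 * C₁, 1, by positivity, one_pos, fun O ε σ hc _ d hd ρ ℓ hℓ hO => ?_⟩
  have hGP : ∀ y, v y = 0 → ρ - 10 < d y → GP v ε y := fun y h0 h1 =>
    ⟨h0, fun x hx => ⟨(hc.good.small y (hO y h0 h1) h0 x hx).1,
      (hc.good.small y (hO y h0 h1) h0 x hx).2.1⟩⟩
  obtain ⟨Z, hZ, hcl, hcov, hcnt⟩ := hN {y | v y = 0 ∧ ρ ≤ d y ∧ d y ≤ ρ + 1}
  obtain ⟨f₀, f, h⟩ := hP v d ε ρ ℓ Z hv hc.pos hc.small hd hℓ hGP hZ hcl
    fun y h0 h1 h2 => hcov y ⟨h0, h1, h2⟩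
  have hK : Measurable (KK v) := (hM v hv).2.2.1
  refine ⟨f, h.sm, fun y h0 h1 => ⟨(norm_Pr_le (hA v y hv ((hGP y h0 (by linarith)).th_le.trans
    (by linarith [hc.small]))).1 _).trans (h.one y h0 h1).1, (h.one y h0 h1).2⟩,
    fun s hs hsl x₀ R => ?_⟩
  have hs0 : 0 < s := by linarith
  obtain ⟨hfin, hcard⟩ := hcnt (ball x₀ (R + s)) ({y | d y ≤ ρ + 10} ∩ ball x₀ (R + 2 * s))
    (isBounded_ball.subset inter_subset_right) fun z hz y hy => by
      have a1 := hd.dist_le_mul y z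
      have a2 := mem_ball.1 hy
      have a3 := mem_ball.1 hz.2
      have a4 := (hZ hz.1).2.2
      have a5 := dist_triangle y z x₀
      rw [NNReal.coe_one, one_mul, Real.dist_eq] at a1
      exact ⟨show d y ≤ ρ + 10 by linarith [(abs_le.1 a1).2], mem_ball.2 (by linarith)⟩
  have key := hS v O ε σ X W d ρ ℓ Z f₀ f hc hG hd hO h hK s hs hsl x₀ R hfin.toFinset
    hfin.coe_toFinset
  rw [ncard_eq_toFinset_card _ hfin] at hcard
  have hfc := h.sm.continuous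
  set S₂ := {y | ρ < d y ∧ 4 < f y} ∩ ball x₀ (R + 2 * s)
  have hS₂ : MeasurableSet S₂ := ((isOpen_lt continuous_const hd.continuous).inter
    (isOpen_lt continuous_const hfc)).measurableSet.inter measurableSet_ball
  have hB : Measurable fun y => |KK v y| * max (1 - (f y - 1) / s) 0 ^ 4 :=
    hK.abs.mul (Continuous.measurable (by fun_prop))
  have hfin₂ : ∫⁻ y in S₂, ENNReal.ofReal (|KK v y| * max (1 - (f y - 1) / s) 0 ^ 4) ∂σ ≠ ⊤ := by
    have b1 : σ S₂ < ⊤ := (hc.surf.vol S₂ hS₂).trans_lt (ENNReal.mul_lt_top (by simp)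
      ((isBounded_ball.subset inter_subset_right).thickening.measure_lt_top))
    refine ne_top_of_le_ne_top (b := ∫⁻ _ in S₂, 1 ∂σ) (by simpa using b1.ne)
      (lintegral_mono_ae ?_)
    filter_upwards [ae_restrict_mem hS₂, ae_restrict_of_ae (mem_ae_iff.2 hc.surf.supp)] with y h1 h2
    obtain ⟨b2, b3, -⟩ := hc.good.small y h2.1 h2.2 y (mem_ball_self (by norm_num))
    have b4 : 0 ≤ (f y - 1) / s := div_nonneg (by linarith [h1.1.2]) hs0.le
    exact ENNReal.ofReal_le_one.2 (mul_le_one₀ (abs_KK_le hA hv hc.small b2 b3) (by positivity)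
      (pow_le_one₀ (le_max_right _ _) (max_le (by linarith) zero_le_one)))
  rw [integral_eq_lintegral_of_nonneg_ae (Eventually.of_forall fun y => by positivity)
      (Continuous.aestronglyMeasurable (by fun_prop)),
    integral_eq_lintegral_of_nonneg_ae (Eventually.of_forall fun y => by positivity)
      hB.aestronglyMeasurable]
  have b5 : (14 * (hfin.toFinset.card : ℝ≥0∞)) ≠ ⊤ := ENNReal.mul_ne_top (by simp) (by simp)
  refine (ENNReal.toReal_mono (ENNReal.add_ne_top.2 ⟨b5, hfin₂⟩) key).trans ?_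
  rw [ENNReal.toReal_add b5 hfin₂, ENNReal.toReal_mul, ENNReal.toReal_natCast, mul_assoc]
  simp only [ENNReal.toReal_ofNat]
  linarith

end Vale.Agent.P134.DG.G
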