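import Vale.Agent.P134.GDefs

/-! Block A3: smoothing of a locally Lipschitz function on a set. -/

open scoped RealInnerProductSpace ContDiff ENNReal Topology
open MeasureTheory Set Metric Filter

namespace Vale.Agent.P134.DG.G

namespace GMolA

/-- cost of a jump -/
noncomputable def cs (T r : ℝ) : ℝ := 21 / 20 * r + (T + 1) * max (r - 1) 0

theorem cs_ge {T r : ℝ} (hT : 0 ≤ T) : 21 / 20 * r ≤ cs T r :=
  le_add_of_nonneg_right (mul_nonneg (by linarith) (le_max_right _ _))

theorem cs_small {T r : ℝ} (h : r ≤ 1) : cs T r = 21 / 20 * r := by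
  rw [cs, max_eq_right (by linarith), mul_zero, add_zero]

theorem cs_big {T r : ℝ} (hT : 0 ≤ T) (h : 2 ≤ r) : T + 1 ≤ cs T r := by
  rw [cs, max_eq_left (by linarith)]
  nlinarith

theorem cs_lip {T a b d : ℝ} (hT : 0 ≤ T) (hd : 0 ≤ d) (h : a ≤ b + d) :
    cs T a ≤ cs T b + (T + 3) * d := by
  have h1 : max (a - 1) 0 ≤ max (b - 1) 0 + d :=
    max_le (by linarith [le_max_left (b - 1) 0]) (by linarith [le_max_right (b - 1) 0])
  have h2 := mul_le_mul_of_nonneg_left h1 (by linarith : 0 ≤ T + 1)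
  unfold cs
  nlinarith

theorem ext (A : Set (E 3)) (f₁ : E 3 → ℝ) (T : ℝ) (hne : A.Nonempty)
    (h1 : ∀ y ∈ A, 0 ≤ f₁ y ∧ f₁ y ≤ T)
    (h2 : ∀ y ∈ A, ∀ y' ∈ A, dist y y' ≤ 3 → f₁ y ≤ f₁ y' + 101 / 100 * dist y y') :
    ∃ g : E 3 → ℝ, Continuous g ∧ ∀ y ∈ A, ∀ x ∈ ball y (1 / 100), |g x - f₁ y| ≤ 1 / 50 ∧
      ∀ x' ∈ ball y (1 / 100), g x' ≤ g x + 21 / 20 * dist x' x := by
  have hT : 0 ≤ T := let ⟨y, hy⟩ := hne; (h1 y hy).1.trans (h1 y hy).2
  have : Nonempty A := hne.to_subtype
  obtain ⟨g, hg⟩ : ∃ g : E 3 → ℝ, g = fun x : E 3 => ⨅ y : A, (f₁ y + cs T (dist x (y : E 3))) :=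
    ⟨_, rfl⟩
  have up : ∀ x, ∀ y ∈ A, g x ≤ f₁ y + cs T (dist x y) := fun x y hy => by
    rw [hg]
    refine ciInf_le ⟨0, ?_⟩ (⟨y, hy⟩ : A)
    rintro _ ⟨z, rfl⟩
    exact add_nonneg (h1 z z.2).1 (le_trans (by positivity) (cs_ge hT))
  have lo : ∀ x c, (∀ y ∈ A, c ≤ f₁ y + cs T (dist x y)) → c ≤ g x := fun x c h => by
    rw [hg]
    exact le_ciInf fun y => h y y.2
  refine ⟨g, (LipschitzWith.of_le_add_mul' (T + 3) fun x' x => ?_).continuous, ?_⟩
  · refine sub_le_iff_le_add.1 (lo x _ fun y hy => ?_)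
    have := cs_lip hT (dist_nonneg (x := x') (y := x))
      (show dist x' y ≤ dist x y + dist x' x by linarith [dist_triangle x' x y])
    linarith [up x' y hy]
  intro y0 hy0
  have u0 : ∀ x ∈ ball y0 (1 / 100), g x ≤ f₁ y0 + 21 / 2000 := fun x hx => by
    have h3 : dist x y0 < 1 / 100 := hx
    have := up x y0 hy0
    rw [cs_small (by linarith)] at this
    linarith
  have l0 : ∀ x ∈ ball y0 (1 / 100), ∀ y ∈ A,
      f₁ y0 + min (dist x y) 1 / 25 - 101 / 10000 ≤ f₁ y + cs T (dist x y) := fun x hx y hy => by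
    have h3 : dist y0 x < 1 / 100 := by rwa [dist_comm]
    rcases le_total (dist x y) 2 with h | h
    · have h4 := dist_triangle y0 x y
      have h5 := h2 y0 hy0 y hy (by linarith)
      linarith [cs_ge (r := dist x y) hT, min_le_left (dist x y) 1]
    · linarith [cs_big hT h, (h1 y hy).1, (h1 y0 hy0).2, min_le_right (dist x y) 1]
  intro x hx
  refine ⟨abs_le.2 ⟨?_, by linarith [u0 x hx]⟩, fun x' hx' => ?_⟩
  · have := lo x (f₁ y0 - 1 / 50) fun y hy => by
      linarith [l0 x hx y hy, le_min (dist_nonneg (x := x) (y := y)) zero_le_one]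
    linarith
  · refine sub_le_iff_le_add.1 (lo x _ fun y hy => ?_)
    have h3 : dist x y0 < 1 / 100 := hx
    have h4 : dist x' y0 < 1 / 100 := hx'
    have h5 := dist_triangle_right x' x y0
    have h6 := dist_triangle x' x y
    rcases le_total (dist x y) (9 / 10) with h | h
    · have := up x' y hy
      rw [cs_small (by linarith)] at this
      linarith [cs_ge (r := dist x y) hT]
    · have h7 : 9 / 10 ≤ min (dist x y) 1 := le_min h (by norm_num)
      linarith [l0 x hx y hy, u0 x' hx', dist_nonneg (x := x') (y := x)]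

end GMolA

open GMolA in
theorem mol_pf : S_GMol := by
  intro A f₁ T h1 h2
  rcases A.eq_empty_or_nonempty with rfl | hne
  · exact ⟨fun _ => 0, contDiff_const, fun y hy => absurd hy (notMem_empty y)⟩
  obtain ⟨g, hc, hg⟩ := ext A f₁ T hne h1 h2
  let φ : ContDiffBump (0 : E 3) := ⟨1 / 400, 1 / 200, by norm_num, by norm_num⟩
  obtain ⟨f, hf⟩ : ∃ f : E 3 → ℝ, f = fun x => ∫ t, φ.normed volume t * g (x - t) := ⟨_, rfl⟩
  have hi : ∀ x, Integrable (fun t => φ.normed volume t * g (x - t)) := fun x =>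
    Continuous.integrable_of_hasCompactSupport
      (φ.continuous_normed.mul (hc.comp (continuous_const.sub continuous_id)))
      φ.hasCompactSupport_normed.mul_right
  have avg : ∀ (F : E 3 → ℝ) (c : ℝ), Integrable (fun t => φ.normed volume t * F t) →
      (∀ t ∈ ball (0 : E 3) (1 / 200), F t ≤ c) → ∫ t, φ.normed volume t * F t ≤ c := by
    intro F c hF h
    calc ∫ t, φ.normed volume t * F t ≤ ∫ t, φ.normed volume t * c := by
          refine integral_mono hF (φ.integrable_normed.mul_const c) fun t => ?_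
          by_cases ht : t ∈ ball (0 : E 3) (1 / 200)
          · exact mul_le_mul_of_nonneg_left (h t ht) (φ.nonneg_normed t)
          · have : φ.normed volume t = 0 := by
              rw [← Function.notMem_support, φ.support_normed_eq]; exact ht
            simp [this]
      _ = c := by rw [integral_mul_const, φ.integral_normed, one_mul]
  have mem : ∀ y x t : E 3, x ∈ ball y (1 / 200) → t ∈ ball (0 : E 3) (1 / 200) →
      x - t ∈ ball y (1 / 100) := fun y x t hx ht => by
    rw [mem_ball, dist_eq_norm] at *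
    rw [sub_zero] at ht
    rw [sub_right_comm]
    linarith [norm_sub_le (x - y) t]
  have lip : ∀ y ∈ A, ∀ x ∈ ball y (1 / 200), ∀ x' ∈ ball y (1 / 200),
      f x' - f x ≤ 21 / 20 * ‖x' - x‖ := fun y hy x hx x' hx' => by
    rw [hf]
    dsimp only
    rw [← integral_sub (hi x') (hi x)]
    simp only [← mul_sub]
    refine avg _ _ (by simp only [mul_sub]; exact (hi x').sub (hi x)) fun t ht => ?_
    have := (hg y hy _ (mem y x t hx ht)).2 _ (mem y x' t hx' ht)
    rw [dist_eq_norm, sub_sub_sub_cancel_right] at this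
    linarith
  refine ⟨f, ?_, fun y hy => ⟨?_, abs_le.2 ⟨?_, ?_⟩⟩⟩
  · rw [hf]
    exact φ.hasCompactSupport_normed.contDiff_convolution_left (ContinuousLinearMap.lsmul ℝ ℝ)
      φ.contDiff_normed (hc.locallyIntegrable (μ := volume))
  · rw [gradient, LinearIsometryEquiv.norm_map]
    refine norm_fderiv_le_of_lip' ℝ (by norm_num) ?_
    have hy0 : y ∈ ball y (1 / 200) := mem_ball_self (by norm_num)
    filter_upwards [ball_mem_nhds y (by norm_num : (0 : ℝ) < 1 / 200)] with x hx
    have a := lip y hy y hy0 x hx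
    have b := lip y hy x hx y hy0
    rw [norm_sub_rev] at b
    exact abs_le.2 ⟨by linarith, a⟩
  · have := avg (fun t => -g (y - t)) (1 / 50 - f₁ y) (by simp only [mul_neg]; exact (hi y).neg)
      fun t ht => by
        linarith [(abs_le.1 (hg y hy _ (mem y y t (mem_ball_self (by norm_num)) ht)).1).1]
    simp only [mul_neg, integral_neg] at this
    rw [hf]
    dsimp only
    linarith
  · have := avg (fun t => g (y - t)) (1 / 50 + f₁ y) (hi y) fun t ht => by
      linarith [(abs_le.1 (hg y hy _ (mem y y t (mem_ball_self (by norm_num)) ht)).1).2]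
    rw [hf]
    dsimp only
    linarith

end Vale.Agent.P134.DG.G
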