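import Vale.Agent.P134.GDefs

/-! Separated nets with a volume count; measurable cut functions. -/

open scoped RealInnerProductSpace ContDiff ENNReal Topology
open MeasureTheory Set Metric Filter

namespace Vale.Agent.P134.DG.G

namespace GNetA

theorem exists_net (A : Set (E 3)) : ∃ Z ⊆ A, (Z.Pairwise fun x y => 1 ≤ dist x y) ∧
    ∀ y ∈ A, ∃ z ∈ Z, dist y z ≤ 1 := by
  obtain ⟨Z, hZ⟩ := zorn_subset {Z : Set (E 3) | Z ⊆ A ∧ Z.Pairwise fun x y => 1 ≤ dist x y}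
    fun c hc hch => ⟨⋃₀ c, ⟨sUnion_subset fun t ht => (hc ht).1,
      hch.pairwise_sUnion.2 fun t ht => (hc ht).2⟩, fun t ht => subset_sUnion_of_mem ht⟩
  refine ⟨Z, hZ.prop.1, hZ.prop.2, fun y hy => ?_⟩
  by_contra k
  push Not at k
  have h1 : insert y Z ⊆ Z := hZ.le_of_ge ⟨insert_subset hy hZ.prop.1,
    hZ.prop.2.insert fun z hz _ => ⟨(k z hz).le, dist_comm y z ▸ (k z hz).le⟩⟩ (subset_insert _ _)
  have h2 := k y (h1 (mem_insert _ _))
  rw [dist_self] at h2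
  linarith

theorem card_le {Z S : Set (E 3)} (hZ : Z.Pairwise fun x y => 1 ≤ dist x y)
    (hS : Bornology.IsBounded S) (h : ∀ z ∈ Z, ball z (1 / 2) ⊆ S) (F : Finset (E 3))
    (hF : (F : Set (E 3)) ⊆ Z) :
    (F.card : ℝ) * volume.real (ball (0 : E 3) (1 / 2)) ≤ volume.real S := by
  have h1 : volume.real (⋃ z ∈ F, ball z (1 / 2)) = ∑ z ∈ F, volume.real (ball z (1 / 2)) :=
    measureReal_biUnion_finset
      (fun x hx y hy hxy => ball_disjoint_ball (by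
        have := hZ (hF hx) (hF hy) hxy
        linarith))
      (fun _ _ => measurableSet_ball) fun _ _ => measure_ball_lt_top.ne
  have h2 : ∀ z : E 3, volume.real (ball z (1 / 2)) = volume.real (ball (0 : E 3) (1 / 2)) :=
    fun z => by rw [Measure.real, Measure.addHaar_ball_center, Measure.real]
  simp only [h2, Finset.sum_const, nsmul_eq_mul] at h1
  rw [← h1]
  exact measureReal_mono (iUnion₂_subset fun z hz => h z (hF hz)) hS.measure_lt_top.ne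

end GNetA

theorem net_pf : S_GNet := by
  have h0 : 0 < volume.real (ball (0 : E 3) (1 / 2)) :=
    ENNReal.toReal_pos (measure_ball_pos _ _ (by norm_num)).ne' measure_ball_lt_top.ne
  refine ⟨_, inv_pos.2 h0, fun A => ?_⟩
  obtain ⟨Z, hA, hZ, hc⟩ := GNetA.exists_net A
  refine ⟨Z, hA, Metric.isClosed_of_pairwise_le_dist one_pos hZ, hc, fun B S hS h => ?_⟩
  have k : ∀ F : Finset (E 3), (F : Set (E 3)) ⊆ Z ∩ B →
      (F.card : ℝ) ≤ (volume.real (ball (0 : E 3) (1 / 2)))⁻¹ * volume.real S := fun F hF => by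
    rw [← div_eq_inv_mul, le_div_iff₀ h0]
    exact GNetA.card_le (hZ.mono inter_subset_left) hS h F hF
  have hf : (Z ∩ B).Finite := by
    by_contra hi
    obtain ⟨n, hn⟩ := exists_nat_gt ((volume.real (ball (0 : E 3) (1 / 2)))⁻¹ * volume.real S)
    obtain ⟨F, hF, e⟩ := Set.Infinite.exists_subset_card_eq hi n
    have := k F hF
    rw [e] at this
    linarith
  refine ⟨hf, ?_⟩
  rw [Set.ncard_eq_toFinset_card _ hf]
  exact k _ hf.coe_toFinset.le

theorem cut_pf : S_GCut := by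
  intro P s hP hs h0
  have hK : ∀ θ : ℝ, IsCompact (Icc 0 s ∩ {r : ℝ | (θ, r) ∈ P}) := fun θ =>
    isCompact_Icc.inter_right (hP.preimage (Continuous.prodMk_right θ))
  have hne : ∀ θ : ℝ, (Icc 0 s ∩ {r : ℝ | (θ, r) ∈ P}).Nonempty := fun θ =>
    ⟨0, ⟨le_rfl, hs⟩, h0 θ⟩
  have hm := fun θ => (hK θ).sSup_mem (hne θ)
  have hle : ∀ θ, ∀ r ∈ Icc 0 s, (θ, r) ∈ P → r ≤ sSup (Icc 0 s ∩ {r : ℝ | (θ, r) ∈ P}) :=
    fun θ r hr h => le_csSup (hK θ).bddAbove ⟨hr, h⟩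
  refine ⟨fun θ => sSup (Icc 0 s ∩ {r : ℝ | (θ, r) ∈ P}), measurable_of_Ici fun a => ?_,
    fun θ => ⟨(hm θ).1, (hm θ).2, hle θ⟩⟩
  have e : (fun θ => sSup (Icc 0 s ∩ {r : ℝ | (θ, r) ∈ P})) ⁻¹' Ici a =
      Prod.fst '' {z : ℝ × Icc (0 : ℝ) s | (z.1, (z.2 : ℝ)) ∈ P ∧ a ≤ z.2} := by
    ext θ
    constructor
    · exact fun h => ⟨(θ, ⟨_, (hm θ).1⟩), ⟨(hm θ).2, h⟩, rfl⟩
    · rintro ⟨⟨θ', r⟩, ⟨h1, h2⟩, rfl⟩
      exact le_trans h2 (hle θ' r r.2 h1)
  rw [e]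
  refine (isClosedMap_fst_of_compactSpace _ ?_).measurableSet
  have hc : Continuous fun z : ℝ × Icc (0 : ℝ) s => (z.2 : ℝ) := by fun_prop
  exact (hP.preimage (continuous_fst.prodMk hc)).inter (isClosed_le continuous_const hc)

end Vale.Agent.P134.DG.G
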