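import Vale.Agent.P134.GDefs

/-! Block A3: normal neighbourhoods, short geodesics minimise. -/

open scoped RealInnerProductSpace ContDiff ENNReal Topology
open MeasureTheory Set Metric Filter

namespace Vale.Agent.P134.DG.G

namespace GNormA

variable {v : E 3 → ℝ} {X W : E 3 → E 3 → ℝ → E 3}

theorem sm (h : Geo v X W) (m : E 3) : ContDiff ℝ 3 fun u => X m u 1 :=
  h.sX.comp (f := fun u : E 3 => (m, u, (1 : ℝ))) (by fun_prop)

theorem e0 (h : Geo v X W) (m : E 3) : X m 0 1 = m := by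
  have := h.dist_le m (w := 0) (by simp) 1 0
  rw [h.X0, norm_zero, zero_mul] at this
  exact dist_le_zero.1 this

theorem d0 (h : Geo v X W) (m : E 3) :
    fderiv ℝ (fun u => X m u 1) 0 = ContinuousLinearMap.id ℝ (E 3) := by
  have hd := ((sm h m).differentiable (by simp) 0).hasFDerivAt
  have k : ∀ b : E 3, ‖b‖ ≤ 2 → fderiv ℝ (fun u => X m u 1) 0 b = b := by
    intro b hb
    have h1 : HasDerivAt (fun a : ℝ => a • b) b 0 := by
      simpa using (hasDerivAt_id (0 : ℝ)).smul_const b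
    have h2 := HasFDerivAt.comp_hasDerivAt_of_eq (0 : ℝ) hd h1 (by simp)
    have h3 := h.dX m b 0 hb
    rw [h.W0] at h3
    refine h2.unique (h3.congr_of_eventuallyEq ?_)
    filter_upwards [Ioo_mem_nhds (show (-1 : ℝ) < 0 by norm_num) one_pos] with a ha
    simpa using h.Xsm m b a 1 hb (abs_le.2 ⟨ha.1.le, ha.2.le⟩)
  refine ContinuousLinearMap.ext fun b => ?_
  have hc : 0 < ‖b‖ + 1 := by positivity
  have := k ((‖b‖ + 1)⁻¹ • b) (by
    rw [norm_smul, Real.norm_of_nonneg (inv_nonneg.2 hc.le), inv_mul_le_iff₀ hc]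
    linarith [norm_nonneg b])
  rw [map_smul] at this
  exact smul_right_injective _ (inv_ne_zero hc.ne') this

theorem grow {u : ℝ → E 3} {τ : ℝ} (hτ : 0 ≤ τ) (hc : ContinuousOn u (Icc 0 τ)) (h0 : u 0 = 0)
    (h : ∀ t ∈ Ico 0 τ, ∀ r, 2 * ‖u t‖ < r → ∃ᶠ z in 𝓝[>] t, slope (fun t => ‖u t‖ ^ 2) t z < r) :
    ‖u τ‖ ≤ τ := by
  refine le_of_forall_pos_le_add fun η hη => ?_
  obtain ⟨κ, hκ, e⟩ : ∃ κ : ℝ, 0 < κ ∧ κ * (τ + 1) = η :=
    ⟨η / (τ + 1), by positivity, div_mul_cancel₀ _ (by positivity)⟩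
  have k := image_le_of_liminf_slope_right_lt_deriv_boundary (f := fun t => ‖u t‖ ^ 2)
    (hc.norm.pow 2) h (B := fun t => ((1 + κ) * t + κ) ^ 2)
    (B' := fun t => 2 * ((1 + κ) * t + κ) * (1 + κ)) (by simp [h0]; positivity)
    (fun t => by
      simpa using ((((hasDerivAt_id t).const_mul (1 + κ)).add_const κ).fun_pow 2))
    (fun t ht e1 => by
      have p : 0 < (1 + κ) * t + κ := by have := ht.1; positivity
      rw [(pow_left_inj₀ (norm_nonneg _) p.le two_ne_zero).1 e1]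
      nlinarith [mul_pos p hκ]) (right_mem_Icc.2 hτ)
  have := (pow_le_pow_iff_left₀ (norm_nonneg _) (by positivity) two_ne_zero).1 k
  linarith

theorem num {a w D q N s h η : ℝ} (a0 : 0 ≤ a) (a1 : a ≤ 1 / 2) (w0 : 0 ≤ w) (p : 0 < h)
    (hη : 0 < η) (e : 9 * η = s - 2 * a) (hh : h < η) (l1 : w ≤ 2 * h) (g3 : q ≤ a * D)
    (l3 : D ≤ h + η * w) (l5 : N = a ^ 2 + 2 * q + w ^ 2) : N - a ^ 2 < s * h := by
  have l4 : D ≤ h + 2 * η * h := by nlinarith [mul_le_mul_of_nonneg_left l1 hη.le]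
  have l6 := mul_le_mul_of_nonneg_left l4 a0
  have l7 := pow_le_pow_left₀ w0 l1 2
  have l8 := mul_le_mul_of_nonneg_right a1 (mul_pos hη p).le
  have l9 := mul_lt_mul_of_pos_right hh p
  have l10 : s * h = (9 * η + 2 * a) * h := by rw [e]; ring
  nlinarith [mul_pos hη p]

theorem loc {e : E 3 → E 3} (hs : ContDiff ℝ 3 e)
    (h0 : fderiv ℝ e 0 = ContinuousLinearMap.id ℝ (E 3)) : ∃ r > 0,
    (∀ a ∈ ball (0 : E 3) r, ∀ b ∈ ball (0 : E 3) r, ‖a - b‖ ≤ 2 * ‖e a - e b‖) ∧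
      ∀ δ ≤ r, IsOpen (e '' ball 0 δ) := by
  obtain ⟨r, hr, k⟩ := Metric.continuousAt_iff.1
    ((hs.continuous_fderiv (by simp)).continuousAt (x := 0)) (1 / 2) (by norm_num)
  have ap : ∀ a ∈ ball (0 : E 3) r, ∀ b ∈ ball (0 : E 3) r,
      ‖e a - e b - (a - b)‖ ≤ 1 / 2 * ‖a - b‖ := fun a ha b hb' =>
    (convex_ball 0 r).norm_image_sub_le_of_norm_fderiv_le' (φ := ContinuousLinearMap.id ℝ (E 3))
      (fun x _ => hs.differentiable (by simp) x)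
      (fun u hu => by rw [← h0, ← dist_eq_norm]; exact (k hu).le) hb' ha
  refine ⟨r, hr, fun a ha b hb => ?_, fun δ hδ => ?_⟩
  · have e1 := ap a ha b hb
    have e2 := norm_sub_norm_le (a - b) (e a - e b)
    rw [norm_sub_rev] at e1
    linarith
  · refine ApproximatesLinearOn.open_image (f' := ContinuousLinearMap.id ℝ (E 3)) (c := 1 / 2)
      (fun a ha b hb' => ?_) ⟨id, 1, fun y => by simp, fun y => rfl⟩ isOpen_ball (Or.inr ?_)
    · simpa using ap a (ball_subset_ball hδ ha) b (ball_subset_ball hδ hb')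
    · change (1 / 2 : NNReal) < 1⁻¹
      norm_num

theorem exit {e : E 3 → E 3} (hs : Continuous e) {δ L : ℝ} (hδ : 0 < δ)
    (hU : IsOpen (e '' ball 0 δ)) {c : ℝ → E 3} (hc : Continuous c) (c0 : c 0 = e 0) (hL : 0 ≤ L)
    (hL' : c L ∉ e '' ball 0 δ) : ∃ τ ∈ Icc 0 L, ∃ u : ℝ → E 3,
      (∀ t ∈ Icc 0 τ, ‖u t‖ ≤ δ ∧ e (u t) = c t) ∧ ‖u τ‖ = δ := by
  have hK : IsClosed (e '' closedBall 0 δ) := ((isCompact_closedBall 0 δ).image hs).isClosed
  obtain ⟨τ, ⟨hτ, hτU⟩, hmin⟩ := (isCompact_Icc.inter_right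
    (hU.isClosed_compl.preimage hc)).exists_isLeast ⟨L, right_mem_Icc.2 hL, hL'⟩
  have τ0 : τ ≠ 0 := by
    rintro rfl
    exact hτU ⟨0, mem_ball_self hδ, c0.symm⟩
  have hin : Icc 0 τ ⊆ c ⁻¹' (e '' closedBall 0 δ) := by
    rw [← closure_Ico τ0.symm]
    refine closure_minimal (fun t ht => ?_) (hK.preimage hc)
    by_contra hn
    exact ht.2.not_ge (hmin ⟨⟨ht.1, ht.2.le.trans hτ.2⟩, fun k =>
      hn (image_mono ball_subset_closedBall k)⟩)
  choose! u hu hue using fun t (ht : t ∈ Icc 0 τ) => hin ht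
  exact ⟨τ, hτ, u, fun t ht => ⟨mem_closedBall_zero_iff.1 (hu t ht), hue t ht⟩,
    le_antisymm (mem_closedBall_zero_iff.1 (hu τ (right_mem_Icc.2 hτ.1)))
      (not_lt.1 fun k => hτU ⟨u τ, mem_ball_zero_iff.2 k, hue τ (right_mem_Icc.2 hτ.1)⟩)⟩

theorem rad {e : E 3 → E 3} (hs : Differentiable ℝ e) {c u : ℝ → E 3} {τ : ℝ} (hτ : 0 ≤ τ)
    (hc : LipschitzWith 1 c) (u0 : u 0 = 0) (n1 : ∀ t ∈ Icc 0 τ, ‖u t‖ ≤ 1 / 2)
    (hue : ∀ t ∈ Icc 0 τ, e (u t) = c t)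
    (inj : ∀ t ∈ Icc 0 τ, ∀ t' ∈ Icc 0 τ, ‖u t - u t'‖ ≤ 2 * ‖e (u t) - e (u t')‖)
    (g1 : ∀ t ∈ Icc 0 τ, ⟪fderiv ℝ e (u t) (u t), fderiv ℝ e (u t) (u t)⟫ = ⟪u t, u t⟫)
    (g2 : ∀ t ∈ Icc 0 τ, ∀ z ∈ Icc 0 τ,
      ⟪fderiv ℝ e (u t) (u t), fderiv ℝ e (u t) (u z - u t)⟫ = ⟪u t, u z - u t⟫) : ‖u τ‖ ≤ τ := by
  have lip : ∀ t ∈ Icc 0 τ, ∀ t' ∈ Icc 0 τ, ‖u t - u t'‖ ≤ 2 * dist t t' := fun t ht t' ht' => by
    have e1 := inj t ht t' ht'
    have e2 := hc.dist_le_mul t t'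
    rw [hue t ht, hue t' ht', ← dist_eq_norm (c t)] at e1
    rw [NNReal.coe_one, one_mul] at e2
    linarith
  have cu : ContinuousOn u (Icc 0 τ) := (LipschitzOnWith.of_dist_le_mul (K := 2)
    fun t ht t' ht' => by rw [dist_eq_norm]; exact lip t ht t' ht').continuousOn
  refine grow hτ cu u0 fun t ht s hs' => Eventually.frequently ?_
  have ht' : t ∈ Icc 0 τ := ⟨ht.1, ht.2.le⟩
  obtain ⟨η, hη, e9⟩ : ∃ η : ℝ, 0 < η ∧ 9 * η = s - 2 * ‖u t‖ :=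
    ⟨(s - 2 * ‖u t‖) / 9, by linarith, by ring⟩
  have mem : Icc 0 τ ∈ 𝓝[>] t := mem_of_superset (Ioo_mem_nhdsGT ht.2)
    fun z hz' => ⟨ht.1.trans hz'.1.le, hz'.2.le⟩
  have tu : Tendsto u (𝓝[>] t) (𝓝 (u t)) := (cu t ht').tendsto.mono_left
    (le_inf nhdsWithin_le_nhds (le_principal_iff.2 mem))
  filter_upwards [tu.eventually ((hs (u t)).hasFDerivAt.isLittleO.def hη), mem,
    Ioo_mem_nhdsGT (lt_add_of_pos_right t hη)] with z e1 hz1 hz2
  have k1 := g1 t ht'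
  rw [real_inner_self_eq_norm_sq, real_inner_self_eq_norm_sq,
    pow_left_inj₀ (norm_nonneg _) (norm_nonneg _) two_ne_zero] at k1
  have g3 := real_inner_le_norm (fderiv ℝ e (u t) (u t)) (fderiv ℝ e (u t) (u z - u t))
  rw [k1, g2 t ht' z hz1] at g3
  have p : 0 < z - t := sub_pos.2 hz2.1
  have l1 := lip z hz1 t ht'
  have l2 := hc.dist_le_mul z t
  rw [Real.dist_eq, abs_of_pos p] at l1 l2
  rw [NNReal.coe_one, one_mul, dist_eq_norm] at l2
  rw [hue t ht', hue z hz1, norm_sub_rev] at e1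
  have l3 := norm_sub_norm_le (fderiv ℝ e (u t) (u z - u t)) (c z - c t)
  have l5 := norm_add_sq_real (u t) (u z - u t)
  rw [add_sub_cancel] at l5
  rw [slope_def_field, div_lt_iff₀ p]
  exact num (norm_nonneg _) (n1 t ht') (norm_nonneg _) p hη e9 (by linarith [hz2.2]) l1 g3
    (by linarith) l5

end GNormA

open GNormA in
theorem norm_pf (hT : S_GTan) (hG : S_GGauss) : S_GNorm := by
  intro v X W ε hv h hε m hm
  have hs := sm h m
  obtain ⟨r, hr, inj, hU⟩ := loc hs (d0 h m)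
  refine ⟨min (r / 2) (1 / 2), by positivity, fun δ hδ hδ0 c L hc c0 hL hz hd => ?_⟩
  have δr : δ < r := by linarith [hδ0.trans (min_le_left _ _)]
  have δ1 : δ ≤ 1 / 2 := hδ0.trans (min_le_right _ _)
  obtain ⟨τ, hτ, u, hu, nτ⟩ := exit hs.continuous hδ (hU δ δr.le) hc.continuous
    (c0.trans (e0 h m).symm) hL (by
      rintro ⟨u, hu, e⟩
      rw [mem_ball_zero_iff] at hu
      have := h.dist_le m (w := u) (by linarith) 1 0
      rw [h.X0, show X m u 1 = c L from e] at this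
      norm_num at this
      linarith)
  have n1 : ∀ t ∈ Icc 0 τ, ‖u t‖ ≤ 1 / 2 := fun t ht => (hu t ht).1.trans δ1
  have mb : ∀ t ∈ Icc 0 τ, u t ∈ ball (0 : E 3) r := fun t ht =>
    mem_ball_zero_iff.2 ((hu t ht).1.trans_lt δr)
  have tan : ∀ t ∈ Icc 0 τ, ⟪gradient v m, u t⟫ = 0 := fun t ht => by
    refine (hT v X W hv h m (u t) 1 (by linarith [n1 t ht]) fun s hs' => ?_).2 one_ne_zero ?_
    · refine (hm.2 _ ?_).1.trans hε
      have e1 := h.dist_le m (w := u t) (by linarith [n1 t ht]) s 0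
      have e2 := abs_sub_left_of_mem_uIcc hs'
      rw [h.X0] at e1
      rw [sub_zero 1, abs_one] at e2
      exact mem_ball.2 (e1.trans_lt ((mul_le_mul (n1 t ht) e2 (abs_nonneg _)
        (by norm_num)).trans_lt (by norm_num)))
    · rw [show X m (u t) 1 = c t from (hu t ht).2, hz t ⟨ht.1, ht.2.trans hτ.2⟩, hm.1]
  have u0 : u 0 = 0 := by
    have e1 : ‖u 0 - 0‖ ≤ 2 * ‖X m (u 0) 1 - X m 0 1‖ :=
      inj _ (mb 0 (left_mem_Icc.2 hτ.1)) 0 (mem_ball_self hr)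
    rw [show X m (u 0) 1 = c 0 from (hu 0 (left_mem_Icc.2 hτ.1)).2, c0, e0 h m, sub_self,
      norm_zero, mul_zero, sub_zero] at e1
    exact norm_le_zero_iff.1 e1
  have g := fun t (ht : t ∈ Icc 0 τ) w' =>
    hG v X W ε hv h hε m hm (u t) w' ((n1 t ht).trans (by norm_num)) (tan t ht)
  have main : ‖u τ‖ ≤ τ := rad (hs.differentiable (by simp)) hτ.1 hc u0 n1 (fun t ht => (hu t ht).2)
    (fun t ht t' ht' => inj _ (mb t ht) _ (mb t' ht')) (fun t ht => g t ht _ (tan t ht))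
    fun t ht z hz1 => g t ht _ (by rw [inner_sub_right, tan t ht, tan z hz1, sub_self])
  have hb1 : ‖δ⁻¹ • u τ‖ = 1 := by
    rw [norm_smul, nτ, Real.norm_of_nonneg (inv_nonneg.2 hδ.le), inv_mul_cancel₀ hδ.ne']
  refine ⟨τ, ⟨nτ ▸ main, hτ.2⟩, δ⁻¹ • u τ, ⟨hb1, ?_⟩, ?_⟩
  · rw [inner_smul_right, tan τ (right_mem_Icc.2 hτ.1), mul_zero]
  · have e := h.Xsm m (δ⁻¹ • u τ) δ 1 (by rw [hb1]; norm_num)
      (by rw [abs_of_pos hδ]; linarith)
    rw [smul_inv_smul₀ hδ.ne', mul_one] at e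
    rw [← e]
    exact (hu τ (right_mem_Icc.2 hτ.1)).2.symm

end Vale.Agent.P134.DG.G
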