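import Vale.Agent.P134.GDefs

/-! A comparison estimate for the Jacobi equation. -/

open scoped RealInnerProductSpace ContDiff ENNReal Topology
open MeasureTheory Set Metric Filter

namespace Vale.Agent.P134.DG.G

namespace GOdeA

variable {J J₁ k : ℝ → ℝ} {r₁ s : ℝ}

theorem cmp {f f' B B' : ℝ → ℝ} (hf : ∀ r ∈ Icc 0 r₁, HasDerivAt f (f' r) r)
    (hB : ∀ r, HasDerivAt B (B' r) r) (h0 : |f 0| ≤ B 0) (h : ∀ r ∈ Icc 0 r₁, |f' r| ≤ B' r) :
    ∀ r ∈ Icc 0 r₁, |f r| ≤ B r := fun _ hr =>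
  image_norm_le_of_norm_deriv_right_le_deriv_boundary
    (fun x hx => (hf x hx).continuousAt.continuousWithinAt)
    (fun x hx => (hf x (Ico_subset_Icc_self hx)).hasDerivWithinAt) h0 hB
    (fun x hx => h x (Ico_subset_Icc_self hx)) hr

theorem small (h : ∀ r ∈ Icc 0 r₁, HasDerivAt J (J₁ r) r ∧
    HasDerivAt J₁ (-(k r * J r)) r ∧ |k r| ≤ 1 / 100) (h0 : J 0 = 0) (h1 : |J₁ 0| ≤ 1)
    {r : ℝ} (hr : r ∈ Icc 0 r₁) (h5 : r ≤ 5) : |J r| ≤ 20 := by
  have d : ∀ x ∈ Icc 0 r₁, HasDerivAt (fun x => (J x / 10, J₁ x)) (J₁ x / 10, -(k x * J x)) x :=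
    fun x hx => ((h x hx).1.div_const 10).prodMk (h x hx).2.1
  have g := norm_le_gronwallBound_of_norm_deriv_right_le (δ := 1) (K := 1 / 10) (ε := 0)
    (fun x hx => (d x hx).continuousAt.continuousWithinAt)
    (fun x hx => (d x (Ico_subset_Icc_self hx)).hasDerivWithinAt)
    (by simpa [h0] using h1) (fun x hx => by
      have a1 := norm_fst_le (J x / 10, J₁ x)
      have a2 := norm_snd_le (J x / 10, J₁ x)
      have a3 := mul_le_mul_of_nonneg_right (h x (Ico_subset_Icc_self hx)).2.2 (abs_nonneg (J x))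
      simp only [Real.norm_eq_abs, abs_div, Nat.abs_ofNat] at a1 a2
      refine norm_prod_le_iff.2 ⟨?_, ?_⟩
      · simp only [Real.norm_eq_abs, abs_div, Nat.abs_ofNat]
        linarith
      · simp only [Real.norm_eq_abs, abs_neg, abs_mul]
        linarith) r hr
  rw [gronwallBound_ε0, one_mul, sub_zero] at g
  have a1 := (norm_fst_le (J r / 10, J₁ r)).trans g
  have a2 : Real.exp (1 / 10 * r) ≤ Real.exp (1 / 2) := Real.exp_le_exp.2 (by linarith)
  have a3 := Real.exp_bound_div_one_sub_of_interval (x := 1 / 2) (by norm_num) (by norm_num)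
  simp only [Real.norm_eq_abs, abs_div, Nat.abs_ofNat] at a1
  norm_num at a3
  linarith

theorem main {g : ℝ → ℝ} (hs : 0 < s) (h0 : 0 ≤ r₁) (h1 : r₁ ≤ s) (hg : Continuous g)
    (h : ∀ r ∈ Icc 0 r₁, HasDerivAt J (J₁ r) r ∧ HasDerivAt J₁ (-(k r * J r)) r ∧
      g r = |k r| * |J r|) (j0 : J 0 = 0) (j1 : |J₁ 0| ≤ 1) :
    ∫ r in Icc 0 r₁, 12 / s ^ 2 * (1 - r / s) ^ 2 * |J r| ≤
      1 + ∫ r in Icc 0 r₁, (1 - r / s) ^ 4 * g r := by
  obtain ⟨A₁, a0, dA₁⟩ : ∃ A₁ : ℝ → ℝ, A₁ 0 = 1 ∧ ∀ r, HasDerivAt A₁ (g r) r :=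
    ⟨fun r => 1 + ∫ x in (0 : ℝ)..r, g x, by simp,
      fun r => (hg.integral_hasStrictDerivAt 0 r).hasDerivAt.const_add 1⟩
  have cA₁ : Continuous A₁ := continuous_iff_continuousAt.2 fun r => (dA₁ r).continuousAt
  obtain ⟨A, b0, dA⟩ : ∃ A : ℝ → ℝ, A 0 = 0 ∧ ∀ r, HasDerivAt A (A₁ r) r :=
    ⟨fun r => ∫ x in (0 : ℝ)..r, A₁ x, by simp,
      fun r => (cA₁.integral_hasStrictDerivAt 0 r).hasDerivAt⟩
  have cA : Continuous A := continuous_iff_continuousAt.2 fun r => (dA r).continuousAt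
  have e1 := cmp (fun r hr => (h r hr).2.1) dA₁ (a0 ▸ j1) fun r hr => by
    rw [abs_neg, abs_mul, (h r hr).2.2]
  have e2 := cmp (fun r hr => (h r hr).1) dA (by rw [j0, b0, abs_zero]) e1
  have du : ∀ r : ℝ, HasDerivAt (fun r => 1 - r / s) (-(1 / s)) r := fun r =>
    ((hasDerivAt_id' r).div_const s).const_sub 1
  have dG : ∀ r : ℝ, HasDerivAt
      (fun r => -(4 / s) * (1 - r / s) ^ 3 * A r - (1 - r / s) ^ 4 * A₁ r)
      (12 / s ^ 2 * (1 - r / s) ^ 2 * A r - (1 - r / s) ^ 4 * g r) r := fun r =>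
    (((((du r).fun_pow 3).const_mul (-(4 / s))).fun_mul (dA r)).fun_sub
      (((du r).fun_pow 4).fun_mul (dA₁ r))).congr_deriv (by push_cast; ring)
  have c1 : Continuous fun r => 12 / s ^ 2 * (1 - r / s) ^ 2 * A r := by fun_prop
  have c2 : Continuous fun r => (1 - r / s) ^ 4 * g r := by fun_prop
  have i1 := intervalIntegral.integral_eq_sub_of_hasDerivAt (fun r _ => dG r)
    ((c1.sub c2).intervalIntegrable 0 r₁)
  rw [intervalIntegral.integral_of_le h0, ← integral_Icc_eq_integral_Ioc,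
    integral_sub c1.integrableOn_Icc c2.integrableOn_Icc, a0, b0] at i1
  have cJ : ContinuousOn J (Icc 0 r₁) := fun r hr => (h r hr).1.continuousAt.continuousWithinAt
  have i2 : ∫ r in Icc 0 r₁, 12 / s ^ 2 * (1 - r / s) ^ 2 * |J r| ≤
      ∫ r in Icc 0 r₁, 12 / s ^ 2 * (1 - r / s) ^ 2 * A r :=
    setIntegral_mono_on (ContinuousOn.integrableOn_Icc (ContinuousOn.mul (by fun_prop) cJ.abs))
      c1.integrableOn_Icc measurableSet_Icc fun r hr =>
        mul_le_mul_of_nonneg_left (e2 r hr) (by positivity)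
  have u0 : 0 ≤ 1 - r₁ / s := sub_nonneg.2 ((div_le_one hs).2 h1)
  have p1 := (abs_nonneg _).trans (e1 r₁ (right_mem_Icc.2 h0))
  have p2 := (abs_nonneg _).trans (e2 r₁ (right_mem_Icc.2 h0))
  have p3 : 0 ≤ 4 / s * (1 - r₁ / s) ^ 3 * A r₁ := by positivity
  have p4 : 0 ≤ (1 - r₁ / s) ^ 4 * A₁ r₁ := by positivity
  simp only [zero_div, sub_zero, one_pow, mul_zero, mul_one] at i1
  linarith

end GOdeA

open GOdeA in
theorem ode_pf : S_GOde := by
  intro J J₁ k r₁ s hs h0 h1 hk h j0 j1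
  have s0 : 0 < s := by linarith
  have cJ : ContinuousOn J (Icc 0 r₁) := fun r hr => (h r hr).1.continuousAt.continuousWithinAt
  obtain ⟨g, hg, eg⟩ : ∃ g : ℝ → ℝ, Continuous g ∧ ∀ r ∈ Icc 0 r₁, g r = |k r| * |J r| :=
    ⟨fun r => (fun r => |k r| * |J r|) (projIcc 0 r₁ h0 r), (hk.abs.mul cJ.abs).comp_continuous
      (continuous_subtype_val.comp continuous_projIcc) fun _ => Subtype.prop _,
      fun r hr => by simp only [projIcc_of_mem h0 hr]⟩
  have m := main s0 h0 h1 hg (fun r hr => ⟨(h r hr).1, (h r hr).2.1, eg r hr⟩) j0 j1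
  have c2 : Continuous fun r => (1 - r / s) ^ 4 * g r := by fun_prop
  have n2 : ∀ r ∈ Icc 0 r₁, 0 ≤ (1 - r / s) ^ 4 * g r := fun r hr => by
    rw [eg r hr]
    positivity
  have e1 : ∀ r, ENNReal.ofReal (12 / s ^ 2 * (1 - r / s) ^ 2) * ENNReal.ofReal |J r| =
      ENNReal.ofReal (12 / s ^ 2 * (1 - r / s) ^ 2 * |J r|) := fun r =>
    (ENNReal.ofReal_mul (by positivity)).symm
  simp only [e1]
  have c1 : ContinuousOn (fun r => 12 / s ^ 2 * (1 - r / s) ^ 2 * |J r|) (Icc 0 r₁) :=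
    ContinuousOn.mul (by fun_prop) cJ.abs
  rw [← ofReal_integral_eq_lintegral_ofReal c1.integrableOn_Icc
    (Eventually.of_forall fun r => by positivity)]
  refine (ENNReal.ofReal_le_ofReal m).trans (ENNReal.ofReal_add_le.trans ?_)
  rw [ofReal_integral_eq_lintegral_ofReal c2.integrableOn_Icc
    ((ae_restrict_iff' measurableSet_Icc).2 (Eventually.of_forall n2)), ENNReal.ofReal_one,
    ← one_add_one_eq_two, add_assoc, restrict_Ioo_eq_restrict_Ioc]
  refine add_le_add le_rfl ((lintegral_mono_set (t := Icc 0 r₁ ∩ Icc 0 5 ∪ Ioc 5 r₁)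
    fun r hr => (le_or_gt r 5).imp (fun a => ⟨hr, hr.1, a⟩) fun a => ⟨a, hr.2⟩).trans
    ((lintegral_union_le _ _ _).trans (add_le_add ?_ (le_of_eq ?_))))
  · refine (setLIntegral_mono' (g := fun _ => ENNReal.ofReal (1 / 5))
      (measurableSet_Icc.inter measurableSet_Icc) fun r hr => ENNReal.ofReal_le_ofReal ?_).trans
      ((lintegral_mono_set inter_subset_right).trans (le_of_eq ?_))
    · have a1 : (1 - r / s) ^ 4 ≤ 1 := pow_le_one₀
        (sub_nonneg.2 ((div_le_one s0).2 (hr.1.2.trans h1)))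
        (sub_le_self _ (div_nonneg hr.1.1 s0.le))
      have a2 := mul_le_mul (h r hr.1).2.2 (small h j0 j1 hr.1 hr.2.2) (abs_nonneg _) (by norm_num)
      rw [eg r hr.1]
      exact (mul_le_of_le_one_left (by positivity) a1).trans (a2.trans (by norm_num))
    · rw [setLIntegral_const, Real.volume_Icc, ← ENNReal.ofReal_mul (by norm_num)]
      norm_num
  · refine setLIntegral_congr_fun measurableSet_Ioc fun r hr => ?_
    rw [← ENNReal.ofReal_mul (by positivity), eg r ⟨by linarith [hr.1], hr.2⟩]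
    exact congrArg _ (by ring)

end Vale.Agent.P134.DG.G
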