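import Vale.Agent.P134.GDefs

/-! The second variation inequality on one polar fan. -/

open scoped RealInnerProductSpace ContDiff ENNReal Topology
open MeasureTheory Set Metric Filter

namespace Vale.Agent.P134.DG.G

namespace GOneA

theorem cont_ar {Y : ℝ × ℝ → E 3} (hY : ContDiff ℝ 1 Y) :
    Continuous fun a => ar (fderiv ℝ Y a (1, 0)) (fderiv ℝ Y a (0, 1)) := by
  have h := hY.continuous_fderiv one_ne_zero
  have h1 : Continuous fun a => fderiv ℝ Y a (1, 0) := h.clm_apply continuous_const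
  have h2 : Continuous fun a => fderiv ℝ Y a (0, 1) := h.clm_apply continuous_const
  exact (((h1.norm.pow 2).mul (h2.norm.pow 2)).sub ((h1.inner h2).pow 2)).sqrt

theorem le_gen {v : E 3 → ℝ} {O : Set (E 3)} {σ : Measure (E 3)} (hs : Surf v O σ) (hO : IsOpen O)
    (hv : Sol v) {Y : ℝ × ℝ → E 3} (hY : ContDiff ℝ 1 Y) {D K : Set (ℝ × ℝ)}
    (hD : MeasurableSet D) (hK : IsCompact K) (hDK : D ⊆ K) (hP : Par v O D Y (fderiv ℝ Y))
    {A : E 3 → ℝ≥0∞} (hA : Measurable A) (h1 : ∀ a ∈ D, A (Y a) ≤ 1) :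
    ∫⁻ y in Y '' D, A y ∂σ ≤
      ∫⁻ a in D, A (Y a) * ENNReal.ofReal (ar (fderiv ℝ Y a (1, 0)) (fderiv ℝ Y a (0, 1))) := by
  have hA' : Measurable fun y => min (A y) 1 := hA.min measurable_const
  have e1 : ∫⁻ y in Y '' D, A y ∂σ ≤ ∫⁻ y in Y '' D, min (A y) 1 ∂σ :=
    lintegral_mono_ae ((ae_restrict_iff (measurableSet_le hA hA')).2 (ae_of_all _ fun y hy => by
      obtain ⟨a, ha, rfl⟩ := hy
      exact le_min le_rfl (h1 a ha)))
  set g : ℝ × ℝ → ℝ≥0∞ := fun a =>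
    min (A (Y a)) 1 * ENNReal.ofReal (ar (fderiv ℝ Y a (1, 0)) (fderiv ℝ Y a (0, 1))) with hg
  have hfin : ∫⁻ a in K, g a ≠ ⊤ := by
    refine (lt_of_le_of_lt (lintegral_mono fun a => ?_)
      ((cont_ar hY).continuousOn.integrableOn_compact (μ := volume) hK).lintegral_lt_top).ne
    exact mul_le_of_le_one_left' (min_le_right _ _)
  have := isFiniteMeasure_withDensity hfin
  have e2 : (volume.restrict K).withDensity g D ≤
      ∫⁻ a in D, A (Y a) * ENNReal.ofReal (ar (fderiv ℝ Y a (1, 0)) (fderiv ℝ Y a (0, 1))) := by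
    rw [withDensity_apply _ hD, Measure.restrict_restrict hD, inter_eq_left.2 hDK]
    exact lintegral_mono fun a => mul_le_mul_left (min_le_left _ _) _
  refine e1.trans (le_trans (le_of_forall_gt fun r hr => ?_) e2)
  obtain ⟨G, hDG, hG, hr⟩ := D.exists_isOpen_lt_of_lt r hr
  have cY := hY.continuous
  have hC : IsCompact (K ∩ {a | v (Y a) = 0 ∧ ∀ ξ, ⟪gradient v (Y a), fderiv ℝ Y a ξ⟫ = 0}) := by
    refine hK.inter_right (IsClosed.inter (isClosed_eq (hv.smooth.continuous.comp cY)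
      continuous_const) ?_)
    change IsClosed {a | ∀ ξ, ⟪gradient v (Y a), fderiv ℝ Y a ξ⟫ = 0}
    rw [setOf_forall]
    refine isClosed_iInter fun ξ => isClosed_eq ?_ continuous_const
    exact ((contDiff_grad hv).continuous.comp cY).inner
      ((hY.continuous_fderiv one_ne_zero).clm_apply continuous_const)
  have hW : IsOpen (G ∩ Y ⁻¹' O) := hG.inter (hO.preimage cY)
  set U := (G ∩ Y ⁻¹' O) ∩
    (K ∩ {a | v (Y a) = 0 ∧ ∀ ξ, ⟪gradient v (Y a), fderiv ℝ Y a ξ⟫ = 0}) with hU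
  have mU : MeasurableSet U := hW.measurableSet.inter hC.measurableSet
  have mI : MeasurableSet (Y '' U) := by
    obtain ⟨F, hF, -, hF2, -⟩ := hW.exists_iUnion_isClosed
    rw [hU, ← hF2, iUnion_inter, image_iUnion]
    exact MeasurableSet.iUnion fun n => ((hC.inter_left (hF n)).image cY).measurableSet
  have hPU : Par v O U Y (fderiv ℝ Y) := ⟨mU, fun a ha =>
    ⟨(hY.differentiable one_ne_zero a).hasFDerivAt, ha.1.2, ha.2.2.1, ha.2.2.2⟩⟩
  have hDU : D ⊆ U := fun a ha =>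
    ⟨⟨hDG ha, (hP.2 a ha).2.1⟩, hDK ha, (hP.2 a ha).2.2.1, (hP.2 a ha).2.2.2⟩
  refine lt_of_le_of_lt ((lintegral_mono_set (image_mono hDU)).trans
    ((hs.le U Y _ hPU _ mI subset_rfl _ hA').trans ?_)) hr
  rw [withDensity_apply _ hG.measurableSet, Measure.restrict_restrict hG.measurableSet]
  exact lintegral_mono_set fun a ha => ⟨ha.1.1, ha.2.1⟩

theorem fub {I : Set ℝ} {F : ℝ → Set ℝ} (hI : MeasurableSet I) (hF : ∀ θ, MeasurableSet (F θ))
    (hD : MeasurableSet {a : ℝ × ℝ | a.1 ∈ I ∧ a.2 ∈ F a.1}) {g : ℝ × ℝ → ℝ≥0∞}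
    (hg : Measurable g) :
    ∫⁻ a in {a : ℝ × ℝ | a.1 ∈ I ∧ a.2 ∈ F a.1}, g a = ∫⁻ θ in I, ∫⁻ r in F θ, g (θ, r) := by
  rw [← lintegral_indicator hD, Measure.volume_eq_prod,
    lintegral_prod _ (hg.indicator hD).aemeasurable, ← lintegral_indicator hI]
  refine lintegral_congr fun θ => ?_
  by_cases h : θ ∈ I
  · rw [indicator_of_mem h, ← lintegral_indicator (hF θ)]
    refine lintegral_congr fun r => ?_
    by_cases h' : r ∈ F θ <;> simp [indicator, h, h']
  · simp [indicator, h]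

end GOneA

open GOneA in
theorem one_pf (hR : S_GRay) : S_GOne := by
  intro v O ε σ X W hc hG z e₁ e₂ hF s c hs mc hcc hinj A B mA mB hA hB
  have hY : ContDiff ℝ 1 (YY X z e₁ e₂) := by
    have h1 : ContDiff ℝ 3 fun a : ℝ × ℝ => ((z, bb e₁ e₂ a.1, a.2) : E 3 × E 3 × ℝ) := by
      unfold bb
      fun_prop
    exact (hG.sX.comp h1).of_le (by norm_num)
  have R := fun θ => hR v X W ε hc.sol hG hc.pos hc.small z e₁ e₂ hF θ (c θ) s hs (hcc θ).1
    (hcc θ).2.1 fun t ht => ((hcc θ).2.2 t ht).1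
  have m1 : MeasurableSet {a : ℝ × ℝ | a.1 ∈ Ico 0 (2 * Real.pi) ∧ a.2 ∈ Icc 0 (c a.1)} :=
    (measurable_fst measurableSet_Ico).inter ((measurableSet_le measurable_const measurable_snd).inter
      (measurableSet_le measurable_snd (mc.comp measurable_fst)))
  have m2 : MeasurableSet {a : ℝ × ℝ | a.1 ∈ Ico 0 (2 * Real.pi) ∧ a.2 ∈ Ioo 5 (c a.1)} :=
    (measurable_fst measurableSet_Ico).inter ((measurableSet_lt measurable_const measurable_snd).inter
      (measurableSet_lt measurable_snd (mc.comp measurable_fst)))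
  have par : ∀ D : Set (ℝ × ℝ), MeasurableSet D → (∀ a ∈ D, a.2 ∈ Icc 0 (c a.1)) →
      Par v O D (YY X z e₁ e₂) (fderiv ℝ (YY X z e₁ e₂)) := fun D hD h => ⟨hD, fun a ha =>
    ⟨(hY.differentiable one_ne_zero a).hasFDerivAt, ((hcc a.1).2.2 a.2 (h a ha)).2,
      ((hcc a.1).2.2 a.2 (h a ha)).1.1, (R a.1).1 a.2 (h a ha)⟩⟩
  have mar := (cont_ar hY).measurable.ennreal_ofReal
  have mY : ∀ A : E 3 → ℝ≥0∞, Measurable A → Measurable fun a => A (YY X z e₁ e₂ a) *
      ENNReal.ofReal (ar (fderiv ℝ (YY X z e₁ e₂) a (1, 0)) (fderiv ℝ (YY X z e₁ e₂) a (0, 1))) :=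
    fun A mA => (mA.comp hY.continuous.measurable).mul mar
  refine ⟨m2.image_of_continuousOn_injOn hY.continuous.continuousOn hinj, ?_⟩
  refine (le_gen hc.surf hc.good.op hc.sol hY m1
    ((isCompact_Icc (a := 0) (b := 2 * Real.pi)).prod (isCompact_Icc (a := 0) (b := s)))
    (fun a ha => ⟨Ico_subset_Icc_self ha.1, ha.2.1, ha.2.2.trans (hcc a.1).2.1⟩)
    (par _ m1 fun a ha => ha.2) mA fun a ha => (hA a.1 a.2 ha.2).trans ?_).trans ?_
  · refine ENNReal.ofReal_le_one.2 ?_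
    have h0 : 0 ≤ a.2 / s := div_nonneg ha.2.1 (by linarith)
    have h1 : a.2 / s ≤ 1 := (div_le_one (by linarith)).2 (ha.2.2.trans (hcc a.1).2.1)
    have h2 : 12 / s ^ 2 ≤ 1 := (div_le_one (by positivity)).2 (by nlinarith)
    exact mul_le_one₀ h2 (sq_nonneg _) (by nlinarith)
  rw [hc.surf.eq _ _ _ (par _ m2 fun a ha => ⟨by linarith [ha.2.1], ha.2.2.le⟩) hinj B mB,
    fub measurableSet_Ico (fun _ => measurableSet_Icc) m1 (mY A mA),
    fub measurableSet_Ico (fun _ => measurableSet_Ioo) m2 (mY B mB)]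
  refine (lintegral_mono fun θ => (setLIntegral_mono' measurableSet_Icc fun r hr =>
    mul_le_mul_left (hA θ r hr) _).trans ((R θ).2.trans (add_le_add_right
      (setLIntegral_mono' measurableSet_Ioo fun r hr => mul_le_mul_left (hB θ r hr) _) 2))).trans ?_
  rw [lintegral_add_left measurable_const, setLIntegral_const, Real.volume_Ico]
  refine add_le_add_left ?_ _
  have : ENNReal.ofReal (2 * Real.pi - 0) ≤ 7 := by
    rw [← ENNReal.ofReal_ofNat 7]
    exact ENNReal.ofReal_le_ofReal (by linarith [Real.pi_lt_d2])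
  exact (mul_le_mul_right this 2).trans (by norm_num)

end Vale.Agent.P134.DG.G
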