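import Vale.Agent.P134.GDefs

/-! Block A3: the distance function and its smoothing. -/

open scoped RealInnerProductSpace ContDiff ENNReal Topology
open MeasureTheory Set Metric Filter

namespace Vale.Agent.P134.DG.G

theorem pre_pf (hL : S_GLoc) (hM : S_GMol) : S_GPre := by
  intro v d ε ρ ℓ Z hv h0 h1 hd hℓ hG hZ hc hn
  obtain ⟨f₀, hf⟩ := exists_dst v Z (T := 2 * ℓ + 5) (by linarith) fun z hz => (hZ z hz).1
  have dl : ∀ a b, d a ≤ d b + dist a b := fun a b => by
    have k := hd.dist_le_mul a b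
    rw [NNReal.coe_one, one_mul, Real.dist_eq] at k
    linarith [le_abs_self (d a - d b)]
  have two : ∀ y, v y = 0 → ρ ≤ d y → d y ≤ ρ + 1 → f₀ y ≤ 2 := fun y hy a b => by
    obtain ⟨z, hz, e⟩ := hn y hy a b
    have k := hf.lip _ _ _ (hL v ε hv h0 h1 y (hG y hy (by linarith)) 1 (by norm_num) z
      (mem_closedBall'.2 e) y (mem_closedBall_self zero_le_one) (hZ z hz).1 hy)
    rw [hf.zero z hz, dist_comm] at k
    nlinarith [dist_nonneg (x := y) (y := z)]
  let f₁ : E 3 → ℝ := fun y => if d y ≤ ρ + 1 then 2 else max 2 (f₀ y)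
  have g2 : ∀ y, 2 ≤ f₁ y := fun y => by
    simp only [f₁]
    split_ifs
    exacts [le_rfl, le_max_left _ _]
  obtain ⟨f, sm, hf1⟩ := hM {y | v y = 0 ∧ ρ - 5 < d y} f₁ (2 * ℓ + 5)
    (fun y _ => ⟨by linarith [g2 y], by
      simp only [f₁]
      split_ifs
      exacts [by linarith, max_le (by linarith) (hf.le y)]⟩) fun y hy y' hy' e => by
    have J := hL v ε hv h0 h1 y' (hG y' hy'.1 (by linarith [hy'.2])) 3 le_rfl y'
      (mem_closedBall_self (by norm_num)) y (mem_closedBall.2 e) hy'.1 hy.1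
    rw [dist_comm] at J
    have p := dist_nonneg (x := y) (y := y')
    have b : (1 + 10 * ε * 3) * dist y y' ≤ 101 / 100 * dist y y' :=
      mul_le_mul_of_nonneg_right (by linarith) p
    have k2 := g2 y'
    by_cases a : d y ≤ ρ + 1
    · have : f₁ y = 2 := if_pos a
      linarith
    rw [show f₁ y = max 2 (f₀ y) from if_neg a]
    refine max_le (by linarith) ?_
    by_cases a' : d y' ≤ ρ + 1
    · obtain ⟨hL0, c, c1, c2, c3, c4⟩ := J
      obtain ⟨t, ht, et⟩ := intermediate_value_Icc hL0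
        (hd.continuous.comp c1.continuous).continuousOn (show ρ + 1 ∈ _ from
          ⟨by simpa only [Function.comp_apply, c3] using a',
            by simpa only [Function.comp_apply, c4] using (not_le.1 a).le⟩)
      have k := hf.lip _ _ _ (Jn.of_path c1 ht.2 fun r hr => c2 r ⟨ht.1.trans hr.1, hr.2⟩)
      have et' : d (c t) = ρ + 1 := et
      rw [c4] at k
      linarith [two (c t) (c2 t ht) (by linarith) et'.le, ht.1]
    · have k : f₀ y' ≤ f₁ y' := (le_max_right _ _).trans (if_neg a').ge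
      linarith [hf.lip _ _ _ J]
  have up : ∀ y, v y = 0 → ρ ≤ d y → f₀ y ≤ f y + 1 / 2 := fun y hy a => by
    have k := (abs_le.1 (hf1 y ⟨hy, by linarith⟩).2).1
    have k2 : f₀ y ≤ f₁ y := by
      simp only [f₁]
      split_ifs with b
      exacts [two y hy a b, le_max_right _ _]
    linarith
  refine ⟨f₀, f, hZ, hc, hf, two, sm, up, fun y hy a b => ?_, fun y hy a =>
    ⟨(hf1 y ⟨hy, a⟩).1, fun b => ?_, fun b => ?_⟩⟩
  · have k := (hf1 y ⟨hy, by linarith⟩).2
    rwa [show f₁ y = f₀ y from (if_neg a.not_ge).trans (max_eq_right b)] at k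
  · have k := (abs_le.1 (hf1 y ⟨hy, a⟩).2).2
    rw [show f₁ y = 2 from if_pos (by linarith)] at k
    linarith
  · by_cases c : d y ≤ ρ + 1
    · linarith [(abs_le.1 (hf1 y ⟨hy, a⟩).2).1, g2 y]
    · have k := up y hy (by linarith)
      obtain ⟨z, hz, L, e1, e2⟩ := hf.app y (by linarith) (1 / 2) (by norm_num)
      linarith [dl y z, e2.symm.dist_le, (hZ z hz).2.2]

end Vale.Agent.P134.DG.G
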