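import Vale.Agent.P134.GDefs

/-! The estimate along one geodesic ray. -/

open scoped RealInnerProductSpace ContDiff ENNReal Topology
open MeasureTheory Set Metric Filter

namespace Vale.Agent.P134.DG.G

namespace GRayA

theorem fd_one {x : ℝ × ℝ → E 3} (hx : ContDiff ℝ 2 x) (θ r : ℝ) :
    HasDerivAt (fun s => x (s, r)) (fderiv ℝ x (θ, r) (1, 0)) θ :=
  (hx.differentiable (by norm_num) (θ, r)).hasFDerivAt.comp_hasDerivAt θ
    ((hasDerivAt_id θ).prodMk (hasDerivAt_const θ r))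

theorem contAt_KK (hA : S_Alg) {v : E 3 → ℝ} (hv : Sol v) {y : E 3} (hy : th v y ≤ 1 / 2) :
    ContinuousAt (KK v) y := by
  have h := (hA v y hv hy).2.2.1.continuousAt
  have h1 : ∀ i, ContinuousAt (fun x => SS v x (ev i)) y := fun i =>
    h.clm_apply continuousAt_const
  unfold KK HH fro
  exact (((tendsto_finsetSum _ fun i _ => continuousAt_const.inner (𝕜 := ℝ) (h1 i)).pow 2).sub
    (tendsto_finsetSum _ fun i _ => (h1 i).norm.pow 2)).div_const 2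

theorem abs_KK (hA : S_Alg) {v : E 3 → ℝ} (hv : Sol v) {ε : ℝ} (h1 : ε ≤ 1 / 10000) {y : E 3}
    (hy : GP v ε y) : |KK v y| ≤ 1 / 100 := by
  obtain ⟨-, -, -, -, -, -, -, -, a1, a2, -⟩ := hA v y hv (hy.th_le.trans (by linarith))
  have a3 := (hy.2 y (mem_ball_self (by norm_num))).2
  have a4 : 0 ≤ fro (SS v y) := Finset.sum_nonneg fun _ _ => sq_nonneg _
  have a5 : ‖iteratedFDeriv ℝ 2 v y‖ ^ 2 ≤ (1 / 10000) ^ 2 :=
    pow_le_pow_left₀ (norm_nonneg _) (a3.trans h1) 2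
  rw [KK, abs_le]
  constructor <;> nlinarith [sq_nonneg (HH v y)]

end GRayA

open GRayA in
theorem ray_pf (hA : S_Alg) (hU : S_GTube) (hJ : S_GJac) (hO : S_GOde) : S_GRay := by
  intro v X W ε hv hG hε hε' z e₁ e₂ hF θ r₁ s hs h0 h1 hP
  have hb : ContDiff ℝ 3 (bb e₁ e₂) :=
    (Real.contDiff_cos.smul contDiff_const).add (Real.contDiff_sin.smul contDiff_const)
  have hn : ∀ θ, ‖bb e₁ e₂ θ‖ ≤ 2 := fun θ => by rw [(hF.ut θ).1]; norm_num
  obtain ⟨U, u1, u2, u3⟩ := hU v X W ε hv hG (by linarith) z (bb e₁ e₂) θ r₁ hb.continuous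
    hF.ut h0 hP
  have hi : ContDiff ℝ 3 fun a : ℝ × ℝ => (z, bb e₁ e₂ a.1, a.2) :=
    contDiff_const.prodMk ((hb.comp contDiff_fst).prodMk contDiff_snd)
  have hx : ContDiff ℝ 2 (YY X z e₁ e₂) := (hG.sX.comp hi).of_le (by norm_num)
  have hw : ContDiff ℝ 2 fun a : ℝ × ℝ => W z (bb e₁ e₂ a.1) a.2 :=
    (hG.sW.comp hi).of_le (by norm_num)
  obtain ⟨J, J₁, hj⟩ := hJ v hv _ _ hx hw (fun θ r => hG.dX z _ r (hn θ)) U u1
    (fun a ha => ⟨(u3 a ha).1, (u3 a ha).2.1, (hG.norm _ _ _).trans (hF.ut _).1,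
      -(bt v (YY X z e₁ e₂ a) * ⟪W z (bb e₁ e₂ a.1) a.2,
        MM v (YY X z e₁ e₂ a) (W z (bb e₁ e₂ a.1) a.2)⟫), by
        have e := hG.dW z _ a.2 (hn a.1)
        rw [QQ, (u3 a ha).2.2, zero_smul, zero_sub, smul_neg, smul_smul, ← neg_smul] at e
        exact e⟩) θ
  refine ⟨fun t ht => (hj t (u2 t ht)).2.2.2.2, ?_⟩
  have z0 : (0 : ℝ) ∈ Icc 0 r₁ := ⟨le_rfl, h0⟩
  have j0 : J 0 = 0 := by
    have e1 := fd_one hx θ 0
    have e2 : (fun s => YY X z e₁ e₂ (s, 0)) = fun _ => z := funext fun s => hG.X0 _ _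
    rw [e2] at e1
    have e3 := (hj 0 (u2 0 z0)).2.2.1
    rw [e1.unique (hasDerivAt_const θ z)] at e3
    simpa [ar] using e3.symm
  have j1 : |J₁ 0| ≤ 1 := by
    have e1 := fd_one hw θ 0
    have e2 : (fun s => W z (bb e₁ e₂ s) 0) = bb e₁ e₂ := funext fun s => hG.W0 _ _
    have e3 : HasDerivAt (bb e₁ e₂) (-Real.sin θ • e₁ + Real.cos θ • e₂) θ :=
      ((Real.hasDerivAt_cos θ).smul_const e₁).add ((Real.hasDerivAt_sin θ).smul_const e₂)
    rw [← e2] at e3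
    have e4 := (hj 0 (u2 0 z0)).2.2.2.1
    rwa [e1.unique e3, hF.der] at e4
  have hk : ContinuousOn (fun r => KK v (YY X z e₁ e₂ (θ, r))) (Icc 0 r₁) := fun r hr =>
    (ContinuousAt.comp (f := fun r => YY X z e₁ e₂ (θ, r))
      (contAt_KK hA hv (u3 _ (u2 r hr)).2.1)
      (hx.continuous.comp (Continuous.prodMk_right θ)).continuousAt).continuousWithinAt
  have key := hO J J₁ _ r₁ s hs h0 h1 hk
    (fun r hr => ⟨(hj r (u2 r hr)).1, (hj r (u2 r hr)).2.1, abs_KK hA hv hε' (hP r hr)⟩) j0 j1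
  refine le_of_eq_of_le (setLIntegral_congr_fun measurableSet_Icc fun r hr => ?_)
    (key.trans_eq (congrArg _ (setLIntegral_congr_fun measurableSet_Ioo fun r hr => ?_)))
  · simp only [(hj r (u2 r hr)).2.2.1]
  · simp only [(hj r (u2 r ⟨by linarith [hr.1], hr.2.le⟩)).2.2.1]

end Vale.Agent.P134.DG.G
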