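import Vale.Agent.P134.GDefs

/-! Block A3: summation of the polar inequalities over the net. -/

open scoped RealInnerProductSpace ContDiff ENNReal Topology
open MeasureTheory Set Metric Filter

namespace Vale.Agent.P134.DG.G

namespace GSumA

variable {v d : E 3 → ℝ} {ρ ℓ ε : ℝ} {Z : Set (E 3)} {f₀ f : E 3 → ℝ} {X W : E 3 → E 3 → ℝ → E 3}

theorem stay (hd : LipschitzWith 1 d) (h : Pre v d ρ ℓ Z f₀ f) {c : ℝ → E 3}
    (hc : LipschitzWith 1 c) {t : ℝ} (ht : 0 ≤ t) (h0 : ρ ≤ d (c 0))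
    (hs : ∀ s ∈ Icc 0 t, v (c s) = 0 ∧ f₀ (c s) = f₀ (c 0) - s) :
    ρ - 2 ≤ d (c t) ∧ (2 < f₀ (c t) → ρ + 1 < d (c t)) := by
  have ht' : t ∈ Icc 0 t := ⟨ht, le_rfl⟩
  rcases le_or_gt ρ (d (c t)) with h1 | h1
  · refine ⟨by linarith, fun h2 => lt_of_not_ge fun h3 => ?_⟩
    linarith [h.two _ (hs t ht').1 h1 h3]
  · obtain ⟨s, hs1, hs2⟩ := intermediate_value_Icc' ht
      (hd.continuous.comp hc.continuous).continuousOn ⟨h1.le, h0⟩
    replace hs2 : d (c s) = ρ := hs2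
    have h2 := h.two _ (hs s hs1).1 hs2.ge (by linarith)
    have h3 := (hs s hs1).2
    have h4 := (hs t ht').2
    have h5 := h.dst.nonneg (c t)
    have h6 := (hd.comp hc).dist_le_mul s t
    simp only [Function.comp, mul_one, NNReal.coe_one, one_mul, Real.dist_eq] at h6
    rw [abs_sub_comm s t, abs_of_nonneg (sub_nonneg.2 hs1.2)] at h6
    refine ⟨by linarith [(abs_le.1 h6).2], fun h7 => by linarith [hs1.2]⟩

theorem contOn (hL : S_GLoc) (hv : Sol v) (hε : 0 < ε) (hε' : ε ≤ 1 / 10000) {T : ℝ}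
    (h : Dst v Z T f₀) {A : Set (E 3)} (hA : ∀ y ∈ A, GP v ε y) : ContinuousOn f₀ A := by
  refine Metric.continuousOn_iff.2 fun y hy η hη => ⟨min 1 (η / 2), by positivity, ?_⟩
  intro a ha hd
  have h1 := hL v ε hv hε hε' y (hA y hy) 1 (by norm_num) a
    (mem_closedBall.2 (hd.le.trans (min_le_left _ _))) y (mem_closedBall_self zero_le_one)
    (hA a ha).1 (hA y hy).1
  have h2 := h.lip _ _ _ h1
  have h3 := h.lip _ _ _ h1.symm
  have h4 := hd.trans_le (min_le_right _ _)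
  have h5 : (1 + 10 * ε * 1) * dist a y ≤ 2 * dist a y :=
    mul_le_mul_of_nonneg_right (by linarith) dist_nonneg
  rw [Real.dist_eq, abs_lt]
  constructor <;> linarith

theorem contY (hG : Geo v X W) (z e₁ e₂ : E 3) : Continuous (YY X z e₁ e₂) := by
  have h1 : Continuous fun a : ℝ × ℝ => (z, bb e₁ e₂ a.1, a.2) := by
    unfold bb
    fun_prop
  exact hG.sX.continuous.comp h1

/-- The cut function of a point of the net. -/
theorem cutf (hL : S_GLoc) (hC : S_GCut) (hv : Sol v) (hε : 0 < ε) (hε' : ε ≤ 1 / 10000)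
    (hG : Geo v X W) (hd : LipschitzWith 1 d) (hO : ∀ y, v y = 0 → ρ - 10 < d y → GP v ε y)
    (h : Pre v d ρ ℓ Z f₀ f) {s : ℝ} (hs : 0 ≤ s) {z e₁ e₂ : E 3} (hz : z ∈ Z)
    (hF : Frm v z e₁ e₂) : ∃ c : ℝ → ℝ, Measurable c ∧ ∀ θ, c θ ∈ Icc 0 s ∧
      (∀ t ∈ Icc 0 (c θ), v (YY X z e₁ e₂ (θ, t)) = 0 ∧ f₀ (YY X z e₁ e₂ (θ, t)) = t ∧
        ρ - 2 ≤ d (YY X z e₁ e₂ (θ, t)) ∧ (2 < t → ρ + 1 < d (YY X z e₁ e₂ (θ, t)))) ∧
      ∀ r ∈ Icc 0 s, Mn v ε X f₀ z (bb e₁ e₂ θ) r → ρ ≤ d (YY X z e₁ e₂ (θ, r)) → r ≤ c θ := by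
  have hY := contY hG z e₁ e₂
  set Y := YY X z e₁ e₂ with hYd
  let P₁ : Set (ℝ × ℝ) := (⋂ t ∈ Icc (0 : ℝ) 1, {a | v (Y (a.1, t * a.2)) = 0}) ∩ {a | ρ ≤ d (Y a)}
  have hP₁ : IsClosed P₁ := by
    refine (isClosed_biInter fun t _ => isClosed_eq ?_ continuous_const).inter
      (isClosed_le continuous_const (hd.continuous.comp hY))
    exact hv.smooth.continuous.comp (hY.comp (by fun_prop))
  have hm : ∀ a ∈ P₁, ∀ t ∈ Icc (0 : ℝ) 1, v (Y (a.1, t * a.2)) = 0 := fun a ha t ht =>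
    mem_iInter₂.1 ha.1 t ht
  have hc : ContinuousOn (fun a => f₀ (Y a) - a.2) P₁ := by
    refine ContinuousOn.sub ((contOn hL hv hε hε' h.dst (A := {y | GP v ε y}) fun _ hy => hy).comp
      hY.continuousOn fun a ha => hO _ ?_ ?_) continuous_snd.continuousOn
    · simpa using hm a ha 1 ⟨zero_le_one, le_rfl⟩
    · have : ρ ≤ d (Y a) := ha.2
      linarith
  have hY0 : ∀ θ, Y (θ, 0) = z := fun θ => hG.X0 _ _
  obtain ⟨c, hcm, hc'⟩ := hC (P₁ ∩ (fun a => f₀ (Y a) - a.2) ⁻¹' Ici 0) s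
    (hc.preimage_isClosed_of_isClosed hP₁ isClosed_Ici) hs fun θ => ⟨⟨mem_iInter₂.2 fun t _ => by
      simp only [mem_ofPred_eq, mul_zero, hY0, (h.sub z hz).1], by
      simp only [mem_ofPred_eq, hY0, (h.sub z hz).2.1]⟩, by
      simp only [mem_preimage, mem_Ici, hY0, h.dst.zero z hz, sub_zero, le_refl]⟩
  refine ⟨c, hcm, fun θ => ⟨(hc' θ).1, ?_, fun r hr hM hρ => (hc' θ).2.2 r hr ⟨⟨mem_iInter₂.2
    fun t ht => (hM.2 _ ⟨mul_nonneg ht.1 hr.1, mul_le_of_le_one_left hr.1 ht.2⟩).1.1, hρ⟩, ?_⟩⟩⟩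
  swap
  · have := (hM.2 r ⟨hr.1, le_rfl⟩).2
    exact sub_nonneg.2 this.ge
  obtain ⟨⟨c0, -⟩, ⟨h1, h2⟩, -⟩ := hc' θ
  have hl : LipschitzWith 1 (X z (bb e₁ e₂ θ)) := hG.lip z (hF.ut θ).1.le
  have hv0 : ∀ t ∈ Icc 0 (c θ), v (X z (bb e₁ e₂ θ) t) = 0 := fun t ht => by
    rcases c0.eq_or_lt with h3 | h3
    · rw [le_antisymm (h3 ▸ ht.2) ht.1, hG.X0]
      exact (h.sub z hz).1
    · have := hm _ h1 (t / c θ) ⟨div_nonneg ht.1 c0, (div_le_one h3).2 ht.2⟩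
      rwa [div_mul_cancel₀ _ h3.ne'] at this
  have h3 : c θ ≤ f₀ (X z (bb e₁ e₂ θ) (c θ)) := sub_nonneg.1 h2
  have hf : ∀ t ∈ Icc 0 (c θ), f₀ (X z (bb e₁ e₂ θ) t) = t := fun t ht => by
    have a1 := h.dst.lip _ _ _ (Jn.of_path hl ht.1 fun r hr => hv0 r ⟨hr.1, hr.2.trans ht.2⟩)
    have a2 := h.dst.lip _ _ _ (Jn.of_path hl ht.2 fun r hr => hv0 r ⟨ht.1.trans hr.1, hr.2⟩)
    rw [hG.X0, h.dst.zero z hz] at a1
    linarith
  intro t ht
  have hl' : LipschitzWith 1 fun r => X z (bb e₁ e₂ θ) (c θ - r) :=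
    LipschitzWith.of_dist_le_mul fun a b => by
      simpa only [dist_sub_left] using hl.dist_le_mul (c θ - a) (c θ - b)
  have h4 := stay hd h hl' (sub_nonneg.2 ht.2) (by rw [sub_zero]; exact h1.2) fun r hr => by
    have hr' : c θ - r ∈ Icc 0 (c θ) := ⟨by linarith [hr.2, ht.1], by linarith [hr.1]⟩
    exact ⟨hv0 _ hr', by rw [hf _ hr', sub_zero, hf _ ⟨c0, le_rfl⟩]⟩
  rw [sub_sub_cancel, hf t ht] at h4
  exact ⟨hv0 t ht, hf t ht, h4⟩

theorem grad_ne (hε : ε ≤ 1 / 10000) {z : E 3} (hz : GP v ε z) : gradient v z ≠ 0 := fun h => by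
  have := hz.th_le
  rw [th, h, norm_zero] at this
  linarith

end GSumA

open GSumA in
theorem sum_pf (hL : S_GLoc) (hC : S_GCut) (hF : S_GFrm) (hH : S_GHR) (hU : S_GUni)
    (h1 : S_GOne) : S_GSum := by
  intro v O ε σ X W d ρ ℓ Z f₀ f hc hG hd hO h hK s hs hsl x₀ R F hFZ
  have hv := hc.sol
  have hGP : ∀ y, v y = 0 → ρ - 10 < d y → GP v ε y := fun y h0 h1 =>
    ⟨h0, fun x hx => ⟨(hc.good.small y (hO y h0 h1) h0 x hx).1,
      (hc.good.small y (hO y h0 h1) h0 x hx).2.1⟩⟩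
  have hZG : ∀ z ∈ Z, GP v ε z := fun z hz =>
    hGP z (h.sub z hz).1 (by linarith [(h.sub z hz).2.1])
  have hs0 : 0 < s := by linarith
  choose! e₁ e₂ hE using fun z (hz : z ∈ Z) => hF v z (grad_ne hc.small (hZG z hz))
  choose! c hcm hcc using fun z (hz : z ∈ Z) =>
    cutf hL hC hv hc.pos hc.small hG hd hGP h hs0.le hz (hE z hz)
  let Y : E 3 → ℝ × ℝ → E 3 := fun z => YY X z (e₁ z) (e₂ z)
  let D₁ : E 3 → Set (ℝ × ℝ) := fun z => {a | a.1 ∈ Ico 0 (2 * Real.pi) ∧ a.2 ∈ Icc 0 (c z a.1)}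
  let D₂ : E 3 → Set (ℝ × ℝ) := fun z => {a | a.1 ∈ Ico 0 (2 * Real.pi) ∧ a.2 ∈ Ioo 5 (c z a.1)}
  have hMn : ∀ z ∈ Z, ∀ θ, ∀ r ≤ c z θ, Mn v ε X f₀ z (bb (e₁ z) (e₂ z) θ) r :=
    fun z hz θ r hr => ⟨(hE z hz).ut θ, fun t ht => by
      obtain ⟨a1, a2, a3, -⟩ := (hcc z hz θ).2.1 t ⟨ht.1, ht.2.trans hr⟩
      exact ⟨hGP (YY X z (e₁ z) (e₂ z) (θ, t)) a1 (by linarith), a2⟩⟩
  have hinj : ∀ z ∈ Z, ∀ z' ∈ Z, ∀ a ∈ D₂ z, ∀ a' ∈ D₂ z', Y z a = Y z' a' → z = z' ∧ a = a' := by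
    intro z hz z' hz' a ha a' ha' e
    have a1 := ((hcc z hz a.1).2.1 a.2 ⟨by linarith [ha.2.1], ha.2.2.le⟩).2.1
    have a2 := ((hcc z' hz' a'.1).2.1 a'.2 ⟨by linarith [ha'.2.1], ha'.2.2.le⟩).2.1
    have a3 : a.2 = a'.2 := by
      rw [← a1, ← a2]
      exact congrArg f₀ e
    have a4 : X z (bb (e₁ z) (e₂ z) a.1) a.2 = X z' (bb (e₁ z') (e₂ z') a'.1) a.2 := by
      have e' : X z (bb (e₁ z) (e₂ z) a.1) a.2 = X z' (bb (e₁ z') (e₂ z') a'.1) a'.2 := e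
      rwa [← a3] at e'
    obtain ⟨rfl, a5⟩ := hU v X W ε Z _ f₀ hv hG hc.pos hc.small h.dst z _ z' _ a.2 _
      (hMn z hz a.1 _ le_rfl) (hMn z' hz' a'.1 _ (a3 ▸ ha'.2.2.le)) (by linarith [ha.2.1]) ha.2.2 a4
    exact ⟨rfl, Prod.ext ((hE z hz).inj ha.1 ha'.1 a5) a3⟩
  set S₁ := {y | ρ < d y} ∩ ball x₀ R
  set S₂ := {y | ρ < d y ∧ 4 < f y} ∩ ball x₀ (R + 2 * s)
  have hfc := h.sm.continuous
  have hS₁ : MeasurableSet S₁ :=
    (isOpen_lt continuous_const hd.continuous).measurableSet.inter measurableSet_ball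
  have hS₂ : MeasurableSet S₂ := ((isOpen_lt continuous_const hd.continuous).inter
    (isOpen_lt continuous_const hfc)).measurableSet.inter measurableSet_ball
  set A₀ : E 3 → ℝ≥0∞ := fun y => ENNReal.ofReal (12 / s ^ 2 * max (1 - (f y + 1) / s) 0 ^ 2)
  set B₀ : E 3 → ℝ≥0∞ := fun y => ENNReal.ofReal (|KK v y| * max (1 - (f y - 1) / s) 0 ^ 4)
  have hA₀ : Measurable A₀ := ENNReal.measurable_ofReal.comp (Continuous.measurable (by fun_prop))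
  have hB₀ : Measurable B₀ := ENNReal.measurable_ofReal.comp
    (hK.abs.mul (Continuous.measurable (by fun_prop)))
  have hFm : ∀ z, z ∈ F ↔ z ∈ Z ∧ z ∈ ball x₀ (R + s) := fun z => by
    rw [← Finset.mem_coe, hFZ]; rfl
  have key : ∀ z ∈ F, MeasurableSet (Y z '' D₂ z) ∧ ∫⁻ y in Y z '' D₁ z, S₁.indicator A₀ y ∂σ ≤
      14 + ∫⁻ y in Y z '' D₂ z, S₂.indicator B₀ y ∂σ := by
    intro z hz
    obtain ⟨hz, hzb⟩ := (hFm z).1 hz
    refine h1 v O ε σ X W hc hG z _ _ (hE z hz) s (c z) hs (hcm z hz) (fun θ => ⟨(hcc z hz θ).1.1,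
      (hcc z hz θ).1.2, fun t ht => ?_⟩) (fun a ha a' ha' e => (hinj z hz z hz a ha a' ha' e).2)
      _ _ (hA₀.indicator hS₁) (hB₀.indicator hS₂) (fun θ r hr => ?_) fun θ r hr => ?_
    · obtain ⟨a1, -, a3, -⟩ := (hcc z hz θ).2.1 t ht
      exact ⟨hGP _ a1 (by linarith), hO _ a1 (by linarith)⟩
    · obtain ⟨a1, a2, -⟩ := (hcc z hz θ).2.1 r hr
      refine indicator_apply_le' (fun hy => ENNReal.ofReal_le_ofReal ?_) fun _ => zero_le
      have a3 := h.up _ a1 (le_of_lt hy.1)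
      have a4 : r / s ≤ 1 := (div_le_one hs0).2 (hr.2.trans (hcc z hz θ).1.2)
      refine mul_le_mul_of_nonneg_left (pow_le_pow_left₀ (le_max_right _ _)
        (max_le (sub_le_sub_left (div_le_div_of_nonneg_right ?_ hs0.le) _) (by linarith)) 2)
        (by positivity)
      linarith
    · have hr' : r ∈ Icc 0 (c z θ) := ⟨by linarith [hr.1], hr.2.le⟩
      obtain ⟨a1, a2, -, a3⟩ := (hcc z hz θ).2.1 r hr'
      have a4 := a3 (by linarith [hr.1])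
      have a5 := abs_le.1 (h.near _ a1 a4 (by rw [a2]; linarith [hr.1]))
      rw [a2] at a5
      have a6 := hG.dist_le z (w := bb (e₁ z) (e₂ z) θ) (by rw [((hE z hz).ut θ).1]; norm_num) r 0
      rw [hG.X0, ((hE z hz).ut θ).1, one_mul, sub_zero, abs_of_nonneg hr'.1] at a6
      have a7 := hr'.2.trans (hcc z hz θ).1.2
      have a8 : YY X z (e₁ z) (e₂ z) (θ, r) ∈ S₂ := by
        refine ⟨⟨by linarith, by linarith [hr.1, a5.1]⟩, mem_ball.2 ?_⟩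
        have a9 := dist_triangle (X z (bb (e₁ z) (e₂ z) θ) r) z x₀
        have a10 := mem_ball.1 hzb
        show dist (X z (bb (e₁ z) (e₂ z) θ) r) x₀ < _
        linarith
      rw [indicator_of_mem a8]
      have a4 : r / s ≤ 1 := (div_le_one hs0).2 a7
      refine ENNReal.ofReal_le_ofReal (mul_le_mul_of_nonneg_left (pow_le_pow_left₀ (by linarith)
        (le_max_of_le_left (sub_le_sub_left (div_le_div_of_nonneg_right ?_ hs0.le) _)) 4)
        (abs_nonneg _))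
      linarith [a5.2]
  have cover : ∀ y, v y = 0 → S₁.indicator A₀ y ≠ 0 → y ∈ ⋃ z ∈ F, Y z '' D₁ z := by
    intro y hy0 hy
    have hyS : y ∈ S₁ := by
      by_contra hn
      exact hy (indicator_of_notMem hn _)
    rw [indicator_of_mem hyS] at hy
    have hρ : ρ < d y := hyS.1
    have a1 : f y + 1 < s := by
      by_contra hn
      have : 1 - (f y + 1) / s ≤ 0 := by
        rw [sub_nonpos, one_le_div hs0]
        exact not_lt.1 hn
      exact hy (by simp [A₀, max_eq_right this])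
    have a2 := h.up y hy0 hρ.le
    have a3 : f₀ y < 2 * ℓ + 5 := by linarith
    have hb := mem_ball.1 hyS.2
    have hπ : (0 : ℝ) ∈ Ico 0 (2 * Real.pi) := ⟨le_rfl, by positivity⟩
    rcases (h.dst.nonneg y).eq_or_lt with a4 | a4
    · have hz := h.dst.mem h.cl a3 a4.symm
      exact mem_iUnion₂.2 ⟨y, (hFm y).2 ⟨hz, mem_ball.2 (by linarith)⟩, (0, 0),
        ⟨hπ, le_rfl, (hcc y hz 0).1.1⟩, hG.X0 _ _⟩
    · obtain ⟨z, hz, b, hM, hX⟩ := hH v X W ε Z _ f₀ hv hG hc.pos hc.small h.dst h.cl y hy0 a4 a3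
        fun p t hp hp0 ht hp' => hGP _ (hp' t ⟨ht, le_rfl⟩).1 (by
          have := (stay hd h hp ht (by rw [hp0]; exact hρ.le) (by rw [hp0]; exact hp')).1
          linarith)
      obtain ⟨θ, hθ, rfl⟩ := (hE z hz).surj b hM.1
      have a5 := hG.dist_le z (w := bb (e₁ z) (e₂ z) θ) (by rw [hM.1.1]; norm_num) 0 (f₀ y)
      rw [hG.X0, hM.1.1, one_mul, zero_sub, abs_neg, abs_of_pos a4, hX] at a5
      have a6 := dist_triangle z y x₀
      refine mem_iUnion₂.2 ⟨z, (hFm z).2 ⟨hz, mem_ball.2 (by linarith)⟩, (θ, f₀ y),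
        ⟨hθ, a4.le, (hcc z hz θ).2.2 _ ⟨a4.le, by linarith⟩ hM ?_⟩, hX⟩
      show ρ ≤ d (X z (bb (e₁ z) (e₂ z) θ) (f₀ y))
      rw [hX]
      exact hρ.le
  rw [← lintegral_indicator hS₁, ← lintegral_indicator hS₂]
  calc ∫⁻ y, S₁.indicator A₀ y ∂σ
      = ∫⁻ y, {y | v y = 0}.indicator (S₁.indicator A₀) y ∂σ := by
        refine lintegral_congr_ae ?_
        filter_upwards [mem_ae_iff.2 hc.surf.supp] with y hy
        exact (indicator_of_mem (s := {y | v y = 0}) hy.2 _).symm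
    _ = ∫⁻ y in ⋃ z : F, Y z '' D₁ z, {y | v y = 0}.indicator (S₁.indicator A₀) y ∂σ := by
        refine (setLIntegral_eq_of_support_subset fun y hy => ?_).symm
        rw [support_indicator] at hy
        obtain ⟨z, hz, hy'⟩ := mem_iUnion₂.1 (cover y hy.1 hy.2)
        exact mem_iUnion.2 ⟨⟨z, hz⟩, hy'⟩
    _ ≤ ∑' z : F, (14 + ∫⁻ y in Y z '' D₂ z, S₂.indicator B₀ y ∂σ) :=
        (lintegral_iUnion_le _ _).trans (ENNReal.tsum_le_tsum fun z =>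
          (lintegral_mono fun y => indicator_le_self _ _ y).trans (key z z.2).2)
    _ = ∑ z ∈ F, (14 + ∫⁻ y in Y z '' D₂ z, S₂.indicator B₀ y ∂σ) :=
        Finset.tsum_subtype F fun z => 14 + ∫⁻ y in Y z '' D₂ z, S₂.indicator B₀ y ∂σ
    _ ≤ _ := by
        rw [Finset.sum_add_distrib, Finset.sum_const, nsmul_eq_mul, mul_comm,
          ← lintegral_biUnion_finset (fun z hz z' hz' hne => ?_) fun z hz => (key z hz).1]
        · exact add_le_add le_rfl (setLIntegral_le_lintegral _ _)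
        · refine disjoint_left.2 ?_
          rintro _ ⟨a, ha, rfl⟩ ⟨a', ha', e⟩
          exact hne (hinj z ((hFm z).1 hz).1 z' ((hFm z').1 hz').1 a ha a' ha' e.symm).1

end Vale.Agent.P134.DG.G
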