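import Vale.Agent.P134.GDefs

/-! Block A3: geodesics stay tangent to the level sets. -/

open scoped RealInnerProductSpace ContDiff ENNReal Topology
open MeasureTheory Set Metric Filter

namespace Vale.Agent.P134.DG.G

namespace GTanA

theorem const {g : ℝ → ℝ} {t s : ℝ} (h : ∀ s ∈ uIcc 0 t, HasDerivAt g 0 s) (hs : s ∈ uIcc 0 t) :
    g s = g 0 := by
  have := Convex.norm_image_sub_le_of_norm_hasDerivWithin_le (f' := fun _ => (0 : ℝ)) (C := 0)
    (fun s hs => (h s hs).hasDerivWithinAt) (fun _ _ => norm_zero.le) (convex_uIcc 0 t)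
    left_mem_uIcc hs
  rwa [zero_mul, norm_le_zero_iff, sub_eq_zero] at this

theorem bt_cont {v : E 3 → ℝ} (hv : Sol v) : Continuous (bt v) := by
  have h := ((contDiff_grad hv).continuous.norm.pow 2)
  refine (h.add ((expNegInvGlue.contDiff (n := 0)).continuous.comp
    (continuous_const.sub h))).inv₀ fun x => ne_of_gt ?_
  rcases lt_or_ge (‖gradient v x‖ ^ 2) (1 / 4) with k | k
  · exact add_pos_of_nonneg_of_pos (sq_nonneg _) (expNegInvGlue.pos_of_pos (sub_pos.2 k))
  · exact add_pos_of_pos_of_nonneg (lt_of_lt_of_le (by norm_num) k) (expNegInvGlue.nonneg _)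

end GTanA

theorem tan_pf : S_GTan := by
  intro v X W hv h x w t hw ht
  have cX : Continuous (X x w) := continuous_iff_continuousAt.2 fun s => (h.dX x w s hw).continuousAt
  have cW : Continuous (W x w) := continuous_iff_continuousAt.2 fun s => (h.dW x w s hw).continuousAt
  have cM : Continuous (MM v) := (contDiff_grad hv).continuous_fderiv (by simp)
  obtain ⟨k, ck, hk⟩ : ∃ k : ℝ → ℝ, Continuous k ∧ ∀ s, k s =
      bt v (X x w s) * ⟪gradient v (X x w s), MM v (X x w s) (W x w s)⟫ :=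
    ⟨_, ((GTanA.bt_cont hv).comp cX).mul (((contDiff_grad hv).continuous.comp cX).inner
      ((cM.comp cX).clm_apply cW)), fun _ => rfl⟩
  obtain ⟨q, hq⟩ : ∃ q : ℝ → ℝ, ∀ s, q s = ⟪gradient v (X x w s), W x w s⟫ := ⟨_, fun _ => rfl⟩
  have dq : ∀ s ∈ uIcc 0 t, HasDerivAt q (k s * q s) s := fun s hs => by
    have := ((hasFDerivAt_grad hv _).comp_hasDerivAt s (h.dX x w s hw)).inner ℝ (h.dW x w s hw)
    rw [funext hq]
    refine this.congr_deriv ?_
    simp only [Function.comp, QQ, inner_smul_right, inner_sub_right, real_inner_self_eq_norm_sq, hk]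
    rw [real_inner_comm (W x w s) (MM v (X x w s) (W x w s))]
    linear_combination -⟪W x w s, MM v (X x w s) (W x w s)⟫ * bt_eq (ht s hs)
  have eq : ∀ s ∈ uIcc 0 t, q s * Real.exp (-∫ u in (0 : ℝ)..s, k u) = q 0 := fun s hs => by
    have := GTanA.const (g := fun s => q s * Real.exp (-∫ u in (0 : ℝ)..s, k u)) (fun s hs =>
      ((dq s hs).mul (ck.integral_hasStrictDerivAt 0 s).hasDerivAt.fun_neg.exp).congr_deriv
        (by ring)) hs
    simpa using this
  have dv : ∀ s, HasDerivAt (fun s => v (X x w s)) (q s) s := fun s => by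
    rw [hq, ← fderiv_eq_inner]
    exact (hv.smooth.differentiable (by simp) _).hasFDerivAt.comp_hasDerivAt s (h.dX x w s hw)
  have q0 : q 0 = ⟪gradient v x, w⟫ := by rw [hq, h.X0, h.W0]
  refine ⟨fun h0 => ?_, fun t0 e => ?_⟩
  · have z : ∀ s ∈ uIcc 0 t, q s = 0 := fun s hs =>
      (mul_eq_zero.1 ((eq s hs).trans (q0.trans h0))).resolve_right (Real.exp_pos _).ne'
    refine ⟨hq t ▸ z t right_mem_uIcc, ?_⟩
    exact (GTanA.const (fun s hs => z s hs ▸ dv s) right_mem_uIcc).trans (by rw [h.X0])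
  · have cv : Continuous fun s => v (X x w s) :=
      continuous_iff_continuousAt.2 fun s => (dv s).continuousAt
    obtain ⟨s, hs, z⟩ : ∃ s ∈ uIcc 0 t, q s = 0 := by
      rcases lt_or_gt_of_ne t0 with k | k
      · obtain ⟨s, hs, z⟩ := exists_hasDerivAt_eq_zero k cv.continuousOn (by rw [e, h.X0])
          fun s _ => dv s
        exact ⟨s, mem_uIcc_of_ge hs.1.le hs.2.le, z⟩
      · obtain ⟨s, hs, z⟩ := exists_hasDerivAt_eq_zero k cv.continuousOn (by rw [e, h.X0])
          fun s _ => dv s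
        exact ⟨s, mem_uIcc_of_le hs.1.le hs.2.le, z⟩
    rw [← q0, ← eq s hs, z, zero_mul]

theorem tube_pf (hT : S_GTan) : S_GTube := by
  intro v X W ε hv h hε z b θ₀ r₁ cb hb r0 hg
  have z0 : v z = 0 := by simpa only [h.X0] using (hg 0 ⟨le_rfl, r0⟩).1
  have b2 : ∀ θ, ‖b θ‖ ≤ 2 := fun θ => by rw [(hb θ).1]; norm_num
  have cX : Continuous fun a : ℝ × ℝ => X z (b a.1) a.2 := h.sX.continuous.comp
    (continuous_const.prodMk ((cb.comp continuous_fst).prodMk continuous_snd))
  have cY : Continuous fun a : ℝ × ℝ => X z (b θ₀) a.2 := h.sX.continuous.comp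
    (continuous_const.prodMk (continuous_const.prodMk continuous_snd))
  have ev : ∀ᶠ θ in 𝓝 θ₀, ∀ t ∈ Icc 0 r₁, dist (X z (b θ) t) (X z (b θ₀) t) < 1 :=
    isCompact_Icc.eventually_forall_of_forall_eventually fun t _ =>
      (isOpen_lt (cX.dist cY) continuous_const).mem_nhds (by simp)
  obtain ⟨O, h1, h2, h3⟩ := _root_.eventually_nhds_iff.1 ev
  refine ⟨O ×ˢ Ioo (-1) (r₁ + 1), h2.prod isOpen_Ioo,
    fun t ht => ⟨h3, by linarith [ht.1], by linarith [ht.2]⟩, fun a ha => ?_⟩
  have key : ∀ s ∈ uIcc 0 a.2, th v (X z (b a.1) s) ≤ 1 / 2 := fun s hs => by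
    have m : max 0 (min s r₁) ∈ Icc 0 r₁ := ⟨le_max_left _ _, max_le r0 (min_le_right _ _)⟩
    refine ((hg _ m).2 _ ?_).1.trans hε
    have d1 := h.dist_le z (b2 a.1) s (max 0 (min s r₁))
    have d2 := h1 a.1 ha.1 _ m
    have d3 : |s - max 0 (min s r₁)| ≤ 1 := by
      have := ha.2.1
      have := ha.2.2
      rw [mem_uIcc] at hs
      simp only [abs_le, min_def, max_def]
      split_ifs <;> rcases hs with hs | hs <;> constructor <;> linarith [hs.1, hs.2]
    rw [(hb a.1).1] at d1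
    exact mem_ball.2 ((dist_triangle _ (X z (b a.1) (max 0 (min s r₁))) _).trans_lt (by linarith))
  obtain ⟨k1, k2⟩ := (hT v X W hv h z (b a.1) a.2 (b2 _) key).1 (hb _).2
  exact ⟨k2.trans z0, key _ right_mem_uIcc, k1⟩

end Vale.Agent.P134.DG.G
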