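import Vale.Agent.P134.Stm
import Vale.Agent.P134.BStm

/-! P134: assembly of the blocks. -/

open scoped RealInnerProductSpace ContDiff Topology Laplacian
open Filter

namespace Vale.Agent.P134

variable {n : ℕ}

theorem sol_vv {u : E n → ℝ} (h : Bas u) : DG.Sol (vv u) := by
  refine ⟨h.smv, fun x => ?_, fun x => ?_⟩
  · rw [h.lapv, DG.gg, ← h.th, DG.th, norm_gradient]; rfl
  · have := h.s0 x
    rw [norm_gradient]
    simp only [ss] at this
    exact abs_le_of_sq_le_sq' (by linarith) zero_le_one |>.2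

theorem cal_of_sup {u φ : E n → ℝ} {C : ℝ} (h : Bas u) (hS : Sup u φ C) :
    DG.Cal (vv u) (gradient fun x => Real.log (φ x)) C := by
  have sl : ContDiff ℝ ∞ fun x => Real.log (φ x) := hS.sm.log fun x => (hS.pos x).ne'
  have d1 : ∀ x, fderiv ℝ (fun x => Real.log (φ x)) x = (φ x)⁻¹ • fderiv ℝ φ x := fun x =>
    fderiv_comp1 (Real.hasDerivAt_log (hS.pos x).ne') (hS.sm.differentiable (by simp) x)
  have sg : ContDiff ℝ 1 (gradient fun x => Real.log (φ x)) :=
    (InnerProductSpace.toDual ℝ (E n)).symm.toContinuousLinearEquiv.contDiff.comp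
      (sl.fderiv_right (m := 1) (by norm_cast))
  have n1 : ∀ x, ‖gradient (fun x => Real.log (φ x)) x‖ = (φ x)⁻¹ * ‖fderiv ℝ φ x‖ := fun x => by
    rw [norm_gradient, d1, norm_smul, Real.norm_eq_abs, abs_of_pos (inv_pos.2 (hS.pos x))]
  refine ⟨sg, fun x => ?_, fun x => ?_⟩
  · rw [n1, inv_mul_le_iff₀ (hS.pos x), mul_comm]; exact hS.har x
  · have e1 : ∀ i, ⟪ev i, fderiv ℝ (gradient fun x => Real.log (φ x)) x (ev i)⟫ =
        dv (ev i) (dv (ev i) fun x => Real.log (φ x)) x := fun i => by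
      have h1 := (innerSL ℝ (ev i)).hasFDerivAt.comp x
        (sg.differentiable one_ne_zero x).hasFDerivAt
      have h2 : dv (ev i) (fun x => Real.log (φ x)) =
          (innerSL ℝ (ev i)) ∘ gradient fun x => Real.log (φ x) := by
        funext y
        rw [← inner_gradient, real_inner_comm]; rfl
      rw [h2, dv, h1.fderiv]; rfl
    have c2 : ContDiffAt ℝ 2 φ x := hS.sm.contDiffAt.of_le two_le_oo
    have e2 := lap_comp (f := φ) (x := x) (G := Real.log) (G1 := fun t => t⁻¹)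
      (G2 := -(φ x ^ 2)⁻¹) (Real.contDiffAt_log.2 (hS.pos x).ne') ?_ (hasDerivAt_inv (hS.pos x).ne')
      c2
    · simp only [e1]
      rw [← lap_eq (sl.contDiffAt.of_le two_le_oo), e2, n1, DG.w2, DG.gg, ← h.th]
      have h3 := mul_le_mul_of_nonneg_left (hS.sup x) (inv_pos.2 (hS.pos x)).le
      have h4 : (φ x)⁻¹ * ((3 * u x ^ 2 - 1) * φ x) = 3 * u x ^ 2 - 1 := by
        have := (hS.pos x).ne'
        field_simp
      rw [mul_pow, inv_pow]
      linarith
    · filter_upwards [eventually_ne_nhds (hS.pos x).ne'] with t ht using Real.hasDerivAt_log ht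

theorem flat_of (hA : DG.S_A) (h1 : R_lt) (h2 : R_mod) (h3 : A2_bas) {u : E 3 → ℝ} (hu : Sol u)
    (hs : Stab u) : B2.Flat u := by
  rcases h1 3 u hu with h | h | h
  · have hb := h3 3 u ⟨hu, h, h2 3 u hu⟩
    obtain ⟨φ, C, hS⟩ := hs
    obtain ⟨e, c, he, hv⟩ := hA _ _ C (sol_vv hb) (cal_of_sup hb hS)
    exact Or.inr (Or.inr ⟨e, -c, he, fun x => by rw [hb.th, hv, sub_neg_eq_add]⟩)
  · exact Or.inl h
  · exact Or.inr (Or.inl h)

theorem main_of (hA : DG.S_A) (hB : S_B) (h0 : R_reg) (h1 : R_lt) (h2 : R_mod) (h3 : A2_bas)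
    (h4 : R_pm) (u : E 4 → ℝ) (hu : ContDiff ℝ 2 u) (he : ∀ x, Δ u x = u x ^ 3 - u x)
    (hb : ∀ x, |u x| ≤ 1) (hm : ∀ x, 0 < fderiv ℝ u x (EuclideanSpace.single 3 1)) :
    ∃ (e : E 4) (c : ℝ), ‖e‖ = 1 ∧ ∀ x, u x = Real.tanh ((⟪e, x⟫ - c) / √2) := by
  have hM : Mon (n := 3) u := ⟨h0 4 u hu he hb, hm⟩
  obtain ⟨up, um, s1, s2, t1, t2, hl⟩ := h4 3 u hM
  rcases hB u up um hM s1 s2 hl (flat_of hA h1 h2 h3 s1 t1) (flat_of hA h1 h2 h3 s2 t2) with
    h | h | h
  · have := hm 0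
    rw [show u = fun _ => 1 from funext h] at this
    simp at this
  · have := hm 0
    rw [show u = fun _ => -1 from funext h] at this
    simp at this
  · exact h

end Vale.Agent.P134
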