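import Vale.Agent.P134.QDefs

/-! P134, block A4: the area bound. -/

open scoped RealInnerProductSpace ContDiff ENNReal Topology Laplacian
open MeasureTheory Set Metric Filter

namespace Vale.Agent.P134.DG

theorem QArea_fin (μ : Measure (E 3)) [IsFiniteMeasureOnCompacts μ] {S : Set (E 3)} (x : E 3)
    (r : ℝ) (h : S ⊆ closedBall x r) : μ S ≠ ⊤ :=
  ne_top_of_le_ne_top (isCompact_closedBall x r).measure_ne_top (measure_mono h)

theorem QArea_ind {S T : Set (E 3)} {y : E 3} (h : y ∈ S → y ∈ T) :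
    S.indicator (1 : E 3 → ℝ) y ≤ T.indicator 1 y := by
  by_cases hy : y ∈ S
  · rw [indicator_of_mem hy, indicator_of_mem (h hy)]
  · rw [indicator_of_notMem hy]
    exact indicator_nonneg (fun _ _ => zero_le_one) y

theorem QArea_ind0 (S : Set (E 3)) (y : E 3) : 0 ≤ S.indicator (1 : E 3 → ℝ) y :=
  indicator_nonneg (fun _ _ => zero_le_one) y

theorem QArea_indI (μ : Measure (E 3)) {S : Set (E 3)} (hS : MeasurableSet S) (h : μ S ≠ ⊤) :
    Integrable (S.indicator (1 : E 3 → ℝ)) μ :=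
  IntegrableOn.integrable_indicator (integrableOn_const h) hS

/-- The energy of the test function. -/
theorem QArea_en (μ : Measure (E 3)) {A S1 S2 S3 : Set (E 3)} {g φ : E 3 → ℝ} {c1 c2 c3 : ℝ}
    (hA : MeasurableSet A) (h1 : MeasurableSet S1) (h2 : MeasurableSet S2)
    (h3 : MeasurableSet S3) (hg : IntegrableOn g A μ) (f1 : μ S1 ≠ ⊤) (f2 : μ S2 ≠ ⊤)
    (f3 : μ S3 ≠ ⊤) (h0 : ∀ y, 0 ≤ φ y)
    (hle : ∀ᵐ y ∂μ, φ y ≤ A.indicator g y + c1 * S1.indicator 1 y + c2 * S2.indicator 1 y +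
      c3 * S3.indicator 1 y) :
    ∫ y, φ y ∂μ ≤ (∫ y in A, g y ∂μ) + c1 * μ.real S1 + c2 * μ.real S2 + c3 * μ.real S3 := by
  have i0 : Integrable (A.indicator g) μ := hg.integrable_indicator hA
  have i1 : Integrable (fun y => c1 * S1.indicator (1 : E 3 → ℝ) y) μ :=
    (QArea_indI μ h1 f1).const_mul c1
  have i2 : Integrable (fun y => c2 * S2.indicator (1 : E 3 → ℝ) y) μ :=
    (QArea_indI μ h2 f2).const_mul c2
  have i3 : Integrable (fun y => c3 * S3.indicator (1 : E 3 → ℝ) y) μ :=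
    (QArea_indI μ h3 f3).const_mul c3
  have i01 : Integrable (fun y => A.indicator g y + c1 * S1.indicator (1 : E 3 → ℝ) y) μ :=
    i0.add i1
  have i012 : Integrable (fun y => A.indicator g y + c1 * S1.indicator (1 : E 3 → ℝ) y +
      c2 * S2.indicator (1 : E 3 → ℝ) y) μ := i01.add i2
  have i : Integrable (fun y => A.indicator g y + c1 * S1.indicator (1 : E 3 → ℝ) y +
      c2 * S2.indicator (1 : E 3 → ℝ) y + c3 * S3.indicator (1 : E 3 → ℝ) y) μ := i012.add i3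
  refine (integral_mono_of_nonneg (Eventually.of_forall h0) i hle).trans (le_of_eq ?_)
  rw [integral_add i012 i3, integral_add i01 i2, integral_add i0 i1, integral_indicator hA,
    integral_const_mul, integral_const_mul, integral_const_mul, integral_indicator_one h1,
    integral_indicator_one h2, integral_indicator_one h3]

theorem QArea_int (μ : Measure (E 3)) [IsFiniteMeasureOnCompacts μ] {K η : E 3 → ℝ}
    (hK : Measurable K) (hη : Continuous η) (hc : HasCompactSupport η)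
    (h : ∀ᵐ y ∂μ, |K y| ≤ 1 ∨ η y = 0) : Integrable (fun y => |K y| * η y ^ 2) μ := by
  have hη2 : Continuous fun y => η y ^ 2 := by fun_prop
  have hc2 : HasCompactSupport fun y => η y ^ 2 :=
    hc.comp_left (g := fun t : ℝ => t ^ 2) (by simp)
  have hm : Measurable fun y => |K y| * η y ^ 2 := by fun_prop
  refine (hη2.integrable_of_hasCompactSupport hc2).mono' hm.aestronglyMeasurable ?_
  filter_upwards [h] with y hy
  rw [Real.norm_of_nonneg (by positivity)]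
  rcases hy with hy | hy
  · exact mul_le_of_le_one_left (sq_nonneg _) hy
  · rw [hy]
    simp

theorem QArea_c1 {ρ L n : ℝ} (hL : 20 ≤ L) (hρ : 4 * L ≤ ρ) (hn : 0 ≤ n) {x : ℝ} (h0 : 0 ≤ x)
    (hx : x ≤ ρ + L + 17) : x ^ 3 * n ≤ 8 * (ρ ^ 3 * n) := by
  have e3 : x ^ 3 ≤ (2 * ρ) ^ 3 := pow_le_pow_left₀ h0 (by linarith) 3
  have e4 := mul_le_mul_of_nonneg_right e3 hn
  have e5 : (2 * ρ) ^ 3 * n = 8 * (ρ ^ 3 * n) := by ring
  linarith

theorem QArea_c2 {ρ L n a c m : ℝ} (hL : 20 ≤ L) (hρ : 4 * L ≤ ρ) (hn : 0 ≤ n) (ha : 10 ≤ a)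
    (hc : 0 ≤ c) (hm : m ≤ 2 * ((ρ + L + a + 9 + 3) ^ 3 * n)) :
    c / a ^ 4 * m ≤ c * (2 * (ρ ^ 3 * n)) := by
  have hρ0 : 0 ≤ ρ := by linarith
  have hapos : 0 < a := by linarith
  have e2 : ρ + L + a + 9 + 3 ≤ ρ * a := by nlinarith
  have e3 : (ρ + L + a + 9 + 3) ^ 3 ≤ (ρ * a) ^ 3 := pow_le_pow_left₀ (by linarith) e2 3
  have e4 := mul_le_mul_of_nonneg_right e3 hn
  have e5 : (ρ * a) ^ 3 * n = a ^ 3 * (ρ ^ 3 * n) := by ring
  have e6 : a ^ 3 ≤ a ^ 4 := pow_le_pow_right₀ (by linarith) (by norm_num)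
  have e7 := mul_le_mul_of_nonneg_right e6 (show 0 ≤ ρ ^ 3 * n by positivity)
  have e8 : m ≤ a ^ 4 * (2 * (ρ ^ 3 * n)) := by linarith
  refine (mul_le_mul_of_nonneg_left e8 (by positivity)).trans (le_of_eq ?_)
  field_simp

theorem QArea_c3 {r a J N An CP C1 V I1 I2 I3 m1 m2 m3 S : ℝ} (hr : 4 ≤ r) (ha : a = 2 * r + 2)
    (hN : 0 ≤ N) (hAn : 0 ≤ An) (hCP : 0 ≤ CP) (hC1 : 0 < C1) (hJ : 0 ≤ J)
    (s1 : 12 / a ^ 2 * J ≤ CP * V + I1) (hV : V ≤ 8 * N) (s2 : I1 ≤ I2) (s3 : I2 ≤ 13 / 10 * I3)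
    (s4 : I3 ≤ 6 / a ^ 2 * J + C1 * m1 + m2 + C1 * m3) (h1 : m1 ≤ 16 * N)
    (h2 : m2 ≤ C1 * (2 * N)) (h3 : m3 ≤ 2 * An) (hS : 1 / 4 * S ≤ J) :
    S ≤ 9 * (8 * CP + 24 * C1) * r ^ 2 * (N + An) := by
  have hapos : 0 < a := by linarith
  have m1' := mul_le_mul_of_nonneg_left h1 hC1.le
  have m3' := mul_le_mul_of_nonneg_left h3 hC1.le
  have hv' := mul_le_mul_of_nonneg_left hV hCP
  have p1 : 0 ≤ CP * An := mul_nonneg hCP hAn
  have p2 : 0 ≤ C1 * An := mul_nonneg hC1.le hAn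
  have p3 : 0 ≤ C1 * N := mul_nonneg hC1.le hN
  have p5 : 0 ≤ J / a ^ 2 := by positivity
  have q1 : 12 / a ^ 2 * J = 12 * (J / a ^ 2) := by ring
  have q2 : 6 / a ^ 2 * J = 6 * (J / a ^ 2) := by ring
  have key : 4 * (J / a ^ 2) ≤ (8 * CP + 24 * C1) * (N + An) := by
    rw [q1] at s1
    rw [q2] at s4
    linarith
  have t3 : 4 * J ≤ a ^ 2 * ((8 * CP + 24 * C1) * (N + An)) := by
    have e := mul_le_mul_of_nonneg_left key (sq_nonneg a)
    have e' : a ^ 2 * (4 * (J / a ^ 2)) = 4 * J := by field_simp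
    linarith
  have t4 : a ^ 2 ≤ 9 * r ^ 2 := by nlinarith
  have t5 := mul_le_mul_of_nonneg_right t4
    (show 0 ≤ (8 * CP + 24 * C1) * (N + An) by positivity)
  have t6 : 9 * (8 * CP + 24 * C1) * r ^ 2 * (N + An) =
      9 * r ^ 2 * ((8 * CP + 24 * C1) * (N + An)) := by ring
  linarith

theorem QArea_vol {v : E 3 → ℝ} {X : E 3 → E 3} {CX C : ℝ} {s : Su} (hok : Ok v X CX C s) {a : ℝ}
    (ha : 8 * a ≤ s.T) :
    volume.real ({y | s.d y ≤ s.ρ + s.L + 5 + 10} ∩ ball s.x0 (s.R + 2 + 2 * a)) ≤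
      8 * (s.ρ ^ 3 * s.nn) := by
  have hL := hok.hL
  have hρ := hok.hρ
  have hT := hok.hT
  have e1 := hok.vol (s.ρ + s.L + 15) (by linarith) (by linarith)
  have e2 : volume.real ({y | s.d y ≤ s.ρ + s.L + 5 + 10} ∩ ball s.x0 (s.R + 2 + 2 * a)) ≤
      volume.real {x | s.d x ≤ s.ρ + s.L + 15 ∧ dist x s.x0 ≤ s.R + s.T} := by
    refine measureReal_mono ?_ (QArea_fin volume s.x0 (s.R + s.T) fun x hx => hx.2)
    rintro x ⟨hx1, hx2⟩
    have hx1' : s.d x ≤ s.ρ + s.L + 5 + 10 := hx1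
    have hx2' : dist x s.x0 < s.R + 2 + 2 * a := hx2
    exact ⟨by linarith, by linarith⟩
  have e3 := QArea_c1 hL hρ hok.hn (x := s.ρ + s.L + 15 + 2) (by linarith) (by linarith)
  linarith

theorem QArea_gi (μ : Measure (E 3)) [IsFiniteMeasureOnCompacts μ] {f : E 3 → ℝ}
    (hf : Continuous f) (a : ℝ) (S : Set (E 3)) (x : E 3) (r : ℝ) :
    IntegrableOn (fun y => max (1 - (f y + 1) / a) 0 ^ 2) (S ∩ ball x r) μ := by
  have hgc : Continuous fun y => max (1 - (f y + 1) / a) 0 ^ 2 := by fun_prop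
  exact (hgc.continuousOn.integrableOn_compact (isCompact_closedBall x r)).mono_set
    (inter_subset_right.trans ball_subset_closedBall)

theorem QArea_last (μ : Measure (E 3)) [IsFiniteMeasureOnCompacts μ] {d f : E 3 → ℝ}
    (hd : Continuous d) (hf : Continuous f) {a r : ℝ} (hr : 4 ≤ r) (ha : a = 2 * r + 2)
    (b R : ℝ) (x : E 3) :
    1 / 4 * μ.real {y | b < d y ∧ dist y x ≤ R + 1 ∧ f y ≤ r} ≤
      ∫ y in {y | b < d y} ∩ ball x (R + 2), max (1 - (f y + 1) / a) 0 ^ 2 ∂μ := by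
  have hapos : 0 < a := by linarith
  have hdist : Continuous fun y : E 3 => dist y x := continuous_id.dist continuous_const
  have hgi := QArea_gi μ hf a {y | b < d y} x (R + 2)
  have hSA : {y | b < d y ∧ dist y x ≤ R + 1 ∧ f y ≤ r} ⊆ {y | b < d y} ∩ ball x (R + 2) := by
    rintro y ⟨y1, y2, -⟩
    exact ⟨y1, mem_ball.2 (by linarith)⟩
  have hSm : MeasurableSet {y | b < d y ∧ dist y x ≤ R + 1 ∧ f y ≤ r} :=
    (isOpen_lt continuous_const hd).measurableSet.inter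
      ((isClosed_le hdist continuous_const).inter (isClosed_le hf continuous_const)).measurableSet
  have t1 := setIntegral_ge_of_const_le_real (μ := μ) (c := 1 / 4)
    (f := fun y => max (1 - (f y + 1) / a) 0 ^ 2) hSm
    (QArea_fin μ x (R + 1) fun y hy => hy.2.1) (by
      rintro y ⟨-, -, y3⟩
      have e1 : (f y + 1) / a ≤ 1 / 2 := by
        rw [div_le_iff₀ hapos]
        linarith
      have e2 : 1 / 2 ≤ max (1 - (f y + 1) / a) 0 := le_max_of_le_left (by linarith)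
      nlinarith) (hgi.mono_set hSA)
  exact t1.trans (setIntegral_mono_set hgi (Eventually.of_forall fun y => sq_nonneg _)
    hSA.eventuallyLE)

theorem q_area (hb : Q_bas) (h1 : Q_mj1) (hr : Q_rs1) (ha : Q_ar1) : Q_area := by
  intro v C CP hPW hCP
  obtain ⟨ε₀, hε₀, hrs⟩ := hr v C hPW
  obtain ⟨C1, hC1, har⟩ := ha C
  refine ⟨9 * (8 * CP + 24 * C1), ε₀, by positivity, hε₀, ?_⟩
  intro X CX s hok hε f l hP hl r hr4 hrl
  obtain ⟨hfin, hae, -, -, hK, -, -, hAn, -, -, -, hσ1, hσ2⟩ := h1 v X CX C s hok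
  obtain ⟨-, -, -, -, -, -, -, -, -, hKm, -, -, -⟩ := hb v hok.ctx.sol
  have hL := hok.hL
  have hρ := hok.hρ
  have hT := hok.hT
  have hn := hok.hn
  obtain ⟨a, ha⟩ : ∃ a : ℝ, a = 2 * r + 2 := ⟨_, rfl⟩
  have ha10 : 10 ≤ a := by linarith
  have hal : a ≤ l := by linarith
  have hapos : 0 < a := by linarith
  obtain ⟨η, hη1, hηc, hηs, hηe, hη0, hηb⟩ := har v X CX s hok f l CP hP hl a ha10 hal
  have hd : Continuous s.d := hok.lip.continuous
  have hf : Continuous f := hP.sm.continuous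
  have hdist : Continuous fun y : E 3 => dist y s.x0 := continuous_id.dist continuous_const
  have hρ0 : 0 ≤ s.ρ := by linarith
  have hgi := QArea_gi s.σ hf a {y | s.ρ + s.L + 5 < s.d y} s.x0 (s.R + 2)
  have s1 := hP.ar a ha10 hal s.x0 (s.R + 2)
  rw [integral_const_mul] at s1
  have hKi : Integrable (fun y => |KK v y| * η y ^ 2) s.σ := by
    refine QArea_int s.σ hKm hη1.continuous hηc ?_
    filter_upwards [hae] with y hy
    by_cases hyK : y ∈ K0 v s
    · exact Or.inl (hK y hyK).2.1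
    · exact Or.inr (hη0 y hy hyK).1
  have s2 : ∫ y in {y | s.ρ + s.L + 5 < s.d y ∧ 4 < f y} ∩ ball s.x0 (s.R + 2 + 2 * a),
      |KK v y| * max (1 - (f y - 1) / a) 0 ^ 4 ∂s.σ ≤ ∫ y, |KK v y| * η y ^ 2 ∂s.σ := by
    have hBm : MeasurableSet
        ({y | s.ρ + s.L + 5 < s.d y ∧ 4 < f y} ∩ ball s.x0 (s.R + 2 + 2 * a)) :=
      ((isOpen_lt continuous_const hd).inter
        (isOpen_lt continuous_const hf)).measurableSet.inter measurableSet_ball
    refine le_of_eq_of_le (setIntegral_congr_ae hBm ?_)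
      (setIntegral_le_integral hKi
        (Eventually.of_forall fun y => mul_nonneg (abs_nonneg _) (sq_nonneg _)))
    filter_upwards [hae] with y hy hyB
    rw [hηe y hy hyB.1.1 hyB.1.2 hyB.2]
  have s3 := hrs X CX s hok hε η hη1 hηc hηs
  have hc2 : 0 ≤ C1 / a ^ 4 := by positivity
  have hc6 : 0 ≤ 6 / a ^ 2 := by positivity
  have s4 := QArea_en s.σ (A := {y | s.ρ + s.L + 5 < s.d y} ∩ ball s.x0 (s.R + 2))
    (S1 := {y | s.d y ≤ s.ρ + s.L + 12 ∧ dist y s.x0 ≤ s.R + s.T - 1})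
    (S2 := {y | s.d y ≤ s.ρ + s.L + a + 9 ∧ dist y s.x0 ≤ s.R + s.T - 1})
    (S3 := {y | s.d y ≤ s.T - 1 ∧ s.R - s.T + 1 ≤ dist y s.x0 ∧ dist y s.x0 ≤ s.R + s.T - 1})
    (g := fun y => 6 / a ^ 2 * max (1 - (f y + 1) / a) 0 ^ 2)
    (φ := fun y => ‖Pr v y (gradient η y)‖ ^ 2) (c1 := C1) (c2 := C1 / a ^ 4) (c3 := C1)
    ((isOpen_lt continuous_const hd).measurableSet.inter measurableSet_ball)
    ((isClosed_le hd continuous_const).inter (isClosed_le hdist continuous_const)).measurableSet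
    ((isClosed_le hd continuous_const).inter (isClosed_le hdist continuous_const)).measurableSet
    ((isClosed_le hd continuous_const).inter ((isClosed_le continuous_const hdist).inter
      (isClosed_le hdist continuous_const))).measurableSet
    (hgi.const_mul _) (QArea_fin s.σ s.x0 _ fun x hx => hx.2)
    (QArea_fin s.σ s.x0 _ fun x hx => hx.2) (QArea_fin s.σ s.x0 _ fun x hx => hx.2.2)
    (fun y => sq_nonneg _) (by
      filter_upwards [hae] with y hy
      by_cases hyK : y ∈ K0 v s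
      · have e := hηb y hyK
        obtain ⟨-, -, k1, k2⟩ := hyK
        refine e.trans (add_le_add (add_le_add (add_le_add le_rfl ?_) ?_) ?_)
        · exact mul_le_mul_of_nonneg_left (QArea_ind fun h => ⟨h, k2⟩) hC1.le
        · exact mul_le_mul_of_nonneg_left (QArea_ind fun h => ⟨h, k2⟩) hc2
        · exact mul_le_mul_of_nonneg_left (QArea_ind fun h => ⟨k1, h, k2⟩) hC1.le
      · rw [(hη0 y hy hyK).2, map_zero, norm_zero, zero_pow two_ne_zero]
        refine add_nonneg (add_nonneg (add_nonneg ?_ ?_) ?_) ?_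
        · exact indicator_nonneg (fun _ _ => mul_nonneg hc6 (sq_nonneg _)) y
        · exact mul_nonneg hC1.le (QArea_ind0 _ y)
        · exact mul_nonneg hc2 (QArea_ind0 _ y)
        · exact mul_nonneg hC1.le (QArea_ind0 _ y))
  rw [integral_const_mul] at s4
  have m1 : s.σ.real {y | s.d y ≤ s.ρ + s.L + 12 ∧ dist y s.x0 ≤ s.R + s.T - 1} ≤
      16 * (s.ρ ^ 3 * s.nn) := by
    have e1 := hσ1 (s.ρ + s.L + 12) (by linarith) (by linarith)
    have e3 := QArea_c1 hL hρ hn (x := s.ρ + s.L + 12 + 3) (by linarith) (by linarith)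
    linarith
  have m2 := QArea_c2 hL hρ hn ha10 hC1.le (hσ1 (s.ρ + s.L + a + 9) (by linarith) (by linarith))
  exact QArea_c3 hr4 ha (by positivity) hAn hCP hC1 (integral_nonneg fun y => sq_nonneg _) s1
    (QArea_vol hok (by linarith)) s2 s3 s4 m1 m2 hσ2 (QArea_last s.σ hd hf hr4 ha _ _ _)

end Vale.Agent.P134.DG
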