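import Vale.Agent.P134.QDefs
import Vale.Agent.P134.FMeas

/-! P134, block A4: elementary facts on `v`. -/

open scoped RealInnerProductSpace ContDiff ENNReal Topology Laplacian
open MeasureTheory Set Metric Filter

namespace Vale.Agent.P134.DG

theorem QBas_nn (v : E 3 → ℝ) (x : E 3) : ‖NN v x‖ ≤ 1 := by
  rw [NN, norm_smul, norm_inv, norm_norm]
  exact inv_mul_le_one_of_le₀ le_rfl (norm_nonneg _)

theorem QBas_pr (v : E 3 → ℝ) (x a : E 3) : ‖Pr v x a‖ ≤ 2 * ‖a‖ := by
  have e : Pr v x a = a - ⟪NN v x, a⟫ • NN v x := rfl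
  have h1 := QBas_nn v x
  have h2 : |⟪NN v x, a⟫| ≤ ‖a‖ :=
    (abs_real_inner_le_norm _ _).trans (mul_le_of_le_one_left (norm_nonneg _) h1)
  have h3 : ‖⟪NN v x, a⟫ • NN v x‖ ≤ ‖a‖ := by
    rw [norm_smul, Real.norm_eq_abs]
    exact (mul_le_of_le_one_right (abs_nonneg _) h1).trans h2
  rw [e]
  linarith [norm_sub_le a (⟪NN v x, a⟫ • NN v x)]

open FMeasAux in
theorem q_bas (hq : Q_prof) : Q_bas := by
  intro v hv
  have cv : Continuous v := hv.smooth.continuous
  have lip : LipschitzWith 1 v :=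
    lipschitzWith_of_nnnorm_fderiv_le (hv.smooth.differentiable (by simp)) fun x => by
      rw [← NNReal.coe_le_coe, coe_nnnorm, ← norm_gradient]
      exact hv.mod x
  have cg := grad_cont hv
  have ct : Continuous (th v) := continuous_const.sub (cg.norm.pow 2)
  have c1 : Continuous g1 := continuous_iff_continuousAt.2 fun t => (hq.1 t).2.1.continuousAt
  have cP : Continuous (PP v) := c1.comp cv
  have cm : Continuous (mm v) := ((continuous_const.mul cP).mul ct).mul (cP.pow 2)
  have mF : Measurable (FF v) :=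
    measurable_fst.add (measurable_snd.smul ((nn_meas hv).comp measurable_fst))
  have t0 : ∀ x, 0 ≤ th v x := fun x => sub_nonneg.2 (pow_le_one₀ (norm_nonneg _) (hv.mod x))
  have t1 : ∀ x, th v x ≤ 1 := fun x => sub_le_self _ (sq_nonneg _)
  have p0 : ∀ x, 0 < PP v x := fun x => lt_of_lt_of_le (by positivity) (hq.1 (v x)).2.2.2.1
  have p1 : ∀ x, PP v x ≤ 1 := fun x => (hq.1 (v x)).2.2.2.2.2.1
  have p2 : ∀ x, √2 * PP v x ≤ 1 := fun x => (hq.1 (v x)).2.2.2.2.2.2
  refine ⟨lip, cg, ct, cP, cm, nn_meas hv, mF,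
    (measurable_const.add (measurable_snd.mul ((hh_meas hv).comp measurable_fst))).add
      ((measurable_snd.pow_const 2).mul ((kk_meas hv).comp measurable_fst)),
    (measurable_snd.sub (cv.measurable.comp mF)).abs.add
      ((cg.measurable.comp mF).sub ((nn_meas hv).comp measurable_fst)).norm,
    kk_meas hv, fun x => ⟨t0 x, t1 x, p0 x, p1 x, ?_, ?_, QBas_nn v x, QBas_pr v x, fun t => ?_⟩,
    fun η hη => ?_, fun C hC x y hy hd => ?_⟩
  · have := p0 x
    have := t0 x
    unfold mm VV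
    positivity
  · exact mul_le_one₀ (mul_le_one₀ (p2 x) (t0 x) (t1 x)) (sq_nonneg _)
      (pow_le_one₀ (p0 x).le (p1 x))
  · rw [FF, dist_eq_norm, add_sub_cancel_left, norm_smul, Real.norm_eq_abs]
    exact mul_le_of_le_one_right (abs_nonneg _) (QBas_nn v x)
  · exact (pr_meas hv _ ((InnerProductSpace.toDual ℝ (E 3)).symm.continuous.comp
      (hη.continuous_fderiv (by simp))).measurable).norm.pow_const 2
  · have a1 : |v x| ≤ 1 := by
      have := lip.dist_le_mul x y
      rw [Real.dist_eq, hy, sub_zero, NNReal.coe_one, one_mul] at this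
      exact this.trans hd
    have s1 : (1 : ℝ) ≤ √2 := Real.one_le_sqrt.2 (by norm_num)
    have s2 : √2 ≤ (2 : ℝ) := Real.sqrt_le_iff.2 ⟨by norm_num, by norm_num⟩
    have e2 : Real.exp 2 ≤ 8 := by
      have h1 := Real.exp_one_lt_d9
      have h2 : Real.exp 2 = Real.exp 1 * Real.exp 1 := by rw [← Real.exp_add]; norm_num
      have h3 := Real.exp_pos 1
      nlinarith
    have a2 : 1 / 16 ≤ PP v x := by
      refine le_trans ?_ (hq.1 (v x)).2.2.2.1
      have h1 : Real.exp (-2) ≤ Real.exp (-(√2 * |v x|)) :=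
        Real.exp_le_exp.2 (by nlinarith [abs_nonneg (v x)])
      have h2 : 1 / 8 ≤ Real.exp (-2) := by
        rw [Real.exp_neg, one_div]
        exact inv_anti₀ (Real.exp_pos 2) e2
      linarith
    have a3 : th v y ≤ Real.exp C * th v x :=
      (hC.hth x y).trans (mul_le_mul_of_nonneg_right (Real.exp_le_exp.2
        (mul_le_of_le_one_right (zero_le_one.trans hC.one) hd)) (t0 x))
    have a4 : th v x ≤ 5000 * mm v x := by
      have h1 : (1 / 16 : ℝ) ^ 3 ≤ PP v x ^ 3 := by gcongr
      have h2 : PP v x ^ 3 ≤ √2 * PP v x ^ 3 := le_mul_of_one_le_left (pow_pos (p0 x) 3).le s1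
      have e : mm v x = √2 * PP v x ^ 3 * th v x := by unfold mm VV; ring
      rw [e]
      nlinarith [t0 x]
    calc th v y ≤ Real.exp C * th v x := a3
      _ ≤ Real.exp C * (5000 * mm v x) := by gcongr
      _ = _ := by ring

end Vale.Agent.P134.DG
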