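import Vale.Agent.P134.QDefs

/-! P134, block A4: the weights along normal lines. -/

open scoped RealInnerProductSpace ContDiff ENNReal Topology Laplacian
open MeasureTheory Set Metric Filter

namespace Vale.Agent.P134.DG

theorem QDd_int {f : ℝ → ℝ} {b j M : ℝ} (hb : 0 < b) (hj : 0 ≤ j) (hM : 0 ≤ M)
    (h0 : ∀ t, 0 ≤ f t) (h1 : ∀ t, f t ≤ Real.exp (-(b * |t|)) * M) (h2 : ∀ t, |t| < j → f t = 0) :
    ∫ t, f t ≤ 2 / b * Real.exp (-(b * j)) * M := by
  have i1 : Integrable ((Ici j).indicator fun s => Real.exp (-b * s)) :=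
    (integrable_indicator_iff measurableSet_Ici).2
      ((integrableOn_Ici_iff_integrableOn_Ioi).2 (integrableOn_exp_mul_Ioi (neg_neg_of_pos hb) j))
  have i2 : Integrable ((Iic (-j)).indicator fun s => Real.exp (b * s)) :=
    (integrable_indicator_iff measurableSet_Iic).2 (integrableOn_exp_mul_Iic hb (-j))
  refine (integral_mono_of_nonneg (Eventually.of_forall h0) ((i1.add i2).mul_const M)
    (Eventually.of_forall fun t => ?_)).trans_eq ?_
  · have p1 : 0 ≤ (Ici j).indicator (fun s => Real.exp (-b * s)) t :=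
      indicator_nonneg (fun _ _ => (Real.exp_pos _).le) t
    have p2 : 0 ≤ (Iic (-j)).indicator (fun s => Real.exp (b * s)) t :=
      indicator_nonneg (fun _ _ => (Real.exp_pos _).le) t
    simp only [Pi.add_apply]
    rcases lt_or_ge |t| j with h | h
    · rw [h2 t h]; positivity
    refine (h1 t).trans (mul_le_mul_of_nonneg_right ?_ hM)
    rcases le_total 0 t with ht | ht
    · rw [abs_of_nonneg ht] at h ⊢
      rw [indicator_of_mem (show t ∈ Ici j from h), neg_mul]
      linarith
    · rw [abs_of_nonpos ht] at h ⊢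
      rw [indicator_of_mem (show t ∈ Iic (-j) from le_neg.1 h), mul_neg, neg_neg]
      linarith
  · simp only [Pi.add_apply]
    rw [integral_mul_const, integral_add i1 i2, integral_indicator measurableSet_Ici,
      integral_indicator measurableSet_Iic, integral_Ici_eq_integral_Ioi,
      integral_exp_mul_Ioi (neg_neg_of_pos hb), integral_exp_mul_Iic hb, neg_mul, mul_neg]
    field_simp
    ring

theorem QDd_grad (χ : E 3 → ℝ) (x : E 3) : ‖gradient (fun x => 1 - χ x) x‖ = ‖gradient χ x‖ := by
  simp only [gradient, fderiv_const_sub, map_neg, norm_neg]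

theorem q_dd (hb : Q_bas) : Q_dd := by
  intro v X CX C s hs χ hχ y
  have hC : 0 ≤ C := zero_le_one.trans hs.pw.one
  have hL := hs.hL
  have hd : ∀ t : ℝ, s.d y - |t| ≤ s.d (FF v (y, t)) ∧ s.d (FF v (y, t)) ≤ s.d y + |t| := fun t => by
    have h1 := ((hb v hs.ctx.sol).2.2.2.2.2.2.2.2.2.2.1 y).2.2.2.2.2.2.2.2 t
    have h2 := hs.lip.dist_le_mul (FF v (y, t)) y
    rw [NNReal.coe_one, one_mul, Real.dist_eq] at h2
    obtain ⟨h3, h4⟩ := abs_le.1 (h2.trans h1)
    constructor <;> linarith
  have d1 : ∀ j, 0 ≤ j → (∀ t : ℝ, |t| < j → χ (FF v (y, t)) = χ y) →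
      DD v (fun x => 1 - χ x) y ≤ 2 * Real.exp (-j) := fun j hj h => by
    have := QDd_int (f := fun t => Real.exp (-|t|) * |1 - χ (FF v (y, t)) - (1 - χ y)|) one_pos hj
      zero_le_one (fun t => by positivity) (fun t => by
        rw [one_mul]
        refine mul_le_mul_of_nonneg_left (abs_le.2 ⟨?_, ?_⟩) (Real.exp_pos _).le <;>
          linarith [hχ.rg (FF v (y, t)), hχ.rg y]) fun t ht => by simp [h t ht]
    simpa [DD] using this
  have d2 : ∀ j, 0 ≤ j → (∀ t : ℝ, |t| < j → gradient χ (FF v (y, t)) = 0) →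
      DGr v (fun x => 1 - χ x) y ≤ 2 * C * Real.exp (-j) := fun j hj h => by
    have := QDd_int (f := fun t => Real.exp (-|t|) * ‖gradient χ (FF v (y, t))‖) one_pos hj hC
      (fun t => by positivity) (fun t => by
        rw [one_mul]
        exact mul_le_mul_of_nonneg_left (hχ.der _).1 (Real.exp_pos _).le)
      fun t ht => by simp [h t ht]
    simp only [DGr, QDd_grad]
    refine this.trans_eq ?_
    rw [one_mul]
    ring
  refine ⟨integral_nonneg fun t => by positivity, integral_nonneg fun t => by positivity,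
    integral_nonneg fun t => by positivity, ?_, ?_, fun h => ⟨d1 _ (by linarith) fun t ht => ?_,
      d2 _ (by linarith) fun t ht => (hχ.der _).2 ?_⟩, ?_⟩
  · simpa using d1 0 le_rfl fun t ht => absurd ht (abs_nonneg t).not_gt
  · simpa using d2 0 le_rfl fun t ht => absurd ht (abs_nonneg t).not_gt
  · rcases h with h | h
    · rw [hχ.zero _ (by linarith [(hd t).1]), hχ.zero _ (by linarith)]
    · rw [hχ.one _ (by linarith [(hd t).2]), hχ.one _ (by linarith)]
  · exact h.symm.imp (fun h => by linarith [(hd t).2]) fun h => by linarith [(hd t).1]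
  · have hm : MeasurableSet {t : ℝ | s.L < |t|} :=
      (isOpen_lt continuous_const continuous_abs).measurableSet
    have := QDd_int (f := {t : ℝ | s.L < |t|}.indicator fun t =>
        Real.exp (-(2 * |t|)) * ‖gradient χ (FF v (y, t))‖) (j := max s.L (s.d y - s.ρ - 1))
      two_pos (le_max_of_le_left (by linarith)) hC
      (fun t => indicator_nonneg (fun _ _ => by positivity) t)
      (fun t => indicator_apply_le' (fun _ =>
        mul_le_mul_of_nonneg_left (hχ.der _).1 (Real.exp_pos _).le) fun _ => by positivity)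
      fun t ht => indicator_apply_eq_zero.2 fun h1 => by
        have h2 : s.L < |t| := h1
        rcases lt_max_iff.1 ht with h3 | h3
        · linarith
        · rw [(hχ.der _).2 (Or.inr (by linarith [(hd t).1])), norm_zero, mul_zero]
    rw [integral_indicator hm] at this
    simp only [DT, QDd_grad]
    refine this.trans ?_
    rw [div_self two_ne_zero, one_mul, mul_comm, ← Real.exp_add]
    refine mul_le_mul_of_nonneg_left (Real.exp_le_exp.2 ?_) hC
    have h1 := le_max_left s.L (s.d y - s.ρ - 1)
    have h2 := le_max_right s.L (s.d y - s.ρ - 1)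
    have h3 : max (s.d y - s.ρ - 2 * s.L) 0 ≤ 2 * max s.L (s.d y - s.ρ - 1) - 2 * s.L :=
      max_le (by linarith) (by linarith)
    linarith

end Vale.Agent.P134.DG
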