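import Vale.Agent.P134.QFin0

/-! P134, block A4: the choice of parameters. -/

open scoped RealInnerProductSpace ContDiff ENNReal Topology Laplacian
open MeasureTheory Set Metric Filter

namespace Vale.Agent.P134.DG

namespace QFinAux

theorem exps {L : ℝ} (hL : 20 ≤ L) :
    Real.exp (-(2 * L)) * (2 * Real.exp (L / 2)) ^ 3 * Real.exp (L / 4) ≤
      8 * Real.exp (-(L / 16)) ∧
    Real.exp (L / 3) * Real.exp (-(2 * L / 5)) ≤ Real.exp (-(L / 16)) ∧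
    Real.exp (-(L / 8)) ≤ Real.exp (-(L / 16)) ∧ Real.exp (-(L / 4)) ≤ Real.exp (-(L / 16)) ∧
    Real.exp (L / 2) ^ 3 * Real.exp (L / 4) ≤ Real.exp (2 * L) ∧
    Real.exp (-(L / 4)) * Real.exp (L / 4) = 1 ∧
    1 ≤ (1 + L) ^ 7 ∧ L ≤ (1 + L) ^ 7 ∧ L ^ 2 ≤ (1 + L) ^ 7 := by
  have h3 : Real.exp (L / 2) ^ 3 = Real.exp (3 * L / 2) := by
    rw [← Real.exp_nat_mul]; congr 1; push_cast; ring
  have h2 : (1 + L) ^ 2 ≤ (1 + L) ^ 7 := pow_le_pow_right₀ (by linarith) (by norm_num)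
  refine ⟨?_, ?_, Real.exp_le_exp.2 (by linarith), Real.exp_le_exp.2 (by linarith), ?_, ?_,
    by nlinarith, by nlinarith, by nlinarith⟩
  · rw [mul_pow, h3]
    have : Real.exp (-(2 * L)) * Real.exp (3 * L / 2) * Real.exp (L / 4) ≤
        Real.exp (-(L / 16)) := by
      rw [← Real.exp_add, ← Real.exp_add]; exact Real.exp_le_exp.2 (by linarith)
    linarith
  · rw [← Real.exp_add]; exact Real.exp_le_exp.2 (by linarith)
  · rw [h3, ← Real.exp_add]; exact Real.exp_le_exp.2 (by linarith)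
  · rw [← Real.exp_add]; simp

/-- the choice of `m`, `T` and `R` -/
theorem ch1 (hV : Q_vol) (hP : Q_pig) {Z : Set (E 3)} {x0 : E 3} (hZ : IsClosed Z) (hx0 : x0 ∈ Z)
    {a b u : ℝ} (m₀ : ℕ) (ha : 0 ≤ a) (hb : 0 < b) (hu : 1 ≤ u) :
    ∃ (m : ℕ) (T q R nn : ℝ), m₀ ≤ m ∧ a ≤ m ∧ (0 : ℝ) < m ∧ 8 * 2 ^ (2 * m + 2) ≤ T ∧ 8 * u ≤ T ∧
      0 < q ∧ b * (T + 2) ^ 3 * q ≤ 1 / 8 ∧ 0 < nn ∧ nn ≤ 2 * nZ Z x0 (R + T) ∧
      (∀ r, 0 ≤ r → r ≤ T →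
        volume.real {x | infDist x Z ≤ r ∧ dist x x0 ≤ R + T} ≤ (r + 2) ^ 3 * nn) ∧
      volume.real {x | infDist x Z ≤ T ∧ R - T ≤ dist x x0 ∧ dist x x0 ≤ R + T} ≤
        (T + 2) ^ 3 * (q * nn) := by
  obtain ⟨v1, v2, v3, v4, v5⟩ := hV Z x0 hZ hx0
  obtain ⟨m, hm⟩ := exists_nat_ge (a + m₀ + 1)
  have hm2 : (0 : ℝ) ≤ m₀ := Nat.cast_nonneg _
  have hm3 : m₀ ≤ m := by
    have : (m₀ : ℝ) ≤ m := by linarith
    exact_mod_cast this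
  obtain ⟨T, hT1, hT2⟩ : ∃ T : ℝ, 8 * 2 ^ (2 * m + 2) ≤ T ∧ 8 * u ≤ T :=
    ⟨max _ _, le_max_left _ _, le_max_right _ _⟩
  have hT3 : 8 ≤ T := by linarith
  obtain ⟨q, hq0, hq1, hq2⟩ : ∃ q : ℝ, 0 < q ∧ q ≤ 1 ∧ b * (T + 2) ^ 3 * q ≤ 1 / 8 := by
    have h1 : 0 < b * (T + 2) ^ 3 := by positivity
    refine ⟨min 1 (1 / 8 / (b * (T + 2) ^ 3)), lt_min one_pos (by positivity),
      min_le_left _ _, ?_⟩
    rw [mul_comm, ← le_div_iff₀ h1]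
    exact min_le_right _ _
  obtain ⟨R, hR0, hR1⟩ := hP.2 (nZ Z x0) (4 * T) q v1 v2 v3 (by linarith) hq0
  have n1 : nZ Z x0 (R - 4 * T) ≤ nZ Z x0 (R + T) := v1 (by linarith)
  have n2 : nZ Z x0 (R - 4 * T) ≤ nZ Z x0 (R + 4 * T) := v1 (by linarith)
  have n3 := mul_le_mul_of_nonneg_right hq1 hR0.le
  have n4 := mul_le_mul_of_nonneg_left n2 hq0.le
  refine ⟨m, T, q, R, nZ Z x0 (R + 4 * T), hm3, by linarith, by linarith, hT1, hT2, hq0, hq2,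
    hR0.trans_le n2, by linarith, fun r h1 h2 => (v4 r (R + T) h1).trans
      (mul_le_mul_of_nonneg_left (v1 (by linarith)) (by positivity)),
    (v5 T R (by linarith)).trans (mul_le_mul_of_nonneg_left (by linarith) (by positivity))⟩

/-- the choice of `ρ` -/
theorem ch2 (hP : Q_pig) {G : ℝ → ℝ} {L u T nn K B q : ℝ} {k : ℕ} (g1 : Monotone G) (hL : 0 ≤ L)
    (hu : 1 ≤ u) (hT : 8 * u ≤ T) (hn : 0 < nn) (hK : 0 < K) (hq : 0 ≤ q) (g6 : 0 < G 1)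
    (g3 : ∀ r, 0 ≤ r → r ≤ T → G r ≤ (r + 2) ^ 3 * nn) (g5 : nn ≤ K * G 1)
    (hk1 : k * (6 * L) ≤ u) (hB : 64 * u ^ 3 * K ≤ B) (hk2 : B < (1 + q) ^ k) :
    ∃ ρ, u ≤ ρ ∧ ρ ≤ 2 * u ∧ G (ρ + 3 * L) - G (ρ - 3 * L) ≤ q * G ρ := by
  have hk0 : (0 : ℝ) ≤ k * (6 * L) := by positivity
  have h3 : 0 < G u := g6.trans_le (g1 hu)
  have g8 : G (u + k * (6 * L)) ≤ B * G u := by
    have h1 := g3 (u + k * (6 * L)) (by linarith) (by linarith)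
    have h2 : (u + k * (6 * L) + 2) ^ 3 ≤ (4 * u) ^ 3 :=
      pow_le_pow_left₀ (by linarith) (by linarith) 3
    have h4 : nn ≤ K * G u := g5.trans (mul_le_mul_of_nonneg_left (g1 hu) hK.le)
    calc _ ≤ (4 * u) ^ 3 * (K * G u) := h1.trans (mul_le_mul h2 h4 hn.le (by positivity))
      _ = 64 * u ^ 3 * K * G u := by ring
      _ ≤ _ := mul_le_mul_of_nonneg_right hB h3.le
  obtain ⟨i, hi, hi2⟩ := hP.1 G u (6 * L) B q k h3 hq g8 hk2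
  have hi3 : (i : ℝ) + 1 ≤ k := by exact_mod_cast hi
  have hi4 : (0 : ℝ) ≤ i * (6 * L) := by positivity
  have hi5 := mul_le_mul_of_nonneg_right hi3 (by linarith : 0 ≤ 6 * L)
  refine ⟨u + i * (6 * L) + 3 * L, by linarith, by linarith, ?_⟩
  have e1 : u + i * (6 * L) + 3 * L + 3 * L = u + i * (6 * L) + 6 * L := by ring
  have e2 : u + i * (6 * L) + 3 * L - 3 * L = u + i * (6 * L) := by ring
  have h1 : G (u + i * (6 * L)) ≤ G (u + i * (6 * L) + 3 * L) := g1 (by linarith)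
  have h2 := mul_le_mul_of_nonneg_left h1 hq
  rw [e1, e2]
  linarith

theorem core (hV : Q_vol) (hP : Q_pig) {v : E 3 → ℝ} {C' D L ε A : ℝ}
    {m₀ k : ℕ} {O Z : Set (E 3)} {σ : Measure (E 3)} {x0 : E 3} (hZ : IsClosed Z) (hx0 : x0 ∈ Z)
    (cmm : Continuous (mm v)) (hmm : ∀ x, 0 ≤ mm v x ∧ mm v x ≤ 1) (hC' : 0 < C') (hD : 0 < D)
    (hL : 20 ≤ L) (h10 : 10 * L ≤ Real.exp (L / 2)) (hk1 : k * (6 * L) ≤ Real.exp (L / 2))
    (hk2 : A * Real.exp (2 * L) < (1 + Real.exp (-(2 * L / 5))) ^ k) (hA : 64 * D ≤ A)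
    (hE1 : 8 * C' * D * ((1 + L) ^ 7 * Real.exp (-(L / 16))) ≤ 1 / 8)
    (hE2 : C' * ((1 + L) ^ 7 * Real.exp (-(L / 16))) ≤ 1 / 8)
    (hlow : ∀ x, infDist x Z ≤ 1 → 2 / (D * Real.exp (L / 4)) ≤ mm v x)
    (hmain : ∀ ρ R T nn : ℝ, 4 * L ≤ ρ → 4 * ρ ≤ T → 0 ≤ nn → (∀ r, 0 ≤ r → r ≤ T →
      volume.real {x | infDist x Z ≤ r ∧ dist x x0 ≤ R + T} ≤ (r + 2) ^ 3 * nn) →
      ∀ m : ℕ, m₀ ≤ m → 8 * 2 ^ (2 * m + 2) ≤ T →
      GG v ⟨O, ε, σ, fun x => infDist x Z, x0, L, ρ, R, T, nn⟩ ρ ≤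
        C' * ((1 + L) ^ 7 * Er v ⟨O, ε, σ, fun x => infDist x Z, x0, L, ρ, R, T, nn⟩ +
          ρ ^ 3 * nn / m)) : False := by
  obtain ⟨x1, x2, -, -, x5, -, x7, -, -⟩ := exps hL
  obtain ⟨u, hu⟩ : ∃ u, u = Real.exp (L / 2) := ⟨_, rfl⟩
  obtain ⟨K, hK⟩ : ∃ K, K = D * Real.exp (L / 4) := ⟨_, rfl⟩
  obtain ⟨W, hW⟩ : ∃ W, W = (1 + L) ^ 7 := ⟨_, rfl⟩
  have hK0 : 0 < K := by rw [hK]; positivity
  rw [← hu] at h10 hk1 x1 x5
  rw [← hW] at hE1 hE2 x7 hmain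
  rw [← hK] at hlow
  have hu1 : 1 ≤ u := by linarith only [h10, hL]
  have hW0 : 0 < W := by linarith only [x7]
  obtain ⟨m, T, q', R, nn, hm3, hm, hm0, hT1, hT2, hq0, hq2, n3, n4, hvol, hA'⟩ := ch1 hV hP hZ hx0
    (a := C' * (2 * u) ^ 3 * K * 8) (b := C' * W * K) m₀ (by positivity) (by positivity) hu1
  obtain ⟨G, hG⟩ : ∃ G : ℝ → ℝ, ∀ r,
      G r = ∫ x in {x | infDist x Z ≤ r ∧ dist x x0 ≤ R + T}, mm v x := ⟨_, fun _ => rfl⟩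
  obtain ⟨g1, g2, g3, g4⟩ := gm cmm hmm (fun x => infDist x Z) (continuous_infDist_pt Z) x0
    (R + T) G hG
  have g5 : nn ≤ K * G 1 := by
    have h1 : 2 / K * nZ Z x0 (R + T) ≤ G 1 := g4 _ hlow
    rw [div_mul_eq_mul_div, div_le_iff₀ hK0] at h1
    linarith only [h1, n4]
  have g6 : 0 < G 1 := (mul_pos_iff_of_pos_left hK0).1 (n3.trans_le g5)
  have g7 : 64 * u ^ 3 * K ≤ A * Real.exp (2 * L) :=
    calc _ = 64 * D * (u ^ 3 * Real.exp (L / 4)) := by rw [hK]; ring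
      _ ≤ _ := mul_le_mul hA x5 (by positivity) (by linarith only [hA, hD])
  obtain ⟨ρ, hρ1, hρ2, hS⟩ := ch2 hP g1 (by linarith only [hL]) hu1 hT2 n3 hK0 (Real.exp_pos _).le
    g6 (fun r h1 h2 => (g3 r).trans (hvol r h1 h2)) g5 hk1 g7 hk2
  have H := hmain ρ R T nn (by linarith only [hρ1, h10, hL]) (by linarith only [hρ2, hT2]) n3.le
    hvol m hm3 hT1
  have g9 : G 1 ≤ G ρ := g1 (hu1.trans hρ1)
  have hρ0 : 0 ≤ ρ := by linarith only [hρ1, hu1]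
  simp only [GG, Er, Sm, An] at H
  rw [← hG, g2 _ _ (by linarith only [hL])] at H
  refine arith (c := (2 * u) ^ 3) (K := K) (q' := q') (T := (T + 2) ^ 3) (g6.trans_le g9) hC' hW0
    (Real.exp_pos _) (Real.exp_pos _) hm0 (pow_nonneg hρ0 3) hq0.le
    (pow_nonneg (by linarith only [hT2, hu1]) 3) (pow_le_pow_left₀ hρ0 hρ2 3) hK0.le
    (g5.trans (mul_le_mul_of_nonneg_left g9 hK0.le)) hS hA' ?_ ?_ (by linarith only [hq2]) hm H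
  · calc _ = C' * D * W * (Real.exp (-(2 * L)) * (2 * u) ^ 3 * Real.exp (L / 4)) := by
          rw [hK]; ring
      _ ≤ C' * D * W * (8 * Real.exp (-(L / 16))) := mul_le_mul_of_nonneg_left x1 (by positivity)
      _ ≤ _ := by linarith only [hE1]
  · calc _ = C' * W * (Real.exp (L / 3) * Real.exp (-(2 * L / 5))) := by ring
      _ ≤ C' * W * Real.exp (-(L / 16)) := mul_le_mul_of_nonneg_left x2 (by positivity)
      _ ≤ _ := by linarith only [hE2]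

end QFinAux

open QFinAux in
theorem q_fin (hPW : S_PW) (hRig : S_Rig) (hCut : S_Cut) (hSurf : S_Surf) (hb : Q_bas)
    (hM : Q_main) (hV : Q_vol) (hP : Q_pig) (hQ : Q_par) : S_A := by
  intro v X CX hs hcal
  obtain ⟨lv, -, cth, -, cmm, -, -, -, -, -, hpt, -, hnear⟩ := hb v hs
  by_cases hz : ∀ x, th v x = 0
  · exact hRig v hs hz
  exfalso
  obtain ⟨x1, hx1⟩ := not_forall.1 hz
  obtain ⟨C0, hC0⟩ := hPW v hs
  obtain ⟨Cc, -, hCc⟩ := hCut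
  have h0 : ∀ x, 0 ≤ th v x := fun x => (hpt x).1
  have hPP : ∀ x, 0 < PP v x := fun x => (hpt x).2.2.1
  obtain ⟨C, hC1, hC2, hC3⟩ : ∃ C, C0 ≤ C ∧ CX ≤ C ∧ Cc ≤ C := ⟨max C0 (max CX Cc),
    le_max_left _ _, (le_max_left _ _).trans (le_max_right _ _),
    (le_max_right _ _).trans (le_max_right _ _)⟩
  have hpw : PW v C := pw_mono hC0 hC1 h0 hPP
  have hcuts : Cuts C := fun d hd a => by
    obtain ⟨χ, k1, k2, k3, k4, k5⟩ := hCc d hd a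
    exact ⟨χ, k1, k2, k3, k4, fun x => ⟨(k5 x).1.trans hC3, (k5 x).2⟩⟩
  have hpos : ∀ x, 0 < th v x := fun x => by
    have h1 := hpw.hth x x1
    have h2 : 0 < th v x1 := lt_of_le_of_ne (h0 x1) (Ne.symm hx1)
    by_contra h3
    have h4 : th v x = 0 := le_antisymm (not_lt.1 h3) (h0 x)
    rw [h4, mul_zero] at h1
    linarith
  obtain ⟨x0, hx0⟩ := zero_ex hpw hPP
  obtain ⟨C', L₀, ε₀, m₀, hC', hε₀, hmain⟩ := hM v C hs hpw
  have hC := hpw.one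
  obtain ⟨D, hD⟩ : ∃ D, D = 10000 * Real.exp C := ⟨_, rfl⟩
  obtain ⟨B, hB⟩ : ∃ B, B = C * Real.exp (4 * C) := ⟨_, rfl⟩
  have hD0 : 0 < D := by rw [hD]; positivity
  have hB0 : 0 < B := by rw [hB]; positivity
  have hCD : 0 < C' * D := by positivity
  obtain ⟨L, ⟨hA, h10, k, hk1, hk2⟩, hL0, hL⟩ := ((hQ (8 * (C' * D) + 64 * D + C' + B + 1)
    (min (min (1 / 10000) ε₀) (th v x0)) (by positivity)
    (lt_min (lt_min (by norm_num) hε₀) (hpos x0))).and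
    ((eventually_ge_atTop L₀).and (eventually_ge_atTop 20))).exists
  obtain ⟨-, -, x3, x4, -, x6, x7, x8, x9⟩ := exps hL
  obtain ⟨W, hW⟩ : ∃ W, W = (1 + L) ^ 7 := ⟨_, rfl⟩
  obtain ⟨w, hw⟩ : ∃ w, w = Real.exp (-(L / 16)) := ⟨_, rfl⟩
  have hw0 : 0 < w := hw ▸ Real.exp_pos _
  rw [mul_assoc, le_min_iff, le_min_iff] at hA
  obtain ⟨⟨a1, a2⟩, a3⟩ := hA
  have hE0 : 0 < (1 + L) ^ 7 * Real.exp (-(L / 16)) := by positivity
  have p1 := mul_pos hCD hE0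
  have p2 := mul_pos hD0 hE0
  have p3 := mul_pos hC' hE0
  have p4 := mul_pos hB0 hE0
  have hE1 : 8 * C' * D * ((1 + L) ^ 7 * Real.exp (-(L / 16))) ≤ 1 / 8 := by linarith
  have hE2 : C' * ((1 + L) ^ 7 * Real.exp (-(L / 16))) ≤ 1 / 8 := by linarith
  have hE3 : B * ((1 + L) ^ 7 * Real.exp (-(L / 16))) ≤ 1 / 10000 := by linarith
  have hE4 : B * ((1 + L) ^ 7 * Real.exp (-(L / 16))) ≤ ε₀ := by linarith
  have hE5 : (1 + L) ^ 7 * Real.exp (-(L / 16)) ≤ 1 / 10000 := by linarith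
  have hE6 : (1 + L) ^ 7 * Real.exp (-(L / 16)) ≤ th v x0 := by linarith
  have hE7 : Real.exp (-(L / 4)) ≤ (1 + L) ^ 7 * Real.exp (-(L / 16)) :=
    x4.trans (le_mul_of_one_le_left (Real.exp_pos _).le x7)
  have hε : ∀ a, 0 ≤ a → a ≤ (1 + L) ^ 7 →
      B * Real.exp (-(L / 8)) * a ≤ B * ((1 + L) ^ 7 * Real.exp (-(L / 16))) := fun a h1 h2 => by
    rw [mul_assoc, mul_comm _ a]
    gcongr
  obtain ⟨Z, hZ⟩ : ∃ Z : Set (E 3), Z = {y | v y = 0 ∧ Real.exp (-(L / 4)) ≤ th v y} := ⟨_, rfl⟩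
  have hZc : IsClosed Z := hZ ▸ (isClosed_eq lv.continuous continuous_const).inter
    (isClosed_le continuous_const cth)
  have hZ0 : x0 ∈ Z := hZ ▸ ⟨hx0, hE7.trans hE6⟩
  have hZ1 : ∀ y, v y = 0 → y ∉ Z → th v y < Real.exp (-(L / 4)) := fun y h1 h2 =>
    lt_of_not_ge fun h3 => h2 (hZ ▸ ⟨h1, h3⟩)
  have hgood := good_of hpw cth h0 (by linarith : 0 ≤ L) Z hZ1
  rw [← hB] at hgood
  have e0 : 0 < B * Real.exp (-(L / 8)) := by positivity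
  have e1 : B * Real.exp (-(L / 8)) ≤ 1 / 10000 := by
    have := hε 1 zero_le_one x7
    linarith
  obtain ⟨σ, hσ⟩ := hSurf v _ _ hs hgood e0 e1
  refine core hV hP (m₀ := m₀) (σ := σ) hZc hZ0 cmm
    (fun x => ⟨(hpt x).2.2.2.2.1, (hpt x).2.2.2.2.2.1⟩) hC' hD0 hL h10 hk1 hk2 (by linarith)
    hE1 hE2 (fun x hx => ?_) fun ρ R T nn h1 h2 h3 h4 m h5 h6 => hmain X CX
      ⟨_, _, σ, fun x => infDist x Z, x0, L, ρ, R, T, nn⟩
      ⟨⟨hs, hgood, e0, e1, hσ⟩, hcal, hpw, hC2, hpos, hcuts, lipschitz_infDist_pt Z,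
        fun y k1 k2 => ⟨k2, ?_⟩, hL, ?_, h1, h2, h3, h4⟩ hL0
      ((hε _ (sq_nonneg L) x9).trans hE4) m h5 h6
  · obtain ⟨y, hy, hy2⟩ := hZc.exists_infDist_eq_dist ⟨x0, hZ0⟩ x
    rw [hZ] at hy
    have k1 := hy.2.trans (hnear C hpw x y hy.1 (hy2 ▸ hx))
    have k2 := mul_le_mul_of_nonneg_right k1 (Real.exp_pos (L / 4)).le
    rw [div_le_iff₀ (by positivity), hD]
    linarith
  · have k3 : y ∉ Z := fun k4 => by
      have k5 : 0 < infDist y Z := k2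
      rw [infDist_zero_of_mem k4] at k5
      exact lt_irrefl _ k5
    have := hZ1 y k1 k3
    show th v y < 1 / 2
    linarith
  · have := hε L (by linarith) x8
    show B * Real.exp (-(L / 8)) * L ≤ 1 / 100
    linarith

end Vale.Agent.P134.DG
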