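import Vale.Agent.P134.QDefs

/-! P134, block A4: averaging over balls and exchanging the order of integration. -/

open scoped RealInnerProductSpace ContDiff ENNReal Topology Laplacian
open MeasureTheory Set Metric Filter

namespace Vale.Agent.P134.DG

theorem q_fub : Q_fub := by
  intro μ _ A B h φ r M hA hB mh h0 hi hM hAB hμ hφ
  have hR : 0 ≤ M * ∫ x in B, h x := mul_nonneg hM (integral_nonneg h0)
  by_cases iφ : IntegrableOn φ A μ
  swap
  · rw [integral_undef iφ]
    exact hR
  have mH : Measurable fun x => ENNReal.ofReal (h x) := mh.ennreal_ofReal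
  have mS : MeasurableSet {p : E 3 × E 3 | dist p.2 p.1 < r} :=
    (isOpen_lt (continuous_snd.dist continuous_fst) continuous_const).measurableSet
  set f : E 3 → E 3 → ℝ≥0∞ := fun y x =>
    {p : E 3 × E 3 | dist p.2 p.1 < r}.indicator (fun p => ENNReal.ofReal (h p.2)) (y, x) with hf
  have mf : Measurable (Function.uncurry f) := (mH.comp measurable_snd).indicator mS
  have f1 : ∀ y, f y = (ball y r).indicator fun x => ENNReal.ofReal (h x) := fun y => rfl
  have f2 : ∀ x, (fun y => f y x) = (ball x r).indicator fun _ => ENNReal.ofReal (h x) := by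
    intro x
    funext y
    by_cases hy : dist x y < r
    · rw [f1, indicator_of_mem (mem_ball.2 hy), indicator_of_mem (mem_ball'.2 hy)]
    · rw [f1, indicator_of_notMem fun h => hy (mem_ball.1 h),
        indicator_of_notMem fun h => hy (mem_ball'.1 h)]
  rw [← ENNReal.ofReal_le_ofReal_iff hR, ofReal_integral_eq_lintegral_ofReal iφ
    ((ae_restrict_iff' hA).2 (Eventually.of_forall fun y hy => (hφ y hy).1)),
    ENNReal.ofReal_mul hM, ofReal_integral_eq_lintegral_ofReal hi (Eventually.of_forall h0)]
  calc ∫⁻ y in A, ENNReal.ofReal (φ y) ∂μ ≤ ∫⁻ y in A, (∫⁻ x in B, f y x) ∂μ := by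
        refine setLIntegral_mono' hA fun y hy => ?_
        rw [f1, lintegral_indicator measurableSet_ball,
          Measure.restrict_restrict measurableSet_ball, inter_eq_left.2 (hAB y hy),
          ← ofReal_integral_eq_lintegral_ofReal (hi.mono_set (hAB y hy))
            (Eventually.of_forall h0)]
        exact ENNReal.ofReal_le_ofReal (hφ y hy).2
    _ = ∫⁻ x in B, (∫⁻ y in A, f y x ∂μ) := lintegral_lintegral_swap mf.aemeasurable
    _ ≤ ∫⁻ x in B, ENNReal.ofReal M * ENNReal.ofReal (h x) := by
        refine lintegral_mono fun x => ?_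
        rw [f2, lintegral_indicator_const measurableSet_ball, mul_comm]
        exact mul_le_mul_left ((Measure.restrict_apply_le _ _).trans (hμ x)) _
    _ = _ := lintegral_const_mul _ mH

end Vale.Agent.P134.DG
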