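import Vale.Agent.P134.QDefs

/-! P134, block A4: the base function of the tube test. -/

open scoped RealInnerProductSpace ContDiff ENNReal Topology Laplacian
open MeasureTheory Set Metric Filter

namespace Vale.Agent.P134.DG

theorem QGt_grad {η κ om : E 3 → ℝ} {y : E 3} (h1 : DifferentiableAt ℝ η y)
    (h2 : DifferentiableAt ℝ κ y) (h3 : DifferentiableAt ℝ om y) :
    gradient (fun y => η y * (1 - κ y) * om y) y = ((1 - κ y) * om y) • gradient η y +
      (-(η y * om y)) • gradient κ y + (η y * (1 - κ y)) • gradient om y := by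
  have h := ((h1.hasFDerivAt.mul (h2.hasFDerivAt.const_sub 1)).mul h3.hasFDerivAt).fderiv
  unfold gradient
  rw [← map_smul, ← map_smul, ← map_smul, ← map_add, ← map_add]
  congr 1
  refine Eq.trans h ?_
  ext i
  simp only [ContinuousLinearMap.add_apply, ContinuousLinearMap.smul_apply,
    ContinuousLinearMap.neg_apply, smul_eq_mul, Pi.mul_apply]
  ring

theorem QGt_sq {a b c : E 3} {A B C : ℝ} (ha : ‖a‖ ^ 2 ≤ A) (hb : ‖b‖ ^ 2 ≤ B) (hc : ‖c‖ ^ 2 ≤ C) :
    ‖a + b + c‖ ^ 2 ≤ 3 * A + 3 * B + 3 * C := by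
  have h := pow_le_pow_left₀ (norm_nonneg _) (norm_add₃_le (a := a) (b := b) (c := c)) 2
  nlinarith [sq_nonneg (‖a‖ - ‖b‖), sq_nonneg (‖a‖ - ‖c‖), sq_nonneg (‖b‖ - ‖c‖)]

theorem QGt_sm {t : ℝ} (h : |t| ≤ 1) (a : E 3) : ‖t • a‖ ^ 2 ≤ ‖a‖ ^ 2 := by
  rw [norm_smul, Real.norm_eq_abs]
  exact pow_le_pow_left₀ (by positivity) (mul_le_of_le_one_left (norm_nonneg _) h) 2

theorem QGt_cut {t C : ℝ} (h : |t| ≤ 1) {P : E 3 →L[ℝ] E 3} (hP : ∀ a, ‖P a‖ ≤ 2 * ‖a‖) {g y : E 3}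
    (hg : ‖g‖ ≤ C) {S : Set (E 3)} (h0 : y ∉ S → g = 0) :
    ‖t • P g‖ ^ 2 ≤ 4 * C ^ 2 * S.indicator 1 y := by
  by_cases hy : y ∈ S
  · rw [indicator_of_mem hy, Pi.one_apply, mul_one]
    have := pow_le_pow_left₀ (norm_nonneg _) ((hP g).trans
      (mul_le_mul_of_nonneg_left hg zero_le_two)) 2
    linarith [QGt_sm h (P g)]
  · simp [h0 hy, indicator_of_notMem hy]

theorem QGt_abs {a b : ℝ} (ha : 0 ≤ a) (ha' : a ≤ 1) (hb : 0 ≤ b) (hb' : b ≤ 1) : |a * b| ≤ 1 := by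
  rw [abs_of_nonneg (mul_nonneg ha hb)]
  exact mul_le_one₀ ha' hb hb'

theorem q_gt (hb : Q_bas) : Q_gt := by
  rintro v X CX C s hs κ om η B hκ ho hη _ rfl
  have hT : 320 ≤ s.T := by linarith [hs.hL, hs.hρ, hs.hT]
  have c : ContDiff ℝ 1 fun y => η y * (1 - κ y) * om y :=
    (hη.sm.mul (contDiff_const.sub (hκ.sm.of_le one_le_oo))).mul (ho.sm.of_le one_le_oo)
  have hg := fun y => QGt_grad (y := y) (hη.sm.differentiable one_ne_zero y)
    (hκ.sm.differentiable (by simp) y) (ho.sm.differentiable (by simp) y)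
  have k0 : ∀ y, 0 ≤ 1 - κ y := fun y => sub_nonneg.2 (hκ.rg y).2
  have k1 : ∀ y, 1 - κ y ≤ 1 := fun y => sub_le_self _ (hκ.rg y).1
  have out : ∀ y, v y = 0 → y ∉ K0 v s →
      s.d y < 1 ∨ s.T - 1 < s.d y ∨ s.R + s.T - 1 < dist y s.x0 := fun y hv hy => by
    by_contra h
    simp only [not_or, not_lt] at h
    exact hy ⟨hv, h⟩
  refine ⟨c, HasCompactSupport.intro (isCompact_closedBall s.x0 (s.R + 1)) fun y hy => ?_,
    fun y hy => ?_, ⟨c.continuous, fun y => ⟨mul_nonneg (mul_nonneg (hη.rg y).1 (k0 y)) (ho.rg y).1,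
      mul_le_one₀ (mul_le_one₀ (hη.rg y).2 (k0 y) (k1 y)) (ho.rg y).1 (ho.rg y).2⟩,
      fun y hv h1 h2 h3 => ?_, fun y hv hy => ?_⟩, fun y hv hy => ?_, fun y _ => ?_⟩
  · rw [ho.zero y (not_le.1 hy).le, mul_zero]
  · have h : tsupport (fun y => η y * (1 - κ y) * om y) ⊆ {y | 1 ≤ s.d y} :=
      closure_minimal (fun y hy => by
        by_contra h
        exact hy (by simp [hκ.one y (not_le.1 h).le]))
        (isClosed_le continuous_const hs.lip.continuous)
    exact hs.hO y hy.2 (one_pos.trans_le (h hy.1))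
  · rw [(hη.one y hv h2).1, hκ.zero y (by linarith), ho.one y h3]
    norm_num
  · rcases out y hv hy with h | h | h
    · simp [hκ.one y h.le]
    · simp [(hη.zero y hv (by linarith)).1]
    · simp [ho.zero y (by linarith)]
  · rw [hg]
    rcases out y hv hy with h | h | h
    · simp [hκ.one y h.le, (hκ.der y).2 (Or.inl h)]
    · simp [hη.zero y hv (by linarith)]
    · simp [ho.zero y (by linarith), (ho.der y).2 (Or.inr (by linarith))]
  · have hP := ((hb v hs.ctx.sol).2.2.2.2.2.2.2.2.2.2.1 y).2.2.2.2.2.2.2.1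
    rw [hg, map_add, map_add, map_smul, map_smul, map_smul]
    have a1 : ‖((1 - κ y) * om y) • Pr v y (gradient η y)‖ ^ 2 ≤
        (closedBall s.x0 (s.R + 1)).indicator (fun y => ‖Pr v y (gradient η y)‖ ^ 2) y := by
      by_cases hy : y ∈ closedBall s.x0 (s.R + 1)
      · rw [indicator_of_mem hy]
        exact QGt_sm (QGt_abs (k0 y) (k1 y) (ho.rg y).1 (ho.rg y).2) _
      · simp [indicator_of_notMem hy, ho.zero y (not_le.1 hy).le]
    have a2 := QGt_cut (t := -(η y * om y)) (y := y) (S := {y | s.d y ≤ 2})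
      (by rw [abs_neg]; exact QGt_abs (hη.rg y).1 (hη.rg y).2 (ho.rg y).1 (ho.rg y).2) hP
      (hκ.der y).1 fun h => (hκ.der y).2 (Or.inr (by linarith [show 2 < s.d y from not_le.1 h]))
    have a3 := QGt_cut (y := y) (S := {y | s.R ≤ dist y s.x0})
      (QGt_abs (hη.rg y).1 (hη.rg y).2 (k0 y) (k1 y)) hP
      (ho.der y).1 fun h => (ho.der y).2 (Or.inl (not_le.1 h))
    linarith [QGt_sq a1 a2 a3]

end Vale.Agent.P134.DG
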