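import Vale.Agent.P134.QDefs
import Vale.Agent.P134.RCalc

/-! P134, block A4: the inner test. -/

open scoped RealInnerProductSpace ContDiff ENNReal Topology Laplacian
open MeasureTheory Set Metric Filter

namespace Vale.Agent.P134.DG

theorem QIn_gg : Continuous gg := by
  have e : gg = fun s => Real.sinh (s / √2) / Real.cosh (s / √2) :=
    funext fun s => Real.tanh_eq_sinh_div_cosh _
  rw [e]
  exact Continuous.div (by fun_prop) (by fun_prop) fun s => (Real.cosh_pos _).ne'

theorem QIn_grad {τ : E 3 → ℝ} (h : ContDiff ℝ 1 τ) : Continuous (gradient τ) :=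
  (InnerProductSpace.toDual ℝ (E 3)).symm.continuous.comp (h.continuous_fderiv one_ne_zero)

theorem QIn_Y {v : E 3 → ℝ} {X : E 3 → E 3} {CX C : ℝ} (hv : Sol v) (hX : Cal v X CX)
    (hC : CX ≤ C) {x : E 3} (h0 : 0 < PP v x) (h1 : PP v x ≤ 1) : ‖Yin v X x‖ ≤ C + 2 := by
  have a1 : ‖(√2 * gg (v x)) • gradient v x‖ ≤ 2 := by
    rw [norm_smul, Real.norm_eq_abs, abs_mul, abs_of_nonneg (Real.sqrt_nonneg 2)]
    have b1 : √2 ≤ 2 := Real.sqrt_le_iff.2 ⟨by norm_num, by norm_num⟩
    have b2 : |gg (v x)| ≤ 1 := (Real.abs_tanh_lt_one _).le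
    calc √2 * |gg (v x)| * ‖gradient v x‖ ≤ 2 * 1 * 1 := by
          gcongr
          exact hv.mod x
      _ = 2 := by norm_num
  have a2 := (norm_add_le _ _).trans (add_le_add ((hX.bdd x).trans hC) a1)
  rw [Yin, norm_smul, Real.norm_eq_abs, abs_of_nonneg (sq_nonneg _)]
  exact (mul_le_of_le_one_left (norm_nonneg _) (pow_le_one₀ h0.le h1)).trans a2

theorem q_in (hP : S_PId) (hb : Q_bas) : Q_in := by
  intro C
  refine ⟨max C 1 * (max C 1 + 2) + 1, by positivity, fun v X CX s h χ om hχ ho => ?_⟩
  obtain ⟨hl, cg, -, cP, cm, -, -, -, -, -, hx, -⟩ := hb v h.ctx.sol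
  have hC : max C 1 = C := max_eq_left h.pw.one
  have C1 := h.pw.one
  rw [hC]
  have l1 := h.hL
  have l2 := h.hρ
  have l3 := h.hT
  have cd := h.lip.continuous
  have cx : Continuous fun x : E 3 => dist x s.x0 := by fun_prop
  obtain ⟨A, hA⟩ : ∃ A : Set (E 3), A =
    {x | s.d x ≤ s.T ∧ s.R - s.T ≤ dist x s.x0 ∧ dist x s.x0 ≤ s.R + s.T} := ⟨_, rfl⟩
  have Acl : IsClosed A := hA ▸ (isClosed_le cd continuous_const).inter
    ((isClosed_le continuous_const cx).inter (isClosed_le cx continuous_const))
  have Ac : IsCompact A := (isCompact_closedBall s.x0 (s.R + s.T)).of_isClosed_subset Acl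
    fun x hx => by rw [hA] at hx; exact hx.2.2
  have iA : Integrable (A.indicator fun _ => (1 : ℝ)) :=
    (integrable_indicator_iff Acl.measurableSet).2 (integrableOn_const Ac.measure_lt_top.ne)
  have eA : ∫ x, A.indicator (fun _ => (1 : ℝ)) x = An s := by
    rw [integral_indicator Acl.measurableSet, setIntegral_const, smul_eq_mul, mul_one, An, hA]
  have d1 := hχ.sm.of_le one_le_oo
  have d2 := ho.sm.of_le one_le_oo
  have so : HasCompactSupport om := HasCompactSupport.intro (isCompact_closedBall s.x0 (s.R + 1))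
    fun x hx => ho.zero x (not_le.1 hx).le
  have cY : Continuous (Yin v X) := (cP.pow 2).smul (h.cal.sm.continuous.add
    ((continuous_const.mul (QIn_gg.comp hl.continuous)).smul cg))
  have k := hP v X CX h.ctx.sol h.cal (fun x => om x * χ x) (d2.mul d1) so.mul_right
    fun x => mul_nonneg (ho.rg x).1 (hχ.rg x).1
  have i1 : Integrable fun x => om x * χ x * mm v x :=
    ((d2.continuous.mul d1.continuous).mul cm).integrable_of_hasCompactSupport
      so.mul_right.mul_right
  have i2 : Integrable fun x => om x * Fi v X χ x :=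
    (d2.continuous.mul ((QIn_grad d1).inner cY)).integrable_of_hasCompactSupport so.mul_right
  have i3 : Integrable fun x => χ x * ⟪gradient om x, Yin v X x⟫ :=
    (d1.continuous.mul ((QIn_grad d2).inner cY)).integrable_of_hasCompactSupport
      (HasCompactSupport.intro (isCompact_closedBall s.x0 (s.R + 1)) fun x hx => by
        show χ x * ⟪gradient om x, Yin v X x⟫ = 0
        rw [(ho.der x).2 (Or.inr (not_le.1 hx)), inner_zero_left, mul_zero])
  have e1 : ∀ x, ⟪gradient (fun x => om x * χ x) x, Yin v X x⟫ =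
      om x * Fi v X χ x + χ x * ⟪gradient om x, Yin v X x⟫ := fun x => by
    rw [Fi, inner_gradient, inner_gradient, inner_gradient,
      dv_mul (d2.differentiable one_ne_zero x) (d1.differentiable one_ne_zero x)]
  simp only [e1] at k
  rw [integral_add i2 i3] at k
  have b1 : ∫ x, χ x * ⟪gradient om x, Yin v X x⟫ ≤ C * (C + 2) * An s := by
    rw [← eA, ← integral_const_mul]
    refine integral_mono i3 (iA.const_mul _) fun x => ?_
    by_cases hxA : x ∈ A
    · simp only [indicator_of_mem hxA, mul_one]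
      have a1 := abs_real_inner_le_norm (gradient om x) (Yin v X x)
      have a2 := mul_le_mul (ho.der x).1 (QIn_Y h.ctx.sol h.cal h.cx (hx x).2.2.1 (hx x).2.2.2.1)
        (norm_nonneg _) (by linarith)
      refine (le_abs_self _).trans ?_
      rw [abs_mul, abs_of_nonneg (hχ.rg x).1]
      exact (mul_le_of_le_one_left (abs_nonneg _) (hχ.rg x).2).trans (a1.trans a2)
    · simp only [indicator_of_notMem hxA, mul_zero]
      rw [hA, mem_ofPred_eq, not_and_or, not_and_or, not_le, not_le, not_le] at hxA
      rcases hxA with a | a | a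
      · rw [hχ.zero x (by linarith), zero_mul]
      · rw [(ho.der x).2 (Or.inl (by linarith)), inner_zero_left, mul_zero]
      · rw [(ho.der x).2 (Or.inr (by linarith)), inner_zero_left, mul_zero]
  have Sm : MeasurableSet {x | s.d x ≤ s.ρ ∧ dist x s.x0 ≤ s.R + s.T} :=
    ((isClosed_le cd continuous_const).inter
      (isClosed_le cx continuous_const)).measurableSet
  have b2 : GG v s s.ρ ≤ (∫ x, om x * χ x * mm v x) + An s := by
    rw [← eA, ← integral_add i1 iA, GG, ← integral_indicator Sm]
    refine integral_mono_of_nonneg (Eventually.of_forall fun x =>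
      indicator_nonneg (fun y _ => (hx y).2.2.2.2.1) x) (i1.add iA) (Eventually.of_forall fun x => ?_)
    have m0 := (hx x).2.2.2.2.1
    have m1 := (hx x).2.2.2.2.2.1
    have p0 : 0 ≤ om x * χ x * mm v x := mul_nonneg (mul_nonneg (ho.rg x).1 (hχ.rg x).1) m0
    have p1 : 0 ≤ A.indicator (fun _ => (1 : ℝ)) x := indicator_nonneg (fun _ _ => zero_le_one) x
    show _ ≤ om x * χ x * mm v x + A.indicator (fun _ => (1 : ℝ)) x
    by_cases hS : x ∈ {x | s.d x ≤ s.ρ ∧ dist x s.x0 ≤ s.R + s.T}
    · rw [indicator_of_mem hS]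
      rcases le_or_gt (dist x s.x0) s.R with a | a
      · rw [ho.one x a, hχ.one x hS.1]
        linarith
      · rw [indicator_of_mem (show x ∈ A from hA ▸ ⟨by linarith [hS.1], by linarith, hS.2⟩)]
        linarith
    · rw [indicator_of_notMem hS]
      linarith
  linarith

end Vale.Agent.P134.DG
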