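import Vale.Agent.P134.QDefs

/-! P134, block A4: injectivity of the normal exponential map where the defect is small. -/

open scoped RealInnerProductSpace ContDiff ENNReal Topology Laplacian
open MeasureTheory Set Metric Filter

namespace Vale.Agent.P134.DG

theorem QInj_near {y y' N N' g : E 3} {t t' a L : ℝ} (hL : 0 ≤ L) (e : y + t • N = y' + t' • N')
    (hN : ‖N'‖ ≤ 1) (ht : |t| ≤ L) (h : |t - a| + ‖g - N‖ ≤ 1 / (L + 1))
    (h' : |t' - a| + ‖g - N'‖ ≤ 1 / (L + 1)) : dist y' y < 3 := by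
  have e1 : y - y' = (t' - t) • N' + t • (N' - N) := by
    rw [eq_sub_of_add_eq e]
    module
  have h1 : |t' - t| ≤ 2 * (1 / (L + 1)) := by
    have := abs_sub_le t' a t
    rw [abs_sub_comm a] at this
    linarith [norm_nonneg (g - N), norm_nonneg (g - N')]
  have h2 : ‖N' - N‖ ≤ 2 * (1 / (L + 1)) := by
    have := norm_sub_le_norm_sub_add_norm_sub N' g N
    rw [norm_sub_rev N' g] at this
    linarith [abs_nonneg (t - a), abs_nonneg (t' - a)]
  have h3 := norm_add_le ((t' - t) • N') (t • (N' - N))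
  rw [norm_smul, norm_smul, Real.norm_eq_abs, Real.norm_eq_abs, ← e1] at h3
  have h4 := mul_le_mul h1 hN (norm_nonneg _) (by positivity)
  have h5 := mul_le_mul ht h2 (norm_nonneg _) hL
  have h6 : (L + 1) * (1 / (L + 1)) = 1 := mul_one_div_cancel (by positivity)
  rw [dist_comm, dist_eq_norm]
  linarith

theorem q_inj (hI : S_Inj) (hb : Q_bas) (h1 : Q_mj1) : Q_inj := by
  intro v X CX C s h
  obtain ⟨b1, -, -, -, -, -, b2, -, b3, -, b4, -⟩ := hb v h.ctx.sol
  obtain ⟨-, -, -, m1, m2, -⟩ := h1 v X CX C s h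
  have hK : ∀ z ∈ D1 v s, z.1 ∈ K0 v s := fun z hz => by
    obtain ⟨z1, z2, ⟨z3, z4, z5⟩, -⟩ := hz
    have k1 : dist (FF v z) z.1 ≤ s.L := ((b4 z.1).2.2.2.2.2.2.2.2 z.2).trans z2
    have k2 := h.lip.dist_le_mul (FF v z) z.1
    rw [NNReal.coe_one, one_mul, Real.dist_eq, abs_le] at k2
    have k3 := dist_triangle_left z.1 s.x0 (FF v z)
    have := h.hL
    have := h.hρ
    have := h.hT
    exact ⟨z1, by linarith [k2.2], by linarith [k2.1], by linarith⟩
  refine ⟨?_, hK, fun z hz => (m2 _ (hK z hz)).2.2 _ hz.2.1, fun z hz z' hz' e => ?_⟩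
  · have c1 := b1.continuous.measurable
    have c2 := h.lip.continuous.measurable
    unfold D1 Sh
    simp only [mem_ofPred_eq]
    measurability
  · have hL : 0 ≤ s.L := by linarith [h.hL]
    refine hI v s.O s.ε s.L h.ctx.sol h.ctx.good h.ctx.pos h.ctx.small h.hε z.1 (m1 (hK z hz)) hz.1
      ⟨mem_ball_self (by norm_num), hz.1, hz.2.1⟩ ⟨?_, hz'.1, hz'.2.1⟩ e
    have k := hz'.2.2.2
    rw [ee, ww, ← e] at k
    exact QInj_near hL e (b4 z'.1).2.2.2.2.2.2.1 hz.2.1 hz.2.2.2 k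

end Vale.Agent.P134.DG
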