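import Vale.Agent.P134.QDefs

/-! P134, block A4: the logarithmic cut-off. -/

open scoped RealInnerProductSpace ContDiff ENNReal Topology Laplacian
open MeasureTheory Set Metric Filter

namespace Vale.Agent.P134.DG

theorem QLog_grad {κ f : E 3 → ℝ} {Θ : ℝ → ℝ} (hκ : Differentiable ℝ κ) (hf : Differentiable ℝ f)
    (hΘ : Differentiable ℝ Θ) (y : E 3) :
    gradient (fun y => 1 - (1 - κ y) * (1 - Θ (f y))) y =
      (1 - Θ (f y)) • gradient κ y + ((1 - κ y) * deriv Θ (f y)) • gradient f y := by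
  have h : HasFDerivAt (fun y => 1 - (1 - κ y) * (1 - Θ (f y))) _ y :=
    (((hκ y).hasFDerivAt.const_sub 1).mul
      (((hΘ (f y)).hasDerivAt.comp_hasFDerivAt y (hf y).hasFDerivAt).const_sub 1)).const_sub 1
  unfold gradient
  rw [h.fderiv]
  simp only [map_neg, map_add, map_smulₛₗ, conj_trivial, Function.comp]
  module

theorem QLog_int {σ : Measure (E 3)} {S : Set (E 3)} (hS : MeasurableSet S) {g : E 3 → ℝ}
    (h0 : ∀ y, 0 ≤ g y) (I : Finset ℕ) (A : ℕ → Set (E 3)) (c : ℕ → ℝ) (hc : ∀ k, 0 ≤ c k)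
    (hA : ∀ k, MeasurableSet (A k)) (hf : ∀ k, σ (A k) ≠ ⊤)
    (h : ∀ y ∈ S, g y = 0 ∨ ∃ k ∈ I, y ∈ A k ∧ g y ≤ c k) :
    ∫ y in S, g y ∂σ ≤ ∑ k ∈ I, σ.real (A k) * c k := by
  have hi : ∀ k ∈ I, Integrable ((A k).indicator fun _ => c k) σ := fun k _ =>
    (integrable_indicator_iff (hA k)).2 (integrableOn_const (hf k))
  have hn : ∀ k y, 0 ≤ (A k).indicator (fun _ => c k) y := fun k y =>
    indicator_nonneg (fun _ _ => hc k) y
  have hI := integrable_finsetSum I hi
  calc _ ≤ ∫ y in S, ∑ k ∈ I, (A k).indicator (fun _ => c k) y ∂σ := by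
        refine integral_mono_of_nonneg (Eventually.of_forall h0) hI.integrableOn
          (ae_restrict_of_forall_mem hS fun y hy => ?_)
        rcases h y hy with e | ⟨k, hk, hy, e⟩
        · exact e.trans_le (Finset.sum_nonneg fun k _ => hn k y)
        · refine le_trans ?_ (Finset.single_le_sum (fun k _ => hn k y) hk)
          rwa [indicator_of_mem hy]
    _ ≤ ∫ y, ∑ k ∈ I, (A k).indicator (fun _ => c k) y ∂σ :=
        setIntegral_le_integral hI
          (Eventually.of_forall fun y => Finset.sum_nonneg fun k _ => hn k y)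
    _ = _ := by
        rw [integral_finsetSum I hi]
        exact Finset.sum_congr rfl fun k _ => by rw [integral_indicator_const _ (hA k), smul_eq_mul]

theorem q_log (hb : Q_bas) (h1 : Q_mj1) (ht : Q_th) : Q_log := by
  obtain ⟨c, c0, ht⟩ := ht
  obtain ⟨m₀, hm₀⟩ := exists_nat_ge (2 * c + 2)
  refine ⟨16 * c ^ 2, m₀, by positivity, fun v X CX C s ok m f CP B hm pg hT hB hA => ?_⟩
  have m1 : 2 * c + 2 ≤ m := hm₀.trans (by exact_mod_cast hm)
  have m2 : 2 ≤ m := by exact_mod_cast (by linarith : (2 : ℝ) ≤ m)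
  have m0 : (0 : ℝ) < m := by linarith
  obtain ⟨Θ, Θs, Θr, Θ1, Θ0, Θd⟩ := ht m (by omega)
  obtain ⟨κ, hκ⟩ := ok.cuts s.d ok.lip (s.ρ + s.L + 5 - 2)
  obtain ⟨hfin, -, hK, -⟩ := h1 v X CX C s ok
  have G := QLog_grad (hκ.sm.differentiable (by simp)) (pg.sm.differentiable one_ne_zero)
    (Θs.differentiable one_ne_zero)
  have p4 : (4 : ℝ) ≤ 2 ^ m := le_trans (by norm_num) (pow_le_pow_right₀ one_le_two m2)
  have e4 : (2 : ℝ) ^ (2 * m + 2) = 4 * 2 ^ (2 * m) := by ring
  have p1 : (1 : ℝ) ≤ 2 ^ (2 * m) := one_le_pow₀ one_le_two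
  have one : ∀ y, v y = 0 → s.d y ≤ s.ρ + s.L + 5 → 1 - (1 - κ y) * (1 - Θ (f y)) = 1 ∧
      gradient (fun y => 1 - (1 - κ y) * (1 - Θ (f y))) y = 0 := by
    intro y hy hd
    rw [G]
    rcases lt_or_ge (s.d y) (s.ρ + s.L + 5 - 2) with h | h
    · simp [hκ.one y h.le, (hκ.der y).2 (.inl h)]
    · have := Θ1 (f y) (((pg.pt y hy (by linarith)).2.1 (by linarith)).trans (by linarith))
      simp [this.1, this.2]
  have key : ∀ y, v y = 0 →
      ‖Pr v y (gradient (fun y => 1 - (1 - κ y) * (1 - Θ (f y))) y)‖ = 0 ∨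
      s.ρ + s.L + 5 < s.d y ∧ 2 ^ m < f y ∧ f y < 2 ^ (2 * m) ∧
        ‖Pr v y (gradient (fun y => 1 - (1 - κ y) * (1 - Θ (f y))) y)‖ ≤ 2 * c / (m * f y) := by
    intro y hy
    rcases le_or_gt (s.d y) (s.ρ + s.L + 5) with hd | hd
    · simp [(one y hy hd).2]
    rw [G, hκ.zero y (by linarith), (hκ.der y).2 (.inr (by linarith)), smul_zero, zero_add,
      sub_zero, one_mul, map_smul, norm_smul, Real.norm_eq_abs]
    rcases le_or_gt (f y) (2 ^ m) with a | a
    · simp [(Θ1 _ a).2]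
    rcases le_or_gt (2 ^ (2 * m)) (f y) with b | b
    · simp [(Θ0 _ b).2]
    refine .inr ⟨hd, a, b, ?_⟩
    have f0 : 0 < f y := by linarith
    rw [mul_div_assoc, mul_comm 2]
    exact mul_le_mul (Θd _ f0) ((pg.pt y hy (by linarith)).1.trans (by norm_num)) (norm_nonneg _)
      (by positivity)
  refine ⟨fun y => 1 - (1 - κ y) * (1 - Θ (f y)), contDiff_const.sub ((contDiff_const.sub
    (hκ.sm.of_le (by simp))).mul (contDiff_const.sub (Θs.comp pg.sm))), fun y => ?_, one,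
    fun y hy hd => ?_, fun y hy => ?_, ?_⟩
  · have a := hκ.rg y
    have b := Θr (f y)
    constructor <;> nlinarith [a.1, a.2, b.1, b.2]
  · have l1 := ok.hL
    have l2 := ok.hρ
    have l3 := ok.hT
    have a : 2 ^ (2 * m) ≤ f y := by
      by_contra h
      have := (pg.pt y hy (by linarith)).2.2 (by linarith)
      linarith
    rw [G]
    simp [hκ.zero y (by linarith), (hκ.der y).2 (.inr (by linarith)), (Θ0 _ a).1, (Θ0 _ a).2]
  · rcases key y hy with h | ⟨-, a, -, h⟩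
    · exact h.trans_le zero_le_one
    · refine h.trans ((div_le_one (mul_pos m0 (by linarith))).2 ?_)
      nlinarith
  have cd := ok.lip.continuous
  have cf := pg.sm.continuous
  refine (QLog_int (hK.isClosed.measurableSet.inter measurableSet_closedBall)
    (fun y => sq_nonneg _) (Finset.Ico m (2 * m))
    (fun k => {y | s.ρ + s.L + 5 < s.d y ∧ dist y s.x0 ≤ s.R + 1 ∧ f y ≤ 2 ^ (k + 1)})
    (fun k => (2 * c / (m * 2 ^ k)) ^ 2) (fun k => sq_nonneg _)
    (fun k => (isOpen_lt continuous_const cd).measurableSet.inter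
      ((measurableSet_closedBall (x := s.x0) (ε := s.R + 1)).inter
        (isClosed_le cf continuous_const).measurableSet))
    (fun k => ne_top_of_le_ne_top (isCompact_closedBall s.x0 (s.R + 1)).measure_lt_top.ne
      (measure_mono fun y hy => hy.2.1)) fun y hy => ?_).trans ?_
  · rcases key y hy.1.1 with h | ⟨hd, a, b, h⟩
    · exact .inl (by rw [h]; norm_num)
    obtain ⟨k, k1, k2⟩ := exists_nat_pow_near (by linarith : 1 ≤ f y) one_lt_two
    have k3 := (pow_lt_pow_iff_right₀ (one_lt_two (α := ℝ))).1 (a.trans k2)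
    have k4 := (pow_lt_pow_iff_right₀ (one_lt_two (α := ℝ))).1 (k1.trans_lt b)
    refine .inr ⟨k, Finset.mem_Ico.2 ⟨by omega, k4⟩, ⟨hd, hy.2, k2.le⟩,
      pow_le_pow_left₀ (norm_nonneg _) (h.trans ?_) 2⟩
    gcongr
  · refine (Finset.sum_le_card_nsmul _ _ (16 * c ^ 2 * B / m ^ 2) fun k hk => ?_).trans_eq ?_
    · obtain ⟨k1, k2⟩ := Finset.mem_Ico.1 hk
      have a : (2 : ℝ) ^ (k + 1) ≤ 2 ^ (2 * m) := pow_le_pow_right₀ one_le_two k2
      refine (mul_le_mul_of_nonneg_right (hA (2 ^ (k + 1))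
        (p4.trans (pow_le_pow_right₀ one_le_two (by omega))) (by linarith)) (sq_nonneg _)).trans_eq ?_
      field_simp
      ring
    · rw [Nat.card_Ico, show 2 * m - m = m by omega, nsmul_eq_mul]
      field_simp

end Vale.Agent.P134.DG
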