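import Vale.Agent.P134.QDefs

/-! P134, block A4: the inner flux outside the good part of the tube. -/

open scoped RealInnerProductSpace ContDiff ENNReal Topology Laplacian
open MeasureTheory Set Metric Filter

namespace Vale.Agent.P134.DG

theorem QM1_grad {τ : E 3 → ℝ} (h : ContDiff ℝ ∞ τ) : Continuous (gradient τ) :=
  (InnerProductSpace.toDual ℝ (E 3)).symm.continuous.comp (h.continuous_fderiv (by simp))

theorem QM1_gg : Continuous gg := by
  have h : Continuous Real.tanh := by
    rw [show Real.tanh = fun s => Real.sinh s / Real.cosh s from funext Real.tanh_eq_sinh_div_cosh]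
    exact Real.continuous_sinh.div Real.continuous_cosh fun s => (Real.cosh_pos s).ne'
  exact h.comp (continuous_id.div_const _)

theorem QM1_Fi {v : E 3 → ℝ} {X : E 3 → E 3} {CX C : ℝ} {χ : E 3 → ℝ} (hv : Sol v)
    (hX : Cal v X CX) (hC : CX ≤ C) (x : E 3) (hχ : ‖gradient χ x‖ ≤ C) :
    |Fi v X χ x| ≤ C * (C + 2) * PP v x ^ 2 := by
  have h2 : √2 ≤ (2 : ℝ) := Real.sqrt_le_iff.2 ⟨by norm_num, by norm_num⟩
  have h3 : ‖(√2 * gg (v x)) • gradient v x‖ ≤ 2 := by
    rw [norm_smul, Real.norm_eq_abs, abs_mul, abs_of_nonneg (Real.sqrt_nonneg 2)]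
    have h4 : |gg (v x)| ≤ 1 := (Real.abs_tanh_lt_one _).le
    have h6 : √2 * |gg (v x)| * ‖gradient v x‖ ≤ 2 * 1 * 1 := by gcongr; exact hv.mod x
    linarith
  have h5 : ‖Yin v X x‖ ≤ PP v x ^ 2 * (C + 2) := by
    rw [Yin, norm_smul, Real.norm_eq_abs, abs_of_nonneg (sq_nonneg _)]
    gcongr
    exact (norm_add_le _ _).trans (add_le_add ((hX.bdd x).trans hC) h3)
  calc _ ≤ ‖gradient χ x‖ * ‖Yin v X x‖ := abs_real_inner_le_norm _ _
    _ ≤ C * (PP v x ^ 2 * (C + 2)) :=
      mul_le_mul hχ h5 (norm_nonneg _) ((norm_nonneg _).trans hχ)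
    _ = _ := by ring

theorem QM1_int {f : E 3 → ℝ} (hf : Continuous f) {A : Set (E 3)} {x0 : E 3} {R : ℝ}
    (hA : ∀ x ∈ A, dist x x0 ≤ R) : IntegrableOn f A :=
  (hf.continuousOn.integrableOn_compact (isCompact_closedBall x0 R)).mono_set hA

theorem QM1_ball (x : E 3) {r : ℝ} (hr : 0 ≤ r) :
    volume (ball x r) ≤ ENNReal.ofReal (8 * r ^ 3) := by
  rw [EuclideanSpace.volume_ball_fin_three, ← ENNReal.ofReal_pow hr,
    ← ENNReal.ofReal_mul (by positivity), mul_comm]
  refine ENNReal.ofReal_le_ofReal ?_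
  gcongr
  linarith [Real.pi_le_four]

theorem q_m1 (hb : Q_bas) (hf : Q_fub) (h1 : Q_mj1) (hp : Q_m1p) : Q_m1 := by
  intro v C hv hw
  obtain ⟨C1, hC1, hp⟩ := hp v C hv hw
  have hC := hw.one
  refine ⟨C * (C + 2) * (1 + 8 * C1), by positivity, fun X CX s hs χ om hχ hom hU => ?_⟩
  obtain ⟨lv, cg, -, cP, cm, -, -, -, -, -, hpt, -⟩ := hb v hv
  obtain ⟨-, -, -, -, -, -, hSm, hAn, -⟩ := h1 v X CX C s hs
  have hL := hs.hL
  have hρ := hs.hρ
  have hT := hs.hT
  have hn := hs.hn
  have cd := hs.lip.continuous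
  have cx : Continuous fun x => dist x s.x0 := continuous_id.dist continuous_const
  have cF : Continuous (Fi v X χ) := (QM1_grad hχ.sm).inner ((cP.pow 2).smul
    (hs.cal.sm.continuous.add ((continuous_const.mul (QM1_gg.comp lv.continuous)).smul cg)))
  set U := FF v '' D1 v s
  set K := C * (C + 2)
  set e := C1 * Real.exp (-(2 * s.L)) with he
  set w := C1 * (1 + s.L) ^ 4 * Real.exp (s.L / 3) with hw'
  have hK : 0 < K := by positivity
  have he0 : 0 < e := by positivity
  have hw0 : 0 < w := by positivity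
  set φ : E 3 → ℝ := fun x => max 0 ((PP v x ^ 2 - e) / w)
  have cφ : Continuous φ := continuous_const.max (((cP.pow 2).sub continuous_const).div_const _)
  set A1 := {x | s.d x ≤ s.T ∧ s.R - s.T ≤ dist x s.x0 ∧ dist x s.x0 ≤ s.R + s.T}
  set A2 := {x | s.d x ≤ s.ρ + 1 ∧ dist x s.x0 ≤ s.R + s.T}
  have m1 : MeasurableSet A1 := ((isClosed_le cd continuous_const).inter
    ((isClosed_le continuous_const cx).inter (isClosed_le cx continuous_const))).measurableSet
  have m2 : MeasurableSet A2 :=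
    ((isClosed_le cd continuous_const).inter (isClosed_le cx continuous_const)).measurableSet
  have m3 : MeasurableSet (Sh s \ U) := ((isClosed_le continuous_const cd).inter
    ((isClosed_le cd continuous_const).inter
      (isClosed_le cx continuous_const))).measurableSet.diff hU
  have hUS : U ⊆ Sh s := by
    rintro _ ⟨z, hz, rfl⟩
    exact hz.2.2.1
  have hpw : ∀ x, om x * Fi v X χ x ≤ U.indicator (Fi v X χ) x + K * A1.indicator 1 x +
      K * e * A2.indicator 1 x + K * w * (Sh s \ U).indicator φ x := by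
    intro x
    have n1 : 0 ≤ K * A1.indicator (1 : E 3 → ℝ) x :=
      mul_nonneg hK.le (indicator_nonneg (fun _ _ => zero_le_one) x)
    have n2 : 0 ≤ K * e * A2.indicator (1 : E 3 → ℝ) x :=
      mul_nonneg (by positivity) (indicator_nonneg (fun _ _ => zero_le_one) x)
    have n3 : 0 ≤ K * w * (Sh s \ U).indicator φ x :=
      mul_nonneg (by positivity) (indicator_nonneg (fun _ _ => le_max_left _ _) x)
    by_cases hx : x ∈ U
    · rw [indicator_of_mem hx, hom.one x (by linarith [(hUS hx).2.2]), one_mul]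
      linarith
    rw [indicator_of_notMem hx, zero_add]
    have hF : om x * Fi v X χ x ≤ K * PP v x ^ 2 := by
      refine (le_abs_self _).trans ?_
      rw [abs_mul, abs_of_nonneg (hom.rg x).1]
      exact (mul_le_of_le_one_left (abs_nonneg _) (hom.rg x).2).trans
        (QM1_Fi hv hs.cal hs.cx x (hχ.der x).1)
    by_cases hS : x ∈ Sh s
    · have hx2 : x ∈ A2 := ⟨hS.2.1, by linarith [hS.2.2]⟩
      rw [indicator_of_mem hx2, indicator_of_mem (show x ∈ Sh s \ U from ⟨hS, hx⟩), Pi.one_apply]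
      have : PP v x ^ 2 - e ≤ φ x * w := (div_le_iff₀ hw0).1 (le_max_right _ _)
      nlinarith [mul_le_mul_of_nonneg_left this hK.le]
    by_cases h0 : om x * Fi v X χ x = 0
    · linarith
    have g1 : ¬(s.d x < s.ρ ∨ s.ρ + 1 < s.d x) := fun h =>
      h0 (by rw [Fi, (hχ.der x).2 h, inner_zero_left, mul_zero])
    have g2 : ¬(s.R + 1 ≤ dist x s.x0) := fun h => h0 (by rw [hom.zero x h, zero_mul])
    rw [not_or, not_lt, not_lt] at g1
    have g3 : ¬(dist x s.x0 ≤ s.R - s.L - 1) := fun h => hS ⟨g1.1, g1.2, h⟩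
    have hx1 : x ∈ A1 := ⟨by linarith [g1.2], by linarith, by linarith⟩
    rw [indicator_of_mem hx1, Pi.one_apply]
    have : PP v x ^ 2 ≤ 1 := pow_le_one₀ (hpt x).2.2.1.le (hpt x).2.2.2.1
    nlinarith [mul_le_mul_of_nonneg_left this hK.le]
  have i0 : Integrable fun x => om x * Fi v X χ x := by
    refine (hom.sm.continuous.mul cF).integrable_of_hasCompactSupport
      (HasCompactSupport.intro (isCompact_closedBall s.x0 (s.R + 1)) fun x hx => ?_)
    rw [Pi.mul_apply, hom.zero x (not_le.1 hx).le, zero_mul]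
  have iU : Integrable (U.indicator (Fi v X χ)) :=
    (integrable_indicator_iff hU).2 (QM1_int cF fun x hx => (hUS hx).2.2)
  have i1 : Integrable fun x => K * A1.indicator (1 : E 3 → ℝ) x :=
    ((integrable_indicator_iff m1).2 (QM1_int continuous_const fun x hx => hx.2.2)).const_mul _
  have i2 : Integrable fun x => K * e * A2.indicator (1 : E 3 → ℝ) x :=
    ((integrable_indicator_iff m2).2 (QM1_int continuous_const fun x hx => hx.2)).const_mul _
  have i3 : Integrable fun x => K * w * (Sh s \ U).indicator φ x :=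
    ((integrable_indicator_iff m3).2 (QM1_int cφ fun x hx => hx.1.2.2)).const_mul _
  have key := integral_mono i0 (((iU.add i1).add i2).add i3) hpw
  rw [integral_add' ((iU.add i1).add i2) i3, integral_add' (iU.add i1) i2, integral_add' iU i1,
    integral_const_mul, integral_const_mul, integral_const_mul, integral_indicator hU,
    integral_indicator_one m1, integral_indicator_one m2, integral_indicator m3] at key
  have b2 : volume.real A2 ≤ 8 * (s.ρ ^ 3 * s.nn) := by
    refine (hs.vol (s.ρ + 1) (by linarith) (by linarith)).trans ?_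
    calc _ ≤ (2 * s.ρ) ^ 3 * s.nn := by gcongr <;> linarith
      _ = _ := by ring
  have b3 : ∫ x in Sh s \ U, φ x ≤ 8 * (s.L + 1) ^ 3 * Sm v s := by
    refine hf volume _ _ (mm v) φ (s.L + 1) _ m3 ((isOpen_lt continuous_const cd).measurableSet.inter
      ((isClosed_le cd continuous_const).inter (isClosed_le cx continuous_const)).measurableSet)
      cm.measurable (fun x => (hpt x).2.2.2.2.1) (QM1_int cm fun x hx => hx.2.2) (by positivity)
      (fun y hy x hx => ?_) (fun x => QM1_ball x (by linarith)) fun y hy => ⟨le_max_left _ _, ?_⟩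
    · have a1 := hs.lip.dist_le_mul x y
      rw [NNReal.coe_one, one_mul, Real.dist_eq, abs_le] at a1
      have a2 := mem_ball.1 hx
      have a3 := dist_triangle x y s.x0
      obtain ⟨⟨a4, a5, a6⟩, -⟩ := hy
      exact ⟨by linarith [a1.1], by linarith [a1.2], by linarith⟩
    · refine max_le (integral_nonneg fun x => (hpt x).2.2.2.2.1) ((div_le_iff₀ hw0).2 ?_)
      linarith [hp X CX s hs y hy.1 hy.2]
  have p1 : 1 ≤ (1 + s.L) ^ 7 := one_le_pow₀ (by linarith)
  have t1 : K * An s ≤ K * (1 + 8 * C1) * (1 + s.L) ^ 7 * An s := by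
    gcongr
    rw [mul_assoc]
    exact le_mul_of_one_le_right hK.le (one_le_mul_of_one_le_of_one_le (by linarith) p1)
  have t2 : K * e * volume.real A2 ≤
      K * (1 + 8 * C1) * (1 + s.L) ^ 7 * (Real.exp (-(2 * s.L)) * (s.ρ ^ 3 * s.nn)) := by
    have : 0 ≤ s.ρ := by linarith
    calc _ ≤ K * e * (8 * (s.ρ ^ 3 * s.nn)) := by gcongr
      _ = K * (8 * C1) * 1 * (Real.exp (-(2 * s.L)) * (s.ρ ^ 3 * s.nn)) := by rw [he]; ring
      _ ≤ _ := by gcongr; linarith
  have t3 : K * w * ∫ x in Sh s \ U, φ x ≤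
      K * (1 + 8 * C1) * (1 + s.L) ^ 7 * (Real.exp (s.L / 3) * Sm v s) := by
    calc _ ≤ K * w * (8 * (s.L + 1) ^ 3 * Sm v s) := by gcongr
      _ = K * (8 * C1) * (1 + s.L) ^ 7 * (Real.exp (s.L / 3) * Sm v s) := by rw [hw']; ring
      _ ≤ _ := by gcongr; linarith
  have e1 : volume.real A1 = An s := rfl
  rw [e1] at key
  rw [Er, mul_add, mul_add]
  linarith

end Vale.Agent.P134.DG
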