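import Vale.Agent.P134.QDefs

/-! P134, block A4: the pointwise bound off the good tube. -/

open scoped RealInnerProductSpace ContDiff ENNReal Topology Laplacian
open MeasureTheory Set Metric Filter

namespace Vale.Agent.P134.DG

theorem QM1p_int {f : E 3 → ℝ} (hf : Continuous f) (x : E 3) (r : ℝ) :
    IntegrableOn f (ball x r) :=
  (hf.continuousOn.integrableOn_compact (isCompact_closedBall x r)).mono_set
    ball_subset_closedBall

theorem QM1p_mean {f : E 3 → ℝ} (hf : Continuous f) (h0 : ∀ z, 0 ≤ f z) {x y : E 3} {L a K : ℝ}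
    (hK : 0 ≤ K) (hxy : dist x y ≤ L) (ha : ∀ z, dist z y ≤ 1 → a ≤ K * f z) :
    a * volume.real (ball (0 : E 3) 1) ≤ K * ∫ z in ball x (L + 1), f z := by
  have h1 : ∫ _ in ball y 1, a ≤ ∫ z in ball y 1, K * f z :=
    setIntegral_mono_on (QM1p_int continuous_const y 1)
      (QM1p_int (continuous_const.mul hf) y 1) measurableSet_ball
      fun z hz => ha z (mem_ball.1 hz).le
  rw [setIntegral_const, integral_const_mul, Measure.addHaar_real_ball_center, smul_eq_mul,
    mul_comm] at h1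
  refine h1.trans (mul_le_mul_of_nonneg_left ?_ hK)
  refine setIntegral_mono_set (QM1p_int hf x _) (Eventually.of_forall h0)
    (LE.le.eventuallyLE fun z hz => ?_)
  rw [mem_ball] at hz ⊢
  have := dist_triangle z y x
  rw [dist_comm y x] at this
  linarith

theorem q_m1p (hb : Q_bas) (hw : Q_wp) (hn : Q_near) : Q_m1p := by
  intro v C hs hp
  obtain ⟨Cw, hCw, hwp⟩ := hw v C hs hp
  obtain ⟨-, -, -, -, hmm, -, -, -, -, -, hpt, -, hth⟩ := hb v hs
  have hc0 : 0 < volume.real (ball (0 : E 3) 1) :=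
    ENNReal.toReal_pos (measure_ball_pos _ _ one_pos).ne' measure_ball_lt_top.ne
  set c0 := volume.real (ball (0 : E 3) 1) with hc0d
  have hC : 0 < C := lt_of_lt_of_le one_pos hp.one
  set K := C ^ 2 * Cw * (5000 * Real.exp C) / c0 with hK
  have hK0 : 0 ≤ K := by positivity
  refine ⟨C ^ 2 + K, by positivity, fun X CX s hok x hx hxD => ?_⟩
  have hL : 0 ≤ s.L := by linarith [hok.hL]
  have hI : 0 ≤ ∫ z in ball x (s.L + 1), mm v z :=
    integral_nonneg fun z => (hpt z).2.2.2.2.1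
  set I := ∫ z in ball x (s.L + 1), mm v z with hId
  have hP : 0 ≤ PP v x := (hpt x).2.2.1.le
  have hsq : ∀ r : ℝ, PP v x ≤ C * Real.exp (-(13 / 10 * r)) →
      PP v x ^ 2 ≤ C ^ 2 * Real.exp (-(13 / 5 * r)) := by
    intro r h
    refine (pow_le_pow_left₀ hP h 2).trans (le_of_eq ?_)
    rw [mul_pow, ← Real.exp_nat_mul]
    congr 2
    push_cast
    ring
  rcases hn v X CX C s hok x hx.1 with h | ⟨y, t, hy, ht, hF, hty, h⟩
  · have h1 := hsq _ h
    have h2 : Real.exp (-(13 / 5 * s.L)) ≤ Real.exp (-(2 * s.L)) :=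
      Real.exp_le_exp.2 (by linarith)
    have h3 : C ^ 2 * Real.exp (-(13 / 5 * s.L)) ≤ (C ^ 2 + K) * Real.exp (-(2 * s.L)) :=
      mul_le_mul (by linarith) h2 (by positivity) (by positivity)
    have h4 : 0 ≤ (C ^ 2 + K) * (1 + s.L) ^ 4 * Real.exp (s.L / 3) * I := by positivity
    linarith
  · have h1 := hsq _ h
    have hD : ¬ ee v (y, t) ≤ 1 / (s.L + 1) := fun he =>
      hxD ⟨(y, t), ⟨hy, ht, by rw [hF]; exact hx, he⟩, hF⟩
    rw [not_le, div_lt_iff₀ (by linarith)] at hD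
    have h2 := hwp y hy hty t
    have hth0 : 0 ≤ th v y := (hpt y).1
    have h3 : ee v (y, t) ≤ Cw * (1 + s.L) ^ 3 * Real.exp ((3 / 2 + √2) * |t|) * th v y := by
      refine h2.trans ?_
      have := abs_nonneg t
      gcongr
    have h4 : 1 ≤ Cw * (1 + s.L) ^ 4 * Real.exp ((3 / 2 + √2) * |t|) * th v y := by
      refine hD.le.trans ((mul_le_mul_of_nonneg_right h3 (by linarith)).trans (le_of_eq ?_))
      ring
    have hr : √2 ≤ 142 / 100 := Real.sqrt_le_iff.2 ⟨by norm_num, by norm_num⟩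
    have h5 : Real.exp (-(13 / 5 * |t|)) * Real.exp ((3 / 2 + √2) * |t|) ≤ Real.exp (s.L / 3) := by
      rw [← Real.exp_add]
      refine Real.exp_le_exp.2 ?_
      have := mul_le_mul_of_nonneg_right hr (abs_nonneg t)
      have := abs_nonneg t
      nlinarith
    have hxy : dist x y ≤ s.L := by
      rw [← hF]
      exact ((hpt y).2.2.2.2.2.2.2.2 t).trans ht
    have h6 : th v y * c0 ≤ 5000 * Real.exp C * I :=
      QM1p_mean hmm (fun z => (hpt z).2.2.2.2.1) (by positivity) hxy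
        fun z hz => hth C hp z y hy hz
    have h7 : C ^ 2 * Cw * th v y ≤ K * I := by
      rw [hK, div_mul_eq_mul_div, le_div_iff₀ hc0]
      have := mul_le_mul_of_nonneg_left h6 (show 0 ≤ C ^ 2 * Cw by positivity)
      linarith
    have h8 : PP v x ^ 2 ≤ K * I * ((1 + s.L) ^ 4 * Real.exp (s.L / 3)) := by
      calc PP v x ^ 2 ≤ C ^ 2 * Real.exp (-(13 / 5 * |t|)) * 1 := by rwa [mul_one]
        _ ≤ C ^ 2 * Real.exp (-(13 / 5 * |t|)) *
            (Cw * (1 + s.L) ^ 4 * Real.exp ((3 / 2 + √2) * |t|) * th v y) :=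
          mul_le_mul_of_nonneg_left h4 (by positivity)
        _ = C ^ 2 * Cw * th v y * ((1 + s.L) ^ 4 *
            (Real.exp (-(13 / 5 * |t|)) * Real.exp ((3 / 2 + √2) * |t|))) := by ring
        _ ≤ K * I * ((1 + s.L) ^ 4 * Real.exp (s.L / 3)) :=
          mul_le_mul h7 (mul_le_mul_of_nonneg_left h5 (by positivity)) (by positivity)
            (by positivity)
    have h9 : 0 ≤ (C ^ 2 + K) * Real.exp (-(2 * s.L)) := by positivity
    have h10 : 0 ≤ C ^ 2 * (1 + s.L) ^ 4 * Real.exp (s.L / 3) * I := by positivity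
    nlinarith

end Vale.Agent.P134.DG
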