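import Vale.Agent.P134.QDefs

/-! P134, block A4: change of variables for the inner flux. -/

open scoped RealInnerProductSpace ContDiff ENNReal Topology Laplacian
open MeasureTheory Set Metric Filter

namespace Vale.Agent.P134.DG

theorem QM2_gg : Continuous gg := by
  rw [show gg = fun s => Real.sinh (s / √2) / Real.cosh (s / √2) from
    funext fun _ => Real.tanh_eq_sinh_div_cosh _]
  exact Continuous.div (by fun_prop) (by fun_prop) fun s => (Real.cosh_pos _).ne'

theorem q_m2 (hAF : S_AF) (hA : S_Alg) (hb : Q_bas) (h1 : Q_mj1) (hi : Q_inj) : Q_m2 := by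
  intro v X CX C s ok χ hχ
  obtain ⟨i1, i2, i3, i4⟩ := hi v X CX C s ok
  obtain ⟨b1, b2, -, b4, -, -, b7, b8, -⟩ := hb v ok.ctx.sol
  obtain ⟨-, -, -, -, m5, -⟩ := h1 v X CX C s ok
  have af := fun Φ hΦ => (hAF v s.O s.ε s.σ ok.ctx _ i1 i3 (fun z hz => hz.1) Φ hΦ).2 i4
  have ms := (af 0 measurable_zero).1
  have cF : Continuous (Fi v X χ) := by
    have c1 : Continuous (gradient χ) := (InnerProductSpace.toDual ℝ (E 3)).symm.continuous.comp
      (hχ.sm.continuous_fderiv (by simp))
    have c2 := ok.cal.sm.continuous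
    have c3 := QM2_gg.comp' b1.continuous
    unfold Fi Yin
    exact c1.inner ((b4.pow 2).smul (c2.add ((c3.const_mul _).smul b2)))
  have e : volume.restrict (FF v '' D1 v s) = Measure.map (FF v)
      (((s.σ.prod volume).restrict (D1 v s)).withDensity fun z => ENNReal.ofReal (JJ v z)) := by
    refine Measure.ext fun A hA => ?_
    rw [← lintegral_indicator_one hA, (af _ (measurable_one.indicator hA)).2,
      Measure.map_apply b7 hA, withDensity_apply _ (b7 hA), ← lintegral_indicator (b7 hA)]
    refine lintegral_congr fun z => ?_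
    by_cases h : FF v z ∈ A
    · rw [indicator_of_mem h, indicator_of_mem (show z ∈ FF v ⁻¹' A from h), Pi.one_apply, one_mul]
    · rw [indicator_of_notMem h, indicator_of_notMem (show z ∉ FF v ⁻¹' A from h), zero_mul]
  refine ⟨ms, ?_⟩
  rw [e, integral_map b7.aemeasurable cF.aestronglyMeasurable,
    integral_withDensity_eq_integral_toReal_smul b8.ennreal_ofReal
      (Eventually.of_forall fun _ => ENNReal.ofReal_lt_top)]
  refine setIntegral_congr_fun i1 fun z hz => ?_
  have j := ((hA v z.1 ok.ctx.sol (m5 _ (i2 z hz)).1).2.2.2.2.2.2.2.2.2.2.2.2 z.2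
    (i3 hz).2).2.2.2.2.2.2.2.1
  have j' : 0 ≤ JJ v z := le_trans (by norm_num) j
  simp only [ENNReal.toReal_ofReal j', smul_eq_mul, mul_comm]

end Vale.Agent.P134.DG
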