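import Vale.Agent.P134.QDefs

/-! P134, block A4: comparison of the inner and the outer flux. -/

open scoped RealInnerProductSpace ContDiff ENNReal Topology Laplacian
open MeasureTheory Set Metric Filter

namespace Vale.Agent.P134.DG

open Classical in
theorem QM3_abs {α : Type} [MeasurableSpace α] (σ : Measure α) [SFinite σ] {K : Set α}
    (hK : MeasurableSet K) (hf : σ K < ⊤) {L A B : ℝ} (hL : 0 ≤ L) {D : Set (α × ℝ)}
    (hD : MeasurableSet D) (hs : D ⊆ K ×ˢ Ioc (-L) L ∪ {z | z.2 = -L}) {F G : α × ℝ → ℝ}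
    (hF : Measurable F) (hG : Measurable G) {m : α → ℝ} (hm : IntegrableOn m K σ)
    (b1 : ∀ y ∈ K, ∀ t, |t| ≤ L → |G (y, t)| ≤ B)
    (b2 : ∀ y ∈ K, ∀ t, |t| ≤ L → |(if (y, t) ∈ D then F (y, t) else 0) - G (y, t)| ≤ A * m y) :
    (∫ z in D, F z ∂(σ.prod volume)) - ∫ y in K, (∫ t in (-L)..L, G (y, t)) ∂σ ≤
      2 * L * (A * ∫ y in K, m y ∂σ) := by
  have : IsFiniteMeasure (σ.restrict K) := isFiniteMeasure_restrict.2 hf.ne
  have : IsFiniteMeasure (volume.restrict (Ioc (-L) L)) :=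
    isFiniteMeasure_restrict.2 measure_Ioc_lt_top.ne
  set ν := (σ.restrict K).prod (volume.restrict (Ioc (-L) L)) with hν
  have e0 : ν = (σ.prod volume).restrict (K ×ˢ Ioc (-L) L) := Measure.prod_restrict _ _
  have ae : ∀ᵐ z ∂ν, z.1 ∈ K ∧ |z.2| ≤ L := by
    rw [e0]
    exact (ae_restrict_iff' (hK.prod measurableSet_Ioc)).2
      (ae_of_all _ fun z hz => ⟨hz.1, abs_le.2 ⟨hz.2.1.le, hz.2.2⟩⟩)
  have iG : Integrable G ν :=
    Integrable.of_bound hG.aestronglyMeasurable B (ae.mono fun z hz => b1 z.1 hz.1 z.2 hz.2)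
  have im : Integrable (fun z : α × ℝ => A * m z.1) ν := (Integrable.comp_fst hm _).const_mul A
  have b3 : ∀ᵐ z ∂ν, ‖D.indicator F z - G z‖ ≤ A * m z.1 :=
    ae.mono fun z hz => b2 z.1 hz.1 z.2 hz.2
  have iH : Integrable (fun z => D.indicator F z - G z) ν :=
    im.mono' ((hF.indicator hD).sub hG).aestronglyMeasurable b3
  have iF : Integrable (D.indicator F) ν := (iH.add iG).congr (ae_of_all _ fun z => sub_add_cancel _ _)
  have n0 : (σ.prod volume) {z : α × ℝ | z.2 = -L} = 0 := by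
    have : {z : α × ℝ | z.2 = -L} = univ ×ˢ {-L} := by ext z; simp
    rw [this, Measure.prod_prod, Real.volume_singleton, mul_zero]
  have e1 : ∫ z in D, F z ∂(σ.prod volume) = ∫ z, D.indicator F z ∂ν := by
    rw [integral_indicator hD, e0, Measure.restrict_restrict hD]
    refine setIntegral_congr_set ?_
    filter_upwards [measure_eq_zero_iff_ae_notMem.1 n0] with z hz
    exact propext ⟨fun h => ⟨h, (hs h).resolve_right hz⟩, fun h => h.1⟩
  have e2 : ∫ y in K, (∫ t in (-L)..L, G (y, t)) ∂σ = ∫ z, G z ∂ν := by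
    rw [integral_prod _ iG]
    simp only [intervalIntegral.integral_of_le (show -L ≤ L by linarith)]
  rw [e1, e2, ← integral_sub iF iG]
  refine (integral_mono_ae iH im (b3.mono fun z hz => (le_abs_self _).trans hz)).trans
    (le_of_eq ?_)
  rw [integral_fun_fst (fun y => A * m y), integral_const_mul, measureReal_restrict_apply_univ,
    Real.volume_real_Ioc_of_le (by linarith), smul_eq_mul]
  ring

theorem QM3_gg : Continuous gg := by
  unfold gg
  simp only [Real.tanh_eq_sinh_div_cosh]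
  exact Continuous.div (by fun_prop) (by fun_prop) fun x => (Real.cosh_pos _).ne'

theorem QM3_g1 : Continuous g1 := (continuous_const.sub (QM3_gg.pow 2)).div_const _

theorem QM3_grad {χ : E 3 → ℝ} (h : ContDiff ℝ ∞ χ) : Continuous (gradient χ) :=
  (InnerProductSpace.toDual ℝ (E 3)).symm.continuous.comp (h.continuous_fderiv (by simp))

theorem QM3_sub (χ : E 3 → ℝ) (x : E 3) : gradient (fun x => 1 - χ x) x = -gradient χ x := by
  unfold gradient
  rw [fderiv_const_sub, map_neg]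

theorem q_m3 (hb : Q_bas) (h1 : Q_mj1) (hm : Q_maj) (hi : Q_inj) (hp : Q_m3p) : Q_m3 := by
  intro v C hv hw
  obtain ⟨C₁, c1, hp⟩ := hp v C hv hw
  obtain ⟨C₂, c2, hm⟩ := hm C
  refine ⟨2 * C₁ * C₂, by positivity, fun X CX s ok χ η hχ hη => ?_⟩
  obtain ⟨-, cg, -, cP, -, mN, mF, mJ, -⟩ := hb v hv
  obtain ⟨f1, a0, kK, -, -, -, -, -, e0, im, -⟩ := h1 v X CX C s ok
  obtain ⟨mD, sD, -⟩ := hi v X CX C s ok
  have hL : 0 ≤ s.L := by linarith [ok.hL]
  have cχ := QM3_grad hχ.sm
  have cX := ok.cal.sm.continuous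
  have cF : Continuous (Fi v X χ) :=
    cχ.inner ((cP.pow 2).smul (cX.add
      ((continuous_const.mul (QM3_gg.comp hv.smooth.continuous)).smul cg)))
  have mO : Measurable (Fo v X χ) :=
    ((cχ.measurable.comp mF).inner (((QM3_g1.measurable.comp measurable_snd).pow_const 2).smul
      ((cX.measurable.comp mF).add (((QM3_gg.measurable.comp measurable_snd).const_mul _).smul
        (mN.comp measurable_fst))))).mul mJ
  have key := QM3_abs s.σ kK.measurableSet kK.measure_lt_top hL mD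
    (A := C₁ * (1 + s.L) ^ 4) (B := C₁) (fun z hz => by
      have := abs_le.1 hz.2.1
      rcases this.1.eq_or_lt with h | h
      exacts [Or.inr h.symm, Or.inl ⟨sD z hz, h, this.2⟩])
    (F := fun z => Fi v X χ (FF v z) * JJ v z) (G := fun z => η z.1 ^ 2 * Fo v X χ z)
    ((cF.measurable.comp mF).mul mJ)
    (((hη.ct.measurable.comp measurable_fst).pow_const 2).mul mO) im
    (fun y hy t ht => by
      rw [abs_mul, abs_of_nonneg (sq_nonneg _)]
      exact (mul_le_of_le_one_left (abs_nonneg _)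
        (pow_le_one₀ (hη.rg y).1 (hη.rg y).2)).trans (hp X CX s ok χ η hχ hη y hy t ht).1)
    fun y hy t ht => (hp X CX s ok χ η hχ hη y hy t ht).2
  have e : YT v s.σ X s.L (fun x => 1 - χ x) η =
      -∫ y in K0 v s, (∫ t in (-s.L)..s.L, η y ^ 2 * Fo v X χ (y, t)) ∂s.σ := by
    rw [setIntegral_eq_integral_of_ae_compl_eq_zero
      (a0.mono fun y h0 hy => by simp [hη.zero y h0 hy]), ← integral_neg]
    unfold YT Fo
    simp only [QM3_sub, inner_neg_left, neg_mul, intervalIntegral.integral_neg,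
      intervalIntegral.integral_const_mul, mul_neg]
  rw [e, ← sub_eq_add_neg]
  refine key.trans ?_
  have b := mul_le_mul_of_nonneg_left (hm v X CX s ok).1
    (show 0 ≤ 2 * s.L * (C₁ * (1 + s.L) ^ 4) by positivity)
  have b2 : s.L ≤ (1 + s.L) ^ 3 := by nlinarith [sq_nonneg s.L, mul_nonneg hL (sq_nonneg s.L)]
  have b3 := mul_le_mul_of_nonneg_right b2
    (show 0 ≤ 2 * C₁ * C₂ * (1 + s.L) ^ 4 * Er v s by positivity)
  calc _ = 2 * s.L * (C₁ * (1 + s.L) ^ 4) * ∫ y in K0 v s, maj v s y ∂s.σ := by ring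
    _ ≤ _ := b
    _ = s.L * (2 * C₁ * C₂ * (1 + s.L) ^ 4 * Er v s) := by ring
    _ ≤ _ := b3
    _ = _ := by ring

end Vale.Agent.P134.DG
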