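import Vale.Agent.P134.QDefs

/-! P134, block A4: pointwise comparison of the inner and the outer flux. -/

open scoped RealInnerProductSpace ContDiff ENNReal Topology Laplacian
open MeasureTheory Set Metric Filter

namespace Vale.Agent.P134.DG

theorem QM3p_s : 7 / 6 ≤ √2 ∧ √2 ≤ 2 :=
  ⟨Real.le_sqrt_of_sq_le (by norm_num), Real.sqrt_le_iff.2 ⟨by norm_num, by norm_num⟩⟩

theorem QM3p_v {p : E 3} {g b : ℝ} (hp : ‖p‖ ≤ b) : ‖(√2 * g) • p‖ ≤ 2 * |g| * b := by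
  rw [norm_smul, Real.norm_eq_abs, abs_mul, abs_of_nonneg (Real.sqrt_nonneg 2)]
  have := QM3p_s.2
  gcongr

theorem QM3p_n {X p : E 3} {g C : ℝ} (a : ℝ) (hX : ‖X‖ ≤ C) (hp : ‖p‖ ≤ 1) (hg : |g| < 1) :
    ‖a ^ 2 • (X + (√2 * g) • p)‖ ≤ a ^ 2 * (C + 2) := by
  rw [norm_smul, Real.norm_of_nonneg (sq_nonneg a)]
  refine mul_le_mul_of_nonneg_left ((norm_add_le _ _).trans ?_) (sq_nonneg a)
  linarith [QM3p_v (g := g) hp]

theorem QM3p_d {X p N : E 3} {g g' C : ℝ} (a b : ℝ) (hX : ‖X‖ ≤ C) (hp : ‖p‖ ≤ 1) (hg : |g'| < 1) :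
    ‖a ^ 2 • (X + (√2 * g) • p) - b ^ 2 • (X + (√2 * g') • N)‖ ≤
      |a ^ 2 - b ^ 2| * C + 2 * |a ^ 2 * g - b ^ 2 * g'| + 2 * b ^ 2 * ‖p - N‖ := by
  have e : a ^ 2 • (X + (√2 * g) • p) - b ^ 2 • (X + (√2 * g') • N) = (a ^ 2 - b ^ 2) • X +
      (√2 * (a ^ 2 * g - b ^ 2 * g')) • p + (√2 * (b ^ 2 * g')) • (p - N) := by module
  have h1 : ‖(a ^ 2 - b ^ 2) • X‖ ≤ |a ^ 2 - b ^ 2| * C := by
    rw [norm_smul, Real.norm_eq_abs]
    exact mul_le_mul_of_nonneg_left hX (abs_nonneg _)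
  have h2 := QM3p_v (g := a ^ 2 * g - b ^ 2 * g') hp
  have h3 := QM3p_v (g := b ^ 2 * g') (le_refl ‖p - N‖)
  have h4 : |b ^ 2 * g'| ≤ b ^ 2 := by
    rw [abs_mul, abs_of_nonneg (sq_nonneg b)]
    exact mul_le_of_le_one_right (sq_nonneg b) hg.le
  have h5 := mul_le_mul_of_nonneg_right h4 (norm_nonneg (p - N))
  rw [e]
  refine norm_add₃_le.trans ?_
  linarith

theorem QM3p_i {G Y : E 3} {J C B : ℝ} (hG : ‖G‖ ≤ C) (hY : ‖Y‖ ≤ B) (h0 : 9 / 10 ≤ J)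
    (h1 : J ≤ 10 / 9) : |⟪G, Y⟫ * J| ≤ C * B * 2 := by
  have hC : 0 ≤ C := (norm_nonneg _).trans hG
  have hB : 0 ≤ B := (norm_nonneg _).trans hY
  rw [abs_mul, abs_of_nonneg (by linarith : 0 ≤ J)]
  exact mul_le_mul ((abs_real_inner_le_norm _ _).trans (mul_le_mul hG hY (norm_nonneg _) hC))
    (by linarith) (by linarith) (by positivity)

theorem QM3p_e {t L Cw θ e : ℝ} (ht : |t| ≤ L) (hC : 0 < Cw) (hθ : 0 ≤ θ)
    (h : e ≤ Cw * (1 + |t|) ^ 3 * Real.exp ((3 / 2 + √2) * |t|) * θ) :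
    Real.exp (-(2 * √2 * |t|)) * e ≤ Cw * (1 + L) ^ 3 * (Real.exp (L / 3) * θ) := by
  have h0 := abs_nonneg t
  have hL := h0.trans ht
  have h1 : Real.exp (-(2 * √2 * |t|)) * Real.exp ((3 / 2 + √2) * |t|) ≤ Real.exp (L / 3) := by
    rw [← Real.exp_add, Real.exp_le_exp]
    nlinarith [QM3p_s.1]
  calc Real.exp (-(2 * √2 * |t|)) * e
      ≤ Real.exp (-(2 * √2 * |t|)) *
        (Cw * (1 + |t|) ^ 3 * Real.exp ((3 / 2 + √2) * |t|) * θ) := by gcongr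
    _ = Cw * (1 + |t|) ^ 3 *
        (Real.exp (-(2 * √2 * |t|)) * Real.exp ((3 / 2 + √2) * |t|) * θ) := by ring
    _ ≤ _ := by gcongr

theorem QM3p_g {t : ℝ} (h0 : 0 ≤ g1 t) (h : g1 t ≤ 3 * Real.exp (-(√2 * |t|))) :
    g1 t ^ 2 ≤ 9 * Real.exp (-(2 * √2 * |t|)) := by
  have e : Real.exp (-(2 * √2 * |t|)) = Real.exp (-(√2 * |t|)) ^ 2 := by
    rw [← Real.exp_nat_mul]; congr 1; push_cast; ring
  rw [e]
  nlinarith

theorem QM3p_y (hq : Q_prof) {v : E 3 → ℝ} {X : E 3 → E 3} {C t : ℝ} {y : E 3} (hv : Sol v)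
    (hC : 1 ≤ C) (hX : ‖X (FF v (y, t))‖ ≤ C) (he : ee v (y, t) ≤ 1) :
    ‖Yin v X (FF v (y, t)) - Yo v X (y, t)‖ ≤
      (1000 * C + 4000) * (Real.exp (-(2 * √2 * |t|)) * ee v (y, t)) := by
  obtain ⟨-, -, q1, q2, q3, -⟩ := hq.1 t
  have hg2 := QM3p_g (le_trans (by positivity) q2) q3
  have hE := Real.exp_pos (-(2 * √2 * |t|))
  have hp0 := norm_nonneg (gradient v (FF v (y, t)) - NN v y)
  have hee : ee v (y, t) = |ww v (y, t)| + ‖gradient v (FF v (y, t)) - NN v y‖ := rfl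
  have h3 : |v (FF v (y, t)) - t| = |ww v (y, t)| := abs_sub_comm _ _
  obtain ⟨p1, p2⟩ := hq.2.2.2 (v (FF v (y, t))) t (by linarith)
  rw [h3] at p1 p2
  refine (QM3p_d _ _ hX (hv.mod _) q1).trans ?_
  have h6 := mul_le_mul_of_nonneg_right p1 (by linarith : 0 ≤ C)
  have h7 := mul_le_mul_of_nonneg_right hg2 hp0
  have h8 := mul_nonneg (mul_nonneg hE.le hp0) (by linarith : 0 ≤ C)
  have h9 := mul_nonneg hE.le hp0
  simp only [PP]
  rw [hee]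
  linarith

theorem q_m3p (hA : S_Alg) (hq : Q_prof) (hb : Q_bas) (hw : Q_wp) (h1 : Q_mj1) : Q_m3p := by
  classical
  intro v C hv hpw
  obtain ⟨Cw, hCw, hw⟩ := hw v C hv hpw
  have hC := hpw.one
  refine ⟨C * (1000 * C + 4000) * 2 * (1 + Cw), by positivity,
    fun X CX s ok χ η hχ hη y hy t ht => ?_⟩
  obtain ⟨-, -, -, -, m5, m6, -⟩ := h1 v X CX C s ok
  obtain ⟨hth, -, hom⟩ := m5 y hy
  obtain ⟨-, -, -, -, -, -, -, -, -, -, -, -, a⟩ := hA v y hv hth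
  obtain ⟨-, -, -, -, -, -, -, j0, j1, -⟩ := a t (hom t ht).2
  obtain ⟨-, -, -, -, -, -, -, -, -, -, b, -⟩ := hb v hv
  obtain ⟨hθ, -, -, -, -, -, hN, -, hd⟩ := b y
  obtain ⟨-, -, hP0, hP1, -⟩ := b (FF v (y, t))
  obtain ⟨-, -, q1, q2, q3, q4, -⟩ := hq.1 t
  have hd' := (hd t).trans ht
  have hX : ‖X (FF v (y, t))‖ ≤ C := (ok.cal.bdd _).trans ok.cx
  have hG := (hχ.der (FF v (y, t))).1
  have hg0 : 0 ≤ g1 t := le_trans (by positivity) q2
  have hFo : |Fo v X χ (y, t)| ≤ C * (g1 t ^ 2 * (C + 2)) * 2 :=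
    QM3p_i hG (QM3p_n _ hX hN q1) j0 j1
  have hFi : |Fi v X χ (FF v (y, t)) * JJ v (y, t)| ≤ C * (C + 2) * 2 :=
    QM3p_i hG ((QM3p_n _ hX (hv.mod _) (hq.1 _).2.2.1).trans
      (mul_le_of_le_one_left (by linarith) (pow_le_one₀ hP0.le hP1))) j0 j1
  have hFo1 : |Fo v X χ (y, t)| ≤ C * (C + 2) * 2 := hFo.trans (by
    have := mul_le_of_le_one_left (by linarith : 0 ≤ C + 2) (pow_le_one₀ (n := 2) hg0 q4)
    gcongr)
  have hL := ok.hL
  have hA0 : C * (C + 2) * 2 * 9 ≤ C * (1000 * C + 4000) * 2 := by nlinarith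
  have hA1 : C * (1000 * C + 4000) * 2 ≤ C * (1000 * C + 4000) * 2 * (1 + Cw) :=
    le_mul_of_one_le_right (by positivity) (by linarith)
  have hC2 : 0 ≤ C * (C + 2) * 2 := by positivity
  refine ⟨by linarith, ?_⟩
  by_cases hz : gradient χ (FF v (y, t)) = 0
  · have := m6 y
    simp only [Fi, Fo, hz, inner_zero_left, zero_mul, ite_self, mul_zero, sub_zero, abs_zero]
    positivity
  have hρ : s.ρ ≤ s.d (FF v (y, t)) ∧ s.d (FF v (y, t)) ≤ s.ρ + 1 := by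
    by_contra hn
    exact hz ((hχ.der _).2 (by rwa [not_and_or, not_le, not_le] at hn))
  have hdy := ok.lip.dist_le_mul (FF v (y, t)) y
  rw [NNReal.coe_one, one_mul, Real.dist_eq] at hdy
  obtain ⟨d1, d2⟩ := abs_le.1 (hdy.trans hd')
  have hρL := ok.hρ
  have hT := ok.hT
  have hif : s.ρ - 2 * s.L - 1 ≤ s.d y ∧ s.d y ≤ s.ρ + 2 * s.L + 1 := ⟨by linarith, by linarith⟩
  have hm1 : 0 ≤ Real.exp (-(2 * s.L)) * Real.exp (-max (s.d y - s.ρ - 2 * s.L) 0) := by positivity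
  have hm2 : 0 ≤ Real.exp (s.L / 3) * th v y := by positivity
  by_cases hR : s.R - s.T + 1 ≤ dist y s.x0
  · have h2 : 1 ≤ maj v s y := by
      rw [maj, if_pos hif, if_pos hR]
      linarith
    have h3 : |η y ^ 2 * Fo v X χ (y, t)| ≤ C * (C + 2) * 2 := by
      rw [abs_mul, abs_of_nonneg (sq_nonneg _)]
      exact (mul_le_of_le_one_left (abs_nonneg _) (pow_le_one₀ (hη.rg y).1 (hη.rg y).2)).trans hFo1
    have h4 : 1 ≤ (1 + s.L) ^ 4 * maj v s y :=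
      one_le_mul_of_one_le_of_one_le (one_le_pow₀ (by linarith)) h2
    rw [mul_assoc _ _ (maj v s y)]
    refine le_trans ?_ (le_mul_of_one_le_right (by positivity) h4)
    refine (abs_sub _ _).trans ?_
    split_ifs
    · linarith
    · rw [abs_zero]
      linarith
  have h2 : maj v s y ≥ Real.exp (s.L / 3) * th v y := by
    rw [maj, if_pos hif, if_neg hR]
    linarith
  rw [not_le] at hR
  have hSh : FF v (y, t) ∈ Sh s :=
    ⟨hρ.1, hρ.2, by linarith [dist_triangle (FF v (y, t)) y s.x0]⟩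
  have he := QM3p_e ht hCw hθ (hw y hy.1 hth t)
  have hE := Real.exp_pos (-(2 * √2 * |t|))
  have hg2 := QM3p_g hg0 q3
  have hee : 0 ≤ ee v (y, t) := add_nonneg (abs_nonneg _) (norm_nonneg _)
  have key : |(if (y, t) ∈ D1 v s then Fi v X χ (FF v (y, t)) * JJ v (y, t) else 0) -
      Fo v X χ (y, t)| ≤ C * (1000 * C + 4000) * 2 * (1 + s.L) *
        (Real.exp (-(2 * √2 * |t|)) * ee v (y, t)) := by
    split_ifs with hD
    · have h4 : 1 / (s.L + 1) ≤ 1 := by rw [div_le_one] <;> linarith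
      rw [Fi, Fo, ← sub_mul, ← inner_sub_right]
      calc _ ≤ _ := QM3p_i hG (QM3p_y hq hv hC hX (hD.2.2.2.trans h4)) j0 j1
        _ = C * (1000 * C + 4000) * 2 * 1 * (Real.exp (-(2 * √2 * |t|)) * ee v (y, t)) := by ring
        _ ≤ _ := by gcongr; linarith
    · have h3 : 1 / (s.L + 1) < ee v (y, t) := not_le.1 fun h => hD ⟨hy.1, ht, hSh, h⟩
      rw [div_lt_iff₀ (by linarith)] at h3
      rw [zero_sub, abs_neg]
      calc |Fo v X χ (y, t)| ≤ C * (9 * Real.exp (-(2 * √2 * |t|)) * (C + 2)) * 2 :=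
            hFo.trans (by gcongr)
        _ = C * (C + 2) * 2 * 9 * Real.exp (-(2 * √2 * |t|)) * 1 := by ring
        _ ≤ C * (1000 * C + 4000) * 2 * Real.exp (-(2 * √2 * |t|)) *
            (ee v (y, t) * (s.L + 1)) := by gcongr
        _ = _ := by ring
  rw [hη.one y hy.1 (by linarith) (by linarith) (by linarith), one_pow, one_mul]
  refine key.trans ?_
  calc _ ≤ C * (1000 * C + 4000) * 2 * (1 + s.L) * ((1 + Cw) * (1 + s.L) ^ 3 * maj v s y) := by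
        refine mul_le_mul_of_nonneg_left (he.trans ?_) (by positivity)
        gcongr
        linarith
    _ = _ := by ring

end Vale.Agent.P134.DG
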