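import Vale.Agent.P134.QDefs

/-! P134, block A4: the integral of the majorant. -/

open scoped RealInnerProductSpace ContDiff ENNReal Topology Laplacian
open MeasureTheory Set Metric Filter

namespace Vale.Agent.P134.DG

theorem QMaj_two (hb : Q_bas) (hf : Q_fub) (h1 : Q_mj1) {v : E 3 → ℝ} {X : E 3 → E 3} {CX C : ℝ}
    {s : Su} (h : Ok v X CX C s) :
    ∫ y in K0 v s ∩ {y | s.ρ - 2 * s.L - 1 ≤ s.d y ∧ s.d y ≤ s.ρ + 2 * s.L + 1}, th v y ∂s.σ ≤
      128 * (5000 * Real.exp C) / volume.real (ball (0 : E 3) 1) * Sm v s := by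
  obtain ⟨-, -, -, -, cm, -, -, -, -, -, hp, -, hl⟩ := hb v h.ctx.sol
  obtain ⟨fin, -, hK, -, -, -, -, -, -, -, h128, -⟩ := h1 v X CX C s h
  have cd := h.lip.continuous
  have hω : 0 < volume.real (ball (0 : E 3) 1) :=
    ENNReal.toReal_pos (measure_ball_pos _ _ one_pos).ne' measure_ball_lt_top.ne
  have hc : 0 < 5000 * Real.exp C := by positivity
  have hL := h.hL
  have k := hf s.σ (K0 v s ∩ {y | s.ρ - 2 * s.L - 1 ≤ s.d y ∧ s.d y ≤ s.ρ + 2 * s.L + 1})
    {x | s.ρ - 3 * s.L < s.d x ∧ s.d x ≤ s.ρ + 3 * s.L ∧ dist x s.x0 ≤ s.R + s.T} (mm v)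
    (fun y => volume.real (ball (0 : E 3) 1) / (5000 * Real.exp C) * th v y) 1 128
    (hK.measurableSet.inter ((measurableSet_le measurable_const cd.measurable).inter
      (measurableSet_le cd.measurable measurable_const)))
    ((measurableSet_lt measurable_const cd.measurable).inter
      ((measurableSet_le cd.measurable measurable_const).inter measurableSet_closedBall))
    cm.measurable (fun x => (hp x).2.2.2.2.1)
    ((cm.continuousOn.integrableOn_compact (isCompact_closedBall s.x0 (s.R + s.T))).mono_set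
      fun x hx => hx.2.2) (by norm_num)
    (fun y hy x hx => by
      have a1 := h.lip.dist_le_mul x y
      have a2 : dist x y < 1 := hx
      have a3 := dist_triangle x y s.x0
      rw [NNReal.coe_one, one_mul, Real.dist_eq, abs_le] at a1
      exact ⟨by linarith [hy.2.1, a1.1], by linarith [hy.2.2, a1.2], by linarith [hy.1.2.2.2]⟩)
    h128 fun y hy => ⟨mul_nonneg (by positivity) (hp y).1, by
      have a := setIntegral_mono_on (μ := volume) (s := ball y 1)
        (f := fun _ => th v y / (5000 * Real.exp C)) (g := mm v)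
        (integrableOn_const measure_ball_lt_top.ne)
        ((cm.continuousOn.integrableOn_compact (isCompact_closedBall y 1)).mono_set
          ball_subset_closedBall) measurableSet_ball fun x hx => by
          rw [div_le_iff₀' hc]
          exact hl C h.pw x y hy.1.1 (le_of_lt hx)
      rw [setIntegral_const, smul_eq_mul, measureReal_def, Measure.addHaar_ball_center,
        ← measureReal_def] at a
      exact le_of_eq_of_le (by ring) a⟩
  rw [integral_const_mul, div_mul_eq_mul_div, div_le_iff₀ hc] at k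
  rw [div_mul_eq_mul_div, le_div_iff₀ hω]
  exact le_of_eq_of_le (mul_comm _ _) (k.trans_eq (by unfold Sm; ring))

theorem q_maj (hb : Q_bas) (hf : Q_fub) (h1 : Q_mj1) (h2 : Q_mj2) : Q_maj := by
  intro C
  obtain ⟨C2, hC2, h2⟩ := h2
  have hω : 0 < volume.real (ball (0 : E 3) 1) :=
    ENNReal.toReal_pos (measure_ball_pos _ _ one_pos).ne' measure_ball_lt_top.ne
  obtain ⟨C3, hC3, e3⟩ : ∃ C3, 0 < C3 ∧
      C3 = 128 * (5000 * Real.exp C) / volume.real (ball (0 : E 3) 1) := ⟨_, by positivity, rfl⟩
  refine ⟨C2 + C3 + 2, by positivity, fun v X CX s h => ?_⟩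
  have k1 := h2 v X CX C s h
  have k2 := QMaj_two hb hf h1 h
  rw [← e3] at k2
  obtain ⟨-, -, ct, -⟩ := hb v h.ctx.sol
  obtain ⟨fin, hae, hK, -, -, m0, S0, A0, E0, hint, -, -, hA⟩ := h1 v X CX C s h
  have cd := h.lip.continuous
  have mP : MeasurableSet {y | s.ρ - 2 * s.L - 1 ≤ s.d y ∧ s.d y ≤ s.ρ + 2 * s.L + 1} :=
    (measurableSet_le measurable_const cd.measurable).inter
      (measurableSet_le cd.measurable measurable_const)
  have mQ : MeasurableSet {y : E 3 | s.R - s.T + 1 ≤ dist y s.x0} :=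
    measurableSet_le measurable_const (continuous_id.dist continuous_const).measurable
  have e : maj v s = fun y =>
      Real.exp (-(2 * s.L)) * Real.exp (-max (s.d y - s.ρ - 2 * s.L) 0) + Real.exp (s.L / 3) *
        {y | s.ρ - 2 * s.L - 1 ≤ s.d y ∧ s.d y ≤ s.ρ + 2 * s.L + 1}.indicator (th v) y +
      {y : E 3 | s.R - s.T + 1 ≤ dist y s.x0}.indicator (fun _ => (1 : ℝ)) y := by
    classical
    funext y
    simp only [maj, indicator_apply, mem_ofPred_eq]
  have i1 : IntegrableOn (fun y => Real.exp (-max (s.d y - s.ρ - 2 * s.L) 0)) (K0 v s) s.σ :=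
    ContinuousOn.integrableOn_compact hK (Continuous.continuousOn (by fun_prop))
  have i2 := (ct.continuousOn.integrableOn_compact (μ := s.σ) hK).indicator mP
  have i3 := ((continuousOn_const (c := (1 : ℝ))).integrableOn_compact (μ := s.σ) hK).indicator mQ
  have k3 : s.σ.real (K0 v s ∩ {y : E 3 | s.R - s.T + 1 ≤ dist y s.x0}) ≤ 2 * An s := by
    refine le_trans (measureReal_mono ?_ ?_) hA
    · exact fun y hy => ⟨hy.1.2.2.1, hy.2, hy.1.2.2.2⟩
    · exact ((measure_mono fun y hy => hy.2.2).trans_lt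
        (isCompact_closedBall s.x0 (s.R + s.T - 1)).measure_lt_top).ne
  have main : ∫ y in K0 v s, maj v s y ∂s.σ ≤ (C2 + C3 + 2) * Er v s := by
    rw [e, integral_add ((i1.const_mul _).fun_add (i2.const_mul _)) i3,
      integral_add (i1.const_mul _) (i2.const_mul _), integral_const_mul, integral_const_mul,
      setIntegral_indicator mP, setIntegral_indicator mQ, setIntegral_const, smul_eq_mul, mul_one]
    have hρ : 0 ≤ s.ρ := by linarith [h.hρ, h.hL]
    have hn := h.hn
    have p1 : 0 ≤ Real.exp (-(2 * s.L)) * (s.ρ ^ 3 * s.nn) := by positivity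
    have p2 : 0 ≤ Real.exp (s.L / 3) * Sm v s := by positivity
    have q1 := mul_le_mul_of_nonneg_left k1 (Real.exp_pos (-(2 * s.L))).le
    have q2 := mul_le_mul_of_nonneg_left k2 (Real.exp_pos (s.L / 3)).le
    unfold Er
    nlinarith [mul_nonneg hC2.le p2, mul_nonneg hC2.le A0, mul_nonneg hC3.le p1,
      mul_nonneg hC3.le A0]
  refine ⟨main, fun φ B hB hφ h0 => ?_⟩
  have a := norm_integral_le_of_norm_le (μ := s.σ) (f := φ)
    (g := (K0 v s).indicator fun y => B * maj v s y)
    ((integrable_indicator_iff hK.measurableSet).2 (hint.const_mul B)) (hae.mono fun y hy => by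
      by_cases hy' : y ∈ K0 v s
      · rw [indicator_of_mem hy']; exact hφ y hy'
      · rw [indicator_of_notMem hy', h0 y hy hy', norm_zero])
  rw [integral_indicator hK.measurableSet, integral_const_mul] at a
  exact a.trans (mul_le_mul_of_nonneg_left main hB)

end Vale.Agent.P134.DG
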