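import Vale.Agent.P134.QDefs

/-! P134, block A4: basic facts on the area measure and the majorant. -/

open scoped RealInnerProductSpace ContDiff ENNReal Topology Laplacian
open MeasureTheory Set Metric Filter

namespace Vale.Agent.P134.DG

theorem QMj1_real {σ : Measure (E 3)}
    (hv : ∀ A : Set (E 3), MeasurableSet A → σ A ≤ 2 * volume (thickening 1 A)) {A B : Set (E 3)}
    (hA : MeasurableSet A) (hB : Bornology.IsBounded B)
    (h : ∀ x, ∀ y ∈ A, dist x y < 1 → x ∈ B) : σ A < ⊤ ∧ σ.real A ≤ 2 * volume.real B := by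
  have a : σ A ≤ 2 * volume B := (hv A hA).trans (by
    gcongr
    intro x hx
    obtain ⟨y, hy, k⟩ := mem_thickening_iff.1 hx
    exact h x y hy k)
  have b : 2 * volume B ≠ ⊤ := ENNReal.mul_ne_top (by simp) hB.measure_lt_top.ne
  refine ⟨a.trans_lt b.lt_top, ?_⟩
  have := ENNReal.toReal_mono b a
  rwa [ENNReal.toReal_mul, ENNReal.toReal_ofNat] at this

theorem q_mj1 (hA : S_Alg) (hb : Q_bas) : Q_mj1 := by
  classical
  intro v X CX C s h
  obtain ⟨b1, -, b3, -, -, -, -, -, -, -, b4, -⟩ := hb v h.ctx.sol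
  have hv := h.ctx.surf.vol
  have cd : Continuous s.d := h.lip.continuous
  have cx : Continuous fun y : E 3 => dist y s.x0 := by fun_prop
  have ld : ∀ x y, dist x y < 1 → s.d x ≤ s.d y + 1 := fun x y k => by
    have := h.lip.le_add_mul x y
    rw [NNReal.coe_one, one_mul] at this
    linarith
  have lx : ∀ x y : E 3, dist x y < 1 → dist x s.x0 ≤ dist y s.x0 + 1 ∧
      dist y s.x0 ≤ dist x s.x0 + 1 := fun x y k => by
    have a := dist_triangle x y s.x0
    have b := dist_triangle y x s.x0
    rw [dist_comm y x] at b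
    constructor <;> linarith
  have fin : IsFiniteMeasureOnCompacts s.σ := ⟨fun K hK =>
    (QMj1_real hv hK.measurableSet (hK.isBounded.thickening (δ := 1))
      fun x y hy k => mem_thickening_iff.2 ⟨y, hy, k⟩).1⟩
  have cK : IsCompact (K0 v s) := by
    refine (isCompact_closedBall s.x0 (s.R + s.T - 1)).of_isClosed_subset ?_ fun y hy => hy.2.2.2
    exact (isClosed_eq b1.continuous continuous_const).inter
      ((isClosed_le continuous_const cd).inter ((isClosed_le cd continuous_const).inter
        (isClosed_le cx continuous_const)))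
  have KO : K0 v s ⊆ s.O := fun y hy => h.hO y hy.1 (by linarith [hy.2.1])
  have hL := h.hL
  have m0 : ∀ y, 0 ≤ maj v s y ∧ maj v s y ≤ 1 + Real.exp (s.L / 3) + 1 := fun y => by
    have a1 : Real.exp (-(2 * s.L)) * Real.exp (-max (s.d y - s.ρ - 2 * s.L) 0) ≤ 1 :=
      mul_le_one₀ (Real.exp_le_one_iff.2 (by linarith)) (Real.exp_pos _).le
        (Real.exp_le_one_iff.2 (neg_nonpos.2 (le_max_right _ _)))
    have a2 : 0 ≤ Real.exp (-(2 * s.L)) * Real.exp (-max (s.d y - s.ρ - 2 * s.L) 0) := by
      positivity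
    have a3 := mul_le_of_le_one_right (Real.exp_pos (s.L / 3)).le (b4 y).2.1
    have a4 := mul_nonneg (Real.exp_pos (s.L / 3)).le (b4 y).1
    have a5 := Real.exp_pos (s.L / 3)
    unfold maj
    split_ifs <;> constructor <;> linarith
  have S0 : 0 ≤ Sm v s := integral_nonneg fun x => (b4 x).2.2.2.2.1
  have A0 : 0 ≤ An s := measureReal_nonneg
  have r0 : 0 ≤ s.ρ := by linarith [h.hρ]
  have bd : ∀ (p : E 3 → Prop), (∀ x, p x → dist x s.x0 ≤ s.R + s.T) →
      Bornology.IsBounded {x | p x} := fun p hp => isBounded_closedBall.subset hp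
  refine ⟨fin, ?_, cK, KO, fun y hy => ?_, fun y => (m0 y).1, S0, A0, ?_, ?_, fun x => ?_,
    fun r r1 r2 => ?_, ?_⟩
  · filter_upwards [mem_ae_iff.2 h.ctx.surf.supp] with y hy using hy.2
  · have t1 := h.ctx.good.th_le y (KO hy)
    obtain ⟨-, t2, -⟩ := h.ctx.good.small y (KO hy) hy.1 y (mem_ball_self (by norm_num))
    obtain ⟨-, -, -, -, -, -, -, -, a1, a2, -⟩ := hA v y h.ctx.sol t1
    have f0 : 0 ≤ fro (SS v y) := Finset.sum_nonneg fun _ _ => sq_nonneg _
    have f1 : fro (SS v y) ≤ 6 * s.ε ^ 2 :=
      a1.trans (by gcongr)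
    have e0 := h.ctx.pos
    have e1 := h.ctx.small
    refine ⟨t1, ?_, fun t ht => ⟨KO hy, ?_⟩⟩
    · have := sq_nonneg (HH v y)
      rw [KK, abs_le]
      constructor <;> nlinarith
    · have c1 : t ^ 2 ≤ s.L ^ 2 := by
        rw [← sq_abs]
        gcongr
      have c2 : (s.ε * s.L) ^ 2 ≤ (1 / 100) ^ 2 := pow_le_pow_left₀ (by positivity) h.hε 2
      have c3 := mul_le_mul c1 f1 f0 (sq_nonneg _)
      show t ^ 2 * fro (SS v y) < 1 / 400
      linarith
  · have := h.hn
    unfold Er
    positivity
  · refine Measure.integrableOn_of_bounded cK.measure_lt_top.ne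
      (Measurable.aestronglyMeasurable ?_) (M := 1 + Real.exp (s.L / 3) + 1)
      (Eventually.of_forall fun y => by rw [Real.norm_of_nonneg (m0 y).1]; exact (m0 y).2)
    unfold maj
    refine (Measurable.add (Continuous.measurable (by fun_prop)) (measurable_const.mul
      (Measurable.ite ?_ b3.measurable measurable_const))).add
      (Measurable.ite ?_ measurable_const measurable_const)
    · exact ((isClosed_le continuous_const cd).inter (isClosed_le cd continuous_const)).measurableSet
    · exact (isClosed_le continuous_const cx).measurableSet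
  · obtain ⟨a1, a2⟩ := QMj1_real hv (measurableSet_ball (x := x) (ε := 1))
      (isBounded_ball (x := x) (r := 2)) fun z y hy k => by
        have := dist_triangle z y x
        rw [mem_ball] at hy ⊢
        linarith
    rw [← ofReal_measureReal a1.ne]
    refine ENNReal.ofReal_le_ofReal (a2.trans ?_)
    rw [Measure.real, EuclideanSpace.volume_ball_fin_three, ENNReal.toReal_mul, ENNReal.toReal_pow,
      ENNReal.toReal_ofReal (by norm_num), ENNReal.toReal_ofReal (by positivity)]
    linarith [Real.pi_le_four]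
  · have a := h.vol (r + 1) (by linarith) (by linarith)
    rw [show r + 1 + 2 = r + 3 by ring] at a
    refine (QMj1_real hv ((isClosed_le cd continuous_const).inter
      (isClosed_le cx continuous_const)).measurableSet
      (bd (fun x => s.d x ≤ r + 1 ∧ dist x s.x0 ≤ s.R + s.T) fun x k => k.2)
      fun x y hy k => ⟨?_, ?_⟩).2.trans (by linarith)
    · linarith [ld x y k, show s.d y ≤ r from hy.1]
    · linarith [(lx x y k).1, show dist y s.x0 ≤ s.R + s.T - 1 from hy.2]
  · refine (QMj1_real hv ((isClosed_le cd continuous_const).inter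
      ((isClosed_le continuous_const cx).inter (isClosed_le cx continuous_const))).measurableSet
      (bd (fun x => s.d x ≤ s.T ∧ s.R - s.T ≤ dist x s.x0 ∧ dist x s.x0 ≤ s.R + s.T)
        fun x k => k.2.2) fun x y hy k => ⟨?_, ?_, ?_⟩).2
    · linarith [ld x y k, show s.d y ≤ s.T - 1 from hy.1]
    · linarith [(lx x y k).2, show s.R - s.T + 1 ≤ dist y s.x0 from hy.2.1]
    · linarith [(lx x y k).1, show dist y s.x0 ≤ s.R + s.T - 1 from hy.2.2]

end Vale.Agent.P134.DG
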