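import Vale.Agent.P134.QDefs

/-! P134, block A4: the exponential weight on the zero set. -/

open scoped RealInnerProductSpace ContDiff ENNReal Topology Laplacian
open MeasureTheory Set Metric Filter

namespace Vale.Agent.P134.DG

theorem QMj2_sum : ∃ C : ℝ, 0 < C ∧ ∀ n : ℕ,
    ∑ j ∈ Finset.range n, Real.exp (1 - j) * (1 + (j : ℝ)) ^ 3 ≤ C := by
  have h := ((summable_nat_add_iff 1).2
    (Real.summable_pow_mul_exp_neg_nat_mul 3 one_pos)).mul_left (Real.exp 2)
  have h1 : Summable fun j : ℕ => Real.exp (1 - j) * (1 + (j : ℝ)) ^ 3 := h.congr fun j => by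
    rw [show (1 : ℝ) - j = 2 + -1 * ((j + 1 : ℕ) : ℝ) by push_cast; ring, Real.exp_add]
    push_cast
    ring
  have h2 : ∀ j : ℕ, 0 ≤ Real.exp (1 - j) * (1 + (j : ℝ)) ^ 3 := fun j => by positivity
  exact ⟨_ + 1, add_pos_of_nonneg_of_pos (tsum_nonneg h2) one_pos, fun n =>
    (h1.sum_le_tsum _ fun j _ => h2 j).trans (le_add_of_nonneg_right zero_le_one)⟩

theorem q_mj2 (h1 : Q_mj1) : Q_mj2 := by
  obtain ⟨C0, hC0, hs⟩ := QMj2_sum
  refine ⟨16 * C0, by positivity, fun v X CX C s h => ?_⟩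
  obtain ⟨f1, -, hK, -, -, -, -, -, -, -, -, hv, -⟩ := h1 v X CX C s h
  have hL := h.hL
  have hρ := h.hρ
  have hT := h.hT
  have hn := h.hn
  have hd := h.lip.continuous
  set A : ℕ → Set (E 3) := fun j =>
    {y | s.d y ≤ min (s.ρ + 2 * s.L + j) (s.T - 1) ∧ dist y s.x0 ≤ s.R + s.T - 1}
  have mA : ∀ j, MeasurableSet (A j) := fun j =>
    ((isClosed_le hd continuous_const).inter
      (isClosed_le (continuous_id.dist continuous_const) continuous_const)).measurableSet
  have iA : ∀ j : ℕ, Integrable (fun y => Real.exp (1 - j) * (A j).indicator 1 y) s.σ := fun j =>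
    ((integrable_indicator_iff (mA j)).2 (integrableOn_const ((measure_mono fun y hy => hy.2).trans_lt
      (isCompact_closedBall s.x0 (s.R + s.T - 1)).measure_lt_top).ne)).const_mul _
  have nA : ∀ (j : ℕ) y, 0 ≤ Real.exp (1 - j) * (A j).indicator 1 y := fun j y =>
    mul_nonneg (Real.exp_pos _).le (indicator_nonneg (fun _ _ => zero_le_one) y)
  have ig := integrable_finset_sum (Finset.range (⌈s.T⌉₊ + 1)) fun j _ => iA j
  refine (integral_mono_of_nonneg (Eventually.of_forall fun y => (Real.exp_pos _).le)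
    ig.integrableOn ((ae_restrict_iff' hK.measurableSet).2 (Eventually.of_forall
      fun y hy => ?_))).trans ((setIntegral_le_integral ig (Eventually.of_forall fun y =>
        Finset.sum_nonneg fun j _ => nA j y)).trans ?_)
  · obtain ⟨-, -, a1, a2⟩ := hy
    set t := max (s.d y - s.ρ - 2 * s.L) 0
    have t0 : 0 ≤ t := le_max_right _ _
    have t1 : s.d y - s.ρ - 2 * s.L ≤ t := le_max_left _ _
    have t2 : t ≤ s.T := max_le (by linarith) (by linarith)
    refine le_trans ?_ (Finset.single_le_sum (fun j _ => nA j y)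
      (Finset.mem_range.2 (Nat.lt_succ_of_le (Nat.ceil_mono t2))))
    rw [indicator_of_mem (show y ∈ A ⌈t⌉₊ from ⟨le_min (by linarith [Nat.le_ceil t]) a1, a2⟩),
      Pi.one_apply, mul_one]
    exact Real.exp_le_exp.2 (by linarith [Nat.ceil_lt_add_one t0])
  · rw [integral_finset_sum _ fun j _ => iA j]
    refine le_trans ?_ ((mul_le_mul_of_nonneg_right (hs (⌈s.T⌉₊ + 1))
      (show 0 ≤ 16 * (s.ρ ^ 3 * s.nn) by
        have : 0 ≤ s.ρ := by linarith
        positivity)).trans_eq (by ring))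
    rw [Finset.sum_mul]
    refine Finset.sum_le_sum fun j _ => ?_
    have j0 : (0 : ℝ) ≤ j := Nat.cast_nonneg j
    have b0 : 0 ≤ min (s.ρ + 2 * s.L + j) (s.T - 1) := le_min (by linarith) (by linarith)
    rw [integral_const_mul, integral_indicator_one (mA j), mul_assoc]
    refine mul_le_mul_of_nonneg_left ((hv _ b0 (min_le_right _ _)).trans ?_) (Real.exp_pos _).le
    have b1 : min (s.ρ + 2 * s.L + j) (s.T - 1) + 3 ≤ 2 * s.ρ * (1 + j) := by
      nlinarith [min_le_left (s.ρ + 2 * s.L + j) (s.T - 1)]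
    have b2 := mul_le_mul_of_nonneg_right (pow_le_pow_left₀ (by linarith) b1 3) hn
    linarith

end Vale.Agent.P134.DG
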