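import Vale.Agent.P134.QDefs

/-! P134, block A4: the nearest point of the zero set. -/

open scoped RealInnerProductSpace ContDiff ENNReal Topology Laplacian
open MeasureTheory Set Metric Filter

namespace Vale.Agent.P134.DG

theorem QNear_lag {v : E 3 → ℝ} (hv : ContDiff ℝ ∞ v) {x y : E 3} (hp : gradient v y ≠ 0)
    (h : ∀ z, v z = v y → dist x y ≤ dist x z) : ∃ c : ℝ, x = y + c • gradient v y := by
  have m : IsLocalExtrOn (fun z : E 3 => ‖z - x‖ ^ 2) {z | v z = v y} y :=
    Or.inl (IsMinOn.localize fun z hz => by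
      have := h z hz
      rw [dist_comm, dist_comm x z, dist_eq_norm, dist_eq_norm] at this
      exact pow_le_pow_left₀ (norm_nonneg _) this 2)
  obtain ⟨a, b, hab, e⟩ := m.exists_multipliers_of_hasStrictFDerivAt_1d
    (hv.contDiffAt.hasStrictFDerivAt (by simp))
    ((hasStrictFDerivAt_norm_sq (y - x)).comp y ((hasStrictFDerivAt_id y).sub_const x))
  have e' : a • gradient v y + (2 * b) • (y - x) = 0 := by
    refine ext_inner_right ℝ fun w => ?_
    have := congrArg (fun L : E 3 →L[ℝ] ℝ => L w) e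
    rw [inner_add_left, real_inner_smul_left, real_inner_smul_left, inner_gradient, inner_zero_left]
    simpa [dv, mul_comm, mul_left_comm, mul_assoc, inner_sub_left] using this
  have b0 : b ≠ 0 := by
    rintro rfl
    rw [mul_zero, zero_smul, add_zero, smul_eq_zero] at e'
    exact hab (by rw [e'.resolve_right hp]; rfl)
  refine ⟨a / (2 * b), smul_right_injective _ (mul_ne_zero two_ne_zero b0) ?_⟩
  show (2 * b) • x = (2 * b) • (y + (a / (2 * b)) • gradient v y)
  rw [smul_add, smul_smul, mul_div_cancel₀ _ (mul_ne_zero two_ne_zero b0)]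
  linear_combination (norm := module) -e'

theorem q_near (hb : Q_bas) : Q_near := by
  intro v X CX C s ok x hx
  by_cases h : ∀ z, dist z x < s.L → v z ≠ 0
  · exact Or.inl (ok.pw.dec x _ h)
  push Not at h
  obtain ⟨z0, h0, v0⟩ := h
  have cl : IsClosed {z | v z = 0} := isClosed_eq (hb v ok.ctx.sol).1.continuous continuous_const
  obtain ⟨y, hy, e⟩ := cl.exists_infDist_eq_dist ⟨z0, v0⟩ x
  replace hy : v y = 0 := hy
  have mn : ∀ z, v z = 0 → dist x y ≤ dist x z := fun z hz => e ▸ infDist_le_dist_of_mem hz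
  have r0 : dist x y < s.L := (mn z0 v0).trans_lt (by rwa [dist_comm])
  have d0 : 0 < s.d y := by
    have := ok.lip.dist_le_mul x y
    rw [NNReal.coe_one, one_mul, Real.dist_eq] at this
    linarith [le_abs_self (s.d x - s.d y), ok.hρ, ok.hL]
  have t0 := ok.ctx.good.th_le y (ok.hO y hy d0)
  have p0 : gradient v y ≠ 0 := fun k => by
    rw [th, k, norm_zero] at t0
    norm_num at t0
  obtain ⟨c, hc⟩ := QNear_lag ok.ctx.sol.smooth p0 fun z hz => mn z (hz.trans hy)
  have n0 := norm_ne_zero_iff.2 p0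
  have e1 : |c * ‖gradient v y‖| = dist x y := by
    rw [hc, dist_self_add_left, norm_smul, abs_mul, abs_norm, Real.norm_eq_abs]
  refine Or.inr ⟨y, c * ‖gradient v y‖, hy, by rw [e1]; exact r0.le, ?_, t0, ?_⟩
  · show y + (c * ‖gradient v y‖) • ‖gradient v y‖⁻¹ • gradient v y = x
    rw [smul_smul, mul_inv_cancel_right₀ n0, ← hc]
  · rw [e1]
    exact ok.pw.dec x _ fun z hz k => (mn z k).not_gt (by rwa [dist_comm x z])

end Vale.Agent.P134.DG
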