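import Vale.Agent.P134.QDefs

/-! P134, block A4: the outer test. -/

open scoped RealInnerProductSpace ContDiff ENNReal Topology Laplacian
open MeasureTheory Set Metric Filter

namespace Vale.Agent.P134.DG

theorem QOut_int {σ : Measure (E 3)} {v F f₁ f₂ f₃ : E 3 → ℝ} {K : Set (E 3)} (a b c : ℝ)
    (hK : MeasurableSet K) (hv : ∀ᵐ y ∂σ, v y = 0) (h₁ : IntegrableOn f₁ K σ)
    (h₂ : IntegrableOn f₂ K σ) (h₃ : IntegrableOn f₃ K σ) (h0 : ∀ y, 0 ≤ F y)
    (hz : ∀ y, v y = 0 → y ∉ K → F y = 0) (hle : ∀ y ∈ K, F y ≤ a * f₁ y + b * f₂ y + c * f₃ y) :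
    ∫ y, F y ∂σ ≤ a * (∫ y in K, f₁ y ∂σ) + b * (∫ y in K, f₂ y ∂σ) + c * ∫ y in K, f₃ y ∂σ := by
  have i₁ : Integrable (fun y => a * f₁ y) (σ.restrict K) := h₁.const_mul a
  have i₂ : Integrable (fun y => b * f₂ y) (σ.restrict K) := h₂.const_mul b
  have i₃ : Integrable (fun y => c * f₃ y) (σ.restrict K) := h₃.const_mul c
  have i₄ : Integrable (fun y => a * f₁ y + b * f₂ y) (σ.restrict K) := i₁.add i₂
  rw [← setIntegral_eq_integral_of_ae_compl_eq_zero (s := K) (hv.mono fun y hy => hz y hy),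
    ← integral_const_mul, ← integral_const_mul, ← integral_const_mul, ← integral_add i₁ i₂,
    ← integral_add i₄ i₃]
  exact integral_mono_of_nonneg (Eventually.of_forall h0) (i₄.add i₃)
    ((ae_restrict_mem hK).mono hle)

theorem QOut_m1 {v : E 3 → ℝ} {s : Su} {y : E 3} (h : 0 ≤ th v y) (hd : s.d y ≤ s.ρ + 2 * s.L) :
    Real.exp (-(2 * s.L)) + (if s.R - s.T + 1 ≤ dist y s.x0 then 1 else 0) ≤ maj v s y := by
  unfold maj
  rw [max_eq_right (by linarith), neg_zero, Real.exp_zero, mul_one]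
  have : 0 ≤ Real.exp (s.L / 3) *
      (if s.ρ - 2 * s.L - 1 ≤ s.d y ∧ s.d y ≤ s.ρ + 2 * s.L + 1 then th v y else 0) := by
    split_ifs <;> positivity
  linarith

theorem QOut_m0 {v : E 3 → ℝ} {s : Su} {y : E 3} (h : 0 ≤ th v y) :
    Real.exp (-(2 * s.L)) * Real.exp (-max (s.d y - s.ρ - 2 * s.L) 0) ≤ maj v s y ∧
    (s.R - s.T + 1 ≤ dist y s.x0 → 1 ≤ maj v s y) ∧
    (0 ≤ s.L → s.ρ - 2 * s.L - 1 ≤ s.d y → s.d y ≤ s.ρ + 2 * s.L + 1 → th v y ≤ maj v s y) := by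
  unfold maj
  have a : 0 ≤ Real.exp (s.L / 3) *
      (if s.ρ - 2 * s.L - 1 ≤ s.d y ∧ s.d y ≤ s.ρ + 2 * s.L + 1 then th v y else 0) := by
    split_ifs <;> positivity
  have b : (0 : ℝ) ≤ if s.R - s.T + 1 ≤ dist y s.x0 then 1 else 0 := by
    split_ifs <;> norm_num
  have c : 0 ≤ Real.exp (-(2 * s.L)) * Real.exp (-max (s.d y - s.ρ - 2 * s.L) 0) := by positivity
  refine ⟨by linarith, fun h1 => ?_, fun h1 h2 h3 => ?_⟩
  · rw [if_pos h1]; linarith
  · rw [if_pos ⟨h2, h3⟩]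
    have := le_mul_of_one_le_left h (Real.one_le_exp (by linarith : 0 ≤ s.L / 3))
    linarith

/-- a weight that is exponentially small away from the shell -/
theorem QOut_w {v : E 3 → ℝ} {s : Su} {y : E 3} {w a τ x : ℝ} (h : 0 ≤ th v y) (h1 : th v y ≤ 1)
    (hL : 0 ≤ s.L) (hx0 : 0 ≤ x) (hx1 : x ≤ 1) (hτ0 : 0 ≤ τ) (hτ : s.ρ + 1 ≤ s.d y → τ = 1)
    (hw0 : 0 ≤ w) (hw : w ≤ a) (hm : 0 ≤ maj v s y)
    (hw' : s.ρ + 2 * s.L + 1 ≤ s.d y ∨ s.d y ≤ s.ρ - 2 * s.L → w ≤ a * Real.exp (-(2 * s.L))) :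
    w * (th v y * x ^ 2) ≤ a * Real.exp (-(2 * s.L)) * (τ * th v y * x ^ 2) + a * maj v s y := by
  have ha : 0 ≤ a := hw0.trans hw
  have hx : x ^ 2 ≤ 1 := pow_le_one₀ hx0 hx1
  have p0 : 0 ≤ th v y * x ^ 2 := by positivity
  have p1 : th v y * x ^ 2 ≤ th v y := mul_le_of_le_one_right h hx
  have p2 : 0 ≤ a * Real.exp (-(2 * s.L)) * (τ * th v y * x ^ 2) := by positivity
  by_cases c1 : s.ρ + 2 * s.L + 1 ≤ s.d y
  · rw [hτ (by linarith), one_mul]
    have := mul_le_mul_of_nonneg_right (hw' (Or.inl c1)) p0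
    have := mul_nonneg ha hm
    linarith
  by_cases c2 : s.d y ≤ s.ρ - 2 * s.L
  · have e1 := mul_le_mul (hw' (Or.inr c2)) (p1.trans h1) p0 (by positivity)
    have e2 := QOut_m1 (s := s) h (by linarith)
    have e3 : (0 : ℝ) ≤ if s.R - s.T + 1 ≤ dist y s.x0 then 1 else 0 := by
      split_ifs <;> norm_num
    have e4 := mul_le_mul_of_nonneg_left
      (show Real.exp (-(2 * s.L)) ≤ maj v s y by linarith) ha
    linarith
  · have e1 := (QOut_m0 (s := s) h).2.2 hL (by linarith) (by linarith)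
    have e2 := mul_le_mul hw (p1.trans e1) p0 ha
    linarith

theorem QOut_fin {s0 c C1 C CX C2 e A I Q m B Er YT J1 J2 J3 J4 : ℝ} (hs : 0 ≤ s0) (hC1 : 0 < C1)
    (hC : 1 ≤ C) (hX0 : 0 ≤ CX) (hX : CX ≤ C) (hC2 : 0 < C2) (he : C1 * (2 + 2 * C) * e ≤ c)
    (hA : 0 ≤ A) (hI : 0 ≤ I) (hQ : 0 ≤ Q) (hm : 0 ≤ m) (hB : Q ≤ B) (hE0 : 0 ≤ Er)
    (hE : m ≤ C2 * Er)
    (h : s0 * A + c * I ≤ 13 / 10 * s0 * J1 + YT + C1 * J2 + C1 * J3 + C1 * (1 + CX) * J4)
    (h1 : J1 ≤ 0 * I + 3 * Q + 12 * C ^ 2 * m) (h2 : J2 ≤ 2 * e * I + 6 * Q + (2 + 48 * C ^ 2) * m)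
    (h3 : J3 ≤ 2 * C * e * I + 0 * Q + 2 * C * m) (h4 : J4 ≤ 0 * I + 0 * Q + C * m) :
    0 ≤ (4 * s0 + 6 * C1 + (16 * s0 * C ^ 2 + C1 * (2 + 48 * C ^ 2 + 2 * C + (1 + C) * C)) * C2) * B +
      YT + (4 * s0 + 6 * C1 +
        (16 * s0 * C ^ 2 + C1 * (2 + 48 * C ^ 2 + 2 * C + (1 + C) * C)) * C2) * Er := by
  have hC0 : 0 ≤ C := by linarith
  have a1 := mul_le_mul_of_nonneg_left h1 (show 0 ≤ 13 / 10 * s0 by positivity)
  have a2 := mul_le_mul_of_nonneg_left h2 hC1.le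
  have a3 := mul_le_mul_of_nonneg_left h3 hC1.le
  have a4 := mul_le_mul_of_nonneg_left h4 (show 0 ≤ C1 * (1 + CX) by positivity)
  have a5 := mul_le_mul_of_nonneg_right he hI
  have a6 := mul_nonneg hs hA
  have a7 : C1 * (1 + CX) * (C * m) ≤ C1 * (1 + C) * (C * m) := by gcongr
  have a8 := mul_nonneg hs hQ
  have a9 : 0 ≤ s0 * C ^ 2 * m := by positivity
  set a := 4 * s0 + 6 * C1 with ha
  set b := 16 * s0 * C ^ 2 + C1 * (2 + 48 * C ^ 2 + 2 * C + (1 + C) * C) with hb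
  have k : 0 ≤ a * Q + YT + b * m := by rw [ha, hb]; linarith
  have a0 : 0 ≤ a := by positivity
  have b0 : 0 ≤ b := by positivity
  have k1 := mul_le_mul_of_nonneg_left hB a0
  have k2 := mul_le_mul_of_nonneg_left hE b0
  have k3 : 0 ≤ b * C2 * B := by have := hQ.trans hB; positivity
  have k4 := mul_nonneg a0 hE0
  linarith

theorem q_out (hRS : S_RS) (hb : Q_bas) (h1 : Q_mj1) (hm : Q_maj) (hd : Q_dd) (hg : Q_gt) :
    Q_out := by
  intro v C hP
  obtain ⟨C1, c, ε₀, hC1, hc, hε₀, H⟩ := hRS v C hP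
  obtain ⟨C2, hC2, H2⟩ := hm C
  have hC := hP.one
  have hs : 0 ≤ s0 := by unfold s0; positivity
  refine ⟨4 * s0 + 6 * C1 + (16 * s0 * C ^ 2 + C1 * (2 + 48 * C ^ 2 + 2 * C + (1 + C) * C)) * C2,
    C1 * (2 + 2 * C) / c, ε₀, by positivity, hε₀, ?_⟩
  intro X CX s ok hL hε χ κ om η B hχ hκ hom hη
  obtain ⟨-, -, cth, -, -, -, -, -, -, -, pt, mη, -⟩ := hb v ok.ctx.sol
  obtain ⟨fin, hv, cK, -, -, m0, -, -, hE0, im, -⟩ := h1 v X CX C s ok
  have D := hd v X CX C s ok χ hχ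
  obtain ⟨ξ, hξ⟩ : ∃ ξ : E 3 → ℝ, ξ = fun y => η y * (1 - κ y) * om y := ⟨_, rfl⟩
  obtain ⟨sξ, cξ, oξ, bξ, gξ, pξ⟩ := hg v X CX C s ok κ om η B hκ hom hη ξ hξ
  rw [← hξ]
  have hL20 := ok.hL
  have hρ := ok.hρ
  have hT := ok.hT
  have τ0 : ∀ y, 0 ≤ 1 - χ y ∧ 1 - χ y ≤ 1 := fun y => by
    constructor <;> linarith [(hχ.rg y).1, (hχ.rg y).2]
  have R := H s.O s.ε s.σ X CX ok.ctx ok.cal ok.pos (fun x => 1 - χ x) ξ C s.L
    (contDiff_const.sub (hχ.sm.of_le (by exact_mod_cast le_top))) τ0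
    (fun x => by simpa [gradient, fderiv_const_sub] using (hχ.der x).1) sξ cξ oξ (by linarith) hε
  have mK := cK.isClosed.measurableSet
  have i₁ : IntegrableOn (fun y => (1 - χ y) * th v y * ξ y ^ 2) (K0 v s) s.σ :=
    (((continuous_const.sub hχ.sm.continuous).mul cth).mul
      (bξ.ct.pow 2)).continuousOn.integrableOn_compact cK
  have i₂ : IntegrableOn ((closedBall s.x0 (s.R + 1)).indicator
      fun y => ‖Pr v y (gradient η y)‖ ^ 2) (K0 v s) s.σ := by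
    refine Integrable.indicator ?_ measurableSet_closedBall
    refine Measure.integrableOn_of_bounded (M := 1) cK.measure_lt_top.ne
      (mη η hη.sm).aestronglyMeasurable ((ae_restrict_mem mK).mono fun y hy => ?_)
    rw [Real.norm_of_nonneg (by positivity)]
    exact pow_le_one₀ (norm_nonneg _) (hη.bd y hy.1)
  have q0 : ∀ y, 0 ≤ (closedBall s.x0 (s.R + 1)).indicator
      (fun y => ‖Pr v y (gradient η y)‖ ^ 2) y := fun y =>
    indicator_nonneg (fun _ _ => by positivity) y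
  have e3 : ∀ y, {y | s.R ≤ dist y s.x0}.indicator (1 : E 3 → ℝ) y ≤ maj v s y := fun y => by
    by_cases h : y ∈ {y | s.R ≤ dist y s.x0}
    · rw [indicator_of_mem h]
      exact (QOut_m0 (pt y).1).2.1 (by have : s.R ≤ dist y s.x0 := h; linarith)
    · rw [indicator_of_notMem h]; exact m0 y
  have e4 : ∀ y, 0 ≤ {y | s.R ≤ dist y s.x0}.indicator (1 : E 3 → ℝ) y := fun y =>
    indicator_nonneg (fun _ _ => zero_le_one) y
  have eI : ∫ y in K0 v s, (1 - χ y) * th v y * ξ y ^ 2 ∂s.σ =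
      ∫ y, (1 - χ y) * th v y * ξ y ^ 2 ∂s.σ :=
    setIntegral_eq_integral_of_ae_compl_eq_zero (hv.mono fun y hy hy' => by
      simp [bξ.zero y hy hy'])
  have W := fun y (w a : ℝ) => QOut_w (s := s) (w := w) (a := a) (pt y).1 (pt y).2.1
    (by linarith) (bξ.rg y).1 (bξ.rg y).2 (τ0 y).1 (fun h => by rw [hχ.zero y h, sub_zero])
  refine QOut_fin (e := Real.exp (-(2 * s.L))) hs hC1 hC ((norm_nonneg _).trans (ok.cal.bdd 0))
    ok.cx hC2 ?_ (integral_nonneg fun y => ?_) (integral_nonneg fun y => ?_)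
    (integral_nonneg q0) (integral_nonneg m0) ?_ hE0 (H2 v X CX s ok).1 R
    (eI ▸ QOut_int _ _ _ mK hv i₁ i₂ im ?_ ?_ ?_) (eI ▸ QOut_int _ _ _ mK hv i₁ i₂ im ?_ ?_ ?_)
    (eI ▸ QOut_int _ _ _ mK hv i₁ i₂ im ?_ ?_ ?_) (eI ▸ QOut_int _ _ _ mK hv i₁ i₂ im ?_ ?_ ?_)
  · rw [div_le_iff₀ hc] at hL
    rw [Real.exp_neg, ← div_eq_mul_inv, div_le_iff₀ (Real.exp_pos _)]
    have := mul_le_mul_of_nonneg_left
      (show s.L ≤ Real.exp (2 * s.L) by linarith [Real.add_one_le_exp (2 * s.L)]) hc.le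
    linarith
  · have := (τ0 y).1
    positivity
  · have := (τ0 y).1
    have := (pt y).1
    positivity
  · rw [setIntegral_indicator measurableSet_closedBall]
    exact hη.en
  · intro y
    have := (τ0 y).1
    positivity
  · intro y hy hy'
    simp [gξ y hy hy']
  · intro y hy
    have p := pξ y hy
    have u : 12 * C ^ 2 * {y | s.R ≤ dist y s.x0}.indicator (1 : E 3 → ℝ) y ≤
        12 * C ^ 2 * maj v s y := mul_le_mul_of_nonneg_left (e3 y) (by positivity)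
    by_cases h : y ∈ {y | s.d y ≤ 2}
    · have h' : s.d y ≤ 2 := h
      rw [hχ.one y (by linarith), sub_self, zero_mul, zero_mul]
      have := q0 y
      have := m0 y
      positivity
    · rw [indicator_of_notMem h] at p
      have := mul_le_of_le_one_left (show 0 ≤ ‖Pr v y (gradient ξ y)‖ ^ 2 by positivity) (τ0 y).2
      linarith
  · intro y
    have := (D y).1
    have := (pt y).1
    positivity
  · intro y hy hy'
    simp [gξ y hy hy', bξ.zero y hy hy']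
  · intro y hy
    have p := mul_le_mul_of_nonneg_left (pξ y hy) (D y).1
    have w := W y _ 2 (D y).1 (D y).2.2.2.1 (m0 y) fun h => ((D y).2.2.2.2.2.1 h).1
    have u1 := mul_le_mul_of_nonneg_right (D y).2.2.2.1 (q0 y)
    have u2 := mul_le_mul_of_nonneg_left
      (mul_le_mul (D y).2.2.2.1 (e3 y) (e4 y) zero_le_two) (show 0 ≤ 12 * C ^ 2 by positivity)
    have u3 : DD v (fun x => 1 - χ x) y * {y | s.d y ≤ 2}.indicator (1 : E 3 → ℝ) y ≤
        2 * maj v s y := by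
      by_cases h : y ∈ {y | s.d y ≤ 2}
      · have h' : s.d y ≤ 2 := h
        have a1 := ((D y).2.2.2.2.2.1 (Or.inr (by linarith))).1
        have a2 := QOut_m1 (s := s) (pt y).1 (by linarith)
        have a3 : (0 : ℝ) ≤ if s.R - s.T + 1 ≤ dist y s.x0 then 1 else 0 := by
          split_ifs <;> norm_num
        rw [indicator_of_mem h, Pi.one_apply]
        linarith
      · rw [indicator_of_notMem h, mul_zero]
        linarith [m0 y]
    have u4 := mul_le_mul_of_nonneg_left u3 (show 0 ≤ 12 * C ^ 2 by positivity)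
    linarith
  · intro y
    have := (D y).2.1
    have := (pt y).1
    positivity
  · intro y hy hy'
    simp [bξ.zero y hy hy']
  · intro y hy
    have w := W y _ (2 * C) (D y).2.1 (D y).2.2.2.2.1 (m0 y) fun h => ((D y).2.2.2.2.2.1 h).2
    linarith
  · intro y
    have := (D y).2.2.1
    positivity
  · intro y hy hy'
    simp [bξ.zero y hy hy']
  · intro y hy
    have a1 := mul_le_of_le_one_right (D y).2.2.1 (pow_le_one₀ (n := 2) (bξ.rg y).1 (bξ.rg y).2)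
    have a2 := (D y).2.2.2.2.2.2
    have a3 := mul_le_mul_of_nonneg_left (QOut_m0 (s := s) (pt y).1).1 (show 0 ≤ C by linarith)
    linarith

end Vale.Agent.P134.DG
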