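import Vale.Agent.P134.QDefs

/-! P134, block A4: pigeonhole arguments and the choice of the parameters. -/

open scoped RealInnerProductSpace ContDiff ENNReal Topology Laplacian
open MeasureTheory Set Metric Filter

namespace Vale.Agent.P134.DG

theorem QPig_one (G : ℝ → ℝ) (a h B q : ℝ) (k : ℕ) (h0 : 0 < G a) (hq : 0 ≤ q)
    (h1 : G (a + k * h) ≤ B * G a) (h2 : B < (1 + q) ^ k) :
    ∃ i : ℕ, i < k ∧ G (a + i * h + h) ≤ (1 + q) * G (a + i * h) := by
  by_contra hn
  have key : ∀ i : ℕ, i ≤ k → (1 + q) ^ i * G a ≤ G (a + i * h) := fun i => by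
    induction i with
    | zero => simp
    | succ i ih =>
      intro hi
      have e := not_le.1 fun e => hn ⟨i, hi, e⟩
      have := mul_le_mul_of_nonneg_left (ih (by omega)) (show 0 ≤ 1 + q by linarith)
      rw [pow_succ', mul_assoc, Nat.cast_succ, add_mul (i : ℝ), one_mul h, ← add_assoc]
      linarith
  have := mul_lt_mul_of_pos_right h2 h0
  linarith [key k le_rfl]

theorem q_pig : Q_pig := by
  refine ⟨QPig_one, fun n W q hm h1 hb hW hq => ?_⟩
  obtain ⟨k, k1, k2⟩ := (((tendsto_pow_const_div_const_pow_of_one_lt 3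
    (show 1 < 1 + q by linarith)).eventually (gt_mem_nhds
      (show 0 < n 1 / (8 * (1 + 2 * W) ^ 3) by positivity))).and (eventually_ge_atTop 1)).exists
  have k3 : (1 : ℝ) ≤ k := by exact_mod_cast k2
  rw [div_lt_div_iff₀ (by positivity) (by positivity)] at k1
  have k4 : (1 + k * (2 * W)) ^ 3 ≤ (k * (1 + 2 * W)) ^ 3 :=
    pow_le_pow_left₀ (by positivity) (by linarith) 3
  obtain ⟨i, -, hi⟩ := QPig_one n 1 (2 * W) (8 * (1 + k * (2 * W)) ^ 3 / n 1) q k h1 hq.le
    (by rw [div_mul_cancel₀ _ h1.ne']; exact hb _ (by positivity))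
    (by rw [div_lt_iff₀ h1]; rw [mul_pow] at k4; linarith)
  refine ⟨1 + i * (2 * W) + W, ?_, ?_⟩
  · rw [add_sub_cancel_right]
    exact h1.trans_le (hm (le_add_of_nonneg_right (by positivity)))
  · rwa [add_sub_cancel_right, add_assoc, ← two_mul]

theorem q_par : Q_par := by
  intro A c hA hc
  have t1 : Tendsto (fun L : ℝ => (1 + L) / 16) atTop atTop :=
    (tendsto_atTop_add_const_left _ 1 tendsto_id).atTop_div_const (by norm_num)
  have t2 := ((Real.tendsto_pow_mul_exp_neg_atTop_nhds_zero 7).comp t1).const_mul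
    (A * 16 ^ 7 * Real.exp (1 / 16))
  rw [mul_zero] at t2
  filter_upwards [t2.eventually (ge_mem_nhds hc), eventually_ge_atTop (432000 : ℝ),
    eventually_gt_atTop (Real.log A)] with L h1 h2 h3
  have h0 : 0 < L := by linarith
  have e2 := Real.pow_div_factorial_le_exp (L / 2) (by linarith) 2
  have e3 := Real.pow_div_factorial_le_exp (L / 10) (by linarith) 3
  norm_num [Nat.factorial] at e2 e3
  have e4 : 12 * L ≤ Real.exp (L / 2) := by nlinarith
  refine ⟨le_of_eq_of_le ?_ h1, by linarith, ⌊Real.exp (L / 2) / (6 * L)⌋₊,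
    (le_div_iff₀ (by linarith)).1 (Nat.floor_le (by positivity)), ?_⟩
  · rw [Function.comp, show -(L / 16) = 1 / 16 + -((1 + L) / 16) by ring, Real.exp_add]
    ring
  · have a1 := Nat.lt_floor_add_one (Real.exp (L / 2) / (6 * L))
    rw [div_lt_iff₀ (by linarith)] at a1
    generalize ⌊Real.exp (L / 2) / (6 * L)⌋₊ = k at a1 ⊢
    have a2 : Real.exp (L / 2) * Real.exp (-(2 * L / 5)) = Real.exp (L / 10) := by
      rw [← Real.exp_add]
      exact congrArg _ (by ring)
    have q0 := Real.exp_pos (-(2 * L / 5))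
    have q1 : Real.exp (-(2 * L / 5)) ≤ 1 := Real.exp_le_one_iff.2 (by linarith)
    generalize Real.exp (-(2 * L / 5)) = q at a2 q0 q1 ⊢
    have a3 : Real.exp (q / 2) ≤ 1 + q := by
      have := Real.add_one_le_exp (-(q / 2))
      rw [Real.exp_neg, le_inv_comm₀ (by linarith) (Real.exp_pos _)] at this
      refine this.trans ?_
      rw [inv_le_iff_one_le_mul₀ (by linarith)]
      nlinarith
    have a4 : Real.exp (L / 2) * q ≤ k * (12 * L) * q :=
      mul_le_mul_of_nonneg_right (by linarith) q0.le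
    have a5 : 3 * L ≤ k * (q / 2) := by
      refine le_of_mul_le_mul_right ?_ (show 0 < 24 * L by linarith)
      nlinarith [mul_le_mul_of_nonneg_right h2 (sq_nonneg L)]
    calc A * Real.exp (2 * L) = Real.exp (Real.log A + 2 * L) := by
          rw [Real.exp_add, Real.exp_log hA]
      _ < Real.exp (k * (q / 2)) := Real.exp_lt_exp.2 (by linarith)
      _ ≤ (1 + q) ^ k := by
          rw [Real.exp_nat_mul]
          exact pow_le_pow_left₀ (Real.exp_pos _).le a3 k

end Vale.Agent.P134.DG
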