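import Vale.Agent.P134.QDefs
import Vale.Agent.P134.TG

/-! P134, block A4: the profile. -/

open scoped RealInnerProductSpace ContDiff ENNReal Topology Laplacian
open MeasureTheory Set Metric Filter

namespace Vale.Agent.P134.DG

open TGAux

theorem QProf_s : 1.4 ≤ √2 ∧ √2 ≤ 1.5 :=
  ⟨Real.le_sqrt_of_sq_le (by norm_num), Real.sqrt_le_iff.2 ⟨by norm_num, by norm_num⟩⟩

theorem QProf_one (t : ℝ) : √2 * g1 t ≤ 1 := by
  rw [g1, mul_div_cancel₀ _ s2.ne']
  linarith [sq_nonneg (gg t)]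

theorem QProf_le (t : ℝ) : g1 t ≤ 1 := by
  nlinarith [QProf_one t, g1_pos t, QProf_s.1]

theorem QProf_mv {f f' : ℝ → ℝ} {C a b : ℝ} (hC : 0 ≤ C) (hf : ∀ t, HasDerivAt f (f' t) t)
    (h : ∀ t, |f' t| ≤ C * g1 t ^ 2) (hab : |a - b| ≤ 1) :
    |f a - f b| ≤ 200 * C * Real.exp (-(2 * √2 * |b|)) * |a - b| := by
  have e3 : Real.exp 3 ≤ 21 := by
    have h1 := Real.exp_one_lt_d9.le
    have h2 : Real.exp 3 = Real.exp 1 ^ 3 := by rw [← Real.exp_nat_mul]; norm_num
    rw [h2]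
    exact (pow_le_pow_left₀ (Real.exp_pos 1).le h1 3).trans (by norm_num)
  refine (convex_uIcc b a).norm_image_sub_le_of_norm_hasDerivWithin_le
    (fun t _ => (hf t).hasDerivWithinAt) (fun t ht => ?_) left_mem_uIcc right_mem_uIcc
  have h1 : |t - b| ≤ 1 := (abs_sub_left_of_mem_uIcc ht).trans hab
  have h2 : |b| - 1 ≤ |t| := by
    have := abs_sub_abs_le_abs_sub b t
    rw [abs_sub_comm] at this
    linarith
  have h3 : Real.exp (-(2 * √2 * |t|)) ≤ Real.exp 3 * Real.exp (-(2 * √2 * |b|)) := by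
    rw [← Real.exp_add, Real.exp_le_exp]
    nlinarith [QProf_s.2, s2]
  have h4 := Real.exp_pos (-(2 * √2 * |b|))
  have h5 : g1 t ^ 2 ≤ 200 * Real.exp (-(2 * √2 * |b|)) := by
    nlinarith [g1_sq t]
  exact (h t).trans ((mul_le_mul_of_nonneg_left h5 hC).trans_eq (by ring))

theorem q_prof : Q_prof := by
  refine ⟨fun t => ⟨d_gg t, d_g1 t, abs_gg t, le_trans ?_ (g1_ge t), (g1_le t).trans ?_,
    QProf_le t, QProf_one t⟩, ?_, fun a b h => ?_, fun a b h => ⟨?_, ?_⟩⟩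
  · exact div_le_div_of_nonneg_left (Real.exp_pos _).le s2 (by linarith [QProf_s.2])
  · rw [div_le_iff₀ s2]
    nlinarith [QProf_s.1, Real.exp_pos (-(√2 * |t|))]
  · rw [g1, gg_zero, mul_div_cancel₀ _ s2.ne']
    norm_num
  · rw [g1_eq, g1_eq]
    have h1 : Real.cosh (|a| / √2) ≤ Real.cosh (|b| / √2) := by
      rw [Real.cosh_le_cosh, abs_div, abs_div, abs_abs, abs_abs, abs_of_pos s2]
      exact div_le_div_of_nonneg_right h s2.le
    have h2 := Real.cosh_pos (|a| / √2)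
    exact one_div_le_one_div_of_le (by positivity)
      (mul_le_mul_of_nonneg_left (pow_le_pow_left₀ h2.le h1 2) s2.le)
  · refine (QProf_mv (C := 5) (f := fun t => g1 t ^ 2)
      (f' := fun t => -(2 * √2 * gg t) * g1 t ^ 2) (by norm_num)
      (fun t => ((d_g1 t).fun_pow 2).congr_deriv (by push_cast; ring)) (fun t => ?_) h).trans_eq
      (by ring)
    rw [abs_mul, abs_of_nonneg (sq_nonneg (g1 t)), abs_neg, abs_mul, abs_of_pos (by positivity)]
    refine mul_le_mul_of_nonneg_right ?_ (sq_nonneg _)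
    nlinarith [QProf_s.2, abs_gg t, abs_nonneg (gg t), s2]
  · refine (QProf_mv (C := 10) (f := fun t => g1 t ^ 2 * gg t)
      (f' := fun t => (g1 t - 2 * √2 * gg t ^ 2) * g1 t ^ 2) (by norm_num)
      (fun t => (((d_g1 t).fun_pow 2).fun_mul (d_gg t)).congr_deriv (by push_cast; ring))
      (fun t => ?_) h).trans_eq (by ring)
    rw [abs_mul, abs_of_nonneg (sq_nonneg (g1 t))]
    refine mul_le_mul_of_nonneg_right (abs_le.2 ?_) (sq_nonneg _)
    have h1 := (sq_lt_one_iff_abs_lt_one _).2 (abs_gg t)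
    constructor <;> nlinarith [QProf_s.2, QProf_le t, g1_pos t, sq_nonneg (gg t), s2]

end Vale.Agent.P134.DG
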