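import Vale.Agent.P134.QDefs

/-! P134, block A4: the logarithmic profile and the stability inequality with weight one. -/

open scoped RealInnerProductSpace ContDiff ENNReal Topology Laplacian
open MeasureTheory Set Metric Filter

namespace Vale.Agent.P134.DG

theorem QTh_zero {f : ℝ → ℝ} (h : ∀ r, 0 ≤ f r ∧ f r ≤ 1) {r : ℝ} (e : f r = 0 ∨ f r = 1) :
    deriv f r = 0 := by
  rcases e with e | e
  · exact IsLocalMin.deriv_eq_zero (Eventually.of_forall fun x => e.trans_le (h x).1)
  · exact IsLocalMax.deriv_eq_zero (Eventually.of_forall fun x => (h x).2.trans_eq e.symm)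

theorem QTh_bd : ∃ M, 0 < M ∧ ∀ s, |deriv Real.smoothTransition s| ≤ M := by
  obtain ⟨M, hM⟩ := (isCompact_Icc (a := (0 : ℝ)) (b := 1)).exists_bound_of_continuousOn
    ((Real.smoothTransition.contDiff (n := 1)).continuous_deriv le_rfl).continuousOn
  refine ⟨|M| + 1, by positivity, fun s => ?_⟩
  by_cases h : s ∈ Icc (0 : ℝ) 1
  · exact (hM s h).trans (by linarith [le_abs_self M])
  · rw [QTh_zero (fun r => ⟨Real.smoothTransition.nonneg r, Real.smoothTransition.le_one r⟩)
      ((not_and_or.1 h).imp (fun a => Real.smoothTransition.zero_of_nonpos (not_le.1 a).le)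
        fun a => Real.smoothTransition.one_of_one_le (not_le.1 a).le), abs_zero]
    positivity

theorem q_th : Q_th := by
  obtain ⟨M, M0, hM⟩ := QTh_bd
  have l2 : 0 < Real.log 2 := Real.log_pos one_lt_two
  refine ⟨M / Real.log 2, by positivity, fun m hm => ?_⟩
  have m0 : 0 < (m : ℝ) * Real.log 2 := mul_pos (Nat.cast_pos.2 hm) l2
  obtain ⟨Θ, hΘ⟩ : ∃ Θ : ℝ → ℝ, Θ = fun r =>
    Real.smoothTransition (2 - Real.log (max r 1) / (m * Real.log 2)) := ⟨_, rfl⟩
  have h0 : ∀ r, 0 ≤ Θ r ∧ Θ r ≤ 1 := fun r =>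
    hΘ ▸ ⟨Real.smoothTransition.nonneg _, Real.smoothTransition.le_one _⟩
  have h1 : ∀ r, r ≤ 2 ^ m → Θ r = 1 := fun r hr => by
    have := Real.log_le_log (by positivity) (max_le hr (one_le_pow₀ one_le_two))
    rw [Real.log_pow, ← div_le_one m0] at this
    exact hΘ ▸ Real.smoothTransition.one_of_one_le (by linarith)
  have h2 : ∀ r, 2 ^ (2 * m) ≤ r → Θ r = 0 := fun r hr => by
    have := Real.log_le_log (by positivity) (hr.trans (le_max_left r 1))
    rw [Real.log_pow, Nat.cast_mul, mul_assoc, ← le_div_iff₀ m0, Nat.cast_ofNat] at this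
    exact hΘ ▸ Real.smoothTransition.zero_of_nonpos (by linarith)
  have h3 : ∀ r, 1 < r → Θ =ᶠ[𝓝 r] fun r =>
      Real.smoothTransition (2 - Real.log r / (m * Real.log 2)) := fun r hr => by
    filter_upwards [lt_mem_nhds hr] with x hx
    simp only [hΘ, max_eq_left hx.le]
  have h4 : (2 : ℝ) ≤ 2 ^ m := le_self_pow₀ one_le_two (by omega)
  refine ⟨Θ, contDiff_iff_contDiffAt.2 fun r => ?_, h0, fun r hr => ⟨h1 r hr,
    QTh_zero h0 (Or.inr (h1 r hr))⟩, fun r hr => ⟨h2 r hr, QTh_zero h0 (Or.inl (h2 r hr))⟩,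
    fun r hr => ?_⟩
  · rcases lt_or_ge 1 r with h | h
    · exact (Real.smoothTransition.contDiff.contDiffAt.comp r (contDiffAt_const.sub
        ((Real.contDiffAt_log.2 (by positivity)).div_const _))).congr_of_eventuallyEq (h3 r h)
    · refine (contDiffAt_const (c := (1 : ℝ))).congr_of_eventuallyEq ?_
      filter_upwards [gt_mem_nhds (h.trans_lt one_lt_two)] with x hx using h1 x (hx.le.trans h4)
  · rcases lt_or_ge 1 r with h | h
    · have d := ((Real.smoothTransition.contDiff (n := 1)).differentiable one_ne_zero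
        _).hasDerivAt.comp r (((Real.hasDerivAt_log hr.ne').div_const
          (m * Real.log 2)).const_sub 2)
      rw [(h3 r h).deriv_eq.trans d.deriv, abs_mul, abs_neg,
        abs_of_nonneg (a := r⁻¹ / _) (by positivity)]
      refine (mul_le_mul_of_nonneg_right (hM _) (by positivity)).trans_eq ?_
      field_simp
    · rw [QTh_zero h0 (Or.inr (h1 r (by linarith))), abs_zero]
      positivity

theorem q_rs1 (hRS : S_RS) : Q_rs1 := by
  intro v C hP
  obtain ⟨C', c, ε₀, -, c0, e0, h⟩ := hRS v C hP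
  refine ⟨ε₀, e0, fun X CX s k he η h1 h2 h3 => ?_⟩
  have a := h s.O s.ε s.σ X CX k.ctx k.cal k.pos (fun _ => 1) η 0 s.L contDiff_const
    (fun _ => ⟨zero_le_one, le_rfl⟩) (fun _ => by simp) h1 h2 h3 (by linarith [k.hL]) he
  simp only [YT, DD, DGr, DT, gradient_fun_const, norm_zero, inner_zero_left, sub_self, abs_zero,
    mul_zero, zero_mul, integral_zero, intervalIntegral.integral_zero, add_zero, one_mul] at a
  have b : 0 ≤ c * ∫ y, th v y * η y ^ 2 ∂s.σ :=
    mul_nonneg c0.le (integral_nonneg fun y => mul_nonneg (k.pos y).le (sq_nonneg _))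
  have s1 : 0 < s0 := by unfold s0; positivity
  exact le_of_mul_le_mul_left (by linarith) s1

end Vale.Agent.P134.DG
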