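import Vale.Agent.P134.QDefs

/-! P134, block A4: volumes of neighbourhoods. -/

open scoped RealInnerProductSpace ContDiff ENNReal Topology Laplacian
open MeasureTheory Set Metric Filter

namespace Vale.Agent.P134.DG

theorem QVol_ball (x : E 3) {r : ℝ} (hr : 0 ≤ r) :
    volume (ball x r) = ENNReal.ofReal (r ^ 3 * (Real.pi * 4 / 3)) := by
  rw [EuclideanSpace.volume_ball_fin_three, ENNReal.ofReal_mul (by positivity),
    ENNReal.ofReal_pow hr]

theorem QVol_one (x : E 3) : volume.real (ball x 1) = Real.pi * 4 / 3 := by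
  rw [measureReal_def, QVol_ball x zero_le_one, ENNReal.toReal_ofReal (by positivity)]
  ring

theorem QVol_main (hf : Q_fub) {A B : Set (E 3)} {r : ℝ} (hr : 0 ≤ r) (hA : MeasurableSet A)
    (hB : MeasurableSet B) (fin : volume B ≠ ⊤)
    (h : ∀ x ∈ A, ∃ z, dist x z ≤ r ∧ ball z 1 ⊆ B) :
    volume.real A ≤ (r + 2) ^ 3 * volume.real B := by
  have hw : 0 < Real.pi * 4 / 3 := by positivity
  have hi : Integrable (B.indicator fun _ => (1 : ℝ)) :=
    (integrable_indicator_iff hB).2 (integrableOn_const fin)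
  have key := hf volume A univ (B.indicator fun _ => (1 : ℝ)) (fun _ => Real.pi * 4 / 3) (r + 1)
    ((r + 1) ^ 3 * (Real.pi * 4 / 3)) hA MeasurableSet.univ (measurable_const.indicator hB)
    (fun x => indicator_nonneg (fun _ _ => zero_le_one) x) hi.integrableOn (by positivity)
    (fun _ _ => subset_univ _) (fun x => (QVol_ball x (by positivity)).le) fun y hy => by
      obtain ⟨z, h1, h2⟩ := h y hy
      refine ⟨hw.le, ?_⟩
      rw [setIntegral_indicator hB, setIntegral_const, smul_eq_mul, mul_one, ← QVol_one z]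
      refine measureReal_mono (subset_inter (ball_subset_ball' ?_) h2)
        (measure_ne_top_of_subset inter_subset_right fin)
      rw [dist_comm]
      linarith
  rw [setIntegral_const, smul_eq_mul, Measure.restrict_univ, integral_indicator hB,
    setIntegral_const, smul_eq_mul, mul_one, mul_right_comm] at key
  refine (le_of_mul_le_mul_right key hw).trans (mul_le_mul_of_nonneg_right ?_ measureReal_nonneg)
  exact pow_le_pow_left₀ (by positivity) (by linarith) 3

theorem QVol_meas (Z : Set (E 3)) (x0 : E 3) (r R : ℝ) :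
    MeasurableSet {x | infDist x Z ≤ r ∧ dist x x0 ≤ R} :=
  ((isClosed_le (continuous_infDist_pt Z) continuous_const).inter
    (isClosed_closedBall (x := x0) (ε := R))).measurableSet

theorem QVol_fin (Z : Set (E 3)) (x0 : E 3) (r R : ℝ) :
    volume {x | infDist x Z ≤ r ∧ dist x x0 ≤ R} ≠ ⊤ :=
  measure_ne_top_of_subset
    (show _ ⊆ closedBall x0 R from fun _ hx => hx.2) measure_closedBall_lt_top.ne

theorem q_vol (hf : Q_fub) : Q_vol := by
  intro Z x0 hZ h0
  have near : ∀ x, ∃ z ∈ Z, infDist x Z = dist x z := fun x => hZ.exists_infDist_eq_dist ⟨x0, h0⟩ x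
  refine ⟨fun R R' h => measureReal_mono (fun x hx => ⟨hx.1, hx.2.trans h⟩) (QVol_fin _ _ _ _),
    ?_, fun R hR => ?_, fun r R hr => ?_, fun T R hT => ?_⟩
  · refine lt_of_lt_of_le (b := volume.real (ball x0 1)) ?_ (measureReal_mono (fun x hx =>
      ⟨(infDist_le_dist_of_mem h0).trans (mem_ball.1 hx).le, (mem_ball.1 hx).le⟩)
      (QVol_fin _ _ _ _))
    rw [QVol_one]
    positivity
  · refine (measureReal_mono (s₂ := closedBall x0 R) (fun _ hx => hx.2)
      measure_closedBall_lt_top.ne).trans ?_
    rw [measureReal_def, Measure.addHaar_closedBall_eq_addHaar_ball, QVol_ball x0 hR,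
      ENNReal.toReal_ofReal (by positivity), mul_comm]
    exact mul_le_mul_of_nonneg_right (by linarith [Real.pi_le_four]) (by positivity)
  · refine QVol_main hf hr (QVol_meas _ _ _ _) (QVol_meas _ _ _ _) (QVol_fin _ _ _ _)
      fun x hx => ?_
    obtain ⟨z, hz, e⟩ := near x
    have h1 : dist x z ≤ r := e ▸ hx.1
    refine ⟨z, h1, fun y hy => ⟨(infDist_le_dist_of_mem hz).trans (mem_ball.1 hy).le, ?_⟩⟩
    linarith [dist_triangle4 y z x x0, mem_ball.1 hy, dist_comm z x, hx.2]
  · unfold nZ
    have sub : {x | infDist x Z ≤ 1 ∧ dist x x0 ≤ R - 4 * T} ⊆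
        {x | infDist x Z ≤ 1 ∧ dist x x0 ≤ R + 4 * T} :=
      fun x hx => ⟨hx.1, hx.2.trans (by linarith)⟩
    rw [← measureReal_sdiff sub (QVol_meas _ _ _ _) (QVol_fin _ _ _ _)]
    refine QVol_main hf (by linarith) ?_ ((QVol_meas _ _ _ _).diff (QVol_meas _ _ _ _))
      (measure_ne_top_of_subset diff_subset (QVol_fin _ _ _ _)) fun x hx => ?_
    · exact ((isClosed_le (continuous_infDist_pt Z) continuous_const).inter
        ((isClosed_le continuous_const (continuous_id.dist continuous_const)).inter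
          (isClosed_closedBall (x := x0) (ε := R + T)))).measurableSet
    · obtain ⟨z, hz, e⟩ := near x
      have h1 : dist x z ≤ T := e ▸ hx.1
      refine ⟨z, h1, fun y hy => ⟨⟨(infDist_le_dist_of_mem hz).trans (mem_ball.1 hy).le, ?_⟩,
        fun hc => ?_⟩⟩
      · linarith [dist_triangle4 y z x x0, mem_ball.1 hy, dist_comm z x, hx.2.2]
      · linarith [dist_triangle4 x z y x0, mem_ball.1 hy, dist_comm z y, hx.2.1, hc.2]

end Vale.Agent.P134.DG
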