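import Vale.Agent.P134.QDefs
import Vale.Agent.P134.FAlg1

/-! P134, block A4: the defect along a normal line. -/

open scoped RealInnerProductSpace ContDiff ENNReal Topology Laplacian
open MeasureTheory Set Metric Filter

namespace Vale.Agent.P134.DG

open FAlg1Aux

theorem QWp_mv {F : Type} [NormedAddCommGroup F] [NormedSpace ℝ F] {f f' : ℝ → F} {τ K : ℝ}
    (hf : ∀ s, HasDerivAt f (f' s) s) (hb : ∀ s, |s| ≤ τ → ‖f' s‖ ≤ K) {s : ℝ} (hs : |s| ≤ τ) :
    ‖f s - f 0‖ ≤ K * τ := by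
  have h0 : 0 ≤ τ := (abs_nonneg s).trans hs
  have hK : 0 ≤ K := (norm_nonneg _).trans (hb s hs)
  have h := (convex_Icc (-τ) τ).norm_image_sub_le_of_norm_hasDerivWithin_le
    (fun x _ => (hf x).hasDerivWithinAt) (fun x hx => hb x (abs_le.2 hx))
    (show (0 : ℝ) ∈ Icc (-τ) τ from ⟨by linarith, h0⟩) (abs_le.1 hs)
  rw [sub_zero] at h
  exact h.trans (mul_le_mul_of_nonneg_left hs hK)

theorem QWp_Mp {v : E 3 → ℝ} {C : ℝ} (hv : ContDiff ℝ ∞ v) (hC : PW v C) (x : E 3)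
    (h0 : 0 ≤ th v x) : ‖MM v x (gradient v x)‖ ≤ C * th v x := by
  have h1 : fderiv ℝ (th v) x = _ := ((has_grad hv x).norm_sq.const_sub 1).fderiv
  have h2 := (fderiv ℝ (th v) x).le_opNorm (MM v x (gradient v x))
  have h3 := mul_le_mul_of_nonneg_right (hC.dth x) (norm_nonneg (MM v x (gradient v x)))
  have h4 : 0 ≤ C * th v x := mul_nonneg (by linarith [hC.one]) h0
  have h5 : ‖fderiv ℝ (th v) x (MM v x (gradient v x))‖ = 2 * ‖MM v x (gradient v x)‖ ^ 2 := by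
    rw [h1]
    simp only [neg_apply, smul_apply, ContinuousLinearMap.comp_apply, innerSL_apply_apply,
      nsmul_eq_mul, norm_neg]
    rw [← MM_symm hv, real_inner_self_eq_norm_sq, Nat.cast_ofNat, Real.norm_of_nonneg (by positivity)]
  by_contra hc
  nlinarith [not_le.1 hc]

theorem QWp_N {v : E 3 → ℝ} {y : E 3} (hs : Sol v) (ht : th v y ≤ 1 / 2) :
    ‖NN v y‖ = 1 ∧ ‖gradient v y - NN v y‖ ≤ th v y := by
  have hN := (alg1_pf v y hs ht).1
  have hq : 0 < ‖gradient v y‖ := (norm_nonneg _).lt_of_ne fun e => by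
    rw [th, ← e] at ht
    norm_num at ht
  have h1 := hs.mod y
  have e : gradient v y - NN v y = (‖gradient v y‖ - 1) • NN v y := by
    rw [sub_smul, one_smul, NN, smul_smul, mul_inv_cancel₀ hq.ne', one_smul]
  refine ⟨hN, ?_⟩
  rw [e, norm_smul, hN, mul_one, Real.norm_eq_abs, abs_of_nonpos (by linarith), th]
  nlinarith

theorem QWp_th (hq : Q_prof) (hb : Q_bas) {v : E 3 → ℝ} {C τ : ℝ} (hs : Sol v) (hC : PW v C)
    {x y : E 3} (h0 : v y = 0) (hd : dist x y ≤ τ) :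
    th v x ≤ 2 * C * Real.exp ((3 / 2 + √2) * τ) * th v y := by
  obtain ⟨hL, -, -, -, -, -, -, -, -, -, hp, -⟩ := hb v hs
  have h1 : |v x| ≤ τ := by
    have := hL.dist_le_mul x y
    rw [h0, dist_zero_right, NNReal.coe_one, one_mul] at this
    exact this.trans hd
  have h2 : Real.exp (-(√2 * τ)) / 2 ≤ PP v x :=
    le_trans (by gcongr) (hq.1 (v x)).2.2.2.1
  have h3 := hC.hV y x
  have e : VV v y = th v y := by rw [VV, PP, h0, hq.2.1, one_mul]
  have hx := (hp x).1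
  have hy := (hp y).1
  have hC0 : 0 ≤ C := by linarith [hC.one]
  have h4 : Real.exp (-(√2 * τ)) / 2 * th v x ≤ VV v x := by
    refine mul_le_mul_of_nonneg_right (h2.trans ?_) hx
    exact le_mul_of_one_le_left (hp x).2.2.1.le (Real.one_le_sqrt.2 one_le_two)
  have h5 : VV v x ≤ C * Real.exp (3 / 2 * τ) * th v y := by
    rw [e, dist_comm] at h3
    exact h3.trans (by gcongr)
  have h6 := mul_le_mul_of_nonneg_left (h4.trans h5) (Real.exp_pos (√2 * τ)).le
  rw [← mul_assoc, ← mul_div_assoc, ← Real.exp_add, add_neg_cancel, Real.exp_zero] at h6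
  rw [add_mul, Real.exp_add]
  linarith

theorem q_wp (hq : Q_prof) (hb : Q_bas) : Q_wp := by
  intro v C hs hC
  have hC1 := hC.one
  refine ⟨2 * C ^ 2, by positivity, fun y h0 ht t => ?_⟩
  have hv := hs.smooth
  obtain ⟨hN, hpN⟩ := QWp_N hs ht
  have hp := (hb v hs).2.2.2.2.2.2.2.2.2.2.1
  obtain ⟨τ, hτ⟩ : ∃ τ, τ = |t| := ⟨_, rfl⟩
  have τ0 : 0 ≤ τ := hτ ▸ abs_nonneg t
  obtain ⟨B, hB⟩ : ∃ B, B = 2 * C * Real.exp ((3 / 2 + √2) * τ) * th v y := ⟨_, rfl⟩
  have hth : ∀ s, |s| ≤ τ → th v (y + s • NN v y) ≤ B := fun s hs' =>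
    hB ▸ QWp_th hq hb hs hC h0 (((hp y).2.2.2.2.2.2.2.2 s).trans hs')
  have θ0 := (hp y).1
  have θB : th v y ≤ B := by simpa using hth 0 (by simpa using τ0)
  have B0 : 0 ≤ B := θ0.trans θB
  obtain ⟨m, m0, hm⟩ : ∃ m : ℝ, 0 ≤ m ∧ m ^ 2 = C * B :=
    ⟨√(C * B), Real.sqrt_nonneg _, Real.sq_sqrt (by positivity)⟩
  have d1 : ∀ s, |s| ≤ τ → ‖iteratedFDeriv ℝ 2 v (y + s • NN v y)‖ ≤ m := fun s hs' =>
    (abs_le_of_sq_le_sq' ((hC.d2 _).trans (hm ▸ mul_le_mul_of_nonneg_left (hth s hs')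
      (by positivity))) m0).2
  have d2 : ∀ x, ‖iteratedFDeriv ℝ 2 v x‖ ≤ C := fun x =>
    (abs_le_of_sq_le_sq' ((hC.d2 x).trans (by nlinarith [(hp x).2.1])) (by positivity)).2
  have hl : ∀ s : ℝ, HasDerivAt (fun s : ℝ => y + s • NN v y) (NN v y) s := fun s => by
    simpa using ((hasDerivAt_id s).smul_const (NN v y)).const_add y
  have hf : ∀ s : ℝ, HasDerivAt (fun s : ℝ => gradient v (y + s • NN v y))
      (MM v (y + s • NN v y) (NN v y)) s := fun s =>
    (has_grad hv _).comp_hasDerivAt s (hl s)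
  have tri : ∀ (K s : ℝ), ‖gradient v (y + s • NN v y) - gradient v (y + (0 : ℝ) • NN v y)‖ ≤ K →
      ‖gradient v (y + s • NN v y) - NN v y‖ ≤ K + th v y := fun K s h => by
    rw [zero_smul, add_zero] at h
    exact (norm_sub_le_norm_sub_add_norm_sub _ (gradient v y) _).trans (add_le_add h hpN)
  have p1 : ∀ s, |s| ≤ τ → ‖gradient v (y + s • NN v y) - NN v y‖ ≤ m * τ + th v y :=
    fun s hs' => tri _ s (QWp_mv hf
      (fun r hr => (MM_le hv _ _).trans (by rw [hN, mul_one]; exact d1 r hr)) hs')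
  have p2 : ∀ s, |s| ≤ τ → ‖MM v (y + s • NN v y) (NN v y)‖ ≤ C * B * (2 + τ) := fun s hs' => by
    have a1 := (QWp_Mp hv hC _ (hp (y + s • NN v y)).1).trans
      (mul_le_mul_of_nonneg_left (hth s hs') (by positivity))
    have a2 := (MM_le hv (y + s • NN v y) _).trans
      (mul_le_mul_of_nonneg_left (p1 s hs') (norm_nonneg _))
    have a3 := mul_le_mul_of_nonneg_right (d1 s hs') (mul_nonneg m0 τ0)
    have a4 := mul_le_mul (d2 (y + s • NN v y)) θB θ0 (by positivity)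
    have a5 := norm_sub_le (MM v (y + s • NN v y) (gradient v (y + s • NN v y)))
      (MM v (y + s • NN v y) (gradient v (y + s • NN v y) - NN v y))
    rw [← map_sub, sub_sub_cancel] at a5
    have a6 : m * (m * τ) = C * B * τ := by rw [← hm]; ring
    linarith
  have p3 : ∀ s, |s| ≤ τ → ‖gradient v (y + s • NN v y) - NN v y‖ ≤ C * B * (1 + τ) ^ 2 :=
    fun s hs' => (tri _ s (QWp_mv hf p2 hs')).trans (by nlinarith)
  have hg : ∀ s : ℝ, HasDerivAt (fun s : ℝ => s - v (y + s • NN v y))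
      (1 - dv (NN v y) v (y + s • NN v y)) s := fun s =>
    (hasDerivAt_id s).sub (hasDerivAt_line _ (hv.differentiable (by simp) _))
  have p4 := QWp_mv hg (K := C * B * (1 + τ) ^ 2) (fun s hs' => by
    have a1 := (norm_inner_le_norm (𝕜 := ℝ) (gradient v (y + s • NN v y) - NN v y) (NN v y))
    rw [inner_sub_left, real_inner_self_eq_norm_sq, hN, one_pow, mul_one, inner_gradient,
      norm_sub_rev] at a1
    exact a1.trans (p3 s hs')) hτ.ge
  rw [zero_smul, add_zero, h0, sub_zero, sub_zero] at p4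
  refine (add_le_add p4 (p3 t hτ.ge)).trans (le_of_eq ?_)
  rw [← hτ, hB]
  ring

end Vale.Agent.P134.DG
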