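import Vale.Agent.P134.FStm

/-! The lower bound of the left side of the reduced stability inequality. -/

open scoped RealInnerProductSpace ContDiff ENNReal Topology Laplacian
open MeasureTheory Set Metric Filter

namespace Vale.Agent.P134.DG

namespace TL1Aux

theorem int_exp : Integrable fun t : ℝ => Real.exp (-|t|) := by
  by_contra h
  have h1 := integral_undef h
  rw [integral_comp_abs (f := fun x => Real.exp (-x)), integral_exp_neg_Ioi_zero] at h1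
  norm_num at h1

theorem int_val : ∫ t : ℝ, Real.exp (-|t|) = 2 := by
  rw [integral_comp_abs (f := fun x => Real.exp (-x)), integral_exp_neg_Ioi_zero]
  norm_num

/-- the pointwise inequality between real numbers -/
theorem pt {T τ0 k q β G J θ e C0 D i c1 : ℝ} (hT : 0 ≤ T) (hτ : 0 ≤ τ0) (hq : 0 ≤ q)
    (hβ0 : 0 ≤ β) (hβ1 : β ≤ 1) (hθ : 0 ≤ θ) (hC0 : 0 ≤ C0) (hk : |k| ≤ 6 * C0 * θ)
    (hqe : q ≤ 8 * e) (hD : (1 - β ^ 2) * q ≤ D * θ * e) (hc1 : 0 ≤ c1) (hi0 : 0 ≤ i)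
    (hie : i ≤ 8 * e) (hQ : c1 * θ * i ≤ q * β ^ 2 * (3 * G * J)) :
    -k * τ0 * q - (48 * C0 + 8 * c1) * θ * (e * |T - τ0|) - 6 * C0 * D * θ ^ 2 * τ0 * e +
      c1 * θ * τ0 * i ≤ T * q * β ^ 2 * (-k + 3 * G * J) := by
  have hA := abs_nonneg (T - τ0)
  have hb2 : β ^ 2 ≤ 1 := by nlinarith
  have hb0 : 0 ≤ β ^ 2 := by positivity
  have h1 : (T - τ0) * k * (β ^ 2 * q) ≤ 48 * C0 * θ * (e * |T - τ0|) := by
    calc (T - τ0) * k * (β ^ 2 * q) ≤ |T - τ0| * |k| * (β ^ 2 * q) :=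
          mul_le_mul_of_nonneg_right (by rw [← abs_mul]; exact le_abs_self _) (by positivity)
      _ ≤ |T - τ0| * (6 * C0 * θ) * (1 * (8 * e)) := by gcongr
      _ = _ := by ring
  have h2 : τ0 * (-k * ((1 - β ^ 2) * q)) ≤ τ0 * (6 * C0 * θ * (D * θ * e)) := by
    refine mul_le_mul_of_nonneg_left ?_ hτ
    have h0 : 0 ≤ (1 - β ^ 2) * q := mul_nonneg (by linarith) hq
    exact mul_le_mul ((neg_le_abs k).trans hk) hD h0 (by positivity)
  have h3 : T * (c1 * θ * i) ≤ T * (q * β ^ 2 * (3 * G * J)) := mul_le_mul_of_nonneg_left hQ hT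
  have h4 : (τ0 - T) * (c1 * θ * i) ≤ |T - τ0| * (c1 * θ * (8 * e)) :=
    mul_le_mul (by rw [abs_sub_comm]; exact le_abs_self _) (by gcongr) (by positivity) hA
  nlinarith

theorem a1 {C₀ t θ f : ℝ} (h1 : 4000 * C₀ * t ^ 2 * θ < 1) (hf : f ≤ 6 * C₀ * θ) :
    t ^ 2 * f < 1 / 400 := by
  have := mul_le_mul_of_nonneg_left hf (sq_nonneg t)
  nlinarith

theorem a2 {a b : ℝ} (h : |a| < 1) : a ^ 2 - b ^ 2 ≤ 1 := by
  have h1 : a ^ 2 ≤ 1 := by
    rw [← sq_abs]; exact pow_le_one₀ (abs_nonneg _) h.le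
  nlinarith [sq_nonneg b]

theorem a3 {k G J : ℝ} (b1 : 0 ≤ G) (b2 : G ≤ 1) (j1 : 9 / 10 ≤ J) (j2 : J ≤ 10 / 9) :
    |-k + 3 * G * J| ≤ |k| + 4 := by
  have b3 : G * J ≤ 1 * (10 / 9) := mul_le_mul b2 j2 (by linarith) (by norm_num)
  have b4 : 0 ≤ G * J := mul_nonneg b1 (by linarith)
  rw [abs_le]
  constructor <;> nlinarith [le_abs_self k, neg_abs_le k]

theorem a4 {a : ℝ} (ha : 0 ≤ a) : -(2 * √2 * a) ≤ -a := by
  have hr2 : (1 : ℝ) ≤ √2 := Real.one_le_sqrt.2 (by norm_num)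
  nlinarith

theorem a5 {C₀ t θ b : ℝ} (h : 1 / 2 < 4000 * C₀ * t ^ 2 * θ) :
    1 - b ^ 2 ≤ 8000 * C₀ * θ * t ^ 2 := by
  nlinarith [sq_nonneg b]

theorem a6 {t : ℝ} (ht : t ∈ Icc (1 : ℝ) 2) : 1 ≤ 8 * Real.exp (-|t|) := by
  have d1 : Real.exp (-2) ≤ Real.exp (-|t|) :=
    Real.exp_le_exp.2 (by rw [abs_of_nonneg (by linarith [ht.1])]; linarith [ht.2])
  have d2 : Real.exp 2 * Real.exp (-2) = 1 := by rw [← Real.exp_add]; simp
  have d3 : Real.exp 2 ≤ 8 := by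
    have := Real.exp_one_lt_d9
    have e : Real.exp 2 = Real.exp 1 * Real.exp 1 := by rw [← Real.exp_add]; norm_num
    have := Real.exp_pos 1
    nlinarith
  nlinarith [Real.exp_pos (-2)]

theorem a7 {C₀ t θ : ℝ} (hC : 1 ≤ C₀) (hθ : 0 < θ) (ht : t ∈ Icc (1 : ℝ) 2)
    (h : θ ≤ 1 / (32000 * C₀)) : 4000 * C₀ * t ^ 2 * θ ≤ 1 / 2 := by
  have e1 : t ^ 2 ≤ 4 := by nlinarith [ht.1, ht.2]
  have e2 : θ * (32000 * C₀) ≤ 1 := (le_div_iff₀ (by positivity)).1 h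
  have e3 : C₀ * θ * t ^ 2 ≤ C₀ * θ * 4 := by gcongr
  nlinarith

theorem a8 {s τ k C₀ θ c1 D W K : ℝ} (hs : 0 < s) (hτ : 0 ≤ τ) (hθ : 0 < θ) (hW : 0 ≤ W)
    (hk : |k| ≤ -k + 4 * C₀ ^ 2 * θ ^ 2) (h : θ ≤ c1 / (2 * (4 * C₀ ^ 2 * s + W * 2 + 1))) :
    s * (τ * |k|) + c1 / 2 * (τ * θ) - K * (D * θ) ≤
      -k * τ * s - K * θ * D - W * θ ^ 2 * τ * 2 + c1 * θ * τ * 1 := by
  have f1 : s * (τ * |k|) ≤ s * (τ * (-k + 4 * C₀ ^ 2 * θ ^ 2)) := by gcongr
  have f2 : θ * (2 * (4 * C₀ ^ 2 * s + W * 2 + 1)) ≤ c1 := (le_div_iff₀ (by positivity)).1 h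
  have f3 : τ * θ * (θ * (2 * (4 * C₀ ^ 2 * s + W * 2 + 1))) ≤ τ * θ * c1 := by gcongr
  have f4 : 0 ≤ τ * θ * θ := by positivity
  nlinarith

theorem a9 {t g C1 : ℝ} (h0 : 0 ≤ C1) (h : g ^ 2 * (1 + |t|) ^ 6 ≤ C1 * Real.exp (-(2 * |t|))) :
    t ^ 2 * g ^ 2 ≤ C1 * Real.exp (-|t|) := by
  have ha := abs_nonneg t
  have d1 : t ^ 2 ≤ (1 + |t|) ^ 6 := by
    rw [← sq_abs]
    exact (pow_le_pow_left₀ ha (by linarith) 2).trans
      (pow_le_pow_right₀ (by linarith) (by norm_num))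
  calc t ^ 2 * g ^ 2 ≤ (1 + |t|) ^ 6 * g ^ 2 := by gcongr
    _ ≤ C1 * Real.exp (-(2 * |t|)) := by rw [mul_comm]; exact h
    _ ≤ _ := mul_le_mul_of_nonneg_left (Real.exp_le_exp.2 (by linarith)) h0

end TL1Aux

open TL1Aux in
theorem l1_pf (hA : S_Alg) (hG : T_G) (hL : T_Loc) : T_L1 := by
  intro v C₀ hPW
  obtain ⟨c, hc, hL⟩ := hL v C₀ hPW
  obtain ⟨-, -, hgg, hg1, hpos, -, -, hup, hlow, hint, hval, hsq, -, ⟨C1, hC1⟩, hbb, hb01, hb1,
    hb0, -⟩ := hG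
  have hC0 : 1 ≤ C₀ := hPW.one
  have hC1' : 0 ≤ C1 := by
    have h := hC1 0
    have : 0 ≤ g1 0 ^ 2 * (1 + |(0 : ℝ)|) ^ 6 := by positivity
    simpa using this.trans h
  have hs0 : 0 < s0 := by unfold s0; positivity
  have hr2 : (1 : ℝ) ≤ √2 := Real.one_le_sqrt.2 (by norm_num)
  set m : ℝ := (Real.exp (-(√2 * 2)) / √2) ^ 2 with hm
  have hm0 : 0 < m := by positivity
  set c1 : ℝ := m * (3 * c * (9 / 10)) with hc1
  have hc10 : 0 < c1 := by positivity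
  set B : ℝ := 4 * C₀ ^ 2 * s0 + 6 * C₀ * (8000 * C₀ * C1) * 2 + 1 with hB
  have hB0 : 0 < B := by positivity
  refine ⟨48 * C₀ + 8 * c1, c1 / 2, min (1 / (32000 * C₀)) (c1 / (2 * B)), by positivity,
    by positivity, by positivity, ?_⟩
  intro O ε hS hGd hε hε1 hε2 τ η hτ hτ01 y hy hv hθ
  obtain ⟨hθε, -, -, hfro, hk, hk2, hvF, hGc⟩ := hL O ε hS hGd hε hε1 y hy hv
  have hAl := (hA v y hS (hGd.th_le y hy)).2.2.2.2.2.2.2.2.2.2.2.2
  set θ := th v y with hθd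
  set k := KK v y with hkd
  have hθ1 : θ ≤ 1 / (32000 * C₀) := hθε.trans (hε2.trans (min_le_left _ _))
  have hθ2 : θ ≤ c1 / (2 * B) := hθε.trans (hε2.trans (min_le_right _ _))
  have hF : Continuous fun t : ℝ => FF v (y, t) := by
    show Continuous fun t : ℝ => y + t • NN v y
    fun_prop
  have hvc : Continuous v := hS.smooth.continuous
  have hggc : Continuous gg := hgg.continuous
  have hg1c : Continuous g1 := hg1.continuous
  have hbbc : Continuous bb := hbb.continuous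
  have hJc : Continuous fun t : ℝ => JJ v (y, t) := by
    show Continuous fun t : ℝ => 1 + t * HH v y + t ^ 2 * KK v y
    fun_prop
  have hJ : ∀ t : ℝ, bb (4000 * C₀ * t ^ 2 * θ) ≠ 0 →
      9 / 10 ≤ JJ v (y, t) ∧ JJ v (y, t) ≤ 10 / 9 := fun t ht => by
    have h1 : 4000 * C₀ * t ^ 2 * θ < 1 := not_le.1 fun h => ht (hb0 _ h)
    have := hAl t (a1 h1 hfro)
    exact ⟨this.2.2.2.2.2.2.2.1, this.2.2.2.2.2.2.2.2.1⟩
  have hG0 : ∀ t : ℝ, 0 ≤ gg t ^ 2 - gg (v (FF v (y, t))) ^ 2 := fun t =>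
    sub_nonneg.2 (hsq _ _ (hvF t))
  have hG1 : ∀ t : ℝ, gg t ^ 2 - gg (v (FF v (y, t))) ^ 2 ≤ 1 := fun t => a2 (hpos t).2
  set I0 : ℝ → ℝ := fun t => τ (FF v (y, t)) * g1 t ^ 2 * bb (4000 * C₀ * t ^ 2 * θ) ^ 2 *
    (-k + 3 * (gg t ^ 2 - gg (v (FF v (y, t))) ^ 2) * JJ v (y, t)) with hI0
  have hI0c : Continuous I0 := by rw [hI0]; fun_prop
  have hI0i : Integrable I0 := by
    refine (hint.const_mul (|k| + 4)).mono' hI0c.aestronglyMeasurable (ae_of_all _ fun t => ?_)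
    by_cases ht : bb (4000 * C₀ * t ^ 2 * θ) = 0
    · simp only [hI0, ht]
      simp
      positivity
    · obtain ⟨j1, j2⟩ := hJ t ht
      have a1 := hτ01 (FF v (y, t))
      have a2 := hb01 (4000 * C₀ * t ^ 2 * θ)
      have a3 := a3 (k := k) (hG0 t) (hG1 t) j1 j2
      have a4 : bb (4000 * C₀ * t ^ 2 * θ) ^ 2 ≤ 1 := pow_le_one₀ a2.1 a2.2
      simp only [hI0, Real.norm_eq_abs, abs_mul, abs_of_nonneg a1.1, abs_pow, sq_abs]
      calc _ ≤ 1 * g1 t ^ 2 * 1 * (|k| + 4) := by gcongr; exact a1.2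
        _ = _ := by ring
  have hAi : Integrable fun t : ℝ => Real.exp (-|t|) * |τ (FF v (y, t)) - τ y| := by
    refine int_exp.mono' (Continuous.aestronglyMeasurable (by fun_prop)) (ae_of_all _ fun t => ?_)
    have a1 := hτ01 (FF v (y, t))
    have a2 := hτ01 y
    rw [Real.norm_eq_abs, abs_of_nonneg (by positivity)]
    exact mul_le_of_le_one_right (by positivity) (abs_le.2 ⟨by linarith, by linarith⟩)
  have hii : Integrable ((Icc (1 : ℝ) 2).indicator fun _ => (1 : ℝ)) :=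
    (integrable_indicator_iff measurableSet_Icc).2 (integrableOn_const (by simp))
  have hiv : ∫ t, (Icc (1 : ℝ) 2).indicator (fun _ => (1 : ℝ)) t = 1 := by
    rw [integral_indicator measurableSet_Icc]
    simp
    norm_num
  have hle : ∀ t : ℝ, -k * τ y * g1 t ^ 2 - (48 * C₀ + 8 * c1) * θ *
      (Real.exp (-|t|) * |τ (FF v (y, t)) - τ y|) -
      6 * C₀ * (8000 * C₀ * C1) * θ ^ 2 * τ y * Real.exp (-|t|) +
      c1 * θ * τ y * (Icc (1 : ℝ) 2).indicator (fun _ => (1 : ℝ)) t ≤ I0 t := fun t => by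
    have a2 := hb01 (4000 * C₀ * t ^ 2 * θ)
    have ha := abs_nonneg t
    refine pt (hτ01 _).1 (hτ01 _).1 (sq_nonneg _) a2.1 a2.2 hθ.le (by linarith) hk ?_ ?_ hc10.le
      (indicator_nonneg (fun _ _ => zero_le_one) _) ?_ ?_
    · exact (hup t).trans (mul_le_mul_of_nonneg_left (Real.exp_le_exp.2 (a4 ha)) (by norm_num))
    · have b1 : 1 - bb (4000 * C₀ * t ^ 2 * θ) ^ 2 ≤ 8000 * C₀ * θ * t ^ 2 := by
        by_cases h : 4000 * C₀ * t ^ 2 * θ ≤ 1 / 2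
        · rw [hb1 _ h, one_pow, sub_self]
          positivity
        · exact a5 (not_le.1 h)
      have b2 := a9 hC1' (hC1 t)
      calc _ ≤ 8000 * C₀ * θ * t ^ 2 * g1 t ^ 2 := by gcongr
        _ = 8000 * C₀ * θ * (t ^ 2 * g1 t ^ 2) := by ring
        _ ≤ 8000 * C₀ * θ * (C1 * Real.exp (-|t|)) := by gcongr
        _ = _ := by ring
    · by_cases ht : t ∈ Icc (1 : ℝ) 2
      · rw [indicator_of_mem ht]
        exact a6 ht
      · rw [indicator_of_notMem ht]; positivity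
    · by_cases ht : t ∈ Icc (1 : ℝ) 2
      · have d0 : |t| = t := abs_of_nonneg (by linarith [ht.1])
        have d1 : bb (4000 * C₀ * t ^ 2 * θ) = 1 := hb1 _ (a7 hC0 hθ ht hθ1)
        have d2 := (hJ t (by rw [d1]; norm_num)).1
        have d3 := hGc t (by rw [d0]; exact ht.1) (by rw [d0]; exact ht.2)
        have d4 : m ≤ g1 t ^ 2 := by
          refine pow_le_pow_left₀ (by positivity) (le_trans ?_ (hlow t)) 2
          gcongr
          rw [d0]; exact ht.2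
        rw [indicator_of_mem ht, d1]
        calc c1 * θ * 1 = m * 1 ^ 2 * (3 * (c * θ) * (9 / 10)) := by rw [hc1]; ring
          _ ≤ _ := by
            gcongr
            exact mul_nonneg (by norm_num) (hG0 t)
      · rw [indicator_of_notMem ht, mul_zero]
        by_cases h : bb (4000 * C₀ * t ^ 2 * θ) = 0
        · rw [h]; simp
        · have := (hJ t h).1
          have := hG0 t
          positivity
  have i1 := hint.const_mul (-k * τ y)
  have i2 := hAi.const_mul ((48 * C₀ + 8 * c1) * θ)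
  have i3 := int_exp.const_mul (6 * C₀ * (8000 * C₀ * C1) * θ ^ 2 * τ y)
  have i4 := hii.const_mul (c1 * θ * τ y)
  have hmono := integral_mono (((i1.sub i2).sub i3).add i4) hI0i hle
  rw [integral_add' ((i1.sub i2).sub i3) i4, integral_sub' (i1.sub i2) i3, integral_sub' i1 i2,
    integral_const_mul, integral_const_mul, integral_const_mul, integral_const_mul, hval,
    int_val, hiv] at hmono
  have he : (fun t => τ (FF v (y, t)) * g1 t ^ 2 * bf v η C₀ (y, t) ^ 2 *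
      (-k + 3 * (gg t ^ 2 - gg (v (FF v (y, t))) ^ 2) * JJ v (y, t))) =
      fun t => η y ^ 2 * I0 t := by
    funext t
    simp only [hI0, bf, ← hθd]
    ring
  rw [he, integral_const_mul]
  refine mul_le_mul_of_nonneg_left (le_trans ?_ hmono) (sq_nonneg _)
  exact a8 hs0 (hτ01 y).1 hθ (by positivity) hk2 hθ2

end Vale.Agent.P134.DG
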