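import Vale.Agent.P134.FStm

/-! The gradient term of the reduced stability inequality along one normal line. -/

open scoped RealInnerProductSpace ContDiff ENNReal Topology Laplacian
open MeasureTheory Set Metric Filter

namespace Vale.Agent.P134.DG

namespace TL2Aux

theorem int_exp : Integrable fun t : ℝ => Real.exp (-|t|) := by
  rw [← integrableOn_univ, ← Iic_union_Ioi (a := (0 : ℝ))]
  refine IntegrableOn.union ((integrableOn_exp_Iic 0).congr_fun (fun t ht => ?_) measurableSet_Iic)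
    ((integrableOn_exp_neg_Ioi 0).congr_fun (fun t ht => ?_) measurableSet_Ioi)
  · simp only [abs_of_nonpos (mem_Iic.1 ht), neg_neg]
  · simp only [abs_of_pos (mem_Ioi.1 ht)]

theorem int_le {f B : ℝ → ℝ} (h : ∀ t, f t ≤ B t) (h0 : ∀ t, 0 ≤ B t) (hB : Integrable B) :
    ∫ t, f t ≤ ∫ t, B t := by
  by_cases hf : Integrable f
  · exact integral_mono hf hB h
  · rw [integral_undef hf]
    exact integral_nonneg h0

theorem diff_th {v : E 3 → ℝ} (hv : Sol v) : Differentiable ℝ (th v) := by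
  have h : ContDiff ℝ ∞ (gradient v) :=
    (InnerProductSpace.toDual ℝ (E 3)).symm.contDiff.comp (hv.smooth.fderiv_right (by simp))
  exact ((h.differentiable (by simp)).norm_sq ℝ).const_sub 1

theorem pr_le {v : E 3 → ℝ} {y : E 3} (h : ‖NN v y‖ = 1) (a : E 3) : ‖Pr v y a‖ ≤ 2 * ‖a‖ := by
  have e : Pr v y a = a - ⟪NN v y, a⟫ • NN v y := by simp [Pr]
  have k := abs_real_inner_le_norm (NN v y) a
  rw [h, one_mul] at k
  rw [e]
  refine (norm_sub_le _ _).trans ?_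
  rw [norm_smul, h, Real.norm_eq_abs]
  linarith

theorem alg {J g a ρ P u : ℝ} (hJ : J ≤ 10 / 9) (hg0 : 0 ≤ g) (hg : g ≤ a + ρ)
    (ha0 : 0 ≤ a) (ha : a ≤ 20 / 19 * P) (h0 : 0 ≤ ρ) (hρ : ρ ≤ u) :
    J * g ^ 2 ≤ 13 / 10 * P ^ 2 + 24 * u ^ 2 := by
  have h1 : g ^ 2 ≤ (a + ρ) ^ 2 := pow_le_pow_left₀ hg0 hg 2
  have h2 : a ^ 2 ≤ (20 / 19 * P) ^ 2 := pow_le_pow_left₀ ha0 ha 2
  have h3 : ρ ^ 2 ≤ u ^ 2 := pow_le_pow_left₀ h0 hρ 2
  have h4 : J * g ^ 2 ≤ 10 / 9 * g ^ 2 := mul_le_mul_of_nonneg_right hJ (sq_nonneg g)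
  nlinarith [sq_nonneg (a - 20 * ρ), sq_nonneg P, sq_nonneg u]

theorem ptw (hA : S_Alg) (hb : ContDiff ℝ ∞ bb) (hb' : ∀ s, 0 ≤ bb s ∧ bb s ≤ 1) {Cb C₀ : ℝ}
    (hC : ∀ s, |deriv bb s| ≤ Cb) {v η : E 3 → ℝ} (hv : Sol v) (hP : PW v C₀)
    (hη : ContDiff ℝ 1 η) {y : E 3} {t : ℝ} (h1 : th v y ≤ 1 / 2) (h0 : 0 ≤ th v y)
    (h2 : t ^ 2 * fro (SS v y) < 1 / 400) (hH : |HH v y| ≤ 2 * C₀ * th v y)
    (hK : |KK v y| ≤ 6 * C₀ * th v y) :
    JJ v (y, t) * ‖gr v (bf v η C₀) (y, t)‖ ^ 2 +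
      bf v η C₀ (y, t) * deriv (fun s => bf v η C₀ (y, s)) t * Jt v (y, t) ≤
      13 / 10 * ‖Pr v y (gradient η y)‖ ^ 2 +
        (24 * (Cb * (4000 * C₀) * (3 * C₀ + 1)) ^ 2 + 12 * C₀ * (Cb * (4000 * C₀))) *
          (η y ^ 2 * th v y ^ 2) * (1 + |t|) ^ 6 := by
  obtain ⟨hN, -, -, -, -, -, -, -, -, -, -, -, hr⟩ := hA v y hv h1
  obtain ⟨-, -, -, -, -, hB, -, -, hJ, -, -, -, hg⟩ := hr t h2
  have c1 := hP.one
  have cb : 0 ≤ Cb := (abs_nonneg _).trans (hC 0)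
  have db := hb.differentiable (by simp)
  have dη := hη.differentiable (by simp)
  have dθ := diff_th hv
  have d1 : DifferentiableAt ℝ (bf v η C₀) (y, t) := by
    unfold bf
    fun_prop
  set k := 4000 * C₀ with hk
  set β := bb (k * t ^ 2 * th v y)
  set β' := deriv bb (k * t ^ 2 * th v y)
  have e1 : deriv (fun s => bf v η C₀ (y, s)) t = η y * (β' * (k * (2 * t) * th v y)) := by
    have q : HasDerivAt (fun s : ℝ => k * s ^ 2 * th v y) (k * (2 * t) * th v y) t := by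
      simpa using ((hasDerivAt_pow 2 t).const_mul k).mul_const (th v y)
    exact (((db _).hasDerivAt.comp t q).const_mul (η y)).deriv
  have e2 : gradient (fun x => bf v η C₀ (x, t)) y =
      β • gradient η y + (η y * (β' * (k * t ^ 2))) • gradient (th v) y := by
    have q := (dη y).hasFDerivAt.mul ((db (k * t ^ 2 * th v y)).hasDerivAt.comp_hasFDerivAt y
      ((dθ y).hasFDerivAt.const_mul (k * t ^ 2)))
    refine (congrArg (InnerProductSpace.toDual ℝ (E 3)).symm q.fderiv).trans ?_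
    simp only [gradient, map_add, map_smul, smul_smul, Function.comp_apply]
    rw [add_comm]
  have k0 : 0 ≤ k := by positivity
  have t0 := abs_nonneg t
  have n0 := abs_nonneg (η y)
  have hβ' : |β'| ≤ Cb := hC _
  have hθ : ‖gradient (th v) y‖ ≤ C₀ * th v y := norm_gradient (th v) y ▸ hP.dth y
  have b1 : |η y * (β' * (k * (2 * t) * th v y))| ≤ |η y| * th v y * (Cb * k) * (1 + |t|) ^ 2 := by
    rw [abs_mul, abs_mul, abs_mul, abs_mul k, abs_mul 2, abs_of_nonneg k0, abs_of_nonneg h0, abs_two]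
    calc |η y| * (|β'| * (k * (2 * |t|) * th v y))
        ≤ |η y| * (Cb * (k * (1 + |t|) ^ 2 * th v y)) := by
          gcongr
          nlinarith [sq_nonneg t, sq_abs t]
      _ = _ := by ring
  have b2 : ‖(η y * (β' * (k * t ^ 2))) • Bi v (y, t) (Pr v y (gradient (th v) y))‖ ≤
      |η y| * th v y * (Cb * k) * (1 + |t|) ^ 2 * (3 * C₀) := by
    have q1 := hB (Pr v y (gradient (th v) y))
    have q2 := pr_le hN (gradient (th v) y)
    have q3 : 0 ≤ C₀ * th v y := by positivity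
    rw [norm_smul, Real.norm_eq_abs, abs_mul, abs_mul, abs_mul, abs_of_nonneg k0, abs_pow]
    calc |η y| * (|β'| * (k * |t| ^ 2)) * ‖Bi v (y, t) (Pr v y (gradient (th v) y))‖
        ≤ |η y| * (Cb * (k * (1 + |t|) ^ 2)) * (3 * (C₀ * th v y)) := by
          gcongr <;> linarith
      _ = _ := by ring
  have b3 : |Jt v (y, t)| ≤ 12 * C₀ * th v y * (1 + |t|) := by
    have q3 : 0 ≤ C₀ * th v y := by positivity
    have q4 : |2 * t * KK v y| ≤ 2 * |t| * (6 * C₀ * th v y) := by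
      rw [abs_mul, abs_mul, abs_two]
      gcongr
    have q5 := abs_add_le (HH v y) (2 * t * KK v y)
    show |HH v y + 2 * t * KK v y| ≤ _
    nlinarith
  have b4 : |bf v η C₀ (y, t)| ≤ |η y| := by
    show |η y * β| ≤ _
    rw [abs_mul, abs_of_nonneg (hb' _).1]
    exact mul_le_of_le_one_right n0 (hb' _).2
  have b5 : JJ v (y, t) * ‖gr v (bf v η C₀) (y, t)‖ ^ 2 ≤ 13 / 10 * ‖Pr v y (gradient η y)‖ ^ 2 +
      24 * (|η y| * th v y * (Cb * k) * (1 + |t|) ^ 2 * (3 * C₀ + 1)) ^ 2 := by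
    refine alg (a := ‖β • Bi v (y, t) (Pr v y (gradient η y))‖)
      (ρ := ‖(η y * (β' * (k * t ^ 2))) • Bi v (y, t) (Pr v y (gradient (th v) y)) +
        (η y * (β' * (k * (2 * t) * th v y))) • NN v y‖) hJ (norm_nonneg _) ?_
      (norm_nonneg _) ?_ (norm_nonneg _) ?_
    · rw [hg _ d1, e1, e2]
      simp only [map_add, map_smul, add_assoc]
      exact norm_add_le _ _
    · rw [norm_smul, Real.norm_eq_abs, abs_of_nonneg (hb' _).1]
      exact (mul_le_of_le_one_left (norm_nonneg _) (hb' _).2).trans (hB _)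
    · refine (norm_add_le _ _).trans ?_
      rw [norm_smul _ (NN v y), hN, mul_one, Real.norm_eq_abs]
      linarith
  have b6 : bf v η C₀ (y, t) * deriv (fun s => bf v η C₀ (y, s)) t * Jt v (y, t) ≤
      |η y| * (|η y| * th v y * (Cb * k) * (1 + |t|) ^ 2) * (12 * C₀ * th v y * (1 + |t|)) := by
    refine (le_abs_self _).trans ?_
    rw [abs_mul, abs_mul, e1]
    gcongr
  have p1 : (1 + |t|) ^ 4 ≤ (1 + |t|) ^ 6 := pow_le_pow_right₀ (by linarith) (by norm_num)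
  have p2 : (1 + |t|) ^ 3 ≤ (1 + |t|) ^ 6 := pow_le_pow_right₀ (by linarith) (by norm_num)
  have p3 := mul_le_mul_of_nonneg_left p1
    (show 0 ≤ 24 * (Cb * k * (3 * C₀ + 1)) ^ 2 * (|η y| ^ 2 * th v y ^ 2) by positivity)
  have p4 := mul_le_mul_of_nonneg_left p2
    (show 0 ≤ 12 * C₀ * (Cb * k) * (|η y| ^ 2 * th v y ^ 2) by positivity)
  rw [← sq_abs (η y)]
  nlinarith

theorem pt2 {a b g X P Q C C' w e : ℝ} (ha : 0 ≤ a) (hb : 0 ≤ b) (hg : 0 ≤ g)
    (k1 : X ≤ 13 / 10 * P + C * Q * w) (x3 : g * w ≤ C' * e) (x4 : g ≤ 8 * e) (p0 : 0 ≤ P)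
    (q0 : 0 ≤ Q) (c2 : 0 ≤ C) (hw : 0 ≤ w) (he : 0 ≤ e) :
    a * g * X ≤ (13 / 10 * (b * P) * g + (11 * P + C * C' * Q) * (e * |a - b|)) +
      b * (C * C' * Q) * e := by
  have x5 : a ≤ b + |a - b| := by linarith [le_abs_self (a - b)]
  have x6 := abs_nonneg (a - b)
  have y1 : g * (13 / 10 * P + C * Q * w) ≤ 13 / 10 * P * g + C * C' * Q * e := by
    nlinarith [mul_le_mul_of_nonneg_left x3 (mul_nonneg c2 q0)]
  have y2 : 13 / 10 * P * g ≤ 11 * P * e := by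
    nlinarith [mul_le_mul_of_nonneg_left x4 p0, mul_nonneg p0 he]
  calc a * g * X ≤ a * g * (13 / 10 * P + C * Q * w) :=
        mul_le_mul_of_nonneg_left k1 (mul_nonneg ha hg)
    _ ≤ (b + |a - b|) * (13 / 10 * P * g + C * C' * Q * e) := by
        rw [mul_assoc]
        exact mul_le_mul x5 y1 (by positivity) (by positivity)
    _ ≤ _ := by nlinarith [mul_le_mul_of_nonneg_left y2 x6]

theorem fin {Q R P m b d I : ℝ} (z1 : Q ≤ R) (q0 : 0 ≤ Q) (p0 : 0 ≤ P) (m0 : 0 ≤ m) (τ0 : 0 ≤ b)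
    (d0 : 0 ≤ d) (i0 : 0 ≤ I) (s : ℝ) :
    13 / 10 * (b * P) * s + (11 * P + m * Q) * d + b * (m * Q) * I ≤
      13 / 10 * s * (b * P) + (11 + m * (1 + I)) * (d * P) + (11 + m * (1 + I)) * ((b + d) * R) := by
  have r0 := q0.trans z1
  nlinarith [mul_le_mul_of_nonneg_left z1 (mul_nonneg m0 d0),
    mul_le_mul_of_nonneg_left z1 (mul_nonneg (mul_nonneg m0 τ0) i0), mul_nonneg τ0 r0,
    mul_nonneg d0 r0, mul_nonneg (mul_nonneg m0 τ0) r0,
    mul_nonneg (mul_nonneg (mul_nonneg m0 i0) d0) r0, mul_nonneg (mul_nonneg m0 d0) p0,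
    mul_nonneg (mul_nonneg (mul_nonneg m0 i0) d0) p0]

end TL2Aux

open TL2Aux in
theorem l2_pf (hA : S_Alg) (hG : T_G) (hL : T_Loc) : T_L2 := by
  intro v C₀ hP
  obtain ⟨-, -, -, -, -, -, -, g8, -, gi, gs, -, -, ⟨Cg, hCg⟩, hb, hb', -, -, Cb, hCb⟩ := hG
  obtain ⟨c, -, hL⟩ := hL v C₀ hP
  have c1 := hP.one
  have cb : 0 ≤ Cb := (abs_nonneg _).trans (hCb 0).1
  have cg : 0 ≤ Cg := by
    have k := hCg 0
    simp only [abs_zero, add_zero, one_pow, mul_one, mul_zero, neg_zero, Real.exp_zero] at k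
    exact (sq_nonneg _).trans k
  obtain ⟨C2, hC2⟩ : ∃ C2, C2 =
    24 * (Cb * (4000 * C₀) * (3 * C₀ + 1)) ^ 2 + 12 * C₀ * (Cb * (4000 * C₀)) := ⟨_, rfl⟩
  have c2 : 0 ≤ C2 := by rw [hC2]; positivity
  obtain ⟨I, hI⟩ : ∃ I, I = ∫ t : ℝ, Real.exp (-|t|) := ⟨_, rfl⟩
  have i0 : 0 ≤ I := hI ▸ integral_nonneg fun t => (Real.exp_pos _).le
  refine ⟨11 + C2 * Cg * (1 + I), by positivity, fun O ε hv hO e0 e1 τ η hτ hτ' hη y hy h0 hθ => ?_⟩
  obtain ⟨l1, l2, l3, -, l4, -⟩ := hL O ε hv hO e0 e1 y hy h0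
  obtain ⟨P, hP'⟩ : ∃ P, P = ‖Pr v y (gradient η y)‖ ^ 2 := ⟨_, rfl⟩
  obtain ⟨Q, hQ⟩ : ∃ Q, Q = η y ^ 2 * th v y ^ 2 := ⟨_, rfl⟩
  have p0 : 0 ≤ P := hP' ▸ sq_nonneg _
  have q0 : 0 ≤ Q := by rw [hQ]; positivity
  have τ0 := (hτ' y).1
  have iD : Integrable fun t : ℝ => Real.exp (-|t|) * |τ (FF v (y, t)) - τ y| := by
    refine int_exp.mono' (Continuous.aestronglyMeasurable (by simp only [FF]; fun_prop))
      (Eventually.of_forall fun t => ?_)
    rw [Real.norm_of_nonneg (by positivity)]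
    refine mul_le_of_le_one_right (Real.exp_pos _).le (abs_le.2 ⟨?_, ?_⟩) <;>
      linarith [hτ' y, hτ' (FF v (y, t))]
  have d0 : 0 ≤ DD v τ y := integral_nonneg fun t => by positivity
  refine (int_le (B := fun t => (13 / 10 * (τ y * P) * g1 t ^ 2 +
      (11 * P + C2 * Cg * Q) * (Real.exp (-|t|) * |τ (FF v (y, t)) - τ y|)) +
      τ y * (C2 * Cg * Q) * Real.exp (-|t|)) (fun t => ?_) (fun t => by positivity)
    (((gi.const_mul _).add (iD.const_mul _)).add (int_exp.const_mul _))).trans ?_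
  · by_cases hz : (y, t) ∈ Om v O
    swap
    · rw [indicator_of_notMem hz]
      positivity
    rw [indicator_of_mem hz]
    have k1 := ptw hA hb hb' (fun s => (hCb s).1) hv hP hη (hO.th_le y hy) l2 hz.2 l3 l4
    rw [← hC2, ← hP', ← hQ] at k1
    have x1 : Real.exp (-(2 * |t|)) ≤ Real.exp (-|t|) :=
      Real.exp_le_exp.2 (by linarith [abs_nonneg t])
    have x2 : Real.exp (-(2 * √2 * |t|)) ≤ Real.exp (-|t|) := Real.exp_le_exp.2 (by
      nlinarith [abs_nonneg t, Real.one_lt_sqrt_two])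
    have x3 : g1 t ^ 2 * (1 + |t|) ^ 6 ≤ Cg * Real.exp (-|t|) :=
      (hCg t).trans (mul_le_mul_of_nonneg_left x1 cg)
    have x4 : g1 t ^ 2 ≤ 8 * Real.exp (-|t|) := by linarith [g8 t]
    exact pt2 (hτ' _).1 τ0 (sq_nonneg _) k1 x3 x4 p0 q0 c2 (by positivity) (Real.exp_pos _).le
  · rw [integral_add (by exact (gi.const_mul _).add (iD.const_mul _)) (int_exp.const_mul _),
      integral_add (gi.const_mul _) (iD.const_mul _), integral_const_mul, integral_const_mul,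
      integral_const_mul, gs, ← hI, ← hP']
    change _ + _ * DD v τ y + _ ≤ _
    have z1 : Q ≤ ε * (th v y * η y ^ 2) := by
      rw [hQ]
      exact (le_of_eq (by ring)).trans
        (mul_le_mul_of_nonneg_right l1 (mul_nonneg l2 (sq_nonneg (η y))))
    exact (fin z1 q0 p0 (mul_nonneg c2 cg) τ0 d0 i0 s0).trans (le_of_eq (by ring))

end Vale.Agent.P134.DG
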