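import Vale.Agent.P134.FStm

/-! The flux term of the reduced stability inequality. -/

open scoped RealInnerProductSpace ContDiff ENNReal Topology Laplacian
open MeasureTheory Set Metric Filter

namespace Vale.Agent.P134.DG

namespace TL3Aux

theorem int_exp : Integrable fun t : ℝ => Real.exp (-|t|) := by
  rw [← integrableOn_univ, ← Iic_union_Ioi (a := (0 : ℝ))]
  exact ((integrableOn_exp_Iic 0).congr_fun (fun x hx => by
    simp only [abs_of_nonpos (mem_Iic.1 hx), neg_neg]) measurableSet_Iic).union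
    ((integrableOn_exp_neg_Ioi 0).congr_fun (fun x hx => by
      simp only [abs_of_pos (mem_Ioi.1 hx)]) measurableSet_Ioi)

theorem core {a b A w1 w2 : ℝ → ℝ} {L p q : ℝ} (hL : 0 ≤ L) (ca : Continuous a)
    (cb : Continuous b) (i1 : Integrable w1) (i2 : Integrable w2) (ha : ∀ t, |a t| ≤ p * w2 t)
    (hb : ∀ t, |b t| ≤ q * w1 t) (hA : ∀ t, |t| ≤ L → a t = A t) :
    ∫ t, (a t + b t) ≤ (∫ t in (-L)..L, A t) + q * (∫ t, w1 t) +
      p * ∫ t in {t : ℝ | L < |t|}, w2 t := by
  have ia : Integrable a := (i2.const_mul p).mono' ca.aestronglyMeasurable (ae_of_all _ ha)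
  have ib : Integrable b := (i1.const_mul q).mono' cb.aestronglyMeasurable (ae_of_all _ hb)
  have hs : MeasurableSet {t : ℝ | L < |t|} :=
    (isOpen_lt continuous_const continuous_abs).measurableSet
  have e : {t : ℝ | L < |t|}ᶜ = Icc (-L) L :=
    Set.ext fun t => (not_lt (a := L) (b := |t|)).trans abs_le
  have h1 := integral_mono ib (i1.const_mul q) fun t => (le_abs_self _).trans (hb t)
  have h2 := setIntegral_mono (s := {t : ℝ | L < |t|}) ia.integrableOn
    (i2.const_mul p).integrableOn fun t => (le_abs_self _).trans (ha t)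
  rw [integral_const_mul] at h1 h2
  rw [integral_add ia ib, ← integral_add_compl hs ia, e, intervalIntegral.integral_of_le
    (by linarith), ← integral_Icc_eq_integral_Ioc, setIntegral_congr_fun measurableSet_Icc
      fun t ht => hA t (abs_le.2 ht)]
  linarith

end TL3Aux

open TL3Aux

theorem l3_pf (hA : S_Alg) (hG : T_G) (hL : T_Loc) : T_L3 := by
  intro v C₀ hP
  obtain ⟨-, -, cg, c1, g0, -, -, -, -, -, -, -, -, ⟨Cg, hg⟩, cb, b0, b1, b2, -⟩ := hG
  obtain ⟨c, -, hl⟩ := hL v C₀ hP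
  have C1 := hP.one
  have Cg0 : 0 < Cg := by
    have := hg 0
    simp only [abs_zero, add_zero, one_pow, mul_one, mul_zero, neg_zero, Real.exp_zero] at this
    exact (pow_pos (g0 0).1 2).trans_le this
  refine ⟨6 * C₀ * Cg, 1 / (8000 * C₀), by positivity, by positivity,
    fun O ε X CX hs hgd h0 h1 hX τ η Λ L hτ hΛ h2 h3 y hy hv hθ => ?_⟩
  obtain ⟨l1, -, l2, l3, l4, -⟩ := hl O ε hs hgd h0 h1 y hy hv
  obtain ⟨n1, -, -, -, -, -, -, -, -, -, -, -, hJ⟩ := hA v y hs (hgd.th_le y hy)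
  have CX0 : 0 ≤ CX := (norm_nonneg _).trans (hX.bdd 0)
  have cF : Continuous fun t : ℝ => FF v (y, t) := by simp only [FF]; fun_prop
  have cG : Continuous fun t : ℝ => gradient τ (FF v (y, t)) :=
    ((InnerProductSpace.toDual ℝ (E 3)).symm.continuous.comp
      (hτ.continuous_fderiv one_ne_zero)).comp cF
  have cX := hX.sm.continuous.comp cF
  have cg := cg.continuous
  have c1 := c1.continuous
  have cβ : Continuous fun t : ℝ => bb (4000 * C₀ * t ^ 2 * th v y) :=
    cb.continuous.comp (by fun_prop)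
  have cY : Continuous fun t : ℝ => Yo v X (y, t) :=
    (c1.pow 2).smul (cX.add ((continuous_const.mul cg).smul (continuous_const (y := NN v y))))
  have rng : ∀ t, bb (4000 * C₀ * t ^ 2 * th v y) ≠ 0 →
      9 / 10 ≤ JJ v (y, t) ∧ JJ v (y, t) ≤ 10 / 9 := fun t ht => by
    have e := not_le.1 (mt (b2 _) ht)
    obtain ⟨-, -, -, -, -, -, -, j1, j2, -⟩ := hJ t (by
      nlinarith [mul_le_mul_of_nonneg_left l3 (sq_nonneg t)])
    exact ⟨j1, j2⟩
  have β1 : ∀ s, bb s ^ 2 ≤ 1 := fun s => pow_le_one₀ (b0 s).1 (b0 s).2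
  have ex : ∀ t : ℝ, Real.exp (-(2 * |t|)) ≤ Real.exp (-|t|) := fun t =>
    Real.exp_le_exp.2 (by linarith [abs_nonneg t])
  have hg1 : ∀ t, g1 t ^ 2 * (1 + |t|) ≤ Cg * Real.exp (-(2 * |t|)) := fun t =>
    (mul_le_mul_of_nonneg_left (le_self_pow₀ (by linarith [abs_nonneg t]) (by norm_num))
      (sq_nonneg _)).trans (hg t)
  have i1 : Integrable fun t : ℝ => Real.exp (-|t|) * ‖gradient τ (FF v (y, t))‖ :=
    int_exp.mul_bdd cG.norm.aestronglyMeasurable (ae_of_all _ fun t => by
      rw [norm_norm]; exact hΛ _)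
  have i2 : Integrable fun t : ℝ => Real.exp (-(2 * |t|)) * ‖gradient τ (FF v (y, t))‖ :=
    i1.mono' (by fun_prop) (ae_of_all _ fun t => by
      rw [Real.norm_of_nonneg (by positivity)]
      exact mul_le_mul_of_nonneg_right (ex t) (norm_nonneg _))
  have key := core (L := L) (p := 6 * C₀ * Cg * (1 + CX)) (q := 6 * C₀ * Cg * th v y)
    (a := fun t => bb (4000 * C₀ * t ^ 2 * th v y) ^ 2 *
      (⟪gradient τ (FF v (y, t)), Yo v X (y, t)⟫ * JJ v (y, t)))
    (b := fun t => bb (4000 * C₀ * t ^ 2 * th v y) ^ 2 *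
      (g1 t ^ 2 * Jt v (y, t) / 2 * ⟪gradient τ (FF v (y, t)), NN v y⟫))
    (A := fun t => ⟪gradient τ (FF v (y, t)), Yo v X (y, t)⟫ * JJ v (y, t)) (by linarith)
    ((cβ.pow 2).mul ((cG.inner cY).mul (by simp only [JJ]; fun_prop)))
    ((cβ.pow 2).mul ((((c1.pow 2).mul (by simp only [Jt]; fun_prop)).div_const 2).mul
      (cG.inner continuous_const))) i1 i2 (fun t => ?_) (fun t => ?_) fun t ht => ?_
  · rw [DGr, DT, mul_comm _ (th v y), ← mul_assoc _ (th v y)]
    refine le_trans (le_of_eq ?_) (mul_le_mul_of_nonneg_left key (sq_nonneg (η y)))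
    rw [← integral_const_mul]
    refine integral_congr_ae (ae_of_all _ fun t => ?_)
    simp only [Yb, bf, inner_smul_right, inner_add_right]
    by_cases hβ : bb (4000 * C₀ * t ^ 2 * th v y) = 0
    · simp [hβ]
    · have := (rng t hβ).1
      have : JJ v (y, t) ≠ 0 := by positivity
      field_simp
  · by_cases hβ : bb (4000 * C₀ * t ^ 2 * th v y) = 0
    · rw [hβ, zero_pow two_ne_zero, zero_mul, abs_zero]
      positivity
    obtain ⟨j1, j2⟩ := rng t hβ
    have s2 : √2 ≤ 2 := Real.sqrt_le_iff.2 ⟨by norm_num, by norm_num⟩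
    have y1 : ‖Yo v X (y, t)‖ ≤ Cg * Real.exp (-(2 * |t|)) * (CX + 2) := by
      rw [Yo, norm_smul, Real.norm_of_nonneg (sq_nonneg _)]
      refine mul_le_mul ((le_mul_of_one_le_right (sq_nonneg _)
        (by linarith [abs_nonneg t])).trans (hg1 t)) ((norm_add_le _ _).trans
          (add_le_add (hX.bdd _) ?_)) (norm_nonneg _) (by positivity)
      rw [norm_smul, n1, mul_one, norm_mul, Real.norm_of_nonneg (Real.sqrt_nonneg _)]
      exact (mul_le_of_le_one_right (Real.sqrt_nonneg _) (g0 t).2.le).trans s2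
    rw [abs_mul, abs_mul, abs_of_nonneg (sq_nonneg _), abs_of_nonneg (a := JJ v _) (by linarith)]
    refine (mul_le_of_le_one_left (by positivity) (β1 _)).trans ((mul_le_mul
      ((abs_real_inner_le_norm _ _).trans (mul_le_mul_of_nonneg_left y1 (norm_nonneg _))) j2
      (by linarith) (by positivity)).trans ?_)
    have : 0 ≤ Cg * Real.exp (-(2 * |t|)) * ‖gradient τ (FF v (y, t))‖ := by positivity
    nlinarith [mul_le_mul_of_nonneg_left (show (CX + 2) * (10 / 9) ≤ 6 * C₀ * (1 + CX) by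
      nlinarith) this]
  · have y1 : |Jt v (y, t)| ≤ 12 * C₀ * th v y * (1 + |t|) := by
      refine (abs_add_le _ _).trans ?_
      rw [abs_mul, abs_mul, abs_two]
      nlinarith [mul_le_mul_of_nonneg_left l4 (abs_nonneg t), mul_pos (by linarith : 0 < C₀) hθ]
    have y2 := abs_real_inner_le_norm (gradient τ (FF v (y, t))) (NN v y)
    rw [n1, mul_one] at y2
    rw [abs_mul, abs_mul, abs_div, abs_mul, abs_two, abs_of_nonneg (sq_nonneg _),
      abs_of_nonneg (sq_nonneg _)]
    refine (mul_le_of_le_one_left (by positivity) (β1 _)).trans ?_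
    rw [← mul_assoc]
    refine mul_le_mul ?_ y2 (abs_nonneg _) (by positivity)
    nlinarith [mul_le_mul_of_nonneg_left y1 (sq_nonneg (g1 t)), mul_le_mul_of_nonneg_left
      ((hg1 t).trans (mul_le_mul_of_nonneg_left (ex t) Cg0.le))
      (show 0 ≤ 6 * C₀ * th v y by positivity)]
  · rw [b1, one_pow, one_mul]
    have e1 : t ^ 2 * th v y ≤ L ^ 2 * ε :=
      mul_le_mul (sq_le_sq' (abs_le.1 ht).1 (abs_le.1 ht).2) l1 hθ.le (sq_nonneg _)
    rw [le_div_iff₀ (by positivity)] at h3
    nlinarith [mul_le_mul_of_nonneg_left e1 (by linarith : 0 ≤ C₀)]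

end Vale.Agent.P134.DG
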