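import Vale.Agent.P134.FStm

/-! The reduced stability inequality: assembly. -/

open scoped RealInnerProductSpace ContDiff ENNReal Topology Laplacian
open MeasureTheory Set Metric Filter

namespace Vale.Agent.P134.DG

namespace TRSAux

variable {σ : Measure (E 3)} {f g : E 3 → ℝ} {A B : ℝ}

def HI (σ : Measure (E 3)) (f : E 3 → ℝ) (A : ℝ) : Prop := Integrable f σ ∧ ∫ y, f y ∂σ = A

theorem hi (h : Integrable f σ) : HI σ f (∫ y, f y ∂σ) := ⟨h, rfl⟩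

theorem HI.add (h : HI σ f A) (h' : HI σ g B) : HI σ (fun y => f y + g y) (A + B) :=
  ⟨h.1.add h'.1, by rw [integral_add h.1 h'.1, h.2, h'.2]⟩

theorem HI.cm (h : HI σ f A) (c : ℝ) : HI σ (fun y => c * f y) (c * A) :=
  ⟨h.1.const_mul c, by rw [integral_const_mul, h.2]⟩

theorem HI.le (h : HI σ f A) (h' : HI σ g B) (e : ∀ᵐ y ∂σ, f y ≤ g y) : A ≤ B := by
  rw [← h.2, ← h'.2]
  exact integral_mono_ae h.1 h'.1 e

theorem pt {s c C1 C2 C3 X ε n τ K θ D P Y G T f1 f2 f3 : ℝ} (h1 : 0 < C1) (h2 : 0 < C2)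
    (h3 : 0 < C3) (hX : 0 ≤ X) (e1 : ε ≤ 1) (e2 : C2 * ε ≤ c / 2) (hn : 0 ≤ n) (hτ : 0 ≤ τ)
    (hθ : 0 ≤ θ) (hD : 0 ≤ D) (hP : 0 ≤ P) (hG : 0 ≤ G) (hT : 0 ≤ T)
    (l1 : n * (s * (τ * K) + c * (τ * θ) - C1 * (D * θ)) ≤ f1)
    (l2 : f2 ≤ 13 / 10 * s * (τ * P) + C2 * (D * P) + C2 * ε * ((τ + D) * θ * n))
    (l3 : f3 ≤ n * (Y + C3 * (G * θ) + C3 * (1 + X) * T)) :
    s * (τ * K * n) + c / 2 * (τ * θ * n) + (f2 + f3) ≤
      f1 + (13 / 10 * s * (τ * P) + n * Y + (C1 + C2 + C3) * (D * (θ * n + P)) +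
        (C1 + C2 + C3) * (G * θ * n) + (C1 + C2 + C3) * (1 + X) * (T * n)) := by
  have a1 := mul_le_mul_of_nonneg_right e2 (by positivity : 0 ≤ τ * θ * n)
  have a2 := mul_le_mul_of_nonneg_right e1 (by positivity : 0 ≤ C2 * (D * θ * n))
  have a3 : 0 ≤ C3 * (D * θ * n) := by positivity
  have a4 : 0 ≤ (C1 + C3) * (D * P) := by positivity
  have a5 : 0 ≤ (C1 + C2) * (G * θ * n) := by positivity
  have a6 : 0 ≤ (C1 + C2) * (1 + X) * (T * n) := by positivity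
  linarith

end TRSAux

open TRSAux in
theorem rs_pf (h0 : T_RS0) (hB : T_Bf) (h1 : T_L1) (h2 : T_L2) (h3 : T_L3) (hI : T_I)
    (hN : F_Int) : S_RS := by
  intro v C₀ hP
  obtain ⟨C1, c, ε1, p1, pc, q1, h1⟩ := h1 v C₀ hP
  obtain ⟨C2, p2, h2⟩ := h2 v C₀ hP
  obtain ⟨C3, ε3, p3, q3, h3⟩ := h3 v C₀ hP
  refine ⟨C1 + C2 + C3, c / 2, min (min ε1 ε3) (c / 2 / C2), by positivity, by positivity,
    by positivity, fun O ε σ X CX hc hX hθ τ η Λ L hτ τ1 hΛ hη hs hO hL he => ?_⟩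
  have e0 : ε ≤ ε * L ^ 2 := le_mul_of_one_le_right hc.pos.le (by nlinarith)
  simp only [le_min_iff] at he
  have e2 : C2 * ε ≤ c / 2 := by
    rw [mul_comm]
    exact (le_div_iff₀ p2).1 (e0.trans he.2)
  obtain ⟨b1, b2⟩ := hB v C₀ hP O ε hc.sol hc.good hc.pos hc.small hθ η hη hs hO
  obtain ⟨r0, r1, r2, r3⟩ := h0 v O ε σ X CX hc hX τ hτ (fun x => (τ1 x).1) _ b1.contDiffOn b2
  obtain ⟨i1, i2, i3, i4, i5, i6, i7, i8, hD⟩ :=
    hI v C₀ hP O ε σ X CX hc hX τ η Λ L hτ τ1 hΛ hη hs (by linarith)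
  have i9 : Integrable (fun y => DD v τ y * (th v y * η y ^ 2 + ‖Pr v y (gradient η y)‖ ^ 2)) σ :=
    (i4.add i5).congr (Eventually.of_forall fun y => (mul_add _ _ _).symm)
  have k := ((((hi i1).cm s0).add ((hi i2).cm (c / 2))).add ((hi r2).add (hi r3))).le
    ((hi r1).add ((((((hi i3).cm (13 / 10 * s0)).add (hi i8)).add ((hi i9).cm (C1 + C2 + C3))).add
      ((hi i6).cm (C1 + C2 + C3))).add ((hi i7).cm ((C1 + C2 + C3) * (1 + CX)))))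
    ((hN v O ε σ hc).2.1.mono fun y hy => pt p1 p2 p3 ((norm_nonneg _).trans (hX.bdd y))
      (hc.small.trans (by norm_num)) e2 (sq_nonneg _) (τ1 y).1 (hθ y).le (hD y) (sq_nonneg _)
      (integral_nonneg fun t => by positivity) (integral_nonneg fun t => by positivity)
      (h1 O ε hc.sol hc.good hc.pos hc.small (e0.trans he.1.1) τ η hτ.continuous τ1 y hy.1 hy.2
        (hθ y))
      (h2 O ε hc.sol hc.good hc.pos hc.small τ η hτ.continuous τ1 hη y hy.1 hy.2 (hθ y))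
      (h3 O ε X CX hc.sol hc.good hc.pos hc.small hX τ η Λ L hτ hΛ hL he.1.2 y hy.1 hy.2 (hθ y)))
  unfold YT
  linarith

end Vale.Agent.P134.DG
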