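import Vale.Agent.P134.FAll
import Vale.Agent.P134.TL1
import Vale.Agent.P134.TL2
import Vale.Agent.P134.TL3
import Vale.Agent.P134.TRS

/-! Block A1 assembled: the reduced stability inequality. -/

namespace Vale.Agent.P134.DG

theorem rs_all : S_RS :=
  rs_pf rs0_all (bf_pf alg_all g_pf) (l1_pf alg_all g_pf loc_all) (l2_pf alg_all g_pf loc_all)
    (l3_pf alg_all g_pf loc_all) ti_all int_all

end Vale.Agent.P134.DG
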