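import Vale.Agent.P134.QAr1
import Vale.Agent.P134.QArea
import Vale.Agent.P134.HAll
import Vale.Agent.P134.TAll
import Vale.Agent.P134.QBas
import Vale.Agent.P134.QDd
import Vale.Agent.P134.QFin
import Vale.Agent.P134.QFub
import Vale.Agent.P134.QGt
import Vale.Agent.P134.QIn
import Vale.Agent.P134.QInj
import Vale.Agent.P134.QLog
import Vale.Agent.P134.QM1
import Vale.Agent.P134.QM1p
import Vale.Agent.P134.QM2
import Vale.Agent.P134.QM3
import Vale.Agent.P134.QM3p
import Vale.Agent.P134.QMain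
import Vale.Agent.P134.QMaj
import Vale.Agent.P134.QMj1
import Vale.Agent.P134.QMj2
import Vale.Agent.P134.QNear
import Vale.Agent.P134.QOut
import Vale.Agent.P134.QPig
import Vale.Agent.P134.QProf
import Vale.Agent.P134.QTh
import Vale.Agent.P134.QVol
import Vale.Agent.P134.QWp

/-! P134, block A4: assembly. -/

namespace Vale.Agent.P134.DG

theorem a_pf (hPW : S_PW) (hRig : S_Rig) (hP : S_PId) (hCut : S_Cut) (hSurf : S_Surf)
    (hA : S_Alg) (hI : S_Inj) (hAF : S_AF) (hRS : S_RS) (hPog : S_Pog) : S_A :=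
  have hb := q_bas q_prof
  have h1 := q_mj1 hA hb
  have hm := q_maj hb q_fub h1 (q_mj2 h1)
  have hw := q_wp q_prof hb
  have hi := q_inj hI hb h1
  q_fin hPW hRig hCut hSurf hb
    (q_main hPog (q_in hP hb) (q_m1 hb q_fub h1 (q_m1p hb hw (q_near hb))) (q_m2 hAF hA hb h1 hi)
      (q_m3 hb h1 hm hi (q_m3p hA q_prof hb hw h1)) (q_out hRS hb h1 hm (q_dd hb) (q_gt hb))
      (q_gt hb) (q_area hb h1 (q_rs1 hRS) (q_ar1 hb)) (q_log hb h1 q_th) h1)
    (q_vol q_fub) q_pig q_par

theorem a_of_pog (hPog : S_Pog) : S_A :=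
  a_pf pw' rig' pid_pf cut_pf surf_all alg_all inj_all af_all rs_all hPog

end Vale.Agent.P134.DG
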