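import Vale.Agent.P134.QDefs

/-! P134, block A4: the test function of the area bound. -/

open scoped RealInnerProductSpace ContDiff ENNReal Topology Laplacian
open MeasureTheory Set Metric Filter

namespace Vale.Agent.P134.DG

theorem QAr1_sq (x : ℝ) : HasDerivAt (fun x : ℝ => max x 0 ^ 2) (2 * max x 0) x := by
  rw [hasDerivAt_iff_isLittleO_nhds_zero]
  refine (Asymptotics.IsBigO.of_bound 1 (Eventually.of_forall fun h => ?_)).trans_isLittleO
    (Asymptotics.isLittleO_pow_id one_lt_two)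
  rw [Real.norm_eq_abs, Real.norm_eq_abs, one_mul, abs_of_nonneg (sq_nonneg h), smul_eq_mul, abs_le]
  rcases le_total x 0 with h1 | h1 <;> rcases le_total (x + h) 0 with h2 | h2 <;>
    simp only [max_eq_left, max_eq_right, h1, h2] <;> constructor <;> nlinarith

theorem QAr1_st {x : ℝ} (h : x ≤ 0 ∨ 1 ≤ x) : deriv Real.smoothTransition x = 0 := by
  rcases h with h | h
  · exact IsLocalMin.deriv_eq_zero (Eventually.of_forall fun y =>
      (Real.smoothTransition.zero_of_nonpos h).trans_le (Real.smoothTransition.nonneg y))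
  · exact IsLocalMax.deriv_eq_zero (Eventually.of_forall fun y =>
      (Real.smoothTransition.le_one y).trans_eq (Real.smoothTransition.one_of_one_le h).symm)

theorem QAr1_prof : ∃ M : ℝ, 0 ≤ M ∧ ∀ a : ℝ, 10 ≤ a → ∃ Ξ Ξ' : ℝ → ℝ, ContDiff ℝ 1 Ξ ∧
    (∀ r, HasDerivAt Ξ (Ξ' r) r) ∧ (∀ r, r ≤ 3 ∨ a + 1 ≤ r → Ξ r = 0 ∧ Ξ' r = 0) ∧
    (∀ r, |Ξ r| ≤ 1 ∧ |Ξ' r| ≤ M) ∧
    ∀ r, 4 < r → Ξ r = max (1 - (r - 1) / a) 0 ^ 2 ∧ Ξ' r = -(2 / a) * max (1 - (r - 1) / a) 0 := by
  have hs : ContDiff ℝ 1 Real.smoothTransition := Real.smoothTransition.contDiff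
  obtain ⟨M, hM⟩ := (isCompact_Icc (a := (0:ℝ)) (b := 1)).exists_bound_of_continuousOn
    (hs.continuous_deriv le_rfl).continuousOn
  have hM0 : 0 ≤ M := (norm_nonneg _).trans (hM 0 (by simp))
  have hM' : ∀ x, |deriv Real.smoothTransition x| ≤ M := fun x => by
    by_cases hx : x ≤ 0 ∨ 1 ≤ x
    · rwa [QAr1_st hx, abs_zero]
    · exact hM x ⟨by grind, by grind⟩
  have hq : ContDiff ℝ 1 fun x : ℝ => max x 0 ^ 2 := contDiff_one_iff_deriv.2
    ⟨fun x => (QAr1_sq x).differentiableAt, by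
      rw [funext fun x => (QAr1_sq x).deriv]
      fun_prop⟩
  refine ⟨1 + M, by linarith, fun a ha => ⟨fun r => max (1 - (r - 1) / a) 0 ^ 2 *
    Real.smoothTransition (r - 3), fun r => 2 * max (1 - (r - 1) / a) 0 * (-(1 / a)) *
      Real.smoothTransition (r - 3) + max (1 - (r - 1) / a) 0 ^ 2 *
        deriv Real.smoothTransition (r - 3), (hq.comp (by fun_prop)).mul (hs.comp (by fun_prop)),
    fun r => ?_, ?_⟩⟩
  · exact ((QAr1_sq _).comp r ((((hasDerivAt_id r).sub_const 1).div_const a).const_sub 1)).mul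
      ((hs.differentiable one_ne_zero _).hasDerivAt.comp_sub_const r 3)
  have ha0 : 0 < a := by linarith
  have z1 : ∀ r : ℝ, r ≤ 3 → Real.smoothTransition (r - 3) = 0 ∧
      deriv Real.smoothTransition (r - 3) = 0 := fun r h =>
    ⟨Real.smoothTransition.zero_of_nonpos (by linarith), QAr1_st (Or.inl (by linarith))⟩
  refine ⟨fun r hr => ?_, fun r => ?_, fun r hr => ?_⟩
  · rcases hr with h | h
    · simp [z1 r h]
    · have : 1 - (r - 1) / a ≤ 0 := by
        rw [sub_nonpos, le_div_iff₀ ha0]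
        linarith
      simp [max_eq_right this]
  · rcases le_total r 3 with h | h
    · simp only [z1 r h, mul_zero, add_zero, abs_zero]
      exact ⟨zero_le_one, by linarith⟩
    · have h1 : 0 ≤ max (1 - (r - 1) / a) 0 := le_max_right _ _
      have h2 : max (1 - (r - 1) / a) 0 ≤ 1 :=
        max_le (sub_le_self _ (div_nonneg (by linarith) ha0.le)) zero_le_one
      have h3 := Real.smoothTransition.nonneg (r - 3)
      have h4 := Real.smoothTransition.le_one (r - 3)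
      have h5 := abs_le.1 (hM' (r - 3))
      have h6 : 1 / a ≤ 1 / 10 := one_div_le_one_div_of_le (by norm_num) ha
      have h7 : 0 < 1 / a := by positivity
      beta_reduce
      generalize max (1 - (r - 1) / a) 0 = m at h1 h2
      generalize Real.smoothTransition (r - 3) = t at h3 h4
      generalize deriv Real.smoothTransition (r - 3) = t' at h5
      generalize 1 / a = b at h6 h7
      have h8 : m ^ 2 ≤ 1 := by nlinarith
      have h9 : 0 ≤ m * t ∧ m * t ≤ 1 := ⟨by positivity, by nlinarith⟩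
      rw [abs_le, abs_le]
      refine ⟨⟨by nlinarith [sq_nonneg m], by nlinarith⟩, ?_, ?_⟩ <;>
        nlinarith [sq_nonneg m, mul_nonneg h9.1 h7.le]
  · simp only [Real.smoothTransition.one_of_one_le (show 1 ≤ r - 3 by linarith),
      QAr1_st (Or.inr (show 1 ≤ r - 3 by linarith))]
    constructor <;> ring

theorem QAr1_grad {om ka f : E 3 → ℝ} {Ξ : ℝ → ℝ} {t : ℝ} {y : E 3}
    (h1 : DifferentiableAt ℝ om y) (h2 : DifferentiableAt ℝ ka y) (h3 : DifferentiableAt ℝ f y)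
    (h4 : HasDerivAt Ξ t (f y)) : gradient (fun y => om y * (1 - ka y) * Ξ (f y)) y =
      (om y * (1 - ka y) * t) • gradient f y + (Ξ (f y) * (1 - ka y)) • gradient om y -
        (Ξ (f y) * om y) • gradient ka y := by
  have h := (h1.hasFDerivAt.fun_mul (h2.hasFDerivAt.const_sub 1)).fun_mul
    (h4.comp_hasFDerivAt y h3.hasFDerivAt)
  unfold gradient
  rw [show fderiv ℝ (fun y => om y * (1 - ka y) * Ξ (f y)) y = _ from h.fderiv]
  simp only [map_add, map_smul, map_neg, Function.comp_apply]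
  module

theorem QAr1_num {a u p C : ℝ} (ha : 10 ≤ a) (hC : 71 ≤ C) (h0 : 0 ≤ p)
    (hp : p ≤ |-(2 / a) * max (1 - (u - 1) / a) 0| * (21 / 20)) :
    p ^ 2 ≤ 6 / a ^ 2 * max (1 - (u + 1) / a) 0 ^ 2 + C / a ^ 4 := by
  have ha0 : 0 < a := by linarith
  have h1 : max (1 - (u - 1) / a) 0 ≤ max (1 - (u + 1) / a) 0 + 2 * a⁻¹ := by
    refine max_le ?_ (by positivity)
    have : 1 - (u - 1) / a = 1 - (u + 1) / a + 2 * a⁻¹ := by ring
    linarith [le_max_left (1 - (u + 1) / a) 0]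
  rw [abs_mul, abs_neg, abs_of_pos (show 0 < 2 / a by positivity),
    abs_of_nonneg (le_max_right _ _)] at hp
  have h2 : 0 ≤ max (1 - (u + 1) / a) 0 := le_max_right _ _
  generalize max (1 - (u + 1) / a) 0 = m at h1 h2
  have h3 : p ≤ 2 * a⁻¹ * (m + 2 * a⁻¹) * (21 / 20) := hp.trans (by rw [div_eq_mul_inv]; gcongr)
  refine (pow_le_pow_left₀ h0 h3 2).trans ?_
  rw [div_eq_mul_inv 6, div_eq_mul_inv C, ← inv_pow, ← inv_pow]
  have h4 : 0 < a⁻¹ := by positivity
  generalize a⁻¹ = b at h4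
  nlinarith [mul_nonneg (sq_nonneg b) (sq_nonneg (m - 6 * b)), mul_nonneg (sq_nonneg b) (sq_nonneg m),
    mul_nonneg (sub_nonneg.2 hC) (pow_pos h4 4).le, pow_pos h4 4]

theorem q_ar1 (hb : Q_bas) : Q_ar1 := by
  intro C
  obtain ⟨M, hM, hΞ⟩ := QAr1_prof
  refine ⟨(2 * M + 2 * C) ^ 2 + 71, by positivity, fun v X CX s hs f l CP hf hl a ha hal => ?_⟩
  obtain ⟨Ξ, Ξ', x1, x2, x3, x4, x5⟩ := hΞ a ha
  obtain ⟨om, ho⟩ := hs.cuts _ (LipschitzWith.dist_left s.x0) (s.R + 2 + 2 * a)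
  obtain ⟨ka, hk⟩ := hs.cuts _ hs.lip (s.ρ + s.L + 3)
  have hL := hs.hL
  have hρ := hs.hρ
  have hT := hs.hT
  have hC := hs.pw.one
  have hg := fun y => QAr1_grad (ho.sm.differentiable (by simp) y) (hk.sm.differentiable (by simp) y)
    (hf.sm.differentiable one_ne_zero y) (x2 (f y))
  have z0 : ∀ y, f y ≤ 3 ∨ a + 1 ≤ f y → om y * (1 - ka y) * Ξ (f y) = 0 ∧
      gradient (fun y => om y * (1 - ka y) * Ξ (f y)) y = 0 := fun y hy => by simp [hg, x3 _ hy]
  have z1 : ∀ y, v y = 0 → s.d y ≤ s.ρ + s.L + 5 + 1 / 2 → om y * (1 - ka y) * Ξ (f y) = 0 ∧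
      gradient (fun y => om y * (1 - ka y) * Ξ (f y)) y = 0 := fun y hy h => by
    rcases lt_or_ge (s.d y) (s.ρ + s.L + 3) with h1 | h1
    · simp [hg, hk.one y h1.le, (hk.der y).2 (Or.inl h1)]
    · exact z0 y (Or.inl ((hf.pt y hy (by linarith)).2.1 h))
  refine ⟨fun y => om y * (1 - ka y) * Ξ (f y), ((ho.sm.of_le (by simp)).mul
    (contDiff_const.sub (hk.sm.of_le (by simp)))).mul (x1.comp hf.sm),
    HasCompactSupport.intro (isCompact_closedBall s.x0 (s.R + 2 + 2 * a + 1)) fun y hy => ?_,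
    fun y hy => hs.hO y hy.2 ?_, fun y _ h1 h2 h3 => ?_, fun y hy h => ?_, fun y hy => ?_⟩
  · simp [ho.zero y (not_le.1 hy).le]
  · have h1 : s.ρ + s.L + 3 ≤ s.d y := closure_minimal (t := {y | s.ρ + s.L + 3 ≤ s.d y})
      (s := Function.support fun y => om y * (1 - ka y) * Ξ (f y))
      (fun z hz => show s.ρ + s.L + 3 ≤ s.d z from
        le_of_not_gt fun h => hz (by simp [hk.one z h.le]))
      (isClosed_le continuous_const hs.lip.continuous) hy.1
    linarith
  · simp only [ho.one y (mem_ball.1 h3).le, hk.zero y (by linarith), (x5 _ h2).1]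
    ring
  · simp only [K0, mem_ofPred_eq, hy, true_and, not_and_or, not_le] at h
    rcases h with h | h | h
    · exact z1 y hy (by linarith)
    · refine z0 y (Or.inr (le_of_not_gt fun h1 => ?_))
      linarith [(hf.pt y hy (by linarith)).2.2 (by linarith)]
    · simp [hg, ho.zero y (by linarith), (ho.der y).2 (Or.inr (by linarith))]
  have ha0 : 0 < a := by linarith
  have n1 : 0 ≤ ({y | s.ρ + s.L + 5 < s.d y} ∩ ball s.x0 (s.R + 2)).indicator
      (fun y => 6 / a ^ 2 * max (1 - (f y + 1) / a) 0 ^ 2) y :=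
    indicator_nonneg (fun _ _ => by positivity) y
  have n2 : ∀ (c : ℝ) (A : Set (E 3)), 0 ≤ c → 0 ≤ c * A.indicator 1 y := fun c A hc =>
    mul_nonneg hc (indicator_nonneg (fun _ _ => zero_le_one) y)
  have n3 := n2 ((2 * M + 2 * C) ^ 2 + 71) {y | s.d y ≤ s.ρ + s.L + 12} (by positivity)
  have n4 := n2 (((2 * M + 2 * C) ^ 2 + 71) / a ^ 4) {y | s.d y ≤ s.ρ + s.L + a + 9}
    (by positivity)
  have n5 := n2 ((2 * M + 2 * C) ^ 2 + 71) {y | s.R - s.T + 1 ≤ dist y s.x0} (by positivity)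
  by_cases h0 : s.d y ≤ s.ρ + s.L + 5 + 1 / 2 ∨ a + 1 ≤ f y
  · rw [(h0.elim (z1 y hy.1) fun h => z0 y (Or.inr h)).2, map_zero, norm_zero]
    linarith
  rw [not_or, not_le, not_le] at h0
  obtain ⟨p1, -, p2⟩ := hf.pt y hy.1 (by linarith)
  replace p2 := p2 (by linarith)
  have q1 : ‖Pr v y (gradient (fun y => om y * (1 - ka y) * Ξ (f y)) y)‖ ≤
      |Ξ' (f y)| * (21 / 20) + 2 * ‖gradient om y‖ := by
    rw [hg, hk.zero y (by linarith), (hk.der y).2 (Or.inr (by linarith)), smul_zero, sub_zero,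
      sub_zero, mul_one, mul_one, map_add, map_smul, map_smul]
    refine (norm_add_le _ _).trans (add_le_add ?_ ?_)
    · rw [norm_smul, Real.norm_eq_abs, abs_mul, abs_of_nonneg (ho.rg y).1]
      exact mul_le_mul (mul_le_of_le_one_left (abs_nonneg _) (ho.rg y).2) p1 (norm_nonneg _)
        (abs_nonneg _)
    · rw [norm_smul]
      exact (mul_le_of_le_one_left (norm_nonneg _) (x4 _).1).trans
        (((hb v hs.ctx.sol).2.2.2.2.2.2.2.2.2.2.1 y).2.2.2.2.2.2.2.1 _)
  have q2 : ‖Pr v y (gradient (fun y => om y * (1 - ka y) * Ξ (f y)) y)‖ ^ 2 ≤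
      (2 * M + 2 * C) ^ 2 :=
    pow_le_pow_left₀ (norm_nonneg _) (by linarith [(x4 (f y)).2, (ho.der y).1]) 2
  rcases le_or_gt (s.R + 2) (dist y s.x0) with h1 | h1
  · rw [indicator_of_mem (s := {y | s.R - s.T + 1 ≤ dist y s.x0})
      (show s.R - s.T + 1 ≤ dist y s.x0 by linarith), Pi.one_apply]
    linarith
  rcases le_or_gt (f y) 4 with h2 | h2
  · rw [indicator_of_mem (s := {y | s.d y ≤ s.ρ + s.L + 12})
      (show s.d y ≤ s.ρ + s.L + 12 by linarith), Pi.one_apply]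
    linarith
  rw [(ho.der y).2 (Or.inl (by linarith)), norm_zero, mul_zero, add_zero, (x5 _ h2).2] at q1
  rw [indicator_of_mem (s := {y | s.d y ≤ s.ρ + s.L + a + 9})
    (show s.d y ≤ s.ρ + s.L + a + 9 by linarith), Pi.one_apply, indicator_of_mem
    (show y ∈ {y | s.ρ + s.L + 5 < s.d y} ∩ ball s.x0 (s.R + 2) from
      ⟨show s.ρ + s.L + 5 < s.d y by linarith, h1⟩)]
  linarith [QAr1_num ha (le_add_of_nonneg_left (sq_nonneg (2 * M + 2 * C))) (norm_nonneg _) q1]

end Vale.Agent.P134.DG
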