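import Vale.Agent.P134.Stm

/-! P134, block A4: objects and internal statements. -/

open scoped RealInnerProductSpace ContDiff ENNReal Topology Laplacian
open MeasureTheory Set Metric Filter

namespace Vale.Agent.P134.DG

/-- `χ` is a smooth cut-off of `{d ≤ a}`. -/
structure Cut (d χ : E 3 → ℝ) (a C : ℝ) : Prop where
  sm : ContDiff ℝ ∞ χ
  rg : ∀ x, 0 ≤ χ x ∧ χ x ≤ 1
  one : ∀ x, d x ≤ a → χ x = 1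
  zero : ∀ x, a + 1 ≤ d x → χ x = 0
  der : ∀ x, ‖gradient χ x‖ ≤ C ∧ (d x < a ∨ a + 1 < d x → gradient χ x = 0)

/-- Cut-offs with constant `C` exist. -/
def Cuts (C : ℝ) : Prop := ∀ d : E 3 → ℝ, LipschitzWith 1 d → ∀ a : ℝ, ∃ χ, Cut d χ a C

/-- The data of the final test. -/
structure Su where
  O : Set (E 3)
  ε : ℝ
  σ : Measure (E 3)
  d : E 3 → ℝ
  x0 : E 3
  L : ℝ
  ρ : ℝ
  R : ℝ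
  T : ℝ
  nn : ℝ

/-- The standing assumptions of the final test. -/
structure Ok (v : E 3 → ℝ) (X : E 3 → E 3) (CX C : ℝ) (s : Su) : Prop where
  ctx : Ctx v s.O s.ε s.σ
  cal : Cal v X CX
  pw : PW v C
  cx : CX ≤ C
  pos : ∀ x, 0 < th v x
  cuts : Cuts C
  lip : LipschitzWith 1 s.d
  hO : ∀ y, v y = 0 → 0 < s.d y → y ∈ s.O
  hL : 20 ≤ s.L
  hε : s.ε * s.L ≤ 1 / 100
  hρ : 4 * s.L ≤ s.ρ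
  hT : 4 * s.ρ ≤ s.T
  hn : 0 ≤ s.nn
  vol : ∀ r, 0 ≤ r → r ≤ s.T →
    volume.real {x | s.d x ≤ r ∧ dist x s.x0 ≤ s.R + s.T} ≤ (r + 2) ^ 3 * s.nn

/-- Mass of the `r`-neighbourhood of the bad set. -/
noncomputable def GG (v : E 3 → ℝ) (s : Su) (r : ℝ) : ℝ :=
  ∫ x in {x | s.d x ≤ r ∧ dist x s.x0 ≤ s.R + s.T}, mm v x

/-- Mass of the thick shell. -/
noncomputable def Sm (v : E 3 → ℝ) (s : Su) : ℝ :=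
  ∫ x in {x | s.ρ - 3 * s.L < s.d x ∧ s.d x ≤ s.ρ + 3 * s.L ∧ dist x s.x0 ≤ s.R + s.T}, mm v x

/-- Volume of the part in the outer annulus. -/
noncomputable def An (s : Su) : ℝ :=
  volume.real {x | s.d x ≤ s.T ∧ s.R - s.T ≤ dist x s.x0 ∧ dist x s.x0 ≤ s.R + s.T}

/-- The total error. -/
noncomputable def Er (v : E 3 → ℝ) (s : Su) : ℝ :=
  Real.exp (-(2 * s.L)) * (s.ρ ^ 3 * s.nn) + Real.exp (s.L / 3) * Sm v s + An s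

open Classical in
/-- The majorant of all error densities on the zero set. -/
noncomputable def maj (v : E 3 → ℝ) (s : Su) (y : E 3) : ℝ :=
  Real.exp (-(2 * s.L)) * Real.exp (-max (s.d y - s.ρ - 2 * s.L) 0) +
    Real.exp (s.L / 3) *
      (if s.ρ - 2 * s.L - 1 ≤ s.d y ∧ s.d y ≤ s.ρ + 2 * s.L + 1 then th v y else 0) +
    (if s.R - s.T + 1 ≤ dist y s.x0 then 1 else 0)

/-- The compact part of the zero set that carries all test functions. -/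
def K0 (v : E 3 → ℝ) (s : Su) : Set (E 3) :=
  {y | v y = 0 ∧ 1 ≤ s.d y ∧ s.d y ≤ s.T - 1 ∧ dist y s.x0 ≤ s.R + s.T - 1}

/-- The logarithmic cut-off with energy at most `B`. -/
structure Lg (v : E 3 → ℝ) (s : Su) (η : E 3 → ℝ) (B : ℝ) : Prop where
  sm : ContDiff ℝ 1 η
  rg : ∀ y, 0 ≤ η y ∧ η y ≤ 1
  one : ∀ y, v y = 0 → s.d y ≤ s.ρ + s.L + 5 → η y = 1 ∧ gradient η y = 0
  zero : ∀ y, v y = 0 → s.T - 2 ≤ s.d y → η y = 0 ∧ gradient η y = 0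
  bd : ∀ y, v y = 0 → ‖Pr v y (gradient η y)‖ ≤ 1
  en : ∫ y in K0 v s ∩ closedBall s.x0 (s.R + 1), ‖Pr v y (gradient η y)‖ ^ 2 ∂s.σ ≤ B

/-- A base function of the tube test. -/
structure Bs (v : E 3 → ℝ) (s : Su) (η : E 3 → ℝ) : Prop where
  ct : Continuous η
  rg : ∀ y, 0 ≤ η y ∧ η y ≤ 1
  one : ∀ y, v y = 0 → 2 ≤ s.d y → s.d y ≤ s.ρ + s.L + 5 → dist y s.x0 ≤ s.R → η y = 1
  zero : ∀ y, v y = 0 → y ∉ K0 v s → η y = 0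

/-- The conclusion of the area block at radius `ρ + L + 5`. -/
structure Pg (v : E 3 → ℝ) (s : Su) (f : E 3 → ℝ) (l CP : ℝ) : Prop where
  sm : ContDiff ℝ 1 f
  pt : ∀ y, v y = 0 → s.ρ + s.L + 5 - 5 < s.d y → ‖Pr v y (gradient f y)‖ ≤ 21 / 20 ∧
    (s.d y ≤ s.ρ + s.L + 5 + 1 / 2 → f y ≤ 3) ∧ (f y < l + 1 → s.d y ≤ s.ρ + s.L + 5 + f y + 3)
  ar : ∀ a, 10 ≤ a → a ≤ l → ∀ (x₀ : E 3) (R : ℝ),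
    ∫ y in {y | s.ρ + s.L + 5 < s.d y} ∩ ball x₀ R, 12 / a ^ 2 * max (1 - (f y + 1) / a) 0 ^ 2 ∂s.σ ≤
      CP * volume.real ({y | s.d y ≤ s.ρ + s.L + 5 + 10} ∩ ball x₀ (R + 2 * a)) +
      ∫ y in {y | s.ρ + s.L + 5 < s.d y ∧ 4 < f y} ∩ ball x₀ (R + 2 * a),
        |KK v y| * max (1 - (f y - 1) / a) 0 ^ 4 ∂s.σ

/-- The defect along the normal line. -/
noncomputable def ee (v : E 3 → ℝ) (z : E 3 × ℝ) : ℝ :=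
  |ww v z| + ‖gradient v (FF v z) - NN v z.1‖

/-- The thin shell. -/
def Sh (s : Su) : Set (E 3) :=
  {x | s.ρ ≤ s.d x ∧ s.d x ≤ s.ρ + 1 ∧ dist x s.x0 ≤ s.R - s.L - 1}

/-- The part of the tube over the thin shell where the defect is small. -/
def D1 (v : E 3 → ℝ) (s : Su) : Set (E 3 × ℝ) :=
  {z | v z.1 = 0 ∧ |z.2| ≤ s.L ∧ FF v z ∈ Sh s ∧ ee v z ≤ 1 / (s.L + 1)}

/-- The inner flux density. -/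
noncomputable def Fi (v : E 3 → ℝ) (X : E 3 → E 3) (χ : E 3 → ℝ) (x : E 3) : ℝ :=
  ⟪gradient χ x, Yin v X x⟫

/-- The outer flux density. -/
noncomputable def Fo (v : E 3 → ℝ) (X : E 3 → E 3) (χ : E 3 → ℝ) (z : E 3 × ℝ) : ℝ :=
  ⟪gradient χ (FF v z), Yo v X z⟫ * JJ v z

/-! Statements. -/

def Q_prof : Prop :=
  (∀ t, HasDerivAt gg (g1 t) t ∧ HasDerivAt g1 (-(√2 * gg t * g1 t)) t ∧ |gg t| < 1 ∧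
    Real.exp (-(√2 * |t|)) / 2 ≤ g1 t ∧ g1 t ≤ 3 * Real.exp (-(√2 * |t|)) ∧ g1 t ≤ 1 ∧
    √2 * g1 t ≤ 1) ∧ √2 * g1 0 = 1 ∧ (∀ a b, |a| ≤ |b| → g1 b ≤ g1 a) ∧
  ∀ a b, |a - b| ≤ 1 → |g1 a ^ 2 - g1 b ^ 2| ≤ 1000 * Real.exp (-(2 * √2 * |b|)) * |a - b| ∧
    |g1 a ^ 2 * gg a - g1 b ^ 2 * gg b| ≤ 2000 * Real.exp (-(2 * √2 * |b|)) * |a - b|

/-- elementary facts on `v` -/
def Q_bas : Prop := ∀ v : E 3 → ℝ, Sol v →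
  LipschitzWith 1 v ∧ Continuous (gradient v) ∧ Continuous (th v) ∧ Continuous (PP v) ∧
  Continuous (mm v) ∧ Measurable (NN v) ∧ Measurable (FF v) ∧ Measurable (JJ v) ∧
  Measurable (ee v) ∧ Measurable (KK v) ∧
  (∀ x, 0 ≤ th v x ∧ th v x ≤ 1 ∧ 0 < PP v x ∧ PP v x ≤ 1 ∧ 0 ≤ mm v x ∧ mm v x ≤ 1 ∧
    ‖NN v x‖ ≤ 1 ∧ (∀ a, ‖Pr v x a‖ ≤ 2 * ‖a‖) ∧ ∀ t, dist (FF v (x, t)) x ≤ |t|) ∧
  (∀ η : E 3 → ℝ, ContDiff ℝ 1 η → Measurable fun y => ‖Pr v y (gradient η y)‖ ^ 2) ∧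
  ∀ C, PW v C → ∀ x y, v y = 0 → dist x y ≤ 1 → th v y ≤ 5000 * Real.exp C * mm v x

def Q_wp : Prop := ∀ (v : E 3 → ℝ) (C : ℝ), Sol v → PW v C → ∃ C', 0 < C' ∧ ∀ y, v y = 0 →
  th v y ≤ 1 / 2 → ∀ t : ℝ,
    ee v (y, t) ≤ C' * (1 + |t|) ^ 3 * Real.exp ((3 / 2 + √2) * |t|) * th v y

/-- double counting -/
def Q_fub : Prop := ∀ (μ : Measure (E 3)) [SFinite μ] (A B : Set (E 3)) (h φ : E 3 → ℝ) (r M : ℝ),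
  MeasurableSet A → MeasurableSet B → Measurable h → (∀ x, 0 ≤ h x) → IntegrableOn h B → 0 ≤ M →
  (∀ y ∈ A, ball y r ⊆ B) → (∀ x, μ (ball x r) ≤ ENNReal.ofReal M) →
  (∀ y ∈ A, 0 ≤ φ y ∧ φ y ≤ ∫ x in ball y r, h x) → ∫ y in A, φ y ∂μ ≤ M * ∫ x in B, h x

def Q_mj1 : Prop := ∀ v X CX C s, Ok v X CX C s →
  IsFiniteMeasureOnCompacts s.σ ∧ (∀ᵐ y ∂s.σ, v y = 0) ∧ IsCompact (K0 v s) ∧ K0 v s ⊆ s.O ∧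
  (∀ y ∈ K0 v s, th v y ≤ 1 / 2 ∧ |KK v y| ≤ 1 ∧ ∀ t : ℝ, |t| ≤ s.L → (y, t) ∈ Om v s.O) ∧
  (∀ y, 0 ≤ maj v s y) ∧ 0 ≤ Sm v s ∧ 0 ≤ An s ∧ 0 ≤ Er v s ∧
  IntegrableOn (maj v s) (K0 v s) s.σ ∧ (∀ x, s.σ (ball x 1) ≤ ENNReal.ofReal 128) ∧
  (∀ r, 0 ≤ r → r ≤ s.T - 1 →
    s.σ.real {y | s.d y ≤ r ∧ dist y s.x0 ≤ s.R + s.T - 1} ≤ 2 * ((r + 3) ^ 3 * s.nn)) ∧
  s.σ.real {y | s.d y ≤ s.T - 1 ∧ s.R - s.T + 1 ≤ dist y s.x0 ∧ dist y s.x0 ≤ s.R + s.T - 1} ≤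
    2 * An s

def Q_mj2 : Prop := ∃ C', 0 < C' ∧ ∀ v X CX C s, Ok v X CX C s →
  ∫ y in K0 v s, Real.exp (-max (s.d y - s.ρ - 2 * s.L) 0) ∂s.σ ≤ C' * (s.ρ ^ 3 * s.nn)

def Q_maj : Prop := ∀ (C : ℝ), ∃ C', 0 < C' ∧ ∀ v X CX s, Ok v X CX C s →
  ∫ y in K0 v s, maj v s y ∂s.σ ≤ C' * Er v s ∧
  ∀ (φ : E 3 → ℝ) (B : ℝ), 0 ≤ B → (∀ y ∈ K0 v s, |φ y| ≤ B * maj v s y) →
    (∀ y, v y = 0 → y ∉ K0 v s → φ y = 0) → |∫ y, φ y ∂s.σ| ≤ B * (C' * Er v s)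

/-- the weights along normal lines -/
def Q_dd : Prop := ∀ v X CX C s, Ok v X CX C s → ∀ χ, Cut s.d χ s.ρ C → ∀ y,
  0 ≤ DD v (fun x => 1 - χ x) y ∧ 0 ≤ DGr v (fun x => 1 - χ x) y ∧
  0 ≤ DT v (fun x => 1 - χ x) s.L y ∧
  DD v (fun x => 1 - χ x) y ≤ 2 ∧ DGr v (fun x => 1 - χ x) y ≤ 2 * C ∧
  (s.ρ + 2 * s.L + 1 ≤ s.d y ∨ s.d y ≤ s.ρ - 2 * s.L →
    DD v (fun x => 1 - χ x) y ≤ 2 * Real.exp (-(2 * s.L)) ∧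
    DGr v (fun x => 1 - χ x) y ≤ 2 * C * Real.exp (-(2 * s.L))) ∧
  DT v (fun x => 1 - χ x) s.L y ≤
    C * (Real.exp (-(2 * s.L)) * Real.exp (-max (s.d y - s.ρ - 2 * s.L) 0))

/-- the base function of the tube test -/
def Q_gt : Prop := ∀ v X CX C s, Ok v X CX C s → ∀ κ om η B, Cut s.d κ 1 C →
  Cut (fun x => dist x s.x0) om s.R C → Lg v s η B → ∀ ξ, ξ = (fun y => η y * (1 - κ y) * om y) →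
  ContDiff ℝ 1 ξ ∧ HasCompactSupport ξ ∧ tsupport ξ ∩ {y | v y = 0} ⊆ s.O ∧ Bs v s ξ ∧
  (∀ y, v y = 0 → y ∉ K0 v s → gradient ξ y = 0) ∧
  ∀ y ∈ K0 v s, ‖Pr v y (gradient ξ y)‖ ^ 2 ≤
    3 * (closedBall s.x0 (s.R + 1)).indicator (fun y => ‖Pr v y (gradient η y)‖ ^ 2) y +
    12 * C ^ 2 * {y | s.d y ≤ 2}.indicator 1 y + 12 * C ^ 2 * {y | s.R ≤ dist y s.x0}.indicator 1 y

def Q_in : Prop := ∀ (C : ℝ), ∃ C', 0 < C' ∧ ∀ v X CX s, Ok v X CX C s → ∀ χ om,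
  Cut s.d χ s.ρ C → Cut (fun x => dist x s.x0) om s.R C →
  GG v s s.ρ ≤ (∫ x, om x * Fi v X χ x) + C' * An s

def Q_out : Prop := ∀ (v : E 3 → ℝ) (C : ℝ), PW v C → ∃ C' L₀ ε₀ : ℝ, 0 < C' ∧ 0 < ε₀ ∧
  ∀ X CX s, Ok v X CX C s → L₀ ≤ s.L → s.ε * s.L ^ 2 ≤ ε₀ → ∀ χ κ om η B,
  Cut s.d χ s.ρ C → Cut s.d κ 1 C → Cut (fun x => dist x s.x0) om s.R C → Lg v s η B →
  0 ≤ C' * B + YT v s.σ X s.L (fun x => 1 - χ x) (fun y => η y * (1 - κ y) * om y) + C' * Er v s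

def Q_inj : Prop := ∀ v X CX C s, Ok v X CX C s → MeasurableSet (D1 v s) ∧
  (∀ z ∈ D1 v s, z.1 ∈ K0 v s) ∧ D1 v s ⊆ Om v s.O ∧ InjOn (FF v) (D1 v s)

def Q_near : Prop := ∀ v X CX C s, Ok v X CX C s → ∀ x, s.ρ ≤ s.d x →
  PP v x ≤ C * Real.exp (-(13 / 10 * s.L)) ∨ ∃ (y : E 3) (t : ℝ), v y = 0 ∧ |t| ≤ s.L ∧
    FF v (y, t) = x ∧ th v y ≤ 1 / 2 ∧ PP v x ≤ C * Real.exp (-(13 / 10 * |t|))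

def Q_m1p : Prop := ∀ (v : E 3 → ℝ) (C : ℝ), Sol v → PW v C → ∃ C', 0 < C' ∧
  ∀ X CX s, Ok v X CX C s → ∀ x ∈ Sh s, x ∉ FF v '' D1 v s →
  PP v x ^ 2 ≤ C' * Real.exp (-(2 * s.L)) +
    C' * (1 + s.L) ^ 4 * Real.exp (s.L / 3) * ∫ z in ball x (s.L + 1), mm v z

def Q_m1 : Prop := ∀ (v : E 3 → ℝ) (C : ℝ), Sol v → PW v C → ∃ C', 0 < C' ∧
  ∀ X CX s, Ok v X CX C s → ∀ χ om, Cut s.d χ s.ρ C → Cut (fun x => dist x s.x0) om s.R C →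
  MeasurableSet (FF v '' D1 v s) →
  ∫ x, om x * Fi v X χ x ≤ (∫ x in FF v '' D1 v s, Fi v X χ x) + C' * (1 + s.L) ^ 7 * Er v s

def Q_m2 : Prop := ∀ v X CX C s, Ok v X CX C s → ∀ χ, Cut s.d χ s.ρ C →
  MeasurableSet (FF v '' D1 v s) ∧ ∫ x in FF v '' D1 v s, Fi v X χ x =
    ∫ z in D1 v s, Fi v X χ (FF v z) * JJ v z ∂(s.σ.prod volume)

open Classical in
def Q_m3p : Prop := ∀ (v : E 3 → ℝ) (C : ℝ), Sol v → PW v C → ∃ C', 0 < C' ∧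
  ∀ X CX s, Ok v X CX C s → ∀ χ η, Cut s.d χ s.ρ C → Bs v s η → ∀ y ∈ K0 v s, ∀ t : ℝ,
  |t| ≤ s.L → |Fo v X χ (y, t)| ≤ C' ∧
    |(if (y, t) ∈ D1 v s then Fi v X χ (FF v (y, t)) * JJ v (y, t) else 0) -
      η y ^ 2 * Fo v X χ (y, t)| ≤ C' * (1 + s.L) ^ 4 * maj v s y

def Q_m3 : Prop := ∀ (v : E 3 → ℝ) (C : ℝ), Sol v → PW v C → ∃ C', 0 < C' ∧
  ∀ X CX s, Ok v X CX C s → ∀ χ η, Cut s.d χ s.ρ C → Bs v s η →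
  (∫ z in D1 v s, Fi v X χ (FF v z) * JJ v z ∂(s.σ.prod volume)) +
    YT v s.σ X s.L (fun x => 1 - χ x) η ≤ C' * (1 + s.L) ^ 7 * Er v s

/-- stability of the zero set -/
def Q_rs1 : Prop := ∀ (v : E 3 → ℝ) (C : ℝ), PW v C → ∃ ε₀ : ℝ, 0 < ε₀ ∧
  ∀ X CX s, Ok v X CX C s → s.ε * s.L ^ 2 ≤ ε₀ → ∀ η : E 3 → ℝ, ContDiff ℝ 1 η →
  HasCompactSupport η → tsupport η ∩ {y | v y = 0} ⊆ s.O →
  ∫ y, |KK v y| * η y ^ 2 ∂s.σ ≤ 13 / 10 * ∫ y, ‖Pr v y (gradient η y)‖ ^ 2 ∂s.σ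

/-- the test function of the area bound -/
def Q_ar1 : Prop := ∀ C : ℝ, ∃ C', 0 < C' ∧ ∀ v X CX s, Ok v X CX C s → ∀ f l CP, Pg v s f l CP →
  8 * l ≤ s.T → ∀ a, 10 ≤ a → a ≤ l → ∃ η : E 3 → ℝ, ContDiff ℝ 1 η ∧ HasCompactSupport η ∧
  tsupport η ∩ {y | v y = 0} ⊆ s.O ∧
  (∀ y, v y = 0 → s.ρ + s.L + 5 < s.d y → 4 < f y → y ∈ ball s.x0 (s.R + 2 + 2 * a) →
    η y ^ 2 = max (1 - (f y - 1) / a) 0 ^ 4) ∧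
  (∀ y, v y = 0 → y ∉ K0 v s → η y = 0 ∧ gradient η y = 0) ∧
  ∀ y ∈ K0 v s, ‖Pr v y (gradient η y)‖ ^ 2 ≤
    ({y | s.ρ + s.L + 5 < s.d y} ∩ ball s.x0 (s.R + 2)).indicator
      (fun y => 6 / a ^ 2 * max (1 - (f y + 1) / a) 0 ^ 2) y +
    C' * {y | s.d y ≤ s.ρ + s.L + 12}.indicator 1 y +
    C' / a ^ 4 * {y | s.d y ≤ s.ρ + s.L + a + 9}.indicator 1 y +
    C' * {y | s.R - s.T + 1 ≤ dist y s.x0}.indicator 1 y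

def Q_area : Prop := ∀ (v : E 3 → ℝ) (C CP : ℝ), PW v C → 0 ≤ CP → ∃ C' ε₀ : ℝ, 0 < C' ∧ 0 < ε₀ ∧
  ∀ X CX s, Ok v X CX C s → s.ε * s.L ^ 2 ≤ ε₀ → ∀ f l, Pg v s f l CP → 8 * l ≤ s.T →
  ∀ r, 4 ≤ r → 2 * r + 2 ≤ l →
  s.σ.real {y | s.ρ + s.L + 5 < s.d y ∧ dist y s.x0 ≤ s.R + 1 ∧ f y ≤ r} ≤
    C' * r ^ 2 * (s.ρ ^ 3 * s.nn + An s)

/-- the logarithmic profile -/
def Q_th : Prop := ∃ C : ℝ, 0 < C ∧ ∀ m : ℕ, 1 ≤ m → ∃ Θ : ℝ → ℝ, ContDiff ℝ 1 Θ ∧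
  (∀ r, 0 ≤ Θ r ∧ Θ r ≤ 1) ∧ (∀ r, r ≤ 2 ^ m → Θ r = 1 ∧ deriv Θ r = 0) ∧
  (∀ r, 2 ^ (2 * m) ≤ r → Θ r = 0 ∧ deriv Θ r = 0) ∧ ∀ r, 0 < r → |deriv Θ r| ≤ C / (m * r)

def Q_log : Prop := ∃ (C' : ℝ) (m₀ : ℕ), 0 < C' ∧ ∀ v X CX C s, Ok v X CX C s → ∀ (m : ℕ) f CP B,
  m₀ ≤ m → Pg v s f (2 ^ (2 * m + 2)) CP → 8 * 2 ^ (2 * m + 2) ≤ s.T → 0 ≤ B →
  (∀ r, 4 ≤ r → 2 * r + 2 ≤ 2 ^ (2 * m + 2) →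
    s.σ.real {y | s.ρ + s.L + 5 < s.d y ∧ dist y s.x0 ≤ s.R + 1 ∧ f y ≤ r} ≤ r ^ 2 * B) →
  ∃ η, Lg v s η (C' * B / m)

def Q_main : Prop := ∀ (v : E 3 → ℝ) (C : ℝ), Sol v → PW v C →
  ∃ (C' L₀ ε₀ : ℝ) (m₀ : ℕ), 0 < C' ∧ 0 < ε₀ ∧ ∀ X CX s, Ok v X CX C s → L₀ ≤ s.L →
  s.ε * s.L ^ 2 ≤ ε₀ → ∀ m : ℕ, m₀ ≤ m → 8 * 2 ^ (2 * m + 2) ≤ s.T →
  GG v s s.ρ ≤ C' * ((1 + s.L) ^ 7 * Er v s + s.ρ ^ 3 * s.nn / m)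

/-- volume of the unit neighbourhood of `Z` in a ball -/
noncomputable def nZ (Z : Set (E 3)) (x0 : E 3) (R : ℝ) : ℝ :=
  volume.real {x | infDist x Z ≤ 1 ∧ dist x x0 ≤ R}

def Q_vol : Prop := ∀ (Z : Set (E 3)) (x0 : E 3), IsClosed Z → x0 ∈ Z →
  Monotone (nZ Z x0) ∧ 0 < nZ Z x0 1 ∧ (∀ R, 0 ≤ R → nZ Z x0 R ≤ 8 * R ^ 3) ∧
  (∀ r R, 0 ≤ r → volume.real {x | infDist x Z ≤ r ∧ dist x x0 ≤ R} ≤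
    (r + 2) ^ 3 * nZ Z x0 (R + r + 1)) ∧
  ∀ T R, 1 ≤ T → volume.real {x | infDist x Z ≤ T ∧ R - T ≤ dist x x0 ∧ dist x x0 ≤ R + T} ≤
    (T + 2) ^ 3 * (nZ Z x0 (R + 4 * T) - nZ Z x0 (R - 4 * T))

/-- pigeonhole -/
def Q_pig : Prop :=
  (∀ (G : ℝ → ℝ) (a h B q : ℝ) (k : ℕ), 0 < G a → 0 ≤ q → G (a + k * h) ≤ B * G a →
    B < (1 + q) ^ k → ∃ i : ℕ, i < k ∧ G (a + i * h + h) ≤ (1 + q) * G (a + i * h)) ∧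
  ∀ (n : ℝ → ℝ) (W q : ℝ), Monotone n → 0 < n 1 → (∀ R, 0 ≤ R → n R ≤ 8 * R ^ 3) → 0 < W →
    0 < q → ∃ R, 0 < n (R - W) ∧ n (R + W) ≤ (1 + q) * n (R - W)

/-- the choice of `L` -/
def Q_par : Prop := ∀ A c : ℝ, 0 < A → 0 < c → ∀ᶠ L : ℝ in atTop,
  A * (1 + L) ^ 7 * Real.exp (-(L / 16)) ≤ c ∧ 10 * L ≤ Real.exp (L / 2) ∧
  ∃ k : ℕ, k * (6 * L) ≤ Real.exp (L / 2) ∧
    A * Real.exp (2 * L) < (1 + Real.exp (-(2 * L / 5))) ^ k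

end Vale.Agent.P134.DG
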