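import Vale.Agent.P134.QDefs

/-! P134, block A4: auxiliary facts for the choice of parameters. -/

open scoped RealInnerProductSpace ContDiff ENNReal Topology Laplacian
open MeasureTheory Set Metric Filter

namespace Vale.Agent.P134.DG

namespace QFinAux

theorem pw_mono {v : E 3 → ℝ} {C C' : ℝ} (h : PW v C) (hC : C ≤ C') (h0 : ∀ x, 0 ≤ th v x)
    (hP : ∀ x, 0 < PP v x) : PW v C' := by
  have hV : ∀ x, 0 ≤ VV v x := fun x => by
    unfold VV
    have := h0 x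
    have := hP x
    positivity
  refine ⟨h.one.trans hC, fun x => (h.d2 x).trans (mul_le_mul_of_nonneg_right hC (h0 x)),
    fun x => (h.d3 x).trans (mul_le_mul_of_nonneg_right hC (h0 x)),
    fun x => (h.dth x).trans (mul_le_mul_of_nonneg_right hC (h0 x)),
    fun x y => (h.hth x y).trans ?_, fun x y => (h.hV x y).trans ?_,
    fun x R hR => (h.dec x R hR).trans ?_⟩
  · have := h0 x
    gcongr
  · have := hV x
    gcongr
  · gcongr

theorem zero_ex {v : E 3 → ℝ} {C : ℝ} (h : PW v C) (hP : ∀ x, 0 < PP v x) : ∃ y, v y = 0 := by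
  by_contra hn
  have hn' : ∀ z, v z ≠ 0 := fun z hz => hn ⟨z, hz⟩
  have hC : 0 < C := lt_of_lt_of_le one_pos h.one
  have hp := hP 0
  have h1 := h.dec 0 (C / PP v 0) (fun z _ => hn' z)
  have h2 : 13 / 10 * (C / PP v 0) + 1 ≤ Real.exp (13 / 10 * (C / PP v 0)) :=
    Real.add_one_le_exp _
  rw [Real.exp_neg, ← div_eq_mul_inv, le_div_iff₀ (Real.exp_pos _)] at h1
  have h3 : PP v 0 * (13 / 10 * (C / PP v 0) + 1) = 13 / 10 * C + PP v 0 := by field_simp
  have h4 := mul_le_mul_of_nonneg_left h2 hp.le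
  linarith

theorem good_of {v : E 3 → ℝ} {C L : ℝ} (h : PW v C) (hc : Continuous (th v))
    (h0 : ∀ x, 0 ≤ th v x) (hL : 0 ≤ L) (Z : Set (E 3))
    (hZ : ∀ y, v y = 0 → y ∉ Z → th v y < Real.exp (-(L / 4))) :
    Good v ({x | 0 < infDist x Z} ∩ {x | th v x < 1 / 2})
      (C * Real.exp (4 * C) * Real.exp (-(L / 8))) := by
  refine ⟨(isOpen_lt continuous_const (continuous_infDist_pt Z)).inter
    (isOpen_lt hc continuous_const), fun x hx => le_of_lt hx.2, fun y hy hv x hx => ?_⟩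
  have hC := h.one
  have hyZ : y ∉ Z := fun hy' => by
    have h1 : 0 < infDist y Z := hy.1
    rw [infDist_zero_of_mem hy'] at h1
    exact lt_irrefl _ h1
  have h1 := (hZ y hv hyZ).le
  have hd : dist y x ≤ 4 := by rw [dist_comm]; exact (mem_ball.1 hx).le
  obtain ⟨a, ha⟩ : ∃ a, a = Real.exp (4 * C) := ⟨_, rfl⟩
  obtain ⟨b, hb⟩ : ∃ b, b = Real.exp (-(L / 8)) := ⟨_, rfl⟩
  have ha1 : 1 ≤ a := by rw [ha]; exact Real.one_le_exp (by linarith)
  have hb0 : 0 < b := by rw [hb]; exact Real.exp_pos _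
  have hb1 : b ≤ 1 := by rw [hb]; exact Real.exp_le_one_iff.2 (by linarith)
  have hbb : Real.exp (-(L / 4)) = b * b := by rw [hb, ← Real.exp_add]; congr 1; ring
  have h2 : th v x ≤ a * (b * b) := by
    refine (h.hth y x).trans ?_
    rw [ha, ← hbb]
    refine mul_le_mul (Real.exp_le_exp.2 ?_) h1 (h0 y) (Real.exp_pos _).le
    nlinarith
  rw [← ha, ← hb]
  have h3 : C * th v x ≤ (C * a * b) ^ 2 := by
    have h4 : C * th v x ≤ C * (a * (b * b)) := mul_le_mul_of_nonneg_left h2 (by linarith)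
    have h5 : 1 ≤ C * a := one_le_mul_of_one_le_of_one_le hC ha1
    have h6 : 0 ≤ C * a * (b * b) := by positivity
    nlinarith [mul_le_mul_of_nonneg_left h5 h6]
  have h7 : 0 ≤ C * a * b := by positivity
  refine ⟨h2.trans ?_, (abs_le_of_sq_le_sq' ((h.d2 x).trans h3) h7).2,
    (abs_le_of_sq_le_sq' ((h.d3 x).trans h3) h7).2⟩
  have h8 : b ≤ C := hb1.trans hC
  have h9 : 0 ≤ a * b := by positivity
  nlinarith [mul_le_mul_of_nonneg_left h8 h9]

theorem gm {v : E 3 → ℝ} (hc : Continuous (mm v)) (h0 : ∀ x, 0 ≤ mm v x ∧ mm v x ≤ 1)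
    (d : E 3 → ℝ) (hd : Continuous d) (x0 : E 3) (R : ℝ) (G : ℝ → ℝ)
    (hG : ∀ r, G r = ∫ x in {x | d x ≤ r ∧ dist x x0 ≤ R}, mm v x) :
    Monotone G ∧
    (∀ a b, a ≤ b → ∫ x in {x | a < d x ∧ d x ≤ b ∧ dist x x0 ≤ R}, mm v x = G b - G a) ∧
    (∀ r, G r ≤ volume.real {x | d x ≤ r ∧ dist x x0 ≤ R}) ∧
    ∀ c, (∀ x, d x ≤ 1 → c ≤ mm v x) → c * volume.real {x | d x ≤ 1 ∧ dist x x0 ≤ R} ≤ G 1 := by
  have hK : ∀ r, IsCompact {x | d x ≤ r ∧ dist x x0 ≤ R} := fun r =>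
    (isCompact_closedBall x0 R).of_isClosed_subset ((isClosed_le hd continuous_const).inter
      (isClosed_le (continuous_id.dist continuous_const) continuous_const)) fun x hx => hx.2
  have hI : ∀ r, IntegrableOn (mm v) {x | d x ≤ r ∧ dist x x0 ≤ R} := fun r =>
    hc.continuousOn.integrableOn_compact (hK r)
  have hm : ∀ r, MeasurableSet {x | d x ≤ r ∧ dist x x0 ≤ R} := fun r => (hK r).measurableSet
  have hf : ∀ r, volume {x | d x ≤ r ∧ dist x x0 ≤ R} ≠ ⊤ := fun r => (hK r).measure_lt_top.ne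
  have hs : ∀ a b, a ≤ b → {x | d x ≤ a ∧ dist x x0 ≤ R} ⊆ {x | d x ≤ b ∧ dist x x0 ≤ R} :=
    fun a b hab x hx => ⟨hx.1.trans hab, hx.2⟩
  refine ⟨fun a b hab => ?_, fun a b hab => ?_, fun r => ?_, fun c hc' => ?_⟩
  · rw [hG, hG]
    exact setIntegral_mono_set (hI b) (Eventually.of_forall fun x => (h0 x).1)
      (hs a b hab).eventuallyLE
  · rw [hG, hG, ← setIntegral_sdiff (hm a) (hI b) (hs a b hab)]
    congr 2
    ext x
    simp only [mem_ofPred_eq, Set.mem_sdiff, not_and, not_le]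
    constructor
    · rintro ⟨h1, h2, h3⟩
      exact ⟨⟨h2, h3⟩, fun h => absurd h (not_le.2 h1)⟩
    · rintro ⟨⟨h1, h2⟩, h3⟩
      exact ⟨lt_of_not_ge fun h => absurd h2 (not_le.2 (h3 h)), h1, h2⟩
  · rw [hG]
    calc _ ≤ ∫ x in {x | d x ≤ r ∧ dist x x0 ≤ R}, (1 : ℝ) :=
          setIntegral_mono_on (hI r) (integrableOn_const (hf r)) (hm r) fun x _ => (h0 x).2
      _ = _ := by simp
  · rw [hG]
    calc _ = ∫ x in {x | d x ≤ 1 ∧ dist x x0 ≤ R}, c := by simp [mul_comm]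
      _ ≤ _ := setIntegral_mono_on (integrableOn_const (hf 1)) (hI 1) (hm 1) fun x hx => hc' x hx.1

/-- the four error terms are small -/
theorem arith {G C' W a b c ρ nn Sm An m K q q' T : ℝ} (hG : 0 < G) (hC : 0 < C') (hW : 0 < W)
    (ha : 0 < a) (hb : 0 < b) (hm : 0 < m) (hρ : 0 ≤ ρ) (hq' : 0 ≤ q') (hT : 0 ≤ T)
    (hc : ρ ≤ c) (hK : 0 ≤ K) (hnn : nn ≤ K * G) (hS : Sm ≤ q * G) (hA : An ≤ T * (q' * nn))
    (h1 : C' * W * a * c * K ≤ 1 / 8) (h2 : C' * W * b * q ≤ 1 / 8)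
    (h3 : C' * W * T * K * q' ≤ 1 / 8) (h4 : C' * c * K * 8 ≤ m)
    (h : G ≤ C' * (W * (a * (ρ * nn) + b * Sm + An) + ρ * nn / m)) : False := by
  have hc0 : 0 ≤ c := hρ.trans hc
  have e1 : ρ * nn ≤ c * (K * G) :=
    (mul_le_mul_of_nonneg_left hnn hρ).trans (mul_le_mul_of_nonneg_right hc (by positivity))
  have t1 : C' * W * a * (ρ * nn) ≤ 1 / 8 * G :=
    calc _ ≤ C' * W * a * (c * (K * G)) := mul_le_mul_of_nonneg_left e1 (by positivity)
      _ = C' * W * a * c * K * G := by ring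
      _ ≤ _ := mul_le_mul_of_nonneg_right h1 hG.le
  have t2 : C' * W * b * Sm ≤ 1 / 8 * G :=
    calc _ ≤ C' * W * b * (q * G) := mul_le_mul_of_nonneg_left hS (by positivity)
      _ = C' * W * b * q * G := by ring
      _ ≤ _ := mul_le_mul_of_nonneg_right h2 hG.le
  have t3 : C' * W * An ≤ 1 / 8 * G :=
    calc _ ≤ C' * W * (T * (q' * (K * G))) := by
          refine mul_le_mul_of_nonneg_left (hA.trans ?_) (by positivity)
          gcongr
      _ = C' * W * T * K * q' * G := by ring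
      _ ≤ _ := mul_le_mul_of_nonneg_right h3 hG.le
  have t4 : C' * (ρ * nn / m) ≤ 1 / 8 * G := by
    rw [← mul_div_assoc, div_le_iff₀ hm]
    calc _ ≤ C' * (c * (K * G)) := mul_le_mul_of_nonneg_left e1 hC.le
      _ = 1 / 8 * G * (C' * c * K * 8) := by ring
      _ ≤ _ := mul_le_mul_of_nonneg_left h4 (by positivity)
  have e : C' * (W * (a * (ρ * nn) + b * Sm + An) + ρ * nn / m) =
      C' * W * a * (ρ * nn) + C' * W * b * Sm + C' * W * An + C' * (ρ * nn / m) := by ring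
  linarith

end QFinAux

end Vale.Agent.P134.DG
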