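import Vale.Agent.P134.QDefs

/-! P134, block A4: assembly of the main estimate. -/

open scoped RealInnerProductSpace ContDiff ENNReal Topology Laplacian
open MeasureTheory Set Metric Filter

namespace Vale.Agent.P134.DG

theorem q_main_alg {G I J Y A R P N m Ci C1 C3 Co K : ℝ} (hCi : 0 < Ci) (hC1 : 0 < C1)
    (hC3 : 0 < C3) (hCo : 0 < Co) (hK : 0 < K) (hA : 0 ≤ A) (hAR : A ≤ R) (hP : 1 ≤ P)
    (hN : 0 ≤ N) (hm : 1 ≤ m) (a1 : G ≤ I + Ci * A) (a2 : I ≤ J + C1 * P * R)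
    (a3 : J + Y ≤ C3 * P * R) (a4 : 0 ≤ Co * (K * (N + A) / m) + Y + Co * R) :
    G ≤ (Ci + C1 + C3 + Co + Co * K) * (P * R + N / m) := by
  have hR : 0 ≤ R := hA.trans hAR
  have hRP : R ≤ P * R := le_mul_of_one_le_left hR hP
  have hm0 : 0 < m := by linarith
  have hAm : A / m ≤ P * R := (div_le_self hA hm).trans (hAR.trans hRP)
  have hNm : 0 ≤ N / m := div_nonneg hN hm0.le
  have e : K * (N + A) / m = K * (N / m) + K * (A / m) := by field_simp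
  rw [e] at a4
  have b1 : Ci * A ≤ Ci * (P * R) := mul_le_mul_of_nonneg_left (hAR.trans hRP) hCi.le
  have b2 : Co * R ≤ Co * (P * R) := mul_le_mul_of_nonneg_left hRP hCo.le
  have b3 : Co * K * (A / m) ≤ Co * K * (P * R) :=
    mul_le_mul_of_nonneg_left hAm (by positivity)
  have b4 : 0 ≤ (Ci + C1 + C3 + Co) * (N / m) := by positivity
  nlinarith

theorem q_main (hP : S_Pog) (hin : Q_in) (h1 : Q_m1) (h2 : Q_m2) (h3 : Q_m3) (ho : Q_out)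
    (hg : Q_gt) (ha : Q_area) (hl : Q_log) (hj : Q_mj1) : Q_main := by
  intro v C hs hpw
  obtain ⟨CP, e0, hCP, he0, HP⟩ := hP v C hs hpw
  obtain ⟨Ci, hCi, Hi⟩ := hin C
  obtain ⟨C1, hC1, H1⟩ := h1 v C hs hpw
  obtain ⟨C3, hC3, H3⟩ := h3 v C hs hpw
  obtain ⟨Co, L0, eo, hCo, heo, Ho⟩ := ho v C hpw
  obtain ⟨Ca, ea, hCa, hea, Ha⟩ := ha v C CP hpw hCP.le
  obtain ⟨Cl, m0, hCl, Hl⟩ := hl
  refine ⟨Ci + C1 + C3 + Co + Co * (Cl * Ca), L0, min e0 (min eo ea), max m0 1, by positivity,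
    by positivity, ?_⟩
  intro X CX s ok hL hε m hm hT
  have hm1 : 1 ≤ m := le_trans (le_max_right _ _) hm
  have hm0 : m0 ≤ m := le_trans (le_max_left _ _) hm
  have hL20 := ok.hL
  have hρ := ok.hρ
  have hεp := ok.ctx.pos
  have hε0 : s.ε ≤ e0 := by
    have : s.ε ≤ s.ε * s.L ^ 2 := le_mul_of_one_le_right hεp.le (by nlinarith)
    exact this.trans (hε.trans (min_le_left _ _))
  have hεo : s.ε * s.L ^ 2 ≤ eo := hε.trans ((min_le_right _ _).trans (min_le_left _ _))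
  have hεa : s.ε * s.L ^ 2 ≤ ea := hε.trans ((min_le_right _ _).trans (min_le_right _ _))
  have h10 : (10 : ℝ) ≤ 2 ^ (2 * m + 2) := by
    have : (2 : ℝ) ^ 4 ≤ 2 ^ (2 * m + 2) := pow_le_pow_right₀ (by norm_num) (by omega)
    linarith [show (2 : ℝ) ^ 4 = 16 by norm_num]
  obtain ⟨f, hf1, hf2, hf3⟩ := HP s.O s.ε s.σ ok.ctx hε0 s.d ok.lip (s.ρ + s.L + 5)
    (2 ^ (2 * m + 2)) h10 (fun y hy hd => ok.hO y hy (by linarith))
  have pg : Pg v s f (2 ^ (2 * m + 2)) CP := ⟨hf1, hf2, hf3⟩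
  obtain ⟨-, -, -, -, -, -, hSm, hAn, -⟩ := hj v X CX C s ok
  have hN : 0 ≤ s.ρ ^ 3 * s.nn := mul_nonneg (pow_nonneg (by linarith) 3) ok.hn
  obtain ⟨η, hη⟩ := Hl v X CX C s ok m f CP (Ca * (s.ρ ^ 3 * s.nn + An s)) hm0 pg hT
    (by positivity) (fun r hr hr' => (Ha X CX s ok hεa f _ pg hT r hr hr').trans_eq (by ring))
  obtain ⟨χ, hχ⟩ := ok.cuts s.d ok.lip s.ρ
  obtain ⟨κ, hκ⟩ := ok.cuts s.d ok.lip 1
  obtain ⟨om, hom⟩ := ok.cuts (fun x => dist x s.x0) (LipschitzWith.dist_left s.x0) s.R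
  obtain ⟨-, -, -, hBs, -⟩ := hg v X CX C s ok κ om η _ hκ hom hη _ rfl
  obtain ⟨hme, e2⟩ := h2 v X CX C s ok χ hχ
  have a1 := Hi v X CX s ok χ om hχ hom
  have a2 := H1 X CX s ok χ om hχ hom hme
  have a3 := H3 X CX s ok χ _ hχ hBs
  have a4 := Ho X CX s ok hL hεo χ κ om η _ hχ hκ hom hη
  rw [e2] at a2
  rw [← mul_assoc Cl Ca] at a4
  have hAE : An s ≤ Er v s := by
    have : 0 ≤ Real.exp (-(2 * s.L)) * (s.ρ ^ 3 * s.nn) + Real.exp (s.L / 3) * Sm v s := by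
      positivity
    unfold Er
    linarith
  exact q_main_alg hCi hC1 hC3 hCo (by positivity) hAn hAE (one_le_pow₀ (by linarith)) hN
    (by exact_mod_cast hm1) a1 a2 a3 a4

end Vale.Agent.P134.DG
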