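import Vale.Agent.P134.RIf

/-! P134, block R: algebra of the difference classes. -/

open Filter Topology MeasureTheory
open scoped ContDiff Laplacian RealInnerProductSpace

namespace Vale.Agent.P134

variable {n : ℕ} {ρ : E n → ℝ}

theorem RAlg_bd {k : ℕ} {M : ℝ} {f : E n → ℝ} (h : Lam ρ k M f) (x : E n) : |f x| ≤ M * ρ x := by
  cases k
  · exact h x
  · exact h.1 x

theorem RAlg_nn (hρ : ∀ x, 0 < ρ x) {k : ℕ} {M : ℝ} {f : E n → ℝ} (h : Lam ρ k M f) : 0 ≤ M :=
  (mul_nonneg_iff_of_pos_right (hρ 0)).1 ((abs_nonneg _).trans (RAlg_bd h 0))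

theorem RAlg_mono (hρ : ∀ x, 0 < ρ x) (k : ℕ) : ∀ (M M' : ℝ) (f : E n → ℝ), M ≤ M' →
    Lam ρ k M f → Lam ρ k M' f := by
  induction k with
  | zero => exact fun M M' f hM h x => (h x).trans (mul_le_mul_of_nonneg_right hM (hρ x).le)
  | succ k ih =>
    exact fun M M' f hM h => ⟨fun x => (h.1 x).trans (mul_le_mul_of_nonneg_right hM (hρ x).le),
      fun e he => ih _ _ _ (mul_le_mul_of_nonneg_right hM (norm_nonneg e)) (h.2 e he)⟩

theorem RAlg_down (k : ℕ) : ∀ (M : ℝ) (f : E n → ℝ), Lam ρ (k + 1) M f → Lam ρ k M f := by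
  induction k with
  | zero => exact fun M f h => h.1
  | succ k ih => exact fun M f h => ⟨h.1, fun e he => ih _ _ (h.2 e he)⟩

theorem RAlg_add (k : ℕ) : ∀ (M N : ℝ) (f g : E n → ℝ), Lam ρ k M f → Lam ρ k N g →
    Lam ρ k (M + N) fun x => f x + g x := by
  have h0 : ∀ (k : ℕ) (M N : ℝ) (f g : E n → ℝ), Lam ρ k M f → Lam ρ k N g →
      ∀ x, |f x + g x| ≤ (M + N) * ρ x := fun k M N f g hf hg x => by
    rw [add_mul]
    exact (abs_add_le _ _).trans (add_le_add (RAlg_bd hf x) (RAlg_bd hg x))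
  induction k with
  | zero => exact h0 0
  | succ k ih =>
    refine fun M N f g hf hg => ⟨h0 _ M N f g hf hg, fun e he => ?_⟩
    have e1 : dl e (fun x => f x + g x) = fun x => dl e f x + dl e g x := by
      funext x; simp only [dl]; ring
    rw [e1, add_mul]
    exact ih _ _ _ _ (hf.2 e he) (hg.2 e he)

theorem RAlg_smul (c : ℝ) (k : ℕ) : ∀ (M : ℝ) (f : E n → ℝ), Lam ρ k M f →
    Lam ρ k (|c| * M) fun x => c * f x := by
  have h0 : ∀ (k : ℕ) (M : ℝ) (f : E n → ℝ), Lam ρ k M f →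
      ∀ x, |c * f x| ≤ |c| * M * ρ x := fun k M f hf x => by
    rw [abs_mul, mul_assoc]
    exact mul_le_mul_of_nonneg_left (RAlg_bd hf x) (abs_nonneg c)
  induction k with
  | zero => exact h0 0
  | succ k ih =>
    refine fun M f hf => ⟨h0 _ M f hf, fun e he => ?_⟩
    have e1 : dl e (fun x => c * f x) = fun x => c * dl e f x := by
      funext x; simp only [dl]; ring
    rw [e1, mul_assoc]
    exact ih _ _ (hf.2 e he)

theorem RAlg_tr (h : E n) (k : ℕ) : ∀ (B : ℝ) (a : E n → ℝ), Lam (fun _ => 1) k B a →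
    Lam (fun _ => 1) k B fun x => a (x + h) := by
  induction k with
  | zero => exact fun B a ha x => ha (x + h)
  | succ k ih =>
    refine fun B a ha => ⟨fun x => ha.1 (x + h), fun e he => ?_⟩
    have e1 : dl e (fun x => a (x + h)) = fun x => dl e a (x + h) := by
      funext x; simp only [dl, add_right_comm x e h]
    rw [e1]
    exact ih _ _ (ha.2 e he)

theorem RAlg_mul (hρ : ∀ x, 0 < ρ x) (k : ℕ) : ∀ (B M : ℝ) (a f : E n → ℝ),
    Lam (fun _ => 1) k B a → Lam ρ k M f → Lam ρ k (2 ^ k * B * M) fun x => a x * f x := by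
  have h0 : ∀ (k : ℕ) (B M : ℝ) (a f : E n → ℝ), Lam (fun _ => 1) k B a → Lam ρ k M f →
      ∀ x, |a x * f x| ≤ 2 ^ k * B * M * ρ x := fun k B M a f ha hf x => by
    have hB := RAlg_nn (fun _ => one_pos) ha
    have h1 := mul_le_mul (RAlg_bd ha x) (RAlg_bd hf x) (abs_nonneg _) (by positivity)
    have h2 := mul_le_mul_of_nonneg_right (one_le_pow₀ (one_le_two (α := ℝ)) (n := k))
      (mul_nonneg hB (mul_nonneg (RAlg_nn hρ hf) (hρ x).le))
    rw [abs_mul]
    linarith
  induction k with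
  | zero => exact h0 0
  | succ k ih =>
    refine fun B M a f ha hf => ⟨h0 _ B M a f ha hf, fun e he => ?_⟩
    have e1 : dl e (fun x => a x * f x) = fun x => a (x + e) * dl e f x + dl e a x * f x := by
      funext x; simp only [dl]; ring
    rw [e1, show 2 ^ (k + 1) * B * M * ‖e‖ = 2 ^ k * B * (M * ‖e‖) + 2 ^ k * (B * ‖e‖) * M by ring]
    exact RAlg_add k _ _ _ _ (ih _ _ _ _ (RAlg_tr e k _ _ (RAlg_down k _ _ ha)) (hf.2 e he))
      (ih _ _ _ _ (ha.2 e he) (RAlg_down k _ _ hf))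

theorem RAlg_const (k : ℕ) : ∀ c : ℝ, Lam (fun _ : E n => 1) k |c| fun _ => c := by
  induction k with
  | zero => exact fun c x => (mul_one _).ge
  | succ k ih =>
    refine fun c => ⟨fun x => (mul_one _).ge, fun e he => ?_⟩
    have e1 : dl e (fun _ => c) = fun _ => 0 := funext fun x => sub_self c
    rw [e1]
    exact RAlg_mono (fun _ => one_pos) k _ _ _ (by rw [abs_zero]; positivity) (ih 0)

theorem RAlg_lim {ι : Type} (l : Filter ι) [l.NeBot] (k : ℕ) :
    ∀ (M : ℝ) (f : ι → E n → ℝ) (g : E n → ℝ), (∀ᶠ j in l, Lam ρ k M (f j)) →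
      (∀ x, Tendsto (fun j => f j x) l (𝓝 (g x))) → Lam ρ k M g := by
  induction k with
  | zero => exact fun M f g hf hg x => le_of_tendsto (hg x).abs (hf.mono fun j h => h x)
  | succ k ih =>
    exact fun M f g hf hg => ⟨fun x => le_of_tendsto (hg x).abs (hf.mono fun j h => h.1 x),
      fun e he => ih _ (fun j => dl e (f j)) _ (hf.mono fun j h => h.2 e he)
        fun x => (hg (x + e)).sub (hg x)⟩

theorem q_alg : Q_alg := fun _ _ hρ k =>
  ⟨RAlg_mono hρ k, RAlg_down k, fun _ _ h => ⟨RAlg_nn hρ h, RAlg_bd h⟩, RAlg_add k,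
    fun M c => RAlg_smul c k M, RAlg_mul hρ k, RAlg_const k,
    fun _ l M f g _ => RAlg_lim l k M f g⟩

end Vale.Agent.P134
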