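import Vale.Agent.P134.RStab
import Vale.Agent.P134.RCalc

/-! P134, block R: stability in calibrated form. -/

open Filter Topology MeasureTheory
open scoped ContDiff Laplacian RealInnerProductSpace

namespace Vale.Agent.P134

open RStabAux

theorem r_cal {n : ℕ} {u φ : E n → ℝ} {C : ℝ} (hu : Continuous u) (hS : Sup u φ C)
    {ψ χ : E n → ℝ} (hψ : ContDiff ℝ 1 ψ) (hχ : ContDiff ℝ 1 χ) (hχ0 : ∀ x, 0 ≤ χ x)
    (hK : HasCompactSupport fun x => χ x * ψ x) :
    -∫ x, ψ x ^ 2 * ⟪(φ x)⁻¹ • gradient φ x, gradient χ x⟫ ≤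
      ∫ x, χ x * (‖fderiv ℝ ψ x‖ ^ 2 + (3 * u x ^ 2 - 1) * ψ x ^ 2) := by
  have hX : ∀ x, ψ x ^ 2 * ⟪(φ x)⁻¹ • gradient φ x, gradient χ x⟫ =
      ψ x ^ 2 / φ x * ∑ i, fderiv ℝ χ x (ev i) * fderiv ℝ φ x (ev i) := fun x => by
    rw [real_inner_smul_left, real_inner_comm, ← gd_eq, div_eq_mul_inv, mul_assoc]
    rfl
  simp only [hX]
  set f : E n → ℝ := fun y => χ y * ψ y ^ 2 / φ y with hf
  have hfC : ContDiff ℝ 1 f :=
    (hχ.mul (hψ.pow 2)).div (hS.sm.of_le (by norm_cast)) fun x => (hS.pos x).ne'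
  have hg : ∀ i, ContDiff ℝ 1 fun y => fderiv ℝ φ y (ev i) := fun i =>
    (hS.sm.fderiv_right (m := 1) (by norm_cast)).clm_apply contDiff_const
  have hfK : HasCompactSupport f := by
    refine hK.mono fun x hx h0 => hx ?_
    simp only [hf]
    rw [sq, ← mul_assoc, show χ x * ψ x = 0 from h0, zero_mul, zero_div]
  have hdψ := hψ.continuous_fderiv one_ne_zero
  have hdχ := hχ.continuous_fderiv one_ne_zero
  have hcψ := hψ.continuous
  have hcχ := hχ.continuous
  have i1 : ∀ i, Integrable fun x => fderiv ℝ f x (ev i) * fderiv ℝ φ x (ev i) := fun i =>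
    (((hfC.continuous_fderiv one_ne_zero).clm_apply continuous_const).mul
      (hg i).continuous).integrable_of_hasCompactSupport (hfK.fderiv_apply ℝ (ev i)).mul_right
  have i2 : ∀ i, Integrable fun x => f x * fderiv ℝ (fun y => fderiv ℝ φ y (ev i)) x (ev i) :=
    fun i => (hfC.continuous.mul (((hg i).continuous_fderiv one_ne_zero).clm_apply
      continuous_const)).integrable_of_hasCompactSupport hfK.mul_right
  have i3 : ∀ i, Integrable fun x => f x * fderiv ℝ φ x (ev i) := fun i =>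
    (hfC.continuous.mul (hg i).continuous).integrable_of_hasCompactSupport hfK.mul_right
  have i4 : Integrable fun x =>
      ψ x ^ 2 / φ x * ∑ i, fderiv ℝ χ x (ev i) * fderiv ℝ φ x (ev i) := by
    refine Continuous.integrable_of_hasCompactSupport
      (((hcψ.pow 2).div hS.sm.continuous fun x => (hS.pos x).ne').mul (continuous_finset_sum _
        fun i _ => (hdχ.clm_apply continuous_const).mul (hg i).continuous))
      (HasCompactSupport.intro hK fun x hx => ?_)
    rcases (off hcψ hcχ hx).2.2 with h | h <;> simp [h]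
  have i5 : Integrable fun x => χ x * (‖fderiv ℝ ψ x‖ ^ 2 + (3 * u x ^ 2 - 1) * ψ x ^ 2) := by
    refine Continuous.integrable_of_hasCompactSupport (by fun_prop)
      (HasCompactSupport.intro hK fun x hx => ?_)
    obtain ⟨h1, h | h, -⟩ := off hcψ hcχ hx
    · simp [h]
    · rw [h, norm_zero]
      linear_combination (3 * u x ^ 2 - 1) * ψ x * h1
  have i6 : ∀ i, Integrable fun x => f x * fderiv ℝ (fun y => fderiv ℝ φ y (ev i)) x (ev i) +
      fderiv ℝ f x (ev i) * fderiv ℝ φ x (ev i) := fun i => (i2 i).add (i1 i)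
  have h0 : ∫ x, ∑ i, (f x * fderiv ℝ (fun y => fderiv ℝ φ y (ev i)) x (ev i) +
      fderiv ℝ f x (ev i) * fderiv ℝ φ x (ev i)) = 0 := by
    rw [integral_finsetSum _ fun i _ => i6 i]
    refine Finset.sum_eq_zero fun i _ => ?_
    rw [integral_add (i2 i) (i1 i), integral_mul_fderiv_eq_neg_fderiv_mul_of_integrable (i1 i) (i2 i)
      (i3 i) (fun x _ => hfC.differentiable one_ne_zero x)
      (fun x _ => (hg i).differentiable one_ne_zero x), neg_add_cancel]
  rw [neg_le_iff_add_nonneg, ← integral_add i5 i4, ← h0]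
  refine integral_mono (integrable_finsetSum _ fun i _ => i6 i)
    (i5.add i4) fun x => ?_
  have hp := hS.pos x
  have h1 : f x * Δ φ x ≤ χ x * ((3 * u x ^ 2 - 1) * ψ x ^ 2) := by
    have := mul_le_mul_of_nonneg_left (hS.sup x)
      (show 0 ≤ f x from div_nonneg (mul_nonneg (hχ0 x) (sq_nonneg _)) hp.le)
    refine this.trans (le_of_eq ?_)
    simp only [hf]
    field_simp
  have h2 : ∀ i, fderiv ℝ f x (ev i) * fderiv ℝ φ x (ev i) ≤ χ x * fderiv ℝ ψ x (ev i) ^ 2 +
      ψ x ^ 2 / φ x * (fderiv ℝ χ x (ev i) * fderiv ℝ φ x (ev i)) := by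
    intro i
    rw [hf, der (hS.sm.differentiable (by simp) x) (hψ.differentiable one_ne_zero x)
      (hχ.differentiable one_ne_zero x) hp.ne', ← sub_nonneg]
    refine (mul_nonneg (hχ0 x) (sq_nonneg
      (fderiv ℝ ψ x (ev i) - ψ x * fderiv ℝ φ x (ev i) / φ x))).trans (le_of_eq ?_)
    field_simp
    ring
  have h4 := Finset.sum_le_sum fun i (_ : i ∈ Finset.univ) => h2 i
  rw [Finset.sum_add_distrib, ← Finset.mul_sum, ← Finset.mul_sum, ← norm_sq] at h4
  simp only
  rw [Finset.sum_add_distrib, ← Finset.mul_sum, ← RStabAux.lap hS.sm]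
  linarith

end Vale.Agent.P134
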