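import Mathlib

/-! P134, block R: the class of solutions and the statements of block R. -/

open Filter Topology MeasureTheory
open scoped ContDiff Laplacian RealInnerProductSpace

namespace Vale.Agent.P134

noncomputable section

abbrev E (n : ℕ) : Type := EuclideanSpace ℝ (Fin n)

variable {n : ℕ}

/-- coordinate vectors -/
def ev (i : Fin n) : E n := EuclideanSpace.single i 1

/-- directional derivative -/
def dv (e : E n) (f : E n → ℝ) (x : E n) : ℝ := fderiv ℝ f x e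

/-- smooth solutions with values in `[-1, 1]` -/
structure Sol (u : E n → ℝ) : Prop where
  sm : ContDiff ℝ ∞ u
  eq : ∀ x, Δ u x = u x ^ 3 - u x
  bd : ∀ x, |u x| ≤ 1

/-- `φ` is a positive supersolution of the linearised equation with bounded log gradient -/
structure Sup (u φ : E n → ℝ) (C : ℝ) : Prop where
  sm : ContDiff ℝ ∞ φ
  pos : ∀ x, 0 < φ x
  sup : ∀ x, Δ φ x ≤ (3 * u x ^ 2 - 1) * φ x
  har : ∀ x, ‖fderiv ℝ φ x‖ ≤ C * φ x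

/-- stable solutions -/
def Stab (u : E n → ℝ) : Prop := ∃ φ C, Sup u φ C

/-- the last coordinate vector -/
def el (n : ℕ) : E (n + 1) := ev (Fin.last n)

/-- the first `n` coordinates -/
def pr (n : ℕ) : E (n + 1) →L[ℝ] E n :=
  ∑ i : Fin n, (EuclideanSpace.proj i.castSucc : E (n + 1) →L[ℝ] ℝ).smulRight (ev i)

/-- the embedding with last coordinate zero -/
def em (n : ℕ) : E n →L[ℝ] E (n + 1) :=
  ∑ i : Fin n, (EuclideanSpace.proj i : E n →L[ℝ] ℝ).smulRight (ev i.castSucc)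

/-- monotone solutions -/
structure Mon (u : E (n + 1) → ℝ) : Prop where
  sol : Sol u
  pos : ∀ x, 0 < fderiv ℝ u x (el n)

/-- regularity -/
def R_reg : Prop := ∀ (n : ℕ) (u : E n → ℝ), ContDiff ℝ 2 u → (∀ x, Δ u x = u x ^ 3 - u x) →
  (∀ x, |u x| ≤ 1) → Sol u

/-- universal bounds -/
def R_bd : Prop := ∀ n k : ℕ, ∃ C : ℝ, 0 ≤ C ∧ ∀ u : E n → ℝ, Sol u → ∀ x,
  ‖iteratedFDeriv ℝ k u x‖ ≤ C

/-- pointwise limits (along any filter, e.g. an ultrafilter) of solutions are solutions, all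
derivatives converge locally uniformly -/
def R_lim : Prop := ∀ (n : ℕ) (ι : Type) (l : Filter ι) (u : ι → E n → ℝ) (U : E n → ℝ),
  l.NeBot → (∀ j, Sol (u j)) → (∀ x, Tendsto (fun j => u j x) l (𝓝 (U x))) →
  Sol U ∧ ∀ (k : ℕ) (K : Set (E n)), IsCompact K →
    TendstoUniformlyOn (fun j => iteratedFDeriv ℝ k (u j)) (iteratedFDeriv ℝ k U) l K

/-- strong maximum principle -/
def R_lt : Prop := ∀ (n : ℕ) (u : E n → ℝ), Sol u →
  (∀ x, |u x| < 1) ∨ (∀ x, u x = 1) ∨ ∀ x, u x = -1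

/-- Modica's estimate -/
def R_mod : Prop := ∀ (n : ℕ) (u : E n → ℝ), Sol u → ∀ x,
  ‖fderiv ℝ u x‖ ^ 2 ≤ (1 - u x ^ 2) ^ 2 / 2

/-- gradient Harnack inequality -/
def R_har : Prop := ∀ (n : ℕ) (A : ℝ), ∃ C : ℝ, 0 ≤ C ∧ ∀ a w : E n → ℝ, ContDiff ℝ ∞ a →
  ContDiff ℝ ∞ w → (∀ x, |a x| ≤ A ∧ ‖fderiv ℝ a x‖ ≤ A) → (∀ x, 0 < w x) →
  (∀ x, Δ w x = a x * w x) → ∀ x, ‖fderiv ℝ w x‖ ≤ C * w x

/-- a monotone solution is stable, with `φ = ∂ u / ∂ x_last`; all derivatives of `φ` are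
bounded by `φ` -/
def R_mon : Prop := ∀ n : ℕ, ∃ C : ℕ → ℝ, ∀ u : E (n + 1) → ℝ, Mon u →
  (∀ x, |u x| < 1) ∧ Sup u (dv (el n) u) (C 1) ∧
  (∀ x, Δ (dv (el n) u) x = (3 * u x ^ 2 - 1) * dv (el n) u x) ∧
  ∀ k x, ‖iteratedFDeriv ℝ k (dv (el n) u) x‖ ≤ C k * dv (el n) u x

/-- the limits at `± ∞` -/
def R_pm : Prop := ∀ (n : ℕ) (u : E (n + 1) → ℝ), Mon u → ∃ up um : E n → ℝ,
  Sol up ∧ Sol um ∧ Stab up ∧ Stab um ∧ ∀ x, um (pr n x) < u x ∧ u x < up (pr n x) ∧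
    Tendsto (fun t : ℝ => u (x + t • el n)) atTop (𝓝 (up (pr n x))) ∧
    Tendsto (fun t : ℝ => u (x + t • el n)) atBot (𝓝 (um (pr n x)))

/-- weighted stability inequality (`χ = 1` is the usual one) -/
def R_stab : Prop := ∀ (n : ℕ) (u φ : E n → ℝ) (C : ℝ), Continuous u → Sup u φ C →
  ∀ ψ χ : E n → ℝ, ContDiff ℝ 1 ψ → ContDiff ℝ 1 χ → (∀ x, 0 ≤ χ x) →
  HasCompactSupport (fun x => χ x * ψ x) →
  -(C * ∫ x, ψ x ^ 2 * ‖fderiv ℝ χ x‖) ≤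
    ∫ x, χ x * (‖fderiv ℝ ψ x‖ ^ 2 + (3 * u x ^ 2 - 1) * ψ x ^ 2)

end

end Vale.Agent.P134
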