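import Vale.Agent.P134.RDefs

/-! P134, block R: coordinate calculus for smooth functions, Bochner formula, maximum points. -/

open Filter Topology
open scoped ContDiff Laplacian RealInnerProductSpace

namespace Vale.Agent.P134.RH

noncomputable section

variable {n : ℕ}

/-- partial derivative -/
def pd (i : Fin n) (f : E n → ℝ) : E n → ℝ := fun x => fderiv ℝ f x (ev i)

/-- squared gradient -/
def gsq (f : E n → ℝ) : E n → ℝ := fun x => ∑ i, pd i f x ^ 2

/-- product of gradients -/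
def gdot (f g : E n → ℝ) : E n → ℝ := fun x => ∑ i, pd i f x * pd i g x

/-- Laplacian in coordinates -/
def lp (f : E n → ℝ) : E n → ℝ := fun x => ∑ i, pd i (pd i f) x

/-- squared Hessian -/
def hsq (f : E n → ℝ) : E n → ℝ := fun x => ∑ i, ∑ j, pd i (pd j f) x ^ 2

abbrev Sm (f : E n → ℝ) : Prop := ContDiff ℝ ∞ f

variable {f g : E n → ℝ}

theorem Sm.df (hf : Sm f) : Differentiable ℝ f := hf.differentiable (by simp)

theorem Sm.fd (hf : Sm f) : ContDiff ℝ ∞ (fderiv ℝ f) := hf.fderiv_right (m := ∞) (by simp)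

theorem Sm.pd (hf : Sm f) (i : Fin n) : Sm (pd i f) := hf.fd.clm_apply contDiff_const

theorem Sm.gsq (hf : Sm f) : Sm (gsq f) := ContDiff.sum fun i _ => (hf.pd i).pow 2

theorem Sm.lp (hf : Sm f) : Sm (lp f) := ContDiff.sum fun i _ => (hf.pd i).pd i

theorem pd_pd (hf : Sm f) (i j : Fin n) (x : E n) :
    pd i (pd j f) x = fderiv ℝ (fderiv ℝ f) x (ev i) (ev j) := by
  change fderiv ℝ (fun y => fderiv ℝ f y (ev j)) x _ = _
  rw [fderiv_clm_apply (hf.fd.differentiable (by simp) x) (differentiableAt_const _)]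
  simp

theorem pd_symm (hf : Sm f) (i j : Fin n) : pd i (pd j f) = pd j (pd i f) := by
  funext x
  rw [pd_pd hf, pd_pd hf]
  exact hf.contDiffAt.isSymmSndFDerivAt (by
    rw [minSmoothness_of_isRCLikeNormedField]
    exact WithTop.coe_le_coe.2 le_top) _ _

theorem lap_eq (hf : Sm f) (x : E n) : Δ f x = lp f x := by
  rw [InnerProductSpace.laplacian_eq_iteratedFDeriv_orthonormalBasis f
    (EuclideanSpace.basisFun (Fin n) ℝ)]
  refine Finset.sum_congr rfl fun i _ => ?_
  rw [pd_pd hf, iteratedFDeriv_two_apply]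
  simp [ev]

theorem norm_sq (f : E n → ℝ) (x : E n) : ‖fderiv ℝ f x‖ ^ 2 = gsq f x := by
  have h1 : ‖fderiv ℝ f x‖ = ‖(InnerProductSpace.toDual ℝ (E n)).symm (fderiv ℝ f x)‖ :=
    (LinearIsometryEquiv.norm_map _ _).symm
  rw [h1, EuclideanSpace.real_norm_sq_eq]
  refine Finset.sum_congr rfl fun i _ => ?_
  have h2 := InnerProductSpace.toDual_symm_apply (𝕜 := ℝ) (x := ev i) (y := fderiv ℝ f x)
  have h3 : ∀ v : E n, ⟪v, ev i⟫ = v i := fun v => by simp [ev, EuclideanSpace.inner_single_right]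
  rw [h3] at h2
  rw [h2]; rfl

theorem pd_const (i : Fin n) (c : ℝ) : pd i (fun _ : E n => c) = fun _ => 0 := by
  funext x; simp [pd]

theorem pd_add (hf : Sm f) (hg : Sm g) (i : Fin n) :
    pd i (fun x => f x + g x) = fun x => pd i f x + pd i g x := by
  funext x
  simp only [pd]
  rw [fderiv_fun_add (hf.df x) (hg.df x)]; rfl

theorem pd_sub (hf : Sm f) (hg : Sm g) (i : Fin n) :
    pd i (fun x => f x - g x) = fun x => pd i f x - pd i g x := by
  funext x
  simp only [pd]
  rw [fderiv_fun_sub (hf.df x) (hg.df x)]; rfl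

theorem pd_mul (hf : Sm f) (hg : Sm g) (i : Fin n) :
    pd i (fun x => f x * g x) = fun x => pd i f x * g x + f x * pd i g x := by
  funext x
  simp only [pd]
  rw [fderiv_fun_mul (hf.df x) (hg.df x)]
  simp only [ContinuousLinearMap.add_apply, ContinuousLinearMap.smul_apply, smul_eq_mul]
  ring

theorem pd_cmul (hf : Sm f) (c : ℝ) (i : Fin n) :
    pd i (fun x => c * f x) = fun x => c * pd i f x := by
  rw [pd_mul contDiff_const hf, pd_const]; funext x; ring

theorem pd_sum {ι : Type} [Fintype ι] {F : ι → E n → ℝ} (hF : ∀ k, Sm (F k)) (i : Fin n) :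
    pd i (fun x => ∑ k, F k x) = fun x => ∑ k, pd i (F k) x := by
  funext x
  simp only [pd]
  rw [fderiv_fun_sum fun k _ => (hF k).df x]
  simp

theorem pd_comp (hf : Sm f) {φ φ' : ℝ → ℝ} (h : ∀ x, HasDerivAt φ (φ' (f x)) (f x)) (i : Fin n) :
    pd i (fun x => φ (f x)) = fun x => φ' (f x) * pd i f x := by
  funext x
  simp only [pd]
  have := ((h x).comp_hasFDerivAt x (hf.df x).hasFDerivAt).fderiv
  rw [show (fun x => φ (f x)) = φ ∘ f from rfl, this]
  simp

theorem pd_sq (hf : Sm f) (i : Fin n) :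
    pd i (fun x => f x ^ 2) = fun x => 2 * (f x * pd i f x) := by
  have : (fun x => f x ^ 2) = fun x => f x * f x := by funext x; ring
  rw [this, pd_mul hf hf]; funext x; ring

theorem lp_add (hf : Sm f) (hg : Sm g) (x : E n) :
    lp (fun x => f x + g x) x = lp f x + lp g x := by
  simp only [lp, pd_add hf hg, pd_add (hf.pd _) (hg.pd _), Finset.sum_add_distrib]

theorem lp_sub (hf : Sm f) (hg : Sm g) (x : E n) :
    lp (fun x => f x - g x) x = lp f x - lp g x := by
  simp only [lp, pd_sub hf hg, pd_sub (hf.pd _) (hg.pd _), Finset.sum_sub_distrib]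

theorem lp_cmul (hf : Sm f) (c : ℝ) (x : E n) : lp (fun x => c * f x) x = c * lp f x := by
  simp only [lp, pd_cmul hf, pd_cmul (hf.pd _), Finset.mul_sum]

theorem lp_mul (hf : Sm f) (hg : Sm g) (x : E n) :
    lp (fun x => f x * g x) x = lp f x * g x + 2 * gdot f g x + f x * lp g x := by
  simp only [lp, gdot, Finset.mul_sum, Finset.sum_mul, ← Finset.sum_add_distrib]
  refine Finset.sum_congr rfl fun i _ => ?_
  rw [pd_mul hf hg, pd_add ((hf.pd i).mul hg) (hf.mul (hg.pd i)), pd_mul (hf.pd i) hg,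
    pd_mul hf (hg.pd i)]
  ring

theorem lp_comp (hf : Sm f) {φ φ' φ'' : ℝ → ℝ} (h : ∀ x, HasDerivAt φ (φ' (f x)) (f x))
    (h' : ∀ x, HasDerivAt φ' (φ'' (f x)) (f x)) (hs : Sm fun x => φ' (f x)) (x : E n) :
    lp (fun x => φ (f x)) x = φ' (f x) * lp f x + φ'' (f x) * gsq f x := by
  simp only [lp, gsq, Finset.mul_sum, ← Finset.sum_add_distrib]
  refine Finset.sum_congr rfl fun i _ => ?_
  rw [pd_comp hf h, pd_mul hs (hf.pd i), pd_comp hf h']
  ring

theorem pd_gsq (hf : Sm f) (i : Fin n) :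
    pd i (gsq f) = fun x => 2 * ∑ j, pd j f x * pd i (pd j f) x := by
  unfold gsq
  rw [pd_sum fun j => (hf.pd j).pow 2]
  funext x
  simp only [pd_sq (hf.pd _), Finset.mul_sum]

/-- Bochner's formula -/
theorem bochner (hf : Sm f) (x : E n) :
    lp (gsq f) x = 2 * hsq f x + 2 * gdot f (lp f) x := by
  have h1 : ∀ i, pd i (pd i (gsq f)) x =
      2 * ∑ j, (pd i (pd j f) x ^ 2 + pd j f x * pd j (pd i (pd i f)) x) := fun i => by
    rw [pd_gsq hf, pd_cmul (ContDiff.sum fun j _ => (hf.pd j).mul ((hf.pd j).pd i)),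
      pd_sum fun j => (hf.pd j).mul ((hf.pd j).pd i)]
    refine congrArg (2 * ·) (Finset.sum_congr rfl fun j _ => ?_)
    rw [pd_mul (hf.pd j) ((hf.pd j).pd i), pd_symm (hf.pd i) j i, pd_symm hf j i]
    ring
  have h2 : gdot f (lp f) x = ∑ i, ∑ j, pd j f x * pd j (pd i (pd i f)) x := by
    rw [Finset.sum_comm]
    refine Finset.sum_congr rfl fun j _ => ?_
    unfold lp
    rw [pd_sum fun i => (hf.pd i).pd i, Finset.mul_sum]
  rw [h2]
  simp only [lp, h1, hsq, Finset.sum_add_distrib, mul_add, Finset.mul_sum]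

theorem lp_sq_le (f : E n → ℝ) (x : E n) : lp f x ^ 2 ≤ n * hsq f x := by
  have h1 := sq_sum_le_card_mul_sum_sq (s := Finset.univ) (f := fun i => pd i (pd i f) x)
  rw [Finset.card_univ, Fintype.card_fin] at h1
  refine h1.trans (mul_le_mul_of_nonneg_left (Finset.sum_le_sum fun i _ => ?_) (by positivity))
  exact Finset.single_le_sum (f := fun j => pd i (pd j f) x ^ 2) (fun j _ => sq_nonneg _)
    (Finset.mem_univ i)

theorem gdot_sq_le (f g : E n → ℝ) (x : E n) : gdot f g x ^ 2 ≤ gsq f x * gsq g x :=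
  Finset.sum_mul_sq_le_sq_mul_sq _ _ _

theorem gsq_nonneg (f : E n → ℝ) (x : E n) : 0 ≤ gsq f x :=
  Finset.sum_nonneg fun _ _ => sq_nonneg _

theorem second_nonpos {f f' : ℝ → ℝ} {c : ℝ} (hm : IsLocalMax f 0)
    (h1 : ∀ t, HasDerivAt f (f' t) t) (h2 : HasDerivAt f' c 0) : c ≤ 0 := by
  by_contra! hc
  have hd : deriv f = f' := funext fun t => (h1 t).deriv
  have hmin := isLocalMin_of_deriv_deriv_pos (f := f) (x₀ := 0) (by rw [hd, h2.deriv]; exact hc)
    hm.deriv_eq_zero (h1 0).continuousAt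
  have he : f =ᶠ[𝓝 0] fun _ => f 0 := by
    filter_upwards [hm, hmin] with t a b using le_antisymm a b
  have := he.deriv.deriv_eq
  rw [hd, h2.deriv] at this
  simp [hc.ne'] at this

theorem line_deriv (hf : Sm f) (y : E n) (i : Fin n) (t : ℝ) :
    HasDerivAt (fun t : ℝ => f (y + t • ev i)) (pd i f (y + t • ev i)) t := by
  have h : HasDerivAt (fun t : ℝ => y + t • (ev i : E n)) (ev i) t := by
    simpa using ((hasDerivAt_id t).smul_const (ev i : E n)).const_add y
  exact (hf.df _).hasFDerivAt.comp_hasDerivAt t h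

theorem max_pd {x : E n} (hm : IsLocalMax f x) (i : Fin n) : pd i f x = 0 := by
  simp [pd, hm.fderiv_eq_zero]

theorem max_lp (hf : Sm f) {x : E n} (hm : IsLocalMax f x) : lp f x ≤ 0 := by
  refine Finset.sum_nonpos fun i _ => ?_
  have hc : Continuous fun t : ℝ => x + t • (ev i : E n) := by fun_prop
  have h0 : IsLocalMax (fun t : ℝ => f (x + t • ev i)) 0 :=
    IsLocalMax.comp_continuous (f := f) (g := fun t : ℝ => x + t • (ev i : E n))
      (by simpa using hm) hc.continuousAt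
  have := second_nonpos h0 (line_deriv hf x i) (line_deriv (hf.pd i) x i 0)
  simpa using this

/-- squared distance -/
def ds (y : E n) : E n → ℝ := fun x => ∑ i, (x i - y i) ^ 2

theorem ds_eq (y x : E n) : ds y x = ‖x - y‖ ^ 2 := by
  rw [EuclideanSpace.real_norm_sq_eq]; rfl

theorem sm_coord (y : E n) (i : Fin n) : Sm fun x : E n => x i - y i :=
  (EuclideanSpace.proj i : E n →L[ℝ] ℝ).contDiff.sub contDiff_const

theorem pd_coord (y : E n) (i j : Fin n) :
    pd i (fun x : E n => x j - y j) = fun _ => if j = i then 1 else 0 := by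
  funext x
  have : HasFDerivAt (fun x : E n => x j - y j) (EuclideanSpace.proj j : E n →L[ℝ] ℝ) x :=
    ((EuclideanSpace.proj j : E n →L[ℝ] ℝ).hasFDerivAt).sub_const _
  simp [pd, this.fderiv, ev, Pi.single_apply]

theorem sm_ds (y : E n) : Sm (ds y) := ContDiff.sum fun i _ => (sm_coord y i).pow 2

theorem pd_ds (y : E n) (i : Fin n) : pd i (ds y) = fun x => 2 * (x i - y i) := by
  unfold ds
  rw [pd_sum fun j => (sm_coord y j).pow 2]
  funext x
  simp [pd_sq (sm_coord y _), pd_coord]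

theorem gsq_ds (y x : E n) : gsq (ds y) x = 4 * ds y x := by
  simp only [gsq, pd_ds, ds, Finset.mul_sum]
  exact Finset.sum_congr rfl fun i _ => by ring

theorem lp_ds (y x : E n) : lp (ds y) x = 2 * n := by
  simp [lp, pd_ds, pd_cmul (sm_coord y _), pd_coord, mul_comm]

theorem ds_nonneg (y x : E n) : 0 ≤ ds y x := Finset.sum_nonneg fun _ _ => sq_nonneg _

/-- Omori-Yau points -/
theorem omori (hf : Sm f) {M : ℝ} (hM : ∀ x, f x ≤ M) (y : E n) {σ : ℝ} (hσ : 0 < σ) :
    ∃ x, f y ≤ f x ∧ gsq f x ≤ 4 * σ * (M - f y) ∧ lp f x ≤ 2 * n * σ := by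
  have hs : Sm fun x => f x - σ * ds y x := hf.sub (contDiff_const.mul (sm_ds y))
  have h0 : ds y y = 0 := by simp [ds]
  obtain ⟨x, hx⟩ := hs.continuous.exists_forall_ge_of_isBounded y (by
    refine (Metric.isBounded_closedBall (x := y) (r := (M - f y) / σ + 1)).subset fun z hz => ?_
    have h1 : f y - σ * ds y y ≤ f z - σ * ds y z := hz
    rw [h0, ds_eq] at h1
    have h2 : ‖z - y‖ ^ 2 ≤ (M - f y) / σ := by
      rw [le_div_iff₀ hσ]; nlinarith [hM z]
    rw [Metric.mem_closedBall, dist_eq_norm]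
    nlinarith [sq_nonneg (‖z - y‖ - 1), norm_nonneg (z - y)])
  have hm : IsLocalMax (fun x => f x - σ * ds y x) x := Eventually.of_forall hx
  have h1 := hx y
  rw [h0] at h1
  have h2 := ds_nonneg y x
  refine ⟨x, by nlinarith, ?_, ?_⟩
  · have h3 : ∀ i, pd i f x = σ * pd i (ds y) x := fun i => by
      have := max_pd hm i
      rw [pd_sub hf (contDiff_const.mul (sm_ds y)), pd_cmul (sm_ds y)] at this
      linarith
    have h4 : gsq f x = σ ^ 2 * gsq (ds y) x := by
      simp only [gsq, h3, Finset.mul_sum, mul_pow]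
    rw [h4, gsq_ds]
    nlinarith [hM x]
  · have := max_lp hs hm
    rw [lp_sub hf (contDiff_const.mul (sm_ds y)), lp_cmul (sm_ds y), lp_ds] at this
    linarith

end

end Vale.Agent.P134.RH
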