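import Vale.Agent.P134.RCalc

/-! P134, block R: internal steps. -/

open Filter Topology MeasureTheory
open scoped ContDiff Laplacian RealInnerProductSpace

namespace Vale.Agent.P134

noncomputable section

variable {n : ℕ}

/-- finite difference -/
def dl (h : E n) (f : E n → ℝ) (x : E n) : ℝ := f (x + h) - f x

/-- finite differences up to order `k` are bounded by `M ρ` -/
def Lam (ρ : E n → ℝ) : ℕ → ℝ → (E n → ℝ) → Prop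
  | 0, M, f => ∀ x, |f x| ≤ M * ρ x
  | k + 1, M, f => (∀ x, |f x| ≤ M * ρ x) ∧ ∀ h : E n, ‖h‖ ≤ 1 → Lam ρ k (M * ‖h‖) (dl h f)

/-- admissible weights -/
def Wt (a : ℝ) (ρ : E n → ℝ) : Prop :=
  (∀ x, 0 < ρ x) ∧ ∀ x y, ρ y ≤ Real.exp (a * ‖y - x‖) * ρ x

/-- algebra of the classes -/
def Q_alg : Prop := ∀ (n : ℕ) (ρ : E n → ℝ), (∀ x, 0 < ρ x) → ∀ k : ℕ,
  (∀ (M M' : ℝ) (f : E n → ℝ), M ≤ M' → Lam ρ k M f → Lam ρ k M' f) ∧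
  (∀ (M : ℝ) (f : E n → ℝ), Lam ρ (k + 1) M f → Lam ρ k M f) ∧
  (∀ (M : ℝ) (f : E n → ℝ), Lam ρ k M f → 0 ≤ M ∧ ∀ x, |f x| ≤ M * ρ x) ∧
  (∀ (M N : ℝ) (f g : E n → ℝ), Lam ρ k M f → Lam ρ k N g →
    Lam ρ k (M + N) fun x => f x + g x) ∧
  (∀ (M c : ℝ) (f : E n → ℝ), Lam ρ k M f → Lam ρ k (|c| * M) fun x => c * f x) ∧
  (∀ (B M : ℝ) (a f : E n → ℝ), Lam (fun _ => 1) k B a → Lam ρ k M f →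
    Lam ρ k (2 ^ k * B * M) fun x => a x * f x) ∧
  (∀ c : ℝ, Lam (fun _ : E n => 1) k |c| fun _ => c) ∧
  ∀ (ι : Type) (l : Filter ι) (M : ℝ) (f : ι → E n → ℝ) (g : E n → ℝ), l.NeBot →
    (∀ᶠ j in l, Lam ρ k M (f j)) → (∀ x, Tendsto (fun j => f j x) l (𝓝 (g x))) → Lam ρ k M g

/-- limits of differentiable maps with a uniform Taylor bound -/
def Q_lim : Prop := ∀ (n : ℕ) (F : Type) [NormedAddCommGroup F] [NormedSpace ℝ F] [CompleteSpace F]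
  (ι : Type) (l : Filter ι) (f : ι → E n → F) (L : ι → E n →L[ℝ] F) (g : E n → F) (x : E n)
  (M : ℝ), l.NeBot →
  (∀ᶠ j in l, ∀ h : E n, ‖h‖ ≤ 1 → ‖f j (x + h) - f j x - L j h‖ ≤ M * ‖h‖ ^ 2) →
  (∀ y, Tendsto (fun j => f j y) l (𝓝 (g y))) →
  DifferentiableAt ℝ g x ∧ Tendsto L l (𝓝 (fderiv ℝ g x))

/-- from differences to derivatives -/
def Q_sm : Prop := ∀ (n : ℕ) (ρ : E n → ℝ), (∀ x, 0 < ρ x) →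
  (∀ f : E n → ℝ, Differentiable ℝ f → (∀ k, ∃ M, Lam ρ k M f) → ContDiff ℝ ∞ f) ∧
  ∀ (k : ℕ) (M : ℝ) (f : E n → ℝ), ContDiff ℝ ∞ f → Lam ρ k M f → ∀ x,
    ‖iteratedFDeriv ℝ k f x‖ ≤ M * ρ x

/-- gradient estimate -/
def Q_ge : Prop := ∀ (n : ℕ) (a : ℝ), 0 ≤ a → ∃ C : ℝ, 1 ≤ C ∧ ∀ (w : E n → ℝ) (M : ℝ),
  ContDiff ℝ 2 w → (∀ x, |w x| ≤ M * Real.exp (a * ‖x‖) ∧ |Δ w x| ≤ M * Real.exp (a * ‖x‖)) →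
  ‖fderiv ℝ w 0‖ ≤ C * M

/-- bootstrap -/
def Q_boot : Prop := ∀ (n : ℕ) (a : ℝ), 0 ≤ a → ∃ C : ℝ, 1 ≤ C ∧ ∀ (ρ : E n → ℝ), Wt a ρ →
  ∀ (k : ℕ) (M : ℝ) (w : E n → ℝ), ContDiff ℝ 2 w → Lam ρ k M w → Lam ρ k M (Δ w) →
    Lam ρ (k + 1) (C * M) w

/-- solutions are in all classes -/
def Q_sol : Prop := ∀ n k : ℕ, ∃ M : ℝ, ∀ u : E n → ℝ, ContDiff ℝ 2 u →
  (∀ x, Δ u x = u x ^ 3 - u x) → (∀ x, |u x| ≤ 1) → Lam (fun _ => 1) k M u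

/-- limits of smooth maps with bounded derivatives -/
def Q_cpt : Prop := ∀ (n : ℕ) (F : Type) [NormedAddCommGroup F] [NormedSpace ℝ F] [CompleteSpace F]
  (ι : Type) (l : Filter ι) (f : ι → E n → F) (g : E n → F) (C : ℕ → ℝ), l.NeBot →
  (∀ j, ContDiff ℝ ∞ (f j)) → (∀ k, 1 ≤ k → ∀ j x, ‖iteratedFDeriv ℝ k (f j) x‖ ≤ C k) →
  (∀ x, Tendsto (fun j => f j x) l (𝓝 (g x))) → ContDiff ℝ ∞ g ∧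
    ∀ (k : ℕ) (x : E n), Tendsto (fun j => iteratedFDeriv ℝ k (f j) x) l
      (𝓝 (iteratedFDeriv ℝ k g x))

/-- equi-Lipschitz maps converge uniformly on compact sets -/
def Q_unif : Prop := ∀ (n : ℕ) (F : Type) [NormedAddCommGroup F] [NormedSpace ℝ F]
  (ι : Type) (l : Filter ι) (f : ι → E n → F) (g : E n → F) (C : ℝ), l.NeBot →
  (∀ j x y, ‖f j x - f j y‖ ≤ C * ‖x - y‖) → (∀ x, Tendsto (fun j => f j x) l (𝓝 (g x))) →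
  ∀ K : Set (E n), IsCompact K → TendstoUniformlyOn f g l K

/-- coordinates -/
def Q_emb : Prop := ∀ n : ℕ, (∀ y, pr n (em n y) = y) ∧ pr n (el n) = 0 ∧ ‖el n‖ = 1 ∧
  (∀ x, x = em n (pr n x) + x (Fin.last n) • el n) ∧ (∀ y, ‖em n y‖ = ‖y‖) ∧
  (∀ x, ‖pr n x‖ ≤ ‖x‖) ∧ (∀ i, em n (ev i) = ev i.castSucc) ∧
  ∀ (f : E (n + 1) → ℝ) (y : E n), ContDiff ℝ ∞ f →
    Δ (fun z => f (em n z)) y = Δ f (em n y) - dv (el n) (dv (el n) f) (em n y) ∧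
    ∀ k, ‖iteratedFDeriv ℝ k (fun z => f (em n z)) y‖ ≤ ‖iteratedFDeriv ℝ k f (em n y)‖

/-- logarithm and exponential -/
def Q_log : Prop := ∀ n : ℕ,
  (∀ (φ : E n → ℝ) (C : ℕ → ℝ), ContDiff ℝ ∞ φ → (∀ x, 0 < φ x) →
    (∀ k x, ‖iteratedFDeriv ℝ k φ x‖ ≤ C k * φ x) →
    ContDiff ℝ ∞ (fun x => Real.log (φ x)) ∧
    (∃ D : ℕ → ℝ, ∀ k, 1 ≤ k → ∀ x, ‖iteratedFDeriv ℝ k (fun x => Real.log (φ x)) x‖ ≤ D k) ∧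
    ∀ x, Δ (fun x => Real.log (φ x)) x + ‖fderiv ℝ (fun x => Real.log (φ x)) x‖ ^ 2 =
      Δ φ x / φ x) ∧
  (∀ (φ : E n → ℝ) (C : ℝ), ContDiff ℝ ∞ φ → (∀ x, 0 < φ x) →
    (∀ x, ‖fderiv ℝ φ x‖ ≤ C * φ x) → Wt C φ) ∧
  ∀ (u l : E n → ℝ) (C : ℝ), ContDiff ℝ ∞ l → (∀ x, ‖fderiv ℝ l x‖ ≤ C) →
    (∀ x, Δ l x + ‖fderiv ℝ l x‖ ^ 2 ≤ 3 * u x ^ 2 - 1) → Sup u (fun x => Real.exp (l x)) C

/-- a telescoping bound -/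
def Q_tel : Prop := ∀ (p p1 p2 : ℝ → ℝ) (C : ℝ) (N : ℕ), 1 ≤ N → (∀ s, HasDerivAt p (p1 s) s) →
  (∀ s, HasDerivAt p1 (p2 s) s) → (∀ s, |p s| ≤ C ∧ |p2 s| ≤ C) →
  |((N : ℝ) ^ 2)⁻¹ * ∑ j ∈ Finset.range (N ^ 2), p1 (N + j / N)| ≤ 3 * C / N

/-- averaging in the last variable -/
def Q_avg : Prop := ∀ (n : ℕ) (l c : E (n + 1) → ℝ) (c' : E n → ℝ) (D : ℕ → ℝ) (σ : ℝ),
  |σ| = 1 → ContDiff ℝ ∞ l → (∀ k, 1 ≤ k → ∀ x, ‖iteratedFDeriv ℝ k l x‖ ≤ D k) →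
  (∀ x, Δ l x + ‖fderiv ℝ l x‖ ^ 2 ≤ c x) →
  (∀ y, Tendsto (fun t : ℝ => c (em n y + (σ * t) • el n)) atTop (𝓝 (c' y))) →
  ∃ m : E n → ℝ, ContDiff ℝ ∞ m ∧ ∀ y, ‖fderiv ℝ m y‖ ≤ D 1 ∧
    Δ m y + ‖fderiv ℝ m y‖ ^ 2 ≤ c' y

end

end Vale.Agent.P134
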