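import Vale.Agent.P134.RIf
import Vale.Agent.P134.A2Defs

/-! P134, block R: all derivatives of `v` are bounded. -/

open Filter Topology
open scoped ContDiff Laplacian

namespace Vale.Agent.P134

variable {n : ℕ}

theorem RVbd_one (h1 : Q_alg) (h2 : Q_boot) (h3 : Q_sol) (h4 : Q_sm) (h5 : Q_log)
    {u : E n → ℝ} (hu : Nd u) {σ : ℝ} (hσ : σ ^ 2 = 1) :
    ∃ D : ℕ → ℝ, ∀ k, 1 ≤ k → ∀ x,
      ‖iteratedFDeriv ℝ k (fun x => Real.log (1 - σ * u x)) x‖ ≤ D k := by
  have hs := hu.sol.sm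
  set φ : E n → ℝ := fun x => 1 - σ * u x with hφ
  have sφ : ContDiff ℝ ∞ φ := contDiff_const.sub (contDiff_const.mul hs)
  have ha : |σ| = 1 := by rw [← sq_eq_sq₀ (abs_nonneg _) zero_le_one, sq_abs, hσ, one_pow]
  have hb : ∀ x, |σ * u x| < 1 := fun x => by rw [abs_mul, ha, one_mul]; exact hu.lt x
  have hp : ∀ x, 0 < φ x := fun x => sub_pos.2 (abs_lt.1 (hb x)).2
  have hd : ∀ x, ‖fderiv ℝ φ x‖ ≤ 2 * φ x := fun x => by
    have e : HasFDerivAt φ (-(σ • fderiv ℝ u x)) x :=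
      (((hs.differentiable (by simp) x).hasFDerivAt).const_mul σ).const_sub 1
    rw [e.fderiv, norm_neg, norm_smul, Real.norm_eq_abs, ha, one_mul]
    refine abs_le_of_sq_le_sq' ((hu.md x).trans ?_) (by have := hp x; positivity) |>.2
    have e2 : 1 - u x ^ 2 = (1 + σ * u x) * φ x := by
      simp only [hφ]; linear_combination u x ^ 2 * hσ
    have := abs_lt.1 (hb x)
    have h6 : (1 + σ * u x) ^ 2 ≤ 4 := by nlinarith
    rw [e2, mul_pow, mul_pow]
    nlinarith [sq_nonneg (φ x)]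
  have hW := (h5 n).2.1 φ 2 sφ hp hd
  have hl : Δ φ = fun x => (σ * u x + u x * u x) * φ x := by
    funext x
    have c2 : ContDiffAt ℝ 2 u x := hs.contDiffAt.of_le two_le_oo
    rw [hφ, lap_sub contDiffAt_const (contDiffAt_const.mul c2), lap_const, lap_const_mul c2,
      hu.sol.eq]
    linear_combination (u x ^ 2) * hσ
  obtain ⟨C, -, hC⟩ := h2 n 2 (by norm_num)
  have key : ∀ k, ∃ M, Lam φ k M φ := by
    intro k
    induction k with
    | zero => exact ⟨1, fun x => by rw [abs_of_pos (hp x), one_mul]⟩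
    | succ k ih =>
      obtain ⟨M, hM⟩ := ih
      obtain ⟨B, hB⟩ := h3 n k
      have hBu := hB u (hs.of_le two_le_oo) hu.sol.eq hu.sol.bd
      obtain ⟨-, -, -, a4, a5, a6, -⟩ := h1 n (fun _ => 1) (fun _ => one_pos) k
      obtain ⟨b1, -, -, -, -, b6, -⟩ := h1 n φ hp k
      have h7 := b6 _ _ _ _ (a4 _ _ _ _ (a5 _ σ _ hBu) (a6 _ _ _ _ hBu hBu)) hM
      exact ⟨_, hC φ hW k _ φ (sφ.of_le two_le_oo) (b1 _ _ _ (le_max_left _ _) hM)
        (by rw [hl]; exact b1 _ _ _ (le_max_right _ _) h7)⟩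
  choose M hM using key
  exact ((h5 n).1 φ M sφ hp fun k x => (h4 n φ hp).2 k _ φ sφ (hM k) x).2.1

theorem r_vbd (h1 : Q_alg) (h2 : Q_boot) (h3 : Q_sol) (h4 : Q_sm) (h5 : Q_log)
    {u : E n → ℝ} (hu : Nd u) (k : ℕ) (hk : 1 ≤ k) :
    ∃ C, ∀ x, ‖iteratedFDeriv ℝ k (vv u) x‖ ≤ C := by
  obtain ⟨D, hD⟩ := RVbd_one h1 h2 h3 h4 h5 hu (σ := 1) (by norm_num)
  obtain ⟨D', hD'⟩ := RVbd_one h1 h2 h3 h4 h5 hu (σ := -1) (by norm_num)
  simp only [one_mul, neg_mul, sub_neg_eq_add] at hD hD'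
  have hs := hu.sol.sm
  have s1 : ContDiff ℝ k fun x => Real.log (1 + u x) :=
    ((contDiff_const.add hs).log fun x => by have := abs_lt.1 (hu.lt x); linarith).of_le
      (by exact_mod_cast le_top)
  have s2 : ContDiff ℝ k fun x => Real.log (1 - u x) :=
    ((contDiff_const.sub hs).log fun x => by have := abs_lt.1 (hu.lt x); linarith).of_le
      (by exact_mod_cast le_top)
  refine ⟨|(√2)⁻¹| * (D' k + D k), fun x => ?_⟩
  have e : vv u = (√2)⁻¹ • ((fun x => Real.log (1 + u x)) - fun x => Real.log (1 - u x)) := by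
    funext x; simp only [vv, Pi.smul_apply, Pi.sub_apply, smul_eq_mul]; ring
  rw [e, iteratedFDeriv_const_smul_apply (show ContDiffAt ℝ k ((fun x => Real.log (1 + u x)) -
      fun x => Real.log (1 - u x)) x from (s1.sub s2).contDiffAt),
    iteratedFDeriv_sub_apply s1.contDiffAt s2.contDiffAt, norm_smul, Real.norm_eq_abs]
  exact mul_le_mul_of_nonneg_left ((norm_sub_le _ _).trans (add_le_add (hD' k hk x) (hD k hk x)))
    (abs_nonneg _)

end Vale.Agent.P134
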