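import Vale.Agent.P134.Base

/-! Interfaces between the blocks of the proof. -/

open scoped RealInnerProductSpace ContDiff ENNReal Topology Laplacian
open MeasureTheory Set Metric Filter

namespace Vale.Agent.P134.DG

/-- Affine with unit slope. -/
def Aff {n : ℕ} (v : E n → ℝ) : Prop := ∃ (e : E n) (c : ℝ), ‖e‖ = 1 ∧ ∀ x, v x = ⟪e, x⟫ + c

def S_A : Prop := ∀ (v : E 3 → ℝ) (X : E 3 → E 3) (CX : ℝ), Sol v → Cal v X CX → Aff v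

/-! Block A2. -/

def S_PW : Prop := ∀ v : E 3 → ℝ, Sol v → ∃ C, PW v C

def S_Rig : Prop := ∀ v : E 3 → ℝ, Sol v → (∀ x, th v x = 0) → Aff v

def S_PId : Prop := ∀ (v : E 3 → ℝ) (X : E 3 → E 3) (CX : ℝ), Sol v → Cal v X CX →
  ∀ χ : E 3 → ℝ, ContDiff ℝ 1 χ → HasCompactSupport χ → (∀ x, 0 ≤ χ x) →
  ∫ x, χ x * mm v x ≤ ∫ x, ⟪gradient χ x, Yin v X x⟫

def S_Cut : Prop := ∃ C, 0 < C ∧ ∀ d : E 3 → ℝ, LipschitzWith 1 d → ∀ a : ℝ, ∃ χ : E 3 → ℝ,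
  ContDiff ℝ ∞ χ ∧ (∀ x, 0 ≤ χ x ∧ χ x ≤ 1) ∧ (∀ x, d x ≤ a → χ x = 1) ∧
    (∀ x, a + 1 ≤ d x → χ x = 0) ∧ ∀ x,
      ‖gradient χ x‖ ≤ C ∧ (d x < a ∨ a + 1 < d x → gradient χ x = 0)

def S_Om : Prop := ∃ C, 0 < C ∧ ∀ (x₀ : E 3) (R W : ℝ), 1 ≤ W → ∃ om : E 3 → ℝ,
  ContDiff ℝ ∞ om ∧ HasCompactSupport om ∧ (∀ x, 0 ≤ om x ∧ om x ≤ 1) ∧
    (∀ x ∈ ball x₀ R, om x = 1) ∧ (∀ x, x ∉ ball x₀ (R + W) → om x = 0) ∧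
    ∀ x, ‖gradient om x‖ ≤ C / W ∧ (x ∉ closedBall x₀ (R + W) → gradient om x = 0)

/-! Block A0. -/

def S_Surf : Prop := ∀ (v : E 3 → ℝ) O (ε : ℝ), Sol v → Good v O ε → 0 < ε → ε ≤ 1 / 10000 →
  ∃ σ, Surf v O σ

def S_Alg : Prop := ∀ (v : E 3 → ℝ) (y : E 3), Sol v → th v y ≤ 1 / 2 →
  ‖NN v y‖ = 1 ∧ ContDiffAt ℝ ∞ (NN v) y ∧ ContDiffAt ℝ ∞ (SS v) y ∧ SS v y (NN v y) = 0 ∧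
  (∀ a b, ⟪SS v y a, b⟫ = ⟪a, SS v y b⟫) ∧ (∀ a, fderiv ℝ (NN v) y (Pr v y a) = SS v y a) ∧
  (∀ a, ⟪NN v y, SS v y a⟫ = 0) ∧ (∀ a, ‖SS v y a‖ ^ 2 ≤ fro (SS v y) * ‖a‖ ^ 2) ∧
  fro (SS v y) ≤ 6 * ‖iteratedFDeriv ℝ 2 v y‖ ^ 2 ∧ HH v y ^ 2 ≤ 3 * fro (SS v y) ∧
  ‖fderiv ℝ (NN v) y‖ ≤ 2 * ‖iteratedFDeriv ℝ 2 v y‖ ∧
  (v y = 0 → HH v y * ‖gradient v y‖ = -⟪MM v y (NN v y), NN v y⟫) ∧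
  ∀ t : ℝ, t ^ 2 * fro (SS v y) < 1 / 400 →
    (∀ a, Bi v (y, t) (a + t • SS v y a) = a) ∧
    (∀ a, Bi v (y, t) a + t • SS v y (Bi v (y, t) a) = a) ∧
    (∀ a b, ⟪Bi v (y, t) a, b⟫ = ⟪a, Bi v (y, t) b⟫) ∧ Bi v (y, t) (NN v y) = NN v y ∧
    (∀ a, Pr v y (Bi v (y, t) a) = Bi v (y, t) (Pr v y a)) ∧
    (∀ a, ‖Bi v (y, t) a‖ ≤ 20 / 19 * ‖a‖) ∧ ContDiffAt ℝ ∞ (Bi v) (y, t) ∧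
    9 / 10 ≤ JJ v (y, t) ∧ JJ v (y, t) ≤ 10 / 9 ∧
    LinearMap.det ((1 + t • SS v y : E 3 →L[ℝ] E 3) : E 3 →ₗ[ℝ] E 3) = JJ v (y, t) ∧
    (∀ a, fderiv ℝ (FF v) (y, t) (DI v (y, t) a) = a) ∧
    (∑ i, ⟪ev i, SS v y (Bi v (y, t) (ev i))⟫) * JJ v (y, t) = HH v y + 2 * t * KK v y ∧
    ∀ h : E 3 × ℝ → ℝ, DifferentiableAt ℝ h (y, t) →
      gr v h (y, t) = Bi v (y, t) (Pr v y (gradient (fun x => h (x, t)) y)) +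
        deriv (fun s => h (y, s)) t • NN v y

def S_Inj : Prop := ∀ (v : E 3 → ℝ) O (ε L : ℝ), Sol v → Good v O ε → 0 < ε → ε ≤ 1 / 10000 →
  ε * L ≤ 1 / 100 → ∀ y₀ ∈ O, v y₀ = 0 →
  InjOn (FF v) {z | z.1 ∈ ball y₀ 3 ∧ v z.1 = 0 ∧ |z.2| ≤ L}

def S_AF : Prop := ∀ (v : E 3 → ℝ) O ε σ, Ctx v O ε σ → ∀ D : Set (E 3 × ℝ), MeasurableSet D →
  D ⊆ Om v O → (∀ z ∈ D, v z.1 = 0) → ∀ Φ : E 3 → ℝ≥0∞, Measurable Φ →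
  (∀ T, MeasurableSet T → T ⊆ FF v '' D → ∫⁻ x in T, Φ x ≤
      ∫⁻ z in D, Φ (FF v z) * ENNReal.ofReal (JJ v z) ∂(σ.prod volume)) ∧
    (InjOn (FF v) D → MeasurableSet (FF v '' D) ∧ ∫⁻ x in FF v '' D, Φ x =
      ∫⁻ z in D, Φ (FF v z) * ENNReal.ofReal (JJ v z) ∂(σ.prod volume))

def S_DV : Prop := ∀ (v : E 3 → ℝ) O ε σ, Ctx v O ε σ → ∀ G : E 3 × ℝ → E 3,
  ContDiffOn ℝ 1 G (Om v O) → CptO v O G →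
  ∫ z in Om v O, dO v G z * JJ v z ∂(σ.prod volume) = 0

/-! Block A1. -/

def S_RS : Prop := ∀ (v : E 3 → ℝ) (C₀ : ℝ), PW v C₀ → ∃ C c ε₀ : ℝ, 0 < C ∧ 0 < c ∧ 0 < ε₀ ∧
  ∀ O ε σ X CX, Ctx v O ε σ → Cal v X CX → (∀ x, 0 < th v x) →
  ∀ (τ η : E 3 → ℝ) (Λ L : ℝ), ContDiff ℝ 1 τ → (∀ x, 0 ≤ τ x ∧ τ x ≤ 1) →
  (∀ x, ‖gradient τ x‖ ≤ Λ) → ContDiff ℝ 1 η → HasCompactSupport η →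
  tsupport η ∩ {y | v y = 0} ⊆ O → 2 ≤ L → ε * L ^ 2 ≤ ε₀ →
  s0 * (∫ y, τ y * |KK v y| * η y ^ 2 ∂σ) + c * ∫ y, τ y * th v y * η y ^ 2 ∂σ ≤
    13 / 10 * s0 * (∫ y, τ y * ‖Pr v y (gradient η y)‖ ^ 2 ∂σ) + YT v σ X L τ η +
      C * (∫ y, DD v τ y * (th v y * η y ^ 2 + ‖Pr v y (gradient η y)‖ ^ 2) ∂σ) +
      C * (∫ y, DGr v τ y * th v y * η y ^ 2 ∂σ) + C * (1 + CX) * ∫ y, DT v τ L y * η y ^ 2 ∂σ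

/-! Block A3. -/

def S_Pog : Prop := ∀ (v : E 3 → ℝ) (C₀ : ℝ), Sol v → PW v C₀ → ∃ C ε₀ : ℝ, 0 < C ∧ 0 < ε₀ ∧ ∀ O ε σ, Ctx v O ε σ →
  ε ≤ ε₀ → ∀ d : E 3 → ℝ, LipschitzWith 1 d → ∀ ρ ℓ : ℝ, 10 ≤ ℓ →
  (∀ y, v y = 0 → ρ - 10 < d y → y ∈ O) → ∃ f : E 3 → ℝ, ContDiff ℝ 1 f ∧
    (∀ y, v y = 0 → ρ - 5 < d y → ‖Pr v y (gradient f y)‖ ≤ 21 / 20 ∧
      (d y ≤ ρ + 1 / 2 → f y ≤ 3) ∧ (f y < ℓ + 1 → d y ≤ ρ + f y + 3)) ∧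
    ∀ s, 10 ≤ s → s ≤ ℓ → ∀ (x₀ : E 3) (R : ℝ),
      ∫ y in {y | ρ < d y} ∩ ball x₀ R, 12 / s ^ 2 * max (1 - (f y + 1) / s) 0 ^ 2 ∂σ ≤
        C * volume.real ({y | d y ≤ ρ + 10} ∩ ball x₀ (R + 2 * s)) +
        ∫ y in {y | ρ < d y ∧ 4 < f y} ∩ ball x₀ (R + 2 * s),
          |KK v y| * max (1 - (f y - 1) / s) 0 ^ 4 ∂σ

end Vale.Agent.P134.DG
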