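import Vale.Agent.P134.FStm

/-! The reduced stability inequality before the choice of the test function. -/

open scoped RealInnerProductSpace ContDiff ENNReal Topology Laplacian
open MeasureTheory Set Metric Filter

namespace Vale.Agent.P134.DG

theorem rs0_pf (hA : S_Alg) (hM : F_Meas) (hG : T_G) (hR : T_Rule) (hP : T_Pt) (hT : F_Tan)
    (hN : F_Int) (hD : S_DV) : T_RS0 := by
  intro v O ε σ X CX hc hX τ hτ τ0 b hb ⟨K, K1, K2, K3⟩
  have le1 : (1 : WithTop ℕ∞) ≤ ((⊤ : ℕ∞) : WithTop ℕ∞) :=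
    WithTop.coe_le_coe.2 (le_top (a := (1 : ℕ∞)))
  obtain ⟨op, cF, cJ, cJt, cN, cK, -, cgr, cdO⟩ := (hM v hc.sol).2.2.2.2.2.2.2.2 O ε hc.good
  replace cF := cF.of_le le1
  replace cJ := cJ.of_le le1
  replace cJt := cJt.of_le le1
  replace cN := cN.of_le le1
  have cg : ContDiff ℝ 1 gg := hG.2.2.1.of_le le1
  have cg1 : ContDiffOn ℝ 1 (fun z : E 3 × ℝ => g1 z.2) (Om v O) :=
    ((hG.2.2.2.1.of_le le1).comp contDiff_snd).contDiffOn
  have cg2 : ContDiffOn ℝ 1 (fun z : E 3 × ℝ => gg z.2) (Om v O) :=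
    (cg.comp contDiff_snd).contDiffOn
  have J0 : ∀ z ∈ Om v O, 2 * JJ v z ≠ 0 := fun z hz => by
    have := ((hA v z.1 hc.sol (hc.good.th_le _ hz.1)).2.2.2.2.2.2.2.2.2.2.2.2 z.2
      hz.2).2.2.2.2.2.2.2.1
    have e : JJ v (z.1, z.2) = JJ v z := rfl
    linarith
  have cτ : ContDiffOn ℝ 1 (fun z => τ (FF v z)) (Om v O) := hτ.comp_contDiffOn cF
  have cY : ContDiffOn ℝ 1 (Yb v X b) (Om v O) :=
    (hb.pow 2).smul (((cg1.pow 2).smul ((hX.sm.comp_contDiffOn cF).add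
      ((contDiffOn_const.mul cg2).smul cN))).add
      ((((cg1.pow 2).mul cJt).div (contDiffOn_const.mul cJ) J0).smul cN))
  have cG : ContDiffOn ℝ 1 (fun z => τ (FF v z) • Yb v X b z) (Om v O) := cτ.smul cY
  have da : ∀ {F : Type} [NormedAddCommGroup F] [NormedSpace ℝ F] {f : E 3 × ℝ → F},
      ContDiffOn ℝ 1 f (Om v O) → ∀ z ∈ Om v O, DifferentiableAt ℝ f z := fun h z hz =>
    (h.contDiffAt (op.mem_nhds hz)).differentiableAt one_ne_zero
  have ru := fun z (hz : z ∈ Om v O) => hR v z hc.sol (hc.good.th_le _ hz.1) hz.2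
  have Y0 : ∀ z, v z.1 = 0 → z ∉ K → Yb v X b z = 0 := fun z h1 h2 => by
    rw [Yb, K3 z h1 h2, zero_pow two_ne_zero, zero_smul]
  have G0 : ∀ z, v z.1 = 0 → z ∉ K → τ (FF v z) • Yb v X b z = 0 := fun z h1 h2 => by
    rw [Y0 z h1 h2, smul_zero]
  have nK : ∀ z, z ∉ K → ∀ᶠ z' in 𝓝 z, z' ∉ K := fun z hz =>
    K1.isClosed.isOpen_compl.mem_nhds hz
  have gτ : Continuous (gradient τ) :=
    (InnerProductSpace.toDual ℝ (E 3)).symm.continuous.comp (hτ.continuous_fderiv one_ne_zero)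
  obtain ⟨-, -, -, hI⟩ := hN v O ε σ hc
  obtain ⟨i1, e1, j1⟩ := hI (fun z => τ (FF v z) * g1 z.2 ^ 2 * b z ^ 2 *
      (-KK v z.1 + 3 * (gg z.2 ^ 2 - gg (v (FF v z)) ^ 2) * JJ v z))
    (((cτ.mul (cg1.pow 2)).mul (hb.pow 2)).continuousOn.mul (cK.continuousOn.neg.add
      ((contDiffOn_const.mul ((cg2.pow 2).sub ((cg.comp_contDiffOn
        ((hc.sol.smooth.of_le le1).comp_contDiffOn cF)).pow 2))).mul cJ).continuousOn))
    ⟨K, K1, K2, fun z h1 h2 => by simp [K3 z h1 h2]⟩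
  obtain ⟨i2, e2, j2⟩ := hI ((Om v O).indicator fun z => τ (FF v z) * g1 z.2 ^ 2 *
      (JJ v z * ‖gr v b z‖ ^ 2 + b z * deriv (fun s => b (z.1, s)) z.2 * Jt v z))
    (((cτ.mul (cg1.pow 2)).continuousOn.mul ((cJ.continuousOn.mul ((cgr b hb).norm.pow 2)).add
      ((hb.continuousOn.mul ((cgr b hb).inner (𝕜 := ℝ) cN.continuousOn)).mul
        cJt.continuousOn))).congr
      fun z hz => by
        rw [indicator_of_mem hz, ← (ru z hz).2.2.2.2.2.2.2 b (da hb z hz)]
        rfl)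
    ⟨K, K1, K2, fun z h1 h2 => by
      by_cases hz : z ∈ Om v O
      · have := (hT v O ε hc.sol hc.good z hz h1).2 b (da hb z hz)
          ((nK z h2).mono fun z' a b => K3 z' b a)
        rw [indicator_of_mem hz, this, K3 z h1 h2]
        simp
      · exact indicator_of_notMem hz _⟩
  obtain ⟨i3, e3, j3⟩ := hI (fun z => ⟪gradient τ (FF v z), Yb v X b z⟫ * JJ v z)
    (((gτ.comp_continuousOn cF.continuousOn).inner (𝕜 := ℝ) cY.continuousOn).mul
      cJ.continuousOn)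
    ⟨K, K1, K2, fun z h1 h2 => by simp [Y0 z h1 h2]⟩
  obtain ⟨i4, -, -⟩ := hI ((Om v O).indicator fun z =>
      dO v (fun z => τ (FF v z) • Yb v X b z) z * JJ v z)
    (((cdO _ cG).mul cJ.continuousOn).congr fun z hz => indicator_of_mem hz _)
    ⟨K, K1, K2, fun z h1 h2 => by
      by_cases hz : z ∈ Om v O
      · have := (hT v O ε hc.sol hc.good z hz h1).1 _ (da cG z hz)
          ((nK z h2).mono fun z' a b => G0 z' b a)
        rw [indicator_of_mem hz, this, zero_mul]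
      · exact indicator_of_notMem hz _⟩
  refine ⟨?_, j1, j2, j3⟩
  have m := setIntegral_mono_on ((integrable_indicator_iff op.measurableSet).1 i4)
    (((i2.sub i1).add i3).integrableOn) op.measurableSet fun z hz => by
      have a := mul_le_mul_of_nonneg_left (hP v O ε X CX hc.sol hc.good hX z hz b (da hb z hz))
        (τ0 (FF v z))
      rw [(ru z hz).1 _ _ (da cτ z hz) (da cY z hz),
        (ru z hz).2.2.2.1 τ (hτ.differentiable one_ne_zero _)]
      simp only [Pi.add_apply, Pi.sub_apply, indicator_of_mem hz]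
      linarith
  rw [hD v O ε σ hc _ cG ⟨K, K1, K2, G0⟩,
    integral_add' (i2.sub i1).integrableOn i3.integrableOn,
    integral_sub' i2.integrableOn i1.integrableOn, e1, e2, e3] at m
  linarith

end Vale.Agent.P134.DG
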